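import Crest.Agent.R288.Fdef

/-!
# R288: the edit distance satisfies `FOk`
-/

set_option autoImplicit false

namespace Crest.Agent.R288

open Crest.GraphRAM

section Ed

variable {β : Type} [DecidableEq β]

theorem fa_nil_left (v : List β) : editDist [] v = v.length := rfl

theorem fa_nil_right (u : List β) : editDist u [] = u.length := by cases u <;> rfl

theorem fa_cons_cons (a b : β) (u v : List β) : editDist (a :: u) (b :: v) =
    min (editDist u v + if a = b then 0 else 1) (min (editDist (a :: u) v + 1) (editDist u (b :: v) + 1)) := rfl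

theorem fa_ins (b : β) (u v : List β) : editDist u (b :: v) ≤ editDist u v + 1 := by
  cases u with
  | nil => exact le_rfl
  | cons a u => rw [fa_cons_cons]; omega

theorem fa_del (a : β) (u v : List β) : editDist (a :: u) v ≤ editDist u v + 1 := by
  cases v with
  | nil => simp [fa_nil_right]
  | cons b v => rw [fa_cons_cons]; omega

theorem fa_append (u u' v v' : List β) : editDist (u ++ u') (v ++ v') ≤ editDist u v + editDist u' v' := by
  induction u generalizing v with
  | nil =>
    induction v with
    | nil => simp [fa_nil_left]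
    | cons b v ih =>
      have := fa_ins b u' (v ++ v')
      simp only [List.nil_append, List.cons_append, fa_nil_left, List.length_cons] at ih ⊢
      omega
  | cons a u ihu =>
    induction v with
    | nil =>
      have h1 := fa_del a (u ++ u') v'
      have h2 := ihu []
      simp only [List.nil_append, List.cons_append, fa_nil_right, List.length_cons] at h2 ⊢
      omega
    | cons b v ih =>
      have h1 := ihu v
      have h2 := ihu (b :: v)
      simp only [List.cons_append, fa_cons_cons] at ih h2 ⊢
      omega

theorem fa_split (u u' v : List β) :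
    ∃ v₁ v₂, v = v₁ ++ v₂ ∧ editDist u v₁ + editDist u' v₂ ≤ editDist (u ++ u') v := by
  induction u generalizing v with
  | nil => exact ⟨[], v, rfl, by simp [fa_nil_left]⟩
  | cons a u ihu =>
    induction v with
    | nil => exact ⟨[], [], rfl, by simp only [fa_nil_right, List.length_append]; rfl⟩
    | cons b v ih =>
      rw [List.cons_append, fa_cons_cons]
      rcases min_choice (editDist (u ++ u') v + if a = b then 0 else 1)
        (min (editDist (a :: (u ++ u')) v + 1) (editDist (u ++ u') (b :: v) + 1)) with h | h
      · obtain ⟨v₁, v₂, rfl, h1⟩ := ihu v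
        exact ⟨b :: v₁, v₂, rfl, by rw [h, fa_cons_cons]; omega⟩
      · rcases min_choice (editDist (a :: (u ++ u')) v + 1) (editDist (u ++ u') (b :: v) + 1) with h' | h'
        · obtain ⟨v₁, v₂, rfl, h1⟩ := ih
          have := fa_ins b (a :: u) v₁
          rw [List.cons_append] at h1
          exact ⟨b :: v₁, v₂, rfl, by rw [h, h']; omega⟩
        · obtain ⟨v₁, v₂, h0, h1⟩ := ihu (b :: v)
          have := fa_del a u v₁
          exact ⟨v₁, v₂, h0, by rw [h, h']; omega⟩

theorem fa_uncons (b : β) (u v : List β) : editDist u v ≤ editDist u (b :: v) + 1 := by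
  induction u with
  | nil => simp only [fa_nil_left, List.length_cons]; omega
  | cons a u ih =>
    have := fa_del a u v
    rw [fa_cons_cons]
    omega

theorem fa_pre (u w v : List β) : editDist u v ≤ editDist u (w ++ v) + w.length := by
  induction w with
  | nil => simp
  | cons b w ih =>
    have := fa_uncons b u (w ++ v)
    simp only [List.cons_append, List.length_cons]
    omega

theorem fa_len1 (u v : List β) : u.length ≤ editDist u v + v.length := by
  simpa [fa_nil_right] using fa_pre u v []

theorem fa_post (u v w : List β) : editDist u v ≤ editDist u (v ++ w) + w.length := by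
  induction u generalizing v with
  | nil => simp only [fa_nil_left, List.length_append]; omega
  | cons a u ihu =>
    induction v with
    | nil => simpa [fa_nil_right] using fa_len1 (a :: u) w
    | cons b v ih =>
      have h1 := ihu v
      have h2 := ihu (b :: v)
      simp only [List.cons_append, fa_cons_cons] at ih h2 ⊢
      omega

theorem fa_len2 (u v : List β) : v.length ≤ editDist u v + u.length := by
  induction u generalizing v with
  | nil => simp [fa_nil_left]
  | cons a u ihu =>
    induction v with
    | nil => simp
    | cons b v ih =>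
      have h1 := ihu v
      have h2 := ihu (b :: v)
      simp only [fa_cons_cons, List.length_cons] at ih h2 ⊢
      omega

theorem fa_max (u v : List β) : editDist u v ≤ max u.length v.length := by
  induction u generalizing v with
  | nil => simp [fa_nil_left]
  | cons a u ihu =>
    cases v with
    | nil => simp [fa_nil_right]
    | cons b v =>
      have h1 := ihu v
      simp only [fa_cons_cons, List.length_cons]
      split_ifs <;> omega

theorem fa_single (s b : β) (v : List β) : editDist [s] (b :: v) = v.length + if s ∈ b :: v then 0 else 1 := by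
  induction v generalizing b with
  | nil =>
    simp only [fa_cons_cons, fa_nil_left, fa_nil_right, List.length_cons, List.length_nil, List.mem_singleton]
    split_ifs <;> omega
  | cons c v ih =>
    rw [fa_cons_cons, ih]
    simp only [fa_nil_left, List.length_cons, List.mem_cons (b := b)]
    by_cases h1 : s = b <;> by_cases h2 : s ∈ c :: v <;> simp only [h1, h2, if_true, if_false, true_or, or_true,
      or_self] <;> (try split_ifs) <;> omega

theorem fa_map (u v : List β) : editDist (u.map some) (v.map some) = editDist u v := by
  induction u generalizing v with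
  | nil => simp [fa_nil_left]
  | cons a u ihu =>
    induction v with
    | nil => simp [fa_nil_right]
    | cons b v ih =>
      have h1 := ihu v
      have h2 := ihu (b :: v)
      simp only [List.map_cons, fa_cons_cons, Option.some.injEq] at ih h2 ⊢
      rw [h1, h2, ih]

end Ed

theorem fa_ylen (y : List ℕ) (a c : ℤ) : (ysub y a c).length = (c - a).toNat := by simp [ysub]

theorem fa_yapp (y : List ℕ) {a b c : ℤ} (h1 : a ≤ b) (h2 : b ≤ c) : ysub y a c = ysub y a b ++ ysub y b c := by
  rw [ysub, show (c - a).toNat = (b - a).toNat + (c - b).toNat by omega, List.range_add, List.map_append,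
    List.map_map]
  congr 1
  refine List.map_congr_left fun j _ => ?_
  simp only [Function.comp]
  congr 1
  omega

/-- `Fx` as a function of the substring -/
def faG (y : List ℕ) (u : List (Option ℕ)) (a c : ℤ) : ℕ :=
  if a ≤ c then editDist u (ysub y a c) else u.length + (a - c).toNat

theorem fa_lipc (y : List ℕ) (u : List (Option ℕ)) (a : ℤ) {c c' : ℤ} (h : c ≤ c') :
    faG y u a c' ≤ faG y u a c + (c' - c).toNat ∧ faG y u a c ≤ faG y u a c' + (c' - c).toNat := by
  unfold faG
  split_ifs with h1 h2 h2
  · have a1 := fa_append u [] (ysub y a c) (ysub y c c')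
    have a2 := fa_post u (ysub y a c) (ysub y c c')
    rw [List.append_nil, fa_nil_left] at a1
    rw [← fa_yapp y h2 h, fa_ylen] at a1 a2
    exact ⟨a1, a2⟩
  · have a1 := fa_max u (ysub y a c')
    have a2 := fa_len1 u (ysub y a c')
    rw [fa_ylen] at a1 a2
    omega
  · omega
  · omega

theorem fa_lipa (y : List ℕ) (u : List (Option ℕ)) (c : ℤ) {a a' : ℤ} (h : a ≤ a') :
    faG y u a' c ≤ faG y u a c + (a' - a).toNat ∧ faG y u a c ≤ faG y u a' c + (a' - a).toNat := by
  unfold faG
  split_ifs with h1 h2 h2
  · have a1 := fa_append [] u (ysub y a a') (ysub y a' c)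
    have a2 := fa_pre u (ysub y a a') (ysub y a' c)
    rw [List.nil_append, fa_nil_left] at a1
    rw [← fa_yapp y h h1, fa_ylen] at a1 a2
    omega
  · omega
  · have a1 := fa_max u (ysub y a c)
    have a2 := fa_len1 u (ysub y a c)
    rw [fa_ylen] at a1 a2
    omega
  · omega

theorem fa_lip (y : List ℕ) (u : List (Option ℕ)) (a c a' c' : ℤ) :
    faG y u a c ≤ faG y u a' c' + (a - a').natAbs + (c - c').natAbs := by
  have h1 : faG y u a c ≤ faG y u a' c + (a - a').natAbs := by
    rcases le_total a a' with h | h
    · have := (fa_lipa y u c h).2; omega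
    · have := (fa_lipa y u c h).1; omega
  have h2 : faG y u a' c ≤ faG y u a' c' + (c - c').natAbs := by
    rcases le_total c c' with h | h
    · have := (fa_lipc y u a' h).2; omega
    · have := (fa_lipc y u a' h).1; omega
  omega

theorem fa_sub (y : List ℕ) (u u' : List (Option ℕ)) (a b c : ℤ) :
    faG y (u ++ u') a c ≤ faG y u a b + faG y u' b c := by
  have k1 : faG y (u ++ u') a c ≤ u.length + faG y u' a c := by
    unfold faG
    split_ifs
    · simpa [fa_nil_right] using fa_append u u' [] (ysub y a c)
    · rw [List.length_append]; omega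
  have k2 : faG y (u ++ u') a c ≤ faG y u a c + u'.length := by
    unfold faG
    split_ifs
    · simpa [fa_nil_right] using fa_append u u' (ysub y a c) []
    · rw [List.length_append]; omega
  by_cases h1 : a ≤ b
  · by_cases h2 : b ≤ c
    · simp only [faG, h1, h2, h1.trans h2, if_true, fa_yapp y h1 h2]
      exact fa_append _ _ _ _
    · have := fa_lip y u a c a b
      have e : faG y u' b c = u'.length + (b - c).toNat := if_neg h2
      omega
  · have := fa_lip y u' a c b c
    have e : faG y u a b = u.length + (a - b).toNat := if_neg h1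
    omega

theorem fa_spl (y : List ℕ) (u u' : List (Option ℕ)) (a c : ℤ) :
    ∃ b, faG y u a b + faG y u' b c ≤ faG y (u ++ u') a c := by
  by_cases h : a ≤ c
  · obtain ⟨v₁, v₂, h1, h2⟩ := fa_split u u' (ysub y a c)
    have h3 := congrArg List.length h1
    rw [fa_ylen, List.length_append] at h3
    have h4 : a ≤ a + v₁.length := by omega
    have h5 : a + v₁.length ≤ c := by omega
    obtain ⟨h6, h7⟩ := List.append_inj ((fa_yapp y h4 h5).symm.trans h1) (by rw [fa_ylen]; omega)
    refine ⟨a + v₁.length, ?_⟩
    simp only [faG, h, h4, h5, if_true, h6, h7]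
    exact h2
  · refine ⟨a, ?_⟩
    simp only [faG, h, le_refl, if_true, if_false, ysub, sub_self, Int.toNat_zero, List.range_zero, List.map_nil,
      fa_nil_right, List.length_append]
    omega

theorem fa_xlen (x : List ℕ) {l r : ℕ} (h : r ≤ x.length) : (xsub x l r).length = r - l := by
  simp only [xsub, List.length_map, List.length_take, List.length_drop]
  omega

theorem fa_xapp (x : List ℕ) {l m r : ℕ} (h1 : l ≤ m) (h2 : m ≤ r) : xsub x l r = xsub x l m ++ xsub x m r := by
  rw [xsub, show r - l = (m - l) + (r - m) by omega, List.take_add, List.map_append, List.drop_drop,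
    show l + (m - l) = m by omega]
  rfl

theorem fa_FF (x y : List ℕ) (e i : ℕ) (α γ : ℤ) : FF x y e i α γ =
    faG y (xsub x (pos x.length e i) (pos x.length e (i + 1))) (pos x.length e i + α) (pos x.length e (i + 1) + γ) := by
  rw [FF, Fx, faG, fa_xlen x (r := pos x.length e (i + 1)) (min_le_right _ _)]

theorem fa_pos (n e i : ℕ) : pos n e i ≤ pos n e (i + 1) ∧ pos n e (i + 1) ≤ pos n e i + 2 ^ e ∧
    pos n e (i + 1) ≤ n ∧ pos n (e + 1) i = pos n e (2 * i) := by
  simp only [pos, add_mul, one_mul, show i * 2 ^ (e + 1) = 2 * i * 2 ^ e by ring]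
  generalize 2 ^ e = t
  exact ⟨by omega, by omega, by omega, trivial⟩

/-- First prove the usual facts on `editDist` (recurrence, `editDist (u ++ u') (v ++ v') ≤ …`, every
`editDist (u ++ u') v` splits `v`, adding or deleting one symbol at either end of `v` changes the distance
by at most one, `| |u| - |v| | ≤ editDist u v ≤ max |u| |v|`), then treat the reversed case `c < a`.
Note `pos nx (e+1) i = pos nx e (2 i)` and `pos nx e (i+1) - pos nx e i ≤ 2^e`. -/
theorem FF_ok (x y : List ℕ) : FOk (FF x y) := by
  have key : ∀ e i α γ, FF x y (e + 1) i α γ =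
      faG y (xsub x (pos x.length e (2 * i)) (pos x.length e (2 * i + 1)) ++
        xsub x (pos x.length e (2 * i + 1)) (pos x.length e (2 * i + 1 + 1))) (pos x.length e (2 * i) + α)
        (pos x.length e (2 * i + 1 + 1) + γ) := fun e i α γ => by
    rw [fa_FF, (fa_pos _ e i).2.2.2, (fa_pos _ e (i + 1)).2.2.2, ← fa_xapp x (fa_pos _ _ _).1 (fa_pos _ _ _).1]
    rfl
  refine ⟨fun e i α γ α' γ' => ?_, fun e i α γ m => ?_, fun e i α γ => ?_, fun e i α γ => ?_, fun e i α γ => ?_⟩
  · rw [fa_FF, fa_FF]
    simpa using fa_lip y _ (pos x.length e i + α) (pos x.length e (i + 1) + γ) (pos x.length e i + α')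
      (pos x.length e (i + 1) + γ')
  · rw [key, fa_FF, fa_FF]
    exact fa_sub _ _ _ _ _ _
  · rw [key]
    obtain ⟨b, hb⟩ := fa_spl y _ _ (pos x.length e (2 * i) + α) (pos x.length e (2 * i + 1 + 1) + γ)
    refine ⟨b - pos x.length e (2 * i + 1), ?_⟩
    rw [fa_FF, fa_FF, add_sub_cancel]
    exact hb
  · obtain ⟨h1, h2, h3, -⟩ := fa_pos x.length e i
    rw [FF, Fx]
    split_ifs
    · have a1 := fa_len1 (xsub x (pos x.length e i) (pos x.length e (i + 1)))
        (ysub y (pos x.length e i + α) (pos x.length e (i + 1) + γ))
      have a2 := fa_len2 (xsub x (pos x.length e i) (pos x.length e (i + 1)))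
        (ysub y (pos x.length e i + α) (pos x.length e (i + 1) + γ))
      rw [fa_xlen x h3, fa_ylen] at a1 a2
      omega
    · omega
  · obtain ⟨h1, h2, h3, -⟩ := fa_pos x.length e i
    rw [FF, Fx]
    split_ifs
    · have a1 := fa_max (xsub x (pos x.length e i) (pos x.length e (i + 1)))
        (ysub y (pos x.length e i + α) (pos x.length e (i + 1) + γ))
      rw [fa_xlen x h3, fa_ylen] at a1
      omega
    · omega

theorem FF_root (x y : List ℕ) {e : ℕ} (he : x.length ≤ 2 ^ e) :
    FF x y e 0 0 ((y.length : ℤ) - x.length) = editDist x y := by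
  have h1 : pos x.length e 0 = 0 := by simp [pos]
  have h2 : pos x.length e (0 + 1) = x.length := by simp [pos, he]
  have h3 : xsub x 0 x.length = x.map some := by simp [xsub]
  have h4 : ysub y 0 y.length = y.map some := by
    refine List.ext_getElem (by simp [ysub]) fun j a b => ?_
    simp only [List.length_map] at b
    simp [ysub, ysym, b]
  rw [FF, h1, h2, add_sub_cancel, Fx, Nat.cast_zero, add_zero, if_pos (Int.natCast_nonneg _), h3, h4, fa_map]

open Classical in
/-- The cost of a leaf. -/
theorem FF_leaf (x y : List ℕ) (i : ℕ) (α γ : ℤ) :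
    FF x y 0 i α γ = if x.length ≤ i then (γ - α).natAbs else
      if α ≤ γ then (γ - α).natAbs +
        (if ∃ z : ℤ, α ≤ z ∧ z ≤ γ ∧ ysym y (i + z) = x[i]? then 0 else 1)
      else (γ - α).natAbs := by
  rw [FF, Fx]
  simp only [pos, pow_zero, mul_one]
  by_cases h : x.length ≤ i
  · rw [if_pos h, min_eq_right h, min_eq_right (by omega), show xsub x x.length x.length = [] by simp [xsub],
      fa_nil_left, fa_ylen]
    split_ifs <;> omega
  · have h0 : i < x.length := not_le.1 h
    have h1 : xsub x i (i + 1) = [x[i]?] := by
      rw [xsub, Nat.add_sub_cancel_left, List.drop_eq_getElem_cons h0, List.getElem?_eq_getElem h0]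
      rfl
    rw [if_neg h, min_eq_left h0.le, min_eq_left h0, h1]
    by_cases h2 : α ≤ γ
    · have h3 := fa_ylen y (i + α) ((i + 1 : ℕ) + γ)
      have h4 : x[i]? ∈ ysub y (i + α) ((i + 1 : ℕ) + γ) ↔ ∃ z : ℤ, α ≤ z ∧ z ≤ γ ∧ ysym y (i + z) = x[i]? := by
        simp only [ysub, List.mem_map, List.mem_range]
        constructor
        · rintro ⟨j, a1, a2⟩
          exact ⟨α + j, by omega, by omega, by rw [← add_assoc, a2]⟩
        · rintro ⟨z, a1, a2, a3⟩
          exact ⟨(z - α).toNat, by omega, by rw [← a3]; congr 1; omega⟩
      rw [if_pos (by omega), if_pos h2]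
      rcases hv : ysub y (i + α) ((i + 1 : ℕ) + γ) with _ | ⟨b, v⟩
      · rw [hv, List.length_nil] at h3
        exact absurd h3 (by omega)
      · rw [hv] at h3 h4
        rw [List.length_cons] at h3
        rw [fa_single, show v.length = (γ - α).natAbs by omega]
        simp only [h4]
    · rw [if_neg h2]
      split_ifs
      · have h3 := fa_ylen y (i + α) ((i + 1 : ℕ) + γ)
        rw [List.eq_nil_of_length_eq_zero (h3.trans (by omega)), fa_nil_right, List.length_singleton]
        omega
      · omega

theorem editDist_self (x : List ℕ) : editDist x x = 0 := by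
  induction x with
  | nil => rfl
  | cons a x ih => simp [fa_cons_cons, ih]

theorem editDist_le_add (x y : List ℕ) : editDist x y ≤ x.length + y.length := by
  have := fa_max x y
  omega

end Crest.Agent.R288
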