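import Crest.Agent.R288.SemA
import Crest.Agent.R288.FA

/-!
# R288: the banded dynamic programme is exact
-/

set_option autoImplicit false

namespace Crest.Agent.R288

open Crest.Agent.Lib.PT RT

variable {P : Par} {mem : ℕ → ℕ} {pr : Call → Option (RT V)} {x y : List ℕ}

theorem band_seq {β γ : Type} (l : List β) (f : β → γ) :
    seq (l.map fun a => (RT.pure (f a) : RT γ)) = .pure (l.map f) := by
  induction l with
  | nil => rfl
  | cons a l ih => rw [List.map_cons, seq_cons, ih]; rfl

theorem band_mn {l : List ℕ} (h : l ≠ []) : mn l ∈ l ∧ ∀ a ∈ l, mn l ≤ a := by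
  unfold mn
  rcases hm : l.argmin id with _ | b
  · exact absurd (List.argmin_eq_none.1 hm) h
  · exact ⟨List.argmin_mem hm, fun a ha => List.le_of_mem_argmin (f := id) ha hm⟩

theorem band_getD {β : Type} (f : ℕ → β) (d : β) {n a : ℕ} (h : a < n) : ((List.range n).map f).getD a d = f a := by
  simp [List.getD_eq_getElem?_getD, h]

theorem band_any (f : ℕ → Bool) {n a a' : ℕ} (h : a ≤ a') (h' : a' < n) :
    ((((List.range n).map f).drop a).take (a' - a + 1)).any id = true ↔ ∃ b, a ≤ b ∧ b ≤ a' ∧ f b = true := by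
  rw [List.any_eq_true]
  constructor
  · rintro ⟨v, hv, hv'⟩
    obtain ⟨j, hj, rfl⟩ := List.getElem_of_mem hv
    simp only [List.length_take, List.length_drop, List.length_map, List.length_range] at hj
    simp only [List.getElem_take, List.getElem_drop, List.getElem_map, List.getElem_range, id] at hv'
    exact ⟨a + j, by omega, by omega, hv'⟩
  · rintro ⟨b, h1, h2, h3⟩
    refine ⟨true, ?_, rfl⟩
    rw [List.mem_iff_getElem]
    refine ⟨b - a, by simp only [List.length_take, List.length_drop, List.length_map, List.length_range]; omega, ?_⟩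
    simp only [List.getElem_take, List.getElem_drop, List.getElem_map, List.getElem_range]
    rw [show a + (b - a) = b by omega, h3]

theorem band_leaf (hm : MemOk P mem x y) (i : ℕ) (α : ℤ) (κ : Un) {a a' : ℕ} (ha' : a' ≤ 2 * κ.n) :
    leafC (decide (P.1 ≤ i)) (matchL P i α κ (mem (min (2 + i) (P.1 + P.2.1 + 2)) ::
      (List.range (2 * κ.n + 1)).map fun k => mem (min (2 + P.1 + (ypos i α κ k).toNat) (P.1 + P.2.1 + 2)))) a a' =
      FF x y 0 i (α - κ.n + a) (α - κ.n + a') := by
  rw [FF_leaf, leafC, hm.hx]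
  by_cases h : x.length ≤ i
  · rw [if_pos (decide_eq_true h), if_pos h]
    omega
  · rw [if_neg (by simpa using h), if_neg h]
    by_cases h2 : a ≤ a'
    · rw [if_pos h2, if_pos (show α - κ.n + a ≤ α - κ.n + a' by omega)]
      have h0 : i < x.length := not_le.1 h
      have key : ∀ b ≤ 2 * κ.n, (0 ≤ ypos i α κ b ∧ ypos i α κ b < P.2.1 ∧
          (mem (min (2 + i) (x.length + P.2.1 + 2)) :: (List.range (2 * κ.n + 1)).map fun k =>
            mem (min (2 + x.length + (ypos i α κ k).toNat) (x.length + P.2.1 + 2))).getD (b + 1) 0 =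
          (mem (min (2 + i) (x.length + P.2.1 + 2)) :: (List.range (2 * κ.n + 1)).map fun k =>
            mem (min (2 + x.length + (ypos i α κ k).toNat) (x.length + P.2.1 + 2))).getD 0 0) ↔
          ysym y (i + (α - κ.n + b)) = x[i]? := fun b hb => by
        rw [List.getD_cons_succ, List.getD_cons_zero, band_getD _ _ (by omega), hm.hy,
          show (i : ℤ) + (α - κ.n + b) = ypos i α κ b by unfold ypos; ring, min_eq_left (show 2 + i ≤ _ by omega),
          hm.mx i h0, List.getElem?_eq_getElem h0, ysym]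
        generalize ypos i α κ b = z
        constructor
        · rintro ⟨h1, h2, h3⟩
          have h4 : z.toNat < y.length := by omega
          rw [min_eq_left (by omega), hm.my _ h4] at h3
          rw [if_pos h1, List.getElem?_eq_getElem h4, h3]
        · intro h1
          split_ifs at h1 with h2
          obtain ⟨h4, h5⟩ := List.getElem?_eq_some_iff.1 h1
          exact ⟨h2, by omega, by rw [min_eq_left (by omega), hm.my _ h4, h5]⟩
      congr 1
      · omega
      · refine @if_congr _ _ _ _ (Classical.propDecidable _) _ _ _ _ ?_ rfl rfl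
        rw [matchL, band_any _ h2 (by omega)]
        constructor
        · rintro ⟨b, h3, h4, h5⟩
          exact ⟨α - κ.n + b, by omega, by omega, (key b (by omega)).1 (of_decide_eq_true h5)⟩
        · rintro ⟨z, h3, h4, h5⟩
          obtain ⟨b, rfl⟩ : ∃ b : ℕ, z = α - κ.n + b := ⟨(z - (α - κ.n)).toNat, by omega⟩
          exact ⟨b, by omega, by omega, decide_eq_true ((key b (by omega)).2 h5)⟩
    · rw [if_neg h2, if_neg (show ¬ α - κ.n + a ≤ α - κ.n + a' by omega)]
      omega

theorem band_unf (h : PrOk P mem pr) (e i : ℕ) (α : ℤ) (κ : Un) (row : List ℕ) :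
    alg.ev P pr (cRow e i α κ row) =
      (seq ((rowS1 P (⟨e⟩, i, α, κ, row)).map (alg.ev P pr))).bind fun r1 =>
        (seq ((rowS2 (⟨e⟩, i, α, κ, row) r1).map (alg.ev P pr))).bind fun r2 =>
          .pure (rowOut P (⟨e⟩, i, α, κ, row) r1 r2) := by
  rw [h.unfold ⟨_, _, cst_row e i α κ row⟩ (by simp [cRow]) (by simp [cRow])]
  simp [algS1, algS2, algOut, cRow, Dec.dec_enc]

/-- Band index `a ≤ 2κ` stands for the offset `α - κ + a`.  Induction on `e`; leaves by `FF_leaf`, the step by
`FOk.sub` (lower bound) and `FOk.split`, `FOk.disp` (upper bound: the optimal midpoint stays in the band). -/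
theorem ev_row (h : PrOk P mem pr) (hm : MemOk P mem x y) (e i : ℕ) (α : ℤ) (κ : Un) (row : List ℕ) :
    ∃ out : List ℕ, alg.ev P pr (cRow e i α κ row) = .pure (enc out) ∧ ∀ a' ≤ 2 * κ.n,
      (out.getD a' (κ.n + 1) = κ.n + 1 ∨ ∃ a ≤ 2 * κ.n, row.getD a (κ.n + 1) +
        FF x y e i (α - κ.n + a) (α - κ.n + a') ≤ out.getD a' (κ.n + 1)) ∧
      out.getD a' (κ.n + 1) ≤ κ.n + 1 ∧
      ∀ a ≤ 2 * κ.n, ((a : ℤ) - κ.n).natAbs + FF x y e i (α - κ.n + a) (α - κ.n + a') ≤ κ.n →
        out.getD a' (κ.n + 1) ≤ row.getD a (κ.n + 1) + FF x y e i (α - κ.n + a) (α - κ.n + a') := by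
  induction e generalizing i row with
  | zero =>
    refine ⟨rowLeaf κ (decide (P.1 ≤ i)) (matchL P i α κ (mem (min (2 + i) (P.1 + P.2.1 + 2)) ::
      (List.range (2 * κ.n + 1)).map fun k => mem (min (2 + P.1 + (ypos i α κ k).toNat) (P.1 + P.2.1 + 2)))) row,
      ?_, fun a' ha' => ?_⟩
    · rw [band_unf h]
      simp only [rowS1, rowS2, rowOut, if_true, List.map_cons, List.map_map, Function.comp_def, ev_read h,
        seq_cons, band_seq, pure_bind, List.map_nil, seq_nil, rds, Dec.dec_enc]
    · rw [rowLeaf, band_getD _ _ (by omega)]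
      obtain ⟨h1, h2⟩ := band_mn (l := (List.range (2 * κ.n + 1)).map fun a => row.getD a (κ.n + 1) +
        leafC (decide (P.1 ≤ i)) (matchL P i α κ (mem (min (2 + i) (P.1 + P.2.1 + 2)) ::
          (List.range (2 * κ.n + 1)).map fun k =>
            mem (min (2 + P.1 + (ypos i α κ k).toNat) (P.1 + P.2.1 + 2)))) a a') (by simp)
      simp only [band_leaf hm i α κ ha'] at h1 h2 ⊢
      refine ⟨?_, min_le_left _ _, fun a ha _ => (min_le_right _ _).trans
        (h2 _ (List.mem_map.2 ⟨a, List.mem_range.2 (by omega), rfl⟩))⟩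
      obtain ⟨a, ha, h3⟩ := List.mem_map.1 h1
      rw [List.mem_range] at ha
      rw [← h3]
      rcases le_total (κ.n + 1) (row.getD a (κ.n + 1) + FF x y 0 i (α - κ.n + a) (α - κ.n + a')) with h4 | h4
      · exact Or.inl (min_eq_left h4)
      · exact Or.inr ⟨a, by omega, (min_eq_right h4).ge⟩
  | succ e ih =>
    obtain ⟨o1, e1, h1⟩ := ih (2 * i) row
    obtain ⟨o2, e2, h2⟩ := ih (2 * i + 1) o1
    have hF := FF_ok x y
    refine ⟨o2, ?_, fun a' ha' => ?_⟩
    · rw [band_unf h]
      simp only [rowS1, rowS2, rowOut, Nat.add_eq_zero_iff, one_ne_zero, and_false, if_false, List.map_cons,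
        List.map_nil, seq_cons, seq_nil, Nat.add_sub_cancel, e1, pure_bind, rd, List.getD_cons_zero,
        Dec.dec_enc, e2]
    · obtain ⟨k1, k2, k3⟩ := h2 a' ha'
      refine ⟨?_, k2, fun a ha hle => ?_⟩
      · rcases k1 with k1 | ⟨b, hb, k1⟩
        · exact Or.inl k1
        · rcases (h1 b hb).1 with k4 | ⟨a, ha, k4⟩
          · exact Or.inl (by omega)
          · have := hF.sub e i (α - κ.n + a) (α - κ.n + a') (α - κ.n + b)
            exact Or.inr ⟨a, ha, by omega⟩
      · obtain ⟨m, hm'⟩ := hF.split e i (α - κ.n + a) (α - κ.n + a')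
        have hd := hF.disp e (2 * i) (α - κ.n + a) m
        obtain ⟨b, rfl⟩ : ∃ b : ℕ, m = α - κ.n + b := ⟨(m - (α - κ.n)).toNat, by omega⟩
        have hb : b ≤ 2 * κ.n := by omega
        have k4 := (h1 b hb).2.2 a ha (by omega)
        have k5 := k3 b hb (by omega)
        omega

theorem ev_small (h : PrOk P mem pr) (hm : MemOk P mem x y) (e i : ℕ) (α γ : ℤ) (κ : ℕ) :
    alg.ev P pr (cSmall e i α γ κ) = .pure (enc (min (FF x y e i α γ) (κ + 1))) := by
  rw [h.unfold (tm_small e i α γ κ) (by simp [cSmall]) (by simp [cSmall])]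
  have e0 : ∀ r1 r2, algOut P (cSmall e i α γ κ) r1 r2 = smallOut (⟨e⟩, i, α, γ, ⟨κ⟩) r1 := fun r1 r2 => by
    simp [algOut, cSmall, Dec.dec_enc]
  have e1 : algS1 P (cSmall e i α γ κ) = smallS1 (⟨e⟩, i, α, γ, ⟨κ⟩) := by simp [algS1, cSmall, Dec.dec_enc]
  have e2 : ∀ r1, algS2 P (cSmall e i α γ κ) r1 = [] := fun r1 => by simp [algS2, cSmall]
  simp only [e0, e1, e2, smallS1, smallOut]
  by_cases hk : (γ - α).natAbs ≤ κ
  · obtain ⟨o, eo, ho⟩ := ev_row h hm e i α ⟨κ⟩ (row0 ⟨κ⟩)
    simp only [hk, if_true, List.map_cons, List.map_nil, seq_cons, seq_nil, eo, pure_bind, rd,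
      List.getD_cons_zero, Dec.dec_enc]
    obtain ⟨k1, k2, k3⟩ := ho (γ - α + κ).toNat (by dsimp only; omega)
    dsimp only at k1 k2 k3
    rw [show α - κ + ((γ - α + κ).toNat : ℕ) = γ by omega] at k1 k3
    have k4 := k3 κ (by omega)
    rw [row0, band_getD _ _ (by dsimp only; omega), if_pos rfl, sub_add_cancel] at k4
    congr 2
    rcases k1 with k1 | ⟨a, ha, k1⟩
    · omega
    · rw [row0, band_getD _ _ (by dsimp only; omega)] at k1
      dsimp only at k1
      split_ifs at k1 with h5
      · rw [h5, sub_add_cancel] at k1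
        omega
      · omega
  · have := (FF_ok x y).disp e i α γ
    simp only [hk, if_false, List.map_nil, seq_nil, pure_bind]
    congr 2
    omega

end Crest.Agent.R288
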