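import Crest.Agent.R288.Fdef

/-!
# R288: consequences of `FOk` for blocks
-/

set_option autoImplicit false

namespace Crest.Agent.R288

variable {F : ℕ → ℕ → ℤ → ℤ → ℕ}

theorem blk_zero (p : ℕ) : blk 0 p = [p] := by
  simp [blk]

theorem blk_succ (hb p : ℕ) : blk (hb + 1) p = blk hb (2 * p) ++ blk hb (2 * p + 1) := by
  unfold blk
  have h1 : (2 * p + 1) * 2 ^ hb = 2 * p * 2 ^ hb + 2 ^ hb := by ring
  have h2 : p * 2 ^ (hb + 1) = 2 * p * 2 ^ hb := by ring
  have h3 : 2 ^ (hb + 1) = 2 ^ hb + 2 ^ hb := by ring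
  rw [h1, List.range'_append_1, h2, h3]

theorem blk_top (L : ℕ) : blk L 0 = List.range (2 ^ L) := by
  simp [blk, List.range_eq_range']

theorem mem_blk {hb p j : ℕ} : j ∈ blk hb p ↔ p * 2 ^ hb ≤ j ∧ j < (p + 1) * 2 ^ hb := by
  rw [blk, List.mem_range'_1, add_one_mul]

theorem length_blk (hb p : ℕ) : (blk hb p).length = 2 ^ hb := by
  simp [blk]

/-- The children of a block split into those before, inside and after a node. -/
theorem range_eq_blk {L hb p : ℕ} (hhb : hb ≤ L) (hp : p < 2 ^ (L - hb)) :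
    List.range (2 ^ L) = List.range (p * 2 ^ hb) ++ blk hb p ++
      List.range' ((p + 1) * 2 ^ hb) (2 ^ L - (p + 1) * 2 ^ hb) := by
  have hpow : 2 ^ (L - hb) * 2 ^ hb = 2 ^ L := by rw [← pow_add, Nat.sub_add_cancel hhb]
  have hle : (p + 1) * 2 ^ hb ≤ 2 ^ L := hpow ▸ Nat.mul_le_mul_right _ hp
  have h1 : List.range (p * 2 ^ hb) ++ blk hb p = List.range' 0 ((p + 1) * 2 ^ hb) := by
    have := List.range'_append_1 (s := 0) (m := p * 2 ^ hb) (n := 2 ^ hb)
    rw [zero_add] at this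
    rw [blk, List.range_eq_range', this, add_one_mul]
  have h2 := List.range'_append_1 (s := 0) (m := (p + 1) * 2 ^ hb) (n := 2 ^ L - (p + 1) * 2 ^ hb)
  rw [zero_add, Nat.add_sub_cancel' hle] at h2
  rw [h1, h2, List.range_eq_range']

theorem rdn_le {g : ℕ} (z : ℤ) : rdn g z ≤ z ∨ g = 0 := by
  by_cases hg : g = 0
  · exact Or.inr hg
  · exact Or.inl (Int.mul_ediv_self_le (by exact_mod_cast hg))

theorem rdn_dvd (g : ℕ) (z : ℤ) : (g : ℤ) ∣ rdn g z := by
  exact Dvd.intro _ rfl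

theorem natAbs_sub_rdn_lt {g : ℕ} (hg : 0 < g) (z : ℤ) : (z - rdn g z).natAbs < g := by
  have hg' : (0 : ℤ) < g := by exact_mod_cast hg
  have h1 := Int.emod_nonneg z hg'.ne'
  have h2 := Int.emod_lt_of_pos z hg'
  have h3 : z - rdn g z = z % g := by rw [rdn, Int.emod_def]
  rw [h3]
  omega

theorem rdn_of_dvd {g : ℕ} {z : ℤ} (h : (g : ℤ) ∣ z) (hg : 0 < g) : rdn g z = z := by
  exact (fun _ => Int.mul_ediv_cancel' h) hg

theorem fb_left (W : ℕ → ℤ → ℤ → ℝ) (l : List (ℕ × ℤ × ℤ)) (zl zr m : ℤ) :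
    pathCost W l zl zr ≤ |((zl - m : ℤ) : ℝ)| + pathCost W l m zr := by
  cases l with
  | nil =>
    simp only [pathCost]
    push_cast
    exact abs_sub_le _ _ _
  | cons s t =>
    simp only [pathCost]
    push_cast
    have := abs_sub_le (zl : ℝ) m s.2.1
    linarith

theorem fb_exact (W : ℕ → ℤ → ℤ → ℝ) (l l' : List (ℕ × ℤ × ℤ)) (zl zr : ℤ) :
    ∃ m, pathCost W l zl m + pathCost W l' m zr ≤ pathCost W (l ++ l') zl zr := by
  induction l generalizing zl with
  | nil => exact ⟨zl, by simp [pathCost]⟩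
  | cons s t ih =>
    obtain ⟨m, hm⟩ := ih s.2.2
    refine ⟨m, ?_⟩
    simp only [List.cons_append, pathCost]
    linarith

theorem pathCost_append (W : ℕ → ℤ → ℤ → ℝ) (l l' : List (ℕ × ℤ × ℤ)) (zl zr m : ℤ) :
    pathCost W (l ++ l') zl zr ≤ pathCost W l zl m + pathCost W l' m zr := by
  induction l generalizing zl with
  | nil => exact fb_left W l' zl zr m
  | cons s t ih =>
    have := ih s.2.2
    simp only [List.cons_append, pathCost]
    linarith

theorem pathCost_mono {W W' : ℕ → ℤ → ℤ → ℝ} {l : List (ℕ × ℤ × ℤ)}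
    (h : ∀ s ∈ l, W s.1 s.2.1 s.2.2 ≤ W' s.1 s.2.1 s.2.2) (zl zr : ℤ) :
    pathCost W l zl zr ≤ pathCost W' l zl zr := by
  induction l generalizing zl with
  | nil => exact le_rfl
  | cons s t ih =>
    have h1 := ih (fun s' hs' => h s' (List.mem_cons_of_mem _ hs')) s.2.2
    have h2 := h s List.mem_cons_self
    simp only [pathCost]
    linarith

/-- A path along consecutive boundaries has no inner junction cost. -/
theorem pathCost_chain (W : ℕ → ℤ → ℤ → ℝ) (z : ℕ → ℤ) (a n : ℕ) (zl zr : ℤ) :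
    pathCost W ((List.range' a n).map fun j => (j, z j, z (j + 1))) zl zr ≤
      |((zl - z a : ℤ) : ℝ)| + ((List.range' a n).map fun j => W j (z j) (z (j + 1))).sum +
        |((z (a + n) - zr : ℤ) : ℝ)| := by
  induction n generalizing a zl with
  | zero =>
    simp only [List.range'_zero, List.map_nil, List.sum_nil, pathCost, add_zero]
    push_cast
    exact abs_sub_le _ _ _
  | succ n ih =>
    have h1 := ih (a + 1) (z (a + 1))
    rw [sub_self, Int.cast_zero, abs_zero, zero_add, add_assoc a 1 n, add_comm 1 n] at h1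
    simp only [List.range'_succ, List.map_cons, List.sum_cons, pathCost]
    linarith

/-- Every path through the children of the node `(hb, p)` of a block is an upper bound.
Induction on `hb` (split the path in two halves; an exact version of `pathCost_append`: choose `m` as the
end of the first half). -/
theorem FOk.le_pathCost (h : FOk F) (e L i : ℕ) {hb p : ℕ} (hhb : hb ≤ L) (l : List (ℕ × ℤ × ℤ))
    (hl : l.map Prod.fst = blk hb p) (zl zr : ℤ) :
    (F (e + hb) (i * 2 ^ (L - hb) + p) zl zr : ℝ) ≤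
      pathCost (fun j a c => (F e (i * 2 ^ L + j) a c : ℝ)) l zl zr := by
  induction hb generalizing p l zl zr with
  | zero =>
    rw [blk_zero] at hl
    obtain ⟨⟨j, a, c⟩, rfl, hj⟩ := List.map_eq_singleton_iff.1 hl
    obtain rfl : j = p := hj
    have h1 := h.lip e (i * 2 ^ L + j) zl zr a c
    have h2 : (F e (i * 2 ^ L + j) zl zr : ℝ) ≤
        F e (i * 2 ^ L + j) a c + ((zl - a).natAbs : ℝ) + ((zr - c).natAbs : ℝ) := by exact_mod_cast h1
    rw [Nat.cast_natAbs, Nat.cast_natAbs, Int.cast_abs, Int.cast_abs] at h2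
    simp only [pathCost, add_zero, Nat.sub_zero]
    have h3 : |((c - zr : ℤ) : ℝ)| = |((zr - c : ℤ) : ℝ)| := by
      push_cast
      exact abs_sub_comm _ _
    linarith
  | succ hb ih =>
    rw [blk_succ] at hl
    obtain ⟨l1, l2, rfl, h1, h2⟩ := List.map_eq_append_iff.1 hl
    obtain ⟨m, hm⟩ := fb_exact (fun j a c => (F e (i * 2 ^ L + j) a c : ℝ)) l1 l2 zl zr
    have a1 := ih (by omega) l1 h1 zl m
    have a2 := ih (by omega) l2 h2 m zr
    have a3 := h.sub (e + hb) (i * 2 ^ (L - (hb + 1)) + p) zl zr m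
    have hL : L - hb = L - (hb + 1) + 1 := by omega
    have i1 : 2 * (i * 2 ^ (L - (hb + 1)) + p) = i * 2 ^ (L - hb) + 2 * p := by rw [hL]; ring
    rw [i1, add_assoc (i * 2 ^ (L - hb)) (2 * p) 1, add_assoc e hb 1] at a3
    have a4 : (F (e + (hb + 1)) (i * 2 ^ (L - (hb + 1)) + p) zl zr : ℝ) ≤
        F (e + hb) (i * 2 ^ (L - hb) + 2 * p) zl m +
          F (e + hb) (i * 2 ^ (L - hb) + (2 * p + 1)) m zr := by exact_mod_cast a3
    linarith

theorem fb_sum (f : ℕ → ℕ) (a n : ℕ) :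
    ((List.range' a n).map f).sum = ∑ j ∈ Finset.range n, f (a + j) := by
  induction n with
  | zero => simp
  | succ n ih =>
    rw [List.range'_1_concat, List.map_append, List.sum_append, ih, Finset.sum_range_succ]
    simp

theorem fb_build (h : FOk F) (e g : ℕ) (P : ℤ → Prop) (r : ℤ → ℤ) (hP : ∀ z, P (r z))
    (hr : ∀ z, (z - r z).natAbs ≤ g) (L : ℕ) : ∀ (i : ℕ) (α γ : ℤ), P α → P γ →
    ∃ z : ℕ → ℤ, z 0 = α ∧ z (2 ^ L) = γ ∧ (∀ j, P (z j)) ∧ ∀ hb d, hb + d = L → ∀ p < 2 ^ d,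
      ∑ j ∈ Finset.range (2 ^ hb),
          F e (i * 2 ^ L + (p * 2 ^ hb + j)) (z (p * 2 ^ hb + j)) (z (p * 2 ^ hb + j + 1)) + 2 * g ≤
        F (e + hb) (i * 2 ^ d + p) (z (p * 2 ^ hb)) (z ((p + 1) * 2 ^ hb)) + 2 * g * 2 ^ hb := by
  induction L with
  | zero =>
    intro i α γ hα hγ
    refine ⟨fun j => if j = 0 then α else γ, by simp, by simp, fun j => ?_, fun hb d hd p hp => ?_⟩
    · show P (if j = 0 then α else γ)
      split_ifs <;> assumption
    · obtain rfl : hb = 0 := by omega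
      obtain rfl : d = 0 := by omega
      simp
  | succ L ih =>
    intro i α γ hα hγ
    obtain ⟨m, hm⟩ := h.split (e + L) i α γ
    obtain ⟨z1, a1, b1, c1, d1⟩ := ih (2 * i) α (r m) hα (hP m)
    obtain ⟨z2, a2, b2, c2, d2⟩ := ih (2 * i + 1) (r m) γ (hP m) hγ
    obtain ⟨z, hz1, hz2, hz3⟩ : ∃ z : ℕ → ℤ, (∀ j ≤ 2 ^ L, z j = z1 j) ∧ (∀ j, z (2 ^ L + j) = z2 j) ∧
        ∀ j, P (z j) := by
      refine ⟨fun j => if j ≤ 2 ^ L then z1 j else z2 (j - 2 ^ L), fun j hj => if_pos hj,
        fun j => ?_, fun j => ?_⟩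
      · show (if 2 ^ L + j ≤ 2 ^ L then z1 (2 ^ L + j) else z2 (2 ^ L + j - 2 ^ L)) = z2 j
        split_ifs with hj
        · obtain rfl : j = 0 := by omega
          rw [add_zero, b1, a2]
        · rw [Nat.add_sub_cancel_left]
      · show P (if j ≤ 2 ^ L then z1 j else z2 (j - 2 ^ L))
        split_ifs
        · exact c1 _
        · exact c2 _
    have hL : 2 ^ (L + 1) = 2 ^ L + 2 ^ L := by ring
    have e0 : z 0 = α := by rw [hz1 0 (Nat.zero_le _), a1]
    have e1 : z (2 ^ (L + 1)) = γ := by rw [hL, hz2, b2]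
    refine ⟨z, e0, e1, hz3, fun hb d hd p hp => ?_⟩
    cases d with
    | zero =>
      obtain rfl : hb = L + 1 := by omega
      obtain rfl : p = 0 := by simpa using hp
      have s1 := d1 L 0 rfl 0 (by simp)
      have s2 := d2 L 0 rfl 0 (by simp)
      simp only [zero_mul, zero_add, one_mul, pow_zero, mul_one, add_zero] at s1 s2 ⊢
      rw [a1, b1] at s1
      rw [a2, b2] at s2
      rw [e0, e1]
      have t : ∑ j ∈ Finset.range (2 ^ (L + 1)), F e (i * 2 ^ (L + 1) + j) (z j) (z (j + 1)) =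
          ∑ j ∈ Finset.range (2 ^ L), F e (2 * i * 2 ^ L + j) (z1 j) (z1 (j + 1)) +
            ∑ j ∈ Finset.range (2 ^ L), F e ((2 * i + 1) * 2 ^ L + j) (z2 j) (z2 (j + 1)) := by
        rw [hL, Finset.sum_range_add]
        congr 1
        · refine Finset.sum_congr rfl fun j hj => ?_
          have hj' := Finset.mem_range.1 hj
          rw [hz1 j hj'.le, hz1 (j + 1) hj']
          congr 1
          ring
        · refine Finset.sum_congr rfl fun j _ => ?_
          rw [hz2, add_assoc (2 ^ L) j 1, hz2]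
          congr 1
          ring
      have l1 := h.lip (e + L) (2 * i) α (r m) α m
      have l2 := h.lip (e + L) (2 * i + 1) (r m) γ m γ
      have l3 := hr m
      have l4 : 2 * g * 2 ^ (L + 1) = 2 * g * 2 ^ L + 2 * g * 2 ^ L := by ring
      rw [t, l4, ← add_assoc e L 1]
      omega
    | succ d =>
      have hd' : hb + d = L := by omega
      have hpow : 2 ^ d * 2 ^ hb = 2 ^ L := by rw [← pow_add, add_comm, hd']
      rcases lt_or_ge p (2 ^ d) with hp' | hp'
      · have s1 := d1 hb d hd' p hp'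
        have hle : (p + 1) * 2 ^ hb ≤ 2 ^ L := hpow ▸ Nat.mul_le_mul_right _ hp'
        have hle' : p * 2 ^ hb + 2 ^ hb ≤ 2 ^ L := by rw [← add_one_mul]; exact hle
        rw [hz1 _ hle, hz1 (p * 2 ^ hb) ((Nat.le_add_right _ _).trans hle')]
        have i1 : i * 2 ^ (d + 1) = 2 * i * 2 ^ d := by ring
        have i2 : i * 2 ^ (L + 1) = 2 * i * 2 ^ L := by ring
        rw [i1, i2]
        refine le_trans (le_of_eq ?_) s1
        congr 1
        refine Finset.sum_congr rfl fun j hj => ?_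
        have hj' := Finset.mem_range.1 hj
        rw [hz1 (p * 2 ^ hb + j) (by omega), hz1 (p * 2 ^ hb + j + 1) (by omega)]
      · obtain ⟨p, rfl⟩ := Nat.exists_eq_add_of_le hp'
        have s2 := d2 hb d hd' p (by rw [pow_succ] at hp; omega)
        have j1 : (2 ^ d + p) * 2 ^ hb = 2 ^ L + p * 2 ^ hb := by rw [add_mul, hpow]
        have j2 : (2 ^ d + p + 1) * 2 ^ hb = 2 ^ L + (p + 1) * 2 ^ hb := by
          rw [add_assoc, add_mul, hpow]
        have i1 : i * 2 ^ (d + 1) + (2 ^ d + p) = (2 * i + 1) * 2 ^ d + p := by ring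
        rw [j1, j2, hz2, hz2, i1]
        refine le_trans (le_of_eq ?_) s2
        congr 1
        refine Finset.sum_congr rfl fun j _ => ?_
        rw [add_assoc (2 ^ L) (p * 2 ^ hb) j, add_assoc (2 ^ L) (p * 2 ^ hb + j) 1, hz2, hz2]
        congr 1
        ring

/-- Exact optimal boundaries. -/
theorem FOk.exists_split (h : FOk F) (e k i : ℕ) (α γ : ℤ) :
    ∃ z : ℕ → ℤ, z 0 = α ∧ z (2 ^ k) = γ ∧
      ((List.range (2 ^ k)).map fun j => F e (i * 2 ^ k + j) (z j) (z (j + 1))).sum ≤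
        F (e + k) i α γ := by
  obtain ⟨z, h0, h1, -, h2⟩ := fb_build h e 0 (fun _ => True) id (fun _ => trivial) (by simp) k i α γ
    trivial trivial
  refine ⟨z, h0, h1, ?_⟩
  have h3 := h2 k 0 rfl 0 (by simp)
  simp only [zero_mul, zero_add, one_mul, pow_zero, mul_one, add_zero, mul_zero] at h3
  rw [h0, h1] at h3
  rw [List.range_eq_range', fb_sum]
  simpa using h3

/-- Boundaries stay close to the start: `disp` summed along the path. -/
theorem FOk.natAbs_le_sum (h : FOk F) (e i₀ : ℕ) (z : ℕ → ℤ) (a n j : ℕ) (hj : j ≤ n) :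
    (z (a + j) - z a).natAbs ≤
      ((List.range' a n).map fun k => F e (i₀ + k) (z k) (z (k + 1))).sum := by
  rw [fb_sum]
  refine le_trans ?_ (Finset.sum_le_sum_of_subset (Finset.range_mono hj))
  clear hj
  induction j with
  | zero => simp
  | succ j ih =>
    rw [Finset.sum_range_succ, ← add_assoc a j 1]
    have := h.disp e (i₀ + (a + j)) (z (a + j)) (z (a + j + 1))
    omega

/-- Top-down construction: at every node split optimally (`FOk.split`) and round the midpoint down to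
the grid (`lip` costs at most `2 g` per inner node; prove the bound `2 g (2^hb - 1)`). -/
theorem FOk.exists_comp (h : FOk F) (e L i : ℕ) {g : ℕ} (hg : 0 < g) (α γ : ℤ) :
    ∃ z, Comp F e L i g α γ z := by
  obtain ⟨z, h0, h1, h2, h3⟩ := fb_build h e g (fun z => (g : ℤ) ∣ z) (rdn g) (rdn_dvd g)
    (fun z => (natAbs_sub_rdn_lt hg z).le) L i (rdn g α) (rdn g γ) (rdn_dvd g α) (rdn_dvd g γ)
  refine ⟨z, h0, h1, h2, fun hb hhb p hp => ?_⟩
  have h4 := h3 hb (L - hb) (by omega) p hp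
  rw [blk, fb_sum]
  omega

end Crest.Agent.R288
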