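import Crest.Agent.R288.Model
import Crest.Agent.R288.FB

/-!
# R288: the potential `ψ(W, d) = W + d² / W`
-/

set_option autoImplicit false

namespace Crest.Agent.R288

theorem psiR_nonneg {W d : ℝ} (h : |d| ≤ W) : 0 ≤ psiR W d := by
  have := (abs_nonneg d).trans h
  unfold psiR
  positivity

theorem psiR_le {W d : ℝ} (h : |d| ≤ W) : psiR W d ≤ 2 * W := by
  have h0 := (abs_nonneg d).trans h
  have h1 : d ^ 2 / W ≤ W := by
    refine div_le_of_le_mul₀ h0 h0 ?_
    rw [← sq_abs d, sq]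
    exact mul_le_mul h h (abs_nonneg d) h0
  unfold psiR
  linarith

theorem psiR_mono {W W' d : ℝ} (h : |d| ≤ W) (h' : W ≤ W') : psiR W d ≤ psiR W' d := by
  have h0 := (abs_nonneg d).trans h
  unfold psiR
  rcases h0.eq_or_lt with rfl | hW
  · have hd : d = 0 := abs_nonpos_iff.1 h
    subst hd
    simpa using h'
  · have hW' : 0 < W' := hW.trans_le h'
    have h1 : d ^ 2 ≤ W * W' := by
      rw [← sq_abs d, sq]
      exact mul_le_mul h (h.trans h') (abs_nonneg d) hW.le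
    have e : W' + d ^ 2 / W' - (W + d ^ 2 / W) = (W' - W) * (W * W' - d ^ 2) / (W * W') := by
      field_simp
      ring
    have : 0 ≤ (W' - W) * (W * W' - d ^ 2) / (W * W') :=
      div_nonneg (mul_nonneg (by linarith) (by linarith)) (mul_pos hW hW').le
    linarith

/-- Compare with `psiR (W' + a + e) d`. -/
theorem psiR_pert {W W' d d' a e : ℝ} (h : |d| ≤ W) (h' : |d'| ≤ W') (ha : 0 ≤ a) (hW : W ≤ W' + a)
    (he : |d - d'| ≤ e) : psiR W d ≤ psiR W' d' + a + 3 * e := by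
  have he0 := (abs_nonneg _).trans he
  have h0 := (abs_nonneg _).trans h'
  refine (psiR_mono h (W' := W' + a + e) (by linarith)).trans ?_
  have hV : 0 ≤ W' + a + e := by linarith
  have h1 : |d| ≤ |d'| + e := by
    have := abs_sub_abs_le_abs_sub d d'
    linarith
  have h2 : d ^ 2 ≤ d' ^ 2 + 2 * e * (W' + a + e) := by
    rw [← sq_abs d, ← sq_abs d']
    have := pow_le_pow_left₀ (abs_nonneg d) h1 2
    nlinarith [mul_le_mul_of_nonneg_left h' he0, mul_nonneg he0 ha, mul_nonneg he0 he0]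
  have h3 : d' ^ 2 / (W' + a + e) ≤ d' ^ 2 / W' := by
    rcases h0.eq_or_lt with h4 | h4
    · have hd : d' = 0 := abs_nonpos_iff.1 (h4 ▸ h')
      simp [hd]
    · exact div_le_div_of_nonneg_left (sq_nonneg _) h4 (by linarith)
  have h4 : 2 * e * (W' + a + e) / (W' + a + e) ≤ 2 * e :=
    div_le_of_le_mul₀ hV (by linarith) le_rfl
  have h5 : d ^ 2 / (W' + a + e) ≤ d' ^ 2 / (W' + a + e) + 2 * e * (W' + a + e) / (W' + a + e) := by
    rw [← add_div]
    exact div_le_div_of_nonneg_right h2 hV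
  unfold psiR
  linarith

/-- `ψ(G1,d1) + ψ(G2,d2) - ψ(G1+G2,d1+d2) = dev² (G1+G2) / (G1 G2)`. -/
theorem psiR_split {G1 G2 d1 d2 : ℝ} (h1 : |d1| ≤ G1) (h2 : |d2| ≤ G2) :
    psiR (G1 + G2) (d1 + d2) + 4 * (d1 - (d1 + d2) * G1 / (G1 + G2)) ^ 2 / (G1 + G2) ≤
      psiR G1 d1 + psiR G2 d2 := by
  have g1 := (abs_nonneg _).trans h1
  have g2 := (abs_nonneg _).trans h2
  unfold psiR
  rcases g1.eq_or_lt with rfl | g1
  · have hd : d1 = 0 := abs_nonpos_iff.1 h1
    simp [hd]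
  rcases g2.eq_or_lt with rfl | g2
  · have hd : d2 = 0 := abs_nonpos_iff.1 h2
    simp [hd, g1.ne']
  have e : G1 + d1 ^ 2 / G1 + (G2 + d2 ^ 2 / G2) - (G1 + G2 + (d1 + d2) ^ 2 / (G1 + G2) +
      4 * (d1 - (d1 + d2) * G1 / (G1 + G2)) ^ 2 / (G1 + G2)) =
      (d1 * G2 - d2 * G1) ^ 2 * (G1 - G2) ^ 2 / (G1 * G2 * (G1 + G2) ^ 3) := by
    field_simp
    ring
  have : 0 ≤ (d1 * G2 - d2 * G1) ^ 2 * (G1 - G2) ^ 2 / (G1 * G2 * (G1 + G2) ^ 3) := by positivity
  linarith

/-- Subadditive node values that dominate the displacements. -/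
structure TreeOk (L : ℕ) (G : ℕ → ℕ → ℝ) (z : ℕ → ℤ) : Prop where
  sub : ∀ hb < L, ∀ p < 2 ^ (L - (hb + 1)), G (hb + 1) p ≤ G hb (2 * p) + G hb (2 * p + 1)
  dsp : ∀ hb ≤ L, ∀ p < 2 ^ (L - hb), |dsp z hb p| ≤ G hb p

variable {L : ℕ} {G : ℕ → ℕ → ℝ} {z : ℕ → ℤ}

theorem psi_lt {hb p : ℕ} (hhb : hb < L) (hp : p < 2 ^ (L - (hb + 1))) :
    2 * p < 2 ^ (L - hb) ∧ 2 * p + 1 < 2 ^ (L - hb) := by
  rw [show L - hb = L - (hb + 1) + 1 by omega, pow_succ]
  omega

theorem psi_dsp (z : ℕ → ℤ) (hb p : ℕ) : dsp z (hb + 1) p = dsp z hb (2 * p) + dsp z hb (2 * p + 1) := by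
  unfold dsp
  rw [show (p + 1) * 2 ^ (hb + 1) = (2 * p + 1 + 1) * 2 ^ hb by ring, show p * 2 ^ (hb + 1) = 2 * p * 2 ^ hb by ring]
  push_cast
  ring

theorem TreeOk.psi_step (h : TreeOk L G z) {hb p : ℕ} (hhb : hb < L) (hp : p < 2 ^ (L - (hb + 1))) :
    psiR (G (hb + 1) p) (R288.dsp z (hb + 1) p) + 4 * devi G z hb p ^ 2 / (G hb (2 * p) + G hb (2 * p + 1)) ≤
      psiR (G hb (2 * p)) (R288.dsp z hb (2 * p)) + psiR (G hb (2 * p + 1)) (R288.dsp z hb (2 * p + 1)) := by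
  obtain ⟨h1, h2⟩ := psi_lt hhb hp
  have h3 := psiR_split (h.dsp hb hhb.le _ h1) (h.dsp hb hhb.le _ h2)
  have h4 := psiR_mono (h.dsp (hb + 1) hhb p hp) (h.sub hb hhb p hp)
  rw [← psi_dsp] at h3
  unfold devi
  linarith

theorem TreeOk.psi_gain_nonneg (h : TreeOk L G z) {hb p : ℕ} (hhb : hb < L) (hp : p < 2 ^ (L - (hb + 1))) :
    0 ≤ 4 * devi G z hb p ^ 2 / (G hb (2 * p) + G hb (2 * p + 1)) := by
  obtain ⟨h1, h2⟩ := psi_lt hhb hp
  have g1 := (abs_nonneg _).trans (h.dsp hb hhb.le _ h1)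
  have g2 := (abs_nonneg _).trans (h.dsp hb hhb.le _ h2)
  positivity

theorem TreeOk.G_le (h : TreeOk L G z) {hb p : ℕ} (hhb : hb ≤ L) (hp : p < 2 ^ (L - hb)) :
    G hb p ≤ ((blk hb p).map fun j => G 0 j).sum := by
  induction hb generalizing p with
  | zero => simp [blk_zero]
  | succ hb ih =>
    obtain ⟨h1, h2⟩ := psi_lt hhb hp
    rw [blk_succ, List.map_append, List.sum_append]
    exact (h.sub hb hhb p hp).trans (add_le_add (ih (by omega) h1) (ih (by omega) h2))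

theorem TreeOk.psi_le (h : TreeOk L G z) {hb p : ℕ} (hhb : hb ≤ L) (hp : p < 2 ^ (L - hb)) :
    psiR (G hb p) (R288.dsp z hb p) ≤ ((blk hb p).map fun j => psiR (G 0 j) (R288.dsp z 0 j)).sum := by
  induction hb generalizing p with
  | zero => simp [blk_zero]
  | succ hb ih =>
    obtain ⟨h1, h2⟩ := psi_lt hhb hp
    rw [blk_succ, List.map_append, List.sum_append]
    have := h.psi_step hhb hp
    have := h.psi_gain_nonneg hhb hp
    have := ih (by omega) h1
    have := ih (by omega) h2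
    linarith

/-- The root against a node and the leaves outside. -/
theorem TreeOk.psi_node (h : TreeOk L G z) {hb p : ℕ} (hhb : hb ≤ L) (hp : p < 2 ^ (L - hb)) :
    psiR (G L 0) (R288.dsp z L 0) + ((blk hb p).map fun j => psiR (G 0 j) (R288.dsp z 0 j)).sum ≤
      psiR (G hb p) (R288.dsp z hb p) +
        ((List.range (2 ^ L)).map fun j => psiR (G 0 j) (R288.dsp z 0 j)).sum := by
  obtain ⟨k, hk⟩ : ∃ k, hb + k = L := ⟨L - hb, by omega⟩
  induction k generalizing hb p with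
  | zero =>
    have h1 : hb = L := by omega
    subst h1
    have h2 : p = 0 := by simpa using hp
    subst h2
    rw [blk_top]
  | succ k ih =>
    have hlt : hb < L := by omega
    have hq : p / 2 < 2 ^ (L - (hb + 1)) := by
      rw [show L - hb = L - (hb + 1) + 1 by omega, pow_succ] at hp
      omega
    obtain ⟨h1, h2⟩ := psi_lt hlt hq
    have a1 := ih (hb := hb + 1) (p := p / 2) hlt hq (by omega)
    have a2 := h.psi_step hlt hq
    have a3 := h.psi_gain_nonneg hlt hq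
    have a4 := h.psi_le hhb h1
    have a5 := h.psi_le hhb h2
    rw [blk_succ, List.map_append, List.sum_append] at a1
    rcases Nat.mod_two_eq_zero_or_one p with h0 | h0
    · rw [show 2 * (p / 2) = p by omega] at a1 a2 a3 a4 a5
      linarith
    · rw [show 2 * (p / 2) + 1 = p by omega] at a1 a2 a3 a5
      linarith

/-- A deviation gives a gain. -/
theorem TreeOk.psi_gain (h : TreeOk L G z) {hb p : ℕ} (hhb : hb < L) (hp : p < 2 ^ (L - (hb + 1))) :
    psiR (G L 0) (R288.dsp z L 0) + 4 * devi G z hb p ^ 2 / (G hb (2 * p) + G hb (2 * p + 1)) ≤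
      ((List.range (2 ^ L)).map fun j => psiR (G 0 j) (R288.dsp z 0 j)).sum := by
  obtain ⟨h1, h2⟩ := psi_lt hhb hp
  have a1 := h.psi_node (hb := hb + 1) hhb hp
  have a2 := h.psi_step hhb hp
  have a4 := h.psi_le hhb.le h1
  have a5 := h.psi_le hhb.le h2
  rw [blk_succ, List.map_append, List.sum_append] at a1
  linarith

end Crest.Agent.R288
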