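import Crest.Agent.R288.MonoB
import Crest.Agent.R288.Psi

/-!
# R288: a block under analysis
-/

set_option autoImplicit false

namespace Crest.Agent.R288

open RT

namespace Model

/-- A block with its scale `σ = 2^m` and its comparator `z`. -/
structure Blk (M : Model) (P : Par) (r i : ℕ) (s : ℤ × ℤ) (m φ : ℕ) (Λ : ℝ) (z : ℕ → ℤ) : Prop where
  ok : M.Ok P
  r1 : 1 ≤ r
  rH : r ≤ P.H
  φ1 : 1 ≤ φ
  Λ1 : 1 + eta P ≤ Λ
  ΛR : Λ ≤ 2 ^ P.kR
  big : P.F0 < M.Fr P r i s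
  lo : 16 * Λ * M.Fr P r i s ≤ 2 ^ m
  hi : 2 ^ m ≤ 32 * Λ * M.Fr P r i s
  m4 : m < 4 * P.hh
  comp : Comp M.F ((r - 1) * P.L) P.L i (gsp P (2 ^ m)) s.1 s.2 z
  ratio : M.Ratio P ((φ - 1) * P.T0) Λ

variable (M : Model) (P : Par)

/-- The values of the children in the window. -/
noncomputable def Wk (r i φ : ℕ) : ℕ → ℕ → ℤ → ℤ → ℝ := fun k => M.Wch P r i (wnd P φ k)

/-- Window averages of the dynamic programme along the comparator. -/
noncomputable def Gs (r i : ℕ) (s : ℤ × ℤ) (m φ : ℕ) (z : ℕ → ℤ) : ℕ → ℕ → ℝ :=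
  Gc P (zgrid P s.1 (2 ^ m)) (M.Wk P r i φ) z

/-- Cost of child `j` along the comparator. -/
def fch (r i : ℕ) (z : ℕ → ℤ) (j : ℕ) : ℕ := M.Fr P (r - 1) (i * P.b + j) (z j, z (j + 1))

/-- Accurate and valid tables. -/
def TabsAcc (r i : ℕ) (s : ℤ × ℤ) (σ φ : ℕ) (tabs : List Tab) : Prop :=
  List.Forall₂ (fun k tab => TabRel (zgrid P s.1 σ) P.b (fun j z1 z2 v =>
    ((1 - tau P) * M.Wk P r i φ k j z1 z2 - 1 ≤ v ∧ (v : ℝ) ≤ (1 + tau P) * M.Wk P r i φ k j z1 z2) ∧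
      M.Fr P (r - 1) (i * P.b + j) (z1, z2) ≤ v) tab) (List.range P.T0) tabs

variable {M P} {r i : ℕ} {s : ℤ × ℤ} {m φ : ℕ} {Λ : ℝ} {z : ℕ → ℤ}

namespace Blk

theorem blk_avg {T : ℕ} (hT : 0 < T) {f g : ℕ → ℝ} {c : ℝ} (h : ∀ k < T, f k ≤ g k + c) :
    (∑ k ∈ Finset.range T, f k) / T ≤ (∑ k ∈ Finset.range T, g k) / T + c := by
  have hT' : (0 : ℝ) < T := by exact_mod_cast hT
  have h1 := Finset.sum_le_sum fun k (hk : k ∈ Finset.range T) => h k (Finset.mem_range.1 hk)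
  rw [Finset.sum_add_distrib, Finset.sum_const, Finset.card_range, nsmul_eq_mul] at h1
  rw [div_add' _ _ _ hT'.ne']
  exact div_le_div_of_nonneg_right (by linarith) hT'.le

theorem blk_lsum (f : ℕ → ℝ) (n : ℕ) : ((List.range n).map f).sum = ∑ j ∈ Finset.range n, f j := by
  induction n with
  | zero => simp
  | succ n ih => rw [List.sum_range_succ, Finset.sum_range_succ, ih]

theorem blk_abs (z : ℤ) : |(z : ℝ)| = (z.natAbs : ℝ) := by rw [Nat.cast_natAbs, Int.cast_abs]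

theorem blk_one (h : M.Blk P r i s m φ Λ z) : 1 ≤ Λ := by
  have h1 := h.Λ1
  have h2 : 0 ≤ eta P := by unfold eta; positivity
  linarith

theorem blk_T0 (h : M.Blk P r i s m φ Λ z) : 0 < P.T0 := by
  have := h.ok.good.two_le_T0
  omega

theorem blk_rL (h : M.Blk P r i s m φ Λ z) : (r - 1) * P.L + P.L = r * P.L := by
  have := h.r1
  rw [← Nat.succ_mul]
  congr 1
  omega

theorem kg_le (h : M.Blk P r i s m φ Λ z) : P.kg + 4 ≤ m := by
  have h1 := h.blk_one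
  have h2 : (2 : ℝ) ^ P.kg ≤ M.Fr P r i s := by
    have := h.big.le
    rw [h.ok.good.F0_eq] at this
    exact_mod_cast this
  have h3 : (0 : ℝ) ≤ M.Fr P r i s := Nat.cast_nonneg _
  have h4 : (2 : ℝ) ^ (P.kg + 4) ≤ 2 ^ m := by
    have := h.lo
    rw [pow_add]
    nlinarith
  exact (pow_le_pow_iff_right₀ one_lt_two).1 h4

theorem scale (h : M.Blk P r i s m φ Λ z) :
    M.Fr P r i s ≤ 2 ^ m ∧ 2 ^ m ≤ 32 * 2 ^ P.kR * M.Fr P r i s := by
  have h1 := h.blk_one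
  have h3 : (0 : ℝ) ≤ M.Fr P r i s := Nat.cast_nonneg _
  have h4 := h.lo
  have h5 := h.hi
  have h6 := mul_le_mul_of_nonneg_right h.ΛR h3
  constructor
  · have : (M.Fr P r i s : ℝ) ≤ 2 ^ m := by nlinarith
    exact_mod_cast this
  · have : (2 : ℝ) ^ m ≤ 32 * 2 ^ P.kR * M.Fr P r i s := by linarith
    exact_mod_cast this

/-- `g b = 2^(m - kg + L) ≤ 32 R F 2^L / R²`. -/
theorem g_small (h : M.Blk P r i s m φ Λ z) :
    (gsp P (2 ^ m) : ℝ) = tau P * 2 ^ m ∧ tau P * 2 ^ m ≤ 32 * M.Fr P r i s / 2 ^ P.kR := by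
  have h1 := h.kg_le
  have h2 : (2 : ℝ) ^ m ≤ 32 * 2 ^ P.kR * M.Fr P r i s := by exact_mod_cast h.scale.2
  constructor
  · rw [gsp_pow h.ok.good (by omega), tau, Nat.cast_pow, Nat.cast_ofNat, pow_sub₀ _ two_ne_zero (by omega)]
    ring
  · rw [tau, (geo_par h.ok.good).2.1, le_div_iff₀ (by positivity), two_mul, pow_add]
    have e : 1 / (2 ^ P.kR * 2 ^ P.kR) * 2 ^ m * 2 ^ P.kR = (2 : ℝ) ^ m / 2 ^ P.kR := by field_simp
    rw [e, div_le_iff₀ (by positivity)]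
    linarith

theorem blk_g0 (h : M.Blk P r i s m φ Λ z) : 0 < gsp P (2 ^ m) := by
  have := h.kg_le
  rw [gsp_pow h.ok.good (by omega)]
  positivity

theorem blk_ends (h : M.Blk P r i s m φ Λ z) :
    (s.1 - z 0).natAbs ≤ gsp P (2 ^ m) ∧ (s.2 - z P.b).natAbs ≤ gsp P (2 ^ m) := by
  rw [h.ok.good.b_eq, h.comp.z0, h.comp.zb]
  exact ⟨(natAbs_sub_rdn_lt h.blk_g0 _).le, (natAbs_sub_rdn_lt h.blk_g0 _).le⟩

/-- `Comp.opt` at the root, `FOk.lip`. -/
theorem sum_fch (h : M.Blk P r i s m φ Λ z) :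
    ((List.range P.b).map (M.fch P r i z)).sum ≤ M.Fr P r i s + 4 * gsp P (2 ^ m) * P.b := by
  have h1 := h.comp.opt P.L le_rfl 0 (by simp)
  rw [blk_top, Nat.sub_self, pow_zero, mul_one, add_zero, zero_mul, zero_add, one_mul, h.blk_rL,
    ← h.ok.good.b_eq] at h1
  have h2 := h.ok.fok.lip (r * P.L) i (z 0) (z P.b) s.1 s.2
  have h3 := h.blk_ends
  have h4 : 0 < P.b := by rw [h.ok.good.b_eq]; positivity
  have h5 := Nat.le_mul_of_pos_right (gsp P (2 ^ m)) h4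
  have h6 : ((List.range P.b).map (M.fch P r i z)).sum =
    ((List.range P.b).map fun j => M.F ((r - 1) * P.L) (i * P.b + j) (z j) (z (j + 1))).sum := rfl
  rw [h6, Fr, mul_assoc 4]
  rw [mul_assoc 2] at h1
  omega

theorem sum_fch' (h : M.Blk P r i s m φ Λ z) :
    ((((List.range P.b).map (M.fch P r i z)).sum : ℕ) : ℝ) ≤ (1 + rho P / 4) * M.Fr P r i s ∧
      Λ * (((List.range P.b).map (M.fch P r i z)).sum : ℕ) ≤ 2 ^ m / 8 := by
  have h1 : ((((List.range P.b).map (M.fch P r i z)).sum : ℕ) : ℝ) ≤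
      M.Fr P r i s + 4 * gsp P (2 ^ m) * P.b := by exact_mod_cast h.sum_fch
  have h3 : (0 : ℝ) ≤ M.Fr P r i s := Nat.cast_nonneg _
  have h2 : (gsp P (2 ^ m) : ℝ) ≤ 32 * M.Fr P r i s / 2 ^ P.kR := h.g_small.1.trans_le h.g_small.2
  have h4 : (128 : ℝ) * 2 ^ P.L / 2 ^ P.kR ≤ rho P / 4 := by
    have a1 := h.ok.good.small_ll
    have a2 := h.ok.good.ll_kR
    have a3 : (2 : ℝ) ^ (7 + P.L + (P.ll + P.jj + 2 + 2)) ≤ 2 ^ P.kR := pow_le_pow_right₀ one_le_two (by omega)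
    rw [rho, div_div, div_le_div_iff₀ (by positivity) (by positivity), one_mul]
    refine le_trans (le_of_eq ?_) a3
    ring
  have h5 : (4 : ℝ) * gsp P (2 ^ m) * P.b ≤ rho P / 4 * M.Fr P r i s := by
    rw [h.ok.good.b_eq, Nat.cast_pow, Nat.cast_ofNat]
    calc (4 : ℝ) * gsp P (2 ^ m) * 2 ^ P.L ≤ 4 * (32 * M.Fr P r i s / 2 ^ P.kR) * 2 ^ P.L := by gcongr
      _ = 128 * 2 ^ P.L / 2 ^ P.kR * M.Fr P r i s := by ring
      _ ≤ _ := mul_le_mul_of_nonneg_right h4 h3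
  have h6 : ((((List.range P.b).map (M.fch P r i z)).sum : ℕ) : ℝ) ≤ (1 + rho P / 4) * M.Fr P r i s := by
    linarith
  refine ⟨h6, ?_⟩
  have h7 : rho P ≤ 1 := by
    rw [rho]
    exact div_le_one_of_le₀ (one_le_pow₀ one_le_two) (by positivity)
  have h8 : ((((List.range P.b).map (M.fch P r i z)).sum : ℕ) : ℝ) ≤ 2 * M.Fr P r i s := by nlinarith
  have h9 := mul_le_mul_of_nonneg_left h8 (zero_le_one.trans h.blk_one)
  have := h.lo
  linarith

theorem mem_grid (h : M.Blk P r i s m φ Λ z) {j : ℕ} (hj : j ≤ P.b) : z j ∈ zgrid P s.1 (2 ^ m) := by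
  have h1 := h.kg_le
  refine mem_zgrid h.ok.good (by omega) (h.comp.dvd j) ?_
  have h2 := h.ok.fok.natAbs_le_sum ((r - 1) * P.L) (i * P.b) z 0 P.b j hj
  rw [zero_add, ← List.range_eq_range'] at h2
  rw [← h.comp.z0]
  refine h2.trans ?_
  have h3 := h.sum_fch'.2
  have h4 := le_mul_of_one_le_left (Nat.cast_nonneg (α := ℝ) ((List.range P.b).map (M.fch P r i z)).sum) h.blk_one
  have h5 : (0 : ℝ) < 2 ^ m := by positivity
  have h6 : ((((List.range P.b).map (M.fch P r i z)).sum : ℕ) : ℝ) ≤ 4 * 2 ^ m := by linarith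
  exact_mod_cast h6

theorem Wk_bounds (h : M.Blk P r i s m φ Λ z) (k j : ℕ) (z1 z2 : ℤ) :
    (M.Fr P (r - 1) (i * P.b + j) (z1, z2) : ℝ) ≤ M.Wk P r i φ k j z1 z2 ∧
      M.Wk P r i φ k j z1 z2 ≤ Λ * M.Fr P (r - 1) (i * P.b + j) (z1, z2) := by
  have hr : r - 1 ≤ P.H := (Nat.sub_le _ _).trans h.rH
  exact ⟨(W_none_bounds h.ok hr _ _ _).1,
    Ratio.mono h.ok h.ratio (t' := wnd P φ k) (by rw [wnd]; omega) le_rfl _ hr _ _⟩

theorem F_le_Gt (h : M.Blk P r i s m φ Λ z) {hb : ℕ} (hhb : hb ≤ P.L) (p : ℕ) (zl zr : ℤ) :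
    (M.F ((r - 1) * P.L + hb) (i * 2 ^ (P.L - hb) + p) zl zr : ℝ) ≤
      Gt P (zgrid P s.1 (2 ^ m)) (M.Wk P r i φ) hb p zl zr := by
  have := blk_avg h.blk_T0 (f := fun _ => (M.F ((r - 1) * P.L + hb) (i * 2 ^ (P.L - hb) + p) zl zr : ℝ))
    (g := fun k => gR (zgrid P s.1 (2 ^ m)) (M.Wk P r i φ k) (blk hb p) zl zr) (c := 0) fun k _ => by
      rw [add_zero]
      refine h.ok.fok.le_gR (zgrid_ne_nil _ _ _) _ _ _ hhb (fun j _ z1 _ z2 _ => ?_) zl zr
      have := (h.Wk_bounds k j z1 z2).1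
      rwa [Fr, h.ok.good.b_eq] at this
  have hT : (P.T0 : ℝ) ≠ 0 := by exact_mod_cast h.blk_T0.ne'
  rwa [add_zero, Finset.sum_const, Finset.card_range, nsmul_eq_mul, mul_div_cancel_left₀ _ hT] at this

theorem Gt_lip (h : M.Blk P r i s m φ Λ z) (hb p : ℕ) (zl zr zl' zr' : ℤ) :
    Gt P (zgrid P s.1 (2 ^ m)) (M.Wk P r i φ) hb p zl zr ≤
      Gt P (zgrid P s.1 (2 ^ m)) (M.Wk P r i φ) hb p zl' zr' + |((zl - zl' : ℤ) : ℝ)| +
        |((zr - zr' : ℤ) : ℝ)| := by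
  rw [add_assoc]
  exact blk_avg h.blk_T0 fun k _ => by
    rw [← add_assoc]
    exact gR_lip (zgrid_ne_nil _ _ _) _ _ _ _ _ _

theorem treeOk (h : M.Blk P r i s m φ Λ z) : TreeOk P.L (M.Gs P r i s m φ z) z := by
  refine ⟨fun hb _ p _ => ?_, fun hb hhb p _ => ?_⟩
  · simp only [Gs, Gc, Gt]
    rw [← add_div, ← Finset.sum_add_distrib, show p * 2 ^ (hb + 1) = 2 * p * 2 ^ hb by ring,
      show (p + 1) * 2 ^ (hb + 1) = (2 * p + 1 + 1) * 2 ^ hb by ring, blk_succ]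
    exact div_le_div_of_nonneg_right (Finset.sum_le_sum fun k _ => gR_append (zgrid_ne_nil _ _ _) _ _ _ _ _ _)
      (Nat.cast_nonneg _)
  · refine le_trans ?_ (h.F_le_Gt hhb p _ _)
    rw [dsp, blk_abs]
    exact_mod_cast h.ok.fok.disp _ _ _ _

theorem Gs_leaf (h : M.Blk P r i s m φ Λ z) {j : ℕ} (hj : j < P.b) :
    M.Gs P r i s m φ z 0 j ≤ M.Wt P (r - 1) (i * P.b + j) (z j, z (j + 1)) φ := by
  simp only [Gs, Gc, Gt, Wt, blk, pow_zero, mul_one]
  refine div_le_div_of_nonneg_right (Finset.sum_le_sum fun k _ => ?_) (Nat.cast_nonneg _)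
  have := gR_le_chain (Zs := zgrid P s.1 (2 ^ m)) (M.Wk P r i φ k) z j 1 fun j' hj' => h.mem_grid (by omega)
  exact this.trans (le_of_eq (add_zero _))

theorem Gs_le (h : M.Blk P r i s m φ Λ z) {hb p : ℕ} (hhb : hb ≤ P.L) (hp : p < 2 ^ (P.L - hb)) :
    M.Gs P r i s m φ z hb p ≤ Λ * (((blk hb p).map (M.fch P r i z)).sum : ℕ) := by
  refine (h.treeOk.G_le hhb hp).trans ?_
  rw [Nat.cast_list_sum, List.map_map, ← List.sum_map_mul_left]
  refine List.sum_le_sum fun j hj => ?_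
  have hj' : j < P.b := by
    refine (mem_blk.1 hj).2.trans_le ?_
    rw [h.ok.good.b_eq, show P.L = P.L - hb + hb by omega, pow_add]
    exact Nat.mul_le_mul_right _ hp
  exact (h.Gs_leaf hj').trans (Wt_bounds h.ok ((Nat.sub_le _ _).trans h.rH) _ _ h.ratio).2

theorem psi_leaf (h : M.Blk P r i s m φ Λ z) {j : ℕ} (hj : j < P.b) :
    psiR (M.Gs P r i s m φ z 0 j) (dsp z 0 j) ≤
      psiR (M.Wt P (r - 1) (i * P.b + j) (z j, z (j + 1)) φ) ((z (j + 1) - z j : ℤ) : ℝ) := by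
  have h1 := psiR_mono (h.treeOk.dsp 0 (Nat.zero_le _) j (by rwa [Nat.sub_zero, ← h.ok.good.b_eq])) (h.Gs_leaf hj)
  have e : dsp z 0 j = ((z (j + 1) - z j : ℤ) : ℝ) := by simp only [dsp, pow_zero, mul_one]
  rwa [← e]

theorem blk_gR_nonneg (h : M.Blk P r i s m φ Λ z) (Zs : List ℤ) (t : ℕ) (js : List ℕ) (zl zr : ℤ) :
    0 ≤ gR Zs (M.Wch P r i t) js zl zr :=
  gR_nonneg (fun _ _ _ => (Nat.cast_nonneg _).trans (W_none_bounds h.ok ((Nat.sub_le _ _).trans h.rH) _ _ _).1) _ _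

/-- Shift of the window by one round: `W (wnd (k+1)) ≤ gR (Wch (wnd k))`, `W (wnd 0) ≤ Λ F ≤ σ / 16`. -/
theorem Wt_le (h : M.Blk P r i s m φ Λ z) :
    M.Wt P r i s φ ≤ Gt P (zgrid P s.1 (2 ^ m)) (M.Wk P r i φ) P.L 0 s.1 s.2 + 2 ^ m / (16 * P.T0) := by
  rw [Wt, Gt, blk_top, ← h.ok.good.b_eq, ← div_div, ← add_div]
  refine div_le_div_of_nonneg_right ?_ (Nat.cast_nonneg _)
  obtain ⟨n, hn⟩ : ∃ n, P.T0 = n + 1 := ⟨P.T0 - 1, by have := h.blk_T0; omega⟩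
  have h1 : M.W r i s none (wnd P φ 0) ≤ Λ * M.Fr P r i s :=
    Ratio.mono h.ok h.ratio (t' := wnd P φ 0) (by rw [wnd]; omega) le_rfl _ h.rH _ _
  have h2 : ∑ k ∈ Finset.range n, M.W r i s none (wnd P φ (k + 1)) ≤
      ∑ k ∈ Finset.range n, gR (zgrid P s.1 (2 ^ m)) (M.Wk P r i φ k) (List.range P.b) s.1 s.2 :=
    Finset.sum_le_sum fun k _ => W_none_le_gR h.ok h.r1 h.rH h.scale.1 h.scale.2 (wnd P φ k)
  have h3 : 0 ≤ gR (zgrid P s.1 (2 ^ m)) (M.Wk P r i φ n) (List.range P.b) s.1 s.2 := h.blk_gR_nonneg _ _ _ _ _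
  have h4 := h.lo
  rw [show Finset.range P.T0 = Finset.range (n + 1) by rw [hn], Finset.sum_range_succ', Finset.sum_range_succ]
  linarith

/-- `psiR_pert`. -/
theorem psi_root (h : M.Blk P r i s m φ Λ z) :
    psiR (M.Wt P r i s φ) ((s.2 - s.1 : ℤ) : ℝ) ≤ psiR (M.Gs P r i s m φ z P.L 0) (dsp z P.L 0) +
      2 ^ m / (16 * P.T0) + 8 * gsp P (2 ^ m) := by
  have h1 : |((s.2 - s.1 : ℤ) : ℝ)| ≤ M.Wt P r i s φ := by
    refine le_trans ?_ (Wt_bounds h.ok h.rH i s h.ratio).1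
    rw [blk_abs]
    exact_mod_cast h.ok.fok.disp _ _ _ _
  have h2 := h.treeOk.dsp P.L le_rfl 0 (by simp)
  have h3 := h.Wt_le
  have h4 := h.Gt_lip P.L 0 s.1 s.2 (z 0) (z P.b)
  have h5 := h.blk_ends
  have h6 : |((s.1 - z 0 : ℤ) : ℝ)| ≤ gsp P (2 ^ m) := by rw [blk_abs]; exact_mod_cast h5.1
  have h7 : |((s.2 - z P.b : ℤ) : ℝ)| ≤ gsp P (2 ^ m) := by rw [blk_abs]; exact_mod_cast h5.2
  have e1 : M.Gs P r i s m φ z P.L 0 = Gt P (zgrid P s.1 (2 ^ m)) (M.Wk P r i φ) P.L 0 (z 0) (z P.b) := by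
    rw [Gs, Gc, zero_mul, zero_add, one_mul, h.ok.good.b_eq]
  have e2 : dsp z P.L 0 = ((z P.b - z 0 : ℤ) : ℝ) := by
    rw [dsp, zero_mul, zero_add, one_mul, h.ok.good.b_eq]
  have h8 : |((s.2 - s.1 : ℤ) : ℝ) - dsp z P.L 0| ≤ 2 * gsp P (2 ^ m) := by
    rw [e2, ← Int.cast_sub, blk_abs]
    exact_mod_cast (show (s.2 - s.1 - (z P.b - z 0)).natAbs ≤ 2 * gsp P (2 ^ m) by omega)
  have h9 := psiR_pert (a := 2 ^ m / (16 * P.T0) + 2 * gsp P (2 ^ m)) h1 h2 (by positivity) (by rw [e1]; linarith) h8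
  linarith

/-- The path through the best states of the contexts of the children. -/
theorem Wt_le_mbar (h : M.Blk P r i s m φ Λ z) {pl : Plan} (hpl : M.PlanOk P r i s (2 ^ m) pl) :
    M.Wt P r i s φ ≤ ((List.range P.b).map fun j => M.mbar P (r - 1) (i * P.b + j) (pc pl j) φ).sum +
      2 ^ m / (16 * P.T0) + 8 * (2 ^ m / 2 ^ P.kx) := by
  have hP := h.ok.good
  choose u hu hu' using fun j => exists_mbar (M := M) (P := P) (r - 1) (i * P.b + j) (pc pl j) φ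
  obtain ⟨n, hn⟩ : ∃ n, P.b = n + 1 := ⟨P.b - 1, by
    have : 0 < P.b := by rw [hP.b_eq]; positivity
    omega⟩
  have near : ∀ j < P.b, ((u j).1 - pz pl j).natAbs ≤ 3 * cw (pc pl j) ∧
      ((u j).2 - pz pl (j + 1)).natAbs ≤ 3 * cw (pc pl j) := by
    intro j hj
    have a1 := om_near (hpl.cert j hj).two_dvd (hu j)
    have a2 := hpl.center_near hP hj
    omega
  have hJ : (s.1 - (u 0).1).natAbs + ((List.range n).map fun j => ((u j).2 - (u (j + 1)).1).natAbs).sum +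
      ((u n).2 - s.2).natAbs ≤ 2 * gsp P (2 ^ m) + 6 * ((List.range P.b).map fun j => cw (pc pl j)).sum := by
    have h1 : ((List.range n).map fun j => ((u j).2 - (u (j + 1)).1).natAbs).sum ≤
        3 * ((List.range n).map fun j => cw (pc pl j)).sum +
          3 * ((List.range n).map fun j => cw (pc pl (j + 1))).sum := by
      rw [← List.sum_map_mul_left, ← List.sum_map_mul_left, ← List.sum_map_add]
      refine List.sum_le_sum fun j hj => ?_
      have hj' := List.mem_range.1 hj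
      have a1 := (near j (by omega)).2
      have a2 := (near (j + 1) (by omega)).1
      omega
    have h2 := List.sum_range_succ (fun j => cw (pc pl j)) n
    have h3 := List.sum_range_succ' (fun j => cw (pc pl j)) n
    have h4 := hpl.junc_le h.blk_g0
    have h5 := (near 0 (by omega)).1
    have h6 := (near n (by omega)).2
    simp only [Nat.succ_eq_add_one] at h2 h3
    simp only [junc, dist1] at h4
    rw [hn] at h4 ⊢
    omega
  have hw : ((((List.range P.b).map fun j => cw (pc pl j)).sum : ℕ) : ℝ) ≤ 2 ^ m / 2 ^ P.kx := by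
    rw [le_div_iff₀ (by positivity)]
    exact_mod_cast hpl.sum_cw hP
  have hg : (gsp P (2 ^ m) : ℝ) ≤ 2 ^ m / 2 ^ P.kx := by
    have := geo_par hP
    rw [h.g_small.1, tau, one_div_mul_eq_div]
    exact div_le_div_of_nonneg_left (by positivity) (by positivity) (pow_le_pow_right₀ one_le_two (by omega))
  have hJ' : (((s.1 - (u 0).1).natAbs + ((List.range n).map fun j => ((u j).2 - (u (j + 1)).1).natAbs).sum +
      ((u n).2 - s.2).natAbs : ℕ) : ℝ) ≤ 8 * (2 ^ m / 2 ^ P.kx) := by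
    have := (Nat.cast_le (α := ℝ)).2 hJ
    rw [Nat.cast_add (2 * _), Nat.cast_mul, Nat.cast_mul, Nat.cast_ofNat, Nat.cast_ofNat] at this
    linarith
  have h1 := blk_avg h.blk_T0
    (f := fun k => gR (zgrid P s.1 (2 ^ m)) (M.Wk P r i φ k) (blk P.L 0) s.1 s.2)
    (g := fun k => ∑ j ∈ Finset.range P.b, M.Wk P r i φ k j (u j).1 (u j).2) (c := 8 * (2 ^ m / 2 ^ P.kx))
    fun k _ => by
      refine (gR_le_path (l := (List.range' 0 (n + 1)).map fun j => (j, (u j).1, (u j).2)) ?_ ?_ _ _).trans ?_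
      · rw [blk_top, ← hP.b_eq, hn, List.map_map, List.range_eq_range']
        exact List.map_id _
      · intro q hq
        obtain ⟨j, hj, rfl⟩ := List.mem_map.1 hq
        exact hpl.grid j (by rw [List.mem_range'_1] at hj; omega) _ (hu j)
      · rw [plana_path, zero_add, ← List.range_eq_range', ← List.range_eq_range', ← hn, blk_lsum]
        simp only [blk_abs]
        rw [Nat.cast_add, Nat.cast_add, Nat.cast_list_sum, List.map_map] at hJ'
        simp only [Function.comp_def] at hJ'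
        linarith
  have h2 : (∑ k ∈ Finset.range P.T0, ∑ j ∈ Finset.range P.b, M.Wk P r i φ k j (u j).1 (u j).2) / P.T0 =
      ((List.range P.b).map fun j => M.mbar P (r - 1) (i * P.b + j) (pc pl j) φ).sum := by
    rw [blk_lsum, Finset.sum_comm, Finset.sum_div]
    exact Finset.sum_congr rfl fun j _ => hu' j
  have h3 := h.Wt_le
  rw [h2] at h1
  rw [Gt] at h3
  linarith

/-- Two rounds are lost: `W t (s; c) ≤ W (t-1) (s; none) ≤ gR (Wch (t-2))`. -/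
theorem lag (h : M.Blk P r i s m φ Λ z) {c : Option Ctx} (hc : M.Adm P r i s c) :
    M.Sum P φ r i s c ≤ 2 * Λ * M.Fr P r i s + P.T0 * (2 * gsp P (2 ^ m)) +
      ∑ k ∈ Finset.range P.T0,
        gR (zgrid P s.1 (2 ^ m)) (M.Wch P r i (rd0 P φ k)) (List.range P.b) (z 0) (z P.b) := by
  have h1 : ∀ k, M.W r i s c (rd0 P φ k) ≤ M.W r i s none (rd0 P φ k - 1) := by
    intro k
    cases c with
    | none => exact W_none_anti h.ok h.rH _ _ (Nat.sub_le _ _)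
    | some c => exact W_some_le_none_self h.ok h.rH (hc c rfl).1.1 (hc c rfl).2 (T0_lt_rd0 h.φ1 k)
  have h2 : ∀ k, M.W r i s c (rd0 P φ k) ≤ Λ * M.Fr P r i s := fun k =>
    (h1 k).trans (Ratio.mono h.ok h.ratio (t' := rd0 P φ k - 1) (by
      have := Nat.mul_le_mul_right P.T0 (Nat.sub_le φ 1)
      rw [rd0]
      omega) le_rfl _ h.rH _ _)
  have h5 := h.blk_ends
  have h6 : |((s.1 - z 0 : ℤ) : ℝ)| ≤ gsp P (2 ^ m) := by rw [blk_abs]; exact_mod_cast h5.1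
  have h7 : |((s.2 - z P.b : ℤ) : ℝ)| ≤ gsp P (2 ^ m) := by rw [blk_abs]; exact_mod_cast h5.2
  have h3 : ∀ k, M.W r i s c (rd0 P φ (k + 1 + 1)) ≤
      gR (zgrid P s.1 (2 ^ m)) (M.Wch P r i (rd0 P φ k)) (List.range P.b) (z 0) (z P.b) + 2 * gsp P (2 ^ m) := by
    intro k
    have a1 := h1 (k + 1 + 1)
    rw [show rd0 P φ (k + 1 + 1) - 1 = rd0 P φ k + 1 by simp only [rd0]; omega] at a1
    have a2 := W_none_le_gR h.ok h.r1 h.rH h.scale.1 h.scale.2 (rd0 P φ k)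
    have a3 := gR_lip (zgrid_ne_nil P s.1 (2 ^ m)) (M.Wch P r i (rd0 P φ k)) (List.range P.b) s.1 s.2 (z 0) (z P.b)
    linarith
  obtain ⟨n, hn⟩ : ∃ n, P.T0 = n + 1 + 1 := ⟨P.T0 - 2, by have := h.ok.good.two_le_T0; omega⟩
  have h4 := Finset.sum_le_sum fun k (_ : k ∈ Finset.range n) => h3 k
  rw [Finset.sum_add_distrib, Finset.sum_const, Finset.card_range, nsmul_eq_mul] at h4
  have h8 : (n : ℝ) * (2 * gsp P (2 ^ m)) ≤ P.T0 * (2 * gsp P (2 ^ m)) :=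
    mul_le_mul_of_nonneg_right (by exact_mod_cast (show n ≤ P.T0 by omega)) (by positivity)
  rw [Sum, show Finset.range P.T0 = Finset.range (n + 1 + 1) by rw [hn], Finset.sum_range_succ',
    Finset.sum_range_succ', Finset.sum_range_succ, Finset.sum_range_succ]
  have := h.blk_gR_nonneg (zgrid P s.1 (2 ^ m)) (rd0 P φ n) (List.range P.b) (z 0) (z P.b)
  have := h.blk_gR_nonneg (zgrid P s.1 (2 ^ m)) (rd0 P φ (n + 1)) (List.range P.b) (z 0) (z P.b)
  have := h2 0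
  have := h2 (0 + 1)
  linarith

end Blk

end Model

end Crest.Agent.R288
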