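import Crest.Agent.R288.RT

/-!
# R288: products of random trees (marginals, supports, union bound, averages)
-/

set_option autoImplicit false

namespace Crest.Agent.R288

open Crest.Agent.R309 (ind)

namespace RT

variable {α β ι : Type}

/-- Support of a product, indexed form. -/
theorem All_seq_map (l : List ι) (t : ι → RT α) (p : ι → α → Prop) (h : ∀ i ∈ l, (t i).All (p i)) :
    (seq (l.map t)).All fun r => List.Forall₂ p l r := by
  induction l with
  | nil => exact List.Forall₂.nil
  | cons i l ih =>
    rw [List.map_cons, All_seq_cons]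
    exact (h i List.mem_cons_self).mono fun a ha =>
      (ih fun j hj => h j (List.mem_cons_of_mem _ hj)).mono fun r hr => List.Forall₂.cons ha hr

theorem All_seq (ts : List (RT α)) (p : α → Prop) (h : ∀ t ∈ ts, t.All p) :
    (seq ts).All fun r => r.length = ts.length ∧ ∀ a ∈ r, p a := by
  induction ts with
  | nil => exact ⟨rfl, fun a ha => absurd ha List.not_mem_nil⟩
  | cons t ts ih =>
    rw [All_seq_cons]
    refine (h t List.mem_cons_self).mono fun a ha =>
      (ih fun j hj => h j (List.mem_cons_of_mem _ hj)).mono fun r hr => ⟨by simp [hr.1], fun b hb => ?_⟩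
    rcases List.mem_cons.1 hb with rfl | hb
    · exact ha
    · exact hr.2 b hb

theorem All_seq_length (ts : List (RT α)) : (seq ts).All fun r => r.length = ts.length := by
  exact (All_seq ts (fun _ => True) fun t _ => All_of_forall t fun _ => trivial).mono fun _ h => h.1

/-- Marginal of a product. -/
theorem E_seq_getD (ts : List (RT α)) (n : ℕ) (hn : n < ts.length) (d : α) (f : α → ℝ) :
    ((seq ts).E fun r => f (r.getD n d)) = ts[n].E f := by
  induction ts generalizing n with
  | nil => exact absurd hn (Nat.not_lt_zero _)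
  | cons t ts ih =>
    rw [E_seq_cons]
    cases n with
    | zero => simp only [List.getD_cons_zero, E_const, List.getElem_cons_zero]
    | succ n =>
      simp only [List.getD_cons_succ, List.getElem_cons_succ]
      rw [ih n (Nat.lt_of_succ_lt_succ hn), E_const]

/-- Expectation of a sum over a product. -/
theorem E_seq_sum (ts : List (RT α)) (f : α → ℝ) :
    ((seq ts).E fun r => (r.map f).sum) = (ts.map fun t => t.E f).sum := by
  induction ts with
  | nil => rfl
  | cons t ts ih => simp only [E_seq_cons, List.map_cons, List.sum_cons, E_add, E_const, ih]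

theorem P_nonneg (t : RT α) (p : α → Prop) : 0 ≤ t.P p := by
  exact E_nonneg t fun _ => R309.ind_nonneg _

theorem P_le_one (t : RT α) (p : α → Prop) : t.P p ≤ 1 := by
  exact E_le (All_of_forall t fun _ => R309.ind_le_one _)

theorem P_not (t : RT α) (p : α → Prop) : (t.P fun a => ¬ p a) = 1 - t.P p := by
  simp only [P, R309.ind_not, E_sub, E_const]

theorem P_mono {t : RT α} {p q : α → Prop} (h : t.All fun a => p a → q a) : t.P p ≤ t.P q := by
  exact E_mono (h.mono fun _ e => R309.ind_mono e)

theorem P_or (t : RT α) (p q : α → Prop) : (t.P fun a => p a ∨ q a) ≤ t.P p + t.P q := by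
  rw [P, P, P, ← E_add]
  refine E_mono' t fun a => ?_
  by_cases hp : p a
  · rw [R309.ind_pos hp]
    linarith [R309.ind_le_one (p a ∨ q a), R309.ind_nonneg (q a)]
  · rw [R309.ind_neg hp, zero_add]
    exact R309.ind_mono fun h => h.resolve_left hp

theorem P_map (t : RT α) (f : α → β) (p : β → Prop) : (t.map f).P p = t.P fun a => p (f a) := by
  exact E_map _ _ _

theorem P_bind (t : RT α) (f : α → RT β) (p : β → Prop) :
    (t.bind f).P p = t.E fun a => (f a).P p := by
  exact E_bind _ _ _

/-- Union bound over a product. -/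
theorem P_seq_map_not (l : List ι) (t : ι → RT α) (p : ι → α → Prop) (δ : ℝ)
    (h : ∀ i ∈ l, ((t i).P fun a => ¬ p i a) ≤ δ) :
    ((seq (l.map t)).P fun r => ¬ List.Forall₂ p l r) ≤ l.length * δ := by
  induction l with
  | nil =>
    rw [List.map_nil, seq_nil, P, E_pure, R309.ind_neg (not_not.2 List.Forall₂.nil)]
    simp
  | cons i l ih =>
    have h1 := h i List.mem_cons_self
    have h2 := ih fun j hj => h j (List.mem_cons_of_mem _ hj)
    rw [List.map_cons, P, E_seq_cons]
    have h3 : ((t i).E fun a => (seq (l.map t)).E fun r => ind (¬ List.Forall₂ p (i :: l) (a :: r))) ≤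
        (t i).E fun a => (seq (l.map t)).E fun r => ind (¬ p i a) + ind (¬ List.Forall₂ p l r) := by
      refine E_mono' _ fun a => E_mono' _ fun r => ?_
      by_cases hp : p i a
      · rw [R309.ind_neg (not_not.2 hp), zero_add]
        exact R309.ind_mono fun h h' => h (List.Forall₂.cons hp h')
      · rw [R309.ind_pos hp]
        linarith [R309.ind_le_one (¬ List.Forall₂ p (i :: l) (a :: r)), R309.ind_nonneg (¬ List.Forall₂ p l r)]
    simp only [E_add, E_const] at h3
    rw [List.length_cons, Nat.cast_succ]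
    unfold P at h1 h2
    linarith

/-- Splitting an expectation along an event. -/
theorem E_le_of_event {t : RT α} {f g : α → ℝ} {p : α → Prop} {B : ℝ} (hB : 0 ≤ B)
    (hg : t.All fun a => 0 ≤ g a) (h : t.All fun a => (p a → f a ≤ g a) ∧ f a ≤ B) :
    t.E f ≤ t.E g + B * t.P fun a => ¬ p a := by
  rw [P, ← E_mul_left, ← E_add]
  refine E_mono ((hg.and h).mono fun a ha => ?_)
  by_cases hp : p a
  · rw [R309.ind_neg (not_not.2 hp), mul_zero, add_zero]
    exact ha.2.1 hp
  · rw [R309.ind_pos hp]
    linarith [ha.1, ha.2.2]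

/-- Markov's inequality. -/
theorem markov {t : RT α} {f : α → ℝ} (hf : t.All fun a => 0 ≤ f a) {c : ℝ} (hc : 0 < c) :
    (t.P fun a => c ≤ f a) ≤ t.E f / c := by
  rw [P, ← E_div]
  refine E_mono (hf.mono fun a ha => ?_)
  by_cases hp : c ≤ f a
  · rw [R309.ind_pos hp]
    exact (one_le_div hc).2 hp
  · rw [R309.ind_neg hp]
    exact div_nonneg ha hc.le

theorem All_rnd (e : ℕ) : (rnd e).All fun v => v < 2 ^ e := by
  induction e with
  | zero => exact Nat.one_pos
  | succ e ih =>
    rw [rnd, All_map] at ih ⊢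
    rw [List.replicate_succ, All_seq_cons]
    refine All_of_forall _ fun b => ih.mono fun l hl => ?_
    rw [Crest.Agent.Lib.PT.ofBits_cons, Nat.bit_val, pow_succ]
    have := b.toNat_le
    omega

theorem rta_sum (n : ℕ) (f : ℕ → ℝ) :
    ∑ v ∈ Finset.range (2 * n), f v = ∑ v ∈ Finset.range n, f (2 * v) + ∑ v ∈ Finset.range n, f (2 * v + 1) := by
  induction n with
  | zero => simp
  | succ n ih =>
    rw [mul_add, mul_one, Finset.sum_range_succ, Finset.sum_range_succ, ih, Finset.sum_range_succ,
      Finset.sum_range_succ]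
    ring

/-- `rnd e` is uniform. -/
theorem E_rnd (e : ℕ) (f : ℕ → ℝ) :
    (rnd e).E f = (∑ v ∈ Finset.range (2 ^ e), f v) / 2 ^ e := by
  induction e generalizing f with
  | zero =>
    simp only [pow_zero, Finset.range_one, Finset.sum_singleton, div_one]
    rfl
  | succ e ih =>
    have h0 := ih fun v => f (2 * v)
    have h1 := ih fun v => f (2 * v + 1)
    rw [rnd, E_map] at h0 h1 ⊢
    rw [List.replicate_succ, E_seq_cons]
    simp only [E, Crest.Agent.Lib.PT.ofBits_cons, Nat.bit_val, Bool.toNat_false, Bool.toNat_true, add_zero]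
    rw [h0, h1, pow_succ' 2 e, rta_sum, pow_succ]
    ring

theorem rta_ge {t : RT ℕ} {a : ℕ} (h : t.All fun v => a ≤ v) (e : ℕ) : (t.avg e).All fun v => a ≤ v := by
  rw [avg, All_map]
  refine (All_seq _ _ fun u hu => (List.eq_of_mem_replicate hu) ▸ h).mono fun l hl => ?_
  have h1 := List.card_nsmul_le_sum l a hl.2
  rw [hl.1, List.length_replicate, smul_eq_mul, mul_comm] at h1
  exact (Nat.le_div_iff_mul_le (Nat.two_pow_pos e)).2 h1

theorem rta_le {t : RT ℕ} {b : ℕ} (h : t.All fun v => v ≤ b) (e : ℕ) : (t.avg e).All fun v => v ≤ b := by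
  rw [avg, All_map]
  refine (All_seq _ _ fun u hu => (List.eq_of_mem_replicate hu) ▸ h).mono fun l hl => ?_
  have h1 := List.sum_le_card_nsmul l b hl.2
  rw [hl.1, List.length_replicate, smul_eq_mul] at h1
  exact Nat.div_le_of_le_mul h1

theorem All_avg {t : RT ℕ} {a b : ℕ} (h : t.All fun v => a ≤ v ∧ v ≤ b) (e : ℕ) :
    (t.avg e).All fun v => a ≤ v ∧ v ≤ b := by
  exact (rta_ge (h.mono fun _ e => e.1) e).and (rta_le (h.mono fun _ e => e.2) e)

theorem All_avg_ge {t : RT ℕ} {a : ℕ} (h : t.All fun v => a ≤ v) (e : ℕ) :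
    (t.avg e).All fun v => a ≤ v := by
  exact rta_ge h e

theorem All_avg_le {t : RT ℕ} {b : ℕ} (h : t.All fun v => v ≤ b) (e : ℕ) :
    (t.avg e).All fun v => v ≤ b := by
  exact rta_le h e

theorem mean_avg_le (t : RT ℕ) (e : ℕ) : (t.avg e).mean ≤ t.mean := by
  have h1 := E_seq_sum (List.replicate (2 ^ e) t) fun v => (v : ℝ)
  rw [List.map_replicate, List.sum_replicate, nsmul_eq_mul, Nat.cast_pow, Nat.cast_ofNat] at h1
  rw [mean, avg, E_map]
  calc _ ≤ (seq (List.replicate (2 ^ e) t)).E fun l => (l.map fun v : ℕ => (v : ℝ)).sum / 2 ^ e := by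
        refine E_mono' _ fun l => Nat.cast_div_le.trans_eq ?_
        rw [Nat.cast_list_sum, Nat.cast_pow, Nat.cast_ofNat]
    _ = t.mean := by
        rw [E_div, h1, mean]
        field_simp

theorem mean_nonneg (t : RT ℕ) : 0 ≤ t.mean := by
  exact E_nonneg t fun _ => Nat.cast_nonneg _

end RT

end Crest.Agent.R288
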