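import Crest.Agent.R288.Learn
import Crest.Agent.R288.RTa

/-!
# R288: the annealed learner

`A k`, `B k` are the estimates of the two options in round `k`.  The weight after `n` rounds is a function of
the first `n` pairs of estimates, so all `pbar k`, `k ≤ n`, are expectations over one sample of length `n`
(`RT.seq_append`, `List.range_succ`, `E_comm`).
-/

set_option autoImplicit false

namespace Crest.Agent.R288

open RT

/-- Expected weight of the second option in round `n`. -/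
noncomputable def pbar (Q xh : ℤ) (A B : ℕ → RT ℕ) (n : ℕ) : ℝ :=
  (seq ((List.range n).map A)).E fun a1 => (seq ((List.range n).map B)).E fun a2 =>
    (learn Q xh (List.zipWith (fun x1 x2 : ℕ => (x2 : ℤ) - x1) a1 a2) : ℝ)

theorem ch_count (N : ℕ) {p : ℤ} (h0 : 0 ≤ p) (h1 : p ≤ N) :
    ∑ u ∈ Finset.range N, (if (u : ℤ) < p then (1 : ℝ) else 0) = p := by
  obtain ⟨m, rfl⟩ := Int.eq_ofNat_of_zero_le h0
  have hm : m ≤ N := by exact_mod_cast h1
  rw [← Finset.sum_filter]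
  have : (Finset.range N).filter (fun u : ℕ => (u : ℤ) < (m : ℤ)) = Finset.range m := by
    ext u
    simp only [Finset.mem_filter, Finset.mem_range, Nat.cast_lt]
    omega
  rw [this]
  simp

theorem ch_succ (A : ℕ → RT ℕ) (n : ℕ) (f : List ℕ → ℝ) :
    (seq ((List.range (n + 1)).map A)).E f =
      (seq ((List.range n).map A)).E fun l => (A n).E fun a => f (l ++ [a]) := by
  rw [List.range_succ, List.map_append, seq_append, E_bind]
  simp only [E_bind, List.map_cons, List.map_nil, seq_single, E_map, E_pure]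

theorem ch_len (A : ℕ → RT ℕ) (n : ℕ) : (seq ((List.range n).map A)).All fun l => l.length = n := by
  simpa using All_seq_length ((List.range n).map A)

theorem ch_take (A : ℕ → RT ℕ) {k n : ℕ} (h : k ≤ n) (f : List ℕ → ℝ) :
    ((seq ((List.range n).map A)).E fun l => f (l.take k)) = (seq ((List.range k).map A)).E f := by
  induction n, h using Nat.le_induction with
  | base => exact E_congr ((ch_len A k).mono fun l hl => by rw [List.take_of_length_le hl.le])
  | succ n hk ih =>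
    rw [ch_succ, ← ih]
    refine E_congr ((ch_len A n).mono fun l hl => ?_)
    have : ∀ a : ℕ, (l ++ [a]).take k = l.take k := fun a =>
      List.take_append_of_le_length (by omega)
    simp only [this, E_const]

theorem ch_getD (A : ℕ → RT ℕ) {k n : ℕ} (h : k < n) (f : ℕ → ℝ) :
    ((seq ((List.range n).map A)).E fun l => f (l.getD k 0)) = (A k).E f := by
  rw [E_seq_getD _ k (by simpa using h)]
  simp

theorem ch_clamp {xh d : ℤ} {D : ℝ} (hD : |D| ≤ xh) : |((clampZ (-xh) xh d : ℤ) : ℝ) - D| ≤ |(d : ℝ) - D| := by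
  rw [abs_le] at hD
  unfold clampZ
  push_cast
  rcases le_total (xh : ℝ) d with h | h
  · rw [min_eq_left h, max_eq_right (by linarith), abs_of_nonneg (by linarith), abs_of_nonneg (by linarith)]
    linarith
  · rw [min_eq_right h]
    rcases le_total (-xh : ℝ) d with h' | h'
    · rw [max_eq_right h']
    · rw [max_eq_left h', abs_of_nonpos (by linarith), abs_of_nonpos (by linarith)]
      linarith

theorem ch_clamp2 {xh : ℤ} (x y : ℕ) {w1 w2 : ℝ} (hD : |w2 - w1| ≤ xh) :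
    |((clampZ (-xh) xh ((y : ℤ) - x) : ℤ) : ℝ) - (w2 - w1)| ≤ |(x : ℝ) - w1| + |(y : ℝ) - w2| := by
  refine (ch_clamp hD).trans ?_
  push_cast
  have : (y : ℝ) - x - (w2 - w1) = -((x : ℝ) - w1) + ((y : ℝ) - w2) := by ring
  rw [this]
  refine (abs_add_le _ _).trans ?_
  rw [abs_neg]

theorem ch_zip {a1 a2 : List ℕ} {n k : ℕ} (h1 : a1.length = n) (h2 : a2.length = n) (hk : k ≤ n) :
    List.zipWith (fun x1 x2 : ℕ => (x2 : ℤ) - x1) (a1.take k) (a2.take k) =
      (List.range k).map fun i => ((a2.getD i 0 : ℕ) : ℤ) - (a1.getD i 0 : ℕ) := by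
  apply List.ext_getElem
  · simp only [List.length_zipWith, List.length_take, List.length_map, List.length_range]
    omega
  · intro i hi hi'
    simp only [List.length_map, List.length_range] at hi'
    simp only [List.getElem_zipWith, List.getElem_take, List.getElem_map, List.getElem_range]
    rw [List.getD_eq_getElem _ _ (by omega), List.getD_eq_getElem _ _ (by omega)]

theorem ch_pbar (Q xh : ℤ) (A B : ℕ → RT ℕ) {k n : ℕ} (hk : k ≤ n) :
    pbar Q xh A B k = (seq ((List.range n).map A)).E fun a1 => (seq ((List.range n).map B)).E fun a2 =>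
      (learn Q xh ((List.range k).map fun i => ((a2.getD i 0 : ℕ) : ℤ) - (a1.getD i 0 : ℕ)) : ℝ) := by
  unfold pbar
  rw [← ch_take A hk]
  refine E_congr ((ch_len A n).mono fun a1 h1 => ?_)
  rw [← ch_take B hk]
  refine E_congr ((ch_len B n).mono fun a2 h2 => ?_)
  rw [ch_zip h1 h2 hk]

theorem ch_err (A B : ℕ → RT ℕ) {k n : ℕ} (hk : k < n) {w1 w2 ε : ℝ}
    (h1 : ((A k).E fun v => |(v : ℝ) - w1|) ≤ ε) (h2 : ((B k).E fun v => |(v : ℝ) - w2|) ≤ ε) :
    ((seq ((List.range n).map A)).E fun a1 => (seq ((List.range n).map B)).E fun a2 =>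
      |((a1.getD k 0 : ℕ) : ℝ) - w1| + |((a2.getD k 0 : ℕ) : ℝ) - w2|) ≤ 2 * ε := by
  simp only [E_add, E_const]
  rw [ch_getD A hk fun v => |(v : ℝ) - w1|, ch_getD B hk fun v => |(v : ℝ) - w2|]
  linarith

/-- A choice node. -/
theorem choice_mean (qb : ℕ) (xh : ℤ) (A B : ℕ → RT ℕ) (n : ℕ) (T : Bool → RT ℕ) :
    ((seq ((List.range n).map A)).bind fun a1 => (seq ((List.range n).map B)).bind fun a2 =>
      (rnd qb).bind fun u => T (decide ((u : ℤ) < learn (2 ^ qb) xh
        (List.zipWith (fun x1 x2 : ℕ => (x2 : ℤ) - x1) a1 a2)))).mean =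
      (T false).mean + pbar (2 ^ qb) xh A B n / 2 ^ qb * ((T true).mean - (T false).mean) := by
  simp only [mean, E_bind]
  have key : ∀ ds : List ℤ, ((rnd qb).E fun u => (T (decide ((u : ℤ) < learn (2 ^ qb) xh ds))).E fun v => (v : ℝ)) =
      ((T false).E fun v => (v : ℝ)) + (learn (2 ^ qb) xh ds : ℝ) / 2 ^ qb *
        (((T true).E fun v => (v : ℝ)) - (T false).E fun v => (v : ℝ)) := by
    intro ds
    have hr := learn_range (Q := 2 ^ qb) (by positivity) xh ds
    have hc := ch_count (2 ^ qb) hr.1 (by exact_mod_cast hr.2)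
    have h2 : ∀ u : ℕ, ((T (decide ((u : ℤ) < learn (2 ^ qb) xh ds))).E fun v => (v : ℝ)) =
        ((T false).E fun v => (v : ℝ)) + (if (u : ℤ) < learn (2 ^ qb) xh ds then (1 : ℝ) else 0) *
          (((T true).E fun v => (v : ℝ)) - (T false).E fun v => (v : ℝ)) := by
      intro u
      by_cases h : (u : ℤ) < learn (2 ^ qb) xh ds
      · simp [h]
      · simp [h]
    rw [E_rnd]
    simp only [h2, Finset.sum_add_distrib, ← Finset.sum_mul, hc, Finset.sum_const, Finset.card_range,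
      nsmul_eq_mul]
    push_cast
    field_simp
  simp only [key, E_add, E_const, E_mul_right, E_div, pbar]

theorem pbar_range {Q : ℤ} (hQ : 0 ≤ Q) (xh : ℤ) (A B : ℕ → RT ℕ) (n : ℕ) :
    0 ≤ pbar Q xh A B n ∧ pbar Q xh A B n ≤ Q := by
  unfold pbar
  refine ⟨E_nonneg _ fun a1 => E_nonneg _ fun a2 => ?_,
    E_le (All_of_forall _ fun a1 => E_le (All_of_forall _ fun a2 => ?_))⟩
  · exact_mod_cast (learn_range hQ xh _).1
  · exact_mod_cast (learn_range hQ xh _).2

/-- `|clamp d - D| ≤ |d - D|` if `|D| ≤ xh`; `learn_dir`. -/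
theorem pbar_dir {Q xh : ℤ} (hQ : 0 ≤ Q) (A B : ℕ → RT ℕ) (n : ℕ) {w1 w2 ε : ℝ}
    (h1 : ((A n).E fun v => |(v : ℝ) - w1|) ≤ ε) (h2 : ((B n).E fun v => |(v : ℝ) - w2|) ≤ ε)
    (hD : |w2 - w1| ≤ xh) :
    (pbar Q xh A B (n + 1) - pbar Q xh A B n) * (w2 - w1) ≤ Q * (2 * ε) := by
  rw [ch_pbar Q xh A B (le_refl (n + 1)), ch_pbar Q xh A B (Nat.le_succ n)]
  have he := ch_err A B (Nat.lt_succ_self n) h1 h2
  have hQ' : (0 : ℝ) ≤ Q := by exact_mod_cast hQ
  refine le_trans ?_ (mul_le_mul_of_nonneg_left he hQ')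
  simp only [← E_sub, ← E_mul_right, ← E_mul_left]
  refine E_mono' _ fun a1 => E_mono' _ fun a2 => ?_
  rw [List.range_succ, List.map_append, List.map_singleton]
  set ds := (List.range n).map fun i => ((a2.getD i 0 : ℕ) : ℤ) - (a1.getD i 0 : ℕ)
  have hd := learn_dir Q xh ds (((a2.getD n 0 : ℕ) : ℤ) - (a1.getD n 0 : ℕ))
  have hc := ch_clamp2 (a1.getD n 0) (a2.getD n 0) hD
  have r1 := learn_range hQ xh ds
  have r2 := learn_range hQ xh (ds ++ [((a2.getD n 0 : ℕ) : ℤ) - (a1.getD n 0 : ℕ)])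
  set c := clampZ (-xh) xh (((a2.getD n 0 : ℕ) : ℤ) - (a1.getD n 0 : ℕ))
  set p1 := learn Q xh ds
  set p2 := learn Q xh (ds ++ [((a2.getD n 0 : ℕ) : ℤ) - (a1.getD n 0 : ℕ)])
  have hd' : ((p2 : ℝ) - p1) * c ≤ 0 := by exact_mod_cast hd
  have ha : |(p2 : ℝ) - p1| ≤ Q := by
    have : |p2 - p1| ≤ Q := abs_le.2 ⟨by omega, by omega⟩
    exact_mod_cast this
  have h3 : ((p2 : ℝ) - p1) * ((w2 - w1) - c) ≤ Q * |(c : ℝ) - (w2 - w1)| := by
    refine (le_abs_self _).trans ?_
    rw [abs_mul, abs_sub_comm (w2 - w1)]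
    exact mul_le_mul_of_nonneg_right ha (abs_nonneg _)
  have h4 := mul_le_mul_of_nonneg_left hc hQ'
  nlinarith

/-- `learn_regret`. -/
theorem pbar_regret {Q xh : ℤ} (hQ : 0 ≤ Q) (hx : 0 ≤ xh) (A B : ℕ → RT ℕ) (n : ℕ) {w1 w2 : ℕ → ℝ} {ε : ℝ}
    (h1 : ∀ k < n, ((A k).E fun v => |(v : ℝ) - w1 k|) ≤ ε)
    (h2 : ∀ k < n, ((B k).E fun v => |(v : ℝ) - w2 k|) ≤ ε)
    (hD : ∀ k < n, |w2 k - w1 k| ≤ xh) {u : ℤ} (hu : 0 ≤ u) (hu' : u ≤ Q) :
    2 * ∑ k ∈ Finset.range n, (pbar Q xh A B k - u) * (w2 k - w1 k) ≤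
      (Q : ℝ) ^ 2 + 8 * xh * (∑ k ∈ Finset.range n,
        |(w2 k - w1 k) - if k = 0 then 0 else w2 (k - 1) - w1 (k - 1)| + n * (4 * ε)) +
        n * Q * (4 * ε) := by
  have hQ' : (0 : ℝ) ≤ Q := by exact_mod_cast hQ
  have hx' : (0 : ℝ) ≤ xh := by exact_mod_cast hx
  -- the error in round `k`
  set e : ℕ → List ℕ → List ℕ → ℝ := fun k a1 a2 =>
    |((a1.getD k 0 : ℕ) : ℝ) - w1 k| + |((a2.getD k 0 : ℕ) : ℝ) - w2 k| with he
  have hE : ∀ k < n, ((seq ((List.range n).map A)).E fun a1 => (seq ((List.range n).map B)).E fun a2 =>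
      e k a1 a2) ≤ 2 * ε := fun k hk => ch_err A B hk (h1 k hk) (h2 k hk)
  have hL : 2 * ∑ k ∈ Finset.range n, (pbar Q xh A B k - u) * (w2 k - w1 k) =
      (seq ((List.range n).map A)).E fun a1 => (seq ((List.range n).map B)).E fun a2 =>
        2 * ∑ k ∈ Finset.range n, ((learn Q xh ((List.range k).map fun i =>
          ((a2.getD i 0 : ℕ) : ℤ) - (a1.getD i 0 : ℕ)) : ℝ) - u) * (w2 k - w1 k) := by
    simp only [E_mul_left, E_sum, E_mul_right, E_sub, E_const]
    congr 1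
    refine Finset.sum_congr rfl fun k hk => ?_
    rw [ch_pbar Q xh A B (Finset.mem_range.1 hk).le]
  have hpt : ∀ a1 a2 : List ℕ, 2 * ∑ k ∈ Finset.range n, ((learn Q xh ((List.range k).map fun i =>
          ((a2.getD i 0 : ℕ) : ℤ) - (a1.getD i 0 : ℕ)) : ℝ) - u) * (w2 k - w1 k) ≤
      (Q : ℝ) ^ 2 + 8 * xh * (∑ k ∈ Finset.range n,
        |(w2 k - w1 k) - if k = 0 then 0 else w2 (k - 1) - w1 (k - 1)| +
          ∑ k ∈ Finset.range n, (e k a1 a2 + e (k - 1) a1 a2)) +
        2 * Q * ∑ k ∈ Finset.range n, e k a1 a2 := by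
    intro a1 a2
    set d : ℕ → ℤ := fun i => ((a2.getD i 0 : ℕ) : ℤ) - (a1.getD i 0 : ℕ) with hd
    have hr := learn_regret hQ hx d n hu hu'
    have hr' : 2 * ∑ k ∈ Finset.range n, ((learn Q xh ((List.range k).map d) : ℝ) - u) *
        (clampZ (-xh) xh (d k) : ℝ) ≤ (Q : ℝ) ^ 2 + 8 * xh * ∑ k ∈ Finset.range n,
        |(clampZ (-xh) xh (d k) : ℝ) - if k = 0 then 0 else (clampZ (-xh) xh (d (k - 1)) : ℝ)| := by
      exact_mod_cast hr
    have hc : ∀ k < n, |(clampZ (-xh) xh (d k) : ℝ) - (w2 k - w1 k)| ≤ e k a1 a2 := fun k hk =>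
      ch_clamp2 (a1.getD k 0) (a2.getD k 0) (hD k hk)
    have s1 : ∑ k ∈ Finset.range n, ((learn Q xh ((List.range k).map d) : ℝ) - u) * (w2 k - w1 k) ≤
        ∑ k ∈ Finset.range n, ((learn Q xh ((List.range k).map d) : ℝ) - u) * (clampZ (-xh) xh (d k) : ℝ) +
          Q * ∑ k ∈ Finset.range n, e k a1 a2 := by
      rw [Finset.mul_sum, ← Finset.sum_add_distrib]
      refine Finset.sum_le_sum fun k hk => ?_
      have r := learn_range hQ xh ((List.range k).map d)
      have ha : |(learn Q xh ((List.range k).map d) : ℝ) - u| ≤ Q := by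
        have : |learn Q xh ((List.range k).map d) - u| ≤ Q := abs_le.2 ⟨by omega, by omega⟩
        exact_mod_cast this
      have h3 : ((learn Q xh ((List.range k).map d) : ℝ) - u) * ((w2 k - w1 k) - clampZ (-xh) xh (d k)) ≤
          Q * |(clampZ (-xh) xh (d k) : ℝ) - (w2 k - w1 k)| := by
        refine (le_abs_self _).trans ?_
        rw [abs_mul, abs_sub_comm (w2 k - w1 k)]
        exact mul_le_mul_of_nonneg_right ha (abs_nonneg _)
      have h4 := mul_le_mul_of_nonneg_left (hc k (Finset.mem_range.1 hk)) hQ'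
      nlinarith
    have s2 : ∑ k ∈ Finset.range n,
        |(clampZ (-xh) xh (d k) : ℝ) - if k = 0 then 0 else (clampZ (-xh) xh (d (k - 1)) : ℝ)| ≤
        ∑ k ∈ Finset.range n, |(w2 k - w1 k) - if k = 0 then 0 else w2 (k - 1) - w1 (k - 1)| +
          ∑ k ∈ Finset.range n, (e k a1 a2 + e (k - 1) a1 a2) := by
      rw [← Finset.sum_add_distrib]
      refine Finset.sum_le_sum fun k hk => ?_
      have hk' := Finset.mem_range.1 hk
      have c1 := abs_le.1 (hc k hk')
      have c2 := abs_le.1 (hc (k - 1) (by omega))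
      have c3 : 0 ≤ e (k - 1) a1 a2 := (abs_nonneg _).trans (hc (k - 1) (by omega))
      split_ifs with h0
      · have := le_abs_self (w2 k - w1 k - 0)
        have := neg_abs_le (w2 k - w1 k - 0)
        exact abs_le.2 ⟨by linarith, by linarith⟩
      · have := le_abs_self (w2 k - w1 k - (w2 (k - 1) - w1 (k - 1)))
        have := neg_abs_le (w2 k - w1 k - (w2 (k - 1) - w1 (k - 1)))
        exact abs_le.2 ⟨by linarith, by linarith⟩
    have s3 := mul_le_mul_of_nonneg_left s2 (by positivity : (0 : ℝ) ≤ 8 * xh)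
    linarith
  rw [hL]
  refine (E_mono' _ fun a1 => E_mono' _ fun a2 => hpt a1 a2).trans ?_
  simp only [E_add, E_const, E_mul_left, E_sum]
  have t1 : ∑ k ∈ Finset.range n, ((seq ((List.range n).map A)).E fun a1 =>
      (seq ((List.range n).map B)).E fun a2 => e k a1 a2) ≤ n * (2 * ε) := by
    refine (Finset.sum_le_card_nsmul _ _ (2 * ε) fun k hk => hE k (Finset.mem_range.1 hk)).trans ?_
    simp
  have t2 : ∑ k ∈ Finset.range n, (((seq ((List.range n).map A)).E fun a1 =>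
      (seq ((List.range n).map B)).E fun a2 => e k a1 a2) + (seq ((List.range n).map A)).E fun a1 =>
      (seq ((List.range n).map B)).E fun a2 => e (k - 1) a1 a2) ≤ n * (4 * ε) := by
    refine (Finset.sum_le_card_nsmul _ _ (4 * ε) fun k hk => ?_).trans (by simp)
    have hk' := Finset.mem_range.1 hk
    linarith [hE k hk', hE (k - 1) (by omega)]
  have t3 := mul_le_mul_of_nonneg_left t1 (by positivity : (0 : ℝ) ≤ 2 * Q)
  have t4 := mul_le_mul_of_nonneg_left t2 (by positivity : (0 : ℝ) ≤ 8 * xh)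
  nlinarith

/-- Total variation of an almost decreasing sequence. -/
theorem tv_le {w : ℕ → ℝ} {B a : ℝ} {n : ℕ} (ha : 0 ≤ a) (hB : 0 ≤ B) (h0 : ∀ k < n, 0 ≤ w k ∧ w k ≤ B)
    (h : ∀ k, k + 1 < n → w (k + 1) ≤ w k + a) :
    ∑ k ∈ Finset.range (n - 1), |w (k + 1) - w k| ≤ B + 2 * n * a := by
  rcases n with _ | n
  · simpa using hB
  have s : ∑ k ∈ Finset.range n, |w (k + 1) - w k| ≤ ∑ k ∈ Finset.range n, (2 * a + (w k - w (k + 1))) := by
    refine Finset.sum_le_sum fun k hk => ?_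
    have := h k (by have := Finset.mem_range.1 hk; omega)
    exact abs_le.2 ⟨by linarith, by linarith⟩
  rw [Finset.sum_add_distrib, Finset.sum_range_sub', Finset.sum_const, Finset.card_range, nsmul_eq_mul] at s
  have b0 := h0 0 (by omega)
  have bn := h0 n (by omega)
  simp only [Nat.add_sub_cancel]
  push_cast
  nlinarith

/-- The value `μ k = w1 k + pbar k / Q (w2 k - w1 k)` of a choice node: almost decreasing, small regret. -/
theorem choice_bounds {Q xh : ℤ} (hQ : 0 < Q) (hx : 0 ≤ xh) (A B : ℕ → RT ℕ) (n : ℕ) {w1 w2 : ℕ → ℝ}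
    {ε a Bd : ℝ} (hε : 0 ≤ ε) (ha : 0 ≤ a) (hB : 0 ≤ Bd)
    (h1 : ∀ k < n, ((A k).E fun v => |(v : ℝ) - w1 k|) ≤ ε)
    (h2 : ∀ k < n, ((B k).E fun v => |(v : ℝ) - w2 k|) ≤ ε)
    (hD : ∀ k < n, |w2 k - w1 k| ≤ xh)
    (b1 : ∀ k < n, 0 ≤ w1 k ∧ w1 k ≤ Bd) (b2 : ∀ k < n, 0 ≤ w2 k ∧ w2 k ≤ Bd)
    (m1 : ∀ k, k + 1 < n → w1 (k + 1) ≤ w1 k + a) (m2 : ∀ k, k + 1 < n → w2 (k + 1) ≤ w2 k + a) :
    (∀ k, k + 1 < n → w1 (k + 1) + pbar Q xh A B (k + 1) / Q * (w2 (k + 1) - w1 (k + 1)) ≤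
      w1 k + pbar Q xh A B k / Q * (w2 k - w1 k) + a + 2 * ε) ∧
    ∀ o : Bool, ∑ k ∈ Finset.range n, (w1 k + pbar Q xh A B k / Q * (w2 k - w1 k)) ≤
      ∑ k ∈ Finset.range n, (if o = true then w2 k else w1 k) +
        (Q / 2 + 4 * xh / Q * (xh + 2 * Bd + 4 * n * a + 4 * n * ε) + 2 * n * ε) := by
  have hQ' : (0 : ℝ) < Q := by exact_mod_cast hQ
  have hx' : (0 : ℝ) ≤ xh := by exact_mod_cast hx
  refine ⟨fun k hk => ?_, fun o => ?_⟩
  · have hd := pbar_dir hQ.le A B k (h1 k (by omega)) (h2 k (by omega)) (hD k (by omega))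
    have hr := pbar_range hQ.le xh A B (k + 1)
    have t0 : 0 ≤ pbar Q xh A B (k + 1) / Q := div_nonneg hr.1 hQ'.le
    have t1 : pbar Q xh A B (k + 1) / Q ≤ 1 := (div_le_one hQ').2 hr.2
    have hd' : (pbar Q xh A B (k + 1) / Q - pbar Q xh A B k / Q) * (w2 k - w1 k) ≤ 2 * ε := by
      rw [← sub_div, div_mul_eq_mul_div, div_le_iff₀ hQ']
      linarith
    have e1 := mul_le_mul_of_nonneg_left (m1 k hk) (sub_nonneg.2 t1)
    have e2 := mul_le_mul_of_nonneg_left (m2 k hk) t0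
    nlinarith
  · have hr := pbar_regret hQ.le hx A B n h1 h2 hD (u := if o = true then Q else 0)
      (by split_ifs <;> omega) (by split_ifs <;> omega)
    have tv : ∑ k ∈ Finset.range n, |(w2 k - w1 k) - if k = 0 then 0 else w2 (k - 1) - w1 (k - 1)| ≤
        xh + 2 * Bd + 4 * n * a := by
      have tv1 := tv_le ha hB b1 m1
      have tv2 := tv_le ha hB b2 m2
      rcases n with _ | n
      · simp only [Finset.range_zero, Finset.sum_empty, Nat.cast_zero]
        linarith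
      rw [Finset.sum_range_succ']
      simp only [Nat.add_sub_cancel, if_true, sub_zero, Nat.succ_ne_zero, if_false] at tv1 tv2 ⊢
      have s : ∑ k ∈ Finset.range n, |(w2 (k + 1) - w1 (k + 1)) - (w2 k - w1 k)| ≤
          ∑ k ∈ Finset.range n, |w1 (k + 1) - w1 k| + ∑ k ∈ Finset.range n, |w2 (k + 1) - w2 k| := by
        rw [← Finset.sum_add_distrib]
        refine Finset.sum_le_sum fun k _ => ?_
        have : (w2 (k + 1) - w1 (k + 1)) - (w2 k - w1 k) = -(w1 (k + 1) - w1 k) + (w2 (k + 1) - w2 k) := by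
          ring
        rw [this]
        refine (abs_add_le _ _).trans ?_
        rw [abs_neg]
      have := hD 0 (by omega)
      linarith
    have e1 : ∑ k ∈ Finset.range n, (w1 k + pbar Q xh A B k / Q * (w2 k - w1 k)) =
        ∑ k ∈ Finset.range n, (if o = true then w2 k else w1 k) +
        (∑ k ∈ Finset.range n, (pbar Q xh A B k - ((if o = true then Q else 0 : ℤ) : ℝ)) * (w2 k - w1 k)) / Q := by
      rw [Finset.sum_div, ← Finset.sum_add_distrib]
      refine Finset.sum_congr rfl fun k _ => ?_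
      split_ifs
      · field_simp
        ring
      · push_cast
        ring
    rw [e1]
    refine add_le_add le_rfl ?_
    rw [div_le_iff₀ hQ']
    have t4 := mul_le_mul_of_nonneg_left tv (by positivity : (0 : ℝ) ≤ 8 * xh)
    have e2 : (Q / 2 + 4 * xh / Q * (xh + 2 * Bd + 4 * n * a + 4 * n * ε) + 2 * n * ε : ℝ) * Q =
        Q ^ 2 / 2 + 4 * xh * (xh + 2 * Bd + 4 * n * a + 4 * n * ε) + 2 * n * ε * Q := by
      field_simp
    rw [e2]
    nlinarith

end Crest.Agent.R288
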