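import Crest.Agent.R288.Par

/-!
# R288: inequalities between the parameters

Everything follows from `64 ≤ jj`, `2^jj ≤ ll < 2^(jj+1)`, `2^ll < hh ≤ 2^(ll+1)` and `100 jj³ ≤ 2^jj`.
Other files may prove further inequalities of this kind locally.
-/

set_option autoImplicit false

namespace Crest.Agent.R288

namespace Good

variable {P : Par}

theorem aux_cube (j : ℕ) (hj : 64 ≤ j) : 100 * (j * j * j) ≤ 2 ^ j := by
  induction j, hj using Nat.le_induction with
  | base => norm_num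
  | succ j hj ih =>
    have h1 : 64 * (j * j) ≤ j * j * j := by nlinarith [Nat.zero_le (j * j)]
    have h2 : 64 * j ≤ j * j := by nlinarith
    rw [pow_succ]
    nlinarith

theorem aux_quart (j : ℕ) (hj : 64 ≤ j) : 1000000 * j ^ 4 ≤ 2 ^ j := by
  induction j, hj using Nat.le_induction with
  | base => norm_num
  | succ j hj ih =>
    have h1 : 64 * j ^ 3 ≤ j ^ 4 := by rw [pow_succ' j 3]; exact Nat.mul_le_mul_right _ hj
    have h2 : 64 * j ^ 2 ≤ j ^ 3 := by rw [pow_succ' j 2]; exact Nat.mul_le_mul_right _ hj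
    have h3 : 64 * j ≤ j ^ 2 := by rw [sq]; exact Nat.mul_le_mul_right _ hj
    have h4 : (j + 1) ^ 4 = j ^ 4 + 4 * j ^ 3 + 6 * j ^ 2 + 4 * j + 1 := by ring
    rw [pow_succ 2 j, h4]
    omega

theorem aux_ll_ne (h : Good P) : P.ll ≠ 0 := by
  intro h0
  have := h.big
  rw [Par.jj.eq_1, h0] at this
  simp at this

theorem aux_log_ne (h : Good P) : Nat.log 2 (P.1 + P.2.1) ≠ 0 := by
  intro h0
  have := h.aux_ll_ne
  rw [Par.ll.eq_1, h0] at this
  simp at this

theorem ll_lo (h : Good P) : 2 ^ P.jj ≤ P.ll := by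
  rw [Par.jj.eq_1]
  exact Nat.pow_log_le_self 2 h.aux_ll_ne

theorem ll_hi (h : Good P) : P.ll < 2 ^ (P.jj + 1) := by
  have _ := h
  rw [Par.jj.eq_1]
  exact Nat.lt_pow_succ_log_self (by norm_num) _

theorem hh_lo (h : Good P) : 2 ^ P.ll < P.hh := by
  rw [Par.hh.eq_1, Par.ll.eq_1]
  exact Nat.lt_succ_of_le (Nat.pow_log_le_self 2 h.aux_log_ne)

theorem hh_hi (h : Good P) : P.hh ≤ 2 ^ (P.ll + 1) := by
  have _ := h
  rw [Par.hh.eq_1, Par.ll.eq_1]
  exact Nat.lt_pow_succ_log_self (by norm_num) _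

theorem N_lt (h : Good P) : P.1 + P.2.1 < 2 ^ P.hh := by
  have _ := h
  rw [Par.hh.eq_1]
  exact Nat.lt_pow_succ_log_self (by norm_num) _

theorem N_ge (h : Good P) : 2 ^ (P.hh - 1) ≤ P.1 + P.2.1 := by
  rw [Par.hh.eq_1, Nat.add_sub_cancel]
  refine Nat.pow_log_le_self 2 fun h0 => h.aux_log_ne ?_
  rw [h0]; simp

/-- cubic terms in `jj` are negligible against `ll` -/
theorem cube (h : Good P) : 100 * (P.jj * P.jj * P.jj) ≤ P.ll := by
  exact (aux_cube _ h.big).trans h.ll_lo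

/-- fourth powers of `ll` are negligible against `hh` -/
theorem quart (h : Good P) : 1000000 * P.ll ^ 4 ≤ P.hh := by
  have h1 := h.cube
  have h2 := h.big
  have h3 : 64 ≤ P.ll := by
    have : P.jj ≤ P.jj * P.jj * P.jj := by nlinarith [Nat.zero_le (P.jj * P.jj)]
    omega
  exact (aux_quart _ h3).trans h.hh_lo.le

theorem L_pos (h : Good P) : 1 ≤ P.L := by
  have := h.big
  rw [Par.L.eq_1]
  nlinarith

theorem hh_le_HL (h : Good P) : P.hh ≤ P.H * P.L := by
  rw [Par.H.eq_1, mul_comm]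
  exact (Nat.lt_mul_div_succ _ h.L_pos).le

theorem aux_sq (h : Good P) : 64 * P.jj ≤ P.jj * P.jj ∧ 64 * (P.jj * P.jj) ≤ P.jj * P.jj * P.jj := by
  have := h.big
  constructor
  · exact Nat.mul_le_mul_right _ this
  · rw [mul_comm 64]; exact Nat.mul_le_mul_left _ this

theorem aux_ll_hh (h : Good P) : P.ll < P.hh := Nat.lt_two_pow_self.trans h.hh_lo

theorem HL_le (h : Good P) : P.H * P.L ≤ 2 * P.hh := by
  have h1 := Nat.div_mul_le_self P.hh P.L
  have h2 : P.L ≤ P.hh := by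
    have := h.aux_sq
    have := h.cube
    have := h.aux_ll_hh
    rw [Par.L.eq_1]
    omega
  rw [Par.H.eq_1, add_mul]
  omega

theorem H_le (h : Good P) : P.H ≤ P.hh := by
  have h1 := h.HL_le
  have h2 : 2 ≤ P.L := by
    have := h.aux_sq
    have := h.big
    rw [Par.L.eq_1]
    omega
  have h3 := Nat.mul_le_mul_left P.H h2
  omega

theorem kT_add (h : Good P) : P.kT + 6 * P.jj = P.ll := by
  have := h.aux_sq
  have := h.cube
  rw [Par.kT.eq_1]
  omega

theorem aux_llsq (h : Good P) : 100 * P.ll ≤ P.ll * P.ll := by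
  have := h.aux_sq
  have := h.cube
  have := h.big
  exact Nat.mul_le_mul_right _ (by omega)

theorem mb_add (h : Good P) : P.mb + P.kd = P.kg + 1 := by
  have := h.aux_sq
  have := h.cube
  have := h.big
  have := h.aux_llsq
  have h1 : P.kd ≤ P.kg := by
    rw [Par.kd.eq_1, Par.kx.eq_1, Par.ka.eq_1, Par.L.eq_1, Par.kg.eq_1, Par.kR.eq_1]
    omega
  rw [Par.mb.eq_1]
  omega

/-- room between the small exponents and `ll` -/
theorem small_ll (h : Good P) : 2 * P.kθ + P.kd + P.kK + P.L + 20 * P.jj + 100 ≤ P.ll := by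
  have := h.aux_sq
  have := h.cube
  have := h.big
  rw [Par.kθ.eq_1, Par.kd.eq_1, Par.kK.eq_1, Par.kx.eq_1, Par.ka.eq_1, Par.L.eq_1, mul_add (P.jj * P.jj)]
  omega

/-- room between `ll` and `kR` -/
theorem ll_kR (h : Good P) : 100 * P.ll ≤ P.kR := by
  have := h.aux_llsq
  rw [Par.kR.eq_1]
  omega

theorem kR_lt (h : Good P) : P.kR < 2 ^ (2 * P.jj + 3) := by
  have h1 := h.ll_hi
  have h2 : P.ll * P.ll < 2 ^ (P.jj + 1) * 2 ^ (P.jj + 1) := Nat.mul_self_lt_mul_self h1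
  have h3 : 2 ^ (2 * P.jj + 3) = 2 * (2 ^ (P.jj + 1) * 2 ^ (P.jj + 1)) := by ring
  rw [Par.kR.eq_1, h3]
  omega

theorem b_eq (h : Good P) : P.b = 2 ^ P.L := by
  have := h.small_ll
  have := h.ll_kR
  rw [Par.b.eq_1]
  exact h.p2_eq (by rw [Par.kP.eq_1]; omega)

theorem T0_eq (h : Good P) : P.T0 = 2 ^ P.kT := by
  have := h.kT_add
  have := h.ll_kR
  rw [Par.T0.eq_1]
  exact h.p2_eq (by rw [Par.kP.eq_1]; omega)

theorem F0_eq (h : Good P) : P.F0 = 2 ^ P.kg := by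
  rw [Par.F0.eq_1]
  exact h.p2_eq (by rw [Par.kP.eq_1, Par.kg.eq_1]; omega)

theorem F1_eq (h : Good P) : P.F1 = 2 ^ (P.kb + 2 * P.kγ + 1) := by
  have := h.small_ll
  have := h.aux_llsq
  rw [Par.F1.eq_1]
  exact h.p2_eq (by rw [Par.kP.eq_1, Par.kb.eq_1, Par.kγ.eq_1, Par.kR.eq_1]; omega)

theorem two_le_T0 (h : Good P) : 2 ≤ P.T0 := by
  have := h.small_ll
  have := h.kT_add
  rw [h.T0_eq]
  exact Nat.le_self_pow (by omega) 2

end Good

theorem good_of_fast {x y E : ℕ} {c0 : ℕ} (hc : 64 ≤ c0) (h : Fast c0 (x + y) E) :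
    Good (x, y, ⟨tgt (x, y)⟩) := by
  constructor
  · rw [Par.jj.eq_1, Par.ll.eq_1]
    unfold Fast at h
    exact (hc.trans (Nat.le_add_left _ _)).trans h
  · rw [Par.kP.eq_1, Par.kR.eq_1, Par.ll.eq_1]
    rfl

end Crest.Agent.R288
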