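import Crest.Agent.R288.Sch
import Crest.Agent.R288.RTa

/-!
# R288: recursive schemes, unfolding, hybrid argument, size invariants
-/

set_option autoImplicit false

namespace Crest.Agent.R288

open Crest.Agent.Lib.PT

namespace Scheme

variable {S : Scheme} {P : Par}

theorem Cst.mono {n n' c c' : ℕ} {k : Call} (h : S.Cst P n c k) (hn : n ≤ n') (hc : c ≤ c') :
    S.Cst P n' c' k := by
  induction n generalizing n' c c' k with
  | zero => exact h.elim
  | succ n ih =>
    obtain ⟨m, rfl⟩ : ∃ m, n' = m + 1 := ⟨n' - 1, by omega⟩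
    refine ⟨h.1.trans hc, h.2.imp id fun ⟨f1, h1, h2⟩ => ⟨f1, fun k' hk' => ih (h1 k' hk') (by omega) le_rfl,
      fun r1 => ?_⟩⟩
    obtain ⟨f2, h3, h4⟩ := h2 r1
    exact ⟨f2, fun k' hk' => ih (h3 k' hk') (by omega) le_rfl, h4.trans hc⟩

theorem Cst.prim {k : Call} (h : k.1 ≤ 1) {n c : ℕ} (hc : 1 ≤ c) : S.Cst P (n + 1) c k :=
  ⟨hc, Or.inl h⟩

/-- Uniform bounds on the two stages. -/
theorem Cst.of_bounds {k : Call} {n c c1 c2 m1 m2 : ℕ} (h1 : ∀ k' ∈ S.s1 P k, S.Cst P n c1 k')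
    (l1 : (S.s1 P k).length ≤ m1) (h2 : ∀ r1, ∀ k' ∈ S.s2 P k r1, S.Cst P n c2 k')
    (l2 : ∀ r1, (S.s2 P k r1).length ≤ m2) (hc : 1 + m1 * c1 + m2 * c2 ≤ c) :
    S.Cst P (n + 1) c k := by
  refine ⟨by omega, Or.inr ⟨fun _ => c1, h1, fun r1 => ⟨fun _ => c2, h2 r1, le_trans ?_ hc⟩⟩⟩
  simp only [List.map_const', List.sum_replicate, smul_eq_mul]
  exact Nat.add_le_add (Nat.add_le_add_left (Nat.mul_le_mul_right _ l1) _) (Nat.mul_le_mul_right _ (l2 r1))

theorem Tm.s1 {k : Call} (h : S.Tm P k) (hk : 1 < k.1) : ∀ k' ∈ S.s1 P k, S.Tm P k' := by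
  obtain ⟨n, c, h⟩ := h
  cases n with
  | zero => exact h.elim
  | succ n =>
    obtain ⟨f1, h1, -⟩ := h.2.resolve_left (by omega)
    exact fun k' hk' => ⟨n, f1 k', h1 k' hk'⟩

theorem Tm.s2 {k : Call} (h : S.Tm P k) (hk : 1 < k.1) (r1 : List V) :
    ∀ k' ∈ S.s2 P k r1, S.Tm P k' := by
  obtain ⟨n, c, h⟩ := h
  cases n with
  | zero => exact h.elim
  | succ n =>
    obtain ⟨f1, -, h2⟩ := h.2.resolve_left (by omega)
    obtain ⟨f2, h3, -⟩ := h2 r1
    exact fun k' hk' => ⟨n, f2 k', h3 k' hk'⟩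

theorem scha_body_congr {g g' : Call → RT V} {k : Call} (h1 : ∀ k' ∈ S.s1 P k, g k' = g' k')
    (h2 : ∀ r1, ∀ k' ∈ S.s2 P k r1, g k' = g' k') : S.body P g k = S.body P g' k := by
  unfold body
  rw [List.map_congr_left h1]
  congr 1
  funext r1
  rw [List.map_congr_left (h2 r1)]

theorem eval_stable {pr : Call → Option (RT V)} (hpr : ∀ k : Call, k.1 ≤ 1 → pr k ≠ none)
    {n c m : ℕ} {k : Call} (h : S.Cst P n c k) (hm : n ≤ m) :
    S.eval P pr m k = S.eval P pr n k := by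
  induction n generalizing c m k with
  | zero => exact h.elim
  | succ n ih =>
    obtain ⟨m, rfl⟩ : ∃ m', m = m' + 1 := ⟨m - 1, by omega⟩
    simp only [eval]
    cases e : pr k with
    | some t => rfl
    | none =>
      obtain ⟨f1, h1, h2⟩ := h.2.resolve_left fun h' => hpr k h' e
      refine scha_body_congr (fun k' hk' => ih (h1 k' hk') (by omega)) fun r1 k' hk' => ?_
      obtain ⟨f2, h3, -⟩ := h2 r1
      exact ih (h3 k' hk') (by omega)

theorem ev_eq_eval {pr : Call → Option (RT V)} (hpr : ∀ k : Call, k.1 ≤ 1 → pr k ≠ none)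
    {n c : ℕ} {k : Call} (h : S.Cst P n c k) : S.ev P pr k = S.eval P pr n k := by
  classical
  have h' : ∃ n, ∃ c, S.Cst P n c k := ⟨n, c, h⟩
  unfold ev
  rw [dif_pos h']
  obtain ⟨c', hc'⟩ := Nat.find_spec h'
  exact (eval_stable hpr hc' (Nat.find_min' h' ⟨c, h⟩)).symm

theorem ev_prim {pr : Call → Option (RT V)} {k : Call} (h : S.Tm P k) {t : RT V}
    (ht : pr k = some t) : S.ev P pr k = t := by
  classical
  have h' : ∃ n, ∃ c, S.Cst P n c k := h
  unfold ev
  rw [dif_pos h']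
  obtain ⟨c', hc'⟩ := Nat.find_spec h'
  generalize Nat.find h' = m at hc' ⊢
  cases m with
  | zero => exact hc'.elim
  | succ m => simp only [eval, ht, Option.getD_some]

theorem ev_unfold {pr : Call → Option (RT V)} (hpr : ∀ k : Call, k.1 ≤ 1 → pr k ≠ none)
    {k : Call} (h : S.Tm P k) (ht : pr k = none) :
    S.ev P pr k = S.body P (S.ev P pr) k := by
  obtain ⟨n, c, h⟩ := h
  cases n with
  | zero => exact h.elim
  | succ n =>
    rw [ev_eq_eval hpr h]
    simp only [eval, ht, Option.getD_none]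
    obtain ⟨f1, h1, h2⟩ := h.2.resolve_left fun h' => hpr k h' ht
    refine scha_body_congr (fun k' hk' => (ev_eq_eval hpr (h1 k' hk')).symm) fun r1 k' hk' => ?_
    obtain ⟨f2, h3, -⟩ := h2 r1
    exact (ev_eq_eval hpr (h3 k' hk')).symm

theorem scha_E01 {α : Type} (t : RT α) {f : α → ℝ} (hf : ∀ v, 0 ≤ f v ∧ f v ≤ 1) : 0 ≤ t.E f ∧ t.E f ≤ 1 :=
  ⟨RT.E_nonneg t fun a => (hf a).1, RT.E_le (RT.All_of_forall t fun a => (hf a).2)⟩

theorem scha_seq {α ι : Type} (l : List ι) (g g' : ι → RT α) (w : ι → ℕ) (δ : ℝ)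
    (H : ∀ i ∈ l, ∀ f : α → ℝ, (∀ v, 0 ≤ f v ∧ f v ≤ 1) → (g' i).E f ≤ (g i).E f + w i * δ)
    (F : List α → ℝ) (hF : ∀ v, 0 ≤ F v ∧ F v ≤ 1) :
    (RT.seq (l.map g')).E F ≤ (RT.seq (l.map g)).E F + ((l.map w).sum : ℕ) * δ := by
  induction l generalizing F with
  | nil => simp
  | cons i l ih =>
    simp only [List.map_cons, RT.E_seq_cons, List.sum_cons, Nat.cast_add]
    have h1 := RT.E_mono' (g' i) fun a => ih (fun j hj => H j (List.mem_cons_of_mem _ hj))
      (fun r => F (a :: r)) fun r => hF _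
    rw [RT.E_add, RT.E_const] at h1
    have h2 := H i List.mem_cons_self (fun a => (RT.seq (l.map g)).E fun r => F (a :: r))
      fun a => scha_E01 _ fun r => hF _
    linarith

/-- Hybrid argument.  `pr'` agrees with `pr` except that it may answer some calls directly, with a
distribution that is `δ`-close (on test functions with values in `[0, 1]`) to the meaning of the call
under `pr`.  Induction on the depth; for lists of calls replace one call after the other
(the test function `fun r1 => (…).E f` again has values in `[0, 1]`). -/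
theorem hybrid {pr pr' : Call → Option (RT V)} (hpr : ∀ k : Call, k.1 ≤ 1 → pr k ≠ none) {δ : ℝ}
    (hδ : 0 ≤ δ)
    (h : ∀ k, pr' k = pr k ∨ (pr k = none ∧ ∃ t', pr' k = some t' ∧ (S.Tm P k →
      ∀ f : V → ℝ, (∀ v, 0 ≤ f v ∧ f v ≤ 1) → t'.E f ≤ (S.ev P pr k).E f + δ)))
    {n c : ℕ} {k : Call} (hk : S.Cst P n c k) (f : V → ℝ) (hf : ∀ v, 0 ≤ f v ∧ f v ≤ 1) :
    (S.ev P pr' k).E f ≤ (S.ev P pr k).E f + c * δ := by
  have hpr' : ∀ k : Call, k.1 ≤ 1 → pr' k ≠ none := fun k hk => by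
    rcases h k with e | ⟨e, -⟩
    · rw [e]; exact hpr k hk
    · exact absurd e (hpr k hk)
  induction n generalizing c k f with
  | zero => exact hk.elim
  | succ n ih =>
    have hT : S.Tm P k := ⟨_, _, hk⟩
    have hc : (1 : ℝ) ≤ c := by exact_mod_cast hk.1
    rcases h k with e | ⟨-, t', ht', hcl⟩
    swap
    · rw [ev_prim hT ht']
      have := hcl hT f hf
      nlinarith
    cases e' : pr k with
    | some t =>
      rw [ev_prim hT e', ev_prim hT (e.trans e')]
      nlinarith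
    | none =>
      rw [ev_unfold hpr hT e', ev_unfold hpr' hT (e.trans e')]
      obtain ⟨f1, h1, h2⟩ := hk.2.resolve_left fun h' => hpr k h' e'
      simp only [body, RT.E_bind, RT.E_pure]
      have a1 : ∀ r1, ((RT.seq ((S.s2 P k r1).map (S.ev P pr'))).E fun r2 => f (S.out P k r1 r2)) ≤
          ((RT.seq ((S.s2 P k r1).map (S.ev P pr))).E fun r2 => f (S.out P k r1 r2)) +
            (c - (((S.s1 P k).map f1).sum : ℕ)) * δ := by
        intro r1
        obtain ⟨f2, h3, h4⟩ := h2 r1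
        refine (scha_seq _ _ _ f2 δ (fun k' hk' f hf => ih (h3 k' hk') f hf) _ fun r2 => hf _).trans ?_
        have h5 : ((1 + ((S.s1 P k).map f1).sum + ((S.s2 P k r1).map f2).sum : ℕ) : ℝ) ≤ c := by
          exact_mod_cast h4
        rw [Nat.cast_add, Nat.cast_add, Nat.cast_one] at h5
        exact add_le_add_right (mul_le_mul_of_nonneg_right (by linarith) hδ) _
      have a2 := RT.E_mono' (RT.seq ((S.s1 P k).map (S.ev P pr'))) a1
      rw [RT.E_add, RT.E_const] at a2
      have a3 := scha_seq _ _ _ f1 δ (fun k' hk' f hf => ih (h1 k' hk') f hf)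
        (fun r1 => (RT.seq ((S.s2 P k r1).map (S.ev P pr))).E fun r2 => f (S.out P k r1 r2))
        fun r1 => scha_E01 _ fun r2 => hf _
      linarith

/-- Size bounds from an invariant on calls and a relation between calls and their results. -/
theorem szb_of_inv {pr : Call → Option (RT V)} (hpr : ∀ k : Call, k.1 ≤ 1 → pr k ≠ none) {B : ℕ}
    (Ok : Call → Prop) (Res : Call → V → Prop) (h0 : ∀ k, Ok k → sz k ≤ B)
    (h1 : ∀ k v, Ok k → Res k v → sz v ≤ B)
    (h2 : ∀ k t, Ok k → pr k = some t → t.All (Res k))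
    (h3 : ∀ k, Ok k → pr k = none → (S.s1 P k).length ≤ B ∧ (∀ k' ∈ S.s1 P k, Ok k') ∧
      ∀ r1, List.Forall₂ Res (S.s1 P k) r1 → (S.s2 P k r1).length ≤ B ∧
        (∀ k' ∈ S.s2 P k r1, Ok k') ∧
        ∀ r2, List.Forall₂ Res (S.s2 P k r1) r2 → Res k (S.out P k r1 r2))
    {n c : ℕ} {k : Call} (hk : S.Cst P n c k) (hok : Ok k) :
    S.Szb P pr B n k ∧ (S.eval P pr n k).All (Res k) := by
  induction n generalizing c k with
  | zero => exact hk.elim
  | succ n ih =>
    cases e : pr k with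
    | some t =>
      have a1 : (S.eval P pr (n + 1) k).All (Res k) := by
        simp only [eval, e, Option.getD_some]
        exact h2 k t hok e
      exact ⟨⟨h0 k hok, a1.mono fun v hv => h1 k v hok hv, fun e' => by rw [e] at e'; cases e'⟩, a1⟩
    | none =>
      obtain ⟨f1, g1, g2⟩ := hk.2.resolve_left fun h' => hpr k h' e
      obtain ⟨b1, b2, b3⟩ := h3 k hok e
      have a0 := RT.All_seq_map (S.s1 P k) (S.eval P pr n) Res fun k' hk' => (ih (g1 k' hk') (b2 k' hk')).2
      have a1 : (S.eval P pr (n + 1) k).All (Res k) := by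
        simp only [eval, e, Option.getD_none, body, RT.All_bind, RT.All_pure]
        refine a0.mono fun r1 hr1 => ?_
        obtain ⟨f2, g3, -⟩ := g2 r1
        obtain ⟨-, c2, c3⟩ := b3 r1 hr1
        exact (RT.All_seq_map (S.s2 P k r1) (S.eval P pr n) Res
          fun k' hk' => (ih (g3 k' hk') (c2 k' hk')).2).mono c3
      refine ⟨⟨h0 k hok, a1.mono fun v hv => h1 k v hok hv, fun _ =>
        ⟨b1, fun k' hk' => (ih (g1 k' hk') (b2 k' hk')).1, a0.mono fun r1 hr1 => ?_⟩⟩, a1⟩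
      obtain ⟨f2, g3, -⟩ := g2 r1
      obtain ⟨c1, c2, -⟩ := b3 r1 hr1
      exact ⟨c1, fun k' hk' => (ih (g3 k' hk') (c2 k' hk')).1⟩

end Scheme

theorem realPrim_ne_none (P : Par) (mem : ℕ → ℕ) (k : Call) (h : k.1 ≤ 1) :
    realPrim P mem k ≠ none := by
  unfold realPrim
  split_ifs with h0 h1
  · simp
  · simp
  · omega

end Crest.Agent.R288
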