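import Crest.Agent.R288.Alg
import Crest.Agent.R288.SchA
import Crest.Agent.R288.ParA

/-!
# R288: cost of the basic calls and of the oracle

`alg.Cst P n c k` unfolds with `Scheme.Cst`; `alg.s1 P (cRow …)` is computed by
`simp [alg, algS1, cRow, Dec.dec_enc]` (tags are numerals).  Use `Cst.of_bounds`, `Cst.mono`, `Cst.prim`.
`P.p2 e ≤ 2 ^ e` always.
-/

set_option autoImplicit false

namespace Crest.Agent.R288

open Crest.Agent.Lib.PT

variable {P : Par}

theorem p2_le_two_pow (P : Par) (e : ℕ) : P.p2 e ≤ 2 ^ e := by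
  rw [Par.p2.eq_1]
  exact (min_le_left _ _).trans (Nat.pow_le_pow_right two_pos (min_le_left _ _))

/-- calls with one stage -/
theorem csa_one {k : Call} {n c c1 m : ℕ} {l : List Call} (e1 : alg.s1 P k = l) (e2 : ∀ r, alg.s2 P k r = [])
    (h : ∀ k' ∈ l, alg.Cst P n c1 k') (hl : l.length ≤ m) (hc : 1 + m * c1 ≤ c) : alg.Cst P (n + 1) c k :=
  Scheme.Cst.of_bounds (c2 := 0) (m2 := 0) (e1 ▸ h) (e1 ▸ hl) (fun r => by simp [e2]) (fun r => by simp [e2]) hc

theorem cst_rnd (e : ℕ) : alg.Cst P 2 (e + 1) (cRnd e) := by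
  refine csa_one (l := List.replicate e cCoin) (c1 := 1) (m := e) (by simp [alg, algS1, cRnd])
    (fun r => by simp [alg, algS2, cRnd]) (fun k hk => ?_) (by simp) (by omega)
  rw [List.eq_of_mem_replicate hk]
  exact Scheme.Cst.prim (by simp [cCoin]) le_rfl

theorem cst_avg {n c : ℕ} {k : Call} (h : alg.Cst P n c k) (e : ℕ) :
    alg.Cst P (n + 1) (1 + 2 ^ e * c) (cAvg k e) := by
  refine csa_one (l := List.replicate (P.p2 e) k) (by simp [alg, algS1, cAvg])
    (fun r => by simp [alg, algS2, cAvg]) (fun k hk => ?_) (by simpa using p2_le_two_pow P e) le_rfl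
  rwa [List.eq_of_mem_replicate hk]

theorem cst_vec {n c m : ℕ} {ks : List Call} (h : ∀ k ∈ ks, alg.Cst P n c k) (hm : ks.length ≤ m) :
    alg.Cst P (n + 1) (1 + m * c) (cVec ks) := by
  exact csa_one (by simp [alg, algS1, cVec]) (fun r => by simp [alg, algS2, cVec]) h hm le_rfl

theorem cst_sum {n c m : ℕ} {ks : List Call} (h : ∀ k ∈ ks, alg.Cst P n c k) (hm : ks.length ≤ m) :
    alg.Cst P (n + 1) (1 + m * c) (cSum ks) := by
  exact csa_one (by simp [alg, algS1, cSum]) (fun r => by simp [alg, algS2, cSum]) h hm le_rfl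

/-- Induction on `e`. -/
theorem cst_row (e i : ℕ) (α : ℤ) (κ : Un) (row : List ℕ) :
    alg.Cst P (e + 2) (2 ^ e * (2 * κ.n + 4) - 1) (cRow e i α κ row) := by
  induction e generalizing i row with
  | zero =>
    refine csa_one (c1 := 1) (m := 2 * κ.n + 2) rfl (fun r => by simp [alg, algS2, cRow, rowS2]) (fun k hk => ?_)
      (by simp [alg, algS1, cRow, rowS1]) (by omega)
    simp only [alg, algS1, cRow, rowS1, dec_enc, Nat.reduceEqDiff, if_true, if_false, List.mem_cons,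
      List.mem_map] at hk
    rcases hk with rfl | ⟨_, -, rfl⟩ <;> exact Scheme.Cst.prim (by simp [cRead]) le_rfl
  | succ e ih =>
    have : 0 < 2 ^ e * (2 * κ.n + 4) := by positivity
    refine Scheme.Cst.of_bounds (c1 := 2 ^ e * (2 * κ.n + 4) - 1) (c2 := 2 ^ e * (2 * κ.n + 4) - 1) (m1 := 1) (m2 := 1)
      ?_ ?_ (fun r => ?_) (fun r => ?_) (by rw [pow_succ', mul_assoc]; omega) <;>
      simp [alg, algS1, algS2, cRow.eq_1 (e + 1), rowS1, rowS2] <;> exact ih ..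

theorem cst_small (e i : ℕ) (α γ : ℤ) (κ : ℕ) :
    alg.Cst P (e + 3) (2 ^ e * (2 * κ + 4)) (cSmall e i α γ κ) := by
  have : 0 < 2 ^ e * (2 * κ + 4) := by positivity
  refine csa_one (c1 := 2 ^ e * (2 * κ + 4) - 1) (m := 1) (l := smallS1 (⟨e⟩, i, α, γ, ⟨κ⟩))
    (by simp [alg, algS1, cSmall]) (fun r => by simp [alg, algS2, cSmall]) (fun k hk => ?_) ?_ (by omega)
  · unfold smallS1 at hk
    split_ifs at hk
    · rw [List.mem_singleton.1 hk]
      exact cst_row _ _ _ ⟨κ⟩ _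
    · cases hk
  · unfold smallS1
    split_ifs <;> simp

theorem csa_ll (h : Good P) : 6400 * P.L ≤ P.ll ∧ 64 ≤ P.L := by
  have := h.aux_sq
  have := h.cube
  have := h.big
  rw [Par.L.eq_1]
  omega

theorem csa_kb (h : Good P) : P.kγ + P.kb + 2 ≤ 2 ^ P.kγ ∧ 1 ≤ P.kb ∧ 5 ≤ P.kγ := by
  have h1 := csa_ll h
  have h2 := Good.aux_quart P.ll (by omega)
  have h3 := h.aux_llsq
  have h4 : P.ll * P.ll ≤ P.ll ^ 4 := by
    rw [← sq]
    exact Nat.pow_le_pow_right (by omega) (by norm_num)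
  rw [Par.kγ.eq_1, Par.kb.eq_1, pow_add]
  omega

theorem csa_gstates (α : ℤ) (κ : ℕ) {eb : ℕ} (hb : eb < P.kγ + P.kb + 2) :
    2 ^ eb * (gstates P α κ eb).length ≤ 2 ^ (3 * P.kγ + P.kb + 7) := by
  have h1 := p2_le_two_pow P (2 * P.kγ + P.kb + 1 - eb)
  have h2 := p2_le_two_pow P P.kγ
  have h3 : 0 < 2 ^ (2 * P.kγ + P.kb + 1 - eb) := by positivity
  have h4 : 0 < 2 ^ P.kγ := by positivity
  have h5 : 2 ^ (3 * P.kγ + P.kb + 7) = 2 ^ eb * ((8 * 2 ^ (2 * P.kγ + P.kb + 1 - eb)) * (8 * 2 ^ P.kγ)) := by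
    rw [show 3 * P.kγ + P.kb + 7 = eb + (3 + (2 * P.kγ + P.kb + 1 - eb) + (3 + P.kγ)) by omega]
    simp only [pow_add, Nat.reducePow]
  simp only [gstates, List.length_flatMap, List.length_map, List.length_range, List.map_const', List.sum_replicate,
    smul_eq_mul, h5]
  exact Nat.mul_le_mul_left _ (Nat.mul_le_mul (by omega) (by omega))

theorem csa_draw {e n G : ℕ} (hn : 2 ≤ n) (hG : ∀ i α γ κ, alg.Cst P n G (cGap (e - P.kb) i α γ κ)) (i : ℕ) (α : ℤ)
    (κ eb l : ℕ) : alg.Cst P (n + 1) (P.kb + 2 + (gstates P α κ eb).length * G) (cGDraw e i α κ eb l) := by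
  have e1 : alg.s1 P (cGDraw e i α κ eb l) = [cRnd P.kb] := by simp [alg, algS1, cGDraw]
  have e2 : ∀ r, alg.s2 P (cGDraw e i α κ eb l) r = gdrawS2 P (⟨e⟩, i, α, κ, eb, l) r := fun r => by
    simp [alg, algS2, cGDraw]
  refine Scheme.Cst.of_bounds (c1 := P.kb + 1) (c2 := G) (m1 := 1) (m2 := (gstates P α κ eb).length) (fun k hk => ?_)
    (by simp [e1]) (fun r k hk => ?_) (fun r => by simp [e2, gdrawS2]) (by omega)
  · rw [e1, List.mem_singleton] at hk
    exact hk ▸ (cst_rnd _).mono hn le_rfl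
  · rw [e2] at hk
    obtain ⟨s, -, rfl⟩ := List.mem_map.1 hk
    exact hG ..

theorem csa_flat {ι : Type} (l : List ι) (f : ι → List ℕ) : (l.flatMap f).sum = (l.map fun x => (f x).sum).sum := by
  induction l <;> simp [*]

theorem csa_sum {ι : Type} (l : List ι) (f : ι → ℕ) (c : ℕ) (h : ∀ x ∈ l, f x ≤ c) : (l.map f).sum ≤ l.length * c := by
  simpa using List.sum_le_card_nsmul (l.map f) c (by simpa using h)

theorem csa_raw (h : Good P) {e n G : ℕ} (hn : 2 ≤ n) (hG : ∀ i α γ κ, alg.Cst P n G (cGap (e - P.kb) i α γ κ))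
    (G1 : 1 ≤ G) (i : ℕ) (α : ℤ) (κ : ℕ) :
    alg.Cst P (n + 2) (1 + 2 ^ (5 * P.kγ + P.kb + 14) * G) (cGRaw e i α κ) := by
  have e1 : alg.s1 P (cGRaw e i α κ) = (gdraws P).map fun q => cGDraw e i α κ q.1 q.2 := by
    simp [alg, algS1, cGRaw, grawS1]
  have e2 : ∀ r, alg.s2 P (cGRaw e i α κ) r = [] := fun r => by simp [alg, algS2, cGRaw]
  refine ⟨by omega, Or.inr ⟨fun k => P.kb + 2 + (gstates P α κ (dec k.2 : AGDraw).2.2.2.2.1).length * G, ?_,
    fun r => ⟨fun _ => 0, by simp [e2], ?_⟩⟩⟩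
  · simp only [e1, List.forall_mem_map]
    intro q _
    simpa [cGDraw] using csa_draw hn hG i α κ q.1 q.2
  · obtain ⟨h1, -, -⟩ := csa_kb h
    simp only [e1, e2, gdraws, List.map_flatMap, List.map_replicate, List.map_nil, List.sum_nil,
      cGDraw, dec_enc, csa_flat, List.sum_replicate, smul_eq_mul, add_zero]
    refine Nat.add_le_add_left ((csa_sum _ _ (2 ^ P.kγ * (2 ^ (3 * P.kγ + P.kb + 14) * G)) fun eb hb => ?_).trans ?_) _
    · rw [List.mem_range] at hb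
      simp only [List.map_const', List.sum_replicate, List.length_range, smul_eq_mul]
      refine Nat.mul_le_mul (p2_le_two_pow _ _) ((Nat.mul_le_mul_right _ (p2_le_two_pow _ _)).trans ?_)
      have a1 := Nat.mul_le_mul_right G (csa_gstates α κ hb)
      have a2 : 2 ^ eb * (P.kb + 2) ≤ 2 ^ (3 * P.kγ + P.kb + 7) * G := by
        refine le_trans ?_ (Nat.le_mul_of_pos_right _ G1)
        rw [show 3 * P.kγ + P.kb + 7 = (2 * P.kγ + P.kb + 7) + P.kγ by ring, pow_add]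
        exact Nat.mul_le_mul (Nat.pow_le_pow_right two_pos (by omega)) (by omega)
      rw [show 3 * P.kγ + P.kb + 14 = 3 * P.kγ + P.kb + 7 + 7 by ring, pow_add _ _ 7, pow_add _ _ 6]
      generalize 2 ^ (3 * P.kγ + P.kb + 7) = x at *
      generalize 2 ^ eb = y at *
      linarith
    · rw [List.length_range, show 5 * P.kγ + P.kb + 14 = P.kγ + (P.kγ + (3 * P.kγ + P.kb + 14)) by ring,
        pow_add 2 P.kγ, pow_add 2 P.kγ, mul_assoc, mul_assoc]
      exact Nat.mul_le_mul_right _ h1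

/-- Strong induction on `e`.  A raw test makes `2^kγ · 2^(eb+6)` draws in band `eb < kγ + kb + 2`, and such a
draw makes `|gstates eb| ≤ 2^(2kγ + kb + 4 - eb) · 2^(kγ + 3)` gap tests at height `e - kb` (so use a
cost function that depends on the call, directly in the definition of `Cst`); `8 hh ≤ 2^(ll+4)`,
`kγ + kb + 2 ≤ 2^kγ`. -/
theorem cst_gap (h : Good P) (e i : ℕ) (α γ : ℤ) (κ : ℕ) :
    alg.Cst P (4 * e + 4) (2 ^ (e + P.kb + 2 * P.kγ + 4 + 10 * P.kγ * (e / P.kb))) (cGap e i α γ κ) := by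
  induction e using Nat.strong_induction_on generalizing i α γ κ with
  | _ e ih =>
  obtain ⟨-, h1, h2⟩ := csa_kb h
  have e1 : alg.s1 P (cGap e i α γ κ) = gapS1 P (⟨e⟩, i, α, γ, κ) := by simp [alg, algS1, cGap]
  have e2 : ∀ r, alg.s2 P (cGap e i α γ κ) r = [] := fun r => by simp [alg, algS2, cGap]
  have h0 : ∀ {c}, 1 ≤ c → alg.s1 P (cGap e i α γ κ) = [] → alg.Cst P (4 * e + 4) c (cGap e i α γ κ) := fun hc e =>
    csa_one (c1 := 0) (m := 0) e e2 (by simp) le_rfl hc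
  simp only [gapS1] at e1
  split_ifs at e1 with a1 a2 a3
  · exact h0 Nat.one_le_two_pow e1
  · refine csa_one (m := 1) e1 e2 (fun k hk => ?_) le_rfl
      (c1 := 2 ^ e * (2 * min κ P.F1 + 4)) (le_trans ?_ (Nat.pow_le_pow_right two_pos (Nat.le_add_right _ _)))
    · rw [List.mem_singleton.1 hk]
      exact (cst_small ..).mono (by omega) le_rfl
    · have b1 : min κ P.F1 ≤ 2 ^ (P.kb + 2 * P.kγ + 1) := h.F1_eq ▸ min_le_right _ _
      have b2 : 0 < 2 ^ (P.kb + 2 * P.kγ + 1) := by positivity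
      have b3 : 0 < 2 ^ e := by positivity
      rw [show e + P.kb + 2 * P.kγ + 4 = e + (P.kb + 2 * P.kγ + 1 + 3) by ring, pow_add 2 e, pow_add 2 _ 3]
      nlinarith
  · exact h0 Nat.one_le_two_pow e1
  · simp only [not_le] at a3
    have b1 := csa_raw h (e := e) (n := 4 * e + 1) (by omega)
      (fun i α γ κ => (ih (e - P.kb) (by omega) i α γ κ).mono (by omega) le_rfl) Nat.one_le_two_pow i α κ
    refine csa_one (m := 2 ^ P.kγ) e1 e2 (fun k hk => List.eq_of_mem_replicate hk ▸ b1) ?_ ?_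
    · have := h.hh_hi
      rw [List.length_replicate, Par.kγ.eq_1, pow_add 2 _ 5]
      rw [pow_succ] at this
      omega
    · rw [Nat.div_eq_sub_div h1 a3.le, ← pow_add]
      generalize hx : 5 * P.kγ + P.kb + 14 + _ = x
      have b2 : 0 < 2 ^ x := by positivity
      have b3 : 0 < 2 ^ P.kγ := by positivity
      refine le_trans (b := 2 ^ (P.kγ + (x + 2))) (by rw [pow_add, pow_add]; nlinarith)
        (Nat.pow_le_pow_right two_pos ?_)
      rw [mul_add]
      omega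

theorem csa_orc (h : Good P) (e i : ℕ) (α γ : ℤ) : alg.Cst P (4 * e + 5)
    (1 + (e + 2) * 2 ^ (e + P.kb + 2 * P.kγ + 4 + 10 * P.kγ * (e / P.kb))) (cOrc e i α γ) := by
  refine csa_one (l := orcS1 (⟨e⟩, i, α, γ)) (by simp [alg, algS1, cOrc]) (fun r => by simp [alg, algS2, cOrc])
    (fun k hk => ?_) ?_ le_rfl
  · unfold orcS1 at hk
    split_ifs at hk
    · cases hk
    · obtain ⟨j, -, rfl⟩ := List.mem_map.1 hk
      exact cst_gap h ..
  · unfold orcS1
    split_ifs <;> simp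

/-- `10 kγ L ≤ kb` (from `Good.cube`), `r L + 3 ≤ 2 ^ (r + L)`. -/
theorem cst_orc (h : Good P) (r i : ℕ) (α γ : ℤ) :
    alg.Cst P (4 * (r * P.L) + 5) (2 ^ (r * (P.L + 2) + P.kP)) (cOrc (r * P.L) i α γ) := by
  refine (csa_orc h _ i α γ).mono le_rfl ?_
  have h1 := csa_ll h
  have h2 := h.aux_llsq
  have h3 : 10 * P.kγ * P.L ≤ P.kb := by
    rw [Par.kγ.eq_1, Par.kb.eq_1]
    nlinarith
  have h4 : 10 * P.kγ * (r * P.L / P.kb) ≤ r := by
    refine (Nat.mul_div_le_mul_div_assoc ..).trans (Nat.div_le_of_le_mul ?_)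
    nlinarith
  have h5 : r * P.L + 3 ≤ 2 ^ (r + P.L) := by
    have := Nat.mul_le_mul (Nat.lt_two_pow_self (n := r)) (Nat.lt_two_pow_self (n := P.L))
    rw [pow_add]
    nlinarith
  generalize hx : r * P.L + P.kb + 2 * P.kγ + 4 + _ = x
  have h6 : 0 < 2 ^ x := by positivity
  refine le_trans (b := 2 ^ (r + P.L + x)) (by rw [pow_add]; nlinarith) (Nat.pow_le_pow_right two_pos ?_)
  rw [Par.kP.eq_1, Par.kR.eq_1, mul_add r]
  rw [Par.kγ.eq_1, Par.kb.eq_1] at hx h4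
  omega

theorem tm_small (e i : ℕ) (α γ : ℤ) (κ : ℕ) : alg.Tm P (cSmall e i α γ κ) :=
  ⟨_, _, cst_small e i α γ κ⟩

theorem tm_gap (h : Good P) (e i : ℕ) (α γ : ℤ) (κ : ℕ) : alg.Tm P (cGap e i α γ κ) :=
  ⟨_, _, cst_gap h e i α γ κ⟩

theorem tm_orc (h : Good P) (e i : ℕ) (α γ : ℤ) : alg.Tm P (cOrc e i α γ) := by
  exact ⟨_, _, csa_orc h e i α γ⟩

end Crest.Agent.R288
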