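import Crest.Agent.R288.CstBAux

/-!
# R288: cost of the main recursion

Suggested proof.  Put `κ1 = kK + 2 kx + 4 jj + 20`, `κQ = 4 kP`, `c r t = 2 ^ (r (L + κ1) + t κQ + 2 kP)`,
`D = 8 (L + 1) (mb + 2)`, `d r t = 4 r L + 10 + (r + t + 1) D`, and prove by strong induction on `t`, then on
`r`, simultaneously
* `Cst (d r t) (c r t) (cTop r i s c t)` whenever `c ≠ none → T0 < t`,
* for `1 ≤ r`, `hb ≤ L`, `q ≤ mb`, `T0 < t`: `cSN r i pl hb p s k0 q t` costs at most
  `2 · 2^hb · c (r-1) t` (more precisely `2^hb c(r-1,t) + (2^(hb+1) - 1)(mb+1) · X` with `X` the cost of the calls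
  into the past of one choice node) with depth `d (r-1) t + 4 (hb (mb+1) + q + 1)`.
Calls at an earlier time `t' < t` may be repeated `2^(3 kP)` times (tables have `b · |zgrid|² · 2^kP` entries,
there are `T0`, `nS`, `nC`, `|om c| ≤ (2 F0 + 1)²` of them: `cTop'` is only called with `radc c ≤ F0`);
times: `wnd P (phs P t) k ≤ t - 1` for `k < T0`, `T0 < t`; `T0 < rnk P t k < t` for `k < nIn P t`;
`T0 < t - 1` if `nIn P t ≠ 0`.  Calls at the same time go one block down: `nS` or `nC` averages of `2^kK` roots,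
`nC` hints, each with `∑_{lv < nw} 2^(kK+lv) · |tabKeys lv| ≤ nw · 2^(kK + kd + 4) · 2^(kx + 2)` calls and
`2^kK · b` calls (`kd = kx + L + 1`, `nS, nC ≤ 2^(2 jj + 6)`, `nw ≤ 2^(2jj)`).  `cRnd` is called with at most
`4 hh + 3 ka` bits.  Finally `H (L + κ1) + T κQ + 2 kP ≤ hh + C (hh / jj)`, because
`T0 = 2^(ll - 6 jj)`, `ll < 2^(jj+1)`, `2^ll < hh`.
-/

set_option autoImplicit false

namespace Crest.Agent.R288

open Crest.Agent.Lib.PT

variable {P : Par}

variable {n A U r t : ℕ}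

/-- the nodes of the small mode at earlier times are bounded -/
def PastS (P : Par) (n A r t : ℕ) : Prop := ∀ t' < t, P.T0 < t' → ∀ i pl, ∀ hb ≤ P.L, ∀ p s k0, ∀ q ≤ P.mb,
  alg.Cst P n A (cSN r i pl hb p s k0 q t')

/-- the calls one block down are bounded -/
def Low (P : Par) (n U r t : ℕ) : Prop := ∀ i s c, alg.Cst P n U (cTop (r - 1) i s (some c) t)

theorem cb_sn0 (h : Good P) (hA : 1 ≤ A) (hp : PastS P n A r t) (hl : Low P n U r t) (ht : P.T0 < t) {X Y : ℕ}
    (hX : 1 + 3 * ((4 * 2 ^ P.kP) ^ 2 * A) ≤ X) (hY : 2 * (P.mb * X) + 1 ≤ Y) (i : ℕ) (pl : Plan) :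
    ∀ hb ≤ P.L, ∀ q ≤ P.mb, ∀ p s k0 c, 2 ^ hb * (U + 1 + Y) + q * X ≤ c + Y →
      alg.Cst P (n + 3 + hb * (P.mb + 1) + q + 1) c (cSN r i pl hb p s k0 q t) := by
  intro hb
  induction hb with
  | zero =>
    intro _ q _ p s k0 c hc
    refine Scheme.Cst.of_bounds (c1 := U) (c2 := 0) (m1 := 1) (m2 := 0) (fun k hk => ?_) ?_ (fun r1 k hk => ?_)
      (fun r1 => ?_) (by omega)
    · simp only [alg, algS1, cSN, snS1, dec_enc] at hk
      simp only [List.mem_singleton.1 (by simpa using hk)]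
      exact (hl _ _ _).mono (by omega) le_rfl
    · simp [alg, algS1, cSN, snS1]
    · simp [alg, algS2, cSN, snS2] at hk
    · simp [alg, algS2, cSN, snS2]
  | succ hb ih =>
    intro hhb q
    have hpw : 0 < 2 ^ hb := by positivity
    have hge : U + 1 + Y ≤ 2 ^ hb * (U + 1 + Y) := Nat.le_mul_of_pos_left _ hpw
    induction q with
    | zero =>
      intro _ p s k0 c hc
      rw [pow_succ, mul_right_comm] at hc
      refine Scheme.Cst.of_bounds (c1 := 2 ^ hb * (U + 1 + Y) + P.mb * X - Y) (c2 := 0) (m1 := 2) (m2 := 0)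
        (fun k hk => ?_) ?_ (fun r1 k hk => ?_) (fun r1 => ?_) (by omega)
      · have e : alg.s1 P (cSN r i pl (hb + 1) p s k0 0 t) =
            [cSN r i pl hb (2 * p) (s.1, optz P pl (hb + 1) p k0) 0 P.mb t,
              cSN r i pl hb (2 * p + 1) (optz P pl (hb + 1) p k0, s.2) 0 P.mb t] := by
          simp [alg, algS1, cSN, snS1]
        rw [e] at hk
        simp only [List.mem_cons, List.not_mem_nil, or_false] at hk
        rcases hk with rfl | rfl <;>
          exact (ih (by omega) P.mb le_rfl _ _ _ _ (by omega)).mono (by rw [add_mul hb]; omega) le_rfl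
      · simp [alg, algS1, cSN, snS1]
      · simp [alg, algS2, cSN, snS2] at hk
      · simp [alg, algS2, cSN, snS2]
    | succ q ihq =>
      intro hq p s k0 c hc
      have hc' := hc
      rw [pow_succ, mul_right_comm, add_mul q] at hc'
      refine Scheme.Cst.of_bounds (c1 := (4 * 2 ^ P.kP) ^ 2 * A) (c2 := c - X) (m1 := 3) (m2 := 1)
        (fun k hk => ?_) ?_ (fun r1 k hk => ?_) (fun r1 => ?_) (by omega)
      · have e : alg.s1 P (cSN r i pl (hb + 1) p s k0 (q + 1) t) =
            [cVec ((List.range (nIn P t)).map fun k => cAvg (cSN r i pl (hb + 1) p s k0 q (rnk P t k)) P.kP),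
              cVec ((List.range (nIn P t)).map fun k =>
                cAvg (cSN r i pl (hb + 1) p s (k0 + P.p2 q) q (rnk P t k)) P.kP),
              cRnd (qbits P (omg P pl (hb + 1) p))] := by
          simp [alg, algS1, cSN, snS1, snOpt]
        rw [e] at hk
        simp only [List.mem_cons, List.not_mem_nil, or_false] at hk
        have a1 : ∀ k1, Pz P n A 2 (cVec ((List.range (nIn P t)).map fun k =>
            cAvg (cSN r i pl (hb + 1) p s k1 q (rnk P t k)) P.kP)) := fun k1 =>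
          Pz.vmap hA (fun k hk => (Pz.zero (hp _ (cb_rnk h ht (List.mem_range.1 hk)).2
            (cb_rnk h ht (List.mem_range.1 hk)).1 i pl _ hhb p s k1 q (by omega))).avg hA) (by simpa using cb_nIn h t)
        rcases hk with rfl | rfl | rfl
        · exact Scheme.Cst.mono (a1 _) (by omega) le_rfl
        · exact Scheme.Cst.mono (a1 _) (by omega) le_rfl
        · refine (cst_rnd _).mono (by omega) ((cb_qbits h _).trans ?_)
          have : 0 < 2 ^ P.kP := by positivity
          nlinarith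
      · simp [alg, algS1, cSN, snS1]
      · obtain ⟨k1, rfl⟩ : ∃ k1, k = cSN r i pl (hb + 1) p s k1 q t := by
          refine ⟨if choose2 P (omg P pl (hb + 1) p) (rd r1 0) (rd r1 1) (rd r1 2) = true then k0 + P.p2 q else k0, ?_⟩
          simpa [alg, algS2, cSN, snS2, snOpt] using hk
        exact (ihq (by omega) p s k1 _ (by rw [pow_succ, mul_right_comm]; omega)).mono (by omega) le_rfl
      · simp [alg, algS2, cSN, snS2]

theorem cb_sn (h : Good P) (hA : 1 ≤ A) (hp : PastS P n A r t) (hl : Low P n U r t) (ht : P.T0 < t)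
    (hU : (4 * 2 ^ P.kP) ^ 8 * A ≤ U) (i : ℕ) (pl : Plan) {hb : ℕ} (hhb : hb ≤ P.L) (p : ℕ) (s : ℤ × ℤ) (k0 : ℕ)
    {q : ℕ} (hq : q ≤ P.mb) :
    alg.Cst P (n + 8 + (P.L + 1) * (P.mb + 1)) (2 ^ (P.L + 2) * U) (cSN r i pl hb p s k0 q t) := by
  have hM : 0 < 2 ^ P.kP := by positivity
  have a0 : 0 < (4 * 2 ^ P.kP) ^ 2 * A := by positivity
  have a1 : 1 + 3 * ((4 * 2 ^ P.kP) ^ 2 * A) ≤ (4 * 2 ^ P.kP) ^ 3 * A := by
    have : (4 * 2 ^ P.kP) ^ 3 * A = 2 ^ P.kP * (4 * ((4 * 2 ^ P.kP) ^ 2 * A)) := by ring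
    have := Nat.le_mul_of_pos_left (4 * ((4 * 2 ^ P.kP) ^ 2 * A)) hM
    omega
  have a2 : 2 * (P.mb * ((4 * 2 ^ P.kP) ^ 3 * A)) + 1 ≤ U := by
    have b1 := cb_lay (P := P) hA 3
    have b2 := Nat.mul_le_mul_right ((4 * 2 ^ P.kP) ^ 3 * A) (cb_nS h).2.2.2.1
    have b3 : (4 * 2 ^ P.kP) ^ (3 + 1) * A ≤ (4 * 2 ^ P.kP) ^ 8 * A :=
      Nat.mul_le_mul_right _ (Nat.pow_le_pow_right (by positivity) (by omega))
    omega
  refine (cb_sn0 h hA hp hl ht a1 a2 i pl hb hhb q hq p s k0 _ ?_).mono ?_ le_rfl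
  · have b1 : 2 ^ hb * (U + 1 + U) ≤ 2 ^ P.L * (4 * U) :=
      Nat.mul_le_mul (Nat.pow_le_pow_right two_pos hhb) (by omega)
    have b2 := Nat.mul_le_mul_right ((4 * 2 ^ P.kP) ^ 3 * A) hq
    have b3 : 2 ^ (P.L + 2) * U = 2 ^ P.L * (4 * U) := by ring
    omega
  · have := Nat.mul_le_mul_right (P.mb + 1) hhb
    rw [add_mul P.L]
    omega

theorem cb_sum_flat {ι : Type} (l : List ι) (g : ι → List Call) (f : Call → ℕ) {W : ℕ}
    (h : ∀ a ∈ l, ((g a).map f).sum ≤ W) : ((l.flatMap g).map f).sum ≤ l.length * W := by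
  induction l with
  | nil => simp
  | cons a l ih =>
    have h1 := h a (by simp)
    have h2 := ih fun b hb => h b (by simp [hb])
    simp only [List.flatMap_cons, List.map_append, List.sum_append, List.length_cons, add_mul]
    omega

theorem cb_nil (n : ℕ) {c : ℕ} (hc : 1 ≤ c) : alg.Cst P (n + 1) c (cSum []) :=
  (cst_sum (n := n) (c := 0) (m := 0) (by simp) le_rfl).mono le_rfl (by omega)

theorem cb_hint (h : Good P) (hl : Low P n U r t) (hn : 2 ≤ n) (hU : P.L + 2 ≤ U) (i : ℕ) (c : Ctx) (σ : ℕ)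
    (pls : List (Option Plan)) :
    alg.Cst P (n + 3) ((P.nw + 2) * (2 ^ (P.kK + 2 * P.kx + P.L + 7) * U)) (cHint r i c σ pls t) := by
  have hW : 0 < 2 ^ (P.kK + 2 * P.kx + P.L + 7) * U := Nat.mul_pos (by positivity) (by omega)
  have draw : ∀ lv, alg.Cst P (n + 2) (((tabKeys P c σ lv).length + 1) * U) (cDraw r i c σ lv t) := fun lv => by
    refine Scheme.Cst.of_bounds (c1 := P.L + 1) (c2 := U) (m1 := 1) (m2 := (tabKeys P c σ lv).length)
      (fun k hk => ?_) ?_ (fun r1 k hk => ?_) (fun r1 => ?_) (by rw [add_mul]; omega)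
    · obtain rfl : k = cRnd P.L := by simpa [alg, algS1, cDraw] using hk
      exact (cst_rnd _).mono (by omega) le_rfl
    · simp [alg, algS1, cDraw]
    · simp only [alg, algS2, cDraw, drawS2, dec_enc] at hk
      obtain ⟨c', -, rfl⟩ := List.mem_map.1 (by simpa only [Nat.reduceEqDiff, if_true, if_false] using hk)
      exact (hl _ _ _).mono (by omega) le_rfl
    · simp [alg, algS2, cDraw, drawS2]
  have cent : ∀ pl, alg.Cst P (n + 2) (2 ^ (P.kK + 2 * P.kx + P.L + 7) * U) (cAvg (cCent P r i pl t) P.kK) := fun pl => by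
    have a1 : alg.Cst P (n + 1) (1 + 2 ^ P.L * U) (cCent P r i pl t) := by
      refine cst_sum (fun k hk => ?_) (by simp [h.b_eq])
      obtain ⟨j, -, rfl⟩ := List.mem_map.1 hk
      exact hl _ _ _
    refine (cst_avg a1 P.kK).mono le_rfl ?_
    have b1 : 0 < 2 ^ P.L * U := Nat.mul_pos (by positivity) (by omega)
    have b2 : 2 ^ P.kK * (1 + 2 ^ P.L * U) ≤ 2 ^ P.kK * (2 * (2 ^ P.L * U)) := Nat.mul_le_mul_left _ (by omega)
    have b3 : 0 < 2 ^ P.kK * (2 * (2 ^ P.L * U)) := by positivity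
    have b4 : 2 ^ (P.kK + P.L + 2) * U ≤ 2 ^ (P.kK + 2 * P.kx + P.L + 7) * U :=
      Nat.mul_le_mul_right _ (Nat.pow_le_pow_right two_pos (by omega))
    have b5 : 2 ^ (P.kK + P.L + 2) * U = 2 * (2 ^ P.kK * (2 * (2 ^ P.L * U))) := by ring
    omega
  have e1 : alg.s1 P (cHint r i c σ pls t) =
      (List.range P.nw).flatMap fun lv => List.replicate (P.p2 (P.kK + lv)) (cDraw r i c σ lv t) := by
    simp [alg, algS1, cHint, hintS1]
  have e2 : ∀ r1, alg.s2 P (cHint r i c σ pls t) r1 =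
      (selP P c σ pls (rds r1)).elim [] fun pl => [cAvg (cCent P r i pl t) P.kK] := fun r1 => by
    simp [alg, algS2, cHint, hintS2]
  refine ⟨Nat.mul_pos (by omega) hW, Or.inr ⟨fun k => ((tabKeys P c σ (dec k.2 : ADraw).2.2.2.2.1).length + 1) * U,
    fun k hk => ?_, fun r1 => ⟨fun _ => 2 ^ (P.kK + 2 * P.kx + P.L + 7) * U, fun k hk => ?_, ?_⟩⟩⟩
  · rw [e1] at hk
    obtain ⟨lv, -, hk⟩ := List.mem_flatMap.1 hk
    rw [List.eq_of_mem_replicate hk]
    simpa only [cDraw, dec_enc] using draw lv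
  · rw [e2] at hk
    cases hs : selP P c σ pls (rds r1) with
    | none => simp [hs] at hk
    | some pl =>
      obtain rfl : k = cAvg (cCent P r i pl t) P.kK := by simpa [hs] using hk
      exact cent pl
  · have a1 := cb_sum_flat (List.range P.nw) (fun lv => List.replicate (P.p2 (P.kK + lv)) (cDraw r i c σ lv t))
      (fun k => ((tabKeys P c σ (dec k.2 : ADraw).2.2.2.2.1).length + 1) * U)
      (W := 2 ^ (P.kK + 2 * P.kx + P.L + 7) * U) fun lv hlv => by
        simp only [List.map_replicate, List.sum_replicate, smul_eq_mul, cDraw, dec_enc]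
        rw [← mul_assoc]
        exact Nat.mul_le_mul_right _ (cb_tabKeys c σ (List.mem_range.1 hlv))
    have a2 : ((alg.s2 P (cHint r i c σ pls t) r1).map fun _ => 2 ^ (P.kK + 2 * P.kx + P.L + 7) * U).sum ≤
        2 ^ (P.kK + 2 * P.kx + P.L + 7) * U := by
      rw [e2]
      cases selP P c σ pls (rds r1) <;> simp
    rw [e1, add_mul P.nw]
    rw [List.length_range] at a1
    omega

theorem cb_top' (h : Good P) (hA : 1 ≤ A) (hn : 4 * (r * P.L) + 5 ≤ n) (hp : Past P n A r t)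
    (hs : PastS P n A r t) (hl : P.T0 < t → Low P n U r t) (hU : (4 * 2 ^ P.kP) ^ 8 * A ≤ U) (i : ℕ) (s : ℤ × ℤ)
    (c : Option Ctx) (hc : c ≠ none → P.T0 < t) (hr : radc c ≤ P.F0) :
    alg.Cst P (n + 8 + (P.L + 1) * (P.mb + 1) + 5)
      (1 + 2 ^ (r * (P.L + 2) + P.kP) + 2 ^ (3 * P.jj + 7) * (2 ^ (P.kK + 2 * P.kx + P.L + 7) * U))
      (cTop' r i s c t) := by
  set n1 := n + 8 + (P.L + 1) * (P.mb + 1) with hn1
  set W := 2 ^ (P.kK + 2 * P.kx + P.L + 7) * U with hW
  clear_value W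
  have o0 : 0 < 2 ^ (r * (P.L + 2) + P.kP) := by positivity
  have hz : ∀ {j : ℕ} {k : Call}, Pz P n A j k → j ≤ 8 → alg.Cst P n1 U k := fun hk hj =>
    Scheme.Cst.mono (hk.mono hj) (by omega) hU
  have hLU : P.L + 2 ≤ U := by
    have a1 : P.L + 2 ≤ 2 ^ P.kP := cb_le_M (by have := cb_kP P; have := h.ll_kR; have := cb_jj_ll h; omega)
    have a2 : (4 * 2 ^ P.kP) ^ 1 * 1 ≤ (4 * 2 ^ P.kP) ^ 8 * A :=
      Nat.mul_le_mul (Nat.pow_le_pow_right (by positivity) (by omega)) hA
    rw [pow_one] at a2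
    omega
  have hUW : U ≤ W := hW ▸ Nat.le_mul_of_pos_left _ (by positivity)
  have avg : P.T0 < t → ∀ pl, alg.Cst P (n1 + 1) W (cAvg (cSRoot P r i pl t) P.kK) := fun ht pl => by
    refine (cst_avg (cb_sn h hA hs (hl ht) ht hU i pl le_rfl _ _ _ le_rfl) P.kK).mono le_rfl ?_
    have b3 : 0 < 2 ^ P.kK * (2 ^ (P.L + 2) * U) := Nat.mul_pos (by positivity) (Nat.mul_pos (by positivity) (by omega))
    have b4 : 2 ^ (P.kK + P.L + 3) * U ≤ W := hW ▸ Nat.mul_le_mul_right _ (Nat.pow_le_pow_right two_pos (by omega))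
    have b5 : 2 ^ (P.kK + P.L + 3) * U = 2 * (2 ^ P.kK * (2 ^ (P.L + 2) * U)) := by ring
    omega
  obtain ⟨s1, s2, -, -, s3⟩ := cb_nS h
  have e1 : 2 ^ (3 * P.jj + 7) = 2 * (2 ^ (2 * P.jj + 5) * 2 ^ (P.jj + 1)) := by ring
  have e2 : 4 ≤ 2 ^ (P.jj + 1) := le_trans (by omega) s3
  have e3 : 0 < 2 ^ (2 * P.jj + 5) := by positivity
  cases c with
  | none =>
    by_cases t0 : t = 0
    · refine Scheme.Cst.of_bounds (c1 := 2 ^ (r * (P.L + 2) + P.kP)) (c2 := 0) (m1 := 1) (m2 := 0) (fun k hk => ?_) ?_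
        (fun r1 k hk => ?_) (fun r1 => ?_) (by omega)
      · obtain rfl : k = cOrc (r * P.L) i s.1 s.2 := by simpa [alg, algS1, cTop', top'S1, t0] using hk
        exact (cst_orc h _ _ _ _).mono (by omega) le_rfl
      · simp [alg, algS1, cTop', top'S1, t0]
      · simp [alg, algS2, cTop', top'S2, t0] at hk
      · simp [alg, algS2, cTop', top'S2, t0]
    · have e4 : ∀ r1, alg.s2 P (cTop' r i s none t) r1 =
          ((List.range P.nS).map fun j => cGVal r i s (sclS P (rd r1 0) j) t) ++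
            if P.T0 < t then (List.range P.nS).map fun j => cSVal r i s (sclS P (rd r1 0) j) t else [] := fun r1 => by
        simp [alg, algS2, cTop', top'S2, t0]
      refine Scheme.Cst.of_bounds (c1 := U) (c2 := 3 * W) (m1 := 1) (m2 := 2 * P.nS) (fun k hk => ?_) ?_
        (fun r1 k hk => ?_) (fun r1 => ?_) ?_
      · obtain rfl : k = cAvg (cTop r i s none (t - 1)) P.kP := by simpa [alg, algS1, cTop', top'S1, t0] using hk
        exact (hz (hp.avg hA le_rfl (by omega) _ _) (by omega)).mono (by omega) le_rfl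
      · simp [alg, algS1, cTop', top'S1, t0]
      · rw [e4] at hk
        rcases List.mem_append.1 hk with hk | hk
        · obtain ⟨j, -, rfl⟩ := List.mem_map.1 hk
          exact (hz (hp.gval h hA t0 _ _ _) (by omega)).mono (by omega) (by omega)
        · split_ifs at hk with ht
          · obtain ⟨j, -, rfl⟩ := List.mem_map.1 hk
            generalize sclS P (rd r1 0) j = σ
            have e5 : ∀ r1, alg.s2 P (cSVal r i s σ t) r1 =
                (rd r1 0 : Option Plan).elim [] fun pl => [cAvg (cSRoot P r i pl t) P.kK] := fun r1 => by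
              simp [alg, algS2, cSVal, svalS2]
            refine Scheme.Cst.of_bounds (c1 := U) (c2 := W) (m1 := 1) (m2 := 1) (fun k hk => ?_) ?_
              (fun r1 k hk => ?_) (fun r1 => ?_) (by omega)
            · obtain rfl : k = cPlan r i s σ (phs P t) := by simpa [alg, algS1, cSVal, svalS1] using hk
              exact (hz (hp.plan h hA ht _ _ _) (by omega)).mono (by omega) le_rfl
            · simp [alg, algS1, cSVal, svalS1]
            · rw [e5] at hk
              cases hs : (rd r1 0 : Option Plan) with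
              | none => simp [hs] at hk
              | some pl =>
                obtain rfl : k = cAvg (cSRoot P r i pl t) P.kK := by simpa [hs] using hk
                exact (avg ht pl).mono (by omega) le_rfl
            · rw [e5]
              cases (rd r1 0 : Option Plan) <;> simp
          · simp at hk
      · rw [e4]
        split_ifs <;> simp [two_mul]
      · have a1 : 6 * P.nS + 1 ≤ 2 ^ (3 * P.jj + 7) := by
          have := Nat.mul_le_mul_left (2 ^ (2 * P.jj + 5)) e2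
          omega
        have a2 := Nat.mul_le_mul_right W a1
        have a3 : (6 * P.nS + 1) * W = 2 * P.nS * (3 * W) + W := by ring
        omega
  | some c =>
    have ht := hc (by simp)
    have com : alg.Cst P (n1 + 4) (1 + 2 * U + P.nC * ((P.nw + 2) * W)) (cCom r i c t) := by
      refine Scheme.Cst.of_bounds (fun k hk => ?_) ?_ (fun r1 k hk => ?_) (fun r1 => ?_) le_rfl
      · have : k = cPast r i c t ∨ k = cFix r i c (phs P t) := by simpa [alg, algS1, cCom, comS1] using hk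
        rcases this with rfl | rfl
        · exact (hz (hp.past h hA ht _ hr) (by omega)).mono (by omega) le_rfl
        · exact (hz (hp.fix h hA ht _ hr) (by omega)).mono (by omega) le_rfl
      · simp [alg, algS1, cCom, comS1]
      · simp only [alg, algS2, cCom, comS2, dec_enc] at hk
        obtain ⟨j, -, rfl⟩ := List.mem_map.1 (by simpa only [Nat.reduceEqDiff, if_true, if_false] using hk)
        split_ifs
        · exact cb_nil _ (Nat.mul_pos (by omega) (by omega))
        · exact (cb_hint h (hl ht) (by omega) hLU _ _ _ _).mono (by omega) (by rw [hW])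
      · simp [alg, algS2, cCom, comS2]
    refine Scheme.Cst.of_bounds (c1 := 1 + 2 * U + P.nC * ((P.nw + 2) * W)) (c2 := W) (m1 := 1) (m2 := P.nC)
      (fun k hk => ?_) ?_ (fun r1 k hk => ?_) (fun r1 => ?_) ?_
    · obtain rfl : k = cCom r i c t := by simpa [alg, algS1, cTop', top'S1] using hk
      exact com
    · simp [alg, algS1, cTop', top'S1]
    · simp only [alg, algS2, cTop', top'S2, dec_enc] at hk
      obtain ⟨j, -, rfl⟩ := List.mem_map.1
        (by simpa only [Nat.reduceEqDiff, if_true, if_false, Option.elim_some] using hk)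
      cases own c s (rd r1 0) j with
      | none => exact cb_nil _ (by omega)
      | some pl => exact (avg ht pl).mono (by omega) le_rfl
    · simp [alg, algS2, cTop', top'S2]
    · have a1 : P.nC * (P.nw + 3) + 3 ≤ 2 ^ (3 * P.jj + 7) := by
        have := Nat.mul_le_mul s2 (show P.nw + 3 ≤ 2 ^ (P.jj + 1) by omega)
        have := Nat.mul_le_mul e3 e2
        omega
      have a2 := Nat.mul_le_mul_right W a1
      have a3 : (P.nC * (P.nw + 3) + 3) * W = P.nC * ((P.nw + 2) * W) + P.nC * W + 3 * W := by ring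
      omega

theorem cb_top {c' : ℕ} (hn : r * P.L + 3 ≤ n) (i : ℕ) (s : ℤ × ℤ) (c : Option Ctx)
    (h' : r ≠ 0 → radc c ≤ P.F0 → alg.Cst P n c' (cTop' r i s c t)) :
    alg.Cst P (n + 1) (1 + 2 ^ (r * P.L) * (2 * P.F0 + 4) + c') (cTop r i s c t) := by
  have e : ∀ r1, alg.s2 P (cTop r i s c t) r1 =
      if (rd r1 0 : ℕ) ≤ P.F0 ∨ r = 0 ∨ P.F0 < radc c then [] else [cTop' r i s c t] := fun r1 => by
    simp [alg, algS2, cTop, topS2]
  refine Scheme.Cst.of_bounds (c1 := 2 ^ (r * P.L) * (2 * P.F0 + 4)) (c2 := c') (m1 := 1) (m2 := 1) (fun k hk => ?_) ?_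
    (fun r1 k hk => ?_) (fun r1 => ?_) (by omega)
  · obtain rfl : k = cSmall (r * P.L) i s.1 s.2 P.F0 := by simpa [alg, algS1, cTop, topS1] using hk
    exact (cst_small _ _ _ _ _).mono hn le_rfl
  · simp [alg, algS1, cTop, topS1]
  · rw [e] at hk
    split_ifs at hk with h1
    · simp at hk
    · rw [List.mem_singleton.1 hk]
      exact h' (by omega) (by omega)
  · rw [e]
    split_ifs <;> simp

/-- exponent of the cost -/
def cbE (P : Par) (r t : ℕ) : ℕ := r * (P.L + (165 * P.jj + 31)) + t * (10 * (P.kP + 2))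

/-- depth -/
def cbD (P : Par) (r t : ℕ) : ℕ := 4 * (r * P.L) + 10 + (r + t) * ((P.L + 1) * (P.mb + 1) + 14)

theorem cb_mono {r' t' : ℕ} (hr : r' ≤ r) (ht : t' ≤ t) : cbD P r' t' ≤ cbD P r t ∧ 8 * 2 ^ cbE P r' t' ≤ 8 * 2 ^ cbE P r t := by
  unfold cbD cbE
  constructor <;> gcongr
  norm_num

theorem cb_main (h : Good P) (t : ℕ) : ∀ r,
    (∀ i s c, (c ≠ none → P.T0 < t) → alg.Cst P (cbD P r (t + 1)) (8 * 2 ^ cbE P r (t + 1)) (cTop r i s c t)) ∧
    (r ≠ 0 → P.T0 < t → ∀ i pl, ∀ hb ≤ P.L, ∀ p s k0, ∀ q ≤ P.mb,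
      alg.Cst P (cbD P r (t + 1)) (8 * 2 ^ cbE P r (t + 1)) (cSN r i pl hb p s k0 q t)) := by
  induction t using Nat.strong_induction_on with
  | _ t iht =>
  have hk := cb_kP P
  have h1 := h.ll_kR
  have h2 := cb_jj_ll h
  have h3 := h.small_ll
  have small : ∀ r, 2 ^ (r * P.L) * (2 * P.F0 + 4) ≤ 2 ^ cbE P r (t + 1) := fun r => by
    have a1 : 2 * P.F0 + 4 ≤ 2 ^ (P.kg + 3) := by
      have : 0 < 2 ^ P.kg := by positivity
      rw [h.F0_eq, pow_add]
      omega
    refine (Nat.mul_le_mul_left _ a1).trans ?_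
    rw [← pow_add]
    refine Nat.pow_le_pow_right two_pos ?_
    unfold cbE
    rw [mul_add r, add_mul t]
    omega
  have hD : ∀ r, cbD P r (t + 1) = cbD P r t + 8 + (P.L + 1) * (P.mb + 1) + 5 + 1 := fun r => by
    unfold cbD
    ring
  have hn : ∀ r, 4 * (r * P.L) + 5 ≤ cbD P r t := fun r => by
    unfold cbD
    omega
  have pos : ∀ r, 0 < 2 ^ cbE P r (t + 1) := fun r => by positivity
  intro r
  induction r with
  | zero =>
    refine ⟨fun i s c _ => ?_, fun h0 => (h0 rfl).elim⟩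
    refine (cb_top (n := cbD P 0 t) (c' := 0) (by have := hn 0; omega) i s c fun h0 => (h0 rfl).elim).mono
      (by rw [hD]; omega) ?_
    have := small 0
    have := pos 0
    omega
  | succ r ihr =>
    have hA : 1 ≤ 8 * 2 ^ cbE P (r + 1) t := Nat.mul_pos (by norm_num) (by positivity)
    have hp : Past P (cbD P (r + 1) t) (8 * 2 ^ cbE P (r + 1) t) (r + 1) t := fun r' hr' t' ht' i s c hc =>
      ((iht t' ht' r').1 i s c hc).mono (cb_mono hr' ht').1 (cb_mono hr' ht').2
    have hs : PastS P (cbD P (r + 1) t) (8 * 2 ^ cbE P (r + 1) t) (r + 1) t := fun t' ht' h0 i pl hb hhb p s k0 q hq =>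
      ((iht t' ht' (r + 1)).2 (by omega) h0 i pl hb hhb p s k0 q hq).mono (cb_mono le_rfl ht').1 (cb_mono le_rfl ht').2
    set U := (4 * 2 ^ P.kP) ^ 8 * (8 * 2 ^ cbE P (r + 1) t) + 8 * 2 ^ cbE P r (t + 1) with hU
    have hl : P.T0 < t → Low P (cbD P (r + 1) t) U (r + 1) t := fun ht i s c => by
      refine (ihr.1 i s (some c) fun _ => ht).mono ?_ (Nat.le_add_left _ _)
      unfold cbD
      rw [add_mul r 1, add_right_comm r 1 t, add_assoc r t 1]
      omega
    have key : 2 ^ (3 * P.jj + 7) * (2 ^ (P.kK + 2 * P.kx + P.L + 7) * U) ≤ 2 * 2 ^ cbE P (r + 1) (t + 1) := by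
      have e1 : 2 ^ (3 * P.jj + 7) * (2 ^ (P.kK + 2 * P.kx + P.L + 7) * U) =
          2 ^ (3 * P.jj + 7 + (P.kK + 2 * P.kx + P.L + 7) + (P.kP + 2) * 8 + 3 + cbE P (r + 1) t) +
          2 ^ (3 * P.jj + 7 + (P.kK + 2 * P.kx + P.L + 7) + 3 + cbE P r (t + 1)) := by
        rw [hU]
        ring
      rw [e1, two_mul (2 ^ cbE P (r + 1) (t + 1))]
      refine Nat.add_le_add (Nat.pow_le_pow_right two_pos ?_) (Nat.pow_le_pow_right two_pos ?_)
      · unfold cbE
        rw [add_mul t]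
        omega
      · unfold cbE
        rw [add_mul r]
        omega
    refine ⟨fun i s c hc => ?_, fun _ ht i pl hb hhb p s k0 q hq => ?_⟩
    · refine (cb_top (by have := hn (r + 1); omega) i s c fun _ hr =>
        cb_top' h hA (hn _) hp hs hl (Nat.le_add_right _ _) i s c hc hr).mono (hD _).ge ?_
      have a1 : 2 ^ ((r + 1) * (P.L + 2) + P.kP) ≤ 2 ^ cbE P (r + 1) (t + 1) := by
        refine Nat.pow_le_pow_right two_pos ?_
        unfold cbE
        rw [add_mul t]
        have := Nat.mul_le_mul_left (r + 1) (show P.L + 2 ≤ P.L + (165 * P.jj + 31) by omega)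
        omega
      have := small (r + 1)
      have := pos (r + 1)
      omega
    · refine (cb_sn h hA hs (hl ht) ht (Nat.le_add_right _ _) i pl hhb p s k0 hq).mono (by rw [hD]; omega) ?_
      have a1 : 2 ^ (P.L + 2) * U ≤ 2 ^ (3 * P.jj + 7) * (2 ^ (P.kK + 2 * P.kx + P.L + 7) * U) := by
        rw [← mul_assoc, ← pow_add]
        exact Nat.mul_le_mul_right _ (Nat.pow_le_pow_right two_pos (by omega))
      omega

theorem tm_top (h : Good P) (r i : ℕ) (s : ℤ × ℤ) (c : Option Ctx) (t : ℕ) (hc : c ≠ none → P.T0 < t) :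
    alg.Tm P (cTop r i s c t) :=
  ⟨_, _, (cb_main h t r).1 i s c hc⟩

theorem tm_sn (h : Good P) {r : ℕ} (hr : 1 ≤ r) (i : ℕ) (pl : Plan) {hb : ℕ} (hhb : hb ≤ P.L) (p : ℕ)
    (s : ℤ × ℤ) (k0 : ℕ) {q : ℕ} (hq : q ≤ P.mb) {t : ℕ} (ht : P.T0 < t) :
    alg.Tm P (cSN r i pl hb p s k0 q t) :=
  ⟨_, _, (cb_main h t r).2 (by omega) ht i pl hb hhb p s k0 q hq⟩

theorem cst_root : ∃ C : ℕ, ∀ P : Par, Good P →
    alg.Cst P (2 ^ P.kP) (2 ^ (P.hh + C * (P.hh / P.jj))) (root P) := by
  refine ⟨1100, fun P h => ((cb_main h P.T P.H).1 _ _ none fun h0 => (h0 rfl).elim).mono ?_ ?_⟩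
  all_goals
    have hk := cb_kP P
    have h1 := h.ll_kR
    have h2 := cb_jj_ll h
    have h3 := h.big
    have h4 := h.aux_ll_hh
    have h5 := h.two_le_T0
    have hT : P.T + 1 ≤ 4 * (P.kR * P.T0) := by
      unfold Par.T
      nlinarith
    have hQ : P.kR * (P.kR * P.T0) * P.jj ≤ P.hh := by
      have a1 : P.jj ≤ 2 ^ P.jj := Nat.lt_two_pow_self.le
      calc P.kR * (P.kR * P.T0) * P.jj ≤ 2 ^ (2 * P.jj + 3) * (2 ^ (2 * P.jj + 3) * 2 ^ P.kT) * 2 ^ P.jj := by
            rw [h.T0_eq]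
            gcongr <;> exact h.kR_lt.le
        _ = 2 ^ (5 * P.jj + 6 + P.kT) := by ring
        _ ≤ 2 ^ P.ll := Nat.pow_le_pow_right two_pos (by have := h.kT_add; omega)
        _ ≤ P.hh := h.hh_lo.le
  · have a1 : P.kR * P.T0 ≤ P.hh := by
      refine le_trans ?_ hQ
      rw [mul_right_comm]
      exact Nat.le_mul_of_pos_left _ (Nat.mul_pos (by omega) (by omega))
    have a2 : P.mb + 1 ≤ P.hh := by
      have b1 := h.mb_add
      have b2 := Nat.mul_le_mul_left P.kR h5
      omega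
    have a3 : (P.L + 1) * (P.mb + 1) ≤ P.hh * P.hh := Nat.mul_le_mul (by omega) a2
    have a4 : P.hh ≤ P.hh * P.hh := Nat.le_mul_self _
    have a5 : (P.H + (P.T + 1)) * ((P.L + 1) * (P.mb + 1) + 14) ≤ (5 * P.hh) * (2 * (P.hh * P.hh)) :=
      Nat.mul_le_mul (by have := h.H_le; omega) (by omega)
    have a6 : P.hh ≤ P.hh * (P.hh * P.hh) := Nat.le_mul_of_pos_right _ (by omega)
    have a7 := h.HL_le
    have a8 : P.hh * (P.hh * P.hh) ≤ 2 ^ (P.ll + 1) * (2 ^ (P.ll + 1) * 2 ^ (P.ll + 1)) := by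
      gcongr <;> exact h.hh_hi
    have a9 : 2 ^ (3 * P.ll + 8) = 32 * (2 ^ (P.ll + 1) * (2 ^ (P.ll + 1) * 2 ^ (P.ll + 1))) := by ring
    have a10 : (5 * P.hh) * (2 * (P.hh * P.hh)) = 10 * (P.hh * (P.hh * P.hh)) := by ring
    refine cb_pow_M (e := 3 * P.ll + 8) ?_ (by omega)
    unfold cbD
    omega
  · have j0 : 0 < P.jj := by omega
    have a1 : P.kR * (P.kR * P.T0) ≤ P.hh / P.jj := (Nat.le_div_iff_mul_le j0).2 hQ
    have a2 : P.L ≤ P.hh / P.jj := by
      refine (Nat.le_div_iff_mul_le j0).2 ?_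
      have := h.cube
      unfold Par.L
      omega
    have a3 : P.jj ≤ P.L := by
      unfold Par.L
      exact Nat.le_mul_self _
    have a4 : P.H * P.L ≤ P.hh + P.L := by
      have := Nat.div_mul_le_self P.hh P.L
      unfold Par.H
      rw [add_mul]
      omega
    have a5 : P.H * P.jj ≤ P.hh / P.jj + P.jj := by
      have := Nat.div_mul_le_self (P.hh / P.jj) P.jj
      rw [Nat.div_div_eq_div_mul] at this
      unfold Par.H Par.L
      rw [add_mul]
      omega
    have a6 : P.H * (165 * P.jj + 31) ≤ 166 * (P.H * P.jj) := by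
      rw [mul_left_comm]
      exact Nat.mul_le_mul_left _ (by omega)
    have a7 : (P.T + 1) * (10 * (P.kP + 2)) ≤ 4 * (P.kR * P.T0) * (170 * P.kR) := Nat.mul_le_mul hT (by omega)
    have a8 : 4 * (P.kR * P.T0) * (170 * P.kR) = 680 * (P.kR * (P.kR * P.T0)) := by ring
    rw [show (8 : ℕ) = 2 ^ 3 by norm_num, ← pow_add]
    refine Nat.pow_le_pow_right two_pos ?_
    unfold cbE
    rw [mul_add P.H]
    omega

end Crest.Agent.R288
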