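import Crest.Agent.R288.CstA

/-!
# R288: cost of the main recursion, auxiliary facts (sizes of lists, times, calls into the past)
-/

set_option autoImplicit false

namespace Crest.Agent.R288

open Crest.Agent.Lib.PT

variable {P : Par}

/-! ### parameters -/

theorem cb_jj_ll (h : Good P) : 100 * P.jj ≤ P.ll ∧ P.L + 6 ≤ P.ll := by
  have h1 := h.cube
  have h2 := h.aux_sq
  have h3 := h.big
  unfold Par.L
  omega

theorem cb_kP (P : Par) : P.kP = 16 * P.kR ∧ P.kg = 2 * P.kR ∧ P.kx = 40 * P.jj ∧ P.ka = 10 * P.jj ∧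
    P.kK = 82 * P.jj + 14 ∧ P.kd = P.kx + P.L + 1 ∧ P.nw = P.L + 2 ∧ P.nS = 2 * P.kR + 7 ∧
    P.nC = P.kg + P.kx + 8 := by
  unfold Par.nC Par.nS Par.nw Par.kd Par.kK Par.kP Par.kg Par.kx Par.ka
  omega

theorem cb_le_M {m : ℕ} (h : m ≤ P.kP) : m ≤ 2 ^ P.kP := h.trans Nat.lt_two_pow_self.le

theorem cb_pow_M {m e : ℕ} (h : m ≤ 2 ^ e) (he : e ≤ P.kP) : m ≤ 2 ^ P.kP :=
  h.trans (Nat.pow_le_pow_right two_pos he)

theorem cb_b (h : Good P) : P.b ≤ 2 ^ P.kP := by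
  unfold Par.b
  exact h.p2_le _

theorem cb_T0 (h : Good P) : P.T0 ≤ 2 ^ P.kP := by
  unfold Par.T0
  exact h.p2_le _

theorem cb_zgrid (h : Good P) (α : ℤ) (σ : ℕ) : (zgrid P α σ).length ≤ 2 ^ P.kP := by
  have h1 := p2_le_two_pow P (P.kg + 2)
  have h2 := cb_kP P
  have h3 := h.ll_kR
  have h4 := cb_jj_ll h
  have h5 : 0 < 2 ^ (P.kg + 2) := by positivity
  refine cb_pow_M (e := P.kg + 2 + 2) ?_ (by omega)
  rw [zgrid, List.length_map, List.length_range, pow_add _ _ 2]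
  omega

theorem cb_om (h : Good P) {c : Ctx} (hc : c.2.2.2.n ≤ P.F0) : (om c).length ≤ 2 ^ P.kP := by
  have h2 := cb_kP P
  have h3 := h.ll_kR
  have h4 := cb_jj_ll h
  have h5 : 0 < 2 ^ P.kg := by positivity
  rw [h.F0_eq] at hc
  refine cb_pow_M (e := P.kg + 2 + (P.kg + 2)) ?_ (by omega)
  have e : (om c).length = (2 * c.2.2.2.n + 1) * (2 * c.2.2.2.n + 1) := by
    simp [om, List.length_flatMap]
  rw [e, pow_add _ (P.kg + 2), pow_add _ _ 2]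
  exact Nat.mul_le_mul (by omega) (by omega)

theorem cb_nS (h : Good P) : P.nS ≤ 2 ^ (2 * P.jj + 5) ∧ P.nC ≤ 2 ^ (2 * P.jj + 5) ∧ P.nC ≤ 2 ^ P.kP ∧
    P.mb ≤ 2 ^ P.kP ∧ P.nw + 4 ≤ 2 ^ (P.jj + 1) := by
  have h1 := h.kR_lt
  have h2 := cb_kP P
  have h3 := h.ll_kR
  have h4 := cb_jj_ll h
  have h5 := h.mb_add
  have h6 := h.ll_hi
  have e : 2 ^ (2 * P.jj + 5) = 2 ^ (2 * P.jj + 3) * 2 ^ 2 := by rw [← pow_add]
  refine ⟨by omega, by omega, cb_le_M (by omega), cb_le_M (by omega), by omega⟩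

theorem cb_qbits (h : Good P) (ω : ℕ) : qbits P ω + 1 ≤ 2 ^ P.kP := by
  have h1 := h.hh_hi
  have h2 := cb_kP P
  have h3 := h.ll_kR
  have h4 := cb_jj_ll h
  have h5 : P.ll < 2 ^ P.ll := Nat.lt_two_pow_self
  refine cb_pow_M (e := P.ll + 4) ?_ (by omega)
  rw [pow_succ] at h1
  rw [pow_add, qbits]
  omega

theorem cb_tabKeys (c : Ctx) (σ : ℕ) {lv : ℕ} (hlv : lv < P.nw) :
    P.p2 (P.kK + lv) * ((tabKeys P c σ lv).length + 1) ≤ 2 ^ (P.kK + 2 * P.kx + P.L + 7) := by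
  have h2 := cb_kP P
  have e : (tabKeys P c σ lv).length = (2 * P.p2 (P.kd + 2 - lv) + 1) * (2 * P.p2 P.kx + 1) := by
    simp [tabKeys, List.length_flatMap]
  have a1 := p2_le_two_pow P (P.kd + 2 - lv)
  have a2 := p2_le_two_pow P P.kx
  have a3 := p2_le_two_pow P (P.kK + lv)
  have b1 : 0 < 2 ^ (P.kd + 2 - lv) := by positivity
  have b2 : 0 < 2 ^ P.kx := by positivity
  have a4 : (tabKeys P c σ lv).length + 1 ≤ 2 ^ (P.kd + 2 - lv) * 2 ^ P.kx * 2 ^ 4 := by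
    rw [e]
    have : (2 * P.p2 (P.kd + 2 - lv) + 1) * (2 * P.p2 P.kx + 1) ≤ (3 * 2 ^ (P.kd + 2 - lv)) * (3 * 2 ^ P.kx) :=
      Nat.mul_le_mul (by omega) (by omega)
    have : 0 < 2 ^ (P.kd + 2 - lv) * 2 ^ P.kx := by positivity
    nlinarith
  refine (Nat.mul_le_mul a3 a4).trans (le_of_eq ?_)
  rw [← pow_add, ← pow_add, ← pow_add]
  congr 1
  omega

/-! ### times -/

theorem cb_time (h : Good P) {t : ℕ} (ht : P.T0 < t) :
    ∃ φ, phs P t = φ + 1 ∧ t = φ * P.T0 + P.T0 + nIn P t + 1 ∧ nIn P t < P.T0 := by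
  have h0 := h.two_le_T0
  have h1 := Nat.div_add_mod (t - 1) P.T0
  have h2 := Nat.mod_lt (t - 1) (show 0 < P.T0 by omega)
  have h3 : 0 < (t - 1) / P.T0 := Nat.div_pos (by omega) (by omega)
  obtain ⟨φ, hφ⟩ : ∃ φ, (t - 1) / P.T0 = φ + 1 := ⟨_, (Nat.succ_pred_eq_of_pos h3).symm⟩
  refine ⟨φ, hφ, ?_, ?_⟩
  · rw [hφ, mul_add, mul_comm] at h1
    unfold nIn
    omega
  · unfold nIn
    omega

theorem cb_wnd (h : Good P) {t k : ℕ} (ht : P.T0 < t) (hk : k < P.T0) : wnd P (phs P t) k < t := by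
  obtain ⟨φ, h1, h2, -⟩ := cb_time h ht
  rw [wnd, h1, Nat.add_sub_cancel]
  omega

theorem cb_rnk (h : Good P) {t k : ℕ} (ht : P.T0 < t) (hk : k < nIn P t) : P.T0 < rnk P t k ∧ rnk P t k < t := by
  obtain ⟨φ, -, h2, -⟩ := cb_time h ht
  unfold rnk
  omega

theorem cb_pred (h : Good P) {t : ℕ} (ht : P.T0 < t) (hk : nIn P t ≠ 0) : P.T0 < t - 1 := by
  obtain ⟨φ, -, h2, -⟩ := cb_time h ht
  omega

theorem cb_nIn (h : Good P) (t : ℕ) : nIn P t ≤ 2 ^ P.kP := (min_le_right _ _).trans (cb_T0 h)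

/-! ### layers -/

/-- `j` layers above calls of depth `n` and cost `A` -/
def Pz (P : Par) (n A j : ℕ) (k : Call) : Prop := alg.Cst P (n + j) ((4 * 2 ^ P.kP) ^ j * A) k

variable {n A j : ℕ}

theorem cb_one {c : ℕ} {k : Call} (h : alg.Cst P n c k) : 1 ≤ c := by
  cases n with
  | zero => exact h.elim
  | succ n => exact h.1

theorem Pz.mono {k : Call} (h : Pz P n A j k) {j' : ℕ} (hj : j ≤ j') : Pz P n A j' k :=
  Scheme.Cst.mono h (by omega) (Nat.mul_le_mul_right _ (Nat.pow_le_pow_right (by positivity) hj))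

theorem Pz.zero {k : Call} (h : alg.Cst P n A k) : Pz P n A 0 k := by simpa [Pz] using h

theorem cb_lay (hA : 1 ≤ A) (j : ℕ) : 1 + 2 ^ P.kP * ((4 * 2 ^ P.kP) ^ j * A) + 2 ^ P.kP * ((4 * 2 ^ P.kP) ^ j * A) ≤
    (4 * 2 ^ P.kP) ^ (j + 1) * A := by
  have h1 : 0 < 2 ^ P.kP * ((4 * 2 ^ P.kP) ^ j * A) := by positivity
  have e : (4 * 2 ^ P.kP) ^ (j + 1) * A = 4 * (2 ^ P.kP * ((4 * 2 ^ P.kP) ^ j * A)) := by ring
  omega

theorem Pz.avg (hA : 1 ≤ A) {k : Call} (h : Pz P n A j k) : Pz P n A (j + 1) (cAvg k P.kP) :=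
  (cst_avg h P.kP).mono le_rfl (le_trans (Nat.le_add_right _ _) (cb_lay hA j))

theorem Pz.vec (hA : 1 ≤ A) {ks : List Call} (h : ∀ k ∈ ks, Pz P n A j k) (hl : ks.length ≤ 2 ^ P.kP) :
    Pz P n A (j + 1) (cVec ks) :=
  (cst_vec h hl).mono le_rfl (le_trans (Nat.le_add_right _ _) (cb_lay hA j))

theorem Pz.vmap (hA : 1 ≤ A) {ι : Type} {l : List ι} {f : ι → Call} (h : ∀ a ∈ l, Pz P n A j (f a))
    (hl : l.length ≤ 2 ^ P.kP) : Pz P n A (j + 1) (cVec (l.map f)) :=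
  Pz.vec hA (fun k hk => by obtain ⟨a, ha, rfl⟩ := List.mem_map.1 hk; exact h a ha) (by simpa using hl)

theorem Pz.one (hA : 1 ≤ A) {k : Call} {l : List Call} (e1 : alg.s1 P k = l) (e2 : ∀ r1, alg.s2 P k r1 = [])
    (h : ∀ k' ∈ l, Pz P n A j k') (hl : l.length ≤ 2 ^ P.kP) : Pz P n A (j + 1) k :=
  Scheme.Cst.of_bounds (m2 := 2 ^ P.kP) (e1 ▸ h) (e1 ▸ hl) (fun r1 k' hk' => by simp [e2] at hk')
    (fun r1 => by simp [e2]) (cb_lay hA j)

/-- the calls of the past are bounded -/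
def Past (P : Par) (n A r t : ℕ) : Prop :=
  ∀ r' ≤ r, ∀ t' < t, ∀ i s c, (c ≠ none → P.T0 < t') → alg.Cst P n A (cTop r' i s c t')

variable {r t : ℕ}

theorem Past.avg (hA : 1 ≤ A) (hp : Past P n A r t) {r' t' : ℕ} (hr : r' ≤ r) (ht : t' < t) (i : ℕ) (s : ℤ × ℤ) :
    Pz P n A 1 (cAvg (cTop r' i s none t') P.kP) :=
  (Pz.zero (hp r' hr t' ht i s none fun h => (h rfl).elim)).avg hA

theorem Past.tab (h : Good P) (hA : 1 ≤ A) (hp : Past P n A r t) {t' : ℕ} (ht : t' < t) (i : ℕ) (α : ℤ) (σ : ℕ) :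
    Pz P n A 4 (cTab P r i (zgrid P α σ) t') :=
  Pz.vmap hA (fun _ _ => Pz.vmap hA (fun _ _ => Pz.vmap hA (fun _ _ => hp.avg hA (Nat.sub_le _ _) ht _ _)
    (cb_zgrid h _ _)) (cb_zgrid h _ _)) (by simpa using cb_b h)

theorem Past.gval (h : Good P) (hA : 1 ≤ A) (hp : Past P n A r t) (ht : t ≠ 0) (i : ℕ) (s : ℤ × ℤ) (σ : ℕ) :
    Pz P n A 5 (cGVal r i s σ t) := by
  refine Pz.one hA (l := [cTab P r i (zgrid P s.1 σ) (t - 1)]) (by simp [alg, algS1, cGVal, gvalS1])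
    (fun r1 => by simp [alg, algS2, cGVal]) (fun k hk => ?_) Nat.one_le_two_pow
  rw [List.mem_singleton.1 hk]
  exact hp.tab h hA (by omega) _ _ _

theorem Past.plan (h : Good P) (hA : 1 ≤ A) (hp : Past P n A r t) (ht : P.T0 < t) (i : ℕ) (s : ℤ × ℤ) (σ : ℕ) :
    Pz P n A 5 (cPlan r i s σ (phs P t)) := by
  refine Pz.one hA (l := (List.range P.T0).map fun k => cTab P r i (zgrid P s.1 σ) (wnd P (phs P t) k))
    (by simp [alg, algS1, cPlan, planS1]) (fun r1 => by simp [alg, algS2, cPlan]) (fun k hk => ?_)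
    (by simpa using cb_T0 h)
  obtain ⟨a, ha, rfl⟩ := List.mem_map.1 hk
  exact hp.tab h hA (cb_wnd h ht (List.mem_range.1 ha)) _ _ _

theorem cb_two (h : Good P) : 3 ≤ 2 ^ P.kP := by
  have h2 := cb_kP P
  have h3 := h.ll_kR
  have h4 := cb_jj_ll h
  exact cb_le_M (by omega)

theorem Past.past (h : Good P) (hA : 1 ≤ A) (hp : Past P n A r t) (ht : P.T0 < t) (i : ℕ) {c : Ctx}
    (hc : c.2.2.2.n ≤ P.F0) : Pz P n A 3 (cPast r i c t) := by
  refine Pz.one hA (l := pastS1 P (⟨r⟩, i, c, t)) (by simp [alg, algS1, cPast])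
    (fun r1 => by simp [alg, algS2, cPast]) (fun k hk => ?_) (le_trans (by simp [pastS1]) (cb_two h))
  simp only [pastS1, List.mem_cons, List.not_mem_nil, or_false] at hk
  rcases hk with rfl | rfl
  · exact Pz.vmap hA (fun _ _ => hp.avg hA le_rfl (by omega) _ _) (cb_om h hc)
  · split_ifs with h0
    · exact Pz.vec hA (by simp) (by simp)
    · exact Pz.vmap hA (fun _ _ => (Pz.zero (hp r le_rfl _ (by omega) _ _ _ fun _ => cb_pred h ht h0)).avg hA)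
        (cb_om h hc)

theorem Past.fix (h : Good P) (hA : 1 ≤ A) (hp : Past P n A r t) (ht : P.T0 < t) (i : ℕ) {c : Ctx}
    (hc : c.2.2.2.n ≤ P.F0) : Pz P n A 8 (cFix r i c (phs P t)) := by
  refine Pz.one hA (l := fixS1 P (⟨r⟩, i, c, phs P t)) (by simp [alg, algS1, cFix])
    (fun r1 => by simp [alg, algS2, cFix]) (fun k hk => ?_) (le_trans (by simp [fixS1]) (cb_two h))
  simp only [fixS1, List.mem_cons, List.not_mem_nil, or_false] at hk
  rcases hk with rfl | rfl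
  · exact (Pz.vmap hA (fun k hk => Pz.vmap hA (fun _ _ => hp.avg hA le_rfl (cb_wnd h ht (List.mem_range.1 hk)) _ _)
      (cb_om h hc)) (by simpa using cb_T0 h)).mono (by omega)
  · exact Pz.vmap hA (fun k _ => Pz.vmap hA (fun _ _ => hp.plan h hA ht _ _ _) (cb_om h hc))
      (by simpa using (cb_nS h).2.2.1)

end Crest.Agent.R288
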