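import Crest.Prelude.Def_GraphRAM

/-!
# R288: edit distance on the dyadic tree

The node `(e, i)` is the interval `[i 2^e, (i+1) 2^e) ∩ [0, |x|)` of `x`.  A state `(α, γ)` says that the
interval `[l, r)` is aligned with the interval `[l + α, r + γ)` of `y`, extended by a blank symbol.
-/

set_option autoImplicit false

namespace Crest.Agent.R288

open Crest.GraphRAM

/-- The symbol of `y` at an integer position (blank outside). -/
def ysym (y : List ℕ) (a : ℤ) : Option ℕ := if 0 ≤ a then y[a.toNat]? else none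

/-- `y[a, c)`. -/
def ysub (y : List ℕ) (a c : ℤ) : List (Option ℕ) :=
  (List.range (c - a).toNat).map fun j : ℕ => ysym y (a + j)

/-- `x[l, r)`. -/
def xsub (x : List ℕ) (l r : ℕ) : List (Option ℕ) := ((x.drop l).take (r - l)).map some

/-- Extended edit distance. -/
def Fx (x y : List ℕ) (l r : ℕ) (a c : ℤ) : ℕ :=
  if a ≤ c then editDist (xsub x l r) (ysub y a c) else (r - l) + (a - c).toNat

/-- Left end of a node. -/
def pos (nx e i : ℕ) : ℕ := min (i * 2 ^ e) nx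

/-- The cost of a state. -/
def FF (x y : List ℕ) (e i : ℕ) (α γ : ℤ) : ℕ :=
  Fx x y (pos x.length e i) (pos x.length e (i + 1)) (pos x.length e i + α)
    (pos x.length e (i + 1) + γ)

/-- What the analysis uses about the cost function. -/
structure FOk (F : ℕ → ℕ → ℤ → ℤ → ℕ) : Prop where
  lip : ∀ e i α γ α' γ', F e i α γ ≤ F e i α' γ' + (α - α').natAbs + (γ - γ').natAbs
  sub : ∀ e i α γ m, F (e + 1) i α γ ≤ F e (2 * i) α m + F e (2 * i + 1) m γ
  split : ∀ e i α γ, ∃ m, F e (2 * i) α m + F e (2 * i + 1) m γ ≤ F (e + 1) i α γ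
  disp : ∀ e i α γ, (γ - α).natAbs ≤ F e i α γ
  up : ∀ e i α γ, F e i α γ ≤ 2 ^ e + (γ - α).natAbs

/-- The children `p 2^hb, …, (p+1) 2^hb - 1`. -/
def blk (hb p : ℕ) : List ℕ := List.range' (p * 2 ^ hb) (2 ^ hb)

/-- Cost of a path through the children: states `(j, a, c)` and junction costs. -/
noncomputable def pathCost (W : ℕ → ℤ → ℤ → ℝ) : List (ℕ × ℤ × ℤ) → ℤ → ℤ → ℝ
  | [], zl, zr => |((zl - zr : ℤ) : ℝ)|
  | s :: t, zl, zr => |((zl - s.2.1 : ℤ) : ℝ)| + W s.1 s.2.1 s.2.2 + pathCost W t s.2.2 zr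

/-- Round down to a multiple of `g`. -/
def rdn (g : ℕ) (z : ℤ) : ℤ := g * (z / g)

/-- A comparator: boundaries on the grid `g ℤ` for the `2^L` descendants at height `e` of the node
`(e + L, i)`, almost optimal below every node of the block. -/
structure Comp (F : ℕ → ℕ → ℤ → ℤ → ℕ) (e L i g : ℕ) (α γ : ℤ) (z : ℕ → ℤ) : Prop where
  z0 : z 0 = rdn g α
  zb : z (2 ^ L) = rdn g γ
  dvd : ∀ j, (g : ℤ) ∣ z j
  opt : ∀ hb ≤ L, ∀ p < 2 ^ (L - hb),
    ((blk hb p).map fun j => F e (i * 2 ^ L + j) (z j) (z (j + 1))).sum ≤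
      F (e + hb) (i * 2 ^ (L - hb) + p) (z (p * 2 ^ hb)) (z ((p + 1) * 2 ^ hb)) + 2 * g * 2 ^ hb

end Crest.Agent.R288
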