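import Crest.Agent.R288.SchA

/-!
# R288: a recursive scheme as a read-only macro machine
-/

set_option autoImplicit false

namespace Crest.Agent.R288

open Crest.Agent.Lib.PT
open Crest.Agent.R309 (Ex)

/-- The machine `step`, started in a state, follows a tree of coin flips and ends in `g a` for the leaf `a`; all states
before the last one satisfy `I`. -/
inductive MSim {σ α : Type} (step : σ → Bool → σ) (I : σ → Prop) (g : α → σ) : σ → RT α → ℕ → Prop
  | done (a : α) (c : ℕ) : MSim step I g (g a) (.pure a) c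
  | det (s s' : σ) (t : RT α) (c : ℕ) : I s → (∀ b, step s b = s') → MSim step I g s' t c →
      MSim step I g s t (c + 1)
  | coin (s : σ) (l r : RT α) (c : ℕ) : I s → MSim step I g (step s false) l c → MSim step I g (step s true) r c →
      MSim step I g s (.coin l r) (c + 1)

section sim

variable {σ α β : Type} {step : σ → Bool → σ} {I : σ → Prop} {g : α → σ} {g' : β → σ}

theorem MSim.mono {s : σ} {t : RT α} {c : ℕ} (h : MSim step I g s t c) : ∀ {c' : ℕ}, c ≤ c' → MSim step I g s t c' := by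
  induction h with
  | done a c => intro c' _; exact .done a c'
  | det s s' t c h1 h2 _ ih =>
    intro c' hc
    obtain ⟨d, rfl⟩ : ∃ d, c' = d + 1 := ⟨c' - 1, by omega⟩
    exact .det s s' t d h1 h2 (ih (by omega))
  | coin s l r c h1 _ _ ih1 ih2 =>
    intro c' hc
    obtain ⟨d, rfl⟩ : ∃ d, c' = d + 1 := ⟨c' - 1, by omega⟩
    exact .coin s l r d h1 (ih1 (by omega)) (ih2 (by omega))

theorem MSim.bind {s : σ} {t : RT α} {c c' : ℕ} {F : α → RT β} (h : MSim step I g s t c) :
    (t.All fun a => MSim step I g' (g a) (F a) c') → MSim step I g' s (t.bind F) (c' + c) := by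
  induction h with
  | done a c => intro h; exact MSim.mono h (by omega)
  | det s s' t c h1 h2 _ ih => intro h; exact .det s s' _ _ h1 h2 (ih h)
  | coin s l r c h1 _ _ ih1 ih2 => intro h; exact .coin s _ _ _ h1 (ih1 h.1) (ih2 h.2)

theorem mach_stay {s : σ} (h : ∀ b, step s b = s) (l : List Bool) : l.foldl step s = s := by
  induction l with
  | nil => rfl
  | cons b l ih => rw [List.foldl_cons, h, ih]

theorem MSim.inv (hg : ∀ a b, step (g a) b = g a) {s : σ} {t : RT α} {c : ℕ} (h : MSim step I g s t c) :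
    ∀ l : List Bool, (I (l.foldl step s) ∧ l.length < c) ∨
      ∃ a, (∀ Q : α → Prop, t.All Q → Q a) ∧ l.foldl step s = g a := by
  induction h with
  | done a c => intro l; exact Or.inr ⟨a, fun _ h => h, mach_stay (hg a) l⟩
  | det s s' t c h1 h2 _ ih =>
    rintro (_ | ⟨b, l⟩)
    · exact Or.inl ⟨h1, by simp⟩
    · rw [List.foldl_cons, h2]
      exact (ih l).imp_left fun h => ⟨h.1, by simpa using h.2⟩
  | coin s u r c h1 _ _ ih1 ih2 =>
    rintro (_ | ⟨_ | _, l⟩)
    · exact Or.inl ⟨h1, by simp⟩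
    · exact (ih1 l).imp (fun h => ⟨h.1, by simpa using h.2⟩) fun ⟨a, ha, e⟩ => ⟨a, fun Q hQ => ha Q hQ.1, e⟩
    · exact (ih2 l).imp (fun h => ⟨h.1, by simpa using h.2⟩) fun ⟨a, ha, e⟩ => ⟨a, fun Q hQ => ha Q hQ.2, e⟩

theorem MSim.ex (hg : ∀ a b, step (g a) b = g a) (f : σ → ℝ) {s : σ} {t : RT α} {c : ℕ} (h : MSim step I g s t c) :
    ∀ N : ℕ, c ≤ N → Ex N (fun l => f (l.foldl step s)) = t.E fun a => f (g a) := by
  induction h with
  | done a c => intro N _; simp only [mach_stay (hg a), R309.Ex_const, RT.E_pure]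
  | det s s' t c h1 h2 _ ih =>
    intro N hN
    obtain ⟨d, rfl⟩ : ∃ d, N = d + 1 := ⟨N - 1, by omega⟩
    simp only [Ex, List.foldl_cons, h2, ih d (by omega)]
    ring
  | coin s u r c h1 _ _ ih1 ih2 =>
    intro N hN
    obtain ⟨d, rfl⟩ : ∃ d, N = d + 1 := ⟨N - 1, by omega⟩
    simp only [Ex, List.foldl_cons, RT.E, ih1 d (by omega), ih2 d (by omega)]

end sim

/-- frames: call, stage, pending calls, results of the first stage, results of the current stage -/
abbrev MFr : Type := Call × Bool × List Call × List V × List V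

/-- states: mode, parameters, stack, call register, value register -/
abbrev MSt : Type := ℕ × Par × List MFr × Call × V

/-- initial phase -/
def mIni (m : ℕ) (P : Par) : MSt := (m, P, [], (0, .nil), .nil)

/-- start a call -/
def mCall (P : Par) (stk : List MFr) (k : Call) : MSt := (3, P, stk, k, .nil)

/-- return a value -/
def mRet (P : Par) (stk : List MFr) (v : V) : MSt := (4, P, stk, (0, .nil), v)

/-- continue with the top frame -/
def mGo (P : Par) (stk : List MFr) : MSt := (5, P, stk, (0, .nil), .nil)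

/-- the step in mode `go` -/
def mGoS (s2 : Par → Call → List V → List Call) (out : Par → Call → List V → List V → V) (P : Par) (f : MFr)
    (stk : List MFr) : MSt :=
  if f.2.2.1 = [] then
    (if f.2.1 = true then mRet P stk (out P f.1 f.2.2.2.1 f.2.2.2.2)
      else mGo P ((f.1, true, s2 P f.1 f.2.2.2.2, f.2.2.2.2, []) :: stk))
  else mCall P ((f.1, f.2.1, f.2.2.1.tail, f.2.2.2.1, f.2.2.2.2) :: stk) (f.2.2.1.headD (0, .nil))

/-- the step in mode `return` -/
def mRetS (P : Par) (f : MFr) (stk : List MFr) (v : V) : MSt :=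
  mGo P ((f.1, f.2.1, f.2.2.1, f.2.2.2.1, f.2.2.2.2 ++ [v]) :: stk)

/-- the step in mode `call` -/
def mCallS (s1 : Par → Call → List Call) (P : Par) (stk : List MFr) (k : Call) (w : ℕ) (b : Bool) : MSt :=
  if k.1 = 0 then mRet P stk (enc b) else if k.1 = 1 then mRet P stk (enc w)
  else mGo P ((k, false, s1 P k, [], []) :: stk)

/-- the step in mode `pad` -/
def mPadS (tgt : ℕ × ℕ → ℕ) (root : Par → Call) (P : Par) : MSt :=
  if P.2.2.n < tgt (P.1, P.2.1) then mIni 2 (P.1, P.2.1, ⟨P.2.2.n + 1⟩) else mCall P [] (root P)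

/-- default frame -/
def mDf : MFr := ((0, .nil), false, [], [], [])

/-- next state -/
def mNx (S : Scheme) (tgt : ℕ × ℕ → ℕ) (root : Par → Call) (s : MSt) (w : ℕ) (b : Bool) : MSt :=
  if s.1 = 0 then mIni 1 (w, 0, ⟨0⟩)
  else if s.1 = 1 then mIni 2 (s.2.1.1, w, ⟨0⟩)
  else if s.1 = 2 then mPadS tgt root s.2.1
  else if s.1 = 3 then mCallS S.s1 s.2.1 s.2.2.1 s.2.2.2.1 w b
  else if s.1 = 4 then mRetS s.2.1 (s.2.2.1.headD mDf) s.2.2.1.tail s.2.2.2.2
  else mGoS S.s2 S.out s.2.1 (s.2.2.1.headD mDf) s.2.2.1.tail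

/-- address to read -/
def mRd (s : MSt) : ℕ := if s.1 ≤ 1 then s.1 else min (dec s.2.2.2.1.2 : ℕ) (s.2.1.1 + s.2.1.2.1 + 2)

/-- output -/
def mFin (s : MSt) : Option ℕ := if s.1 = 4 ∧ s.2.2.1 = [] then some (dec s.2.2.2.2) else none

/-- one step -/
def mStep (S : Scheme) (tgt : ℕ × ℕ → ℕ) (root : Par → Call) (mem : ℕ → ℕ) (s : MSt) (b : Bool) : MSt :=
  if (mFin s).isSome then s else mNx S tgt root s (mem (mRd s)) b

/-- the machine -/
def mM (S : Scheme) (tgt : ℕ × ℕ → ℕ) (root : Par → Call) : RM :=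
  ⟨enc (mIni 0 (0, 0, ⟨0⟩)), fun v => mRd (dec v), fun v w b => enc (mNx S tgt root (dec v) w b), fun v => mFin (dec v)⟩

theorem mach_go (S : Scheme) (tgt : ℕ × ℕ → ℕ) (root : Par → Call) (mem : ℕ → ℕ) (l : List Bool) :
    (mM S tgt root).go mem l = enc (l.foldl (mStep S tgt root mem) (mIni 0 (0, 0, ⟨0⟩))) := by
  have h : ∀ s : MSt, l.foldl ((mM S tgt root).step mem) (enc s) = enc (l.foldl (mStep S tgt root mem) s) := by
    induction l with
    | nil => intro s; rfl
    | cons b l ih =>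
      intro s
      rw [List.foldl_cons, List.foldl_cons, ← ih]
      congr 1
      simp only [RM.step, mM, mStep, dec_enc]
      split_ifs <;> rfl
  exact h _

section pt

variable {α : Type} [Enc α]

theorem mach_pt_go {s2 : Par → Call → List V → List Call} {out : Par → Call → List V → List V → V}
    (h2 : PT fun p : Par × Call × List V => s2 p.1 p.2.1 p.2.2)
    (h3 : PT fun p : Par × Call × List V × List V => out p.1 p.2.1 p.2.2.1 p.2.2.2) :
    PT fun p : Par × MFr × List MFr => mGoS s2 out p.1 p.2.1 p.2.2 := by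
  unfold mGoS mRet mGo mCall
  fun_prop

theorem mach_pt_ret : PT fun p : Par × MFr × List MFr × V => mRetS p.1 p.2.1 p.2.2.1 p.2.2.2 := by
  unfold mRetS mGo
  fun_prop

theorem mach_pt_call {s1 : Par → Call → List Call} (h1 : PT fun p : Par × Call => s1 p.1 p.2) :
    PT fun p : Par × List MFr × Call × ℕ × Bool => mCallS s1 p.1 p.2.1 p.2.2.1 p.2.2.2.1 p.2.2.2.2 := by
  unfold mCallS mRet mGo
  fun_prop

theorem mach_pt_pad {tgt : ℕ × ℕ → ℕ} (ht : PT tgt) {root : Par → Call} (hr : PT root) : PT (mPadS tgt root) := by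
  unfold mPadS mIni mCall
  fun_prop

theorem mach_pt_nx (S : Scheme) (h1 : PT fun p : Par × Call => S.s1 p.1 p.2)
    (h2 : PT fun p : Par × Call × List V => S.s2 p.1 p.2.1 p.2.2)
    (h3 : PT fun p : Par × Call × List V × List V => S.out p.1 p.2.1 p.2.2.1 p.2.2.2)
    {tgt : ℕ × ℕ → ℕ} (ht : PT tgt) {root : Par → Call} (hr : PT root) :
    PT fun p : MSt × ℕ × Bool => mNx S tgt root p.1 p.2.1 p.2.2 := by
  unfold mNx
  refine PT.ite (by fun_prop) (by unfold mIni; fun_prop) (PT.ite (by fun_prop) (by unfold mIni; fun_prop)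
    (PT.ite (by fun_prop) ((mach_pt_pad ht hr).comp (by fun_prop)) (PT.ite (by fun_prop) ?_
      (PT.ite (by fun_prop) ?_ ?_))))
  · exact (mach_pt_call h1).comp (f := fun p : MSt × ℕ × Bool => (p.1.2.1, p.1.2.2.1, p.1.2.2.2.1, p.2.1, p.2.2))
      (by fun_prop)
  · exact mach_pt_ret.comp
      (f := fun p : MSt × ℕ × Bool => (p.1.2.1, p.1.2.2.1.headD mDf, p.1.2.2.1.tail, p.1.2.2.2.2)) (by fun_prop)
  · exact (mach_pt_go h2 h3).comp
      (f := fun p : MSt × ℕ × Bool => (p.1.2.1, p.1.2.2.1.headD mDf, p.1.2.2.1.tail)) (by fun_prop)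

theorem mach_pt_rd : PT mRd := by
  unfold mRd
  fun_prop

theorem mach_pt_fin : PT mFin := by
  unfold mFin
  fun_prop

end pt

/-- size and address bound -/
def mJ (P : Par) (B T : ℕ) (s : MSt) : Prop := sz s ≤ 3 * B + T + 29 ∧ mRd s ≤ P.1 + P.2.1 + 2

/-- invariant of the states before the last one -/
def mI (P : Par) (B T : ℕ) (s : MSt) : Prop := mJ P B T s ∧ mFin s = none

/-- bound for the size of a frame -/
def mF (B : ℕ) : ℕ := B + 3 * (B * (B + 1) + 1) + 8

section run

variable {S : Scheme} {tgt : ℕ × ℕ → ℕ} {root : Par → Call} {mem : ℕ → ℕ} {P : Par} {B T : ℕ}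

theorem mach_J (hP : sz P ≤ B) {m : ℕ} (h2 : 2 ≤ m) (h5 : m ≤ 5) {stk : List MFr} (hs : sz stk ≤ T) {k : Call}
    (hk : sz k ≤ B + 3) {v : V} (hv : sz v ≤ B + 1) : mJ P B T (m, P, stk, k, v) := by
  refine ⟨?_, ?_⟩
  · have := sz_nat_le_self m
    simp only [sz_mk]
    omega
  · unfold mRd
    rw [if_neg (by simp only []; omega)]
    exact min_le_right _ _

theorem mach_k0 : sz ((0, .nil) : Call) ≤ B + 3 := by
  have := sz_nat_le_self 0
  simp only [sz_mk, sz_V, V.size_nil]
  omega

theorem mach_I_call (hP : sz P ≤ B) {stk : List MFr} (hs : sz stk ≤ T) {k : Call} (hk : sz k ≤ B) :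
    mI P B T (mCall P stk k) :=
  ⟨mach_J hP (by omega) (by omega) hs (by omega) (by simp), by simp [mFin, mCall]⟩

theorem mach_I_go (hP : sz P ≤ B) {stk : List MFr} (hs : sz stk ≤ T) : mI P B T (mGo P stk) :=
  ⟨mach_J hP (by omega) (by omega) hs mach_k0 (by simp), by simp [mFin, mGo]⟩

theorem mach_J_ret (hP : sz P ≤ B) {stk : List MFr} (hs : sz stk ≤ T) {v : V} (hv : sz v ≤ B) :
    mJ P B T (mRet P stk v) :=
  mach_J hP (by omega) (by omega) hs mach_k0 (by omega)

theorem mach_I_ret (hP : sz P ≤ B) {f : MFr} {stk : List MFr} (hs : sz (f :: stk) ≤ T) {v : V} (hv : sz v ≤ B) :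
    mI P B T (mRet P (f :: stk) v) :=
  ⟨mach_J_ret hP hs hv, by simp [mFin, mRet]⟩

theorem mach_l {γ : Type} [Enc γ] {l : List γ} (h : ∀ a ∈ l, sz a ≤ B) (hl : l.length ≤ B) :
    sz l ≤ B * (B + 1) + 1 :=
  (sz_list_le h).trans (Nat.add_le_add_right (Nat.mul_le_mul_right _ hl) 1)

theorem mach_fr {k : Call} (hk : sz k ≤ B) (st : Bool) {pend : List Call} {r1 acc : List V}
    (h1 : sz pend ≤ B * (B + 1) + 1) (h2 : sz r1 ≤ B * (B + 1) + 1) (h3 : sz acc ≤ B * (B + 1) + 1)
    (stk : List MFr) : sz (((k, st, pend, r1, acc) : MFr) :: stk) ≤ sz stk + mF B := by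
  have := sz_bool_le st
  simp only [sz_cons, sz_mk, mF]
  omega

theorem mach_szb {n c : ℕ} {k : Call} (h : S.Cst P n c k) (h' : S.Szb P (realPrim P mem) B n k) :
    1 ≤ c ∧ sz k ≤ B ∧ (S.eval P (realPrim P mem) n k).All fun v => sz v ≤ B := by
  cases n with
  | zero => exact h.elim
  | succ n => exact ⟨h.1, h'.1, h'.2.1⟩

theorem mach_list (hP : sz P ≤ B) {n : ℕ}
    (ih : ∀ (c : ℕ) (k : Call) (stk : List MFr), S.Cst P n c k → S.Szb P (realPrim P mem) B n k →
      sz stk + n * mF B ≤ T → MSim (mStep S tgt root mem) (mI P B T) (mRet P stk) (mCall P stk k)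
        (S.eval P (realPrim P mem) n k) (5 * c - 2))
    {k : Call} (hk : sz k ≤ B) (st : Bool) {r1 : List V} (h1 : sz r1 ≤ B * (B + 1) + 1) {stk : List MFr}
    (hs : sz stk + (n + 1) * mF B ≤ T) (f : Call → ℕ) : ∀ (pend : List Call) (acc : List V),
      (∀ k' ∈ pend, S.Cst P n (f k') k' ∧ S.Szb P (realPrim P mem) B n k') → acc.length + pend.length ≤ B →
      (∀ v ∈ acc, sz v ≤ B) →
      MSim (mStep S tgt root mem) (mI P B T) (fun r : List V => mGo P ((k, st, [], r1, acc ++ r) :: stk))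
        (mGo P ((k, st, pend, r1, acc) :: stk)) (RT.seq (pend.map (S.eval P (realPrim P mem) n)))
        (5 * (pend.map f).sum) := by
  intro pend
  induction pend with
  | nil =>
    intro acc _ _ _
    have := MSim.done (step := mStep S tgt root mem) (I := mI P B T)
      (g := fun r : List V => mGo P ((k, st, [], r1, acc ++ r) :: stk)) [] 0
    simpa using this
  | cons k' pend ihp =>
    intro acc hp hl ha
    rw [Nat.succ_mul] at hs
    obtain ⟨c1, z1, z2⟩ := mach_szb (hp k' (by simp)).1 (hp k' (by simp)).2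
    have hz : ∀ k'' ∈ k' :: pend, sz k'' ≤ B := fun k'' h => (mach_szb (hp k'' h).1 (hp k'' h).2).2.1
    rw [List.length_cons] at hl
    have f0 := mach_fr hk st (mach_l hz (by simp; omega)) h1 (mach_l ha (by omega)) stk
    have f1 := mach_fr hk st (mach_l (fun a h => hz a (List.mem_cons_of_mem _ h)) (by omega)) h1
      (mach_l ha (by omega)) stk
    have s1 := ih (f k') k' ((k, st, pend, r1, acc) :: stk) (hp k' (by simp)).1 (hp k' (by simp)).2 (by omega)
    have s2 := s1.bind (g' := fun r : List V => mGo P ((k, st, [], r1, acc ++ r) :: stk))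
      (c' := 5 * (pend.map f).sum + 1)
      (F := fun a => (RT.seq (pend.map (S.eval P (realPrim P mem) n))).bind fun l => .pure (a :: l))
      (z2.mono fun a hz => by
        refine .det _ (mGo P ((k, st, pend, r1, acc ++ [a]) :: stk)) _ _ (mach_I_ret hP (by omega) hz)
          (fun b => rfl) ?_
        have s3 := ihp (acc ++ [a]) (fun k'' h => hp k'' (List.mem_cons_of_mem _ h)) (by simp; omega)
          (fun v hv => (List.mem_append.1 hv).elim (ha v) fun h => by rw [List.mem_singleton.1 h]; exact hz)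
        refine s3.bind (c' := 0) (RT.All_of_forall _ fun r => ?_) |>.mono (by omega)
        have := MSim.done (step := mStep S tgt root mem) (I := mI P B T)
          (g := fun r : List V => mGo P ((k, st, [], r1, acc ++ r) :: stk)) (a :: r) 0
        simpa using this)
    refine (MSim.det _ _ _ _ (mach_I_go hP (by omega)) (fun b => rfl) s2).mono ?_
    simp only [List.map_cons, List.sum_cons]
    omega

theorem mach_call (hP : sz P ≤ B) (n : ℕ) : ∀ (c : ℕ) (k : Call) (stk : List MFr), S.Cst P n c k →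
    S.Szb P (realPrim P mem) B n k → sz stk + n * mF B ≤ T →
      MSim (mStep S tgt root mem) (mI P B T) (mRet P stk) (mCall P stk k)
        (S.eval P (realPrim P mem) n k) (5 * c - 2) := by
  induction n with
  | zero => intro c k stk h; exact h.elim
  | succ n ih =>
    intro c k stk hc hz hs
    have c1 := hc.1
    have i0 : mI P B T (mCall P stk k) := mach_I_call hP (by omega) hz.1
    have e0 : ∀ b, mStep S tgt root mem (mCall P stk k) b =
        mCallS S.s1 P stk k (mem (min (dec k.2 : ℕ) (P.1 + P.2.1 + 2))) b := fun b => rfl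
    by_cases k0 : k.1 = 0
    · have e : S.eval P (realPrim P mem) (n + 1) k = .coin (.pure (enc false)) (.pure (enc true)) := by
        simp [Scheme.eval, realPrim, k0]
      rw [e]
      refine (MSim.coin _ _ _ 0 i0 ?_ ?_).mono (by omega)
      · rw [e0, mCallS, if_pos k0]; exact .done _ _
      · rw [e0, mCallS, if_pos k0]; exact .done _ _
    by_cases k1 : k.1 = 1
    · have e : S.eval P (realPrim P mem) (n + 1) k = .pure (enc (mem (min (dec k.2 : ℕ) (P.1 + P.2.1 + 2)))) := by
        simp [Scheme.eval, realPrim, k1]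
      rw [e]
      refine (MSim.det _ _ _ 0 i0 (fun b => ?_) (.done _ _)).mono (by omega)
      rw [e0, mCallS, if_neg k0, if_pos k1]
    have pn : realPrim P mem k = none := by simp [realPrim, k0, k1]
    have e : S.eval P (realPrim P mem) (n + 1) k = S.body P (S.eval P (realPrim P mem) n) k := by
      simp [Scheme.eval, pn]
    obtain ⟨f1, g1, g2⟩ := hc.2.resolve_left (by omega)
    obtain ⟨l1, z1, z2⟩ := hz.2.2 pn
    have b0 : sz ([] : List V) ≤ B * (B + 1) + 1 := by simp
    have s1 := mach_list (tgt := tgt) (root := root) hP ih hz.1 false b0 hs f1 (S.s1 P k) []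
      (fun k' h => ⟨g1 k' h, z1 k' h⟩) (by simpa using l1) (by simp)
    have a1 := RT.All_seq ((S.s1 P k).map (S.eval P (realPrim P mem) n)) (fun v => sz v ≤ B) (by
      intro t ht
      obtain ⟨k', hk', rfl⟩ := List.mem_map.1 ht
      exact (mach_szb (g1 k' hk') (z1 k' hk')).2.2)
    have hs' := hs
    rw [Nat.succ_mul] at hs'
    have s2 := s1.bind (g' := mRet P stk) (c' := 5 * c - 3 - 5 * ((S.s1 P k).map f1).sum)
      (F := fun r1 => (RT.seq ((S.s2 P k r1).map (S.eval P (realPrim P mem) n))).bind fun r2 =>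
        .pure (S.out P k r1 r2)) ((a1.and z2).mono fun r1 ⟨⟨y1, y2⟩, l2, y3⟩ => by
        obtain ⟨f2, g3, g4⟩ := g2 r1
        rw [List.length_map] at y1
        have b1 := mach_l y2 (by omega)
        have s3 := mach_list (tgt := tgt) (root := root) hP ih hz.1 true b1 hs f2 (S.s2 P k r1) []
          (fun k' h => ⟨g3 k' h, y3 k' h⟩) (by simpa using l2) (by simp)
        have a2 := RT.All_seq ((S.s2 P k r1).map (S.eval P (realPrim P mem) n)) (fun v => sz v ≤ B) (by
          intro t ht
          obtain ⟨k', hk', rfl⟩ := List.mem_map.1 ht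
          exact (mach_szb (g3 k' hk') (y3 k' hk')).2.2)
        have s4 := s3.bind (g' := mRet P stk) (c' := 1) (F := fun r2 => .pure (S.out P k r1 r2))
          (a2.mono fun r2 ⟨y4, y5⟩ => by
            rw [List.length_map] at y4
            have f0 := mach_fr hz.1 true (pend := []) (by simp) b1 (mach_l y5 (by omega)) stk
            exact .det _ _ _ 0 (mach_I_go hP (by rw [List.nil_append]; omega)) (fun b => rfl) (.done _ _))
        have f0 := mach_fr hz.1 false (pend := []) (by simp) b0 b1 stk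
        exact (MSim.det _ _ _ _ (mach_I_go hP (by rw [List.nil_append]; omega)) (fun b => rfl) s4).mono (by omega))
    rw [e]
    obtain ⟨f2, -, g4⟩ := g2 []
    refine (MSim.det _ _ _ _ i0 (fun b => ?_) s2).mono (by omega)
    rw [e0, mCallS, if_neg k0, if_neg k1]

theorem mach_I_ini {x y t : ℕ} (hP : sz ((x, y, ⟨t⟩) : Par) ≤ B) {m x' y' t' : ℕ} (hm : m ≤ 2)
    (hx : x' = x ∨ (x' = 0 ∧ m ≤ 1)) (hy : y' = y ∨ (y' = 0 ∧ m ≤ 1)) (ht : t' ≤ t) (hT : 1 ≤ T) :
    mI (x, y, ⟨t⟩) B T (mIni m (x', y', ⟨t'⟩)) := by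
  refine ⟨⟨?_, ?_⟩, by simp only [mFin, mIni]; rw [if_neg (by omega)]⟩
  · have h0 := sz_nat_le_self 0
    have h1 := sz_nat_le_self m
    have h2 := one_le_sz x
    have h3 := one_le_sz y
    have h4 : sz x' ≤ sz x := by rcases hx with rfl | ⟨rfl, -⟩ <;> omega
    have h5 : sz y' ≤ sz y := by rcases hy with rfl | ⟨rfl, -⟩ <;> omega
    simp only [mIni, sz_mk, sz_un, sz_nil, sz_V, V.size_nil] at hP ⊢
    omega
  · simp only [mRd, mIni]
    split_ifs <;> omega

theorem mach_pad {x y : ℕ} (hP : sz ((x, y, ⟨tgt (x, y)⟩) : Par) ≤ B) (hT : 1 ≤ T) {g : V → MSt} {t : RT V} {c : ℕ}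
    (h : MSim (mStep S tgt root mem) (mI (x, y, ⟨tgt (x, y)⟩) B T) g
      (mCall (x, y, ⟨tgt (x, y)⟩) [] (root (x, y, ⟨tgt (x, y)⟩))) t c) (j : ℕ) : ∀ i, i + j = tgt (x, y) →
      MSim (mStep S tgt root mem) (mI (x, y, ⟨tgt (x, y)⟩) B T) g (mIni 2 (x, y, ⟨i⟩)) t (c + j + 1) := by
  have e0 : ∀ i b, mStep S tgt root mem (mIni 2 (x, y, ⟨i⟩)) b = mPadS tgt root (x, y, ⟨i⟩) := fun _ _ => rfl
  induction j with
  | zero =>
    intro i hi
    obtain rfl : i = tgt (x, y) := hi
    refine .det _ _ _ _ (mach_I_ini hP le_rfl (.inl rfl) (.inl rfl) le_rfl hT) (fun b => ?_) h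
    rw [e0, mPadS, if_neg (lt_irrefl _)]
  | succ j ih =>
    intro i hi
    refine .det _ _ _ _ (mach_I_ini hP le_rfl (.inl rfl) (.inl rfl) (by omega) hT) (fun b => ?_)
      (ih (i + 1) (by omega))
    rw [e0, mPadS, if_pos (show i < tgt (x, y) by omega)]

end run

/-- Construction.  The state is (the code of) a tuple `(mode, nx, ny, pad, stack, register)`.
Mode 0/1: read the cells `0` and `1`.  Mode 2: add one unit to the pad until it reaches
`tgt (nx, ny)`; then push the root call.  A frame is `(k, stage, pending, r1, r2)` (results in reverse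
order).  One step: if a result is in the register, hand it to the top frame (or halt if the stack is
empty); otherwise look at the top frame: start the first pending call (a coin or a read puts its value
in the register at once, any other call pushes the frame `(k', 1, s1 k', [], [])`); if nothing is pending,
go from stage 1 to stage 2 (`pending := s2 k r1`), or pop the frame and put `out k r1 r2` in the register.
Proof: induction on the depth `n`, for an arbitrary stack below, in continuation style: for every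
`g` on bit lists, `Ex`-values are compared after padding with steps; it is convenient to define the
value of a state `s` as `Ex N (fun l => f (fin (run s l)))` for `N` large and to use
`Ex (N+1) = ` average of one step.  At most three steps per node of the call tree. -/
theorem scheme_rm (S : Scheme) (h1 : PT fun p : Par × Call => S.s1 p.1 p.2)
    (h2 : PT fun p : Par × Call × List V => S.s2 p.1 p.2.1 p.2.2)
    (h3 : PT fun p : Par × Call × List V × List V => S.out p.1 p.2.1 p.2.2.1 p.2.2.2)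
    (tgt : ℕ × ℕ → ℕ) (ht : PT tgt) (root : Par → Call) (hr : PT root) :
    ∃ (m : RM) (C : ℕ), (PT fun p : V × ℕ × Bool => m.nx p.1 p.2.1 p.2.2) ∧ PT m.rd ∧ PT m.fin ∧
      ∀ (mem : ℕ → ℕ) (P : Par) (n c B : ℕ), P = (mem 0, mem 1, ⟨tgt (mem 0, mem 1)⟩) →
        S.Cst P n c (root P) → S.Szb P (realPrim P mem) B n (root P) → sz P ≤ B →
        (∀ l, sz (m.go mem l) ≤ C * (n + 1) * (B + 1) ^ 2) ∧
        (∀ l, m.rd (m.go mem l) ≤ P.1 + P.2.1 + 2) ∧
        (∀ l v, m.fin (m.go mem l) = some v → ∀ Q : V → Prop,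
          (S.eval P (realPrim P mem) n (root P)).All Q → ∃ u, Q u ∧ v = dec u) ∧
        (∀ l, l.length = C * (c + P.2.2.n + 1) → (m.fin (m.go mem l)).isSome) ∧
        ∀ f : ℕ → ℝ, Ex (C * (c + P.2.2.n + 1)) (fun l => (m.fin (m.go mem l)).elim 0 f) =
          (S.eval P (realPrim P mem) n (root P)).E fun u => f (dec u) := by
  refine ⟨mM S tgt root, 30, ?_, mach_pt_rd.comp (f := fun v : V => (dec v : MSt)) (by fun_prop),
    mach_pt_fin.comp (f := fun v : V => (dec v : MSt)) (by fun_prop), ?_⟩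
  · exact ((mach_pt_nx S h1 h2 h3 ht hr).comp
      (f := fun p : V × ℕ × Bool => ((dec p.1 : MSt), p.2.1, p.2.2)) (by fun_prop)).enc
  rintro mem P n c B rfl hc hz hP
  obtain ⟨c1, -, z1⟩ := mach_szb hc hz
  have hT : 1 ≤ 1 + n * mF B := by omega
  have s1 := mach_call (tgt := tgt) (root := root) (T := 1 + n * mF B) hP n c _ [] hc hz (by simp)
  have s2 := mach_pad hP hT s1 _ 0 (Nat.zero_add _)
  have s3 := MSim.det (mIni 1 (mem 0, 0, ⟨0⟩)) _ _ _
    (mach_I_ini hP (by omega) (.inl rfl) (.inr ⟨rfl, le_rfl⟩) (Nat.zero_le _) hT) (fun b => rfl) s2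
  have s4 := MSim.det (mIni 0 (0, 0, ⟨0⟩)) _ _ _
    (mach_I_ini hP (by omega) (.inr ⟨rfl, by omega⟩) (.inr ⟨rfl, by omega⟩) (Nat.zero_le _) hT) (fun b => rfl) s3
  have hg : ∀ (P : Par) (a : V) (b : Bool), mStep S tgt root mem (mRet P [] a) b = mRet P [] a := fun _ _ _ => rfl
  have hf : ∀ (P : Par) (a : V), mFin (mRet P [] a) = some (dec a) := fun _ _ => rfl
  have hi := s4.inv (hg _)
  have hJ : ∀ l : List Bool, mJ (mem 0, mem 1, ⟨tgt (mem 0, mem 1)⟩) B (1 + n * mF B)
      (l.foldl (mStep S tgt root mem) (mIni 0 (0, 0, ⟨0⟩))) := by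
    intro l
    rcases hi l with h | ⟨a, ha, e⟩
    · exact h.1.1
    · rw [e]
      exact mach_J_ret hP (by simp) (ha _ z1)
  have e1 : ∀ s : MSt, (mM S tgt root).rd (enc s) = mRd s := fun s => by simp only [mM, dec_enc]
  have e2 : ∀ s : MSt, (mM S tgt root).fin (enc s) = mFin s := fun s => by simp only [mM, dec_enc]
  simp only [mach_go, e1, e2]
  refine ⟨fun l => (hJ l).1.trans ?_, fun l => (hJ l).2, fun l v hv Q hQ => ?_, fun l hl => ?_, fun f => ?_⟩
  · unfold mF
    nlinarith [Nat.zero_le (n * B), Nat.zero_le (n * B * B), Nat.zero_le (B * B)]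
  · rcases hi l with h | ⟨a, ha, e⟩
    · rw [h.1.2] at hv
      cases hv
    · rw [e, hf] at hv
      exact ⟨a, ha Q hQ, (Option.some.inj hv).symm⟩
  · rcases hi l with h | ⟨a, ha, e⟩
    · have := h.2
      omega
    · rw [e, hf]
      rfl
  · exact s4.ex (hg _) (fun s => (mFin s).elim 0 f) _ (by omega)

end Crest.Agent.R288
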