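import Crest.Agent.R288.Pure

/-!
# R288: polynomial time of the pure functions, part a

Hints: `unfold …; fun_prop` usually works; `fun_prop` may loop on `2 * _` and `2 ^ _` when a definition is
reducible (use `PT.nat_mul`, `PT.nat_pow` by hand, or mark proved definitions `attribute [local irreducible]`);
always run with a timeout.  `PB` (polynomially bounded value) is needed for `List.range`, `List.replicate`,
`Un.mk` and exponents; `min _ x` needs `PB.min_left/right`.  Folds: `Lib/PT/Fold.lean`, `Lib/PT/List.lean`.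
-/

set_option autoImplicit false

namespace Crest.Agent.R288

open Crest.Agent.Lib.PT

variable {α : Type} [Enc α]

@[fun_prop] theorem mn_pt {l : α → List ℕ} (hl : PT l) : PT fun a => mn (l a) := by
  unfold mn
  fun_prop
attribute [local irreducible] mn

@[fun_prop] theorem omin_pt {x : α → ℕ} {l : α → List (Option ℕ)} (hx : PT x) (hl : PT l) : PT fun
    a => omin (x a) (l a) := by
  unfold omin
  refine PT.foldl_grow (G := fun p => sz p.2) hl hx (by fun_prop) (by fun_prop) fun a c b _ => ?_
  cases b with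
  | none => simp
  | some b =>
    simp only [Option.elim_some, sz_some]
    rcases min_choice c b with h | h <;> rw [h] <;> omega
attribute [local irreducible] omin

@[fun_prop] theorem dist1_pt {s : α → ℤ × ℤ} {s2 : α → ℤ × ℤ} (hs : PT s) (hs2 : PT s2) : PT fun a
    => dist1 (s a) (s2 a) := by
  unfold dist1
  fun_prop
attribute [local irreducible] dist1

@[fun_prop] theorem rdn_pt {g : α → ℕ} {z : α → ℤ} (hg : PT g) (hz : PT z) : PT fun a => rdn (g a)
    (z a) := by
  unfold rdn
  fun_prop
attribute [local irreducible] rdn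

@[fun_prop] theorem cw_pt {c : α → Ctx} (hc : PT c) : PT fun a => cw (c a) := by
  unfold cw
  fun_prop
attribute [local irreducible] cw

@[fun_prop] theorem om_pt {c : α → Ctx} (hc : PT c) : PT fun a => om (c a) := by
  unfold om
  fun_prop
attribute [local irreducible] om

@[fun_prop] theorem cap_pt {P : α → Par} {c : α → Ctx} (hP : PT P) (hc : PT c) : PT fun a => cap
    (P a) (c a) := by
  unfold cap
  fun_prop
attribute [local irreducible] cap

@[fun_prop] theorem capc_pt {P : α → Par} {c : α → Option Ctx} {v : α → ℕ} (hP : PT P) (hc : PT c)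
    (hv : PT v) : PT fun a => capc (P a) (c a) (v a) := by
  unfold capc
  fun_prop
attribute [local irreducible] capc

@[fun_prop] theorem pz_pt {pl : α → Plan} {j : α → ℕ} (hpl : PT pl) (hj : PT j) : PT fun a => pz
    (pl a) (j a) := by
  unfold pz
  fun_prop
attribute [local irreducible] pz

@[fun_prop] theorem pc_pt {pl : α → Plan} {j : α → ℕ} (hpl : PT pl) (hj : PT j) : PT fun a => pc
    (pl a) (j a) := by
  unfold pc
  fun_prop
attribute [local irreducible] pc

@[fun_prop] theorem junc_pt {P : α → Par} {pl : α → Plan} {x : α → ℤ} {y : α → ℤ} (hP : PT P)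
    (hpl : PT pl) (hx : PT x) (hy : PT y) : PT fun a => junc (P a) (pl a) (x a) (y a) := by
  unfold junc
  fun_prop
attribute [local irreducible] junc

@[fun_prop] theorem cjunc_pt {P : α → Par} {pl : α → Plan} (hP : PT P) (hpl : PT pl) : PT fun a =>
    cjunc (P a) (pl a) := by
  unfold cjunc
  fun_prop
attribute [local irreducible] cjunc

@[fun_prop] theorem cends_pt {P : α → Par} {pl : α → Plan} (hP : PT P) (hpl : PT pl) : PT fun a =>
    cends (P a) (pl a) := by
  unfold cends
  fun_prop
attribute [local irreducible] cends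

@[fun_prop] theorem blkP_pt {P : α → Par} {hb : α → ℕ} {p : α → ℕ} (hP : PT P) (hhb : PT hb)
    (hp : PT p) : PT fun a => blkP (P a) (hb a) (p a) := by
  unfold blkP
  fun_prop
attribute [local irreducible] blkP

@[fun_prop] theorem omg_pt {P : α → Par} {pl : α → Plan} {hb : α → ℕ} {p : α → ℕ} (hP : PT P)
    (hpl : PT pl) (hhb : PT hb) (hp : PT p) : PT fun a => omg (P a) (pl a) (hb a) (p a) := by
  unfold omg
  fun_prop
attribute [local irreducible] omg

@[fun_prop] theorem phs_pt {P : α → Par} {t : α → ℕ} (hP : PT P) (ht : PT t) : PT fun a => phs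
    (P a) (t a) := by
  unfold phs
  fun_prop
attribute [local irreducible] phs

@[fun_prop] theorem nIn_pt {P : α → Par} {t : α → ℕ} (hP : PT P) (ht : PT t) : PT fun a => nIn
    (P a) (t a) := by
  unfold nIn
  fun_prop

@[fun_prop] theorem nIn_pb {P : α → Par} {t : α → ℕ} (hP : PT P) (ht : PT t) : PB fun a => nIn
    (P a) (t a) := by
  unfold nIn
  exact PB.min_right _ (by fun_prop)
attribute [local irreducible] nIn

@[fun_prop] theorem wnd_pt {P : α → Par} {t : α → ℕ} {k : α → ℕ} (hP : PT P) (ht : PT t)
    (hk : PT k) : PT fun a => wnd (P a) (t a) (k a) := by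
  unfold wnd
  fun_prop
attribute [local irreducible] wnd

@[fun_prop] theorem rnk_pt {P : α → Par} {t : α → ℕ} {k : α → ℕ} (hP : PT P) (ht : PT t)
    (hk : PT k) : PT fun a => rnk (P a) (t a) (k a) := by
  unfold rnk
  fun_prop
attribute [local irreducible] rnk

@[fun_prop] theorem gsp_pt {P : α → Par} {σ : α → ℕ} (hP : PT P) (hσ : PT σ) : PT fun a => gsp
    (P a) (σ a) := by
  unfold gsp
  fun_prop
attribute [local irreducible] gsp

@[fun_prop] theorem zgrid_pt {P : α → Par} {x : α → ℤ} {σ : α → ℕ} (hP : PT P) (hx : PT x)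
    (hσ : PT σ) : PT fun a => zgrid (P a) (x a) (σ a) := by
  unfold zgrid
  fun_prop
attribute [local irreducible] zgrid

@[fun_prop] theorem wlv_pt {P : α → Par} {σ : α → ℕ} {lv : α → ℕ} (hP : PT P) (hσ : PT σ)
    (hlv : PT lv) : PT fun a => wlv (P a) (σ a) (lv a) := by
  unfold wlv
  fun_prop
attribute [local irreducible] wlv

@[fun_prop] theorem ctxAt_pt {P : α → Par} {σ : α → ℕ} {lv : α → ℕ} {x : α → ℤ} {y : α → ℤ}
    (hP : PT P) (hσ : PT σ) (hlv : PT lv) (hx : PT x) (hy : PT y) : PT fun a => ctxAt (P a) (σ a)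
    (lv a) (x a) (y a) := by
  unfold ctxAt
  fun_prop
attribute [local irreducible] ctxAt

@[fun_prop] theorem tget_pt {Zs : α → List ℤ} {tab : α → Tab} {j : α → ℕ} {x : α → ℤ} {y : α → ℤ}
    (hZs : PT Zs) (htab : PT tab) (hj : PT j) (hx : PT x) (hy : PT y) : PT fun a => tget (Zs a)
    (tab a) (j a) (x a) (y a) := by
  unfold tget
  fun_prop
attribute [local irreducible] tget

@[fun_prop] theorem optz_pt {P : α → Par} {pl : α → Plan} {hb : α → ℕ} {p : α → ℕ} {k : α → ℕ}
    (hP : PT P) (hpl : PT pl) (hhb : PT hb) (hp : PT p) (hk : PT k) : PT fun a => optz (P a)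
    (pl a) (hb a) (p a) (k a) := by
  unfold optz
  fun_prop
attribute [local irreducible] optz

@[fun_prop] theorem sclS_pt {P : α → Par} {C : α → ℕ} {j : α → ℕ} (hP : PT P) (hC : PT C)
    (hj : PT j) : PT fun a => sclS (P a) (C a) (j a) := by
  unfold sclS
  exact PT.nat_div (PT.nat_pow (PT.const 2) (by fun_prop)
    (PB.add (by fun_prop) (PB.min_right _ (by fun_prop)))) (by fun_prop)
attribute [local irreducible] sclS

@[fun_prop] theorem sclC_pt {P : α → Par} {c : α → Ctx} {j : α → ℕ} (hP : PT P) (hc : PT c)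
    (hj : PT j) : PT fun a => sclC (P a) (c a) (j a) := by
  unfold sclC
  exact PT.nat_div (PT.nat_mul (by fun_prop) (PT.nat_pow (PT.const 2) (by fun_prop)
    (PB.min_right _ (by fun_prop)))) (by fun_prop)
attribute [local irreducible] sclC

@[fun_prop] theorem tabKeys_pt {P : α → Par} {c : α → Ctx} {σ : α → ℕ} {lv : α → ℕ} (hP : PT P)
    (hc : PT c) (hσ : PT σ) (hlv : PT lv) : PT fun a => tabKeys (P a) (c a) (σ a) (lv a) := by
  unfold tabKeys
  fun_prop
attribute [local irreducible] tabKeys

@[fun_prop] theorem qbits_pt {P : α → Par} {ω : α → ℕ} (hP : PT P) (hω : PT ω) : PT fun a => qbits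
    (P a) (ω a) := by
  unfold qbits
  fun_prop

@[fun_prop] theorem qbits_pb {P : α → Par} {ω : α → ℕ} (hP : PT P) (hω : PT ω) : PB fun a => qbits
    (P a) (ω a) := by
  unfold qbits
  exact PB.add (PB.min_right _ (by fun_prop)) (by fun_prop)
attribute [local irreducible] qbits

@[fun_prop] theorem hval_pt {s : α → ℤ × ℤ} {h : α → Hnt} (hs : PT s) (hh : PT h) : PT fun a =>
    hval (s a) (h a) := by
  unfold hval
  fun_prop
attribute [local irreducible] hval

@[fun_prop] theorem pastOut_pt {A : α → List ℕ} {B : α → List ℕ} (hA : PT A) (hB : PT B) : PT fun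
    a => pastOut (A a) (B a) := by
  unfold pastOut
  fun_prop
attribute [local irreducible] pastOut

end Crest.Agent.R288
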