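import Crest.Agent.R288.Alg
import Crest.Agent.R288.PTa

/-!
# R288: polynomial time of the calls

Hints: `unfold …; fun_prop` usually works; `fun_prop` may loop on `2 * _` and `2 ^ _` when a definition is
reducible (use `PT.nat_mul`, `PT.nat_pow` by hand, or mark proved definitions `attribute [local irreducible]`);
always run with a timeout.  `PB` (polynomially bounded value) is needed for `List.range`, `List.replicate`,
`Un.mk` and exponents; `min _ x` needs `PB.min_left/right`.  Folds: `Lib/PT/Fold.lean`, `Lib/PT/List.lean`.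
-/

set_option autoImplicit false

namespace Crest.Agent.R288

open Crest.Agent.Lib.PT

set_option maxHeartbeats 100000

variable {α : Type} [Enc α]

@[fun_prop] theorem cRead_pt {x : α → ℕ} (hx : PT x) : PT fun a => cRead (x a) := by
  unfold cRead; fun_prop

@[fun_prop] theorem cRnd_pt {e : α → ℕ} (he : PT e) (be : PB e) : PT fun a => cRnd (e a) := by
  unfold cRnd; fun_prop

@[fun_prop] theorem cAvg_pt {k : α → Call} {e : α → ℕ} (hk : PT k) (he : PT e) : PT fun a => cAvg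
    (k a) (e a) := by
  unfold cAvg; fun_prop

@[fun_prop] theorem cVec_pt {ks : α → List Call} (hks : PT ks) : PT fun a => cVec (ks a) := by
  unfold cVec; fun_prop

@[fun_prop] theorem cSum_pt {ks : α → List Call} (hks : PT ks) : PT fun a => cSum (ks a) := by
  unfold cSum; fun_prop

@[fun_prop] theorem cRow_pt {e : α → ℕ} {i : α → ℕ} {x : α → ℤ} {κ : α → Un} {row : α → List ℕ}
    (he : PT e) (hi : PT i) (hx : PT x) (hκ : PT κ) (hrow : PT row) (be : PB e) : PT fun a => cRow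
    (e a) (i a) (x a) (κ a) (row a) := by
  unfold cRow; fun_prop

@[fun_prop] theorem cSmall_pt {e : α → ℕ} {i : α → ℕ} {x : α → ℤ} {y : α → ℤ} {κ : α → ℕ}
    (he : PT e) (hi : PT i) (hx : PT x) (hy : PT y) (hκ : PT κ) (be : PB e) (bκ : PB κ) : PT fun a
    => cSmall (e a) (i a) (x a) (y a) (κ a) := by
  unfold cSmall; fun_prop

@[fun_prop] theorem cOrc_pt {e : α → ℕ} {i : α → ℕ} {x : α → ℤ} {y : α → ℤ} (he : PT e)
    (hi : PT i) (hx : PT x) (hy : PT y) (be : PB e) : PT fun a => cOrc (e a) (i a) (x a) (y a) :=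
    by
  unfold cOrc; fun_prop

@[fun_prop] theorem cGap_pt {e : α → ℕ} {i : α → ℕ} {x : α → ℤ} {y : α → ℤ} {κ : α → ℕ}
    (he : PT e) (hi : PT i) (hx : PT x) (hy : PT y) (hκ : PT κ) (be : PB e) : PT fun a => cGap
    (e a) (i a) (x a) (y a) (κ a) := by
  unfold cGap; fun_prop

@[fun_prop] theorem cGRaw_pt {e : α → ℕ} {i : α → ℕ} {x : α → ℤ} {κ : α → ℕ} (he : PT e)
    (hi : PT i) (hx : PT x) (hκ : PT κ) (be : PB e) : PT fun a => cGRaw (e a) (i a) (x a) (κ a) :=
    by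
  unfold cGRaw; fun_prop

@[fun_prop] theorem cGDraw_pt {e : α → ℕ} {i : α → ℕ} {x : α → ℤ} {κ : α → ℕ} {eb : α → ℕ}
    {l : α → ℕ} (he : PT e) (hi : PT i) (hx : PT x) (hκ : PT κ) (heb : PT eb) (hl : PT l)
    (be : PB e) : PT fun a => cGDraw (e a) (i a) (x a) (κ a) (eb a) (l a) := by
  unfold cGDraw; fun_prop

@[fun_prop] theorem cTop_pt {r : α → ℕ} {i : α → ℕ} {s : α → ℤ × ℤ} {c : α → Option Ctx}
    {t : α → ℕ} (hr : PT r) (hi : PT i) (hs : PT s) (hc : PT c) (ht : PT t) (br : PB r) : PT fun a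
    => cTop (r a) (i a) (s a) (c a) (t a) := by
  unfold cTop; fun_prop

@[fun_prop] theorem cTopp_pt {r : α → ℕ} {i : α → ℕ} {s : α → ℤ × ℤ} {c : α → Option Ctx}
    {t : α → ℕ} (hr : PT r) (hi : PT i) (hs : PT s) (hc : PT c) (ht : PT t) (br : PB r) : PT fun a
    => cTop' (r a) (i a) (s a) (c a) (t a) := by
  unfold cTop'; fun_prop

@[fun_prop] theorem cGVal_pt {r : α → ℕ} {i : α → ℕ} {s : α → ℤ × ℤ} {σ : α → ℕ} {t : α → ℕ}
    (hr : PT r) (hi : PT i) (hs : PT s) (hσ : PT σ) (ht : PT t) (br : PB r) : PT fun a => cGVal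
    (r a) (i a) (s a) (σ a) (t a) := by
  unfold cGVal; fun_prop

@[fun_prop] theorem cPlan_pt {r : α → ℕ} {i : α → ℕ} {s : α → ℤ × ℤ} {σ : α → ℕ} {t : α → ℕ}
    (hr : PT r) (hi : PT i) (hs : PT s) (hσ : PT σ) (ht : PT t) (br : PB r) : PT fun a => cPlan
    (r a) (i a) (s a) (σ a) (t a) := by
  unfold cPlan; fun_prop

@[fun_prop] theorem cSVal_pt {r : α → ℕ} {i : α → ℕ} {s : α → ℤ × ℤ} {σ : α → ℕ} {t : α → ℕ}
    (hr : PT r) (hi : PT i) (hs : PT s) (hσ : PT σ) (ht : PT t) (br : PB r) : PT fun a => cSVal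
    (r a) (i a) (s a) (σ a) (t a) := by
  unfold cSVal; fun_prop

@[fun_prop] theorem cSN_pt {r : α → ℕ} {i : α → ℕ} {pl : α → Plan} {hb : α → ℕ} {p : α → ℕ}
    {s : α → ℤ × ℤ} {k : α → ℕ} {q : α → ℕ} {t : α → ℕ} (hr : PT r) (hi : PT i) (hpl : PT pl)
    (hhb : PT hb) (hp : PT p) (hs : PT s) (hk : PT k) (hq : PT q) (ht : PT t) (br : PB r) : PT fun
    a => cSN (r a) (i a) (pl a) (hb a) (p a) (s a) (k a) (q a) (t a) := by
  unfold cSN; fun_prop

@[fun_prop] theorem cPast_pt {r : α → ℕ} {i : α → ℕ} {c : α → Ctx} {t : α → ℕ} (hr : PT r)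
    (hi : PT i) (hc : PT c) (ht : PT t) (br : PB r) : PT fun a => cPast (r a) (i a) (c a) (t a) :=
    by
  unfold cPast; fun_prop

@[fun_prop] theorem cFix_pt {r : α → ℕ} {i : α → ℕ} {c : α → Ctx} {t : α → ℕ} (hr : PT r)
    (hi : PT i) (hc : PT c) (ht : PT t) (br : PB r) : PT fun a => cFix (r a) (i a) (c a) (t a) :=
    by
  unfold cFix; fun_prop

@[fun_prop] theorem cCom_pt {r : α → ℕ} {i : α → ℕ} {c : α → Ctx} {t : α → ℕ} (hr : PT r)
    (hi : PT i) (hc : PT c) (ht : PT t) (br : PB r) : PT fun a => cCom (r a) (i a) (c a) (t a) :=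
    by
  unfold cCom; fun_prop

@[fun_prop] theorem cHint_pt {r : α → ℕ} {i : α → ℕ} {c : α → Ctx} {σ : α → ℕ}
    {pls : α → List (Option Plan)} {t : α → ℕ} (hr : PT r) (hi : PT i) (hc : PT c) (hσ : PT σ)
    (hpls : PT pls) (ht : PT t) (br : PB r) : PT fun a => cHint (r a) (i a) (c a) (σ a) (pls a)
    (t a) := by
  unfold cHint; fun_prop

@[fun_prop] theorem cDraw_pt {r : α → ℕ} {i : α → ℕ} {c : α → Ctx} {σ : α → ℕ} {lv : α → ℕ}
    {t : α → ℕ} (hr : PT r) (hi : PT i) (hc : PT c) (hσ : PT σ) (hlv : PT lv) (ht : PT t)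
    (br : PB r) : PT fun a => cDraw (r a) (i a) (c a) (σ a) (lv a) (t a) := by
  unfold cDraw; fun_prop

@[fun_prop] theorem cTab_pt {P : α → Par} {r : α → ℕ} {i : α → ℕ} {Zs : α → List ℤ} {t : α → ℕ}
    (hP : PT P) (hr : PT r) (hi : PT i) (hZs : PT Zs) (ht : PT t) (br : PB r) : PT fun a => cTab
    (P a) (r a) (i a) (Zs a) (t a) := by
  unfold cTab; fun_prop

@[fun_prop] theorem cSRoot_pt {P : α → Par} {r : α → ℕ} {i : α → ℕ} {pl : α → Plan} {t : α → ℕ}
    (hP : PT P) (hr : PT r) (hi : PT i) (hpl : PT pl) (ht : PT t) (br : PB r) : PT fun a => cSRoot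
    (P a) (r a) (i a) (pl a) (t a) := by
  unfold cSRoot; fun_prop

@[fun_prop] theorem cCent_pt {P : α → Par} {r : α → ℕ} {i : α → ℕ} {pl : α → Plan} {t : α → ℕ}
    (hP : PT P) (hr : PT r) (hi : PT i) (hpl : PT pl) (ht : PT t) (br : PB r) : PT fun a => cCent
    (P a) (r a) (i a) (pl a) (t a) := by
  unfold cCent; fun_prop

@[fun_prop] theorem rd_pt {β : Type} [Enc β] [Dec β] {r : α → List V} {n : α → ℕ} (hr : PT r)
    (hn : PT n) : PT fun a => (rd (r a) (n a) : β) := by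
  unfold rd; fun_prop

@[fun_prop] theorem rds_pt {β : Type} [Enc β] [Dec β] {r : α → List V} (hr : PT r) :
    PT fun a => (rds (r a) : List β) := by
  unfold rds; fun_prop

theorem root_pt : PT root := by
  unfold root; fun_prop

end Crest.Agent.R288
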