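import Crest.Agent.R288.PTa

/-!
# R288: polynomial time of the pure functions, part c

Hints: `unfold …; fun_prop` usually works; `fun_prop` may loop on `2 * _` and `2 ^ _` when a definition is
reducible (use `PT.nat_mul`, `PT.nat_pow` by hand, or mark proved definitions `attribute [local irreducible]`);
always run with a timeout.  `PB` (polynomially bounded value) is needed for `List.range`, `List.replicate`,
`Un.mk` and exponents; `min _ x` needs `PB.min_left/right`.  Folds: `Lib/PT/Fold.lean`, `Lib/PT/List.lean`.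
-/

set_option autoImplicit false

namespace Crest.Agent.R288

open Crest.Agent.Lib.PT

variable {α : Type} [Enc α]

set_option maxHeartbeats 100000

attribute [local irreducible] mn omin dist1 rdn cw om cap capc pz pc junc cjunc cends blkP omg phs nIn wnd rnk gsp
  zgrid wlv ctxAt tget optz sclS sclC tabKeys qbits hval pastOut

theorem ptc_clamp (Q z : ℤ) : (clampZ 0 Q z).natAbs ≤ Q.natAbs := by
  unfold clampZ; omega

theorem ptc_fold (Q xh : ℤ) (l : List ℤ) : ∀ s : ℤ × ℤ, s.1.natAbs ≤ Q.natAbs → s.2.natAbs ≤ Q.natAbs →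
    (l.foldl (lstep Q xh) s).1.natAbs ≤ Q.natAbs ∧ (l.foldl (lstep Q xh) s).2.natAbs ≤ Q.natAbs := by
  induction l with
  | nil => exact fun s h1 h2 => ⟨h1, h2⟩
  | cons d l ih =>
    intro s _ h2
    refine ih _ (ptc_clamp _ _) ?_
    simp only [lstep]
    split_ifs
    · exact ptc_clamp _ _
    · exact h2

@[fun_prop] theorem clampZ_pt {x : α → ℤ} {y : α → ℤ} {z : α → ℤ} (hx : PT x) (hy : PT y)
    (hz : PT z) : PT fun a => clampZ (x a) (y a) (z a) := by
  unfold clampZ; fun_prop
attribute [local irreducible] clampZ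

@[fun_prop] theorem lstep_pt {Q : α → ℤ} {xh : α → ℤ} {s : α → ℤ × ℤ} {d : α → ℤ} (hQ : PT Q)
    (hxh : PT xh) (hs : PT s) (hd : PT d) : PT fun a => lstep (Q a) (xh a) (s a) (d a) := by
  unfold lstep; fun_prop
attribute [local irreducible] lstep

@[fun_prop] theorem learn_pt {Q : α → ℤ} {xh : α → ℤ} {ds : α → List ℤ} (hQ : PT Q) (hxh : PT xh)
    (hds : PT ds) : PT fun a => learn (Q a) (xh a) (ds a) := by
  unfold learn
  refine PT.snd (PT.foldl_of_prefix (f := fun a => lstep (Q a) (xh a)) hds (PT.const _) (by fun_prop)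
    (B := fun a => 4 * sz (Q a) + 9) (((PB.const 4).mul (PB.sz_self.comp hQ)).add (PB.const 9))
    fun a pre _ => ?_)
  obtain ⟨h1, h2⟩ := ptc_fold (Q a) (xh a) pre (0, 0) (by simp) (by simp)
  have h3 := sz_int_le_of_le h1
  have h4 := sz_int_le_of_le h2
  have h5 := sz_natAbs_le (Q a)
  rw [sz_prod]
  omega
attribute [local irreducible] learn

@[fun_prop] theorem choose2_pt {P : α → Par} {ω : α → ℕ} {a1 : α → List ℕ} {a2 : α → List ℕ}
    {u : α → ℕ} (hP : PT P) (hω : PT ω) (ha1 : PT a1) (ha2 : PT a2) (hu : PT u) : PT fun a =>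
    choose2 (P a) (ω a) (a1 a) (a2 a) (u a) := by
  unfold choose2; fun_prop
attribute [local irreducible] choose2

@[fun_prop] theorem usable_pt {P : α → Par} {c : α → Ctx} {j : α → ℕ} {pl : α → Plan} (hP : PT P)
    (hc : PT c) (hj : PT j) (hpl : PT pl) : PT fun a => usable (P a) (c a) (j a) (pl a) := by
  unfold usable; fun_prop
attribute [local irreducible] usable

@[fun_prop] theorem fixOut_pt {P : α → Par} {c : α → Ctx} {rows : α → List (List ℕ)}
    {pls : α → List (List (Option Plan))} (hP : PT P) (hc : PT c) (hrows : PT rows)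
    (hpls : PT pls) : PT fun a => fixOut (P a) (c a) (rows a) (pls a) := by
  unfold fixOut; fun_prop
attribute [local irreducible] fixOut

@[fun_prop] theorem statH_pt {P : α → Par} {pls : α → List (Option Plan)} (hP : PT P)
    (hpls : PT pls) : PT fun a => statH (P a) (pls a) := by
  unfold statH; fun_prop
attribute [local irreducible] statH

@[fun_prop] theorem dterm_pt {P : α → Par} {c : α → Ctx} {σ : α → ℕ} {pl : α → Plan} {d : α → Drw}
    (hP : PT P) (hc : PT c) (hσ : PT σ) (hpl : PT pl) (hd : PT d) : PT fun a => dterm (P a) (c a)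
    (σ a) (pl a) (d a) := by
  unfold dterm; fun_prop
attribute [local irreducible] dterm

@[fun_prop] theorem selP_pt {P : α → Par} {c : α → Ctx} {σ : α → ℕ} {pls : α → List (Option Plan)}
    {ds : α → List Drw} (hP : PT P) (hc : PT c) (hσ : PT σ) (hpls : PT pls) (hds : PT ds) : PT fun
    a => selP (P a) (c a) (σ a) (pls a) (ds a) := by
  unfold selP; fun_prop
attribute [local irreducible] selP

@[fun_prop] theorem own_pt {c : α → Ctx} {s : α → ℤ × ℤ} {cm : α → Com} {j : α → ℕ} (hc : PT c)
    (hs : PT s) (hcm : PT cm) (hj : PT j) : PT fun a => own (c a) (s a) (cm a) (j a) := by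
  unfold own; fun_prop
attribute [local irreducible] own

@[fun_prop] theorem comVal_pt {P : α → Par} {c : α → Ctx} {s : α → ℤ × ℤ} {cm : α → Com}
    (hP : PT P) (hc : PT c) (hs : PT s) (hcm : PT cm) : PT fun a => comVal (P a) (c a) (s a)
    (cm a) := by
  unfold comVal; fun_prop
attribute [local irreducible] comVal

@[fun_prop] theorem ctxOut_pt {P : α → Par} {c : α → Ctx} {s : α → ℤ × ℤ} {cm : α → Com}
    {xs : α → List ℕ} (hP : PT P) (hc : PT c) (hs : PT s) (hcm : PT cm) (hxs : PT xs) : PT fun a
    => ctxOut (P a) (c a) (s a) (cm a) (xs a) := by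
  unfold ctxOut; fun_prop
attribute [local irreducible] ctxOut

@[fun_prop] theorem leafC_pt {e : α → Bool} {ms : α → List Bool} {x : α → ℕ} {y : α → ℕ}
    (he : PT e) (hms : PT ms) (hx : PT x) (hy : PT y) : PT fun a => leafC (e a) (ms a) (x a) (y a)
    := by
  unfold leafC; fun_prop
attribute [local irreducible] leafC

@[fun_prop] theorem rowLeaf_pt {κ : α → Un} {e : α → Bool} {ms : α → List Bool} {row : α → List ℕ}
    (hκ : PT κ) (he : PT e) (hms : PT ms) (hrow : PT row) : PT fun a => rowLeaf (κ a) (e a) (ms a)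
    (row a) := by
  unfold rowLeaf; fun_prop
attribute [local irreducible] rowLeaf

@[fun_prop] theorem row0_pt {κ : α → Un} (hκ : PT κ) : PT fun a => row0 (κ a) := by
  unfold row0; fun_prop
attribute [local irreducible] row0

@[fun_prop] theorem ypos_pt {i : α → ℕ} {x : α → ℤ} {κ : α → Un} {y : α → ℕ} (hi : PT i)
    (hx : PT x) (hκ : PT κ) (hy : PT y) : PT fun a => ypos (i a) (x a) (κ a) (y a) := by
  unfold ypos; fun_prop
attribute [local irreducible] ypos

@[fun_prop] theorem matchL_pt {P : α → Par} {i : α → ℕ} {x : α → ℤ} {κ : α → Un} {rs : α → List ℕ}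
    (hP : PT P) (hi : PT i) (hx : PT x) (hκ : PT κ) (hrs : PT rs) : PT fun a => matchL (P a) (i a)
    (x a) (κ a) (rs a) := by
  unfold matchL; fun_prop
attribute [local irreducible] matchL

@[fun_prop] theorem gu_pt {P : α → Par} {κ : α → ℕ} (hP : PT P) (hκ : PT κ) : PT fun a => gu (P a)
    (κ a) := by
  unfold gu; fun_prop
attribute [local irreducible] gu

@[fun_prop] theorem gg_pt {P : α → Par} {κ : α → ℕ} {eb : α → ℕ} (hP : PT P) (hκ : PT κ)
    (heb : PT eb) : PT fun a => gg (P a) (κ a) (eb a) := by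
  unfold gg; fun_prop
attribute [local irreducible] gg

@[fun_prop] theorem gstates_pt {P : α → Par} {x : α → ℤ} {κ : α → ℕ} {eb : α → ℕ} (hP : PT P)
    (hx : PT x) (hκ : PT κ) (heb : PT eb) : PT fun a => gstates (P a) (x a) (κ a) (eb a) := by
  unfold gstates; fun_prop
attribute [local irreducible] gstates

@[fun_prop] theorem gdraws_pt {P : α → Par} (hP : PT P) : PT fun a => gdraws (P a) := by
  unfold gdraws; fun_prop
attribute [local irreducible] gdraws

@[fun_prop] theorem graw_pt {P : α → Par} {κ : α → ℕ} {n : α → ℕ} (hP : PT P) (hκ : PT κ)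
    (hn : PT n) : PT fun a => graw (P a) (κ a) (n a) := by
  unfold graw; fun_prop
attribute [local irreducible] graw

end Crest.Agent.R288
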