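import Crest.Agent.R288.PTb
import Crest.Agent.R288.PTc
import Crest.Agent.R288.PTd

/-!
# R288: the first stage is polynomial time

Hints: `unfold …; fun_prop` usually works; `fun_prop` may loop on `2 * _` and `2 ^ _` when a definition is
reducible (use `PT.nat_mul`, `PT.nat_pow` by hand, or mark proved definitions `attribute [local irreducible]`);
always run with a timeout.  `PB` (polynomially bounded value) is needed for `List.range`, `List.replicate`,
`Un.mk` and exponents; `min _ x` needs `PB.min_left/right`.  Folds: `Lib/PT/Fold.lean`, `Lib/PT/List.lean`.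
Prove one lemma per stage function (`PT fun p : Par × ATop × List V => topS2 p.1 p.2.1 p.2.2` etc.).
-/

set_option autoImplicit false

namespace Crest.Agent.R288

open Crest.Agent.Lib.PT

attribute [local irreducible] cCoin cRead cRnd cAvg cVec cSum cRow cSmall cOrc cGap cGRaw cGDraw cTop cTop' cGVal
  cPlan cSVal cSN cPast cFix cCom cHint cDraw cTab cSRoot cCent ypos row0 gdraws zgrid wnd phs pc optz nIn rnk qbits
  omg om sclC

section stages

variable {α : Type} [Enc α] {P : α → Par}

theorem pte_rowS1 {x : α → ARow} (hP : PT P) (hx : PT x) : PT fun a => rowS1 (P a) (x a) := by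
  unfold rowS1
  fun_prop

theorem pte_smallS1 {x : α → ASmall} (hx : PT x) : PT fun a => smallS1 (x a) := by
  unfold smallS1
  fun_prop

theorem pte_orcS1 {x : α → AOrc} (hx : PT x) : PT fun a => orcS1 (x a) := by
  unfold orcS1
  refine PT.ite (PT.nat_le (PT.nat_pow (PT.const 2) (by fun_prop) (by fun_prop)) (by fun_prop)) (PT.const _)
    (PT.map (by fun_prop) (cGap_pt (by fun_prop) (by fun_prop) (by fun_prop) (by fun_prop)
      (PT.nat_pow (PT.const 2) (by fun_prop) (PB.min_right _ (by fun_prop))) (by fun_prop)))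

theorem pte_gapS1 {x : α → AGap} (hP : PT P) (hx : PT x) : PT fun a => gapS1 (P a) (x a) := by
  unfold gapS1
  refine PT.ite (by fun_prop) (PT.const _) (PT.ite (by fun_prop) (PT.cons (cSmall_pt (by fun_prop) (by fun_prop)
    (by fun_prop) (by fun_prop) (by fun_prop) (by fun_prop) (PB.min_right _ (by fun_prop))) (PT.const _)) ?_)
  fun_prop

theorem pte_grawS1 {x : α → AGRaw} (hP : PT P) (hx : PT x) : PT fun a => grawS1 (P a) (x a) := by
  unfold grawS1
  fun_prop

theorem pte_topS1 {x : α → ATop} (hP : PT P) (hx : PT x) : PT fun a => topS1 (P a) (x a) := by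
  unfold topS1
  fun_prop

theorem pte_toppS1 {x : α → ATop} (hP : PT P) (hx : PT x) : PT fun a => top'S1 (P a) (x a) := by
  unfold top'S1
  fun_prop

theorem pte_gvalS1 {x : α → AScl} (hP : PT P) (hx : PT x) : PT fun a => gvalS1 (P a) (x a) := by
  unfold gvalS1
  fun_prop

theorem pte_planS1 {x : α → AScl} (hP : PT P) (hx : PT x) : PT fun a => planS1 (P a) (x a) := by
  unfold planS1
  fun_prop

theorem pte_svalS1 {x : α → AScl} (hP : PT P) (hx : PT x) : PT fun a => svalS1 (P a) (x a) := by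
  unfold svalS1
  fun_prop

theorem pte_snOpt {x : α → ASN} {o : α → Bool} {t : α → ℕ} (hP : PT P) (hx : PT x) (ho : PT o) (ht : PT t) :
    PT fun a => snOpt (P a) (x a) (o a) (t a) := by
  unfold snOpt
  have := ho.eq_true
  fun_prop

attribute [local fun_prop] pte_snOpt
attribute [local irreducible] snOpt

theorem pte_snS1 {x : α → ASN} (hP : PT P) (hx : PT x) : PT fun a => snS1 (P a) (x a) := by
  unfold snS1
  fun_prop

theorem pte_pastS1 {x : α → ACtx} (hP : PT P) (hx : PT x) : PT fun a => pastS1 (P a) (x a) := by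
  unfold pastS1
  fun_prop

theorem pte_fixS1 {x : α → ACtx} (hP : PT P) (hx : PT x) : PT fun a => fixS1 (P a) (x a) := by
  unfold fixS1
  fun_prop

theorem pte_comS1 {x : α → ACtx} (hP : PT P) (hx : PT x) : PT fun a => comS1 (P a) (x a) := by
  unfold comS1
  fun_prop

theorem pte_hintS1 {x : α → AHint} (hP : PT P) (hx : PT x) : PT fun a => hintS1 (P a) (x a) := by
  unfold hintS1
  fun_prop

end stages

theorem algS1_pt : PT fun p : Par × Call => alg.s1 p.1 p.2 := by
  show PT fun p : Par × Call => algS1 p.1 p.2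
  unfold algS1
  have hP : PT fun p : Par × Call => p.1 := by fun_prop
  have ht : ∀ n : ℕ, PT fun p : Par × Call => p.2.1 = n := fun n => by fun_prop
  have hd : ∀ (β : Type) [Enc β] [Dec β], PT fun p : Par × Call => (dec p.2.2 : β) := fun β _ _ => by fun_prop
  refine PT.ite (ht 2) (PT.replicate (hd Un).un_n (PB.un (hd Un)) (PT.const _)) ?_
  refine PT.ite (ht 3) (PT.replicate (Par.p2_pt hP (hd (Call × ℕ)).snd) (Par.p2_pb hP (hd (Call × ℕ)).snd)
    (hd (Call × ℕ)).fst) ?_
  refine PT.ite (ht 4) (hd _) ?_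
  refine PT.ite (ht 5) (hd _) ?_
  refine PT.ite (ht 6) (pte_rowS1 hP (hd _)) ?_
  refine PT.ite (ht 7) (pte_smallS1 (hd _)) ?_
  refine PT.ite (ht 8) (pte_orcS1 (hd _)) ?_
  refine PT.ite (ht 9) (pte_gapS1 hP (hd _)) ?_
  refine PT.ite (ht 10) (pte_grawS1 hP (hd _)) ?_
  refine PT.ite (ht 11) (PT.cons (cRnd_pt (Par.kb_pt hP) (Par.kb_pb hP)) (PT.const _)) ?_
  refine PT.ite (ht 12) (pte_topS1 hP (hd _)) ?_
  refine PT.ite (ht 13) (pte_toppS1 hP (hd _)) ?_
  refine PT.ite (ht 14) (pte_gvalS1 hP (hd _)) ?_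
  refine PT.ite (ht 15) (pte_planS1 hP (hd _)) ?_
  refine PT.ite (ht 16) (pte_svalS1 hP (hd _)) ?_
  refine PT.ite (ht 17) (pte_snS1 hP (hd _)) ?_
  refine PT.ite (ht 18) (pte_pastS1 hP (hd _)) ?_
  refine PT.ite (ht 19) (pte_fixS1 hP (hd _)) ?_
  refine PT.ite (ht 20) (pte_comS1 hP (hd _)) ?_
  refine PT.ite (ht 21) (pte_hintS1 hP (hd _)) ?_
  exact PT.ite (ht 22) (PT.cons (cRnd_pt (Par.L_pt hP) (Par.L_pb hP)) (PT.const _)) (PT.const _)

end Crest.Agent.R288
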