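import Crest.Agent.R288.PTb
import Crest.Agent.R288.PTc
import Crest.Agent.R288.PTd

/-!
# R288: the second stage is polynomial time

Hints: `unfold …; fun_prop` usually works; `fun_prop` may loop on `2 * _` and `2 ^ _` when a definition is
reducible (use `PT.nat_mul`, `PT.nat_pow` by hand, or mark proved definitions `attribute [local irreducible]`);
always run with a timeout.  `PB` (polynomially bounded value) is needed for `List.range`, `List.replicate`,
`Un.mk` and exponents; `min _ x` needs `PB.min_left/right`.  Folds: `Lib/PT/Fold.lean`, `Lib/PT/List.lean`.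
Prove one lemma per stage function (`PT fun p : Par × ATop × List V => topS2 p.1 p.2.1 p.2.2` etc.).
-/

set_option autoImplicit false

namespace Crest.Agent.R288

open Crest.Agent.Lib.PT

section stages

set_option maxHeartbeats 400000

attribute [local fun_prop] rd_pt rds_pt

attribute [local irreducible] cRead cRnd cAvg cVec cSum cRow cSmall cOrc cGap cGRaw cGDraw cTop cTop' cGVal cPlan cSVal
  cSN cPast cFix cCom cHint cDraw cTab cSRoot cCent rd rds gstates gg sclS sclC own choose2 omg selP tabKeys

theorem ptf_row : PT fun p : ARow × List V => rowS2 p.1 p.2 := by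
  unfold rowS2
  fun_prop

theorem ptf_gdraw : PT fun p : Par × AGDraw × List V => gdrawS2 p.1 p.2.1 p.2.2 := by
  unfold gdrawS2
  fun_prop

theorem radc_pt_f {α : Type} [Enc α] {c : α → Option Ctx} (hc : PT c) : PT fun a => radc (c a) := by
  unfold radc
  fun_prop

attribute [local fun_prop] radc_pt_f
attribute [local irreducible] radc

theorem ptf_top : PT fun p : Par × ATop × List V => topS2 p.1 p.2.1 p.2.2 := by
  unfold topS2
  fun_prop

theorem ptf_top' : PT fun p : Par × ATop × List V => top'S2 p.1 p.2.1 p.2.2 := by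
  unfold top'S2
  fun_prop

theorem ptf_sval : PT fun p : Par × AScl × List V => svalS2 p.1 p.2.1 p.2.2 := by
  unfold svalS2
  fun_prop

theorem ptf_sn : PT fun p : Par × ASN × List V => snS2 p.1 p.2.1 p.2.2 := by
  unfold snS2 snOpt
  fun_prop

theorem ptf_com : PT fun p : Par × ACtx × List V => comS2 p.1 p.2.1 p.2.2 := by
  unfold comS2
  fun_prop

theorem ptf_hint : PT fun p : Par × AHint × List V => hintS2 p.1 p.2.1 p.2.2 := by
  unfold hintS2
  fun_prop

theorem ptf_draw : PT fun p : Par × ADraw × List V => drawS2 p.1 p.2.1 p.2.2 := by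
  unfold drawS2
  fun_prop

end stages

theorem ptf_lift {A : Type} [Enc A] [Dec A] {f : Par → A → List V → List Call}
    (h : PT fun p : Par × A × List V => f p.1 p.2.1 p.2.2) :
    PT fun p : Par × Call × List V => f p.1 (dec p.2.1.2) p.2.2 :=
  h.comp (f := fun p : Par × Call × List V => (p.1, (dec p.2.1.2 : A), p.2.2)) (by fun_prop)

theorem algS2_pt : PT fun p : Par × Call × List V => alg.s2 p.1 p.2.1 p.2.2 := by
  have c : ∀ n : ℕ, PT fun p : Par × Call × List V => p.2.1.1 = n := fun n => by fun_prop
  have h6 : PT fun p : Par × ARow × List V => rowS2 p.2.1 p.2.2 :=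
    ptf_row.comp (f := fun p : Par × ARow × List V => p.2) (by fun_prop)
  exact PT.ite (c 6) (ptf_lift (f := fun _ => rowS2) h6) (PT.ite (c 11) (ptf_lift ptf_gdraw)
    (PT.ite (c 12) (ptf_lift ptf_top) (PT.ite (c 13) (ptf_lift ptf_top') (PT.ite (c 16) (ptf_lift ptf_sval)
    (PT.ite (c 17) (ptf_lift ptf_sn) (PT.ite (c 20) (ptf_lift ptf_com) (PT.ite (c 21) (ptf_lift ptf_hint)
    (PT.ite (c 22) (ptf_lift ptf_draw) (PT.const _)))))))))

end Crest.Agent.R288
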