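import Crest.Agent.R288.PTb
import Crest.Agent.R288.PTc
import Crest.Agent.R288.PTd

/-!
# R288: the result is polynomial time

Hints: `unfold …; fun_prop` usually works; `fun_prop` may loop on `2 * _` and `2 ^ _` when a definition is
reducible (use `PT.nat_mul`, `PT.nat_pow` by hand, or mark proved definitions `attribute [local irreducible]`);
always run with a timeout.  `PB` (polynomially bounded value) is needed for `List.range`, `List.replicate`,
`Un.mk` and exponents; `min _ x` needs `PB.min_left/right`.  Folds: `Lib/PT/Fold.lean`, `Lib/PT/List.lean`.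
Prove one lemma per stage function (`PT fun p : Par × ATop × List V => topS2 p.1 p.2.1 p.2.2` etc.).
-/

set_option autoImplicit false

namespace Crest.Agent.R288

open Crest.Agent.Lib.PT

section

variable {α : Type} [Enc α] {P : α → Par} {r1 r2 : α → List V}

theorem ptg_rowOut {a : α → ARow} (hP : PT P) (ha : PT a) (h1 : PT r1) (h2 : PT r2) :
    PT fun z => rowOut (P z) (a z) (r1 z) (r2 z) := by
  unfold rowOut
  fun_prop

theorem ptg_smallOut {a : α → ASmall} (ha : PT a) (h1 : PT r1) :
    PT fun z => smallOut (a z) (r1 z) := by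
  unfold smallOut
  fun_prop

theorem ptg_orcOut {a : α → AOrc} (hP : PT P) (ha : PT a) (h1 : PT r1) :
    PT fun z => orcOut (P z) (a z) (r1 z) := by
  unfold orcOut
  fun_prop

theorem ptg_gapOut {a : α → AGap} (hP : PT P) (ha : PT a) (h1 : PT r1) :
    PT fun z => gapOut (P z) (a z) (r1 z) := by
  unfold gapOut
  fun_prop

theorem ptg_grawOut {a : α → AGRaw} (hP : PT P) (ha : PT a) (h1 : PT r1) :
    PT fun z => grawOut (P z) (a z) (r1 z) := by
  unfold grawOut
  fun_prop

theorem ptg_gdrawOut (h2 : PT r2) :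
    PT fun z => gdrawOut (r2 z) := by
  unfold gdrawOut
  fun_prop

theorem radc_pt_g {c : α → Option Ctx} (hc : PT c) : PT fun a => radc (c a) := by
  unfold radc
  fun_prop

attribute [local fun_prop] radc_pt_g
attribute [local irreducible] radc

theorem ptg_topOut {a : α → ATop} (hP : PT P) (ha : PT a) (h1 : PT r1) (h2 : PT r2) :
    PT fun z => topOut (P z) (a z) (r1 z) (r2 z) := by
  unfold topOut
  fun_prop

theorem ptg_toppOut {a : α → ATop} (hP : PT P) (ha : PT a) (h1 : PT r1) (h2 : PT r2) :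
    PT fun z => top'Out (P z) (a z) (r1 z) (r2 z) := by
  unfold top'Out
  fun_prop

theorem ptg_gvalOut {a : α → AScl} (hP : PT P) (ha : PT a) (h1 : PT r1) :
    PT fun z => gvalOut (P z) (a z) (r1 z) := by
  unfold gvalOut
  fun_prop

theorem ptg_planOut {a : α → AScl} (hP : PT P) (ha : PT a) (h1 : PT r1) :
    PT fun z => planOut (P z) (a z) (r1 z) := by
  unfold planOut
  fun_prop

theorem ptg_svalOut {a : α → AScl} (hP : PT P) (ha : PT a) (h1 : PT r1) (h2 : PT r2) :
    PT fun z => svalOut (P z) (a z) (r1 z) (r2 z) := by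
  unfold svalOut
  fun_prop

theorem ptg_snOut {a : α → ASN} (ha : PT a) (h1 : PT r1) (h2 : PT r2) :
    PT fun z => snOut (a z) (r1 z) (r2 z) := by
  unfold snOut
  fun_prop

theorem ptg_pastOutp (h1 : PT r1) :
    PT fun z => pastOut' (r1 z) := by
  unfold pastOut'
  fun_prop

theorem ptg_fixOutp {a : α → ACtx} (hP : PT P) (ha : PT a) (h1 : PT r1) :
    PT fun z => fixOut' (P z) (a z) (r1 z) := by
  unfold fixOut'
  fun_prop

theorem ptg_comOut (hP : PT P) (h1 : PT r1) (h2 : PT r2) :
    PT fun z => comOut (P z) (r1 z) (r2 z) := by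
  unfold comOut
  fun_prop

theorem ptg_hintOut {a : α → AHint} (hP : PT P) (ha : PT a) (h1 : PT r1) (h2 : PT r2) :
    PT fun z => hintOut (P z) (a z) (r1 z) (r2 z) := by
  unfold hintOut
  fun_prop

theorem ptg_drawOut {a : α → ADraw} (ha : PT a) (h1 : PT r1) (h2 : PT r2) :
    PT fun z => drawOut (a z) (r1 z) (r2 z) := by
  unfold drawOut
  fun_prop

end

theorem algOut_pt :
    PT fun p : Par × Call × List V × List V => alg.out p.1 p.2.1 p.2.2.1 p.2.2.2 := by
  have hP : PT fun p : Par × Call × List V × List V => p.1 := PT.id.fst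
  have hk : PT fun p : Par × Call × List V × List V => p.2.1.1 := PT.id.snd.fst.fst
  have hv : PT fun p : Par × Call × List V × List V => p.2.1.2 := PT.id.snd.fst.snd
  have h1 : PT fun p : Par × Call × List V × List V => p.2.2.1 := PT.id.snd.snd.fst
  have h2 : PT fun p : Par × Call × List V × List V => p.2.2.2 := PT.id.snd.snd.snd
  have he : ∀ n : ℕ, PT fun p : Par × Call × List V × List V => p.2.1.1 = n := fun n => by fun_prop
  show PT fun p : Par × Call × List V × List V => algOut p.1 p.2.1 p.2.2.1 p.2.2.2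
  unfold algOut
  refine PT.ite (he _) (rds_pt h1).ofBits.enc ?_
  refine PT.ite (he _) ((rds_pt h1).nat_sum.nat_div (Par.p2_pt hP hv.dec.snd)).enc ?_
  refine PT.ite (he _) h1.enc ?_
  refine PT.ite (he _) (rds_pt h1).nat_sum.enc ?_
  refine PT.ite (he _) (ptg_rowOut hP hv.dec h1 h2) ?_
  refine PT.ite (he _) (ptg_smallOut hv.dec h1) ?_
  refine PT.ite (he _) (ptg_orcOut hP hv.dec h1) ?_
  refine PT.ite (he _) (ptg_gapOut hP hv.dec h1) ?_
  refine PT.ite (he _) (ptg_grawOut hP hv.dec h1) ?_
  refine PT.ite (he _) (ptg_gdrawOut h2) ?_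
  refine PT.ite (he _) (ptg_topOut hP hv.dec h1 h2) ?_
  refine PT.ite (he _) (ptg_toppOut hP hv.dec h1 h2) ?_
  refine PT.ite (he _) (ptg_gvalOut hP hv.dec h1) ?_
  refine PT.ite (he _) (ptg_planOut hP hv.dec h1) ?_
  refine PT.ite (he _) (ptg_svalOut hP hv.dec h1 h2) ?_
  refine PT.ite (he _) (ptg_snOut hv.dec h1 h2) ?_
  refine PT.ite (he _) (ptg_pastOutp h1) ?_
  refine PT.ite (he _) (ptg_fixOutp hP hv.dec h1) ?_
  refine PT.ite (he _) (ptg_comOut hP h1 h2) ?_
  refine PT.ite (he _) (ptg_hintOut hP hv.dec h1 h2) ?_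
  refine PT.ite (he _) (ptg_drawOut hv.dec h1 h2) ?_
  exact PT.const _

end Crest.Agent.R288
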