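import Crest.Agent.R288.RTa

/-!
# R288: concentration for products of random trees
-/

set_option autoImplicit false

namespace Crest.Agent.R288

open Crest.Agent.R309 (ind)

namespace RT

variable {α : Type}

theorem rtb_var_eq (t : RT α) (f : α → ℝ) :
    (t.E fun a => (f a - t.E f) ^ 2) = (t.E fun a => f a ^ 2) - t.E f ^ 2 := by
  have e : ∀ a, (f a - t.E f) ^ 2 = f a ^ 2 - 2 * t.E f * f a + t.E f ^ 2 := fun a => by ring
  simp only [e, E_add, E_sub, E_mul_left, E_const]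
  ring

theorem rtb_var {t : RT α} {f : α → ℝ} {B : ℝ} (h : t.All fun a => 0 ≤ f a ∧ f a ≤ B) :
    (t.E fun a => (f a - t.E f) ^ 2) ≤ B * t.E f := by
  have h1 : (t.E fun a => f a ^ 2) ≤ B * t.E f := by
    rw [← E_mul_left]
    exact E_mono (h.mono fun a ha => by nlinarith [ha.1, ha.2])
  rw [rtb_var_eq]
  nlinarith [sq_nonneg (t.E f)]

theorem rtb_jensen (t : RT α) (f : α → ℝ) : t.E f ^ 2 ≤ t.E fun a => f a ^ 2 := by
  have := E_nonneg t (f := fun a => (f a - t.E f) ^ 2) fun a => sq_nonneg _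
  rw [rtb_var_eq] at this
  linarith

theorem rtb_mgf {t : RT α} {f : α → ℝ} {B : ℝ} (h : t.All fun a => 0 ≤ f a ∧ f a ≤ B) {s : ℝ}
    (hs : |s| * B ≤ 1) : (t.E fun a => Real.exp (s * (f a - t.E f))) ≤ Real.exp (s ^ 2 * B * t.E f) := by
  have h0 : 0 ≤ t.E f := le_E (h.mono fun _ ha => ha.1)
  have h1 : t.E f ≤ B := E_le (h.mono fun _ ha => ha.2)
  have h2 : (t.E fun a => Real.exp (s * (f a - t.E f))) ≤
      t.E fun a => 1 + s * (f a - t.E f) + s ^ 2 * (f a - t.E f) ^ 2 := by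
    refine E_mono (h.mono fun a ha => ?_)
    have h3 : |s * (f a - t.E f)| ≤ 1 := by
      rw [abs_mul]
      exact (mul_le_mul_of_nonneg_left (abs_le.2 ⟨by linarith [ha.1], by linarith [ha.2]⟩) (abs_nonneg s)).trans hs
    have := (abs_le.1 (Real.abs_exp_sub_one_sub_id_le h3)).2
    rw [mul_pow] at this
    linarith
  simp only [E_add, E_sub, E_mul_left, E_const, sub_self, mul_zero, add_zero] at h2
  have h4 := mul_le_mul_of_nonneg_left (rtb_var h) (sq_nonneg s)
  have h5 := Real.add_one_le_exp (s ^ 2 * B * t.E f)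
  linarith

theorem rtb_sum (r : List ℕ) (c : ℝ) : (r.map fun v : ℕ => (v : ℝ) / c).sum = (r.sum : ℕ) / c := by
  induction r with
  | nil => simp
  | cons a r ih => rw [List.map_cons, List.sum_cons, List.sum_cons, ih, Nat.cast_add, add_div]

theorem rtb_mean (t : RT ℕ) (e : ℕ) :
    ((List.replicate (2 ^ e) t).map fun t => t.E fun v : ℕ => (v : ℝ) / 2 ^ e).sum = t.mean := by
  rw [List.map_replicate, List.sum_replicate, nsmul_eq_mul, E_div, mean]
  push_cast
  field_simp

theorem rtb_floor (a e : ℕ) : ((a / 2 ^ e : ℕ) : ℝ) ≤ (a : ℝ) / 2 ^ e ∧ (a : ℝ) / 2 ^ e - 1 ≤ (a / 2 ^ e : ℕ) := by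
  constructor
  · simpa using Nat.cast_div_le (α := ℝ) (m := a) (n := 2 ^ e)
  · have h := Nat.lt_div_mul_add (a := a) (b := 2 ^ e) (by positivity)
    have h' : (a : ℝ) < (a / 2 ^ e : ℕ) * 2 ^ e + 2 ^ e := by exact_mod_cast h
    rw [sub_le_iff_le_add, div_le_iff₀ (by positivity)]
    linarith

theorem rtb_all {t : RT ℕ} {B : ℝ} (h : t.All fun v => (v : ℝ) ≤ B) (e : ℕ) :
    ∀ u ∈ List.replicate (2 ^ e) t, u.All fun v : ℕ => 0 ≤ (v : ℝ) / 2 ^ e ∧ (v : ℝ) / 2 ^ e ≤ B / 2 ^ e := by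
  intro u hu
  rw [List.eq_of_mem_replicate hu]
  exact h.mono fun v hv => ⟨by positivity, by gcongr⟩

/-- Variance of a sum of independent variables in `[0, B]`: each has variance at most
`E X² ≤ B · E X`.  Induction on the list. -/
theorem var_seq (ts : List (RT α)) (f : α → ℝ) (B : ℝ)
    (h : ∀ t ∈ ts, t.All fun a => 0 ≤ f a ∧ f a ≤ B) :
    ((seq ts).E fun r => ((r.map f).sum - (ts.map fun t => t.E f).sum) ^ 2) ≤
      B * (ts.map fun t => t.E f).sum := by
  induction ts with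
  | nil => simp
  | cons t ts ih =>
    have h1 := ih fun u hu => h u (List.mem_cons_of_mem _ hu)
    have h2 := rtb_var (h t List.mem_cons_self)
    rw [E_seq_cons]
    simp only [List.map_cons, List.sum_cons]
    have e : ∀ (a : α) (l : List α), (f a + (l.map f).sum - (t.E f + (ts.map fun t => t.E f).sum)) ^ 2 =
        (f a - t.E f) ^ 2 + 2 * (f a - t.E f) * ((l.map f).sum - (ts.map fun t => t.E f).sum) +
          ((l.map f).sum - (ts.map fun t => t.E f).sum) ^ 2 := fun a l => by ring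
    simp only [e, E_add, E_sub, E_mul_left, E_const, E_seq_sum, sub_self, mul_zero, add_zero]
    linarith

/-- Chebyshev. -/
theorem cheb_seq (ts : List (RT α)) (f : α → ℝ) (B : ℝ)
    (h : ∀ t ∈ ts, t.All fun a => 0 ≤ f a ∧ f a ≤ B) {y : ℝ} (hy : 0 < y) :
    ((seq ts).P fun r => y ≤ |(r.map f).sum - (ts.map fun t => t.E f).sum|) ≤
      B * (ts.map fun t => t.E f).sum / y ^ 2 := by
  refine le_trans ?_ (div_le_div_of_nonneg_right (var_seq ts f B h) (sq_nonneg y))
  refine le_trans (P_mono (All_of_forall _ fun r hr => ?_))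
    (markov (All_of_forall _ fun r => sq_nonneg _) (pow_pos hy 2))
  rw [← sq_abs ((r.map f).sum - _)]
  exact pow_le_pow_left₀ hy.le hr 2

/-- Exponential moments: `e^z ≤ 1 + z + z²` for `|z| ≤ 1`, so each factor is at most
`1 + s² Var ≤ exp (s² B E X)`. -/
theorem mgf_seq (ts : List (RT α)) (f : α → ℝ) (B : ℝ)
    (h : ∀ t ∈ ts, t.All fun a => 0 ≤ f a ∧ f a ≤ B) (s : ℝ) (hs : |s| * B ≤ 1) :
    ((seq ts).E fun r => Real.exp (s * ((r.map f).sum - (ts.map fun t => t.E f).sum))) ≤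
      Real.exp (s ^ 2 * B * (ts.map fun t => t.E f).sum) := by
  induction ts with
  | nil => simp
  | cons t ts ih =>
    have h1 := ih fun u hu => h u (List.mem_cons_of_mem _ hu)
    have h2 := rtb_mgf (h t List.mem_cons_self) hs
    rw [E_seq_cons]
    simp only [List.map_cons, List.sum_cons]
    have e : ∀ (a : α) (l : List α), Real.exp (s * (f a + (l.map f).sum - (t.E f + (ts.map fun t => t.E f).sum))) =
        Real.exp (s * (f a - t.E f)) * Real.exp (s * ((l.map f).sum - (ts.map fun t => t.E f).sum)) :=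
      fun a l => by rw [← Real.exp_add]; congr 1; ring
    simp only [e, E_mul_left, E_mul_right]
    rw [mul_add, Real.exp_add]
    exact mul_le_mul h2 h1 (E_nonneg _ fun _ => (Real.exp_pos _).le) (Real.exp_pos _).le

theorem rtb_tail (ts : List (RT α)) (f : α → ℝ) {B μ₀ y : ℝ} (hB : 0 < B)
    (h : ∀ t ∈ ts, t.All fun a => 0 ≤ f a ∧ f a ≤ B) (hμ : (ts.map fun t => t.E f).sum ≤ μ₀)
    (hy : 0 < y) (hy' : y ≤ 2 * μ₀) {σ : ℝ} (hσ : |σ| = 1) :
    ((seq ts).E fun r => max (σ * ((r.map f).sum - (ts.map fun t => t.E f).sum) - y) 0) ≤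
        2 * B * μ₀ / y * Real.exp (- (y ^ 2 / (4 * B * μ₀))) := by
  have hμ0 : 0 < μ₀ := by linarith
  obtain ⟨s, hs⟩ : ∃ s, s = y / (2 * B * μ₀) := ⟨_, rfl⟩
  have s0 : 0 < s := by rw [hs]; positivity
  have h1 := mgf_seq ts f B h (σ * s) (by
    rw [abs_mul, hσ, one_mul, abs_of_pos s0, hs, div_mul_eq_mul_div, div_le_one (by positivity)]
    nlinarith)
  have hσ2 : σ ^ 2 = 1 := by rw [← sq_abs, hσ, one_pow]
  rw [mul_pow, hσ2, one_mul] at h1
  have h2 : ((seq ts).E fun r => max (σ * ((r.map f).sum - (ts.map fun t => t.E f).sum) - y) 0) ≤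
      (seq ts).E fun r => Real.exp (-(s * y)) / s *
        Real.exp (σ * s * ((r.map f).sum - (ts.map fun t => t.E f).sum)) := by
    refine E_mono' _ fun r => max_le ?_ (by positivity)
    rw [div_mul_eq_mul_div, le_div_iff₀ s0, ← Real.exp_add]
    have := Real.add_one_le_exp (-(s * y) + σ * s * ((r.map f).sum - (ts.map fun t => t.E f).sum))
    linarith
  rw [E_mul_left] at h2
  refine h2.trans ((mul_le_mul_of_nonneg_left (h1.trans (Real.exp_le_exp.2
    (mul_le_mul_of_nonneg_left hμ (by positivity)))) (by positivity)).trans_eq ?_)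
  rw [div_mul_eq_mul_div, ← Real.exp_add, show -(s * y) + s ^ 2 * B * μ₀ = - (y ^ 2 / (4 * B * μ₀)) by
    rw [hs]; field_simp; ring, hs]
  field_simp

/-- Upper and lower tails in expectation: `max z 0 ≤ exp (s z) / s`.  Use `mgf_seq` with
`s = ± y / (2 B μ₀)` (allowed because `y ≤ 2 μ₀`). -/
theorem tail_seq (ts : List (RT α)) (f : α → ℝ) {B μ₀ y : ℝ} (hB : 0 < B)
    (h : ∀ t ∈ ts, t.All fun a => 0 ≤ f a ∧ f a ≤ B) (hμ : (ts.map fun t => t.E f).sum ≤ μ₀)
    (hy : 0 < y) (hy' : y ≤ 2 * μ₀) :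
    ((seq ts).E fun r => max ((r.map f).sum - (ts.map fun t => t.E f).sum - y) 0) ≤
        2 * B * μ₀ / y * Real.exp (- (y ^ 2 / (4 * B * μ₀))) ∧
      ((seq ts).E fun r => max ((ts.map fun t => t.E f).sum - (r.map f).sum - y) 0) ≤
        2 * B * μ₀ / y * Real.exp (- (y ^ 2 / (4 * B * μ₀))) := by
  have h1 := rtb_tail ts f hB h hμ hy hy' (σ := 1) abs_one
  have h2 := rtb_tail ts f hB h hμ hy hy' (σ := -1) (by simp)
  simp only [one_mul, neg_mul, neg_sub] at h1 h2
  exact ⟨h1, h2⟩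

/-- Accurate averages: relative accuracy `τ` (plus one unit for rounding down) when all values are
at most `R` times the mean.  From `cheb_seq` with `f v = v / 2^e`, `B = R μ / 2^e`, `y = τ μ`
(if `μ = 0` all values are `0`). -/
theorem avg_acc (t : RT ℕ) (e : ℕ) {R τ : ℝ} (hR : 0 ≤ R) (hτ : 0 < τ)
    (h : t.All fun v => (v : ℝ) ≤ R * t.mean) :
    ((t.avg e).P fun v => ¬ ((1 - τ) * t.mean - 1 ≤ v ∧ (v : ℝ) ≤ (1 + τ) * t.mean)) ≤
      R / (τ ^ 2 * 2 ^ e) := by
  rcases (mean_nonneg t).eq_or_lt with h0 | h0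
  · have h1 : t.All fun v => v ≤ 0 := h.mono fun v hv => by
      rw [← h0, mul_zero] at hv
      exact_mod_cast hv
    refine (P_mono (q := fun _ => False) ((All_avg_le h1 e).mono fun v hv hn => hn ?_)).trans ?_
    · simp only [P, ind, if_false, E_const]
      positivity
    · rw [← h0, Nat.le_zero.1 hv]
      norm_num
  · have h1 := cheb_seq _ _ _ (rtb_all h e) (mul_pos hτ h0)
    simp only [rtb_mean, rtb_sum] at h1
    rw [avg, P_map]
    refine (P_mono (All_of_forall _ fun r hr => ?_)).trans (h1.trans_eq (by field_simp))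
    by_contra hc
    obtain ⟨h2, h3⟩ := abs_lt.1 (not_le.1 hc)
    obtain ⟨h4, h5⟩ := rtb_floor r.sum e
    exact hr ⟨by linarith, by linarith⟩

/-- `L¹` accuracy of averages: `E|X| ≤ √(E X²)` (or `|z| ≤ (z²/c + c)/2`), variance at most
`B²/2^(2e)`, plus one unit for rounding. -/
theorem avg_l1 (t : RT ℕ) (e : ℕ) {B : ℝ} (h : t.All fun v => (v : ℝ) ≤ B) :
    ((t.avg (2 * e)).E fun v => |(v : ℝ) - t.mean|) ≤ B / 2 ^ e + 1 := by
  have hB : 0 ≤ B := by
    obtain ⟨v, hv⟩ := h.exists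
    exact (Nat.cast_nonneg v).trans hv
  have h1 := var_seq _ _ _ (rtb_all h (2 * e))
  simp only [rtb_mean, rtb_sum] at h1
  have h2 := rtb_jensen (seq (List.replicate (2 ^ (2 * e)) t))
    fun r => |((r.sum : ℕ) : ℝ) / 2 ^ (2 * e) - t.mean|
  simp only [sq_abs] at h2
  have h3 : B / 2 ^ (2 * e) * t.mean ≤ (B / 2 ^ e) ^ 2 := by
    have h4 : t.mean ≤ B := E_le h
    calc _ ≤ B / 2 ^ (2 * e) * B := by gcongr
      _ = _ := by rw [div_pow, ← pow_mul, mul_comm e 2]; ring
  have h5 := (le_abs_self _).trans (abs_le_of_sq_le_sq (h2.trans (h1.trans h3)) (by positivity))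
  rw [avg, E_map]
  refine le_trans (E_mono' _ (g := fun r => |((r.sum : ℕ) : ℝ) / 2 ^ (2 * e) - t.mean| + 1) fun r => ?_)
    (by rw [E_add, E_const]; exact add_le_add h5 le_rfl)
  obtain ⟨h6, h7⟩ := rtb_floor r.sum (2 * e)
  have h8 := le_abs_self (((r.sum : ℕ) : ℝ) / 2 ^ (2 * e) - t.mean)
  have h9 := neg_abs_le (((r.sum : ℕ) : ℝ) / 2 ^ (2 * e) - t.mean)
  exact abs_le.2 ⟨by linarith, by linarith⟩

/-- Both tails of an average, from `tail_seq` with `f v = v / 2^e`, `μ₀ = B`. -/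
theorem avg_tail (t : RT ℕ) (e : ℕ) {B y : ℝ} (hB : 0 < B) (h : t.All fun v => (v : ℝ) ≤ B)
    (hy : 0 < y) (hy' : y ≤ 2 * B) :
    ((t.avg e).E fun v => max ((v : ℝ) - t.mean - y) 0) ≤
        2 * B ^ 2 / (2 ^ e * y) * Real.exp (- (y ^ 2 * 2 ^ e / (4 * B ^ 2))) ∧
      ((t.avg e).E fun v => max (t.mean - v - (y + 1)) 0) ≤
        2 * B ^ 2 / (2 ^ e * y) * Real.exp (- (y ^ 2 * 2 ^ e / (4 * B ^ 2))) := by
  have h4 : t.mean ≤ B := E_le h
  obtain ⟨h1, h2⟩ := tail_seq _ _ (μ₀ := B) (by positivity) (rtb_all h e) (by rwa [rtb_mean]) hy hy'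
  simp only [rtb_mean, rtb_sum] at h1 h2
  have e1 : 2 * (B / 2 ^ e) * B / y * Real.exp (-(y ^ 2 / (4 * (B / 2 ^ e) * B))) =
      2 * B ^ 2 / (2 ^ e * y) * Real.exp (- (y ^ 2 * 2 ^ e / (4 * B ^ 2))) := by
    congr 1
    · field_simp
    · congr 2
      field_simp
  rw [e1] at h1 h2
  rw [avg, E_map, E_map]
  exact ⟨(E_mono' _ fun r => max_le_max (by linarith [(rtb_floor r.sum e).1]) le_rfl).trans h1,
    (E_mono' _ fun r => max_le_max (by linarith [(rtb_floor r.sum e).2]) le_rfl).trans h2⟩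

/-- Majority amplification: `E 8^(count) ≤ (15/8)^(2n) ≤ 4^n`, then Markov at `8^n`. -/
theorem majority (t : RT α) (p : α → Bool) (h : (t.P fun a => p a = true) ≤ 1 / 8) (n : ℕ) :
    ((seq (List.replicate (2 * n) t)).P fun r => n ≤ r.countP p) ≤ (1 / 2) ^ n := by
  have h1 : (t.E fun a => if p a = true then (8 : ℝ) else 1) ≤ 15 / 8 := by
    have e : ∀ a, (if p a = true then (8 : ℝ) else 1) = 1 + 7 * ind (p a = true) := fun a => by
      by_cases ha : p a = true <;> simp [ind, ha]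
      norm_num
    simp only [e, E_add, E_mul_left, E_const]
    unfold P at h
    linarith
  have h2 : ∀ m : ℕ, ((seq (List.replicate m t)).E fun r => (8 : ℝ) ^ r.countP p) ≤ (15 / 8) ^ m := by
    intro m
    induction m with
    | zero => simp
    | succ m ih =>
      rw [List.replicate_succ, E_seq_cons]
      have e : ∀ (a : α) (l : List α), (8 : ℝ) ^ (a :: l).countP p =
          (if p a = true then (8 : ℝ) else 1) * 8 ^ l.countP p := fun a l => by
        rw [List.countP_cons]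
        split_ifs
        · rw [pow_succ']
        · rw [add_zero, one_mul]
      simp only [e, E_mul_left, E_mul_right]
      rw [pow_succ']
      exact mul_le_mul h1 ih (E_nonneg _ fun _ => by positivity) (by norm_num)
  refine (P_mono (All_of_forall _ fun r hr => pow_le_pow_right₀ (by norm_num : (1 : ℝ) ≤ 8) hr)).trans
    ((markov (All_of_forall _ fun r => by positivity) (by positivity)).trans ?_)
  refine (div_le_div_of_nonneg_right (h2 _) (by positivity)).trans ?_
  rw [pow_mul, ← div_pow]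
  exact pow_le_pow_left₀ (by norm_num) (by norm_num) n

end RT

end Crest.Agent.R288
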