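import Crest.Agent.R288.SemD
import Crest.Agent.R288.ParA
import Crest.Agent.R288.RTa
import Crest.Agent.R288.RTb
import Crest.Agent.R288.FB

/-!
# R288: soundness of a raw gap test
-/

set_option autoImplicit false

namespace Crest.Agent.R288

open RT

open Crest.Agent.R309 (ind)

theorem gaps_ind (p : Prop) : 0 ≤ ind p ∧ ind p ≤ 1 := by
  unfold ind
  split_ifs <;> norm_num

theorem gaps_sum_flat {β : Type} (n : ℕ) (g : ℕ → List β) (f : β → ℝ) :
    (((List.range n).flatMap g).map f).sum = ∑ i ∈ Finset.range n, ((g i).map f).sum := by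
  induction n with
  | zero => simp
  | succ n ih =>
    rw [List.range_succ, List.flatMap_append, List.map_append, List.sum_append, ih, Finset.sum_range_succ]
    simp

theorem gaps_sum_range (n : ℕ) (f : ℕ → ℝ) : ((List.range n).map f).sum = ∑ i ∈ Finset.range n, f i := by
  induction n with
  | zero => simp
  | succ n ih => rw [List.sum_range_succ, ih, Finset.sum_range_succ]

theorem gaps_count (r : List Bool) : (r.map fun v => ind (v = true)).sum = (r.countP id : ℕ) := by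
  induction r with
  | nil => simp
  | cons a r ih =>
    rw [List.map_cons, List.sum_cons, ih, List.countP_cons]
    cases a <;> simp [ind, add_comm]

theorem gaps_comb (bad : ℕ → ℕ → Prop) (c n : ℕ) :
    (∃ eb < n, ∃ l < c, ¬ bad eb l ∧ (2 : ℝ) ^ eb * (c + l) ≤
      c + ∑ eb ∈ Finset.range n, ∑ l ∈ Finset.range c, 2 ^ eb * ind (bad eb l)) ∨
    (2 : ℝ) ^ n * c ≤ c + ∑ eb ∈ Finset.range n, ∑ l ∈ Finset.range c, 2 ^ eb * ind (bad eb l) := by
  classical
  induction n with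
  | zero => right; simp
  | succ n ih =>
    rw [Finset.sum_range_succ]
    have hrow : ∀ l ≤ c, (∀ l' < l, bad n l') →
        (2 : ℝ) ^ n * l ≤ ∑ l ∈ Finset.range c, 2 ^ n * ind (bad n l) := fun l hl hb =>
      calc (2 : ℝ) ^ n * l = ∑ l' ∈ Finset.range l, 2 ^ n * ind (bad n l') := by
            rw [Finset.sum_congr rfl (g := fun _ => (2 : ℝ) ^ n) fun l' hl' => by
              rw [ind, if_pos (hb l' (Finset.mem_range.1 hl')), mul_one]]
            simp [mul_comm]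
        _ ≤ _ := Finset.sum_le_sum_of_subset_of_nonneg (Finset.range_subset_range.2 hl) fun _ _ _ =>
            mul_nonneg (by positivity) (gaps_ind _).1
    rcases ih with ⟨eb, h1, l, h2, h3, h4⟩ | ih
    · have := hrow 0 (Nat.zero_le _) fun _ h => absurd h (Nat.not_lt_zero _)
      rw [Nat.cast_zero, mul_zero] at this
      exact Or.inl ⟨eb, by omega, l, h2, h3, by linarith⟩
    · by_cases hex : ∃ l, l < c ∧ ¬ bad n l
      · refine Or.inl ⟨n, by omega, Nat.find hex, (Nat.find_spec hex).1, (Nat.find_spec hex).2, ?_⟩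
        have := hrow (Nat.find hex) (Nat.find_spec hex).1.le fun l' hl' => by
          by_contra hb
          exact Nat.find_min hex hl' ⟨hl'.trans (Nat.find_spec hex).1, hb⟩
        linarith
      · have := hrow c le_rfl fun l' hl' => by
          by_contra hb
          exact hex ⟨l', hl', hb⟩
        right
        rw [pow_succ]
        linarith

theorem gaps_path (W : ℕ → ℤ → ℤ → ℝ) (α : ℤ) (X Y : ℤ) (l : List (ℕ × ℤ × ℤ))
    (h : ∀ s ∈ l, |s.2.1 - α| ≤ X ∧ |s.2.2 - α| ≤ Y) (zl zr : ℤ) (hl : |zl - α| ≤ Y) (hr : |zr - α| ≤ X) :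
    pathCost W l zl zr ≤ (l.length + 1) * ((X + Y : ℤ) : ℝ) + (l.map fun s => W s.1 s.2.1 s.2.2).sum := by
  have key : ∀ a b : ℤ, |a - α| ≤ Y → |b - α| ≤ X → |((a - b : ℤ) : ℝ)| ≤ ((X + Y : ℤ) : ℝ) := fun a b ha hb => by
    rw [← Int.cast_abs, Int.cast_le, abs_le]
    rw [abs_le] at ha hb
    omega
  induction l generalizing zl with
  | nil => simpa [pathCost] using key zl zr hl hr
  | cons s t ih =>
    have h1 := h s List.mem_cons_self
    have h2 := ih (fun s hs => h s (List.mem_cons_of_mem _ hs)) s.2.2 h1.2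
    have h3 := key zl s.2.1 hl h1.1
    rw [pathCost, List.map_cons, List.sum_cons, List.length_cons, Nat.cast_succ]
    linarith

theorem gaps_int {g M c κ a a' : ℕ} {α r : ℤ} (ha : a < 2 * (M + 1) + 1) (ha' : a' < 2 * (2 * c + 1) + 1)
    (hr : (α - r).natAbs < g) (h1 : g * M ≤ 2 * κ) (h2 : g * c ≤ 2 * κ) (hc : 4 ≤ c) :
    |r + (g : ℤ) * ((a : ℤ) - (M + 1 : ℕ)) - α| ≤ 3 * κ ∧
      |r + (g : ℤ) * ((a : ℤ) - (M + 1 : ℕ)) + (g : ℤ) * ((a' : ℤ) - (2 * c + 1 : ℕ)) - α| ≤ 8 * κ := by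
  have e1 : |(g : ℤ) * ((a : ℤ) - (M + 1 : ℕ))| ≤ g * (M + 1) := by
    rw [abs_mul, Nat.abs_cast]
    exact mul_le_mul_of_nonneg_left (abs_le.2 ⟨by omega, by omega⟩) (by positivity)
  have e2 : |(g : ℤ) * ((a' : ℤ) - (2 * c + 1 : ℕ))| ≤ g * (2 * c + 1) := by
    rw [abs_mul, Nat.abs_cast]
    exact mul_le_mul_of_nonneg_left (abs_le.2 ⟨by omega, by omega⟩) (by positivity)
  have h3 : g * 4 ≤ g * c := Nat.mul_le_mul_left _ hc
  have h4 : |α - r| < g := by
    rw [← Int.natCast_natAbs]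
    exact_mod_cast hr
  zify at h1 h2 h3
  rw [abs_le] at e1 e2
  rw [abs_lt] at h4
  rw [abs_le, abs_le]
  refine ⟨⟨?_, ?_⟩, ?_, ?_⟩ <;> nlinarith

theorem gaps_par {P : Par} (hP : Good P) : 3 ≤ P.kγ ∧ 2 ≤ P.kb ∧ 2 * P.kγ + P.kb + 7 ≤ P.kP ∧
    5 * P.kγ + 2 * P.kb + 15 ≤ 4 * P.hh := by
  have h1 := hP.small_ll
  have h2 := hP.aux_llsq
  have h3 := hP.quart
  have h4 : P.ll * P.ll ≤ P.ll ^ 4 := by
    rw [← sq]
    exact Nat.pow_le_pow_right (by omega) (by omega)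
  rw [Par.kP.eq_1, Par.kb.eq_1, Par.kγ.eq_1, Par.kR.eq_1]
  omega

theorem gaps_u {P : Par} (hP : Good P) {κ : ℕ} (hκ : P.F1 < κ) : 1 ≤ gu P κ ∧
    gu P κ * 2 ^ (2 * P.kγ + P.kb) ≤ κ ∧ κ ≤ 2 * (gu P κ * 2 ^ (2 * P.kγ + P.kb)) := by
  obtain ⟨-, -, h1, -⟩ := gaps_par hP
  rw [hP.F1_eq, pow_succ, add_comm P.kb] at hκ
  rw [gu, hP.p2_eq (by omega)]
  have h0 : 0 < 2 ^ (2 * P.kγ + P.kb) := by positivity
  generalize 2 ^ (2 * P.kγ + P.kb) = Q at *
  have h2 : 1 ≤ κ / Q := (Nat.le_div_iff_mul_le h0).2 (by omega)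
  have h3 := Nat.lt_div_mul_add (a := κ) h0
  have h4 := Nat.mul_le_mul_right Q h2
  exact ⟨h2, Nat.div_mul_le_self _ _, by omega⟩

theorem gaps_mem {P : Par} (hP : Good P) {κ eb : ℕ} (hκ : P.F1 < κ) (heb : eb < P.kγ + P.kb + 2) (α : ℤ) :
    ∀ s ∈ gstates P α κ eb, |s.1 - α| ≤ 3 * κ ∧ |s.2 - α| ≤ 8 * κ := by
  obtain ⟨h1, -, h2, -⟩ := gaps_par hP
  obtain ⟨u1, u2, -⟩ := gaps_u hP hκ
  intro s hs
  simp only [gstates, List.mem_flatMap, List.mem_map, List.mem_range] at hs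
  obtain ⟨a, ha, a', ha', rfl⟩ := hs
  have e : gu P κ * 2 ^ (2 * P.kγ + P.kb + 1) ≤ 2 * κ := by
    rw [pow_succ, ← mul_assoc]
    omega
  refine gaps_int ha ha' (natAbs_sub_rdn_lt (Nat.mul_pos u1 (hP.p2_pos _)) α) ?_ ?_ ?_
  · rw [gg, hP.p2_eq (by omega), hP.p2_eq (by omega), mul_assoc, ← pow_add, Nat.add_sub_cancel' (by omega)]
    exact e
  · rw [gg, hP.p2_eq (by omega), hP.p2_eq (by omega), mul_assoc, ← pow_add]
    exact (Nat.mul_le_mul_left _ (Nat.pow_le_pow_right two_pos (by omega))).trans e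
  · rw [hP.p2_eq (by omega)]
    exact Nat.pow_le_pow_right two_pos (by omega : 2 ≤ P.kγ)

theorem gaps_len {P : Par} (hP : Good P) (κ eb : ℕ) (α : ℤ) :
    (gstates P α κ eb).length ≤ 2 ^ (3 * P.kγ + P.kb + 7) := by
  obtain ⟨-, -, h2, -⟩ := gaps_par hP
  simp only [gstates, List.length_flatMap, List.length_map, List.length_range, List.map_const', List.sum_replicate,
    smul_eq_mul]
  rw [hP.p2_eq (by omega), hP.p2_eq (by omega),
    show 2 ^ (3 * P.kγ + P.kb + 7) = (8 * 2 ^ (2 * P.kγ + P.kb + 1)) * (8 * 2 ^ P.kγ) by ring]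
  have a1 : 2 ^ (2 * P.kγ + P.kb + 1 - eb) ≤ 2 ^ (2 * P.kγ + P.kb + 1) := Nat.pow_le_pow_right two_pos (by omega)
  have a2 : 0 < 2 ^ (2 * P.kγ + P.kb + 1) := by positivity
  have a3 : 0 < 2 ^ P.kγ := by positivity
  exact Nat.mul_le_mul (by omega) (by omega)

theorem gaps_draw {ι : Type} (k : ℕ) (L : List ι) (t : ℕ → ι → RT Bool) (bad : ℕ → Prop) {δ : ℝ} (hδ : 0 ≤ δ)
    (h : ∀ j, bad j → ∀ s ∈ L, ((t j s).P fun v => v = true) ≤ δ) :
    (∑ j ∈ Finset.range (2 ^ k), ind (bad j)) / 2 ^ k - L.length * δ ≤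
      ((rnd k).bind fun j => (seq (L.map (t j))).map fun r => !r.any id).P fun v => v = true := by
  rw [P_bind, E_rnd, sub_le_iff_le_add, div_le_iff₀ (by positivity), add_mul, div_mul_cancel₀ _ (by positivity)]
  have e : (L.length : ℝ) * δ * 2 ^ k = ∑ _j ∈ Finset.range (2 ^ k), (L.length : ℝ) * δ := by
    simp [mul_comm]
  rw [e, ← Finset.sum_add_distrib]
  refine Finset.sum_le_sum fun j _ => ?_
  unfold ind
  split_ifs with hb
  · have h1 := P_seq_map_not L (t j) (fun _ v => v = false) δ fun s hs => by simpa using h j hb s hs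
    have h2 := P_not ((seq (L.map (t j))).map fun r => !r.any id) fun v => v = true
    rw [P_map] at h2
    have h3 := P_mono (t := seq (L.map (t j))) (p := fun r => ¬ (!r.any id) = true)
      (q := fun r => ¬ List.Forall₂ (fun _ v => v = false) L r) (All_of_forall _ fun r hr hf => hr (by
        clear hr h1 h2 h e
        induction hf with
        | nil => rfl
        | cons a _ ih => simpa [a] using ih))
    linarith
  · exact add_nonneg (P_nonneg _ _) (by positivity)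

theorem gaps_num {μ τ k c : ℝ} (hc : 8 ≤ c) (hk : c ≤ k) (hτ : τ = 64 * (c + 3) * k - 64 * c)
    (hμ : 64 * (c + 4) * k - 64 * c - 1 ≤ μ) : 0 < μ - τ ∧ 1 * μ / (μ - τ) ^ 2 ≤ 1 / 8 := by
  have h1 : 63 * k ≤ μ - τ := by nlinarith
  have h2 : 0 < μ - τ := by linarith
  have h3 : τ ≤ 128 * k ^ 2 := by nlinarith
  have h4 : (63 * k) ^ 2 ≤ (μ - τ) ^ 2 := pow_le_pow_left₀ (by linarith) h1 2
  refine ⟨h2, ?_⟩
  rw [div_le_div_iff₀ (by positivity) (by norm_num)]
  nlinarith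

/-- Notation as in `GapC`.  Call child `j` *bad* at `(eb,l)` if every `s ∈ gstates P α κ eb` has cost
`> A (θ(eb,l) + 2g)`; then the draw with child `j` returns `true` with probability `≥ 1 - |gstates| δ`.  Let
`θ*_j` be the least threshold at which `j` is not bad, or `θmax = u 2^(2kγ+kb+2) ≥ 2κ` if there is none; the sum
of `g` over the pairs at which `j` is bad is `≥ θ*_j - θ0`, `θ0 = u 2^kγ`.  If `∑_j θ*_j ≤ (1 + 4γ0) κ`, every child
has a good state `(a_j, a'_j)` with cost `≤ A (1 + 2γ0) θ*_j`, `|a_j - α| ≤ 3κ`, `|a'_j - a_j| ≤ 3θ*_j ≤ 6κ`, and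
`FOk.le_pathCost` gives `F ≤ A (1+2γ0)(1+4γ0) κ + 16 b0 κ`, a contradiction.  So the mean `μ` of `cnt` is at least
`64 (1+4γ0) K - 64 · 2^kγ - 1`, while `graw = true` means `cnt ≤ τ0 = 64 (1+3γ0) K - 64 · 2^kγ`;
Chebyshev: `μ / (μ - τ0)² ≤ (τ0 + y) / y²` with `y = 63 γ0 K`. -/
theorem graw_sound {P : Par} (hP : Good P) {F : ℕ → ℕ → ℤ → ℤ → ℕ} (hF : FOk F)
    {G : ℕ → ℕ → ℤ → ℤ → ℕ → RT Bool} {e i : ℕ} {α γ : ℤ} {κ : ℕ} {A : ℝ} (hA : 1 ≤ A)
    (ih : ∀ i' α' γ' (κ' : ℕ), A * κ' < F e i' α' γ' →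
      ((G e i' α' γ' κ').P fun v => v = true) ≤ (1 / 2) ^ (4 * P.hh))
    (hκ : P.F1 < κ) (hd : (γ - α).natAbs ≤ κ)
    (h : ((1 + 7 / 2 ^ P.kγ) * A + 16 * 2 ^ P.kb) * κ < F (e + P.kb) i α γ) :
    ((grawT P G (e + P.kb) i α κ).P fun v => v = true) ≤ 1 / 8 := by
  obtain ⟨p1, p2, p3, p4⟩ := gaps_par hP
  obtain ⟨u1, u2, u3⟩ := gaps_u hP hκ
  obtain ⟨bad, hbad⟩ : ∃ bad : ℕ → ℕ → ℕ → Prop, ∀ j eb l, bad j eb l ↔ ∀ s ∈ gstates P α κ eb,
      A * (gg P κ eb * (2 ^ P.kγ + l + 2) : ℕ) < F e (i * 2 ^ P.kb + j) s.1 s.2 := ⟨_, fun _ _ _ => Iff.rfl⟩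
  obtain ⟨S, hS⟩ : ∃ S : ℕ → ℝ, ∀ j, S j = ∑ eb ∈ Finset.range (P.kγ + P.kb + 2),
      ∑ l ∈ Finset.range (2 ^ P.kγ), 2 ^ eb * ind (bad j eb l) := ⟨_, fun _ => rfl⟩
  have hS0 : ∀ j, 0 ≤ S j := fun j => hS j ▸ Finset.sum_nonneg fun _ _ => Finset.sum_nonneg fun _ _ =>
    mul_nonneg (by positivity) (gaps_ind _).1
  obtain ⟨c, hc⟩ : ∃ c : ℝ, c = 2 ^ P.kγ := ⟨_, rfl⟩
  obtain ⟨b, hb⟩ : ∃ b : ℝ, b = 2 ^ P.kb := ⟨_, rfl⟩
  obtain ⟨u, hu⟩ : ∃ u : ℝ, u = gu P κ := ⟨_, rfl⟩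
  have c8 : 8 ≤ c := by
    rw [hc, show (8 : ℝ) = 2 ^ 3 by norm_num]
    exact pow_le_pow_right₀ one_le_two p1
  have b4 : 4 ≤ b := by
    rw [hb, show (4 : ℝ) = 2 ^ 2 by norm_num]
    exact pow_le_pow_right₀ one_le_two p2
  have v1 : 1 ≤ u := by rw [hu]; exact_mod_cast u1
  have eQ : (2 : ℝ) ^ (2 * P.kγ + P.kb) = c ^ 2 * b := by rw [hc, hb]; ring
  have v2 : u * (c ^ 2 * b) ≤ κ := by rw [hu, ← eQ]; exact_mod_cast u2
  have v3 : (κ : ℝ) ≤ 2 * (u * (c ^ 2 * b)) := by rw [hu, ← eQ]; exact_mod_cast u3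
  have c0 : 0 < c := by linarith
  have k0 : (0 : ℝ) < κ := lt_of_lt_of_le (by positivity) v2
  -- the sum of the thresholds is large
  have key : (c + 4) * κ ≤ c * ∑ j ∈ Finset.range (2 ^ P.kb), u * (c + S j) := by
    by_contra hcon
    rw [not_le] at hcon
    have hex : ∀ j, j < 2 ^ P.kb → ∃ s : ℤ × ℤ, (|s.1 - α| ≤ 3 * κ ∧ |s.2 - α| ≤ 8 * κ) ∧
        c * F e (i * 2 ^ P.kb + j) s.1 s.2 ≤ A * (c + 2) * (u * (c + S j)) := fun j hj => by
      rcases gaps_comb (bad j) (2 ^ P.kγ) (P.kγ + P.kb + 2) with ⟨eb, h1, l, -, h3, h4⟩ | h1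
      · rw [hbad] at h3
        push Not at h3
        obtain ⟨s, hs, h5⟩ := h3
        refine ⟨s, gaps_mem hP hκ h1 α s hs, ?_⟩
        rw [gg, hP.p2_eq (by omega)] at h5
        rw [← hS] at h4
        push_cast at h4 h5
        rw [← hc] at h4 h5
        rw [← hu] at h5
        have l0 : (0 : ℝ) ≤ l := Nat.cast_nonneg _
        calc _ ≤ c * (A * (u * 2 ^ eb * (c + l + 2))) := by gcongr
          _ = A * (u * 2 ^ eb) * (c * (c + l + 2)) := by ring
          _ ≤ A * (u * 2 ^ eb) * ((c + 2) * (c + l)) := mul_le_mul_of_nonneg_left (by nlinarith) (by positivity)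
          _ = A * (c + 2) * (u * (2 ^ eb * (c + l))) := by ring
          _ ≤ _ := by gcongr
      · exfalso
        rw [← hS] at h1
        push_cast at h1
        rw [← hc, show (2 : ℝ) ^ (P.kγ + P.kb + 2) = 4 * c * b by rw [hc, hb]; ring] at h1
        have h2 := Finset.single_le_sum (f := fun j => u * (c + S j))
          (fun j _ => mul_nonneg (by linarith) (by linarith [hS0 j])) (Finset.mem_range.2 hj)
        have h3 : u * (4 * c * b * c) ≤ u * (c + S j) := by gcongr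
        have h4 : 2 * (κ : ℝ) ≤ ∑ j ∈ Finset.range (2 ^ P.kb), u * (c + S j) := by nlinarith
        nlinarith
    choose! s hs1 hs2 using hex
    have h1 := hF.le_pathCost e P.kb i (hb := P.kb) (p := 0) le_rfl
      ((List.range (2 ^ P.kb)).map fun j => (j, (s j).1, (s j).2)) (by simp [blk_top, Function.comp_def]) α γ
    have h2 := gaps_path (fun j a c => (F e (i * 2 ^ P.kb + j) a c : ℝ)) α (3 * κ) (8 * κ)
      ((List.range (2 ^ P.kb)).map fun j => (j, (s j).1, (s j).2)) (by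
        simp only [List.mem_map, List.mem_range]
        rintro _ ⟨j, hj, rfl⟩
        exact hs1 j hj) α γ (by simp) (by rw [← Int.natCast_natAbs]; omega)
    rw [Nat.sub_self, pow_zero, mul_one, add_zero] at h1
    rw [List.length_map, List.length_range, List.map_map, gaps_sum_range] at h2
    push_cast at h2
    rw [← hb] at h2 h
    rw [← hc] at h
    have h3 := Finset.sum_le_sum fun j hj => hs2 j (Finset.mem_range.1 hj)
    rw [← Finset.mul_sum, ← Finset.mul_sum] at h3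
    simp only [Function.comp_def] at h2
    generalize ∑ j ∈ Finset.range (2 ^ P.kb), u * (c + S j) = T at hcon h3
    generalize ∑ j ∈ Finset.range (2 ^ P.kb), (F e (i * 2 ^ P.kb + j) (s j).1 (s j).2 : ℝ) = W at h2 h3
    have h4 : c * (c * W) ≤ A * (c + 2) * ((c + 4) * κ) :=
      calc _ ≤ c * (A * (c + 2) * T) := by gcongr
        _ = A * (c + 2) * (c * T) := by ring
        _ ≤ _ := by gcongr
    have h5 : A * (c + 2) * ((c + 4) * κ) ≤ c * (c * ((1 + 7 / c) * A * κ)) :=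
      calc _ = A * κ * ((c + 2) * (c + 4)) := by ring
        _ ≤ A * κ * (c * (c + 7)) := mul_le_mul_of_nonneg_left (by nlinarith) (by positivity)
        _ = _ := by field_simp
    have h6 := le_of_mul_le_mul_left (le_of_mul_le_mul_left (h4.trans h5) c0) c0
    nlinarith
  -- the mean
  have hμ : 64 * (c + 4) * (κ / (u * b * c)) - 64 * c - 1 ≤
      (((gdraws P).map fun q => gdrawT P G (e + P.kb) i α κ q.1 q.2).map fun t =>
        t.E fun v => ind (v = true)).sum := by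
    rw [List.map_map, gdraws, gaps_sum_flat, hP.p2_eq (by omega)]
    have h1 : ∑ eb ∈ Finset.range (P.kγ + P.kb + 2), ∑ l ∈ Finset.range (2 ^ P.kγ), (2 : ℝ) ^ (eb + 6) *
        ((∑ j ∈ Finset.range (2 ^ P.kb), ind (bad j eb l)) / b - 2 ^ (3 * P.kγ + P.kb + 7) * (1 / 2) ^ (4 * P.hh)) =
        64 / b * ∑ j ∈ Finset.range (2 ^ P.kb), S j - 64 * c * (2 ^ (3 * P.kγ + P.kb + 7) * (1 / 2) ^ (4 * P.hh)) *
          ∑ eb ∈ Finset.range (P.kγ + P.kb + 2), (2 : ℝ) ^ eb := by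
      simp only [hS]
      rw [Finset.sum_comm (s := Finset.range (2 ^ P.kb)), Finset.mul_sum, Finset.mul_sum, ← Finset.sum_sub_distrib]
      refine Finset.sum_congr rfl fun eb _ => ?_
      rw [Finset.sum_comm (s := Finset.range (2 ^ P.kb)), Finset.mul_sum]
      simp only [mul_sub, Finset.sum_sub_distrib, Finset.sum_const, Finset.card_range, nsmul_eq_mul, ← Finset.mul_sum]
      push_cast
      rw [← hc, ← Finset.sum_div]
      ring
    have h2 : 64 * c * (2 ^ (3 * P.kγ + P.kb + 7) * (1 / 2) ^ (4 * P.hh)) *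
        ∑ eb ∈ Finset.range (P.kγ + P.kb + 2), (2 : ℝ) ^ eb ≤ 1 := by
      rw [geom_sum_eq (by norm_num), hc]
      calc _ ≤ 64 * 2 ^ P.kγ * (2 ^ (3 * P.kγ + P.kb + 7) * (1 / 2) ^ (4 * P.hh)) * (2 : ℝ) ^ (P.kγ + P.kb + 2) := by
            gcongr
            norm_num
        _ = 2 ^ (5 * P.kγ + 2 * P.kb + 15) / 2 ^ (4 * P.hh) := by
            rw [one_div, inv_pow]
            ring
        _ ≤ 1 := (div_le_one (by positivity)).2 (pow_le_pow_right₀ one_le_two p4)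
    have h3 : 64 * (c + 4) * (κ / (u * b * c)) - 64 * c ≤ 64 / b * ∑ j ∈ Finset.range (2 ^ P.kb), S j := by
      rw [← Finset.mul_sum, Finset.sum_add_distrib, Finset.sum_const, Finset.card_range, nsmul_eq_mul] at key
      push_cast at key
      rw [← hb] at key
      calc _ = 64 / (u * b * c) * ((c + 4) * κ) - 64 * c := by ring
        _ ≤ 64 / (u * b * c) * (c * (u * (b * c + ∑ j ∈ Finset.range (2 ^ P.kb), S j))) - 64 * c := by gcongr
        _ = _ := by field_simp; ring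
    refine le_trans (by linarith) (h1.ge.trans (Finset.sum_le_sum fun eb heb => ?_))
    rw [gaps_sum_flat]
    refine Finset.sum_le_sum fun l _ => ?_
    rw [List.map_replicate, List.sum_replicate, nsmul_eq_mul,
      hP.p2_eq (by have := Finset.mem_range.1 heb; omega)]
    push_cast
    gcongr
    refine le_trans ?_ (gaps_draw P.kb (gstates P α κ eb) _ (fun j => bad j eb l) (δ := (1 / 2) ^ (4 * P.hh))
      (by positivity) fun j hj s hs => ?_)
    · rw [hb]
      gcongr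
      exact_mod_cast gaps_len hP κ eb α
    · rw [Nat.add_sub_cancel]
      exact ih _ _ _ _ ((hbad j eb l).1 hj s hs)
  obtain ⟨n1, n2⟩ := gaps_num c8 (k := κ / (u * b * c)) (by rw [le_div_iff₀ (by positivity)]; nlinarith) rfl hμ
  refine le_trans ?_ ((cheb_seq _ (fun v => ind (v = true)) 1
    (fun t _ => All_of_forall _ fun _ => gaps_ind _) n1).trans n2)
  rw [grawT, P_map]
  refine P_mono (All_of_forall _ fun r hr => ?_)
  rw [graw, decide_eq_true_eq, hP.p2_eq (by omega), hP.p2_eq (by omega)] at hr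
  have h1 : 64 * c * (b * u * c) + c * (u * b) * (r.countP id : ℕ) ≤ 64 * (c + 3) * κ := by
    rw [hc, hb, hu]
    exact_mod_cast hr
  have h2 : ((r.countP id : ℕ) : ℝ) ≤ 64 * (c + 3) * (κ / (u * b * c)) - 64 * c := by
    rw [le_sub_iff_add_le, ← mul_div_assoc, le_div_iff₀ (by positivity)]
    linarith
  rw [gaps_count, abs_sub_comm]
  exact le_trans (by linarith) (le_abs_self _)

end Crest.Agent.R288
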