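import Crest.Agent.R288.GapC
import Crest.Agent.R288.GapS

/-!
# R288: the gap test and the oracle
-/

set_option autoImplicit false

namespace Crest.Agent.R288

open RT

variable {P : Par} {F : ℕ → ℕ → ℤ → ℤ → ℕ} {G : ℕ → ℕ → ℤ → ℤ → ℕ → RT Bool}

theorem gap_pure {β : Type} (a : β) {p : β → Prop} (h : ¬ p a) {c : ℝ} (hc : 0 ≤ c) :
    (RT.pure a).P p ≤ c := by
  rw [RT.P, E_pure, Crest.Agent.R309.ind_neg h]
  exact hc

theorem gap_kb_pos (hP : Good P) : 0 < P.kb := by
  rw [Par.kb.eq_1]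
  exact Nat.mul_pos (Nat.pos_of_ne_zero hP.aux_ll_ne) (Nat.pos_of_ne_zero hP.aux_ll_ne)

theorem gap_maj_false (t : RT Bool) (h : (t.P fun v => v = false) ≤ 1 / 8) (n : ℕ) :
    (((seq (List.replicate (2 * n) t)).map fun r => decide (n < r.countP id)).P fun v => v = false) ≤
      (1 / 2) ^ n := by
  rw [P_map]
  refine le_trans (P_mono ?_) (majority t (fun a => !a) (by simpa using h) n)
  refine (All_seq_length _).mono fun r hr h1 => ?_
  rw [List.length_replicate] at hr
  have h2 : r.countP id + r.countP (fun a => !a) = r.length := by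
    clear hr h1
    induction r with
    | nil => rfl
    | cons a r ih => cases a <;> simp <;> omega
  have h3 : ¬ n < r.countP id := by simpa using h1
  omega

theorem gap_maj_true (t : RT Bool) (h : (t.P fun v => v = true) ≤ 1 / 8) (n : ℕ) :
    (((seq (List.replicate (2 * n) t)).map fun r => decide (n < r.countP id)).P fun v => v = true) ≤
      (1 / 2) ^ n := by
  rw [P_map]
  refine le_trans (P_mono ?_) (majority t id h n)
  refine All_of_forall _ fun r h1 => ?_
  have h3 : n < r.countP id := by simpa using h1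
  omega

theorem gap_A_ge (x b : ℝ) (hx : 0 ≤ x) (hb : 0 ≤ b) (k : ℕ) :
    2 ≤ (1 + x) ^ k * (2 + b * k) := by
  have h1 : 1 ≤ (1 + x) ^ k := one_le_pow₀ (by linarith)
  have h2 : 0 ≤ b * k := by positivity
  nlinarith [mul_nonneg (sub_nonneg.2 h1) h2]

/-- Strong induction on `e`, `graw_complete`, `majority`. -/
theorem gap_complete (hP : Good P) (hF : FOk F) (hG : GapOk P F G) (e i : ℕ) (α γ : ℤ) (κ : ℕ)
    (h : F e i α γ ≤ κ) : ((G e i α γ κ).P fun v => v = false) ≤ (1 / 2) ^ (4 * P.hh) := by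
  induction e using Nat.strong_induction_on generalizing i α γ κ with
  | _ e ih =>
    rw [hG]
    split_ifs with h1 h2 h3
    · have := hF.disp e i α γ
      omega
    · exact gap_pure _ (by simpa using h) (by positivity)
    · exact gap_pure _ (by simp) (by positivity)
    · have hk := gap_kb_pos hP
      obtain ⟨e', rfl⟩ : ∃ e', e = e' + P.kb := ⟨e - P.kb, by omega⟩
      exact gap_maj_false _ (graw_complete hP hF (γ := γ)
        (fun i' α' γ' κ' h' => ih e' (by omega) i' α' γ' κ' h') (by omega) h) _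

/-- Induction on `k`; for `e ≤ kb`, `F ≤ 2^kb + |γ - α| ≤ 2κ`. -/
theorem gap_sound' (hP : Good P) (hF : FOk F) (hG : GapOk P F G) (k e : ℕ) (he : e ≤ (k + 1) * P.kb)
    (i : ℕ) (α γ : ℤ) (κ : ℕ)
    (h : (1 + 7 / 2 ^ P.kγ : ℝ) ^ k * (2 + 16 * 2 ^ P.kb * k) * κ < F e i α γ) :
    ((G e i α γ κ).P fun v => v = true) ≤ (1 / 2) ^ (4 * P.hh) := by
  induction k generalizing e i α γ κ with
  | zero =>
    have hA := gap_A_ge (7 / 2 ^ P.kγ) (16 * 2 ^ P.kb) (by positivity) (by positivity) 0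
    have h2κ : 2 * κ < F e i α γ := by
      have : (2 : ℝ) * κ < F e i α γ :=
        lt_of_le_of_lt (mul_le_mul_of_nonneg_right hA (Nat.cast_nonneg κ)) h
      exact_mod_cast this
    rw [hG]
    split_ifs with h1 h2 h3
    · exact gap_pure _ (by simp) (by positivity)
    · exact gap_pure _ (by simp; omega) (by positivity)
    · have h4 := hF.up e i α γ
      have h5 : 2 ^ e ≤ P.F1 := by
        rw [hP.F1_eq]
        exact Nat.pow_le_pow_right (by norm_num) (by omega)
      omega
    · omega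
  | succ k ih =>
    have hA := gap_A_ge (7 / 2 ^ P.kγ) (16 * 2 ^ P.kb) (by positivity) (by positivity) (k + 1)
    have h2κ : 2 * κ < F e i α γ := by
      have : (2 : ℝ) * κ < F e i α γ :=
        lt_of_le_of_lt (mul_le_mul_of_nonneg_right hA (Nat.cast_nonneg κ)) h
      exact_mod_cast this
    rw [hG]
    split_ifs with h1 h2 h3
    · exact gap_pure _ (by simp) (by positivity)
    · exact gap_pure _ (by simp; omega) (by positivity)
    · have h4 := hF.up e i α γ
      have h5 : 2 ^ e ≤ P.F1 := by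
        rw [hP.F1_eq]
        exact Nat.pow_le_pow_right (by norm_num) (by omega)
      omega
    · obtain ⟨e', rfl⟩ : ∃ e', e = e' + P.kb := ⟨e - P.kb, by omega⟩
      have he' : e' ≤ (k + 1) * P.kb := by
        rw [Nat.succ_mul (k + 1)] at he
        omega
      have hA' := gap_A_ge (7 / 2 ^ P.kγ) (16 * 2 ^ P.kb) (by positivity) (by positivity) k
      refine gap_maj_true _ (graw_sound hP hF (γ := γ)
        (A := (1 + 7 / 2 ^ P.kγ : ℝ) ^ k * (2 + 16 * 2 ^ P.kb * k)) (by linarith)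
        (fun i' α' γ' κ' h' => ih e' he' i' α' γ' κ' h') (by omega) (by omega) ?_) _
      refine lt_of_le_of_lt (mul_le_mul_of_nonneg_right ?_ (Nat.cast_nonneg κ)) h
      have h6 : (1 : ℝ) ≤ (1 + 7 / 2 ^ P.kγ) ^ (k + 1) :=
        one_le_pow₀ (le_add_of_nonneg_right (by positivity))
      have h7 : (0 : ℝ) ≤ 16 * 2 ^ P.kb := by positivity
      have h8 := mul_le_mul_of_nonneg_right h6 h7
      rw [pow_succ] at h8 ⊢
      push_cast
      nlinarith

/-- `k = 2 hh / kb`: `(1 + 7γ0)^k ≤ exp (7 k γ0) ≤ 3`, `2 + 16 b0 k ≤ 2^(kb + ll + 7)`. -/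
theorem gap_sound (hP : Good P) (hF : FOk F) (hG : GapOk P F G) {e : ℕ} (he : e ≤ 2 * P.hh)
    (i : ℕ) (α γ : ℤ) (κ : ℕ) (h : 2 ^ (P.kR - 1) * κ < F e i α γ) :
    ((G e i α γ κ).P fun v => v = true) ≤ (1 / 2) ^ (4 * P.hh) := by
  have hk := gap_kb_pos hP
  refine gap_sound' hP hF hG (2 * P.hh) e (he.trans ?_) i α γ κ ?_
  · nlinarith
  have h' : (2 : ℝ) ^ (P.kR - 1) * κ < F e i α γ := by exact_mod_cast h
  refine lt_of_le_of_lt (mul_le_mul_of_nonneg_right ?_ (Nat.cast_nonneg κ)) h'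
  have hh : ((2 * P.hh : ℕ) : ℝ) ≤ 4 * 2 ^ P.ll := by
    have : 2 * P.hh ≤ 4 * 2 ^ P.ll := by
      have := hP.hh_hi
      rw [pow_succ] at this
      omega
    exact_mod_cast this
  have h1 : (1 + 7 / 2 ^ P.kγ : ℝ) ^ (2 * P.hh) ≤ 4 := by
    have a1 : (1 + 7 / 2 ^ P.kγ : ℝ) ≤ Real.exp (7 / 2 ^ P.kγ) := by
      linarith [Real.add_one_le_exp (7 / 2 ^ P.kγ : ℝ)]
    have a2 := pow_le_pow_left₀ (by positivity) a1 (2 * P.hh)
    rw [← Real.exp_nat_mul] at a2
    have a3 : ((2 * P.hh : ℕ) : ℝ) * (7 / 2 ^ P.kγ) ≤ 1 := by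
      rw [Par.kγ.eq_1, pow_add, ← mul_div_assoc, div_le_one (by positivity)]
      have : (0 : ℝ) < 2 ^ P.ll := by positivity
      norm_num at hh ⊢
      linarith
    have a4 := Real.exp_le_exp.2 a3
    linarith [Real.exp_one_lt_three]
  have h2 : (2 + 16 * 2 ^ P.kb * ((2 * P.hh : ℕ) : ℝ)) ≤ 128 * (2 ^ P.kb * 2 ^ P.ll) := by
    have a1 : (1 : ℝ) ≤ 2 ^ P.kb := one_le_pow₀ (by norm_num)
    have a2 : (1 : ℝ) ≤ 2 ^ P.ll := one_le_pow₀ (by norm_num)
    have a3 : (1 : ℝ) ≤ 2 ^ P.kb * 2 ^ P.ll := one_le_mul_of_one_le_of_one_le a1 a2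
    have a4 := mul_le_mul_of_nonneg_left hh (show (0 : ℝ) ≤ 16 * 2 ^ P.kb by positivity)
    nlinarith
  have h3 : (4 : ℝ) * (128 * (2 ^ P.kb * 2 ^ P.ll)) = 2 ^ (P.kb + P.ll + 9) := by
    rw [pow_add, pow_add]
    ring
  have h4 : P.kb + P.ll + 9 ≤ P.kR - 1 := by
    have := hP.aux_llsq
    have := hP.aux_ll_ne
    rw [Par.kb.eq_1, Par.kR.eq_1]
    omega
  calc _ ≤ (4 : ℝ) * (128 * (2 ^ P.kb * 2 ^ P.ll)) :=
        mul_le_mul h1 h2 (by positivity) (by norm_num)
    _ = 2 ^ (P.kb + P.ll + 9) := h3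
    _ ≤ 2 ^ (P.kR - 1) := pow_le_pow_right₀ (by norm_num) h4

/-- Union bound over the `e + 2` tests (`P_seq_map_not`). -/
theorem orcT_ok (hP : Good P) (hF : FOk F) (hG : GapOk P F G) {e : ℕ} (he : e ≤ 2 * P.hh)
    (i : ℕ) (α γ : ℤ) (h : 1 ≤ F e i α γ) :
    ((orcT P G e i α γ).P fun v => ¬ (F e i α γ ≤ v ∧ v ≤ 2 ^ P.kR * F e i α γ)) ≤
      (1 / 2) ^ (3 * P.hh) := by
  have hR : 1 ≤ P.kR := by
    have := hP.ll_kR
    have := hP.aux_ll_ne
    omega
  have hR2 : 2 ^ P.kR = 2 * 2 ^ (P.kR - 1) := by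
    rw [← pow_succ']
    congr 1
    omega
  have hR3 : 1 ≤ 2 ^ (P.kR - 1) := Nat.one_le_two_pow
  have hup := hF.up e i α γ
  have hdisp := hF.disp e i α γ
  unfold orcT
  split_ifs with h1
  · refine gap_pure _ (not_not.2 ⟨hup, ?_⟩) (by positivity)
    rw [hR2]
    nlinarith
  rw [P_map]
  have key := P_seq_map_not (List.range (e + 2)) (fun k => G e i α γ (2 ^ k))
    (fun k v => (F e i α γ ≤ 2 ^ k → v = true) ∧ (2 ^ (P.kR - 1) * 2 ^ k < F e i α γ → v = false))
    ((1 / 2) ^ (4 * P.hh)) (by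
      intro k _
      by_cases c1 : F e i α γ ≤ 2 ^ k
      · refine le_trans (P_mono (All_of_forall _ fun v hv => ?_))
          (gap_complete hP hF hG e i α γ (2 ^ k) c1)
        cases v with
        | false => rfl
        | true =>
          refine absurd ⟨fun _ => rfl, fun c2 => ?_⟩ hv
          have := Nat.mul_le_mul_right (2 ^ k) hR3
          omega
      by_cases c2 : 2 ^ (P.kR - 1) * 2 ^ k < F e i α γ
      · refine le_trans (P_mono (All_of_forall _ fun v hv => ?_))
          (gap_sound hP hF hG he i α γ (2 ^ k) c2)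
        cases v with
        | true => rfl
        | false => exact absurd ⟨fun c => absurd c c1, fun _ => rfl⟩ hv
      · refine le_trans (P_mono (q := fun _ => False) (All_of_forall _ fun v hv => ?_)) ?_
        · exact hv ⟨fun c => absurd c c1, fun c => absurd c c2⟩
        · rw [RT.P]
          simp only [Crest.Agent.R309.ind_neg not_false, E_const]
          positivity)
  refine le_trans (le_trans (P_mono (All_of_forall _ fun r hr => ?_)) key) ?_
  · intro h2
    refine hr ?_
    have hlen : r.length = e + 2 := by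
      have := h2.length_eq
      rw [List.length_range] at this
      exact this.symm
    have hget : ∀ k (hk : k < r.length), (F e i α γ ≤ 2 ^ k → r[k] = true) ∧
        (2 ^ (P.kR - 1) * 2 ^ k < F e i α γ → r[k] = false) := by
      intro k hk
      have := (List.forall₂_iff_get.1 h2).2 k (by rw [List.length_range]; omega) hk
      simpa using this
    have hlt : r.findIdx id < r.length := by
      refine List.findIdx_lt_length_of_exists ⟨r[e + 1]'(by omega), List.getElem_mem _, ?_⟩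
      refine (hget (e + 1) (by omega)).1 ?_
      rw [pow_succ]
      omega
    have htrue : r[r.findIdx id] = true := List.findIdx_getElem (p := id) (w := hlt)
    constructor
    · refine le_min hup (not_lt.1 fun c => ?_)
      have := (hget _ hlt).2 c
      rw [htrue] at this
      exact absurd this (by simp)
    · refine (min_le_right _ _).trans ?_
      rcases Nat.eq_zero_or_pos (r.findIdx id) with c | c
      · rw [c, hR2]
        nlinarith
      · obtain ⟨k, hk⟩ : ∃ k, r.findIdx id = k + 1 := ⟨r.findIdx id - 1, by omega⟩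
        have hf : r[k]'(by omega) = false :=
          List.not_of_lt_findIdx (p := id) (xs := r) (i := k) (by omega)
        have c3 : ¬ F e i α γ ≤ 2 ^ k := by
          intro c3
          have := (hget k (by omega)).1 c3
          rw [hf] at this
          exact absurd this (by simp)
        rw [hk, hR2, pow_succ]
        nlinarith [Nat.mul_le_mul_left (2 ^ (P.kR - 1)) (not_le.1 c3).le]
  · rw [List.length_range]
    have a1 : e + 2 ≤ 2 ^ P.hh := by
      have b1 := hP.quart
      have b2 : 1 ≤ P.ll ^ 4 := Nat.one_le_pow _ _ (Nat.pos_of_ne_zero hP.aux_ll_ne)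
      have b3 := Good.aux_cube P.hh (by omega)
      have b4 : P.hh ≤ P.hh * P.hh * P.hh := by
        have : 1 ≤ P.hh * P.hh := Nat.mul_pos (by omega) (by omega)
        nlinarith
      omega
    have a2 : ((e + 2 : ℕ) : ℝ) ≤ 2 ^ P.hh := by exact_mod_cast a1
    have a3 : (2 : ℝ) ^ P.hh * (1 / 2) ^ (4 * P.hh) = (1 / 2) ^ (3 * P.hh) := by
      rw [show 4 * P.hh = P.hh + 3 * P.hh by ring, pow_add, ← mul_assoc, ← mul_pow]
      norm_num
    rw [← a3]
    exact mul_le_mul_of_nonneg_right a2 (by positivity)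

theorem orcT_le (P : Par) (G : ℕ → ℕ → ℤ → ℤ → ℕ → RT Bool) (e i : ℕ) (α γ : ℤ) :
    (orcT P G e i α γ).All fun v => v ≤ 2 ^ e + (γ - α).natAbs := by
  unfold orcT
  split_ifs
  · exact le_rfl
  · rw [All_map]
    exact All_of_forall _ fun _ => min_le_left _ _

end Crest.Agent.R288
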