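import Crest.Agent.R288.Band
import Crest.Agent.R288.Gap

/-!
# R288: the gap tests and the oracle of the scheme; replacing the oracle by the ideal one
-/

set_option autoImplicit false

namespace Crest.Agent.R288

open Crest.Agent.Lib.PT RT

variable {P : Par} {mem : ℕ → ℕ} {pr : Call → Option (RT V)} {x y : List ℕ}

theorem semg_seq (γ : Type) [Enc γ] [Dec γ] (pr : Call → Option (RT V)) (l : List Call) :
    seq (l.map (evd γ P pr)) = (seq (l.map (alg.ev P pr))).map rds := by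
  have : l.map (evd γ P pr) = (l.map (alg.ev P pr)).map (RT.map dec) := by
    rw [List.map_map]; rfl
  rw [this, seq_map]; rfl

/-- Calls with one stage only. -/
theorem semg_one (β γ : Type) [Enc β] [Dec β] [Enc γ] [Dec γ]
    (hpr : ∀ k : Call, k.1 ≤ 1 → pr k ≠ none) {k : Call} (hk : alg.Tm P k) (hn : pr k = none)
    (l : List Call) (g : List γ → β) (h1 : algS1 P k = l) (h2 : ∀ r1, algS2 P k r1 = [])
    (h3 : ∀ r1, algOut P k r1 [] = enc (g (rds r1))) :
    evd β P pr k = (seq (l.map (evd γ P pr))).map g := by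
  rw [evd, Scheme.ev_unfold hpr hk hn, semg_seq, RT.map_map, Scheme.body, RT.map_bind]
  change RT.bind (seq ((algS1 P k).map _)) _ = _
  rw [h1]
  refine RT.bind_congr (All_of_forall _ fun r1 => ?_)
  change RT.map dec (RT.bind (seq ((algS2 P k r1).map _)) fun r2 => .pure (algOut P k r1 r2)) = _
  rw [h2]
  simp only [List.map_nil, seq_nil, pure_bind, map_pure, h3, dec_enc]

theorem semg_kb (hP : Good P) : P.p2 P.kb = 2 ^ P.kb :=
  hP.p2_eq (by rw [Par.kP.eq_1, Par.kR.eq_1, Par.kb.eq_1]; omega)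

theorem semg_kγ (hP : Good P) : P.p2 P.kγ = 2 ^ P.kγ := by
  have h1 := hP.ll_kR
  have h2 := hP.small_ll
  exact hP.p2_eq (by rw [Par.kP.eq_1, Par.kγ.eq_1]; omega)

theorem semg_kR (hP : Good P) : P.p2 (P.kR - 1) = 2 ^ (P.kR - 1) :=
  hP.p2_eq (by rw [Par.kP.eq_1]; omega)

theorem semg_draw (hP : Good P) (h : PrOk P mem pr) (e i : ℕ) (α : ℤ) (κ eb l : ℕ)
    (hk : alg.Tm P (cGDraw e i α κ eb l)) :
    evd Bool P pr (cGDraw e i α κ eb l) =
      gdrawT P (fun e i α γ κ => evd Bool P pr (cGap e i α γ κ)) e i α κ eb l := by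
  have h1 : algS1 P (cGDraw e i α κ eb l) = [cRnd P.kb] := by simp [algS1, cGDraw]
  have h2 : ∀ j : ℕ, algS2 P (cGDraw e i α κ eb l) [enc j] = (gstates P α κ eb).map fun s =>
      cGap (e - P.kb) (i * 2 ^ P.kb + j) s.1 s.2 (gg P κ eb * (2 ^ P.kγ + l + 2)) := by
    intro j
    simp [algS2, cGDraw, gdrawS2, rd, semg_kb hP, semg_kγ hP]
  have h3 : ∀ r1 r2, algOut P (cGDraw e i α κ eb l) r1 r2 = gdrawOut r2 := by
    intro r1 r2
    simp [algOut, cGDraw]
  rw [evd, h.unfold hk (by simp [cGDraw]) (by simp [cGDraw]), h1, List.map_singleton, seq_single,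
    ev_rnd h, RT.map_map, RT.bind_map, RT.map_bind, gdrawT]
  refine RT.bind_congr (All_of_forall _ fun j => ?_)
  rw [h2]
  have h4 := semg_seq (P := P) Bool pr ((gstates P α κ eb).map fun s =>
      cGap (e - P.kb) (i * 2 ^ P.kb + j) s.1 s.2 (gg P κ eb * (2 ^ P.kγ + l + 2)))
  rw [List.map_map] at h4
  erw [h4]
  rw [RT.map_map, RT.map_bind]
  refine RT.bind_congr (All_of_forall _ fun r2 => ?_)
  simp only [h3, gdrawOut, map_pure, dec_enc]

theorem semg_raw (hP : Good P) (h : PrOk P mem pr) (e i : ℕ) (α : ℤ) (κ : ℕ)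
    (hk : alg.Tm P (cGRaw e i α κ)) :
    evd Bool P pr (cGRaw e i α κ) =
      grawT P (fun e i α γ κ => evd Bool P pr (cGap e i α γ κ)) e i α κ := by
  have h1 : algS1 P (cGRaw e i α κ) = (gdraws P).map fun q => cGDraw e i α κ q.1 q.2 := by
    simp [algS1, cGRaw, grawS1]
  rw [semg_one Bool Bool h.ne_none hk (h.eq_none _ (by simp [cGRaw]) (by simp [cGRaw])) _
    (fun r => graw P κ (r.countP id)) h1 (fun r1 => by simp [algS2, cGRaw])
    (fun r1 => by simp [algOut, cGRaw, grawOut]), grawT, List.map_map]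
  congr 2
  refine List.map_congr_left fun q hq => semg_draw hP h e i α κ q.1 q.2 ?_
  refine Scheme.Tm.s1 hk (by simp [cGRaw]) _ ?_
  rw [show alg.s1 P (cGRaw e i α κ) = _ from h1]
  exact List.mem_map_of_mem hq

theorem gapOk_evd (hP : Good P) (h : PrOk P mem pr) (hm : MemOk P mem x y) :
    GapOk P (FF x y) fun e i α γ κ => evd Bool P pr (cGap e i α γ κ) := by
  intro e i α γ κ
  have hk := tm_gap hP e i α γ κ
  have hn := h.eq_none (cGap e i α γ κ) (by simp [cGap]) (by simp [cGap])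
  have h2 : ∀ r1, algS2 P (cGap e i α γ κ) r1 = [] := fun r1 => by simp [algS2, cGap]
  have h1 : algS1 P (cGap e i α γ κ) = gapS1 P (⟨e⟩, i, α, γ, κ) := by simp [algS1, cGap]
  have h3 : ∀ r1, algOut P (cGap e i α γ κ) r1 [] = gapOut P (⟨e⟩, i, α, γ, κ) r1 := fun r1 => by
    simp [algOut, cGap]
  simp only []
  split_ifs with c1 c2 c3
  · rw [semg_one Bool Bool h.ne_none hk hn [] (fun _ => false) (by rw [h1, gapS1, if_pos c1]) h2
      (fun r1 => by rw [h3, gapOut, if_pos c1])]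
    rfl
  · rw [semg_one Bool ℕ h.ne_none hk hn [cSmall e i α γ κ] (fun r => decide (r.getD 0 (dec V.nil) ≤ κ))
      (by rw [h1, gapS1, if_neg c1, if_pos c2]; simp only [min_eq_left c2]) h2
      (fun r1 => by
        rw [h3, gapOut, if_neg c1, if_pos c2]
        cases r1 <;> rfl)]
    rw [List.map_singleton, seq_single, evd, ev_small h hm]
    simp only [map_pure, dec_enc, List.getD_cons_zero]
    congr 1
    rw [decide_eq_decide]
    omega
  · rw [semg_one Bool Bool h.ne_none hk hn [] (fun _ => true)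
      (by rw [h1, gapS1, if_neg c1, if_neg c2, if_pos c3]) h2
      (fun r1 => by rw [h3, gapOut, if_neg c1, if_neg c2, if_pos c3])]
    rfl
  · have h4 : algS1 P (cGap e i α γ κ) = List.replicate (2 * (4 * P.hh)) (cGRaw e i α κ) := by
      rw [h1, gapS1, if_neg c1, if_neg c2, if_neg c3]
    rw [semg_one Bool Bool h.ne_none hk hn _ (fun r => decide (4 * P.hh < r.countP id)) h4 h2
      (fun r1 => by rw [h3, gapOut, if_neg c1, if_neg c2, if_neg c3]), List.map_replicate,
      semg_raw hP h]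
    refine Scheme.Tm.s1 hk (by simp [cGap]) _ ?_
    rw [show alg.s1 P (cGap e i α γ κ) = _ from h4]
    have := hP.aux_ll_hh
    exact List.mem_replicate.2 ⟨by omega, rfl⟩

theorem evd_orc (hP : Good P) (e i : ℕ) (α γ : ℤ) :
    evd ℕ P (realPrim P mem) (cOrc e i α γ) =
      orcT P (fun e i α γ κ => evd Bool P (realPrim P mem) (cGap e i α γ κ)) e i α γ := by
  have hk := tm_orc hP e i α γ
  have hn : realPrim P mem (cOrc e i α γ) = none := by simp [realPrim, cOrc]
  have h2 : ∀ r1, algS2 P (cOrc e i α γ) r1 = [] := fun r1 => by simp [algS2, cOrc]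
  have h1 : algS1 P (cOrc e i α γ) = orcS1 (⟨e⟩, i, α, γ) := by simp [algS1, cOrc]
  have h3 : ∀ r1, algOut P (cOrc e i α γ) r1 [] = orcOut P (⟨e⟩, i, α, γ) r1 := fun r1 => by
    simp [algOut, cOrc]
  unfold orcT
  split_ifs with c1
  · rw [semg_one ℕ Bool (realPrim_ne_none P mem) hk hn [] (fun _ => 2 ^ e + (γ - α).natAbs)
      (by rw [h1, orcS1, if_pos c1]) h2 (fun r1 => by rw [h3, orcOut, if_pos c1])]
    rfl
  · rw [semg_one ℕ Bool (realPrim_ne_none P mem) hk hn
      ((List.range (e + 2)).map fun k => cGap e i α γ (2 ^ k))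
      (fun r => min (2 ^ e + (γ - α).natAbs) (2 ^ (P.kR - 1) * 2 ^ r.findIdx id))
      (by
        rw [h1, orcS1, if_neg c1]
        exact List.map_congr_left fun k hk => by
          rw [min_eq_left (List.mem_range.1 hk).le]) h2
      (fun r1 => by rw [h3, orcOut, if_neg c1, semg_kR hP]), List.map_map]
    rfl

/-- The ideal oracle is always right. -/
theorem ideal_orc (hP : Good P) (hm : MemOk P mem x y) {e : ℕ} (he : e ≤ 2 * P.hh) (i : ℕ) (α γ : ℤ)
    (h : 1 ≤ FF x y e i α γ) :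
    (evd ℕ P (idealPrim P mem x y) (cOrc e i α γ)).All fun v => FF x y e i α γ ≤ v ∧
      v ≤ 2 ^ P.kR * FF x y e i α γ ∧ v ≤ 2 ^ e + (γ - α).natAbs := by
  have _ := hm
  have hp : idealPrim P mem x y (cOrc e i α γ) = some ((alg.ev P (realPrim P mem)
      (cOrc e i α γ)).map (clampO P x y (⟨e⟩, i, α, γ))) := by
    simp [idealPrim, cOrc]
  have h1 := orcT_le P (fun e i α γ κ => evd Bool P (realPrim P mem) (cGap e i α γ κ)) e i α γ
  rw [← evd_orc hP, evd, All_map] at h1
  rw [evd, Scheme.ev_prim (tm_orc hP e i α γ) hp, All_map, All_map]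
  refine h1.mono fun v hv => ?_
  unfold clampO
  split_ifs with c
  · rw [dec_enc]
    exact ⟨le_rfl, Nat.le_mul_of_pos_left _ (by positivity), (FF_ok x y).up e i α γ⟩
  · have c' : FF x y e i α γ ≤ (dec v : ℕ) ∧ (dec v : ℕ) ≤ 2 ^ P.kR * FF x y e i α γ := by
      by_contra c'
      exact c ⟨h, he, c'⟩
    exact ⟨c'.1, c'.2, hv⟩

theorem semg_ev8 (hP : Good P) {k : Call} (h8 : k.1 = 8) (hk : alg.Tm P k) :
    alg.ev P (realPrim P mem) k = alg.ev P (realPrim P mem)
      (cOrc (dec k.2 : AOrc).1.n (dec k.2 : AOrc).2.1 (dec k.2 : AOrc).2.2.1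
        (dec k.2 : AOrc).2.2.2) := by
  obtain ⟨t, v⟩ := k
  obtain rfl : t = 8 := h8
  rw [Scheme.ev_unfold (realPrim_ne_none P mem) hk (by simp [realPrim]),
    Scheme.ev_unfold (realPrim_ne_none P mem) (tm_orc hP _ _ _ _) (by simp [realPrim, cOrc])]
  simp [Scheme.body, alg, algS1, algS2, algOut, cOrc]

/-- `Scheme.hybrid`; a call `(8, v)` has the same meaning as `cOrc` with the decoded arguments. -/
theorem ideal_hybrid (hP : Good P) (hm : MemOk P mem x y) {n c : ℕ} {k : Call} (hk : alg.Cst P n c k)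
    (f : V → ℝ) (hf : ∀ v, 0 ≤ f v ∧ f v ≤ 1) :
    (alg.ev P (idealPrim P mem x y) k).E f ≤
      (alg.ev P (realPrim P mem) k).E f + c * (1 / 2) ^ (3 * P.hh) := by
  refine Scheme.hybrid (realPrim_ne_none P mem) (by positivity) (fun k => ?_) hk f hf
  by_cases h8 : k.1 = 8
  swap
  · left; rw [idealPrim, if_neg h8]
  right
  refine ⟨by simp [realPrim, h8], _, by rw [idealPrim, if_pos h8], fun hT f hf => ?_⟩
  rw [semg_ev8 hP h8 hT, E_map]
  generalize (dec k.2 : AOrc) = a
  obtain ⟨⟨e⟩, i, α, γ⟩ := a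
  by_cases c : 1 ≤ FF x y e i α γ ∧ e ≤ 2 * P.hh
  · have h1 := orcT_ok hP (FF_ok x y) (gapOk_evd hP (prOk_real P mem) hm) c.2 i α γ c.1
    rw [← evd_orc hP, evd, P_map] at h1
    have h2 := E_le_of_event (t := alg.ev P (realPrim P mem) (cOrc e i α γ))
      (f := fun v => f (clampO P x y (⟨e⟩, i, α, γ) v)) (g := f)
      (p := fun v => FF x y e i α γ ≤ (dec v : ℕ) ∧ (dec v : ℕ) ≤ 2 ^ P.kR * FF x y e i α γ)
      zero_le_one (All_of_forall _ fun v => (hf v).1) (All_of_forall _ fun v => ⟨fun hv => by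
        rw [clampO, if_neg fun c' => c'.2.2 hv], (hf _).2⟩)
    simp only [] at h2 ⊢
    linarith
  · have h2 : ∀ v, clampO P x y (⟨e⟩, i, α, γ) v = v := fun v => by
      rw [clampO, if_neg fun c' => c ⟨c'.1, c'.2.1⟩]
    simp only [h2]
    have : (0 : ℝ) ≤ (1 / 2) ^ (3 * P.hh) := by positivity
    linarith

end Crest.Agent.R288
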