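import Crest.Agent.R288.SemT
import Crest.Agent.R288.SemG

/-!
# R288: the scheme satisfies the equations of the model
-/

set_option autoImplicit false

namespace Crest.Agent.R288

open Crest.Agent.Lib.PT RT

variable {P : Par} {mem : ℕ → ℕ} {x y : List ℕ}

theorem sem_top1 (r i : ℕ) (s : ℤ × ℤ) (c : Option Ctx) (t : ℕ) :
    algS1 P (cTop r i s c t) = topS1 P (Un.mk r, i, s, c, t) := by
  simp [algS1, cTop, dec_enc]

theorem sem_top2 (r i : ℕ) (s : ℤ × ℤ) (c : Option Ctx) (t : ℕ) (r1 : List V) :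
    algS2 P (cTop r i s c t) r1 = topS2 P (Un.mk r, i, s, c, t) r1 := by
  simp [algS2, cTop, dec_enc]

theorem sem_top3 (r i : ℕ) (s : ℤ × ℤ) (c : Option Ctx) (t : ℕ) (r1 r2 : List V) :
    algOut P (cTop r i s c t) r1 r2 = topOut P (Un.mk r, i, s, c, t) r1 r2 := by
  simp [algOut, cTop, dec_enc]

theorem sem_top'1 (r i : ℕ) (s : ℤ × ℤ) (c : Option Ctx) (t : ℕ) :
    algS1 P (cTop' r i s c t) = top'S1 P (Un.mk r, i, s, c, t) := by
  simp [algS1, cTop', dec_enc]

theorem sem_top'2 (r i : ℕ) (s : ℤ × ℤ) (c : Option Ctx) (t : ℕ) (r1 : List V) :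
    algS2 P (cTop' r i s c t) r1 = top'S2 P (Un.mk r, i, s, c, t) r1 := by
  simp [algS2, cTop', dec_enc]

theorem sem_top'3 (r i : ℕ) (s : ℤ × ℤ) (c : Option Ctx) (t : ℕ) (r1 r2 : List V) :
    algOut P (cTop' r i s c t) r1 r2 = top'Out P (Un.mk r, i, s, c, t) r1 r2 := by
  simp [algOut, cTop', dec_enc]

theorem sem_sn1 (r i : ℕ) (pl : Plan) (hb p : ℕ) (s : ℤ × ℤ) (k0 q t : ℕ) :
    algS1 P (cSN r i pl hb p s k0 q t) = snS1 P (Un.mk r, i, pl, hb, p, s, k0, q, t) := by
  simp [algS1, cSN, dec_enc]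

theorem sem_sn2 (r i : ℕ) (pl : Plan) (hb p : ℕ) (s : ℤ × ℤ) (k0 q t : ℕ) (r1 : List V) :
    algS2 P (cSN r i pl hb p s k0 q t) r1 = snS2 P (Un.mk r, i, pl, hb, p, s, k0, q, t) r1 := by
  simp [algS2, cSN, dec_enc]

theorem sem_sn3 (r i : ℕ) (pl : Plan) (hb p : ℕ) (s : ℤ × ℤ) (k0 q t : ℕ) (r1 r2 : List V) :
    algOut P (cSN r i pl hb p s k0 q t) r1 r2 = snOut (Un.mk r, i, pl, hb, p, s, k0, q, t) r1 r2 := by
  simp [algOut, cSN, dec_enc]

theorem sem_tm_avg (hP : Good P) {k : Call} {e : ℕ} (h : alg.Tm P (cAvg k e)) : alg.Tm P k := by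
  refine h.s1 (by simp [cAvg]) k ?_
  have : alg.s1 P (cAvg k e) = List.replicate (P.p2 e) k := by
    simp [alg, algS1, cAvg, dec_enc]
  rw [this]
  exact List.mem_replicate.2 ⟨(hP.p2_pos e).ne', rfl⟩

theorem sem_tm_vec {ks : List Call} (h : alg.Tm P (cVec ks)) : ∀ k ∈ ks, alg.Tm P k := by
  intro k hk
  refine h.s1 (by simp [cVec]) k ?_
  have : alg.s1 P (cVec ks) = ks := by
    simp [alg, algS1, cVec, dec_enc]
  rwa [this]

theorem sem_kK (hP : Good P) : P.kK ≤ P.kP := by
  have := hP.small_ll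
  have := hP.ll_kR
  rw [Par.kP.eq_1]
  omega

theorem sem_mb (hP : Good P) : P.mb ≤ P.kP := by
  have := hP.mb_add
  have := hP.small_ll
  have := hP.ll_kR
  rw [Par.kg.eq_1] at *
  rw [Par.kP.eq_1]
  omega

/-- A list of calls followed by a function of the decoded results. -/
theorem sem_seq {β γ : Type} [Enc β] [Dec β] (pr : Call → Option (RT V)) (ks : List Call)
    (g : List β → RT γ) :
    ((seq (ks.map (alg.ev P pr))).bind fun r => g (rds r)) = (seq (ks.map (evd β P pr))).bind g := by
  have : ks.map (evd β P pr) = (ks.map (alg.ev P pr)).map (map dec) := by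
    rw [List.map_map]; rfl
  rw [this, seq_map, bind_map]
  rfl

theorem sem_one {β γ : Type} [Enc β] [Dec β] (pr : Call → Option (RT V)) (k : Call)
    (g : β → RT γ) :
    ((seq ([k].map (alg.ev P pr))).bind fun r => g (rd r 0)) = (evd β P pr k).bind g := by
  rw [List.map_singleton, seq_single, bind_map, evd, bind_map]
  rfl


theorem evd_top' (hP : Good P) (r i : ℕ) (s : ℤ × ℤ) (c : Option Ctx) (t : ℕ)
    (h : alg.Tm P (cTop' r i s c t)) :
    evd ℕ P (idealPrim P mem x y) (cTop' r i s c t) =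
      c.elim ((theModel P mem x y).topN P r i s t) fun c => (theModel P mem x y).topS P r i s c t := by
  have hp := prOk_ideal P mem x y
  have h1 : 1 < (cTop' r i s c t).1 := by simp [cTop']
  have t1 : ∀ k ∈ top'S1 P (Un.mk r, i, s, c, t), alg.Tm P k := by
    rw [← sem_top'1]; exact h.s1 h1
  have t2 : ∀ r1, ∀ k ∈ top'S2 P (Un.mk r, i, s, c, t) r1, alg.Tm P k := fun r1 => by
    rw [← sem_top'2]; exact h.s2 h1 r1
  rw [evd, hp.unfold h h1 (by simp [cTop'])]
  simp only [sem_top'1, sem_top'2, sem_top'3, map_bind, map_pure]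
  cases c with
  | none =>
    simp only [top'S1, top'S2, top'Out, Option.elim_none, Model.topN] at t1 t2 ⊢
    by_cases ht : t = 0
    · simp only [ht, if_true, List.map_nil, seq_nil, pure_bind]
      exact (sem_one (β := ℕ) _ _ RT.pure).trans (bind_pure _)
    · simp only [ht, if_false, dec_enc] at t1 t2 ⊢
      refine (sem_one (β := ℕ) (idealPrim P mem x y) _ fun C =>
        (seq ((((List.range P.nS).map fun j => cGVal r i s (sclS P C j) t) ++
          if P.T0 < t then (List.range P.nS).map fun j => cSVal r i s (sclS P C j) t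
          else []).map (alg.ev P (idealPrim P mem x y)))).bind fun r2 =>
            RT.pure (omin C (rds r2))).trans ?_
      rw [evd_avg hp hP (sem_tm_avg hP (t1 _ (List.mem_singleton_self _))) le_rfl]
      refine congrArg _ (funext fun C => ?_)
      have t3 := t2 [enc C]
      simp only [rd, List.getD_cons_zero, dec_enc] at t3
      refine (sem_seq (β := Option ℕ) _ _ fun l => RT.pure (omin C l)).trans ?_
      refine congrArg (fun l => (seq l).bind _) ?_
      rw [List.map_append, List.map_map]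
      congr 1
      · refine List.map_congr_left fun j hj => ?_
        exact evd_gval hP r i s _ t (t3 _ (List.mem_append_left _ (List.mem_map_of_mem hj)))
      · split_ifs with hT
        · rw [List.map_map]
          refine List.map_congr_left fun j hj => ?_
          refine evd_sval hP r i s _ t (t3 _ (List.mem_append_right _ ?_))
          rw [if_pos hT]
          exact List.mem_map_of_mem hj
        · rfl
  | some c =>
    simp only [top'S1, top'S2, top'Out, Option.elim_some, Model.topS, dec_enc] at t1 t2 ⊢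
    refine (sem_one (β := Com) (idealPrim P mem x y) _ fun cm =>
      (seq (((List.range P.nC).map fun j => (own c s cm j).elim (cSum [])
        fun pl => cAvg (cSRoot P r i pl t) P.kK).map (alg.ev P (idealPrim P mem x y)))).bind fun r2 =>
          RT.pure (ctxOut P c s cm (rds r2))).trans ?_
    rw [evd_com hP r i c t (t1 _ (List.mem_singleton_self _))]
    refine congrArg _ (funext fun cm => ?_)
    have t3 := t2 [enc cm]
    simp only [rd, List.getD_cons_zero, dec_enc] at t3
    refine (sem_seq (β := ℕ) _ _ fun l => RT.pure (ctxOut P c s cm l)).trans ?_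
    refine congrArg (fun l => (seq l).bind _) ?_
    rw [List.map_map]
    refine List.map_congr_left fun j hj => ?_
    have t4 := t3 _ (List.mem_map_of_mem hj)
    simp only [Function.comp_apply]
    cases ho : own c s cm j with
    | none =>
      simp only [Option.elim_none]
      rw [evd_sum hp (by simp)]
      rfl
    | some pl =>
      rw [ho] at t4
      simp only [Option.elim_some] at t4 ⊢
      rw [evd_avg hp hP (sem_tm_avg hP t4) (sem_kK hP)]
      rfl

theorem evd_sn (hP : Good P) {r : ℕ} (hr : 1 ≤ r) (i : ℕ) (pl : Plan) {hb : ℕ} (hhb : hb ≤ P.L) (p : ℕ)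
    (s : ℤ × ℤ) (k0 : ℕ) {q : ℕ} (hq : q ≤ P.mb) {t : ℕ} (ht : P.T0 < t) :
    (theModel P mem x y).sn r i pl hb p s k0 q t = (theModel P mem x y).sn' P r i pl hb p s k0 q t := by
  have hp := prOk_ideal P mem x y
  have h := tm_sn hP hr i pl hhb p s k0 hq ht
  have h1 : 1 < (cSN r i pl hb p s k0 q t).1 := by simp [cSN]
  have t1 : ∀ k ∈ snS1 P (Un.mk r, i, pl, hb, p, s, k0, q, t), alg.Tm P k := by
    rw [← sem_sn1]; exact h.s1 h1
  change evd ℕ P (idealPrim P mem x y) (cSN r i pl hb p s k0 q t) = _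
  rw [evd, hp.unfold h h1 (by simp [cSN])]
  simp only [sem_sn1, sem_sn2, sem_sn3, map_bind, map_pure]
  simp only [snS1, snS2, snOut, Model.sn'] at t1 ⊢
  by_cases h0 : hb = 0
  · simp only [h0, if_true, true_or, List.map_nil, seq_nil, pure_bind]
    exact (sem_one (β := ℕ) _ _ RT.pure).trans (bind_pure _)
  by_cases hq0 : q = 0
  · simp only [h0, hq0, if_true, if_false, or_true, List.map_nil, seq_nil, pure_bind, dec_enc,
      List.map_cons, seq_cons, bind_assoc]
    simp only [theModel, evd, bind_map, map_map]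
    rfl
  simp only [h0, hq0, if_false, or_self] at t1 ⊢
  have hopt : ∀ o u, evd ℕ P (idealPrim P mem x y) (snOpt P (Un.mk r, i, pl, hb, p, s, k0, q, t) o u) =
      (theModel P mem x y).opt r i pl hb p s k0 q o u := fun o u => by
    have := sem_mb hP
    simp only [snOpt, Model.opt, hP.p2_eq (show q - 1 ≤ P.kP by omega)]
    rfl
  have hvec : ∀ o, alg.Tm P (cVec ((List.range (nIn P t)).map fun k =>
      cAvg (snOpt P (Un.mk r, i, pl, hb, p, s, k0, q, t) o (rnk P t k)) P.kP)) →
      evd (List ℕ) P (idealPrim P mem x y) (cVec ((List.range (nIn P t)).map fun k =>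
        cAvg (snOpt P (Un.mk r, i, pl, hb, p, s, k0, q, t) o (rnk P t k)) P.kP)) =
      seq ((List.range (nIn P t)).map fun k =>
        ((theModel P mem x y).opt r i pl hb p s k0 q o (rnk P t k)).avg P.kP) := fun o ho => by
    rw [evd_vec ℕ hp (sem_tm_vec ho), List.map_map]
    refine congrArg seq (List.map_congr_left fun k hk => ?_)
    rw [Function.comp_apply, evd_avg hp hP (sem_tm_avg hP (sem_tm_vec ho _ (List.mem_map_of_mem hk)))
      le_rfl, hopt]
  rw [← hvec false (t1 _ (by simp)), ← hvec true (t1 _ (by simp)), ← evd_rnd hp]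
  simp only [← hopt]
  simp only [List.map_cons, List.map_nil, seq_cons, seq_nil, bind_assoc, pure_bind, evd, bind_map]
  rfl

theorem sem_top (hP : Good P) {pr : Call → Option (RT V)} (hp : PrOk P mem pr) (hm : MemOk P mem x y)
    (r i : ℕ) (s : ℤ × ℤ) (c : Option Ctx) (t : ℕ) (hc : c ≠ none → P.T0 < t) :
    alg.ev P pr (cTop r i s c t) =
      (seq ((topS2 P (Un.mk r, i, s, c, t) [enc (min (FF x y (r * P.L) i s.1 s.2) (P.F0 + 1))]).map
        (alg.ev P pr))).bind fun r2 => .pure (topOut P (Un.mk r, i, s, c, t)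
          [enc (min (FF x y (r * P.L) i s.1 s.2) (P.F0 + 1))] r2) := by
  rw [hp.unfold (tm_top hP r i s c t hc) (by simp [cTop]) (by simp [cTop])]
  simp only [sem_top1, sem_top2, sem_top3, topS1, List.map_singleton, seq_single, ev_small hp hm,
    map_pure, pure_bind]

theorem theModel_ok (hP : Good P) (hm : MemOk P mem x y) : (theModel P mem x y).Ok P := by
  have hp := prOk_ideal P mem x y
  refine ⟨hP, FF_ok x y, fun r hr i s h => ?_, fun r _ i s c t hc hrad => ?_,
    fun r hr _ i pl hb hhb p s k0 q hq t ht => evd_sn hP hr i pl hhb p s k0 hq ht⟩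
  · exact ideal_orc hP hm ((Nat.mul_le_mul_right _ hr).trans hP.HL_le) i s.1 s.2 h
  · have h := tm_top hP r i s c t hc
    have t2 : ∀ r1, ∀ k ∈ topS2 P (Un.mk r, i, s, c, t) r1, alg.Tm P k := fun r1 => by
      rw [← sem_top2]; exact h.s2 (by simp [cTop]) r1
    have t3 := t2 [enc (min (FF x y (r * P.L) i s.1 s.2) (P.F0 + 1))]
    change evd ℕ P (idealPrim P mem x y) (cTop r i s c t) =
      if FF x y (r * P.L) i s.1 s.2 ≤ P.F0 then .pure (FF x y (r * P.L) i s.1 s.2) else _
    rw [evd, sem_top hP hp hm r i s c t hc]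
    simp only [topS2, topOut, rd, List.getD_cons_zero, dec_enc, not_lt.2 hrad, or_false] at t3 ⊢
    by_cases hF : FF x y (r * P.L) i s.1 s.2 ≤ P.F0
    · have e : min (FF x y (r * P.L) i s.1 s.2) (P.F0 + 1) = FF x y (r * P.L) i s.1 s.2 := by omega
      simp only [e, hF, true_or, if_true, List.map_nil, seq_nil, pure_bind, map_pure, dec_enc]
    · have e : ¬ min (FF x y (r * P.L) i s.1 s.2) (P.F0 + 1) ≤ P.F0 := by omega
      simp only [e, hF, false_or, if_false] at t3 ⊢
      by_cases hr0 : r = 0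
      · simp only [hr0, if_true, List.map_nil, seq_nil, pure_bind, map_pure, dec_enc]
      · simp only [hr0, if_false] at t3 ⊢
        rw [← evd_top' hP r i s c t (t3 _ (List.mem_singleton_self _)), map_bind]
        exact (sem_one (β := ℕ) _ _ RT.pure).trans (bind_pure _)

/-- Equal strings: the root is cheap. -/
theorem ev_root_zero (hP : Good P) (hm : MemOk P mem x y) (h : x = y) :
    alg.ev P (realPrim P mem) (root P) = .pure (enc (0 : ℕ)) := by
  have hx : x.length ≤ 2 ^ (P.H * P.L) := by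
    have h1 := hP.N_lt
    have h2 : 2 ^ P.hh ≤ 2 ^ (P.H * P.L) := Nat.pow_le_pow_right (by norm_num) hP.hh_le_HL
    rw [← hm.hx]
    omega
  have hF : FF x y (P.H * P.L) 0 0 ((P.2.1 : ℤ) - P.1) = 0 := by
    rw [hm.hx, hm.hy, FF_root x y hx, ← h, editDist_self]
  rw [root, sem_top hP (prOk_real P mem) hm _ _ _ _ _ fun h => absurd rfl h]
  simp only [hF, topS2, topOut, rd, List.getD_cons_zero, dec_enc, Nat.zero_min, Nat.zero_le, true_or,
    if_true, List.map_nil, seq_nil, pure_bind]

end Crest.Agent.R288
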