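import Crest.Agent.R288.SzsC

/-!
# R288/SzsD: bounds for pure functions: grids, dynamic programme, plans (prefix `szsd_`)

Arithmetic: `lad_step`, `lad_mul_N`, `lad_mono`, `lad_pow` (SzsA) and `omega`; `Int.natAbs_add_le`, `Int.natAbs_mul`.
`bx_list`, `bx_prod`, `bx_option` unfold boxes (all `Iff.rfl`).
-/

set_option autoImplicit false

namespace Crest.Agent.R288.Sz

open Crest.Agent.Lib.PT RT

variable {P : Par} {M X : ℕ}

theorem rdn_le (g : ℕ) (z : ℤ) : (rdn g z).natAbs ≤ z.natAbs + g := by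
  unfold rdn
  rcases Nat.eq_zero_or_pos g with rfl | hg
  · simp
  · have h1 := Int.mul_ediv_add_emod z g
    have h2 := Int.emod_nonneg z (b := g) (by omega)
    have h3 := Int.emod_lt_of_pos z (b := g) (by omega)
    generalize (g : ℤ) * (z / g) = w at *
    omega

theorem mn_le_of {l : List ℕ} {a : ℕ} (h : ∀ x ∈ l, x ≤ a) : mn l ≤ a := by
  unfold mn
  cases e : l.argmin id with
  | none => exact Nat.zero_le _
  | some x => exact h x (List.argmin_mem e)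

theorem omin_le_left (a : ℕ) (l : List (Option ℕ)) : omin a l ≤ a := by
  unfold omin
  induction l generalizing a with
  | nil => exact le_rfl
  | cons o l ih =>
    rw [List.foldl_cons]
    refine (ih _).trans ?_
    cases o with
    | none => exact le_rfl
    | some b => exact min_le_left _ _

theorem szsd_off (g : ℕ) {a p : ℕ} (ha : a < 2 * p + 1) : ((g : ℤ) * ((a : ℤ) - p)).natAbs ≤ g * p := by
  rw [Int.natAbs_mul, Int.natAbs_natCast]
  exact Nat.mul_le_mul_left _ (by omega)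

theorem szsd_gsp (P : Par) (σ : ℕ) : gsp P σ ≤ σ := Nat.div_le_self _ _

theorem szsd_wlv (h : Good P) {σ : ℕ} (hσ : σ ≤ X * nn P ^ 5) (lv : ℕ) : wlv P σ lv ≤ X * nn P ^ 6 :=
  lad_mul_N ((szsd_gsp P σ).trans hσ) (h.p2_nn _)

theorem zgrid_bx (h : Good P) {α : ℤ} {σ : ℕ} (hα : α.natAbs ≤ X * nn P ^ 2) (hσ : σ ≤ X * nn P ^ 5) :
    bx (nn P) (X * nn P ^ 7) (zgrid P α σ) := by
  have hN := h.nn_big
  have h1 := lad_pow hN
  have h2 := h.p2_nn (P.kg + 2)
  have h3 := (szsd_gsp P σ).trans hσ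
  refine ⟨?_, fun z hz => ?_⟩
  · rw [zgrid, List.length_map, List.length_range]
    omega
  · obtain ⟨a, ha, rfl⟩ := List.mem_map.1 hz
    have h4 := szsd_off (gsp P σ) (List.mem_range.1 ha)
    have h5 := rdn_le (gsp P σ) α
    have h6 : _ ≤ X * nn P ^ 6 := lad_mul_N h3 h2
    have h7 := lad_mono hN X (show 2 ≤ 5 by norm_num)
    have h8 : 100 * (X * nn P ^ 5) ≤ X * nn P ^ 6 := lad_step hN X 5
    have h9 : 100 * (X * nn P ^ 6) ≤ X * nn P ^ 7 := lad_step hN X 6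
    rw [bx_int]
    refine (Int.natAbs_add_le _ _).trans ?_
    omega

theorem szsd_gat {N A B D : ℕ} {Zs : List ℤ} {m : List (List ℕ)} {f : List ℕ} {z : ℤ} (hZ : bx N A Zs)
    (hm : bx N B m) (hf : ∀ x ∈ f, x ≤ D) (hz : z.natAbs ≤ A) : gat Zs m f z ≤ 2 * A + B + D := by
  refine mn_le_of fun x hx => ?_
  obtain ⟨p, hp, hx⟩ := List.mem_flatMap.1 hx
  obtain ⟨q, hq, rfl⟩ := List.mem_map.1 hx
  have h1 : p.1.natAbs ≤ A := hZ.2 _ (List.of_mem_zip hp).1
  have h2 : q.1 ≤ B := (hm.2 _ (List.of_mem_zip hp).2).2 _ (List.of_mem_zip hq).1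
  have h3 := hf _ (List.of_mem_zip hq).2
  omega

theorem szsd_gL {N A B : ℕ} {Zs : List ℤ} {tab : Tab} {zr : ℤ} (hZ : bx N A Zs) (ht : bx N B tab)
    (hr : zr.natAbs ≤ A) (js : List ℕ) : ∀ x ∈ gL Zs tab js zr, x ≤ (js.length + 1) * (2 * A + B) := by
  induction js with
  | nil =>
    intro x hx
    obtain ⟨z, hz, rfl⟩ := List.mem_map.1 hx
    have h1 : z.natAbs ≤ A := hZ.2 _ hz
    simp only [List.length_nil, zero_add, one_mul]
    omega
  | cons j js ih =>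
    intro x hx
    obtain ⟨z, hz, rfl⟩ := List.mem_map.1 hx
    refine (szsd_gat hZ (bx_getD ht j bx_nil) ih (hZ.2 _ hz)).trans (le_of_eq ?_)
    rw [List.length_cons]
    ring

/-- each child adds at most `3 X N ^ 8` (induction for `gL`: entries `≤ (|js| + 1) · 3 X N ^ 8`) -/
theorem gN_le (h : Good P) {Zs : List ℤ} {tab : Tab} {js : List ℕ} {zl zr : ℤ} (hZ : bx (nn P) (X * nn P ^ 7) Zs)
    (ht : bx (nn P) (X * nn P ^ 8) tab) (hj : js.length ≤ nn P) (hl : zl.natAbs ≤ X * nn P ^ 7)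
    (hr : zr.natAbs ≤ X * nn P ^ 7) : gN Zs tab js zl zr ≤ X * nn P ^ 10 := by
  have hN := h.nn_big
  have h7 : 100 * (X * nn P ^ 7) ≤ X * nn P ^ 8 := lad_step hN X 7
  have h8 : 100 * (X * nn P ^ 8) ≤ X * nn P ^ 9 := lad_step hN X 8
  have h9 : 100 * (X * nn P ^ 9) ≤ X * nn P ^ 10 := lad_step hN X 9
  unfold gN
  split_ifs with h0
  · omega
  · have h1 := szsd_gat hZ (bx_getD ht (js.headD 0) bx_nil) (szsd_gL hZ ht hr js.tail) hl
    have h2 : js.tail.length + 1 ≤ nn P := by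
      have := List.length_pos_iff.2 h0
      rw [List.length_tail]
      omega
    have h3 : (js.tail.length + 1) * (2 * (X * nn P ^ 7) + X * nn P ^ 8) ≤ nn P * (2 * (X * nn P ^ 8)) :=
      Nat.mul_le_mul h2 (by omega)
    have h4 : nn P * (2 * (X * nn P ^ 8)) = 2 * (X * nn P ^ 9) := by ring
    omega

theorem szsd_midz {N A : ℕ} {Zs : List ℤ} (hZ : bx N A Zs) (tabs : List Tab) (hb p : ℕ) {zl : ℤ} (zr : ℤ)
    (hl : zl.natAbs ≤ A) : (midz P Zs tabs hb p zl zr).natAbs ≤ A := by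
  unfold midz
  cases e : (Zs.filter fun z => decide (min zl zr ≤ z ∧ z ≤ max zl zr)).argmin
      fun z => |psi P Zs tabs hb p zl zr z| with
  | none => exact hl
  | some x => exact hZ.2 _ (List.mem_of_mem_filter (List.argmin_mem e))

theorem szsd_zp {N A : ℕ} {Zs : List ℤ} (hZ : bx N A Zs) (tabs : List Tab) {e : ℤ × ℤ}
    (h1 : e.1.natAbs ≤ A) (h2 : e.2.natAbs ≤ A) (d : ℕ) :
    ∀ p, (zp P Zs tabs e d p).1.natAbs ≤ A ∧ (zp P Zs tabs e d p).2.natAbs ≤ A := by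
  induction d with
  | zero => exact fun _ => ⟨h1, h2⟩
  | succ d ih =>
    intro p
    have h3 := ih (p / 2)
    have h4 := szsd_midz (P := P) hZ tabs (P.L - d - 1) (p / 2) (zp P Zs tabs e d (p / 2)).2 h3.1
    rw [zp]
    split_ifs
    · exact ⟨h3.1, h4⟩
    · exact ⟨h4, h3.2⟩

theorem szsd_czs (h : Good P) {α γ : ℤ} {σ : ℕ} (hα : α.natAbs ≤ X * nn P ^ 2) (hγ : γ.natAbs ≤ X * nn P ^ 2)
    (hσ : σ ≤ X * nn P ^ 5) (tabs : List Tab) : bx (nn P) (X * nn P ^ 7) (czs P α γ σ tabs) := by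
  have hN := h.nn_big
  have h1 := lad_pow hN
  have h2 := h.b_nn
  have h3 := (szsd_gsp P σ).trans hσ
  have h5 := rdn_le (gsp P σ) α
  have h6 := rdn_le (gsp P σ) γ
  have h7 := lad_mono hN X (show 2 ≤ 5 by norm_num)
  have h8 : 100 * (X * nn P ^ 5) ≤ X * nn P ^ 6 := lad_step hN X 5
  have h9 : 100 * (X * nn P ^ 6) ≤ X * nn P ^ 7 := lad_step hN X 6
  have e1 : (rdn (gsp P σ) α).natAbs ≤ X * nn P ^ 7 := by omega
  have e2 : (rdn (gsp P σ) γ).natAbs ≤ X * nn P ^ 7 := by omega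
  refine ⟨?_, fun z hz => ?_⟩
  · rw [czs, List.length_append, List.length_map, List.length_range, List.length_singleton]
    omega
  · rcases List.mem_append.1 hz with hz | hz
    · obtain ⟨j, -, rfl⟩ := List.mem_map.1 hz
      exact (szsd_zp (zgrid_bx h hα hσ) tabs (e := (rdn (gsp P σ) α, rdn (gsp P σ) γ)) e1 e2 _ _).1
    · rw [List.mem_singleton.1 hz]
      exact e2

theorem szsd_ctxAt (h : Good P) {σ : ℕ} (hσ : σ ≤ X * nn P ^ 5) (lv : ℕ) {z1 z2 : ℤ}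
    (h1 : z1.natAbs ≤ X * nn P ^ 7) (h2 : z2.natAbs ≤ X * nn P ^ 7) :
    bx (nn P) (X * nn P ^ 8) (ctxAt P σ lv z1 z2) := by
  have hN := h.nn_big
  have h3 := (szsd_gsp P σ).trans hσ
  have h4 := szsd_wlv h hσ lv
  have h5 := rdn_le (wlv P σ lv) z1
  have h6 := rdn_le (wlv P σ lv) z2
  have h7 : 100 * (X * nn P ^ 5) ≤ X * nn P ^ 6 := lad_step hN X 5
  have h8 : 100 * (X * nn P ^ 6) ≤ X * nn P ^ 7 := lad_step hN X 6
  have h9 : 100 * (X * nn P ^ 7) ≤ X * nn P ^ 8 := lad_step hN X 7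
  unfold ctxAt
  simp only [bx_mk, bx_int, bx_nat, bx_un]
  exact ⟨by omega, by omega, by omega, h.p2_nn _⟩

/-- boundaries lie in the grid or are rounded ends (`≤ X N ^ 7`), contexts are `ctxAt` -/
theorem planOf_bx (h : Good P) {α γ : ℤ} {σ : ℕ} (hα : α.natAbs ≤ X * nn P ^ 2) (hγ : γ.natAbs ≤ X * nn P ^ 2)
    (hσ : σ ≤ X * nn P ^ 5) (tabs : List Tab) : bx (nn P) (X * nn P ^ 8) (planOf P α γ σ tabs) := by
  have hN := h.nn_big
  have h1 := lad_pow hN
  have h2 := h.b_nn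
  have hc := szsd_czs h hα hγ hσ tabs
  unfold planOf planOf'
  dsimp only
  split_ifs
  · rw [bx_some, bx_mk]
    refine ⟨Bx.mono hc (lad_mono hN X (by norm_num)), ?_, fun c hc' => ?_⟩
    · refine (List.length_filterMap_le _ _).trans ?_
      rw [List.length_map, List.length_range]
      omega
    · obtain ⟨o, ho, e⟩ := List.mem_filterMap.1 hc'
      obtain ⟨j, -, rfl⟩ := List.mem_map.1 ho
      obtain ⟨lv, -, rfl⟩ := List.mem_map.1 (List.mem_of_find?_eq_some e)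
      exact szsd_ctxAt h hσ lv (bx_getD hc j (d := 0) (Nat.zero_le _)) (bx_getD hc (j + 1) (d := 0) (Nat.zero_le _))
  · exact bx_none

/-- `2 ^ C.size ≤ 2 C + 1` -/
theorem sclS_le (h : Good P) (hX : nn P ≤ X) {C : ℕ} (hC : C ≤ X * nn P ^ 3) (j : ℕ) : sclS P C j ≤ X * nn P ^ 5 := by
  have hN := h.nn_big
  have h1 : 2 ^ C.size ≤ 2 * C + 1 := by
    rcases Nat.eq_zero_or_pos C.size with h0 | h0
    · rw [h0]; omega
    · have := Nat.lt_size.1 (show C.size - 1 < C.size by omega)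
      obtain ⟨k, hk⟩ : ∃ k, C.size = k + 1 := ⟨C.size - 1, by omega⟩
      rw [hk, Nat.add_sub_cancel] at this
      rw [hk, pow_succ]
      omega
  have h2 : 2 ^ min j P.nS ≤ nn P :=
    (Nat.pow_le_pow_right (by norm_num) (min_le_right _ _)).trans h.pownS_nn
  have h3 := lad_le hN X 3
  have h4 : 2 ^ C.size * 2 ^ min j P.nS ≤ 3 * (X * nn P ^ 3) * nn P := Nat.mul_le_mul (by omega) h2
  have h5 : 3 * (X * nn P ^ 3) * nn P = 3 * (X * nn P ^ 4) := by ring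
  have h6 : 100 * (X * nn P ^ 4) ≤ X * nn P ^ 5 := lad_step hN X 4
  refine (Nat.div_le_self _ _).trans ?_
  rw [pow_add]
  omega

theorem tabKeys_bx (h : Good P) {c : Ctx} {σ : ℕ} (hc : bx (nn P) X c) (hσ : σ ≤ X * nn P ^ 5) (lv : ℕ) :
    bx (nn P) (X * nn P ^ 8) (tabKeys P c σ lv) := by
  have hN := h.nn_big
  have h1 := lad_pow hN
  have h2 := h.p2_nn (P.kd + 2 - lv)
  have h2' := h.p2_nn P.kx
  have h3 := (szsd_gsp P σ).trans hσ
  have h4 := szsd_wlv h hσ lv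
  refine ⟨?_, fun z hz => ?_⟩
  · have e : (tabKeys P c σ lv).length = (2 * P.p2 (P.kd + 2 - lv) + 1) * (2 * P.p2 P.kx + 1) := by
      simp [tabKeys, List.length_flatMap]
    have e2 : (2 * P.p2 (P.kd + 2 - lv) + 1) * (2 * P.p2 P.kx + 1) ≤ 3 * nn P * (3 * nn P) :=
      Nat.mul_le_mul (by omega) (by omega)
    have e3 : 3 * nn P * (3 * nn P) = 9 * nn P ^ 2 := by ring
    omega
  · obtain ⟨a1, ha1, hz⟩ := List.mem_flatMap.1 hz
    obtain ⟨a2, ha2, rfl⟩ := List.mem_map.1 hz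
    have a3 := szsd_off (wlv P σ lv) (List.mem_range.1 ha1)
    have a4 := szsd_off (wlv P σ lv) (List.mem_range.1 ha2)
    have a5 := rdn_le (wlv P σ lv) c.1
    have a6 : c.1.natAbs ≤ X := hc.1
    have a7 : _ ≤ X * nn P ^ 7 := lad_mul_N h4 h2
    have a8 : _ ≤ X * nn P ^ 7 := lad_mul_N h4 h2'
    have a9 := lad_le hN X 5
    have h7 : 100 * (X * nn P ^ 5) ≤ X * nn P ^ 6 := lad_step hN X 5
    have h8 : 100 * (X * nn P ^ 6) ≤ X * nn P ^ 7 := lad_step hN X 6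
    have h9 : 100 * (X * nn P ^ 7) ≤ X * nn P ^ 8 := lad_step hN X 7
    have b1 := Int.natAbs_add_le (rdn (wlv P σ lv) c.1) ((wlv P σ lv : ℤ) * ((a1 : ℤ) - P.p2 (P.kd + 2 - lv)))
    simp only [bx_mk, bx_int, bx_nat, bx_un]
    refine ⟨by omega, (Int.natAbs_add_le _ _).trans (by omega), by omega, h.p2_nn _⟩

end Crest.Agent.R288.Sz
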