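import Crest.Agent.R288.SzsF
import Crest.Agent.R288.SzsD

/-!
# R288/SzsG: sizes in the gap tests and the oracle (prefix `szsg_`)

Pattern (see `gt_small` in SzsF for a complete example): unfold the call (`unfold cX`), `refine GT.of_body' E (eqs_x P _) (Y := …) (box of the
arguments: `by simp; omega`-like, or `by exact ⟨_, _, …⟩`) (fit: `hL.fit' E.good`) (Y' := …) (box of the result) (fit) ?_`, then
`Body.one E (St.… ) fun r1 hr => …` or `Body.two`; stages by `St.nil/one/two/three/hom`; weaken with `GT.imp`, `GT.mono`;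
boxes grow with `Bx.mono h (lad_mono …)`.
-/

set_option autoImplicit false

namespace Crest.Agent.R288.Sz

open Crest.Agent.Lib.PT RT

variable {P : Par} {mem : ℕ → ℕ} {M n e Y i κ : ℕ} {α γ : ℤ}

/-- The claim for `cGap`. -/
def GapZ (P : Par) (mem : ℕ → ℕ) (M n : ℕ) : Prop :=
  ∀ (e Y i : ℕ) (α γ : ℤ) (κ : ℕ), Lo P M e Y → i ≤ Y → α.natAbs ≤ Y → γ.natAbs ≤ Y → κ ≤ Y →
    GT P mem M n 20 (cGap e i α γ κ) fun _ : Bool => True

theorem szsg_gg (h : Good P) (hκ : κ ≤ Y) (eb : ℕ) : gg P κ eb ≤ Y * nn P ^ 1 := by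
  unfold gg gu
  rw [pow_one]
  exact Nat.mul_le_mul ((Nat.div_le_self _ _).trans hκ) (h.p2_nn _)

theorem szsg_off {g a p N Y : ℕ} (hg : g ≤ Y * N ^ 1) (ha : a < 2 * p + 1) (hp : p ≤ 3 * N) :
    ((g : ℤ) * ((a : ℤ) - (p : ℕ))).natAbs ≤ 3 * (Y * N ^ 2) := by
  rw [Int.natAbs_mul, Int.natAbs_natCast]
  have h1 : ((a : ℤ) - (p : ℕ)).natAbs ≤ 3 * N := by omega
  calc g * ((a : ℤ) - (p : ℕ)).natAbs ≤ (Y * N ^ 1) * (3 * N) := Nat.mul_le_mul hg h1
    _ = 3 * (Y * N ^ 2) := by ring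


theorem gstates_bx (h : Good P) (hα : α.natAbs ≤ Y) (hκ : κ ≤ Y) (eb : ℕ) :
    bx (nn P) (Y * nn P ^ 3) (gstates P α κ eb) := by
  have hN := h.nn_big
  have hg := szsg_gg h hκ eb
  have p1 := h.p2_nn (2 * P.kγ + P.kb + 1 - eb)
  have p2 := h.p2_nn P.kγ
  have l0 := lad_step hN Y 0
  have l1 := lad_step hN Y 1
  have l2 := lad_step hN Y 2
  simp only [pow_zero, mul_one, zero_add, Nat.reduceAdd] at l0 l1 l2
  have hr := rdn_le (gg P κ eb) α
  rw [bx_list]
  unfold gstates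
  constructor
  · rw [List.length_flatMap]
    simp only [List.length_map, List.length_range, List.map_const', List.sum_replicate, smul_eq_mul]
    have h1 := lad_pow hN
    calc _ ≤ (3 * nn P) * (5 * nn P) := Nat.mul_le_mul (by omega) (by omega)
      _ = 15 * nn P ^ 2 := by ring
      _ ≤ nn P ^ 3 := by omega
  · intro s hs
    simp only [List.mem_flatMap, List.mem_map, List.mem_range] at hs
    obtain ⟨a, ha, a', ha', rfl⟩ := hs
    have h1 := szsg_off (N := nn P) hg ha (by omega)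
    have h2 := szsg_off (N := nn P) hg ha' (by omega)
    have h3 := Int.natAbs_add_le (rdn (gg P κ eb) α)
      ((gg P κ eb : ℤ) * ((a : ℤ) - (P.p2 (2 * P.kγ + P.kb + 1 - eb) + 1 : ℕ)))
    have h4 := Int.natAbs_add_le (rdn (gg P κ eb) α +
      (gg P κ eb : ℤ) * ((a : ℤ) - (P.p2 (2 * P.kγ + P.kb + 1 - eb) + 1 : ℕ)))
      ((gg P κ eb : ℤ) * ((a' : ℤ) - (2 * P.p2 P.kγ + 1 : ℕ)))
    rw [bx_mk, bx_int, bx_int]
    constructor <;> omega

theorem gdraws_bx (h : Good P) : bx (nn P) (nn P) (gdraws P) := by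
  rw [bx_list]
  unfold gdraws
  constructor
  · have h1 : ∀ eb : ℕ, ((List.range (P.p2 P.kγ)).flatMap fun l =>
        List.replicate (P.p2 (eb + 6)) (eb, l)).length ≤ nn P * nn P := by
      intro eb
      rw [List.length_flatMap]
      simp only [List.length_replicate, List.length_range, List.map_const', List.sum_replicate, smul_eq_mul]
      exact Nat.mul_le_mul (h.p2_nn _) (h.p2_nn _)
    rw [List.length_flatMap]
    refine (List.sum_le_card_nsmul _ (nn P * nn P) fun x hx => ?_).trans ?_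
    · obtain ⟨eb, -, rfl⟩ := List.mem_map.1 hx
      exact h1 eb
    · rw [List.length_map, List.length_range, smul_eq_mul]
      calc _ ≤ nn P * (nn P * nn P) := Nat.mul_le_mul_right _ h.kgam_nn
        _ = nn P ^ 3 := by ring
  · intro s hs
    simp only [List.mem_flatMap, List.mem_range, List.mem_replicate] at hs
    obtain ⟨eb, he, l, hl, -, rfl⟩ := hs
    have h1 := h.kgam_nn
    have h2 := h.p2_nn P.kγ
    rw [bx_mk, bx_nat, bx_nat]
    constructor <;> omega

theorem gt_gdraw (E : Env P mem M) (hG : GapZ P mem M n) (hL : Lo P M e Y) (he : P.kb < e) (hi : i ≤ Y)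
    (hα : α.natAbs ≤ Y) (hκ : κ ≤ Y) {eb l : ℕ} (heb : eb ≤ nn P) (hl : l ≤ nn P) :
    GT P mem M n 20 (cGDraw e i α κ eb l) fun _ : Bool => True := by
  have hN := E.good.nn_big
  have h2 := hL.N_le
  have l0 := lad_step hN Y 0
  have l1 := lad_step hN Y 1
  have l2 := lad_step hN Y 2
  simp only [pow_zero, mul_one, zero_add, Nat.reduceAdd] at l0 l1 l2
  unfold cGDraw
  refine GT.of_body' E (eqs_gdraw P _) (Y := Y) (by exact ⟨hL.e_le, hi, hα, hκ, heb.trans h2, hl.trans h2⟩)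
    (hL.fit0 E.good) (Y' := Y) (fun b _ => trivial) (hL.fit0 E.good) ?_
  refine Body.two (St.one E (gt_rnd E E.good.kb_nn)) ?_
  rintro _ ⟨v, rfl, hv⟩
  have hs := gstates_bx E.good hα hκ eb
  refine ⟨_, St.hom E (j := 20) (q := fun _ : Bool => True) ?_ ?_, fun r2 _ => ⟨_, rfl, trivial⟩⟩
  · intro k hk
    unfold gdrawS2 at hk
    obtain ⟨s, hs', rfl⟩ := List.mem_map.1 hk
    dsimp only
    rw [rd_zero]
    have h3 := E.good.powkb_nn
    have h4 : i * P.p2 P.kb ≤ Y * nn P ^ 1 := by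
      rw [pow_one]
      exact Nat.mul_le_mul hi (E.good.p2_nn _)
    have h5 := E.good.p2_nn P.kγ
    have h6 : gg P κ eb * (P.p2 P.kγ + l + 2) ≤ 3 * (Y * nn P ^ 2) :=
      calc _ ≤ (Y * nn P ^ 1) * (3 * nn P) := Nat.mul_le_mul (szsg_gg E.good hκ eb) (by omega)
        _ = 3 * (Y * nn P ^ 2) := by ring
    exact hG _ _ _ _ _ _ (hL.down E.good E.good.kb_pos_sz he.le) (by omega) (hs.2 s hs').1 (hs.2 s hs').2 (by omega)
  · unfold gdrawS2
    rw [List.length_map]
    exact hs.1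

theorem gt_graw (E : Env P mem M) (hG : GapZ P mem M n) (hL : Lo P M e Y) (he : P.kb < e) (hi : i ≤ Y)
    (hα : α.natAbs ≤ Y) (hκ : κ ≤ Y) : GT P mem M n 20 (cGRaw e i α κ) fun _ : Bool => True := by
  have hd := gdraws_bx E.good
  unfold cGRaw
  refine GT.of_body' E (eqs_graw P _) (Y := Y) (by exact ⟨hL.e_le, hi, hα, hκ⟩)
    (hL.fit0 E.good) (Y' := Y) (fun b _ => trivial) (hL.fit0 E.good) ?_
  refine Body.one E (St.hom E (j := 20) (q := fun _ : Bool => True) ?_ ?_) fun r1 _ => ⟨rfl, _, rfl, trivial⟩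
  · intro k hk
    unfold grawS1 at hk
    obtain ⟨s, hs', rfl⟩ := List.mem_map.1 hk
    exact gt_gdraw E hG hL he hi hα hκ (hd.2 s hs').1 (hd.2 s hs').2
  · unfold grawS1
    rw [List.length_map]
    exact hd.1

/-- Strong induction on `n`, `GT.of_body`. -/
theorem gapZ (E : Env P mem M) (n : ℕ) : GapZ P mem M n := by
  induction n using Nat.strong_induction_on with
  | _ n ih =>
    intro e Y i α γ κ hL hi hα hγ hκ
    have hN := E.good.nn_big
    unfold cGap
    refine GT.of_body E (eqs_gap P _) (Y := Y) (by exact ⟨hL.e_le, hi, hα, hγ, hκ⟩)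
      (hL.fit0 E.good) (Y' := Y) (fun b _ => trivial) (hL.fit0 E.good) fun n' hn' => ?_
    unfold gapS1
    dsimp only
    split_ifs with h1 h2 h3
    · exact Body.one E (St.nil E) fun _ _ => ⟨rfl, _, rfl, trivial⟩
    · exact Body.one E (St.one E (gt_small E hL hi hα hγ ((min_le_right _ _).trans E.good.F1_nn)))
        fun _ _ => ⟨rfl, _, rfl, trivial⟩
    · exact Body.one E (St.nil E) fun _ _ => ⟨rfl, _, rfl, trivial⟩
    · refine Body.one E (St.hom E (j := 20) (q := fun _ : Bool => True) ?_ ?_) fun r1 _ => ⟨rfl, _, rfl, trivial⟩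
      · intro k hk
        rw [List.eq_of_mem_replicate hk]
        exact gt_graw E (ih n' hn') hL (by omega) hi hα hκ
      · have h4 := E.good.hh_nn
        have h5 := lad_pow hN
        rw [List.length_replicate]
        omega

theorem gt_orc (E : Env P mem M) (hL : Lo P M e Y) (he : 2 ^ (e + 2) ≤ Y) (hi : i ≤ Y) (hα : α.natAbs ≤ Y)
    (hγ : γ.natAbs ≤ Y) : GT P mem M n 20 (cOrc e i α γ) fun v : ℕ => v ≤ 2 ^ e + (γ - α).natAbs := by
  have hN := E.good.nn_big
  have l0 := lad_step hN Y 0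
  simp only [pow_zero, mul_one, zero_add] at l0
  have h1 : 2 ^ e ≤ 2 ^ (e + 2) := Nat.pow_le_pow_right (by norm_num) (by omega)
  unfold cOrc
  refine GT.of_body' E (eqs_orc P _) (Y := Y) (by exact ⟨hL.e_le, hi, hα, hγ⟩)
    (hL.fit0 E.good) (Y' := Y * nn P ^ 1) (fun b hb => ?_) (hL.fit' E.good) ?_
  · rw [bx_nat]
    omega
  · unfold orcS1 orcOut
    dsimp only
    split_ifs with h2
    · exact Body.one E (St.nil E) fun _ _ => ⟨rfl, _, rfl, le_rfl⟩
    · refine Body.one E (St.hom E (j := 20) (q := fun _ : Bool => True) ?_ ?_)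
        fun r1 _ => ⟨rfl, _, rfl, min_le_left _ _⟩
      · intro k hk
        obtain ⟨s, -, rfl⟩ := List.mem_map.1 hk
        exact gapZ E n _ _ _ _ _ _ hL hi hα hγ
          ((Nat.pow_le_pow_right (by norm_num) (min_le_right _ _)).trans he)
      · have h4 := hL.e_le
        have h5 := lad_pow hN
        rw [List.length_map, List.length_range]
        omega

end Crest.Agent.R288.Sz
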