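import Crest.Agent.R288.SzsJ
import Crest.Agent.R288.SzsG

/-!
# R288/SzsK: sizes at the top of a block (prefix `szsk_`)

Pattern (see `gt_small` in SzsF for a complete example): unfold the call (`unfold cX`), `refine GT.of_body' E (eqs_x P _) (Y := …) (box of the
arguments: `by simp; omega`-like, or `by exact ⟨_, _, …⟩`) (fit: `hL.fit' E.good`) (Y' := …) (box of the result) (fit) ?_`, then
`Body.one E (St.… ) fun r1 hr => …` or `Body.two`; stages by `St.nil/one/two/three/hom`; weaken with `GT.imp`, `GT.mono`;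
boxes grow with `Bx.mono h (lad_mono …)`.
-/

set_option autoImplicit false

namespace Crest.Agent.R288.Sz

open Crest.Agent.Lib.PT RT

variable {P : Par} {mem : ℕ → ℕ} {M n r X i t : ℕ} {s : ℤ × ℤ} {c : Option Ctx}

/-- cases on `c`; `gt_orc` with `Lv.lo` (`2 ^ (r L + 2) ≤ X N ^ 2`); `gt_avg` of `hT`, `sclS_le`, `St.hom` at type `Option ℕ`,
`omin_le_left`; `gt_com`, `own_bx`, `gt_sroot`, `gt_sum_nil` (`b0 = 0`), `ctxOut_le_cap` -/
theorem gt_top' (E : Env P mem M) (hT : TopC P mem M n) (hS : SnC P mem M n) (hL : Lv P M r X) (hr : 1 ≤ r)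
    (hi : i ≤ X) (hs : bx (nn P) (X * nn P ^ 2) s) (hc : bx (nn P) X c) (ht : t ≤ nn P) :
    GT P mem M n 20 (cTop' r i s c t) fun v : ℕ => v ≤ topB P r s c := by
  have hN := E.good.nn_big
  have hp := lad_pow hN
  have hX2 : X ≤ X * nn P ^ 2 := lad_le hN X 2
  have hB : topB P r s c ≤ X * nn P ^ 3 := topB_le E.good hL hs hc
  unfold cTop'
  refine GT.of_body' E (eqs_top' P _) (Y := X * nn P ^ 2)
    (by exact ⟨hL.r_nn E.good, hi.trans hX2, hs, Bx.mono hc hX2, ht.trans (hL.N_le.trans hX2)⟩)
    (hL.fit' E.good) (Y' := X * nn P ^ 3) (fun b hb => le_trans hb hB) (hL.fit' E.good) ?_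
  unfold top'S1 top'S2 top'Out
  cases c with
  | none =>
    dsimp only [Option.elim]
    by_cases h0 : t = 0
    · simp only [if_pos h0]
      have h4 : 2 ^ (r * P.L + 2) ≤ X * nn P ^ 2 := by
        rw [pow_add]
        exact Nat.mul_le_mul (hL.pow_le E.good) (by omega)
      refine Body.one E (St.one E (gt_orc E (hL.lo E.good) h4 (hi.trans hX2) hs.1 hs.2)) ?_
      rintro _ ⟨a, rfl, ha⟩
      exact ⟨rfl, a, rfl, ha.trans (le_max_right _ _)⟩
    · simp only [if_neg h0]
      refine Body.two (St.one E (gt_avg E (hT r X i s none (t - 1) hL hi hs hc (by omega))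
        (lt_of_le_of_lt hB (hL.fit' E.good)) E.good.kP_nn)) ?_
      rintro _ ⟨a, rfl, ha⟩
      rw [rd_zero]
      have hσ : ∀ j, sclS P a j ≤ X * nn P ^ 5 := sclS_le E.good hL.N_le (ha.trans hB)
      refine ⟨_, St.hom E (j := 20) (q := fun o : Option ℕ => bx (nn P) (X * nn P ^ 12) o)
        (fun k hk => ?_) ?_, ?_⟩
      · rcases List.mem_append.1 hk with hk | hk
        · obtain ⟨j, -, rfl⟩ := List.mem_map.1 hk
          exact gt_gval E hT hL hr hi hs (hσ j) ht
        · split_ifs at hk with h1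
          · obtain ⟨j, -, rfl⟩ := List.mem_map.1 hk
            exact gt_sval E hT hS hL hr hi hs (hσ j) ht
          · exact absurd hk List.not_mem_nil
      · have h5 := E.good.nS_nn
        split_ifs
        · simp only [List.length_append, List.length_map, List.length_range]
          omega
        · simp only [List.length_append, List.length_map, List.length_range, List.length_nil]
          omega
      · rintro r2 -
        exact ⟨_, rfl, (omin_le_left _ _).trans ha⟩
  | some c =>
    dsimp only [Option.elim]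
    refine Body.two (St.one E (gt_com E hT hL hr hi ((bx_some c).1 hc) ht)) ?_
    rintro _ ⟨cm, rfl, -, hcm⟩
    rw [rd_zero]
    refine ⟨_, St.hom E (j := 22) (q := fun _ : ℕ => True) (fun k hk => ?_) ?_, ?_⟩
    · obtain ⟨j, -, rfl⟩ := List.mem_map.1 hk
      have h1 := own_bx c s hcm j
      cases e : own c s cm j with
      | none =>
        exact (gt_sum_nil E (b0 := (0 : ℕ)) rfl).mono E le_rfl (by norm_num) fun _ _ => trivial
      | some pl =>
        exact (gt_avg E (gt_sroot E hS hL hr hi (h1 pl e) ht) (hL.fit' E.good) E.good.kK_nn).imp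
          fun _ _ => trivial
    · have h5 := E.good.nC_nn
      simp only [List.length_map, List.length_range]
      omega
    · rintro r2 -
      exact ⟨_, rfl, (ctxOut_le_cap P c s cm _).trans (le_max_right _ _)⟩

/-- `GT.of_body`; `gt_small` with `Lv.lo`, `gt_top'` -/
theorem topC_step (E : Env P mem M) (h : ∀ n' < n, TopC P mem M n' ∧ SnC P mem M n') : TopC P mem M n := by
  intro r X i s c t hL hi hs hc ht
  have hN := E.good.nn_big
  have hX2 : X ≤ X * nn P ^ 2 := lad_le hN X 2
  have hB : topB P r s c ≤ X * nn P ^ 3 := topB_le E.good hL hs hc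
  unfold cTop
  refine GT.of_body E (eqs_top P _) (Y := X * nn P ^ 2)
    (by exact ⟨hL.r_nn E.good, hi.trans hX2, hs, Bx.mono hc hX2, ht.trans (hL.N_le.trans hX2)⟩)
    (hL.fit' E.good) (Y' := X * nn P ^ 3) (fun b hb => le_trans hb hB) (hL.fit' E.good) fun n' hn' => ?_
  unfold topS1 topS2 topOut
  dsimp only
  refine Body.two (St.one E (gt_small E (hL.lo E.good) (hi.trans hX2) hs.1 hs.2 E.good.F0_nn)) ?_
  rintro _ ⟨a, rfl, -⟩
  rw [rd_zero]
  by_cases h1 : a ≤ P.F0
  · rw [if_pos (Or.inl h1)]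
    refine ⟨_, St.nil E, fun r2 _ => ?_⟩
    rw [if_pos h1]
    exact ⟨a, rfl, h1.trans (le_max_left _ _)⟩
  · by_cases h2 : r = 0 ∨ P.F0 < radc c
    · rw [if_pos (Or.inr h2)]
      refine ⟨_, St.nil E, fun r2 _ => ?_⟩
      rw [if_neg h1, if_pos h2]
      refine ⟨_, rfl, le_trans ?_ (le_max_right _ _)⟩
      cases c with
      | none =>
        have h3 : 1 ≤ 2 ^ (r * P.L) := Nat.one_le_two_pow
        dsimp only [capc, Option.elim]
        omega
      | some c => exact min_le_right _ _
    · rw [if_neg (not_or.2 ⟨h1, h2⟩)]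
      have hr : 1 ≤ r := by omega
      refine ⟨_, St.one E (gt_top' E (h n' hn').1 (h n' hn').2 hL hr hi hs hc ht), ?_⟩
      rintro _ ⟨b, rfl, hb⟩
      rw [if_neg h1, if_neg h2]
      exact ⟨b, rfl, hb⟩

end Crest.Agent.R288.Sz
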