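import Crest.Agent.R288.SzsD

/-!
# R288/SzsE: bounds for pure functions: contexts, hints, common data (prefix `szse_`)

Arithmetic: `lad_step`, `lad_mul_N`, `lad_mono`, `lad_pow` (SzsA) and `omega`; `Int.natAbs_add_le`, `Int.natAbs_mul`;
sums: `List.sum_le_card_nsmul`.  `bx_list`, `bx_prod`, `bx_option` unfold boxes (all `Iff.rfl`), `bx_getD`.
-/

set_option autoImplicit false

namespace Crest.Agent.R288.Sz

open Crest.Agent.Lib.PT RT

variable {P : Par} {M X : ℕ}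

theorem cw_le {c : Ctx} (hc : bx (nn P) X c) : cw c ≤ X * nn P ^ 1 := by
  rw [cw, pow_one]
  exact (Nat.div_le_self _ _).trans (Nat.mul_le_mul hc.2.2.1 hc.2.2.2)

theorem cap_le (h : Good P) {c : Ctx} (hc : bx (nn P) X c) : cap P c ≤ X * nn P ^ 2 := lad_mul_N (cw_le hc) (h.p2_nn _)

theorem topB_le (h : Good P) {r : ℕ} (hL : Lv P M r X) {s : ℤ × ℤ} {c : Option Ctx} (hs : bx (nn P) (X * nn P ^ 2) s)
    (hc : bx (nn P) X c) : topB P r s c ≤ X * nn P ^ 3 := by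
  have h1 : 100 * (X * nn P ^ 2) ≤ X * nn P ^ 3 := lad_step h.nn_big X 2
  have h2 := lad_le h.nn_big X 2
  have h3 := h.F0_nn.trans hL.N_le
  have h4 := hL.pow_le h
  have h5 : s.1.natAbs ≤ X * nn P ^ 2 := hs.1
  have h6 : s.2.natAbs ≤ X * nn P ^ 2 := hs.2
  rw [topB]
  refine max_le (by omega) ?_
  cases c with
  | none =>
    simp only [Option.elim_none]
    omega
  | some c =>
    have := cap_le h (hc c rfl)
    simp only [Option.elim_some]
    omega

/-- value of a child without context -/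
theorem topB_none_le (h : Good P) {r : ℕ} (hL : Lv P M r X) {s : ℤ × ℤ} (hs : bx (nn P) (X * nn P ^ 7) s) :
    topB P (r - 1) s none ≤ X * nn P ^ 8 := by
  have h1 : 100 * (X * nn P ^ 7) ≤ X * nn P ^ 8 := lad_step h.nn_big X 7
  have h2 := lad_le h.nn_big X 7
  have h3 := h.F0_nn.trans hL.N_le
  have h4 : 2 ^ ((r - 1) * P.L) ≤ X :=
    (Nat.pow_le_pow_right two_pos (Nat.mul_le_mul_right _ (Nat.sub_le _ _))).trans (hL.pow_le h)
  have h5 : s.1.natAbs ≤ X * nn P ^ 7 := hs.1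
  have h6 : s.2.natAbs ≤ X * nn P ^ 7 := hs.2
  rw [topB]
  simp only [Option.elim_none]
  omega

/-- value of a child in a context -/
theorem topB_some_le (h : Good P) (hX : nn P ≤ X) (r : ℕ) (s : ℤ × ℤ) {c : Ctx} (hc : bx (nn P) (X * nn P ^ 8) c) :
    topB P r s (some c) ≤ X * nn P ^ 10 := by
  have h1 := cap_le h hc
  rw [lad_assoc] at h1
  exact max_le ((h.F0_nn.trans hX).trans (lad_le h.nn_big X 10)) h1

theorem om_bx (h : Good P) {c : Ctx} (hc : bx (nn P) X c) : bx (nn P) (X * nn P ^ 2) (om c) := by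
  have h0 := h.nn_big
  have hn : c.2.2.2.n ≤ nn P := hc.2.2.2
  have hg : c.2.2.1 ≤ X := hc.2.2.1
  have key : ∀ (z : ℤ) (a : ℕ), z.natAbs ≤ X → a < 2 * c.2.2.2.n + 1 →
      (z + (c.2.2.1 : ℤ) * ((a : ℤ) - c.2.2.2.n)).natAbs ≤ X * nn P ^ 2 := by
    intro z a hz ha
    have h1 : 100 * (X * nn P ^ 1) ≤ X * nn P ^ 2 := lad_step h0 X 1
    have h2 := lad_le h0 X 1
    have h3 : ((c.2.2.1 : ℤ) * ((a : ℤ) - c.2.2.2.n)).natAbs ≤ X * nn P ^ 1 := by
      rw [Int.natAbs_mul, Int.natAbs_natCast, pow_one]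
      exact Nat.mul_le_mul hg (by omega)
    omega
  refine ⟨?_, fun s hs => ?_⟩
  · have h1 : (om c).length = (2 * c.2.2.2.n + 1) ^ 2 := by simp [om, List.length_flatMap, sq]
    have h2 : (2 * c.2.2.2.n + 1) ^ 2 ≤ (3 * nn P) ^ 2 := Nat.pow_le_pow_left (by omega) 2
    have h3 := (lad_pow h0).2
    rw [mul_pow] at h2
    omega
  · simp only [om, List.mem_flatMap, List.mem_map, List.mem_range] at hs
    obtain ⟨a, ha, a', ha', rfl⟩ := hs
    exact ⟨key _ _ hc.1 ha, key _ _ hc.2.1 ha'⟩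

theorem sclC_le (h : Good P) {c : Ctx} (hc : bx (nn P) X c) (j : ℕ) : sclC P c j ≤ X * nn P ^ 5 := by
  refine (Nat.div_le_self _ _).trans (le_trans ?_ (lad_mono h.nn_big X (i := 2) (by norm_num)))
  exact lad_mul_N (cw_le hc) ((Nat.pow_le_pow_right two_pos (min_le_right _ _)).trans h.pownC_nn)

theorem pz_le {Z : ℕ} {pl : Plan} (hp : bx (nn P) Z pl) (j : ℕ) : (pz pl j).natAbs ≤ Z := bx_getD hp.1 j (d := (0 : ℤ)) (Nat.zero_le _)

theorem pc_bx {Z : ℕ} {pl : Plan} (hp : bx (nn P) Z pl) (j : ℕ) : bx (nn P) Z (pc pl j) := bx_getD hp.2 j ⟨Nat.zero_le _, Nat.zero_le _, Nat.zero_le _, Nat.zero_le _⟩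

theorem junc_le (h : Good P) {pl : Plan} (hp : bx (nn P) (X * nn P ^ 8) pl) {s : ℤ × ℤ}
    (hs : bx (nn P) (X * nn P ^ 2) s) : junc P pl s.1 s.2 ≤ X * nn P ^ 9 := by
  have h1 : 100 * (X * nn P ^ 8) ≤ X * nn P ^ 9 := lad_step h.nn_big X 8
  have h2 := lad_mono h.nn_big X (i := 2) (j := 8) (by norm_num)
  have h3 := pz_le hp 0
  have h4 := pz_le hp P.b
  have h5 : s.1.natAbs ≤ X * nn P ^ 2 := hs.1
  have h6 : s.2.natAbs ≤ X * nn P ^ 2 := hs.2
  simp only [junc, dist1]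
  omega

theorem szse_sum {β : Type} {l : List β} {f : β → ℕ} {B n : ℕ} (hf : ∀ a ∈ l, f a ≤ B) (hl : l.length ≤ n) :
    (l.map f).sum ≤ B * n := by
  have := List.sum_le_card_nsmul (l.map f) B fun x hx => by
    obtain ⟨a, ha, rfl⟩ := List.mem_map.1 hx
    exact hf a ha
  rw [List.length_map, smul_eq_mul, mul_comm] at this
  exact this.trans (Nat.mul_le_mul_left _ hl)

theorem cjunc_le (h : Good P) {pl : Plan} (hp : bx (nn P) (X * nn P ^ 8) pl) : cjunc P pl ≤ X * nn P ^ 10 := by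
  have h1 : 100 * (X * nn P ^ 8) ≤ X * nn P ^ 9 := lad_step h.nn_big X 8
  have h2 := h.b_nn
  have h3 : cjunc P pl ≤ X * nn P ^ 9 * nn P := by
    refine szse_sum (fun j _ => ?_) (by rw [List.length_range]; omega)
    have a1 : (pc pl j).2.1.natAbs ≤ X * nn P ^ 8 := (pc_bx hp j).2.1
    have a2 : (pc pl (j + 1)).1.natAbs ≤ X * nn P ^ 8 := (pc_bx hp (j + 1)).1
    omega
  rwa [mul_assoc, ← pow_succ] at h3

theorem cends_bx {Z : ℕ} {pl : Plan} (hp : bx (nn P) Z pl) : bx (nn P) Z (cends P pl) := ⟨(pc_bx hp _).1, (pc_bx hp _).2.1⟩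

theorem optz_le (h : Good P) {pl : Plan} (hp : bx (nn P) (X * nn P ^ 8) pl) (hb p : ℕ) {k0 : ℕ} (hk : k0 ≤ nn P ^ 2) :
    (optz P pl hb p k0).natAbs ≤ X * nn P ^ 11 := by
  have h1 : 100 * (X * nn P ^ 10) ≤ X * nn P ^ 11 := lad_step h.nn_big X 10
  have h2 := lad_mono h.nn_big X (i := 8) (j := 10) (by norm_num)
  have h3 := pz_le hp (p * P.p2 hb + P.p2 (hb - 1))
  have h4 := (lad_pow h.nn_big).1
  have h5 := h.p2_nn (P.mb - 1)
  have h6 : (((pc pl 0).2.2.1 : ℤ) * ((k0 : ℤ) - P.p2 (P.mb - 1))).natAbs ≤ X * nn P ^ 10 := by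
    rw [Int.natAbs_mul, Int.natAbs_natCast]
    exact lad_mul (i := 8) (j := 2) (pc_bx hp 0).2.2.1 (by omega)
  rw [optz]
  omega

theorem statH_bx (h : Good P) {pls : List (Option Plan)} (hp : bx (nn P) (X * nn P ^ 8) pls) :
    bx (nn P) (X * nn P ^ 12) (statH P pls) := by
  intro a ha
  obtain ⟨pl, hpl, rfl⟩ := Option.map_eq_some_iff.1 ha
  obtain ⟨o, ho, e⟩ := List.mem_filterMap.1 (List.mem_of_mem_head? (Option.mem_def.2 hpl))
  have hb : bx (nn P) (X * nn P ^ 8) pl := hp.2 o ho pl e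
  have h1 : 100 * (X * nn P ^ 11) ≤ X * nn P ^ 12 := lad_step h.nn_big X 11
  have h2 := lad_mono h.nn_big X (i := 10) (j := 11) (by norm_num)
  have h3 := cjunc_le h hb
  have h4 : ((List.range P.b).map fun j => cap P (pc pl j)).sum ≤ X * nn P ^ 10 * nn P := by
    refine szse_sum (fun j _ => ?_) (by rw [List.length_range]; exact h.b_nn)
    have := cap_le h (pc_bx hb j)
    rwa [lad_assoc] at this
  have h5 : X * nn P ^ 10 * nn P = X * nn P ^ 11 := by ring
  refine ⟨?_, Bx.mono (cends_bx hb) (lad_mono h.nn_big X (by norm_num))⟩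
  rw [bx_nat]
  omega

theorem selP_bx {Z : ℕ} {pls : List (Option Plan)} (hp : bx (nn P) Z pls) (c : Ctx) (σ : ℕ) (ds : List Drw) :
    bx (nn P) Z (selP P c σ pls ds) := by
  intro pl hpl
  obtain ⟨o, ho, e⟩ := List.mem_filterMap.1 (List.argmin_mem (Option.mem_def.2 hpl))
  exact hp.2 o ho pl e

theorem pastOut_bx {Z : ℕ} {A : List ℕ} (hA : bx (nn P) Z A) (B : List ℕ) : bx (nn P) Z (pastOut A B) := by
  refine ⟨by simpa [pastOut] using hA.1, fun v hv => ?_⟩
  obtain ⟨k, -, rfl⟩ := List.mem_map.1 hv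
  exact (min_le_left _ _).trans (bx_getD hA k (d := (0 : ℕ)) (Nat.zero_le _))

theorem fixOut_bx (h : Good P) {c : Ctx} (hc : bx (nn P) X c) {rows : List (List ℕ)} {pls : List (List (Option Plan))}
    (hr : bx (nn P) (X * nn P ^ 3) rows) (hp : bx (nn P) (X * nn P ^ 8) pls) :
    bx (nn P) (X * nn P ^ 8) (fixOut P c rows pls) := by
  have h0 := h.nn_big
  refine ⟨?_, ?_, fun l hl => ?_⟩
  · have h1 : 100 * (X * nn P ^ 6) ≤ X * nn P ^ 7 := lad_step h0 X 6
    have h2 := lad_mono h0 X (i := 1) (j := 6) (by norm_num)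
    have h3 := lad_mono h0 X (i := 7) (j := 8) (by norm_num)
    have h4 := cw_le hc
    have h5 : mn ((List.range (om c).length).map fun k => (rows.map fun row => row.getD k 0).sum) ≤
        X * nn P ^ 6 := by
      refine mn_le_of fun x hx => ?_
      obtain ⟨k, -, rfl⟩ := List.mem_map.1 hx
      have := szse_sum (l := rows) (f := fun row => row.getD k 0) (B := X * nn P ^ 3)
        (fun row hrow => bx_getD (hr.2 row hrow) k (d := (0 : ℕ)) (Nat.zero_le _)) hr.1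
      rwa [lad_assoc] at this
    have h6 := ((Nat.div_le_self _ (P.p2 (2 * P.ka))).trans (Nat.div_le_self _ P.T0)).trans h5
    rw [bx_nat]
    simp only [fixOut]
    omega
  · have h1 := lad_pow h0
    have h2 := h.nC_nn
    simp only [fixOut, List.length_map, List.length_range]
    omega
  · obtain ⟨j, -, rfl⟩ := List.mem_map.1 hl
    have h1 := bx_getD hp j (d := []) bx_nil
    refine ⟨by simpa using h1.1, fun o ho pl hpl => ?_⟩
    obtain ⟨o', ho', rfl⟩ := List.mem_map.1 ho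
    obtain ⟨pl', e1, e2⟩ := Option.bind_eq_some_iff.1 hpl
    split_ifs at e2
    obtain rfl := Option.some.inj e2
    exact h1.2 o' ho' _ e1

theorem own_bx {Z : ℕ} (c : Ctx) (s : ℤ × ℤ) {cm : Com} (hp : bx (nn P) Z cm.2.2.1) (j : ℕ) :
    bx (nn P) Z (own c s cm j) := bx_getD (bx_getD hp j bx_nil) _ bx_none

theorem ctxOut_le_cap (P : Par) (c : Ctx) (s : ℤ × ℤ) (cm : Com) (xs : List ℕ) : ctxOut P c s cm xs ≤ cap P c := (omin_le_left _ _).trans ((omin_le_left _ _).trans (omin_le_left _ _))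

end Crest.Agent.R288.Sz
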