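import Crest.Agent.R288.SzsB
import Crest.Agent.R288.SzsE

/-!
# R288/SzsL: sizes in the small mode (prefix `szsl_`)

Pattern (see `gt_small` in SzsF for a complete example): unfold the call (`unfold cX`), `refine GT.of_body' E (eqs_x P _) (Y := …) (box of the
arguments: `by simp; omega`-like, or `by exact ⟨_, _, …⟩`) (fit: `hL.fit' E.good`) (Y' := …) (box of the result) (fit) ?_`, then
`Body.one E (St.… ) fun r1 hr => …` or `Body.two`; stages by `St.nil/one/two/three/hom`; weaken with `GT.imp`, `GT.mono`;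
boxes grow with `Bx.mono h (lad_mono …)`.
-/

set_option autoImplicit false

namespace Crest.Agent.R288.Sz

open Crest.Agent.Lib.PT RT

variable {P : Par} {mem : ℕ → ℕ} {M n : ℕ}

/-- `GT.of_body` (arguments in the box `X N ^ 11`, result `≤ 2 ^ L · X N ^ 10 ≤ X N ^ 11`); three cases: `hb = 0` (a child,
`pc_bx`, `topB_some_le`), `q = 0` (`St.two`, `optz_le`, `mb_nn`), otherwise `St.three` (`gt_vec`, `gt_avg`, `gt_rnd`, `rnk_le_sz`,
`nIn_nn`, `qbits_nn`); an option has `k0' + (q - 1) N ≤ k0 + q N`. -/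
theorem snC_step (E : Env P mem M) (h : ∀ n' < n, TopC P mem M n' ∧ SnC P mem M n') : SnC P mem M n := by
  intro r X i pl hb p s k0 q t hL hr hi hp hhb hpp hs hk ht
  have G := E.good
  have hN := G.nn_big
  have hX := hL.N_le
  have hL2 := G.powL_nn
  have hLn := G.L_nn
  have h11 := lad_le hN X 11
  have hN2 : nn P ^ 2 ≤ X * nn P ^ 11 := by
    calc nn P ^ 2 = nn P * nn P ^ 1 := by ring
      _ ≤ X * nn P ^ 1 := Nat.mul_le_mul_right _ hX
      _ ≤ X * nn P ^ 11 := lad_mono hN X (by norm_num)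
  have hpN : p ≤ nn P := by
    have : 2 ^ (P.L - hb) ≤ 2 ^ P.L := Nat.pow_le_pow_right (by norm_num) (Nat.sub_le _ _)
    omega
  have hq : q ≤ nn P := by
    have h1 : q * nn P ≤ nn P * nn P := by rw [← sq]; omega
    exact Nat.le_of_mul_le_mul_right h1 (by omega)
  have hres : 2 ^ hb * (X * nn P ^ 10) ≤ X * nn P ^ 11 := by
    have h1 : 2 ^ hb ≤ nn P := (Nat.pow_le_pow_right (by norm_num) hhb).trans hL2
    rw [mul_comm]
    exact lad_mul_N le_rfl h1
  have hfit : X * nn P ^ 11 < 2 ^ M := hL.fit' G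
  have hN3 : nn P ≤ nn P ^ 3 := by
    have := lad_pow hN
    omega
  unfold cSN
  refine GT.of_body E (eqs_sn P _) (Y := X * nn P ^ 11)
    (by
      exact ⟨hL.r_nn G, hi.trans h11, Bx.mono hp (lad_mono hN X (by norm_num)),
        hhb.trans (hLn.trans (hX.trans h11)), hpN.trans (hX.trans h11), hs,
        (Nat.le_add_right _ _).trans (hk.trans hN2), hq.trans (hX.trans h11), ht.trans (hX.trans h11)⟩)
    hfit (Y' := X * nn P ^ 11) (fun b hb' => hb'.trans hres) hfit fun n' hn' => ?_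
  obtain ⟨hT, hS⟩ := h n' hn'
  unfold snS1 snS2 snOut
  dsimp only
  by_cases h0 : hb = 0
  · subst h0
    simp only [if_true, true_or]
    have hc : bx (nn P) (X * nn P ^ 8) (pc pl p) := pc_bx hp p
    have h1 := hT (r - 1) (X * nn P ^ 12) (i * P.b + p) s (some (pc pl p)) t (hL.down G hr) (hL.child G hi hpN)
      (Bx.mono hs (by rw [lad_assoc]; exact lad_mono hN X (by norm_num)))
      ((bx_some _).2 (Bx.mono hc (lad_mono hN X (by norm_num)))) ht
    refine Body.one E (St.one E h1) ?_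
    rintro _ ⟨a, rfl, ha⟩
    refine ⟨rfl, a, rfl, ?_⟩
    rw [pow_zero, one_mul]
    exact ha.trans (topB_some_le G hX _ _ hc)
  by_cases hq0 : q = 0
  · subst hq0
    simp only [h0, if_false, if_true, or_true]
    have hz := optz_le G hp hb p (k0 := k0) (by omega)
    have hm : 0 + P.mb * nn P ≤ nn P ^ 2 := by
      rw [zero_add, sq]
      exact Nat.mul_le_mul_right _ G.mb_nn
    have hpw : 2 ^ (P.L - (hb - 1)) = 2 * 2 ^ (P.L - hb) := by
      rw [show P.L - (hb - 1) = P.L - hb + 1 by omega, pow_succ']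
    have h1 := hS r X i pl (hb - 1) (2 * p) (s.1, optz P pl hb p k0) 0 P.mb t hL hr hi hp (by omega) (by omega)
      ⟨hs.1, hz⟩ hm ht
    have h2 := hS r X i pl (hb - 1) (2 * p + 1) (optz P pl hb p k0, s.2) 0 P.mb t hL hr hi hp (by omega) (by omega)
      ⟨hz, hs.2⟩ hm ht
    refine Body.one E (St.two E h1 h2) ?_
    rintro _ ⟨a, b, rfl, ha, hb'⟩
    refine ⟨rfl, a + b, by rw [rd_zero, rd_one], ?_⟩
    have e : 2 ^ hb = 2 * 2 ^ (hb - 1) := by
      rw [← pow_succ']
      congr 1
      omega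
    rw [e, mul_assoc]
    omega
  · simp only [h0, hq0, if_false, or_self]
    have hopt : ∀ (o : Bool) (t' : ℕ), t' ≤ nn P →
        GT P mem M n' 20 (snOpt P (⟨r⟩, i, pl, hb, p, s, k0, q, t) o t')
          fun v : ℕ => v ≤ 2 ^ hb * (X * nn P ^ 10) := by
      intro o t' ht'
      unfold snOpt
      dsimp only
      refine hS r X i pl hb p s _ (q - 1) t' hL hr hi hp hhb hpp hs ?_ ht'
      have h1 := G.p2_nn (q - 1)
      have h2 : q * nn P = (q - 1) * nn P + nn P := by
        rw [← Nat.succ_mul]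
        congr 1
        omega
      split_ifs <;> omega
    have hvec : ∀ o : Bool, GT P mem M n' (20 + 2 + 2)
        (cVec ((List.range (nIn P t)).map fun k =>
          cAvg (snOpt P (⟨r⟩, i, pl, hb, p, s, k0, q, t) o (rnk P t k)) P.kP))
        fun l : List ℕ => l.length = ((List.range (nIn P t)).map fun k =>
          cAvg (snOpt P (⟨r⟩, i, pl, hb, p, s, k0, q, t) o (rnk P t k)) P.kP).length ∧
            ∀ b ∈ l, b ≤ 2 ^ hb * (X * nn P ^ 10) := by
      intro o
      refine gt_vec E (fun k hk' => ?_) (by simpa using (G.nIn_nn t).trans hN3)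
      obtain ⟨j, hj, rfl⟩ := List.mem_map.1 hk'
      exact gt_avg E (hopt o _ ((G.rnk_le_sz (List.mem_range.1 hj)).trans ht)) (hres.trans_lt hfit) G.kP_nn
    refine Body.two (St.three E (hvec false) (hvec true) (gt_rnd E (G.qbits_nn _))) fun r1 _ => ?_
    refine ⟨_, St.one E (hopt _ t ht), ?_⟩
    rintro _ ⟨a, rfl, ha⟩
    exact ⟨a, rfl, ha⟩

end Crest.Agent.R288.Sz
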