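import Crest.Agent.R288.CstB
import Crest.Agent.R288.RTa
import Crest.Agent.R288.SzsK
import Crest.Agent.R288.SzsL

/-!
# R288: sizes of calls and results

Suggested proof: `Scheme.szb_of_inv` with an inductive predicate `OkR : Call → (V → Prop) → Prop`
(`Ok k := ∃ Q, OkR k Q`, `Res k v := ∀ Q, OkR k Q → Q v`, or any other design), one constructor per kind of call.
Boxes: let `A = 8 hh + 8 kP`, `box r = 2 ^ (A (H - r + 1))`.  In a call at block level `r ≤ H` all offsets, all
components of contexts (`|c.1|, |c.2.1|, c.2.2.1`), scales and indices are bounded by `box r · 2^(O(kP))`, radii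
`c.2.2.2.n ≤ 2^kP`, times `≤ T`, `i < 2^(L (H - r))`.  Results: `cTop … none` returns a number
`≤ max F0 (2^(rL) + |s.2 - s.1|)` (minimum with the average of the previous round; `orcOut`), `cTop … (some c)` a number
`≤ max F0 (cap P c)`; scales are `≤ 2^nS ·` such numbers, the grid `zgrid P α σ` lies in `|α| + 5σ`, plans have
boundaries in the grid (or rounded ends), `b + 1` boundaries and at most `b` contexts `ctxAt`; `cSN` returns a sum
of at most `2^hb` values of children.  The gap tests have their own invariant (offsets and thresholds grow by a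
factor `≤ 16` per level, `e ≤ 2 hh`), rows have length `2κ + 1` (`κ ≤ 2^kP`) with entries `≤ κ + 1`, symbols are
`< 2^w`.  Every list has length `≤ 2^(4 kP)`, nesting depth is bounded, `hh ≤ 2^kP`.
-/

set_option autoImplicit false

namespace Crest.Agent.R288

open Crest.Agent.Lib.PT RT Sz

theorem szs_claims {P : Par} {mem : ℕ → ℕ} {M : ℕ} (E : Env P mem M) (n : ℕ) : TopC P mem M n ∧ SnC P mem M n := by
  induction n using Nat.strong_induction_on with
  | _ n ih => exact ⟨topC_step E ih, snC_step E ih⟩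

theorem szb_root : ∃ C d : ℕ, ∀ (P : Par) (mem : ℕ → ℕ) (w n c : ℕ), Good P → (∀ a, mem a < 2 ^ w) →
    alg.Cst P n c (root P) →
    sz P ≤ C * (2 ^ P.kP + w + 1) ^ d ∧
    alg.Szb P (realPrim P mem) (C * (2 ^ P.kP + w + 1) ^ d) n (root P) ∧
      (alg.eval P (realPrim P mem) n (root P)).All fun v => (dec v : ℕ) ≤ 2 ^ (2 * P.hh + 1) := by
  refine ⟨1, 120, fun P mem w n c h hw hc => ?_⟩
  have hN := h.nn_big
  have h1 : nn P ≤ 2 ^ P.kP + w + 1 := by
    unfold nn
    omega
  have h0 : w ≤ 2 ^ P.kP + w + 1 := (Nat.le_add_left _ _).trans (Nat.le_succ _)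
  generalize 2 ^ P.kP + w + 1 = U at h0 h1 ⊢
  have h2 : U ≤ U ^ 3 := Nat.le_self_pow (by norm_num) _
  have E : Env P mem (U ^ 3) := ⟨h, Nat.pow_le_pow_left h1 3, fun a => (hw a).trans_le
    (Nat.pow_le_pow_right (by norm_num) (by omega))⟩
  have hL := lv_root h E.big
  have hlt := h.N_lt
  have h3 : 2 ^ P.hh ≤ 2 ^ (2 * P.hh) := Nat.pow_le_pow_right (by norm_num) (by omega)
  have h4 := hL.h_le
  have h5 := lad_le hN (nn P ^ (2 * P.hh)) 2
  have h6 : ((P.2.1 : ℤ) - P.1).natAbs ≤ 2 ^ P.hh := by omega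
  have h7 := ((szs_claims E n).1 P.H _ 0 (0, (P.2.1 : ℤ) - P.1) none P.T hL (Nat.zero_le _)
    ⟨Nat.zero_le _, h6.trans (by omega)⟩ bx_none h.T_nn).run n le_rfl c hc
  have h8 : (U ^ 3) ^ 40 = 1 * U ^ 120 := by rw [← pow_mul, one_mul]
  refine ⟨?_, h8 ▸ h7.1, h7.2.mono ?_⟩
  · have a1 : sz P.1 ≤ 4 * P.hh + 1 := sz_nat_le_of_lt (by omega)
    have a2 : sz P.2.1 ≤ 4 * P.hh + 1 := sz_nat_le_of_lt (by omega)
    have a3 := h.hh_nn
    have a4 := (lad_pow hN).1
    have a5 : nn P ^ 2 ≤ U ^ 2 := Nat.pow_le_pow_left h1 2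
    have a6 : U ^ 2 ≤ U ^ 120 := Nat.pow_le_pow_right (by omega) (by norm_num)
    rw [sz_prod, sz_prod, sz_un, h.pad_nn]
    omega
  · rintro _ ⟨b, rfl, hb, -⟩
    have a1 := h.F0_hh_sz
    have a2 : 2 ^ (P.H * P.L) ≤ 2 ^ (2 * P.hh) := Nat.pow_le_pow_right (by norm_num) h.HL_le
    simp only [topB, Option.elim, sub_zero] at hb
    rw [dec_enc, pow_succ]
    omega

end Crest.Agent.R288
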