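import Crest.Agent.R288.FinA
import Crest.Agent.R288.Ram2
import Crest.Agent.R288.Mach
import Crest.Agent.R288.PTd
import Crest.Agent.R288.PTe
import Crest.Agent.R288.PTf
import Crest.Agent.R288.PTg
import Crest.Agent.R288.Sem
import Crest.Agent.R288.SemG
import Crest.Agent.R288.Szs

/-!
# R288: final assembly
-/

set_option autoImplicit false

namespace Crest.Agent.R288

open Crest.Agent.Lib.PT Crest.WordRAM Crest.GraphRAM RT
open Crest.Agent.R309 (Ex Pr ind)

/-- What the analysis of the model delivers. -/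
def AnaOk : Prop := ∀ (M : Model) (P : Par), M.Ok P → M.Ratio P P.T (1 + 3 * eta P) ∧
  ∀ r ≤ P.H, ∀ i s t, (M.top r i s none t).All fun v => M.Fr P r i s ≤ v

theorem fin_markov {t : RT ℕ} {F : ℕ} {η ε : ℝ} (hε : 0 < ε) (hη : 18 * η ≤ ε)
    (h1 : t.All fun v => F ≤ v) (h2 : t.mean ≤ (1 + 3 * η) * F) :
    5 / 6 ≤ t.P fun v => F ≤ v ∧ (v : ℝ) ≤ (1 + ε) * F := by
  have h0 : t.All fun v => 0 ≤ (v : ℝ) - F := h1.mono fun v hv => sub_nonneg.2 (Nat.cast_le.2 hv)
  have e : (t.E fun v => (v : ℝ) - F) = t.mean - F := by rw [E_sub, E_const]; rfl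
  have key : (t.P fun v => ¬ (F ≤ v ∧ (v : ℝ) ≤ (1 + ε) * F)) ≤ 1 / 6 := by
    rcases Nat.eq_zero_or_pos F with rfl | hF
    · have := markov h0 (c := 1) one_pos
      rw [e] at this
      refine (P_mono (All_of_forall t fun v hv => ?_)).trans (this.trans ?_)
      · have : v ≠ 0 := fun h => hv (by simp [h])
        have : (1 : ℝ) ≤ v := by exact_mod_cast Nat.one_le_iff_ne_zero.2 this
        simpa using this
      · simp only [Nat.cast_zero, mul_zero] at h2 ⊢
        linarith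
    · have hF' : (0 : ℝ) < F := by exact_mod_cast hF
      have := markov h0 (c := ε * F) (by positivity)
      rw [e] at this
      refine (P_mono (h1.mono fun v hv hv' => ?_)).trans (this.trans ?_)
      · have : (1 + ε) * F < v := not_le.1 fun h => hv' ⟨hv, h⟩
        linarith
      · rw [div_le_iff₀ (by positivity)]
        nlinarith
  rw [P_not] at key
  linarith

theorem fin_ind01 (p : Prop) : 0 ≤ ind p ∧ ind p ≤ 1 := by
  unfold ind
  split_ifs <;> norm_num

/-- The success probability of the scheme. -/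
theorem fin_succ (hA : AnaOk) {P : Par} {mem : ℕ → ℕ} {x y : List ℕ} (hP : Good P)
    (hm : MemOk P mem x y) {n c : ℕ} (hc : alg.Cst P n c (root P)) (hc2 : c ≤ 2 ^ (2 * P.hh))
    {ε : ℝ} (hε : 0 < ε) (hη : 18 * eta P ≤ ε) :
    2 / 3 ≤ (alg.eval P (realPrim P mem) n (root P)).E fun u =>
      ind (editDist x y ≤ (dec u : ℕ) ∧ ((dec u : ℕ) : ℝ) ≤ (1 + ε) * editDist x y) := by
  rw [← Scheme.ev_eq_eval (realPrim_ne_none P mem) hc]
  have h1 := ideal_hybrid hP hm hc (fun u =>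
    ind (editDist x y ≤ (dec u : ℕ) ∧ ((dec u : ℕ) : ℝ) ≤ (1 + ε) * editDist x y))
    fun u => fin_ind01 _
  obtain ⟨a1, a2⟩ := hA _ P (theModel_ok hP hm)
  have hx : x.length ≤ 2 ^ (P.H * P.L) := by
    have := hP.N_lt
    have := Nat.pow_le_pow_right (show 0 < 2 by norm_num) hP.hh_le_HL
    have := hm.hx
    omega
  have hF : (theModel P mem x y).Fr P P.H 0 (0, (P.2.1 : ℤ) - P.1) = editDist x y := by
    show FF x y (P.H * P.L) 0 0 ((P.2.1 : ℤ) - P.1) = _
    rw [hm.hx, hm.hy]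
    exact FF_root x y hx
  have b1 := a1 P.H le_rfl 0 (0, (P.2.1 : ℤ) - P.1)
  have b2 := a2 P.H le_rfl 0 (0, (P.2.1 : ℤ) - P.1) P.T
  rw [hF] at b1 b2
  have b3 := fin_markov hε hη b2 b1
  have b4 : ((theModel P mem x y).top P.H 0 (0, (P.2.1 : ℤ) - P.1) none P.T) =
      (alg.ev P (idealPrim P mem x y) (root P)).map dec := rfl
  rw [b4, P_map] at b3
  have b5 : (c : ℝ) * (1 / 2) ^ (3 * P.hh) ≤ 1 / 6 := by
    have c1 : (c : ℝ) ≤ 2 ^ (2 * P.hh) := by exact_mod_cast hc2
    have c2 : 3 ≤ P.hh := by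
      have := hP.aux_ll_hh
      have := fin_jj_ll hP
      have := hP.big
      omega
    have c3 : (2 : ℝ) ^ 3 ≤ 2 ^ P.hh := pow_le_pow_right₀ (by norm_num) c2
    rw [show 3 * P.hh = 2 * P.hh + P.hh by ring, one_div, inv_pow, pow_add, ← div_eq_mul_inv,
      div_le_iff₀ (by positivity)]
    have c4 : (0 : ℝ) < 2 ^ (2 * P.hh) := by positivity
    nlinarith
  unfold RT.P at b3
  linarith

theorem fin_memOk (x y e : List ℕ) (u : Un) :
    MemOk (x.length, y.length, u) (fun a => (stringsInput x y ++ e).getD a 0) x y := by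
  refine ⟨rfl, rfl, fun l h => ?_, fun l h => ?_⟩
  · rw [show 2 + l = l + 1 + 1 by omega]
    simp only [stringsInput, List.cons_append, List.getD_eq_getElem?_getD, List.getElem?_cons_succ,
      List.append_assoc]
    rw [List.getElem?_append_left h, List.getElem?_eq_getElem h, Option.getD_some]
  · rw [show 2 + x.length + l = x.length + l + 1 + 1 by omega]
    simp only [stringsInput, List.cons_append, List.getD_eq_getElem?_getD, List.getElem?_cons_succ,
      List.append_assoc]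
    rw [List.getElem?_append_right (by omega), Nat.add_sub_cancel_left,
      List.getElem?_append_left h, List.getElem?_eq_getElem h, Option.getD_some]

/-- The program, with explicit bounds in the fast regime. -/
theorem fin_prog (hA : AnaOk) : ∃ (C d C1 C2 c0 : ℕ) (Pg : Program), 64 ≤ c0 ∧
    ∀ (x y e : List ℕ) (w : ℕ), (∀ a ∈ stringsInput x y ++ e, a < 2 ^ w) →
      ((stringsInput x y ++ e).length + 2) ^ 3 ≤ 2 ^ w → 4 ≤ e.length →
      (¬ Fast c0 (x.length + y.length) e.length →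
        ∃ T, ∀ ρ, HaltsWithin Pg w ρ (stringsInput x y ++ e) T [editDist x y]) ∧
      (Fast c0 (x.length + y.length) e.length → ∀ P : Par,
        P = (x.length, y.length, ⟨tgt (x.length, y.length)⟩) →
        (∀ ρ, ∃ v, HaltsWithin Pg w ρ (stringsInput x y ++ e) (C * (2 ^ P.kP + w + 1) ^ d *
          (C1 * (2 ^ (P.hh + C2 * (P.hh / P.jj)) + 2 ^ P.kP + 1) + 1)) [v] ∧ (x = y → v = 0)) ∧
        ∀ ε : ℝ, 1 / 2 ^ e.length ≤ ε → 2 / 3 ≤ probHaltsWith Pg w (stringsInput x y ++ e) fun out =>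
          ∃ D : ℕ, out = [D] ∧ editDist x y ≤ D ∧ (D : ℝ) ≤ (1 + ε) * editDist x y) := by
  obtain ⟨m, C1, m1, m2, m3, hm⟩ := scheme_rm alg algS1_pt algS2_pt algOut_pt tgt tgt_pt root root_pt
  obtain ⟨c, d, hR⟩ := ram_main2 m m1 m2 m3
  obtain ⟨C2, hC⟩ := cst_root
  obtain ⟨Cs, ds, hS⟩ := szb_root
  obtain ⟨C, D, hCD⟩ := R309.RamAux.exists_poly
    (f := fun X => c * (C1 * (X + 1) * (Cs * X ^ ds + 1) ^ 2 + X + 1) ^ d + 1) (by fun_prop)
  obtain ⟨c1, hc1⟩ := fin_space (C * 2 ^ D) D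
  obtain ⟨Pg, hR⟩ := hR (64 + c1 + C2)
  refine ⟨C * 2 ^ D, D, C1, C2, 64 + c1 + C2, Pg, by omega, fun x y e w hinp hlen h4 => ?_⟩
  have hlen' : (stringsInput x y ++ e).length = 2 + x.length + y.length + e.length := by
    simp only [stringsInput, List.length_append, List.length_cons]; omega
  obtain ⟨hslow, hfast⟩ := hR x y e w hinp hlen (by omega)
  refine ⟨hslow, fun hF P hPe => ?_⟩
  have hP : Good P := hPe ▸ good_of_fast (by omega) hF
  have hMem : MemOk P (fun a => (stringsInput x y ++ e).getD a 0) x y := hPe ▸ fin_memOk x y e _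
  have hjj : e.length + (64 + c1 + C2) ≤ P.jj := by
    rw [hPe]; unfold Par.jj Par.ll; exact hF
  have hmem : ∀ a, (stringsInput x y ++ e).getD a 0 < 2 ^ w := fun a => by
    rw [List.getD_eq_getElem?_getD]
    cases h : (stringsInput x y ++ e)[a]? with
    | none => simp
    | some b => exact hinp b (List.mem_of_getElem? h)
  have hc := hC P hP
  obtain ⟨s1, s2, s3⟩ := hS P _ w _ _ hP hmem hc
  obtain ⟨r1, r2, r3, r4, r5⟩ := hm (fun a => (stringsInput x y ++ e).getD a 0) P _ _ _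
    (by rw [hPe]; rfl) hc s2 s1
  have hx := hMem.hx
  have hy := hMem.hy
  have hsp := hc1 P hP (by omega) (stringsInput x y ++ e).length w (by omega) hlen
  set X := 2 ^ P.kP + w + 1 with hX
  set B := C1 * (2 ^ P.kP + 1) * (Cs * X ^ ds + 1) ^ 2 with hB
  have hK : c * (B + w + 1) ^ d + 1 ≤ C * 2 ^ D * X ^ D := by
    have a0 : 2 ^ P.kP + 1 ≤ X + 1 ∧ w ≤ X ∧ X + 1 ≤ 2 * X := by
      rw [hX]; generalize 2 ^ P.kP = z; omega
    have a2 : B + w + 1 ≤ C1 * (X + 1) * (Cs * X ^ ds + 1) ^ 2 + X + 1 :=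
      Nat.add_le_add_right (Nat.add_le_add (Nat.mul_le_mul_right _ (Nat.mul_le_mul_left _ a0.1))
        a0.2.1) _
    have a3 := Nat.mul_le_mul_left c (Nat.pow_le_pow_left a2 d)
    have a4 : C * (X + 1) ^ D ≤ C * 2 ^ D * X ^ D := by
      rw [mul_assoc, ← mul_pow]
      exact Nat.mul_le_mul_left _ (Nat.pow_le_pow_left a0.2.2 D)
    exact (Nat.add_le_add_right a3 1).trans ((hCD X).trans a4)
  have hfast' := hfast hF B r1 (fun l => (r2 l).trans (by omega)) (by omega)
  rw [hP.pad] at r4 r5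
  set n := C1 * (2 ^ (P.hh + C2 * (P.hh / P.jj)) + 2 ^ P.kP + 1) with hn
  have hw1 : 1 ≤ w := by
    by_contra h
    obtain rfl : w = 0 := by omega
    have : 2 ^ 3 ≤ ((stringsInput x y ++ e).length + 2) ^ 3 := Nat.pow_le_pow_left (by omega) 3
    omega
  have hv : 2 ^ (2 * P.hh + 1) < 2 ^ w := by
    refine lt_of_lt_of_le ?_ hlen
    have a1 := hP.N_ge
    have a2 : 1 ≤ P.hh := by have := hP.aux_ll_hh; omega
    have a3 : 2 ^ (2 * P.hh + 1) = 8 * (2 ^ (P.hh - 1)) ^ 2 := by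
      rw [← pow_mul, show 2 * P.hh + 1 = 3 + (P.hh - 1) * 2 by omega, pow_add]
      norm_num
    have a4 : (2 ^ (P.hh - 1) + 8) ^ 3 ≤ ((stringsInput x y ++ e).length + 2) ^ 3 :=
      Nat.pow_le_pow_left (by omega) 3
    rw [a3]
    refine lt_of_lt_of_le ?_ a4
    generalize 2 ^ (P.hh - 1) = z
    nlinarith [Nat.zero_le (z ^ 3), Nat.zero_le (z ^ 2), Nat.zero_le z]
  have hrun : ∀ (ρ : ℕ → ℕ) (v : ℕ), m.fin (m.go (fun a => (stringsInput x y ++ e).getD a 0)
      ((List.range n).map fun i => (ρ i % 2 ^ w).bodd)) = some v →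
      HaltsWithin Pg w ρ (stringsInput x y ++ e) (C * 2 ^ D * X ^ D * (n + 1)) [v] := by
    intro ρ v hfin
    obtain ⟨u, hu, rfl⟩ := r3 _ v hfin _ s3
    obtain ⟨h3, h4⟩ := hfast' ρ n _ (hu.trans_lt hv) hfin
    have h5 := R309.rp_run_of_halted h3
      (Nat.mul_le_mul_right (n + 1) ((Nat.le_succ _).trans hK))
    exact ⟨h5 ▸ h3, h5 ▸ h4⟩
  refine ⟨fun ρ => ?_, fun ε hε => ?_⟩
  · obtain ⟨v, hfin⟩ := Option.isSome_iff_exists.1
      (r4 ((List.range n).map fun i => (ρ i % 2 ^ w).bodd) (by simp))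
    refine ⟨v, hrun ρ v hfin, fun hxy => ?_⟩
    obtain ⟨u, hu, rfl⟩ := r3 _ v hfin (fun u => (dec u : ℕ) = 0) (by
      rw [← Scheme.ev_eq_eval (realPrim_ne_none P _) hc, ev_root_zero hP hMem hxy]
      simp)
    exact hu
  · have hε0 : 0 < ε := lt_of_lt_of_le (by positivity) hε
    have hη : 18 * eta P ≤ ε := by
      refine le_trans ?_ hε
      unfold eta
      have a1 : (2 : ℝ) ^ (e.length + 5) ≤ 2 ^ P.jj := pow_le_pow_right₀ (by norm_num) (by omega)
      rw [mul_one_div, div_le_div_iff₀ (by positivity) (by positivity)]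
      rw [pow_add] at a1
      have : (0 : ℝ) < 2 ^ e.length := by positivity
      linarith
    have hc2 : 2 ^ (P.hh + C2 * (P.hh / P.jj)) ≤ 2 ^ (2 * P.hh) := by
      refine Nat.pow_le_pow_right (by norm_num) ?_
      have : C2 * (P.hh / P.jj) ≤ P.hh :=
        (Nat.mul_le_mul_right _ (by omega)).trans (Nat.mul_div_le P.hh P.jj)
      omega
    refine (fin_succ hA hP hMem hc hc2 hε0 hη).trans ?_
    rw [← r5 fun v => ind (editDist x y ≤ v ∧ (v : ℝ) ≤ (1 + ε) * editDist x y)]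
    refine le_trans (le_of_eq ?_) (fin_prob hw1 (n := n) (T := C * 2 ^ D * X ^ D * (n + 1))
      ((Nat.le_succ n).trans (Nat.le_mul_of_pos_left _ (lt_of_lt_of_le (Nat.succ_pos _) hK)))
      (fun l => ∃ v, m.fin (m.go (fun a => (stringsInput x y ++ e).getD a 0) l) = some v ∧
        editDist x y ≤ v ∧ (v : ℝ) ≤ (1 + ε) * editDist x y) _ ?_)
    · unfold Pr
      congr 1
      funext l
      beta_reduce
      generalize m.fin (m.go (fun a => (stringsInput x y ++ e).getD a 0) l) = o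
      cases o with
      | none => simp [ind]
      | some v => simp
    · rintro ρ ⟨v, hfin, hv⟩
      exact ⟨[v], hrun ρ v hfin, v, rfl, hv⟩

theorem fin_fast {c0 E j N : ℕ} (h : 2 ^ 2 ^ 2 ^ (E + c0 + j) ≤ N) :
    E + c0 + j ≤ Nat.log 2 (Nat.log 2 (Nat.log 2 N)) :=
  Nat.le_log_of_pow_le (by norm_num) (Nat.le_log_of_pow_le (by norm_num)
    (Nat.le_log_of_pow_le (by norm_num) h))

/-- The statement, from the analysis of the model. -/
theorem fin_main (hA : AnaOk) :
    ∃ P : Crest.WordRAM.Program, ∀ (a : ℕ) (ε : ℚ), 0 < ε → ε < 1 →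
      (∀ x y : List ℕ, (∀ s ∈ x ++ y, s < (x.length + y.length + 2) ^ a) →
        2 / 3 ≤ Crest.WordRAM.probHaltsWith P ((a + 3) * Nat.clog 2 ((stringsInput x y ++ ratWords ε).length + 2))
            (stringsInput x y ++ ratWords ε)
            (fun out => ∃ D : ℕ, out = [D] ∧ editDist x y ≤ D ∧
              (D : ℝ) ≤ (1 + (ε : ℝ)) * editDist x y)) ∧
      (∀ x y : List ℕ, (∀ s ∈ x ++ y, s < (x.length + y.length + 2) ^ a) → x = y →
        ∀ ρ : ℕ → ℕ, ∃ T : ℕ, Crest.WordRAM.HaltsWithin P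
            ((a + 3) * Nat.clog 2 ((stringsInput x y ++ ratWords ε).length + 2)) ρ
            (stringsInput x y ++ ratWords ε) T [0]) ∧
      ∀ δ : ℝ, 0 < δ → ∃ N₀ : ℕ, ∀ x y : List ℕ, N₀ ≤ x.length + y.length →
        (∀ s ∈ x ++ y, s < (x.length + y.length + 2) ^ a) →
        Crest.WordRAM.expectedTime P ((a + 3) * Nat.clog 2 ((stringsInput x y ++ ratWords ε).length + 2))
            (stringsInput x y ++ ratWords ε)
          ≤ ENNReal.ofReal (((x.length + y.length : ℕ) : ℝ) ^ (1 + δ)) := by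
  obtain ⟨C, d, C1, C2, c0, Pg, hc0, H⟩ := fin_prog hA
  refine ⟨Pg, fun a ε h0 h1 => ?_⟩
  have h4 := fin_rat_four h0 h1
  have hlen : ∀ x y : List ℕ, (stringsInput x y ++ ratWords ε).length =
      2 + x.length + y.length + (ratWords ε).length := fun x y => by
    simp only [stringsInput, List.length_append, List.length_cons]; omega
  have hpow : ∀ L : ℕ, (L + 2) ^ (a + 3) ≤ 2 ^ ((a + 3) * Nat.clog 2 (L + 2)) := fun L => by
    rw [mul_comm, pow_mul]
    exact Nat.pow_le_pow_left (Nat.le_pow_clog (by norm_num) _) _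
  have hw3 : ∀ L : ℕ, (L + 2) ^ 3 ≤ 2 ^ ((a + 3) * Nat.clog 2 (L + 2)) := fun L =>
    (Nat.pow_le_pow_right (by omega) (by omega)).trans (hpow L)
  have hw1 : ∀ L : ℕ, 1 ≤ (a + 3) * Nat.clog 2 (L + 2) := fun L =>
    Nat.mul_pos (by omega) (Nat.clog_pos (by norm_num) (by omega))
  have H' := fun (x y : List ℕ) (hs : ∀ s ∈ x ++ y, s < (x.length + y.length + 2) ^ a) =>
    H x y (ratWords ε) ((a + 3) * Nat.clog 2 ((stringsInput x y ++ ratWords ε).length + 2)) (by
      intro b hb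
      have e1 := hlen x y
      have e2 : (stringsInput x y ++ ratWords ε).length + 2 ≤
          ((stringsInput x y ++ ratWords ε).length + 2) ^ 3 := Nat.le_self_pow (by norm_num) _
      have e3 := hw3 (stringsInput x y ++ ratWords ε).length
      rcases List.mem_append.1 hb with hb | hb
      · simp only [stringsInput, List.mem_cons] at hb
        rcases hb with rfl | rfl | hb
        · omega
        · omega
        · refine (hs b hb).trans_le (le_trans ?_ (hpow _))
          exact (Nat.pow_le_pow_left (by omega) a).trans (Nat.pow_le_pow_right (by omega) (by omega))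
      · have := fin_rat_mem ε b hb
        omega) (hw3 _) h4
  refine ⟨fun x y hs => ?_, fun x y hs hxy ρ => ?_, fun δ hδ => ?_⟩
  · by_cases hF : Fast c0 (x.length + y.length) (ratWords ε).length
    · exact (((H' x y hs).2 hF _ rfl).2 ε (fin_rat_ge h0))
    · obtain ⟨T, hT⟩ := (H' x y hs).1 hF
      refine le_trans ?_ (fin_prob (hw1 _) (Nat.zero_le T) (fun _ => True) _ fun ρ _ =>
        ⟨_, hT ρ, _, rfl, le_rfl, ?_⟩)
      · simp only [Pr, Ex, ind, if_true]; norm_num
      · have : (0 : ℝ) < ε := by exact_mod_cast h0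
        have : (0 : ℝ) ≤ editDist x y := Nat.cast_nonneg _
        nlinarith
  · by_cases hF : Fast c0 (x.length + y.length) (ratWords ε).length
    · obtain ⟨v, hv, hv0⟩ := ((H' x y hs).2 hF _ rfl).1 ρ
      exact ⟨_, hv0 hxy ▸ hv⟩
    · obtain ⟨T, hT⟩ := (H' x y hs).1 hF
      refine ⟨T, ?_⟩
      have := hT ρ
      rwa [show editDist x y = 0 by rw [hxy]; exact editDist_self y] at this
  · obtain ⟨j0, hj0⟩ := fin_total C d C1 C2 a hδ
    refine ⟨2 ^ 2 ^ 2 ^ ((ratWords ε).length + c0 + j0), fun x y hN hs => ?_⟩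
    have hj := fin_fast hN
    have hF : Fast c0 (x.length + y.length) (ratWords ε).length := by unfold Fast; omega
    have hP := good_of_fast hc0 hF
    have hrun := ((H' x y hs).2 hF _ rfl).1
    obtain ⟨P, hPe⟩ : ∃ P : Par, (x.length, y.length, ⟨tgt (x.length, y.length)⟩) = P := ⟨_, rfl⟩
    rw [hPe] at hP hrun
    have hx : P.1 = x.length := by rw [← hPe]
    have hy : P.2.1 = y.length := by rw [← hPe]
    have hjj : (ratWords ε).length + c0 + j0 ≤ P.jj := by
      unfold Par.jj Par.ll; rw [hx, hy]; exact hj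
    refine (fin_time (hw1 _) fun ρ => (hrun ρ).imp' (fun v => [v]) fun v hv => hv.1).trans ?_
    rw [← ENNReal.ofReal_natCast, ← hx, ← hy]
    refine ENNReal.ofReal_le_ofReal (hj0 P hP (by omega) _ (Nat.mul_le_mul_left _ ?_))
    refine (Nat.clog_le_iff_le_pow (by norm_num)).2 ?_
    have a1 := hP.N_lt
    have a2 := fin_jj_ll hP
    have a3 := hP.aux_ll_hh
    have a4 : P.hh < 2 ^ P.hh := Nat.lt_two_pow_self
    rw [hlen, pow_add]
    omega

end Crest.Agent.R288
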