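import Crest.Agent.R288.ParA
import Crest.Agent.R309.RamProb
import Crest.Prelude.Def_GraphRAM
import Crest.Prelude.Def_RatWords

/-!
# R288: final assembly, auxiliary facts (probabilities of the RAM, the words of `ε`, asymptotics)
-/

set_option autoImplicit false

namespace Crest.Agent.R288

open Crest.Agent.Lib.PT Crest.WordRAM Crest.GraphRAM
open Crest.Agent.R309 (Ex Pr ind uniformProb_low rp_uniformProb_mono rp_run_of_halted Pr_le_one)

theorem fin_le_one {w : ℕ} (hw : 1 ≤ w) (Pg : Program) (inp : List ℕ) (T : ℕ)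
    (E : Cfg Pg.numRegs → Prop) : probAfter Pg w inp T E ≤ 1 := by
  refine (rp_uniformProb_mono (Set.subset_univ _)).trans ?_
  exact (uniformProb_low w T 0 hw (Nat.zero_le _) fun _ => True).le.trans (Pr_le_one _ _)

theorem fin_prob {w : ℕ} (hw : 1 ≤ w) {Pg : Program} {inp : List ℕ} {T n : ℕ} (hn : n ≤ T)
    (E : List Bool → Prop) (G : List ℕ → Prop)
    (h : ∀ ρ : ℕ → ℕ, E ((List.range n).map fun i => (ρ i % 2 ^ w).bodd) →
      ∃ out, HaltsWithin Pg w ρ inp T out ∧ G out) :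
    Pr n E ≤ probHaltsWith Pg w inp G := by
  have hb : BddAbove (Set.range fun T =>
      probAfter Pg w inp T fun c => c.halted = true ∧ G c.output) :=
    ⟨1, by rintro _ ⟨n, rfl⟩; exact fin_le_one hw _ _ _ _⟩
  refine le_trans ?_ (le_ciSup hb T)
  rw [← uniformProb_low w T n hw hn]
  refine rp_uniformProb_mono fun tab ht => ?_
  obtain ⟨out, h1, h2⟩ := h _ ht
  exact ⟨h1.1, h1.2 ▸ h2⟩

theorem fin_time {w : ℕ} (hw : 1 ≤ w) {Pg : Program} {inp : List ℕ} {T : ℕ}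
    (h : ∀ ρ : ℕ → ℕ, ∃ out, HaltsWithin Pg w ρ inp T out) : expectedTime Pg w inp ≤ T := by
  unfold expectedTime
  rw [tsum_eq_sum (s := Finset.range T)]
  · calc _ ≤ ∑ _i ∈ Finset.range T, (1 : ENNReal) :=
          Finset.sum_le_sum fun i _ => ENNReal.ofReal_le_one.2 (fin_le_one hw _ _ _ _)
      _ = T := by simp
  · intro T' hT'
    rw [Finset.mem_range, not_lt] at hT'
    have : {tab : Fin T' → Fin (2 ^ w) |
        (run Pg w (streamOf tab) inp T').halted = false} = ∅ := by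
      ext tab
      obtain ⟨out, h1, -⟩ := h (streamOf tab)
      simp [rp_run_of_halted h1 hT', h1]
    unfold probAfter
    rw [this]
    simp [Crest.FinProb.uniformProb]

theorem fin_rat_len (ε : ℚ) : (ratWords ε).length = ε.num.natAbs.size + 1 + ε.den.size := by
  simp [ratWords, Nat.size_eq_bits_len]; omega

theorem fin_rat_four {ε : ℚ} (h0 : 0 < ε) (h1 : ε < 1) : 4 ≤ (ratWords ε).length := by
  rw [fin_rat_len]
  have a1 : 0 < ε.num := Rat.num_pos.2 h0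
  have a2 : 0 < ε.num.natAbs.size := Nat.size_pos.2 (by omega)
  have a3 : ε.den ≠ 1 := fun h => by
    have := Rat.coe_int_num_of_den_eq_one h
    have h2 : (ε.num : ℚ) < 1 := by rw [this]; exact h1
    have h3 : ε.num < 1 := by exact_mod_cast h2
    omega
  have a4 := ε.den_pos
  have a5 : 1 < ε.den.size := Nat.lt_size.2 (by omega)
  omega

theorem fin_rat_mem (ε : ℚ) : ∀ a ∈ ratWords ε, a ≤ 2 := by
  intro a ha
  simp only [ratWords, List.mem_append, List.mem_map, List.mem_cons] at ha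
  rcases ha with ⟨b, -, rfl⟩ | rfl | ⟨b, -, rfl⟩
  · split_ifs <;> omega
  · exact le_rfl
  · split_ifs <;> omega

theorem fin_rat_ge {ε : ℚ} (h0 : 0 < ε) : (1 : ℝ) / 2 ^ (ratWords ε).length ≤ (ε : ℝ) := by
  have a1 : 0 < ε.num := Rat.num_pos.2 h0
  have a2 : ε.den < 2 ^ (ratWords ε).length :=
    (Nat.lt_size_self _).trans_le (Nat.pow_le_pow_right (by norm_num) (by rw [fin_rat_len]; omega))
  have a3 : (ε.den : ℝ) ≤ 2 ^ (ratWords ε).length := by exact_mod_cast a2.le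
  have a4 : (1 : ℝ) ≤ ε.num := by exact_mod_cast a1
  have a5 : (0 : ℝ) < ε.den := by exact_mod_cast ε.den_pos
  rw [Rat.cast_def]
  exact div_le_div₀ (by linarith) a4 a5 a3

theorem fin_ev (d : ℕ) : ∃ w0 : ℕ, ∀ w, w0 ≤ w → ((w + 2) ^ d + 1) ^ 2 ≤ 2 ^ w := by
  have h := (isLittleO_pow_const_const_pow_of_one_lt (R := ℝ) (2 * d + 2) (r := 2)
    (by norm_num)).bound (c := 1 / 8) (by norm_num)
  obtain ⟨w0, h⟩ := Filter.eventually_atTop.1 h
  refine ⟨w0, fun w hw => ?_⟩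
  have h1 := h (w + 3) (by omega)
  rw [Real.norm_of_nonneg (by positivity), Real.norm_of_nonneg (by positivity)] at h1
  have h2 : (((w + 3) ^ (2 * d + 2) : ℕ) : ℝ) ≤ (2 ^ w : ℕ) := by
    push_cast at h1 ⊢
    rw [pow_add (2 : ℝ) w 3] at h1
    linarith
  refine le_trans ?_ (Nat.cast_le.1 h2)
  rw [show 2 * d + 2 = (d + 1) * 2 by ring, pow_mul]
  refine Nat.pow_le_pow_left ?_ 2
  have h3 : (w + 2) ^ d ≤ (w + 3) ^ d := Nat.pow_le_pow_left (by omega) d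
  have h4 : 0 < (w + 3) ^ d := by positivity
  rw [pow_succ]
  nlinarith

variable {P : Par}

theorem fin_kP (P : Par) : P.kP = 32 * (P.ll * P.ll) := by
  unfold Par.kP
  rw [show P.kR = 2 * (P.ll * P.ll) by unfold Par.kR; rfl]
  ring

theorem fin_jj_ll (h : Good P) : P.jj < P.ll := Nat.lt_two_pow_self.trans_le h.ll_lo

/-- `A + kP d` is small compared with `hh`. -/
theorem fin_small (h : Good P) {A d m : ℕ} (hj : (A + 32 * d) * m ≤ P.jj) :
    (A + P.kP * d) * m ≤ P.hh := by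
  have h1 := fin_jj_ll h
  have h2 := h.quart
  have h3 : 1 ≤ P.ll * P.ll := Nat.mul_pos (by omega) (by omega)
  calc (A + P.kP * d) * m ≤ (A * (P.ll * P.ll) + 32 * (P.ll * P.ll) * d) * m := by
        rw [fin_kP]
        exact Nat.mul_le_mul_right _ (Nat.add_le_add_right (Nat.le_mul_of_pos_right _ h3) _)
    _ = (A + 32 * d) * m * (P.ll * P.ll) := by ring
    _ ≤ P.ll * P.ll * (P.ll * P.ll) :=
        Nat.mul_le_mul_right _ (hj.trans (h1.le.trans (Nat.le_mul_self _)))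
    _ = P.ll ^ 4 := by ring
    _ ≤ P.hh := by omega

/-- The memory fits. -/
theorem fin_space (C d : ℕ) : ∃ c0 : ℕ, ∀ P : Par, Good P → c0 ≤ P.jj → ∀ L w : ℕ,
    P.1 + P.2.1 ≤ L → (L + 2) ^ 3 ≤ 2 ^ w → L + C * (2 ^ P.kP + w + 1) ^ d ≤ 2 ^ w := by
  obtain ⟨w0, hw0⟩ := fin_ev d
  refine ⟨w0 + (C + 1 + 32 * d), fun P h hj L w hL hw => ?_⟩
  have h1 := fin_small h (A := C + 1) (d := d) (m := 1) (by omega)
  have h2 := h.N_ge
  have h3 : C * 2 ^ (P.kP * d) ≤ L := by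
    calc C * 2 ^ (P.kP * d) ≤ 2 ^ C * 2 ^ (P.kP * d) :=
          Nat.mul_le_mul_right _ Nat.lt_two_pow_self.le
      _ = 2 ^ (C + P.kP * d) := by rw [pow_add]
      _ ≤ 2 ^ (P.hh - 1) := Nat.pow_le_pow_right (by norm_num) (by omega)
      _ ≤ L := h2.trans hL
  have h4 : L ^ 2 ≤ 2 ^ w := by
    refine le_trans ?_ hw
    calc L ^ 2 ≤ (L + 2) ^ 2 := Nat.pow_le_pow_left (by omega) 2
      _ ≤ (L + 2) ^ 3 := Nat.pow_le_pow_right (by omega) (by omega)
  have h5 : P.hh - 1 ≤ w := by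
    have : 2 ^ (P.hh - 1) ≤ 2 ^ w := by
      refine (h2.trans hL).trans (le_trans ?_ h4)
      rw [sq]; exact Nat.le_mul_self L
    exact (Nat.pow_le_pow_iff_right (by norm_num)).1 this
  have h6 := fin_jj_ll h
  have h7 := h.aux_ll_hh
  have h8 := hw0 w (by omega)
  have h9 : L * ((w + 2) ^ d + 1) ≤ 2 ^ w := by
    have : (L * ((w + 2) ^ d + 1)) ^ 2 ≤ (2 ^ w) ^ 2 := by
      rw [mul_pow, sq (2 ^ w)]; exact Nat.mul_le_mul h4 h8
    exact (Nat.pow_le_pow_iff_left (by norm_num)).1 this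
  have h10 : 2 ^ P.kP + w + 1 ≤ 2 ^ P.kP * (w + 2) := by
    have : 0 < 2 ^ P.kP := by positivity
    nlinarith
  have h11 : C * (2 ^ P.kP + w + 1) ^ d ≤ L * (w + 2) ^ d := by
    calc C * (2 ^ P.kP + w + 1) ^ d ≤ C * (2 ^ P.kP * (w + 2)) ^ d :=
          Nat.mul_le_mul_left _ (Nat.pow_le_pow_left h10 d)
      _ = C * 2 ^ (P.kP * d) * (w + 2) ^ d := by rw [mul_pow, ← pow_mul, mul_assoc]
      _ ≤ L * (w + 2) ^ d := Nat.mul_le_mul_right _ h3
  rw [mul_add, mul_one] at h9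
  omega

/-- The running time. -/
theorem fin_total (C d C1 C2 a : ℕ) {δ : ℝ} (hδ : 0 < δ) : ∃ j0 : ℕ, ∀ P : Par, Good P → j0 ≤ P.jj →
    ∀ w : ℕ, w ≤ (a + 3) * (P.hh + 2) →
      ((C * (2 ^ P.kP + w + 1) ^ d * (C1 * (2 ^ (P.hh + C2 * (P.hh / P.jj)) + 2 ^ P.kP + 1) + 1) : ℕ) : ℝ) ≤
        ((P.1 + P.2.1 : ℕ) : ℝ) ^ (1 + δ) := by
  obtain ⟨m, hm⟩ := exists_nat_ge (2 / δ)
  obtain ⟨u, hu⟩ := exists_nat_ge (1 + δ)
  set A := C * (3 * a + 11) ^ d * (3 * C1 + 1) with hA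
  refine ⟨(A + u + 32 * (d + 1)) * m + C2 * m + 33, fun P h hj w hw => ?_⟩
  have h1 := fin_small h (A := A + u) (d := d + 1) (m := m) (by omega)
  have h1' := fin_small h (A := 0) (d := 1) (m := 1) (by omega)
  have hj0 : 0 < P.jj := by omega
  have h2 : C2 * (P.hh / P.jj) * m ≤ P.hh := by
    calc C2 * (P.hh / P.jj) * m = C2 * m * (P.hh / P.jj) := by ring
      _ ≤ P.jj * (P.hh / P.jj) := Nat.mul_le_mul_right _ (by omega)
      _ ≤ P.hh := Nat.mul_div_le _ _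
  have h3 : P.hh ≤ 2 ^ P.kP := by
    refine h.hh_hi.trans (Nat.pow_le_pow_right (by norm_num) ?_)
    rw [fin_kP]
    have := Nat.le_mul_self P.ll
    have := fin_jj_ll h
    omega
  have hp : 1 ≤ 2 ^ P.kP := Nat.one_le_two_pow
  have h4 : 2 ^ P.kP + w + 1 ≤ (3 * a + 11) * 2 ^ P.kP := by
    have : w ≤ (a + 3) * (3 * 2 ^ P.kP) := hw.trans (Nat.mul_le_mul_left _ (by
      have : 2 ≤ 2 ^ P.kP := le_trans (by have := h.aux_ll_hh; have := fin_jj_ll h; omega) h3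
      omega))
    nlinarith
  set E := P.hh + C2 * (P.hh / P.jj) with hE
  have h5 : 2 ^ P.kP ≤ 2 ^ E := Nat.pow_le_pow_right (by norm_num) (by omega)
  have h6 : C1 * (2 ^ E + 2 ^ P.kP + 1) + 1 ≤ (3 * C1 + 1) * 2 ^ E := by nlinarith
  have h7 : C * (2 ^ P.kP + w + 1) ^ d * (C1 * (2 ^ E + 2 ^ P.kP + 1) + 1) ≤
      2 ^ (A + P.kP * d + E) := by
    calc _ ≤ C * ((3 * a + 11) * 2 ^ P.kP) ^ d * ((3 * C1 + 1) * 2 ^ E) :=
          Nat.mul_le_mul (Nat.mul_le_mul_left _ (Nat.pow_le_pow_left h4 d)) h6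
      _ = A * 2 ^ (P.kP * d + E) := by rw [hA, mul_pow, ← pow_mul, pow_add]; ring
      _ ≤ 2 ^ A * 2 ^ (P.kP * d + E) := Nat.mul_le_mul_right _ Nat.lt_two_pow_self.le
      _ = _ := by rw [← pow_add, add_assoc]
  have h8 : (((2 : ℕ) ^ (P.hh - 1) : ℕ) : ℝ) ≤ ((P.1 + P.2.1 : ℕ) : ℝ) := Nat.cast_le.2 h.N_ge
  have hh1 : 1 ≤ P.hh := by have := h.aux_ll_hh; omega
  have h9 : ((A + P.kP * d + E : ℕ) : ℝ) ≤ ((P.hh - 1 : ℕ) : ℝ) * (1 + δ) := by
    have b1 : ((A + u + P.kP * d + C2 * (P.hh / P.jj) : ℕ) : ℝ) * m ≤ 2 * P.hh := by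
      have : (A + u + P.kP * d + C2 * (P.hh / P.jj)) * m ≤ 2 * P.hh := by
        have : (A + u + P.kP * d) * m ≤ (A + u + P.kP * (d + 1)) * m :=
          Nat.mul_le_mul_right _ (Nat.add_le_add_left (Nat.mul_le_mul_left _ (by omega)) _)
        rw [add_mul]; omega
      exact_mod_cast this
    have b2 : 2 ≤ δ * m := by rw [div_le_iff₀ hδ] at hm; linarith
    have b3 : (0 : ℝ) < m := by
      by_contra hc
      have : (m : ℝ) = 0 := le_antisymm (not_lt.1 hc) (Nat.cast_nonneg _)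
      rw [this] at b2; linarith
    have b4 : ((A + u + P.kP * d + C2 * (P.hh / P.jj) : ℕ) : ℝ) ≤ δ * P.hh := by
      refine le_of_mul_le_mul_right (b1.trans ?_) b3
      have : (0 : ℝ) ≤ P.hh := Nat.cast_nonneg _
      nlinarith
    rw [Nat.cast_sub hh1, hE]
    push_cast at b4 ⊢
    nlinarith
  calc _ ≤ (((2 : ℕ) ^ (A + P.kP * d + E) : ℕ) : ℝ) := Nat.cast_le.2 h7
    _ = (2 : ℝ) ^ ((A + P.kP * d + E : ℕ) : ℝ) := by rw [Real.rpow_natCast]; push_cast; rfl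
    _ ≤ (2 : ℝ) ^ (((P.hh - 1 : ℕ) : ℝ) * (1 + δ)) :=
        Real.rpow_le_rpow_of_exponent_le (by norm_num) h9
    _ = (((2 : ℕ) ^ (P.hh - 1) : ℕ) : ℝ) ^ (1 + δ) := by
        rw [Real.rpow_mul (by norm_num), Real.rpow_natCast]; push_cast; rfl
    _ ≤ _ := Real.rpow_le_rpow (by positivity) h8 (by linarith)

end Crest.Agent.R288
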