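import Crest.Agent.R288.SemD
import Crest.Agent.R288.ParA
import Crest.Agent.R288.RTa
import Crest.Agent.R288.RTb
import Crest.Agent.R288.FB

/-!
# R288: completeness of a raw gap test
-/

set_option autoImplicit false

namespace Crest.Agent.R288

open RT

open Crest.Agent.R309 (ind ind_pos ind_neg ind_nonneg ind_le_one ind_mono ind_eq)

theorem gapc_any {ι : Type} (l : List ι) (t : ι → RT Bool) {s : ι} (hs : s ∈ l) :
    ((seq (l.map t)).P fun r => (!r.any id) = true) ≤ (t s).P fun v => v = false := by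
  induction l with
  | nil => simp at hs
  | cons a l ih =>
    unfold RT.P at ih ⊢
    rw [List.map_cons, E_seq_cons]
    rcases List.mem_cons.1 hs with rfl | hs
    · refine E_mono' _ fun v => E_le (All_of_forall _ fun r => ind_mono ?_)
      cases v <;> simp
    · refine E_le (All_of_forall _ fun v => le_trans (E_mono' _ fun r => ind_mono ?_) (ih hs))
      cases v <;> simp

theorem gapc_div {g : ℕ} (hg : 0 < g) {x y : ℤ} {n : ℕ} (h : (x - y).natAbs ≤ g * n) :
    ∃ a : ℕ, a < 2 * (n + 1) + 1 ∧ rdn g x = rdn g y + (g : ℤ) * ((a : ℤ) - (n + 1 : ℕ)) := by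
  have hg' : (0 : ℤ) < g := by exact_mod_cast hg
  have h' : |x - y| ≤ (g : ℤ) * n := by
    rw [← Int.natCast_natAbs]; exact_mod_cast h
  obtain ⟨h1, h2⟩ := abs_le.1 h'
  have a1 : x / g ≤ y / g + n := by
    have : x / g ≤ (y + g * n) / g := Int.ediv_le_ediv hg' (by linarith)
    rwa [Int.add_mul_ediv_left _ _ hg'.ne'] at this
  have a2 : y / g ≤ x / g + n := by
    have : y / g ≤ (x + g * n) / g := Int.ediv_le_ediv hg' (by linarith)
    rwa [Int.add_mul_ediv_left _ _ hg'.ne'] at this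
  refine ⟨(x / g - y / g + (n + 1)).toNat, by omega, ?_⟩
  rw [Int.toNat_of_nonneg (by omega)]
  unfold rdn
  push_cast
  ring

theorem gapc_inner (g Γ f m : ℕ) :
    (∑ l ∈ Finset.range m, if g * (Γ + l) < f then g else 0) ≤ g * m ∧
      ((∑ l ∈ Finset.range m, if g * (Γ + l) < f then g else 0) = 0 ∨
        (g * Γ + (∑ l ∈ Finset.range m, if g * (Γ + l) < f then g else 0) ≤ f + g ∧ g * Γ < f)) := by
  induction m with
  | zero => simp
  | succ m ih =>
    rw [Finset.sum_range_succ]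
    obtain ⟨h1, h2⟩ := ih
    have e1 : g * (m + 1) = g * m + g := by ring
    have e2 : g * (Γ + m) = g * Γ + g * m := by ring
    split_ifs with hc
    · refine ⟨by omega, Or.inr ⟨by omega, by omega⟩⟩
    · refine ⟨by omega, ?_⟩
      rcases h2 with h2 | h2
      · left; omega
      · right; omega

theorem gapc_outer (u Γ f n : ℕ) :
    (∑ eb ∈ Finset.range n, ∑ l ∈ Finset.range Γ,
        if u * 2 ^ eb * (Γ + l) < f then u * 2 ^ eb else 0) ≤ u * 2 ^ n * Γ ∧
      Γ * (∑ eb ∈ Finset.range n, ∑ l ∈ Finset.range Γ,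
        if u * 2 ^ eb * (Γ + l) < f then u * 2 ^ eb else 0) ≤ (Γ + 1) * f := by
  induction n with
  | zero => simp
  | succ n ih =>
    rw [Finset.sum_range_succ]
    obtain ⟨h1, h2⟩ := ih
    obtain ⟨h3, h4⟩ := gapc_inner (u * 2 ^ n) Γ f Γ
    generalize (∑ eb ∈ Finset.range n, ∑ l ∈ Finset.range Γ,
        if u * 2 ^ eb * (Γ + l) < f then u * 2 ^ eb else 0) = S at h1 h2 ⊢
    generalize (∑ l ∈ Finset.range Γ, if u * 2 ^ n * (Γ + l) < f then u * 2 ^ n else 0) = T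
      at h3 h4 ⊢
    have e : u * 2 ^ (n + 1) * Γ = u * 2 ^ n * Γ + u * 2 ^ n * Γ := by ring
    refine ⟨by omega, ?_⟩
    rcases h4 with h4 | ⟨h4, h5⟩
    · subst h4; simpa using h2
    · have h6 : S + T ≤ f + u * 2 ^ n := by omega
      calc Γ * (S + T) ≤ Γ * (f + u * 2 ^ n) := Nat.mul_le_mul_left _ h6
        _ = Γ * f + u * 2 ^ n * Γ := by ring
        _ ≤ Γ * f + f := by omega
        _ = (Γ + 1) * f := by ring

theorem gapc_flat (n m : ℕ) (c : ℕ → ℕ) (φ : ℕ × ℕ → ℝ) :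
    (((List.range n).flatMap fun eb => (List.range m).flatMap fun l =>
      List.replicate (c eb) (eb, l)).map φ).sum =
      ∑ eb ∈ Finset.range n, ∑ l ∈ Finset.range m, (c eb : ℝ) * φ (eb, l) := by
  have h : ∀ eb, (((List.range m).flatMap fun l => List.replicate (c eb) (eb, l)).map φ).sum =
      ∑ l ∈ Finset.range m, (c eb : ℝ) * φ (eb, l) := by
    intro eb
    induction m with
    | zero => simp
    | succ m ih =>
      rw [List.range_succ, List.flatMap_append, List.map_append, List.sum_append, ih,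
        Finset.sum_range_succ]
      simp
  induction n with
  | zero => simp
  | succ n ih =>
    rw [List.range_succ, List.flatMap_append, List.map_append, List.sum_append, ih,
      Finset.sum_range_succ]
    congr 1
    rw [List.flatMap_singleton]
    exact h n

theorem gapc_count (r : List Bool) :
    (r.map fun v : Bool => ind (v = true)).sum = (r.countP id : ℝ) := by
  induction r with
  | nil => simp
  | cons a r ih =>
    rw [List.map_cons, List.sum_cons, ih, List.countP_cons]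
    cases a
    · simp [ind]
    · simp [ind, add_comm]

theorem gapc_sum_list (f : ℕ → ℕ) (n : ℕ) :
    ((List.range n).map f).sum = ∑ j ∈ Finset.range n, f j := by
  induction n with
  | zero => simp
  | succ n ih => rw [List.range_succ, List.map_append, List.sum_append, ih, Finset.sum_range_succ]; simp

theorem gapc_draw {P : Par} (hP : Good P) {F : ℕ → ℕ → ℤ → ℤ → ℕ} (hF : FOk F)
    {G : ℕ → ℕ → ℤ → ℤ → ℕ → RT Bool} {e i : ℕ} {α : ℤ} {κ : ℕ} {δ : ℝ} (hδ : 0 ≤ δ)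
    (ih : ∀ i' α' γ' κ', F e i' α' γ' ≤ κ' → ((G e i' α' γ' κ').P fun v => v = false) ≤ δ)
    (hu : 0 < gu P κ) (hκu : κ ≤ gu P κ * 2 ^ (2 * P.kγ + P.kb + 1))
    {z : ℕ → ℤ} (hz : ∀ j < 2 ^ P.kb, (z j - α).natAbs ≤ κ) {eb l : ℕ}
    (heb : eb < P.kγ + P.kb + 2) (hl : l < 2 ^ P.kγ) :
    ((gdrawT P G (e + P.kb) i α κ eb l).E fun v => ind (v = true)) ≤
      (∑ j ∈ Finset.range (2 ^ P.kb),
        ind (gu P κ * 2 ^ eb * (2 ^ P.kγ + l) < F e (i * 2 ^ P.kb + j) (z j) (z (j + 1)))) /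
          2 ^ P.kb + δ := by
  have hs := hP.small_ll
  have hq := hP.aux_llsq
  have hkP : 2 * P.kγ + P.kb + 8 ≤ P.kP := by
    rw [Par.kP.eq_1, Par.kb.eq_1, Par.kγ.eq_1, Par.kR.eq_1]; omega
  have hkγ : 1 ≤ P.kγ := by rw [Par.kγ.eq_1]; omega
  have hg : gg P κ eb = gu P κ * 2 ^ eb := by
    unfold gg; rw [hP.p2_eq (by omega)]
  have hgpos : 0 < gg P κ eb := by rw [hg]; positivity
  unfold gdrawT
  rw [E_bind, E_rnd, Nat.add_sub_cancel]
  have hb : (0 : ℝ) < 2 ^ P.kb := by positivity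
  rw [div_add' _ _ _ hb.ne']
  refine div_le_div_of_nonneg_right ?_ hb.le
  have : δ * 2 ^ P.kb = ∑ _j ∈ Finset.range (2 ^ P.kb), δ := by
    simp [mul_comm]
  rw [this, ← Finset.sum_add_distrib]
  refine Finset.sum_le_sum fun j hj => ?_
  have hj' := Finset.mem_range.1 hj
  rw [E_map]
  by_cases hc : gu P κ * 2 ^ eb * (2 ^ P.kγ + l) < F e (i * 2 ^ P.kb + j) (z j) (z (j + 1))
  · rw [ind_pos hc]
    exact (E_le (All_of_forall _ fun _ => ind_le_one _)).trans (by linarith)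
  rw [ind_neg hc, zero_add]
  rw [← hg, not_lt] at hc
  have hmem : (rdn (gg P κ eb) (z j), rdn (gg P κ eb) (z (j + 1))) ∈ gstates P α κ eb := by
    have e1 : P.p2 (2 * P.kγ + P.kb + 1 - eb) = 2 ^ (2 * P.kγ + P.kb + 1 - eb) :=
      hP.p2_eq (by omega)
    have e2 : P.p2 P.kγ = 2 ^ P.kγ := hP.p2_eq (by omega)
    obtain ⟨a, ha, ha'⟩ := gapc_div hgpos (x := z j) (y := α)
      (n := P.p2 (2 * P.kγ + P.kb + 1 - eb)) (by
        refine (hz j hj').trans (hκu.trans (le_of_eq ?_))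
        rw [e1, hg, mul_assoc, ← pow_add]
        congr 2
        omega)
    obtain ⟨a', hb, hb'⟩ := gapc_div hgpos (x := z (j + 1)) (y := z j) (n := 2 * P.p2 P.kγ) (by
        refine (hF.disp e (i * 2 ^ P.kb + j) _ _).trans (hc.trans ?_)
        rw [e2]
        exact Nat.mul_le_mul_left _ (by omega))
    unfold gstates
    simp only [List.mem_flatMap, List.mem_map, List.mem_range]
    refine ⟨a, ha, a', hb, ?_⟩
    rw [← ha', ← hb']
  refine (gapc_any _ (fun s : ℤ × ℤ =>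
    G e (i * 2 ^ P.kb + j) s.1 s.2 (gg P κ eb * (2 ^ P.kγ + l + 2))) hmem).trans (ih _ _ _ _ ?_)
  have h1 := hF.lip e (i * 2 ^ P.kb + j) (rdn (gg P κ eb) (z j)) (rdn (gg P κ eb) (z (j + 1)))
    (z j) (z (j + 1))
  have h2 := natAbs_sub_rdn_lt hgpos (z j)
  have h3 := natAbs_sub_rdn_lt hgpos (z (j + 1))
  have h4 : gg P κ eb * (2 ^ P.kγ + l + 2) = gg P κ eb * (2 ^ P.kγ + l) + 2 * gg P κ eb := by ring
  simp only
  omega

/-- Notation: `b0 = 2^kb`, `γ0 = 2^-kγ`, `u = gu P κ = κ / 2^(2kγ+kb) ≥ 2`, `g = gg P κ eb = u 2^eb`,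
`θ(eb,l) = g (2^kγ + l)`, `K = κ / (u b0) ≥ 2^(2kγ)` (real number).  The verdict `graw` is
`64 · 2^kγ + cnt ≤ 64 (1 + 3γ0) K`, and `2^kγ ≤ γ0 K`.
Take an optimal splitting `z` (`FOk.exists_split`), `f j` the cost of child `j`, `∑ f j ≤ κ`.  If
`f j ≤ θ(eb,l)`, then `(rdn g (z j), rdn g (z (j+1))) ∈ gstates` (`|z j - α| ≤ κ ≤ u 2^(2kγ+kb+1)` by
`FOk.natAbs_le_sum`, `|z (j+1) - z j| ≤ f j < 2 · 2^kγ g`) has cost `≤ θ + 2g`, so the draw with child `j` returns
`true` with probability `≤ δ`.  Thus `P(draw (eb,l) = true) ≤ #{j | θ(eb,l) < f j} / b0 + δ`.  For one child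
`∑_{(eb,l) : θ(eb,l) < f} g ≤ (1 + γ0) f` (the thresholds increase by `g ≤ γ0 θ`), so the mean of `cnt` is at
most `64 (1+γ0) K + |gdraws| δ ≤ 64 (1+γ0) K + 1`; Chebyshev (`cheb_seq`, `B = 1`) with `y = 63 γ0 K`. -/
theorem graw_complete {P : Par} (hP : Good P) {F : ℕ → ℕ → ℤ → ℤ → ℕ} (hF : FOk F)
    {G : ℕ → ℕ → ℤ → ℤ → ℕ → RT Bool} {e i : ℕ} {α γ : ℤ} {κ : ℕ}
    (ih : ∀ i' α' γ' κ', F e i' α' γ' ≤ κ' →
      ((G e i' α' γ' κ').P fun v => v = false) ≤ (1 / 2) ^ (4 * P.hh))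
    (hκ : P.F1 < κ) (h : F (e + P.kb) i α γ ≤ κ) :
    ((grawT P G (e + P.kb) i α κ).P fun v => v = false) ≤ 1 / 8 := by
  have hs := hP.small_ll
  have hq := hP.aux_llsq
  have hkP : 2 * P.kγ + P.kb + 8 ≤ P.kP := by
    rw [Par.kP.eq_1, Par.kb.eq_1, Par.kγ.eq_1, Par.kR.eq_1]; omega
  have hhh : 2 * P.kγ + P.kb + 8 ≤ 4 * P.hh := by
    have h1 := hP.quart
    have h2 : P.ll * P.ll ≤ P.ll ^ 4 := by
      rw [← sq]; exact Nat.pow_le_pow_right (by omega) (by norm_num)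
    rw [Par.kb.eq_1, Par.kγ.eq_1]; omega
  have eγ : P.p2 P.kγ = 2 ^ P.kγ := hP.p2_eq (by omega)
  have eb0 : P.p2 P.kb = 2 ^ P.kb := hP.p2_eq (by omega)
  have eu : gu P κ = κ / 2 ^ (2 * P.kγ + P.kb) := by
    unfold gu; rw [hP.p2_eq (by omega)]
  rw [hP.F1_eq] at hκ
  have hD : 0 < 2 ^ (2 * P.kγ + P.kb) := by positivity
  have hu : 0 < gu P κ := by
    rw [eu]
    refine Nat.div_pos (le_trans ?_ hκ.le) hD
    exact Nat.pow_le_pow_right (by norm_num) (by omega)
  have hlo : gu P κ * 2 ^ (2 * P.kγ + P.kb) ≤ κ := by rw [eu]; exact Nat.div_mul_le_self _ _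
  have hκu : κ ≤ gu P κ * 2 ^ (2 * P.kγ + P.kb + 1) := by
    have h1 : κ < (gu P κ + 1) * 2 ^ (2 * P.kγ + P.kb) := by
      rw [eu, mul_comm]; exact Nat.lt_mul_div_succ _ hD
    have h2 : (gu P κ + 1) * 2 ^ (2 * P.kγ + P.kb) ≤ (gu P κ * 2) * 2 ^ (2 * P.kγ + P.kb) :=
      Nat.mul_le_mul_right _ (by omega)
    rw [pow_succ]
    nlinarith
  obtain ⟨z, hz0, -, hzs⟩ := hF.exists_split e P.kb i α γ
  have hzs' := hzs.trans h
  have hz : ∀ j < 2 ^ P.kb, (z j - α).natAbs ≤ κ := by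
    intro j hj
    have := hF.natAbs_le_sum e (i * 2 ^ P.kb) z 0 (2 ^ P.kb) j hj.le
    rw [zero_add, hz0, ← List.range_eq_range'] at this
    exact this.trans hzs'
  rw [gapc_sum_list] at hzs'
  set f : ℕ → ℕ := fun j => F e (i * 2 ^ P.kb + j) (z j) (z (j + 1)) with hf
  set u := gu P κ with hu_def
  set δ : ℝ := (1 / 2) ^ (4 * P.hh) with hδ
  have hδ0 : 0 ≤ δ := by positivity
  set ts := (gdraws P).map fun q => gdrawT P G (e + P.kb) i α κ q.1 q.2 with hts
  set φ : Bool → ℝ := fun v => ind (v = true) with hφ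
  set Γ : ℝ := 2 ^ P.kγ with hΓ
  set B : ℝ := 2 ^ P.kb with hB
  have hΓ1 : 1 ≤ Γ := one_le_pow₀ (by norm_num)
  have hB0 : 0 < B := by positivity
  have hu0 : (0 : ℝ) < u := by exact_mod_cast hu
  set K : ℝ := κ / (u * B) with hK
  have hKκ : (κ : ℝ) = K * (u * B) := by rw [hK]; field_simp
  have hKΓ : Γ ^ 2 ≤ K := by
    rw [hK, le_div_iff₀ (by positivity)]
    have : ((u * 2 ^ (2 * P.kγ + P.kb) : ℕ) : ℝ) ≤ κ := by exact_mod_cast hlo
    push_cast at this
    calc Γ ^ 2 * (u * B) = u * 2 ^ (2 * P.kγ + P.kb) := by rw [hΓ, hB]; ring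
      _ ≤ κ := this
  -- the mean
  have hμ : (ts.map fun t => t.E φ).sum ≤ 64 * (1 + 1 / Γ) * K + 1 := by
    rw [hts, List.map_map]
    unfold gdraws
    rw [gapc_flat, eγ]
    have h1 : ∀ eb ∈ Finset.range (P.kγ + P.kb + 2), ∀ l ∈ Finset.range (2 ^ P.kγ),
        (P.p2 (eb + 6) : ℝ) * ((fun t : RT Bool => t.E φ) ∘
          fun q : ℕ × ℕ => gdrawT P G (e + P.kb) i α κ q.1 q.2) (eb, l) ≤
        64 / (u * B) * (∑ j ∈ Finset.range (2 ^ P.kb),
          ((if u * 2 ^ eb * (2 ^ P.kγ + l) < f j then u * 2 ^ eb else 0 : ℕ) : ℝ)) +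
          2 ^ (eb + 6) * δ := by
      intro eb heb l hl
      have heb' := Finset.mem_range.1 heb
      rw [hP.p2_eq (by omega)]
      have := gapc_draw hP hF (i := i) hδ0 ih hu hκu hz heb' (Finset.mem_range.1 hl)
      simp only [Function.comp]
      push_cast
      refine (mul_le_mul_of_nonneg_left this (by positivity)).trans (le_of_eq ?_)
      rw [mul_add]
      congr 1
      rw [Finset.sum_div, Finset.mul_sum, Finset.mul_sum]
      refine Finset.sum_congr rfl fun j _ => ?_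
      rw [ind_eq]
      simp only [← hu_def, hf]
      split_ifs
      · rw [← hB]; field_simp; ring
      · simp
    refine (Finset.sum_le_sum fun eb heb => Finset.sum_le_sum fun l hl => h1 eb heb l hl).trans ?_
    simp only [Finset.sum_add_distrib, ← Finset.mul_sum]
    refine add_le_add ?_ ?_
    · have h2 : (∑ eb ∈ Finset.range (P.kγ + P.kb + 2), ∑ l ∈ Finset.range (2 ^ P.kγ),
          ∑ j ∈ Finset.range (2 ^ P.kb),
            ((if u * 2 ^ eb * (2 ^ P.kγ + l) < f j then u * 2 ^ eb else 0 : ℕ) : ℝ)) ≤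
          (1 + 1 / Γ) * κ := by
        have h3 : ∀ j, (∑ eb ∈ Finset.range (P.kγ + P.kb + 2), ∑ l ∈ Finset.range (2 ^ P.kγ),
            ((if u * 2 ^ eb * (2 ^ P.kγ + l) < f j then u * 2 ^ eb else 0 : ℕ) : ℝ)) ≤
            (1 + 1 / Γ) * f j := by
          intro j
          have h4 := (gapc_outer u (2 ^ P.kγ) (f j) (P.kγ + P.kb + 2)).2
          have h5 : Γ * (∑ eb ∈ Finset.range (P.kγ + P.kb + 2), ∑ l ∈ Finset.range (2 ^ P.kγ),
              ((if u * 2 ^ eb * (2 ^ P.kγ + l) < f j then u * 2 ^ eb else 0 : ℕ) : ℝ)) ≤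
              (Γ + 1) * f j := by
            rw [hΓ]; exact_mod_cast h4
          have h6 : (1 + 1 / Γ) * f j = (Γ + 1) * f j / Γ := by field_simp
          rw [h6, le_div_iff₀ (by positivity), mul_comm]
          exact h5
        calc _ = ∑ j ∈ Finset.range (2 ^ P.kb), ∑ eb ∈ Finset.range (P.kγ + P.kb + 2),
              ∑ l ∈ Finset.range (2 ^ P.kγ),
                ((if u * 2 ^ eb * (2 ^ P.kγ + l) < f j then u * 2 ^ eb else 0 : ℕ) : ℝ) := by
              rw [Finset.sum_comm (s := Finset.range (2 ^ P.kb))]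
              refine Finset.sum_congr rfl fun eb _ => Finset.sum_comm
          _ ≤ ∑ j ∈ Finset.range (2 ^ P.kb), (1 + 1 / Γ) * f j := Finset.sum_le_sum fun j _ => h3 j
          _ = (1 + 1 / Γ) * ((∑ j ∈ Finset.range (2 ^ P.kb), f j : ℕ) : ℝ) := by
              rw [← Finset.mul_sum]; push_cast; rfl
          _ ≤ (1 + 1 / Γ) * κ := by
              refine mul_le_mul_of_nonneg_left ?_ (by positivity)
              exact_mod_cast hzs'
      calc _ ≤ 64 / (u * B) * ((1 + 1 / Γ) * κ) := mul_le_mul_of_nonneg_left h2 (by positivity)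
        _ = 64 * (1 + 1 / Γ) * K := by rw [hK]; ring
    · have h2 : ∀ n : ℕ, (∑ eb ∈ Finset.range n, (2 : ℝ) ^ (eb + 6)) ≤ 2 ^ (n + 6) := by
        intro n
        induction n with
        | zero => simp
        | succ n ih => rw [Finset.sum_range_succ, show n + 1 + 6 = n + 6 + 1 by ring, pow_succ 2 (n + 6)]; linarith
      simp only [Finset.sum_const, Finset.card_range, nsmul_eq_mul, ← Finset.mul_sum,
        ← Finset.sum_mul]
      have h3 : (2 : ℝ) ^ (2 * P.kγ + P.kb + 8) ≤ 2 ^ (4 * P.hh) :=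
        pow_le_pow_right₀ (by norm_num) hhh
      calc (∑ eb ∈ Finset.range (P.kγ + P.kb + 2), (2 : ℝ) ^ (eb + 6)) * (((2 ^ P.kγ : ℕ) : ℝ) * δ)
          ≤ 2 ^ (P.kγ + P.kb + 2 + 6) * (((2 ^ P.kγ : ℕ) : ℝ) * δ) := by
            gcongr; exact h2 _
        _ = 2 ^ (2 * P.kγ + P.kb + 8) * δ := by push_cast; ring
        _ ≤ 2 ^ (4 * P.hh) * δ := by gcongr
        _ = 1 := by rw [hδ, ← mul_pow]; norm_num
  have hμ0 : 0 ≤ (ts.map fun t => t.E φ).sum :=
    List.sum_nonneg fun x hx => by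
      obtain ⟨t, -, rfl⟩ := List.mem_map.1 hx
      exact E_nonneg _ fun _ => ind_nonneg _
  set μ := (ts.map fun t => t.E φ).sum with hμ_def
  have hΓ0 : 0 < Γ := by positivity
  have hK1 : Γ ≤ K / Γ := by rw [le_div_iff₀ hΓ0, ← sq]; exact hKΓ
  have hKK : K / Γ ≤ K := div_le_self (by positivity) hΓ1
  have hy : 0 < 63 * (K / Γ) := by linarith
  have hch := cheb_seq ts φ 1 (fun t _ => All_of_forall _ fun _ => ⟨ind_nonneg _, ind_le_one _⟩) hy
  unfold grawT
  rw [P_map]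
  refine le_trans (P_mono (All_of_forall _ fun r hr => ?_)) (hch.trans ?_)
  · rw [hφ, gapc_count]
    refine le_trans ?_ (le_abs_self _)
    unfold graw at hr
    rw [decide_eq_false_iff_not, not_le, eγ, eb0, ← hu_def] at hr
    have hr' : 64 * (Γ + 3) * (κ : ℝ) < 64 * Γ * (B * u * Γ) + Γ * (u * B) * (r.countP id : ℕ) := by
      rw [hΓ, hB]; exact_mod_cast hr
    rw [hKκ] at hr'
    have h1 : 64 * (Γ + 3) * K < 64 * Γ * Γ + Γ * (r.countP id : ℕ) := by
      have hpos : 0 < u * B := by positivity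
      refine lt_of_mul_lt_mul_right ?_ hpos.le
      linarith
    have h2 : 64 * K + 192 * (K / Γ) < 64 * Γ + (r.countP id : ℕ) := by
      refine lt_of_mul_lt_mul_left ?_ hΓ0.le
      have : Γ * (K / Γ) = K := by field_simp
      nlinarith
    have h3 : 64 * (1 + 1 / Γ) * K = 64 * K + 64 * (K / Γ) := by ring
    linarith
  · rw [one_mul, div_le_iff₀ (by positivity)]
    have h3 : 64 * (1 + 1 / Γ) * K = 64 * K + 64 * (K / Γ) := by ring
    have h4 : K ≤ (K / Γ) ^ 2 := by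
      calc K = Γ * (K / Γ) := by field_simp
        _ ≤ K / Γ * (K / Γ) := mul_le_mul_of_nonneg_right hK1 (by linarith)
        _ = (K / Γ) ^ 2 := by ring
    nlinarith

end Crest.Agent.R288
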