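import Crest.Agent.R288.Gval
import Crest.Agent.R288.ParA

/-!
# R288: time, grids, contexts, scales (pure lemmas)
-/

set_option autoImplicit false

namespace Crest.Agent.R288

variable {P : Par}

theorem geo_par (hP : Good P) : P.kP = 16 * P.kR ∧ P.kg = 2 * P.kR ∧ P.kd = P.kx + P.L + 1 ∧ P.nw = P.L + 2 ∧
    P.nS = 2 * P.kR + 7 ∧ P.nC = P.kg + P.kx + 8 ∧ 100 * (P.kd + P.L + 100) ≤ P.kR := by
  have := hP.small_ll
  have := hP.ll_kR
  exact ⟨by rw [Par.kP.eq_1]; omega, Par.kg.eq_1 P, Par.kd.eq_1 P, Par.nw.eq_1 P, Par.nS.eq_1 P, Par.nC.eq_1 P,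
    by omega⟩

theorem geo_aux {g n : ℕ} {c s : ℤ} (hd : (g : ℤ) ∣ s - c) (h : (s - c).natAbs ≤ g * n) :
    ∃ a : ℤ, a.natAbs ≤ n ∧ s = c + g * a := by
  obtain ⟨a, ha⟩ := hd
  rcases Nat.eq_zero_or_pos g with rfl | hg
  · exact ⟨0, by simp, by simpa [sub_eq_zero] using ha⟩
  · rw [ha, Int.natAbs_mul, Int.natAbs_natCast] at h
    exact ⟨a, Nat.le_of_mul_le_mul_left h hg, by rw [← ha]; ring⟩

theorem geo_rdn {w : ℕ} {z : ℤ} (h : w = 0 → z = 0) : (z - rdn w z).natAbs ≤ w := by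
  rcases Nat.eq_zero_or_pos w with rfl | hw
  · simp [h, rdn]
  · have h1 := Int.emod_nonneg z (b := w) (by omega)
    have h2 := Int.emod_lt_of_pos z (b := w) (by omega)
    rw [rdn, ← Int.emod_def]
    omega

theorem phs_rd0 (φ : ℕ) {k : ℕ} (hk : k < P.T0) : phs P (rd0 P φ k) = φ := by
  rw [phs, rd0, show φ * P.T0 + 1 + k - 1 = k + φ * P.T0 by omega, Nat.add_mul_div_right _ _ (by omega),
    Nat.div_eq_of_lt hk, zero_add]

theorem nIn_rd0 (φ : ℕ) {k : ℕ} (hk : k < P.T0) : nIn P (rd0 P φ k) = k := by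
  rw [nIn, rd0, show φ * P.T0 + 1 + k - 1 = k + φ * P.T0 by omega, Nat.add_mul_mod_self_right, Nat.mod_eq_of_lt hk,
    min_eq_left hk.le]

theorem rnk_rd0 (φ : ℕ) {k : ℕ} (hk : k < P.T0) (k' : ℕ) : rnk P (rd0 P φ k) k' = rd0 P φ k' := by
  rw [rnk, nIn_rd0 φ hk, rd0, rd0, Nat.add_sub_cancel]

theorem T0_lt_rd0 {φ : ℕ} (hφ : 1 ≤ φ) (k : ℕ) : P.T0 < rd0 P φ k := by
  have := Nat.le_mul_of_pos_left P.T0 hφ
  rw [rd0]
  omega

theorem eq_rd0 (hP : Good P) {t : ℕ} (ht : P.T0 < t) :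
    t = rd0 P (phs P t) (nIn P t) ∧ 1 ≤ phs P t ∧ nIn P t < P.T0 := by
  have h0 := hP.two_le_T0
  have h1 := Nat.mod_lt (t - 1) (show 0 < P.T0 by omega)
  have h2 := Nat.div_add_mod' (t - 1) P.T0
  rw [rd0, phs, nIn, min_eq_left h1.le]
  exact ⟨by omega, Nat.div_pos (by omega) (by omega), h1⟩

theorem wnd_le {φ k : ℕ} (hφ : 1 ≤ φ) (hk : k < P.T0) : wnd P φ k ≤ φ * P.T0 := by
  obtain ⟨φ, rfl⟩ := Nat.exists_eq_add_of_le' hφ
  rw [wnd, Nat.add_sub_cancel, add_mul]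
  omega

theorem blkP_eq (hP : Good P) {hb : ℕ} (hhb : hb ≤ P.L) (p : ℕ) : blkP P hb p = blk hb p := by
  have := geo_par hP
  rw [blkP, blk, hP.p2_eq (by omega)]

theorem mem_om {c : Ctx} {s : ℤ × ℤ} : s ∈ om c ↔
    (∃ a : ℤ, a.natAbs ≤ c.2.2.2.n ∧ s.1 = c.1 + c.2.2.1 * a) ∧
      ∃ a : ℤ, a.natAbs ≤ c.2.2.2.n ∧ s.2 = c.2.1 + c.2.2.1 * a := by
  simp only [om, List.mem_flatMap, List.mem_map, List.mem_range]
  constructor
  · rintro ⟨a, ha, a', ha', rfl⟩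
    exact ⟨⟨a - c.2.2.2.n, by omega, rfl⟩, a' - c.2.2.2.n, by omega, rfl⟩
  · rintro ⟨⟨a, ha, h⟩, a', ha', h'⟩
    refine ⟨(a + c.2.2.2.n).toNat, by omega, (a' + c.2.2.2.n).toNat, by omega, ?_⟩
    rw [Int.toNat_of_nonneg (by omega), Int.toNat_of_nonneg (by omega), add_sub_cancel_right, add_sub_cancel_right,
      ← h, ← h']

theorem center_mem_om (c : Ctx) : (c.1, c.2.1) ∈ om c := by
  exact mem_om.2 ⟨⟨0, by simp, by simp⟩, 0, by simp, by simp⟩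

theorem om_ne_nil (c : Ctx) : om c ≠ [] := by
  exact List.ne_nil_of_mem (center_mem_om c)

theorem length_om (c : Ctx) : (om c).length = (2 * c.2.2.2.n + 1) ^ 2 := by
  simp [om, List.length_flatMap, sq]

theorem om_near {c : Ctx} (hc : 2 ∣ c.2.2.2.n) {s : ℤ × ℤ} (hs : s ∈ om c) :
    (s.1 - c.1).natAbs ≤ 2 * cw c ∧ (s.2 - c.2.1).natAbs ≤ 2 * cw c := by
  obtain ⟨⟨a, ha, h⟩, a', ha', h'⟩ := mem_om.1 hs
  rw [cw, Nat.mul_div_cancel' (hc.mul_left _), h, h', add_sub_cancel_left, add_sub_cancel_left, Int.natAbs_mul,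
    Int.natAbs_mul, Int.natAbs_natCast]
  exact ⟨Nat.mul_le_mul_left _ ha, Nat.mul_le_mul_left _ ha'⟩

theorem dist1_om {c : Ctx} (hc : 2 ∣ c.2.2.2.n) {s s' : ℤ × ℤ} (hs : s ∈ om c) (hs' : s' ∈ om c) :
    dist1 s s' ≤ 8 * cw c := by
  have := om_near hc hs
  have := om_near hc hs'
  rw [dist1]
  omega

theorem dist1_self (s : ℤ × ℤ) : dist1 s s = 0 := by
  simp [dist1]

theorem dist1_triangle (s s' s'' : ℤ × ℤ) : dist1 s s'' ≤ dist1 s s' + dist1 s' s'' := by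
  simp only [dist1]
  omega

theorem dist1_comm (s s' : ℤ × ℤ) : dist1 s s' = dist1 s' s := by
  simp only [dist1]
  omega

theorem zgrid_ne_nil (P : Par) (α : ℤ) (σ : ℕ) : zgrid P α σ ≠ [] := by
  simp [zgrid]

theorem length_zgrid (hP : Good P) (α : ℤ) (σ : ℕ) : (zgrid P α σ).length = 2 * 2 ^ (P.kg + 2) + 1 := by
  have := geo_par hP
  rw [zgrid, List.length_map, List.length_range, hP.p2_eq (by omega)]

theorem dvd_of_mem_zgrid {α z : ℤ} {σ : ℕ} (h : z ∈ zgrid P α σ) : (gsp P σ : ℤ) ∣ z := by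
  obtain ⟨a, -, rfl⟩ := List.mem_map.1 h
  exact (dvd_mul_right _ _).add (dvd_mul_right _ _)

theorem gsp_pow (hP : Good P) {m : ℕ} (hm : P.kg ≤ m) : gsp P (2 ^ m) = 2 ^ (m - P.kg) := by
  have := geo_par hP
  rw [gsp, hP.p2_eq (by omega), Nat.pow_div hm two_pos]

/-- Multiples of the spacing near `α` are in the grid. -/
theorem mem_zgrid (hP : Good P) {α z : ℤ} {m : ℕ} (hm : P.kg ≤ m) (hd : (gsp P (2 ^ m) : ℤ) ∣ z)
    (h : (z - rdn (gsp P (2 ^ m)) α).natAbs ≤ 4 * 2 ^ m) : z ∈ zgrid P α (2 ^ m) := by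
  have := geo_par hP
  obtain ⟨a, ha, e⟩ := geo_aux (n := 2 ^ (P.kg + 2)) (hd.sub (dvd_mul_right _ _)) (h.trans_eq (by
    rw [gsp_pow hP hm, ← pow_add, show m - P.kg + (P.kg + 2) = m + 2 by omega]
    ring))
  rw [zgrid, hP.p2_eq (by omega)]
  refine List.mem_map.2 ⟨(a + (2 ^ (P.kg + 2) : ℕ)).toNat, List.mem_range.2 (by omega), ?_⟩
  rw [Int.toNat_of_nonneg (by omega), add_sub_cancel_right]
  exact e.symm

theorem wlv_pow (hP : Good P) {m : ℕ} (hm : P.kg ≤ m) {lv : ℕ} (hlv : lv < P.nw) :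
    wlv P (2 ^ m) lv = 2 ^ (m - P.kd + lv) := by
  have := geo_par hP
  rw [wlv, gsp_pow hP hm, hP.p2_eq (by omega), ← pow_add]
  congr 1
  omega

theorem cw_ctxAt (hP : Good P) (σ : ℕ) {lv : ℕ} (hlv : lv < P.nw) (z1 z2 : ℤ) :
    cw (ctxAt P σ lv z1 z2) = wlv P σ lv := by
  have := geo_par hP
  simp only [cw, ctxAt]
  rw [wlv, hP.p2_eq (by omega), hP.p2_eq (by omega), pow_succ, ← mul_assoc, Nat.mul_div_cancel _ two_pos]

theorem wlv_mono (hP : Good P) (σ : ℕ) {lv lv' : ℕ} (h : lv ≤ lv') (hlv : lv' < P.nw) :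
    wlv P σ lv ≤ wlv P σ lv' := by
  have := geo_par hP
  rw [wlv, wlv, hP.p2_eq (by omega), hP.p2_eq (by omega)]
  exact Nat.mul_le_mul_left _ (Nat.pow_le_pow_right two_pos (by omega))

/-- Grid points near the two offsets belong to the context. -/
theorem mem_om_ctxAt (hP : Good P) (σ : ℕ) {lv : ℕ} (hlv : lv < P.nw) {z1 z2 : ℤ} {s : ℤ × ℤ}
    (d1 : (gsp P σ : ℤ) ∣ s.1) (d2 : (gsp P σ : ℤ) ∣ s.2) (e1 : (gsp P σ : ℤ) ∣ z1) (e2 : (gsp P σ : ℤ) ∣ z2)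
    (h1 : (s.1 - z1).natAbs ≤ wlv P σ 0) (h2 : (s.2 - z2).natAbs ≤ wlv P σ 0) :
    s ∈ om (ctxAt P σ lv z1 z2) := by
  have := geo_par hP
  have h0 := wlv_mono hP σ (Nat.zero_le lv) hlv
  have key : ∀ s z : ℤ, (gsp P σ : ℤ) ∣ s → (gsp P σ : ℤ) ∣ z → (s - z).natAbs ≤ wlv P σ 0 →
      ∃ a : ℤ, a.natAbs ≤ P.p2 (P.kg - P.kd + lv + 1) ∧ s = rdn (wlv P σ lv) z + gsp P σ * a := by
    intro s z d e h
    have h3 := geo_rdn (w := wlv P σ lv) (z := z) fun hw => by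
      rwa [(Nat.mul_eq_zero.1 hw).resolve_right (hP.p2_pos _).ne', Nat.cast_zero, zero_dvd_iff] at e
    refine geo_aux (d.sub (Dvd.dvd.mul_right (Int.natCast_dvd_natCast.2 (dvd_mul_right _ _)) _)) ?_
    have h4 : gsp P σ * P.p2 (P.kg - P.kd + lv + 1) = 2 * wlv P σ lv := by
      rw [wlv, hP.p2_eq (by omega), hP.p2_eq (by omega)]
      ring
    omega
  exact mem_om.2 ⟨key _ _ d1 e1 h1, key _ _ d2 e2 h2⟩

theorem cap_eq (hP : Good P) (c : Ctx) : cap P c = cw c * 2 ^ P.kx := by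
  have := geo_par hP
  rw [cap, hP.p2_eq (by omega)]

theorem sclS_cover (hP : Good P) {F C m : ℕ} (hF : 1 ≤ F) (h1 : F ≤ C) (h2 : C ≤ 2 ^ P.kR * F)
    (h3 : F ≤ 2 ^ m) (h4 : 2 ^ m ≤ 32 * 2 ^ P.kR * F) : ∃ j < P.nS, sclS P C j = 2 ^ m := by
  have := geo_par hP
  have h5 : C.size ≤ m + P.kR + 1 := Nat.size_le.2 <| by
    calc C ≤ 2 ^ P.kR * 2 ^ m := h2.trans (Nat.mul_le_mul_left _ h3)
      _ < 2 ^ (m + P.kR + 1) := by rw [← pow_add]; exact Nat.pow_lt_pow_right one_lt_two (by omega)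
  have h6 : m ≤ 5 + P.kR + C.size := (Nat.pow_le_pow_iff_right one_lt_two).1 <| by
    rw [pow_add, pow_add]
    exact h4.trans (Nat.mul_le_mul_left _ (h1.trans (Nat.lt_size_self C).le))
  refine ⟨m + P.kR + 1 - C.size, by omega, ?_⟩
  rw [sclS, hP.p2_eq (by omega), Nat.pow_div (by omega) two_pos]
  congr 1
  omega

theorem sclC_cover (hP : Good P) {c : Ctx} {a m : ℕ} (hc : cw c = 2 ^ a) (h1 : cw c ≤ 2 ^ m * 2 ^ P.kg)
    (h2 : 2 ^ m ≤ 128 * cap P c) : ∃ j < P.nC, sclC P c j = 2 ^ m := by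
  have := geo_par hP
  rw [hc, ← pow_add, Nat.pow_le_pow_iff_right one_lt_two] at h1
  rw [cap_eq hP, hc, show 128 = 2 ^ 7 from rfl, ← pow_add, ← pow_add, Nat.pow_le_pow_iff_right one_lt_two] at h2
  refine ⟨m + P.kg - a, by omega, ?_⟩
  rw [sclC, hP.p2_eq (by omega), hc, ← pow_add, Nat.pow_div (by omega) two_pos]
  congr 1
  omega

theorem sclC_le (hP : Good P) (c : Ctx) {j : ℕ} (hj : j ≤ P.kg) : sclC P c j ≤ cw c := by
  have := geo_par hP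
  rw [sclC, hP.p2_eq (by omega)]
  exact Nat.div_le_of_le_mul ((Nat.mul_le_mul_left _ (Nat.pow_le_pow_right two_pos (by omega))).trans_eq (mul_comm _ _))

theorem le_sclC (hP : Good P) (c : Ctx) {j : ℕ} (hj : P.kg ≤ j) : cw c ≤ sclC P c j := by
  have := geo_par hP
  rw [sclC, hP.p2_eq (by omega), Nat.le_div_iff_mul_le (by positivity)]
  exact Nat.mul_le_mul_left _ (Nat.pow_le_pow_right two_pos (by omega))

end Crest.Agent.R288
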