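import Crest.Agent.R288.Model
import Crest.Agent.R288.FB

/-!
# R288: minima and the dynamic programme over a block (pure lemmas)
-/

set_option autoImplicit false

namespace Crest.Agent.R288

section mn

variable {β : Type} [LinearOrder β] [Zero β]

theorem mn_le {l : List β} {a : β} (h : a ∈ l) : mn l ≤ a := by
  unfold mn
  cases hm : l.argmin id with
  | none => rw [List.argmin_eq_none] at hm; simp [hm] at h
  | some m => exact List.le_of_mem_argmin (f := id) h hm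

theorem mn_mem {l : List β} (h : l ≠ []) : mn l ∈ l := by
  unfold mn
  cases hm : l.argmin id with
  | none => rw [List.argmin_eq_none] at hm; exact absurd hm h
  | some m => exact List.argmin_mem (f := id) hm

theorem le_mn {l : List β} {c : β} (h : l ≠ []) (hc : ∀ a ∈ l, c ≤ a) : c ≤ mn l := by
  exact hc _ (mn_mem h)

end mn

theorem omin_le_init (a : ℕ) (l : List (Option ℕ)) : omin a l ≤ a := by
  unfold omin
  induction l generalizing a with
  | nil => exact le_rfl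
  | cons o t ih =>
    rw [List.foldl_cons]
    refine (ih _).trans ?_
    cases o with
    | none => exact le_rfl
    | some v => exact min_le_left _ _

theorem omin_le {a v : ℕ} {l : List (Option ℕ)} (h : some v ∈ l) : omin a l ≤ v := by
  induction l generalizing a with
  | nil => simp at h
  | cons o t ih =>
    have e : omin a (o :: t) = omin (o.elim a (min a)) t := rfl
    rw [e]
    rcases List.mem_cons.1 h with h | h
    · subst h
      exact (omin_le_init _ _).trans (min_le_right _ _)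
    · exact ih h

theorem le_omin {a c : ℕ} {l : List (Option ℕ)} (ha : c ≤ a) (h : ∀ v, some v ∈ l → c ≤ v) :
    c ≤ omin a l := by
  induction l generalizing a with
  | nil => exact ha
  | cons o t ih =>
    have e : omin a (o :: t) = omin (o.elim a (min a)) t := rfl
    rw [e]
    refine ih ?_ fun v hv => h v (List.mem_cons_of_mem _ hv)
    cases o with
    | none => exact ha
    | some v => exact le_min ha (h v List.mem_cons_self)

/-- The minimum is the initial value or one of the entries. -/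
theorem omin_mem (a : ℕ) (l : List (Option ℕ)) : omin a l = a ∨ some (omin a l) ∈ l := by
  induction l generalizing a with
  | nil => exact Or.inl rfl
  | cons o t ih =>
    have e : omin a (o :: t) = omin (o.elim a (min a)) t := rfl
    rw [e]
    rcases ih (o.elim a (min a)) with h | h
    · cases o with
      | none => exact Or.inl h
      | some v =>
        rw [h]
        show min a v = a ∨ some (min a v) ∈ some v :: t
        rcases min_choice a v with h' | h'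
        · exact Or.inl h'
        · rw [h']; exact Or.inr List.mem_cons_self
    · exact Or.inr (List.mem_cons_of_mem _ h)

variable {Zs : List ℤ} {W W' : ℕ → ℤ → ℤ → ℝ}

theorem gval_gR_step (W : ℕ → ℤ → ℤ → ℝ) (j : ℕ) (js : List ℕ) (zl zr : ℤ) {z1 z2 : ℤ} (h1 : z1 ∈ Zs)
    (h2 : z2 ∈ Zs) :
    gR Zs W (j :: js) zl zr ≤ |((zl - z1 : ℤ) : ℝ)| + W j z1 z2 + gR Zs W js z2 zr :=
  mn_le (List.mem_flatMap.2 ⟨z1, h1, List.mem_map.2 ⟨z2, h2, rfl⟩⟩)

theorem gval_gR_attain (hZ : Zs ≠ []) (W : ℕ → ℤ → ℤ → ℝ) (j : ℕ) (js : List ℕ) (zl zr : ℤ) :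
    ∃ z1 ∈ Zs, ∃ z2 ∈ Zs,
      gR Zs W (j :: js) zl zr = |((zl - z1 : ℤ) : ℝ)| + W j z1 z2 + gR Zs W js z2 zr := by
  obtain ⟨z, hz⟩ := List.exists_mem_of_ne_nil Zs hZ
  have hne : (Zs.flatMap fun z1 => Zs.map fun z2 =>
      |((zl - z1 : ℤ) : ℝ)| + W j z1 z2 + gR Zs W js z2 zr) ≠ [] :=
    List.ne_nil_of_mem (List.mem_flatMap.2 ⟨z, hz, List.mem_map.2 ⟨z, hz, rfl⟩⟩)
  obtain ⟨z1, h1, h⟩ := List.mem_flatMap.1 (mn_mem hne)
  obtain ⟨z2, h2, h⟩ := List.mem_map.1 h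
  exact ⟨z1, h1, z2, h2, h.symm⟩

theorem gR_le_path {js : List ℕ} {l : List (ℕ × ℤ × ℤ)} (hl : l.map Prod.fst = js)
    (hz : ∀ s ∈ l, s.2.1 ∈ Zs ∧ s.2.2 ∈ Zs) (zl zr : ℤ) : gR Zs W js zl zr ≤ pathCost W l zl zr := by
  subst hl
  induction l generalizing zl with
  | nil => exact le_rfl
  | cons s t ih =>
    have hs := hz s List.mem_cons_self
    have ht := ih (fun s' hs' => hz s' (List.mem_cons_of_mem _ hs')) s.2.2
    refine (gval_gR_step W s.1 (t.map Prod.fst) zl zr hs.1 hs.2).trans ?_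
    show _ ≤ |((zl - s.2.1 : ℤ) : ℝ)| + W s.1 s.2.1 s.2.2 + pathCost W t s.2.2 zr
    linarith

theorem gR_exists_path (hZ : Zs ≠ []) (W : ℕ → ℤ → ℤ → ℝ) (js : List ℕ) (zl zr : ℤ) :
    ∃ l : List (ℕ × ℤ × ℤ), l.map Prod.fst = js ∧ (∀ s ∈ l, s.2.1 ∈ Zs ∧ s.2.2 ∈ Zs) ∧
      pathCost W l zl zr ≤ gR Zs W js zl zr := by
  induction js generalizing zl with
  | nil => exact ⟨[], rfl, by simp, le_rfl⟩
  | cons j t ih =>
    obtain ⟨z1, h1, z2, h2, e⟩ := gval_gR_attain hZ W j t zl zr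
    obtain ⟨l, hl, hz, hc⟩ := ih z2
    refine ⟨(j, z1, z2) :: l, by simp [hl], ?_, ?_⟩
    · intro s hs
      rcases List.mem_cons.1 hs with rfl | hs
      · exact ⟨h1, h2⟩
      · exact hz s hs
    · rw [e]
      show |((zl - z1 : ℤ) : ℝ)| + W j z1 z2 + pathCost W l z2 zr ≤ _
      linarith

theorem gR_lip (hZ : Zs ≠ []) (W : ℕ → ℤ → ℤ → ℝ) (js : List ℕ) (zl zr zl' zr' : ℤ) :
    gR Zs W js zl zr ≤ gR Zs W js zl' zr' + |((zl - zl' : ℤ) : ℝ)| + |((zr - zr' : ℤ) : ℝ)| := by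
  obtain ⟨l, hl, hz, hc⟩ := gR_exists_path hZ W js zl' zr'
  have h1 := gR_le_path (W := W) hl hz zl zr
  have h2 := fb_left W l zl zr zl'
  have h3 := pathCost_append W l [] zl' zr zr'
  rw [List.append_nil] at h3
  have h4 : pathCost W [] zr' zr = |((zr - zr' : ℤ) : ℝ)| := by
    show |((zr' - zr : ℤ) : ℝ)| = _
    push_cast
    exact abs_sub_comm _ _
  linarith

theorem gR_append (hZ : Zs ≠ []) (W : ℕ → ℤ → ℤ → ℝ) (js js' : List ℕ) (zl zr m : ℤ) :
    gR Zs W (js ++ js') zl zr ≤ gR Zs W js zl m + gR Zs W js' m zr := by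
  obtain ⟨l, hl, hz, hc⟩ := gR_exists_path hZ W js zl m
  obtain ⟨l', hl', hz', hc'⟩ := gR_exists_path hZ W js' m zr
  have h1 := gR_le_path (W := W) (Zs := Zs) (js := js ++ js') (l := l ++ l') (by simp [hl, hl'])
    (fun s hs => (List.mem_append.1 hs).elim (hz s) (hz' s)) zl zr
  have h2 := pathCost_append W l l' zl zr m
  linarith

theorem gR_mono (hZ : Zs ≠ []) {js : List ℕ}
    (h : ∀ j ∈ js, ∀ z1 ∈ Zs, ∀ z2 ∈ Zs, W j z1 z2 ≤ W' j z1 z2) (zl zr : ℤ) :
    gR Zs W js zl zr ≤ gR Zs W' js zl zr := by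
  obtain ⟨l, hl, hz, hc⟩ := gR_exists_path hZ W' js zl zr
  refine (gR_le_path (W := W) hl hz zl zr).trans (le_trans ?_ hc)
  refine pathCost_mono (fun s hs => h _ ?_ _ (hz s hs).1 _ (hz s hs).2) zl zr
  rw [← hl]
  exact List.mem_map_of_mem hs

theorem gR_nonneg {js : List ℕ} (h : ∀ j z1 z2, 0 ≤ W j z1 z2) (zl zr : ℤ) : 0 ≤ gR Zs W js zl zr := by
  induction js generalizing zl with
  | nil => exact abs_nonneg _
  | cons j t ih =>
    by_cases hZ : Zs = []
    · subst hZ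
      exact le_rfl
    · obtain ⟨z1, -, z2, -, e⟩ := gval_gR_attain hZ W j t zl zr
      rw [e]
      have := ih z2
      have := h j z1 z2
      positivity

/-- Along a chain of boundaries in the grid. -/
theorem gR_le_chain (W : ℕ → ℤ → ℤ → ℝ) (z : ℕ → ℤ) (a n : ℕ) (hz : ∀ j ≤ n, z (a + j) ∈ Zs) :
    gR Zs W (List.range' a n) (z a) (z (a + n)) ≤
      ((List.range' a n).map fun j => W j (z j) (z (j + 1))).sum := by
  have h1 := gR_le_path (W := W) (Zs := Zs) (js := List.range' a n)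
    (l := (List.range' a n).map fun j => (j, z j, z (j + 1))) (by simp [Function.comp_def])
    (by
      intro s hs
      obtain ⟨j, hj, rfl⟩ := List.mem_map.1 hs
      rw [List.mem_range'_1] at hj
      have e1 : j = a + (j - a) := by omega
      have e2 : j + 1 = a + (j - a + 1) := by omega
      refine ⟨?_, ?_⟩
      · show z j ∈ Zs
        rw [e1]; exact hz _ (by omega)
      · show z (j + 1) ∈ Zs
        rw [e2]; exact hz _ (by omega)) (z a) (z (a + n))
  have h2 := pathCost_chain W z a n (z a) (z (a + n))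
  simp only [sub_self, Int.cast_zero, abs_zero, zero_add, add_zero] at h2
  exact h1.trans h2

theorem gR_scale_le (hZ : Zs ≠ []) {τ : ℝ} (hτ : 0 ≤ τ) (js : List ℕ) (zl zr : ℤ) :
    gR Zs (fun j a c => (1 + τ) * W j a c) js zl zr ≤ (1 + τ) * gR Zs W js zl zr := by
  obtain ⟨l, hl, hz, hc⟩ := gR_exists_path hZ W js zl zr
  refine (gR_le_path hl hz zl zr).trans ?_
  refine le_trans ?_ (mul_le_mul_of_nonneg_left hc (by linarith))
  clear hl hz hc
  induction l generalizing zl with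
  | nil =>
    show |((zl - zr : ℤ) : ℝ)| ≤ (1 + τ) * |((zl - zr : ℤ) : ℝ)|
    have := mul_nonneg hτ (abs_nonneg ((zl - zr : ℤ) : ℝ))
    linarith
  | cons s t ih =>
    have h1 := ih s.2.2
    have := mul_nonneg hτ (abs_nonneg ((zl - s.2.1 : ℤ) : ℝ))
    show |((zl - s.2.1 : ℤ) : ℝ)| + (1 + τ) * W s.1 s.2.1 s.2.2 +
      pathCost (fun j a c => (1 + τ) * W j a c) t s.2.2 zr ≤
      (1 + τ) * (|((zl - s.2.1 : ℤ) : ℝ)| + W s.1 s.2.1 s.2.2 + pathCost W t s.2.2 zr)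
    linarith

theorem le_gR_scale (hZ : Zs ≠ []) {τ : ℝ} (hτ : 0 ≤ τ) (hτ' : τ ≤ 1) (js : List ℕ) (zl zr : ℤ) :
    (1 - τ) * gR Zs W js zl zr - js.length ≤ gR Zs (fun j a c => (1 - τ) * W j a c - 1) js zl zr := by
  obtain ⟨l, hl, hz, hc⟩ := gR_exists_path hZ (fun j a c => (1 - τ) * W j a c - 1) js zl zr
  refine le_trans ?_ hc
  have h1 := mul_le_mul_of_nonneg_left (gR_le_path (W := W) hl hz zl zr) (by linarith : 0 ≤ 1 - τ)
  have h2 : (js.length : ℝ) = l.length := by rw [← hl, List.length_map]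
  rw [h2]
  refine le_trans (sub_le_sub_right h1 _) ?_
  clear hl hz hc h1 h2
  induction l generalizing zl with
  | nil =>
    show (1 - τ) * |((zl - zr : ℤ) : ℝ)| - ((0 : ℕ) : ℝ) ≤ |((zl - zr : ℤ) : ℝ)|
    have := mul_nonneg hτ (abs_nonneg ((zl - zr : ℤ) : ℝ))
    push_cast at this ⊢
    linarith
  | cons s t ih =>
    have h1 := ih s.2.2
    have := mul_nonneg hτ (abs_nonneg ((zl - s.2.1 : ℤ) : ℝ))
    show (1 - τ) * (|((zl - s.2.1 : ℤ) : ℝ)| + W s.1 s.2.1 s.2.2 + pathCost W t s.2.2 zr) -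
      ((t.length + 1 : ℕ) : ℝ) ≤ |((zl - s.2.1 : ℤ) : ℝ)| + ((1 - τ) * W s.1 s.2.1 s.2.2 - 1) +
      pathCost (fun j a c => (1 - τ) * W j a c - 1) t s.2.2 zr
    rw [Nat.cast_add, Nat.cast_one]
    linarith

/-- The dynamic programme bounds the cost of a node from above. -/
theorem FOk.le_gR {F : ℕ → ℕ → ℤ → ℤ → ℕ} (hF : FOk F) (hZ : Zs ≠ []) (e L i : ℕ) {hb p : ℕ}
    (hhb : hb ≤ L) (h : ∀ j ∈ blk hb p, ∀ z1 ∈ Zs, ∀ z2 ∈ Zs, (F e (i * 2 ^ L + j) z1 z2 : ℝ) ≤ W j z1 z2)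
    (zl zr : ℤ) : (F (e + hb) (i * 2 ^ (L - hb) + p) zl zr : ℝ) ≤ gR Zs W (blk hb p) zl zr := by
  obtain ⟨l, hl, hz, hc⟩ := gR_exists_path hZ W (blk hb p) zl zr
  refine (hF.le_pathCost e L i hhb l hl zl zr).trans (le_trans ?_ hc)
  refine pathCost_mono (fun s hs => h _ ?_ _ (hz s hs).1 _ (hz s hs).2) zl zr
  rw [← hl]
  exact List.mem_map_of_mem hs

variable {n : ℕ} {tab : Tab}

theorem gval_imp {A B : Type} {R S : A → B → Prop} {l : List A} {m : List B} (h : List.Forall₂ R l m)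
    (h' : ∀ a ∈ l, ∀ b, R a b → S a b) : List.Forall₂ S l m := by
  induction h with
  | nil => exact .nil
  | cons hab _ ih =>
    exact .cons (h' _ List.mem_cons_self _ hab) (ih fun a ha => h' a (List.mem_cons_of_mem _ ha))

theorem gval_and {A B : Type} {R S : A → B → Prop} {l : List A} {m : List B} (h : List.Forall₂ R l m)
    (h' : List.Forall₂ S l m) : List.Forall₂ (fun a b => R a b ∧ S a b) l m := by
  induction h with
  | nil => exact .nil
  | cons hab _ ih =>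
    cases h' with
    | cons hab' ht => exact .cons ⟨hab, hab'⟩ (ih ht)

theorem gval_idx {B : Type} {R : ℤ → B → Prop} {l : List ℤ} {m : List B} (h : List.Forall₂ R l m)
    {z : ℤ} (hz : z ∈ l) (d : B) : (z, m.getD (l.idxOf z) d) ∈ l.zip m := by
  induction h with
  | nil => simp at hz
  | @cons a b l m _ _ ih =>
    by_cases e : a = z
    · subst e
      simp
    · have hz' : z ∈ l := (List.mem_cons.1 hz).resolve_left fun h => e h.symm
      rw [List.idxOf_cons_ne _ e, List.zip_cons_cons]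
      exact List.mem_cons_of_mem _ (ih hz')

theorem gval_row {R1 : ℕ → ℤ → ℤ → ℕ → Prop} (h : TabRel Zs n R1 tab) {j : ℕ} (hj : j < n) :
    List.Forall₂ (fun z1 row => List.Forall₂ (fun z2 v => R1 j z1 z2 v) Zs row) Zs (tab.getD j []) := by
  unfold TabRel at h
  have hlen := h.length_eq
  rw [List.length_range] at hlen
  have h1 := h.get (i := j) (by simpa using hj) (by omega)
  rw [List.getD_eq_getElem _ _ (by omega : j < tab.length)]
  simpa using h1

theorem gval_gN_nil (zl zr : ℤ) : (gN Zs tab [] zl zr : ℝ) = |((zl - zr : ℤ) : ℝ)| := by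
  have : gN Zs tab [] zl zr = (zl - zr).natAbs := rfl
  rw [this, Nat.cast_natAbs, Int.cast_abs]

theorem gval_gL (js : List ℕ) (zr : ℤ) : gL Zs tab js zr = Zs.map fun z => gN Zs tab js z zr := by
  cases js with
  | nil => rfl
  | cons j t => rfl

theorem gval_gN_cons (j : ℕ) (js : List ℕ) (zl zr : ℤ) : gN Zs tab (j :: js) zl zr =
    mn ((Zs.zip (tab.getD j [])).flatMap fun p => (p.2.zip (Zs.map fun z => gN Zs tab js z zr)).map
      fun q => (zl - p.1).natAbs + q.1 + q.2) := by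
  rw [← gval_gL]
  rfl

theorem gval_zip_map {g : ℤ → ℕ} {row : List ℕ} {q : ℕ × ℕ} :
    q ∈ row.zip (Zs.map g) ↔ ∃ z, (z, q.1) ∈ Zs.zip row ∧ q.2 = g z := by
  induction Zs generalizing row with
  | nil => simp
  | cons a t ih =>
    cases row with
    | nil => simp
    | cons b row =>
      rw [List.map_cons, List.zip_cons_cons, List.zip_cons_cons, List.mem_cons, ih]
      constructor
      · rintro (rfl | ⟨z, hz, e⟩)
        · exact ⟨a, List.mem_cons_self, rfl⟩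
        · exact ⟨z, List.mem_cons_of_mem _ hz, e⟩
      · rintro ⟨z, hz, e⟩
        rcases List.mem_cons.1 hz with h | h
        · obtain ⟨h1, h2⟩ := Prod.mk.inj h
          left
          exact Prod.ext h2 (by rw [e, h1])
        · exact Or.inr ⟨z, h, e⟩

theorem gval_gN_mem {R1 : ℕ → ℤ → ℤ → ℕ → Prop} (h : TabRel Zs n R1 tab) {j : ℕ} (hj : j < n)
    (g : ℤ → ℕ) (zl : ℤ) {z1 z2 : ℤ} (h1 : z1 ∈ Zs) (h2 : z2 ∈ Zs) :
    (zl - z1).natAbs + tget Zs tab j z1 z2 + g z2 ∈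
      (Zs.zip (tab.getD j [])).flatMap fun p => (p.2.zip (Zs.map g)).map
        fun q => (zl - p.1).natAbs + q.1 + q.2 := by
  have a1 := gval_row h hj
  have a2 := gval_idx a1 h1 []
  have a3 := gval_idx (List.forall₂_zip a1 a2) h2 0
  refine List.mem_flatMap.2 ⟨_, a2, List.mem_map.2 ⟨(tget Zs tab j z1 z2, g z2), ?_, rfl⟩⟩
  exact gval_zip_map.2 ⟨z2, a3, rfl⟩

theorem gval_gN_attain (hZ : Zs ≠ []) {R1 : ℕ → ℤ → ℤ → ℕ → Prop} (h : TabRel Zs n R1 tab) {j : ℕ}
    (hj : j < n) (js : List ℕ) (zl zr : ℤ) : ∃ z1 ∈ Zs, ∃ z2 ∈ Zs, ∃ v, R1 j z1 z2 v ∧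
      gN Zs tab (j :: js) zl zr = (zl - z1).natAbs + v + gN Zs tab js z2 zr := by
  obtain ⟨z, hz⟩ := List.exists_mem_of_ne_nil Zs hZ
  have hm := mn_mem (List.ne_nil_of_mem (gval_gN_mem h hj (fun z => gN Zs tab js z zr) zl hz hz))
  rw [← gval_gN_cons] at hm
  obtain ⟨p, hp, hm⟩ := List.mem_flatMap.1 hm
  obtain ⟨q, hq, e⟩ := List.mem_map.1 hm
  obtain ⟨z2, h2, e2⟩ := gval_zip_map.1 hq
  have a1 := List.forall₂_zip (gval_row h hj) (a := p.1) (b := p.2) hp
  refine ⟨p.1, (List.of_mem_zip (a := p.1) (b := p.2) hp).1, z2, (List.of_mem_zip h2).1, q.1,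
    List.forall₂_zip a1 h2, ?_⟩
  rw [← e, e2]

theorem gval_gN_le_path {R1 : ℕ → ℤ → ℤ → ℕ → Prop} (h : TabRel Zs n R1 tab) {js : List ℕ}
    (hjs : ∀ j ∈ js, j < n) {l : List (ℕ × ℤ × ℤ)} (hl : l.map Prod.fst = js)
    (hz : ∀ s ∈ l, s.2.1 ∈ Zs ∧ s.2.2 ∈ Zs) (zl zr : ℤ) :
    (gN Zs tab js zl zr : ℝ) ≤ pathCost (fun j a c => (tget Zs tab j a c : ℝ)) l zl zr := by
  subst hl
  induction l generalizing zl with
  | nil => exact (gval_gN_nil zl zr).le
  | cons s t ih =>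
    have hs := hz s List.mem_cons_self
    have ht := ih (fun s' hs' => hz s' (List.mem_cons_of_mem _ hs')) s.2.2
      (fun j hj => hjs j (List.mem_cons_of_mem _ hj))
    have h1 := mn_le (gval_gN_mem h (hjs s.1 List.mem_cons_self)
      (fun z => gN Zs tab (t.map Prod.fst) z zr) zl hs.1 hs.2)
    rw [← gval_gN_cons] at h1
    have h2 : (gN Zs tab (s.1 :: t.map Prod.fst) zl zr : ℝ) ≤ |((zl - s.2.1 : ℤ) : ℝ)| +
        tget Zs tab s.1 s.2.1 s.2.2 + gN Zs tab (t.map Prod.fst) s.2.2 zr := by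
      rw [← Int.cast_abs, ← Nat.cast_natAbs]
      exact_mod_cast h1
    show (gN Zs tab (s.1 :: t.map Prod.fst) zl zr : ℝ) ≤ |((zl - s.2.1 : ℤ) : ℝ)| +
        tget Zs tab s.1 s.2.1 s.2.2 + pathCost (fun j a c => (tget Zs tab j a c : ℝ)) t s.2.2 zr
    linarith

theorem TabRel.mono {R1 R2 : ℕ → ℤ → ℤ → ℕ → Prop} (h : TabRel Zs n R1 tab)
    (h' : ∀ j < n, ∀ z1 ∈ Zs, ∀ z2 ∈ Zs, ∀ v, R1 j z1 z2 v → R2 j z1 z2 v) : TabRel Zs n R2 tab := by
  unfold TabRel at h ⊢
  refine gval_imp h fun j hj m hm => ?_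
  refine gval_imp hm fun z1 h1 row hrow => ?_
  exact gval_imp hrow fun z2 h2 v hv => h' j (List.mem_range.1 hj) z1 h1 z2 h2 v hv

theorem TabRel.and {R1 R2 : ℕ → ℤ → ℤ → ℕ → Prop} (h : TabRel Zs n R1 tab) (h' : TabRel Zs n R2 tab) :
    TabRel Zs n (fun j a c v => R1 j a c v ∧ R2 j a c v) tab := by
  unfold TabRel at h h' ⊢
  refine (gval_and h h').imp fun j m hm => ?_
  refine (gval_and hm.1 hm.2).imp fun z1 row hrow => ?_
  exact gval_and hrow.1 hrow.2

theorem TabRel.tget {R1 : ℕ → ℤ → ℤ → ℕ → Prop} (h : TabRel Zs n R1 tab) {j : ℕ} (hj : j < n)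
    {z1 z2 : ℤ} (h1 : z1 ∈ Zs) (h2 : z2 ∈ Zs) : R1 j z1 z2 (tget Zs tab j z1 z2) := by
  have a1 := gval_row h hj
  have a2 := List.forall₂_zip a1 (gval_idx a1 h1 [])
  exact List.forall₂_zip a2 (gval_idx a2 h2 0)

theorem gR_le_gN (h : TabRel Zs n (fun j a c v => W j a c ≤ v) tab) {js : List ℕ} (hjs : ∀ j ∈ js, j < n)
    (zl zr : ℤ) : gR Zs W js zl zr ≤ gN Zs tab js zl zr := by
  induction js generalizing zl with
  | nil => rw [gval_gN_nil]; exact le_rfl
  | cons j t ih =>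
    by_cases hZ : Zs = []
    · subst hZ
      exact Nat.cast_nonneg _
    · obtain ⟨z1, h1, z2, h2, v, hv, e⟩ :=
        gval_gN_attain hZ h (hjs j List.mem_cons_self) t zl zr
      have h3 := ih (fun j' hj' => hjs j' (List.mem_cons_of_mem _ hj')) z2
      have h4 := gval_gR_step W j t zl zr h1 h2
      rw [e]
      push_cast [Nat.cast_natAbs] at h4 ⊢
      linarith

theorem gN_le_gR (h : TabRel Zs n (fun j a c v => (v : ℝ) ≤ W j a c) tab) {js : List ℕ}
    (hjs : ∀ j ∈ js, j < n) (zl zr : ℤ) : (gN Zs tab js zl zr : ℝ) ≤ gR Zs W js zl zr := by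
  by_cases hZ : Zs = []
  · subst hZ
    cases js with
    | nil => rw [gval_gN_nil]; exact le_rfl
    | cons j t =>
      show ((0 : ℕ) : ℝ) ≤ 0
      simp
  · obtain ⟨l, hl, hz, hc⟩ := gR_exists_path hZ W js zl zr
    refine (gval_gN_le_path h hjs hl hz zl zr).trans (le_trans ?_ hc)
    refine pathCost_mono (fun s hs => ?_) zl zr
    refine h.tget (hjs _ ?_) (hz s hs).1 (hz s hs).2
    rw [← hl]
    exact List.mem_map_of_mem hs

/-- Only the shape of the table matters here. -/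
theorem gN_le_path {R1 : ℕ → ℤ → ℤ → ℕ → Prop} (h : TabRel Zs n R1 tab) {js : List ℕ}
    (hjs : ∀ j ∈ js, j < n) {l : List (ℕ × ℤ × ℤ)} (hl : l.map Prod.fst = js)
    (hz : ∀ s ∈ l, s.2.1 ∈ Zs ∧ s.2.2 ∈ Zs) (zl zr : ℤ) :
    (gN Zs tab js zl zr : ℝ) ≤ pathCost (fun j a c => (tget Zs tab j a c : ℝ)) l zl zr := by
  exact gval_gN_le_path h hjs hl hz zl zr

/-- Accurate tables. -/
theorem gN_acc (hZ : Zs ≠ []) {τ : ℝ} (hτ : 0 ≤ τ) (hτ' : τ ≤ 1)
    (h : TabRel Zs n (fun j a c v => (1 - τ) * W j a c - 1 ≤ v ∧ (v : ℝ) ≤ (1 + τ) * W j a c) tab)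
    {js : List ℕ} (hjs : ∀ j ∈ js, j < n) (zl zr : ℤ) :
    (1 - τ) * gR Zs W js zl zr - js.length ≤ gN Zs tab js zl zr ∧
      (gN Zs tab js zl zr : ℝ) ≤ (1 + τ) * gR Zs W js zl zr := by
  refine ⟨(le_gR_scale hZ hτ hτ' js zl zr).trans ?_, le_trans ?_ (gR_scale_le hZ hτ js zl zr)⟩
  · exact gR_le_gN (h.mono fun j _ z1 _ z2 _ v hv => hv.1) hjs zl zr
  · exact gN_le_gR (h.mono fun j _ z1 _ z2 _ v hv => hv.2) hjs zl zr

end Crest.Agent.R288
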