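import Crest.Agent.R288.SBa

/-!
# R288: concentration of hints
-/

set_option autoImplicit false

namespace Crest.Agent.R288

open RT

namespace Model

variable {M : Model} {P : Par} {r i : ℕ} {s : ℤ × ℤ} {c : Ctx} {j m t : ℕ} {pl : Plan}

theorem hinta_range (n : ℕ) (f : ℕ → ℝ) : ((List.range n).map f).sum = ∑ k ∈ Finset.range n, f k := by
  rw [← List.sum_toFinset _ List.nodup_range, List.toFinset_range]

theorem hinta_flat {A B : Type} (l : List A) (n : A → ℕ) (u : A → B) (g : B → ℝ) :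
    ((l.flatMap fun a => List.replicate (n a) (u a)).map g).sum = (l.map fun a => (n a : ℝ) * g (u a)).sum := by
  induction l with
  | nil => rfl
  | cons a l ih => simp [List.flatMap_cons, ih]

theorem hinta_E_sum {A B : Type} (u : RT A) (l : List B) (f : B → A → ℝ) :
    (u.E fun a => (l.map fun p => f p a).sum) = (l.map fun p => u.E (f p)).sum := by
  induction l with
  | nil => simp
  | cons p l ih => simp only [List.map_cons, List.sum_cons, E_add, ih]

theorem hinta_par (hP : Good P) : P.kK = 2 * P.kx + 2 * P.jj + 14 ∧ 4 * P.kg ≤ 2 ^ (2 * P.jj + 12) := by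
  refine ⟨Par.kK.eq_1 P, ?_⟩
  have h1 := hP.kR_lt
  have h2 := (geo_par hP).2.1
  rw [show 2 * P.jj + 12 = 2 * P.jj + 3 + 9 by ring, pow_add]
  omega

theorem hinta_exp (hP : Good P) {A : ℝ} (hA : 2 ^ (2 * P.jj + 12) ≤ A) : Real.exp (-A) ≤ 1 / 2 ^ (4 * P.kg) := by
  have h1 : ((4 * P.kg : ℕ) : ℝ) ≤ A := le_trans (by exact_mod_cast (hinta_par hP).2) hA
  rw [Real.exp_neg, one_div]
  refine inv_anti₀ (by positivity) (le_trans ?_ (Real.exp_le_exp.2 h1))
  rw [← mul_one ((4 * P.kg : ℕ) : ℝ), Real.exp_nat_mul]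
  exact pow_le_pow_left₀ zero_le_two (by have := Real.add_one_le_exp 1; linarith) _

theorem hinta_keys (hP : Good P) {σ lv lv' : ℕ} (hlv : lv < P.nw) (hlv' : lv' < P.nw) {z1 z2 : ℤ}
    (h : ctxAt P σ lv' z1 z2 ∈ tabKeys P c σ lv) : lv = lv' := by
  have := geo_par hP
  obtain ⟨a1, -, h⟩ := List.mem_flatMap.1 h
  obtain ⟨a2, -, h⟩ := List.mem_map.1 h
  have h1 : P.p2 (P.kg - P.kd + lv + 1) = P.p2 (P.kg - P.kd + lv' + 1) := congrArg (fun c : Ctx => c.2.2.2.n) h
  rw [hP.p2_eq (by omega), hP.p2_eq (by omega)] at h1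
  have := Nat.pow_right_injective (le_refl 2) h1
  omega

theorem mean_cent (M : Model) (P : Par) (r i : ℕ) (pl : Plan) (t : ℕ) :
    (M.cent P r i pl t).mean = ((List.range P.b).map fun j =>
      M.W (r - 1) (i * P.b + j) ((pc pl j).1, (pc pl j).2.1) (some (pc pl j)) t).sum := by
  rw [mean, cent, E_map]
  simp only [Nat.cast_list_sum]
  rw [E_seq_sum, List.map_map]
  rfl

theorem hinta_in (L : List Ctx) (T : Ctx → RT ℕ) {c' : Ctx} (hc : c' ∈ L) :
    (∀ B : ℕ, (T c').All (fun v => v ≤ B) → (seq (L.map T)).All fun es => es.getD (L.idxOf c') 0 ≤ B) ∧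
      ((seq (L.map T)).E fun es => (es.getD (L.idxOf c') 0 : ℝ)) = (T c').mean := by
  have hn := List.idxOf_lt_length_of_mem hc
  refine ⟨fun B hB => (All_seq_map L T (fun a v => a = c' → v ≤ B) fun a _ => ?_).mono fun es hes =>
    valid_getD hes hn 0 (List.getElem_idxOf hn), ?_⟩
  · by_cases ha : a = c'
    · exact ha ▸ hB.mono fun v hv _ => hv
    · exact All_of_forall _ fun v h => absurd h ha
  · rw [E_seq_getD _ _ (by simpa using hn) 0 fun v : ℕ => (v : ℝ), List.getElem_map, List.getElem_idxOf hn]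
    rfl

theorem hinta_out (L : List Ctx) (T : Ctx → RT ℕ) {c' : Ctx} (hc : c' ∉ L) :
    (seq (L.map T)).All fun es => es.getD (L.idxOf c') 0 = 0 :=
  (All_seq_length _).mono fun es hes => by
    rw [List.idxOf_of_notMem hc, List.getD_eq_default _ _ (by simpa using hes.le)]

/-- One draw at level `lv`: the term of the plan is `2^(nw - lv)` times the value of a uniform child `k` at the
centre of its context if that context has level `lv` (then it is in `tabKeys … lv`, because the plan is usable and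
the level is determined by the radius `2^(kg - kd + lv + 1)`), and `0` otherwise (`idxOf` = length).
Values are `≤ cap = wlv · 2^kx = 2^(m - kd + lv + kx)`. -/
theorem draw_term (h : M.Ok P) (hr : 1 ≤ r) (hrH : r ≤ P.H) (ht : P.T0 < t) (hm : P.kg ≤ m)
    (hj : P.kg ≤ j) (hσ : sclC P c j = 2 ^ m) (hu : usable P c j pl = true)
    (hpl : M.PlanOk P r i s (2 ^ m) pl) :
    (∀ lv < P.nw, (M.draw P r i c (2 ^ m) lv t).All fun d =>
      dterm P c (2 ^ m) pl d ≤ 2 ^ (P.nw + m - P.kd + P.kx)) ∧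
    (((List.range P.nw).flatMap fun lv =>
        List.replicate (2 ^ (P.kK + lv)) (M.draw P r i c (2 ^ m) lv t)).map fun u =>
      u.E fun d => (dterm P c (2 ^ m) pl d : ℝ)).sum =
      2 ^ (P.kK + P.nw) / 2 ^ P.L * (M.cent P r i pl t).mean := by
  have hP := h.good
  have hg := geo_par hP
  have hb := hP.b_eq
  have hv := vs h (r := r - 1) (by omega) ht
  choose! lk hlk hctx using hpl.ctx
  have hmem : ∀ k < P.b, ∀ lv < P.nw, pc pl k ∈ tabKeys P c (2 ^ m) lv ↔ lv = lk k := fun k hk lv hlv => by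
    refine ⟨fun h1 => hinta_keys hP hlv (hlk k hk) (hctx k hk ▸ h1), fun h1 => ?_⟩
    rw [usable, Bool.or_eq_true, decide_eq_true_eq, List.all_eq_true] at hu
    obtain ⟨lv', h2, h3⟩ := List.any_eq_true.1 ((hu.resolve_left (by omega)) k (List.mem_range.2 hk))
    rw [decide_eq_true_eq, hσ] at h3
    rw [h1, ← hinta_keys hP (List.mem_range.1 h2) (hlk k hk) (hctx k hk ▸ h3)]
    exact h3
  refine ⟨fun lv hlv => ?_, ?_⟩
  · rw [draw, All_bind]
    refine (All_rnd _).mono fun k hk => ?_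
    rw [All_map]
    rw [← hb] at hk
    by_cases h1 : pc pl k ∈ tabKeys P c (2 ^ m) lv
    · refine ((hinta_in _ (fun c' => M.top (r - 1) (i * P.b + k) (c'.1, c'.2.1) (some c') t) h1).1 _
        ((hv _ _ _ (hpl.cert k hk) (center_mem_om _)).mono fun v hv' => hv'.2.1)).mono fun es hes => ?_
      refine (Nat.mul_le_mul_left _ hes).trans (le_of_eq ?_)
      rw [cap_eq hP, hctx k hk, cw_ctxAt hP _ (hlk k hk), wlv_pow hP hm (hlk k hk), ← (hmem k hk lv hlv).1 h1,
        hP.p2_eq (by omega), ← pow_add, ← pow_add]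
      congr 1
      omega
    · refine (hinta_out _ _ h1).mono fun es hes => ?_
      rw [dterm, hes]
      exact Nat.zero_le _
  · rw [hinta_flat, hinta_range, mean_cent, hinta_range, Finset.mul_sum]
    have e : ∀ lv ∈ Finset.range P.nw, ((2 ^ (P.kK + lv) : ℕ) : ℝ) *
        (M.draw P r i c (2 ^ m) lv t).E (fun d => (dterm P c (2 ^ m) pl d : ℝ)) =
        ∑ k ∈ Finset.range P.b, if lv = lk k then 2 ^ (P.kK + P.nw) / 2 ^ P.L *
          M.W (r - 1) (i * P.b + k) ((pc pl k).1, (pc pl k).2.1) (some (pc pl k)) t else 0 := fun lv hlv => by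
      rw [Finset.mem_range] at hlv
      rw [draw, E_bind, E_rnd, ← hb, mul_div_assoc', Finset.mul_sum, Finset.sum_div]
      refine Finset.sum_congr rfl fun k hk => ?_
      rw [Finset.mem_range] at hk
      rw [E_map]
      simp only [dterm, Nat.cast_mul, E_mul_left]
      split_ifs with h1
      · rw [(hinta_in _ (fun c' => M.top (r - 1) (i * P.b + k) (c'.1, c'.2.1) (some c') t)
          ((hmem k hk lv hlv).2 h1)).2, hP.p2_eq (by omega), W,
          show P.kK + P.nw = P.kK + lv + (P.nw - lv) by omega, pow_add (2 : ℝ) (P.kK + lv)]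
        push_cast
        ring
      · rw [E_congr (g := fun _ => 0) ((hinta_out _ _ fun h2 => h1 ((hmem k hk lv hlv).1 h2)).mono
          fun es hes => by rw [hes, Nat.cast_zero]), E_const]
        simp
    rw [Finset.sum_congr rfl e, Finset.sum_comm]
    refine Finset.sum_congr rfl fun k hk => ?_
    rw [Finset.sum_ite_eq', if_pos (Finset.mem_range.2 (hlk k (Finset.mem_range.1 hk)))]

/-- `tail_seq` for `f d = dterm · 2^L / 2^(kK+nw) ≤ σ / 2^(kK+1)`, `μ₀ = σ`, `y = σ / 2^kx`; the exponent is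
`2^(2 jj + 13)`, and `kg < 2^(2 jj + 4)`. -/
theorem draws_tail (h : M.Ok P) (hr : 1 ≤ r) (hrH : r ≤ P.H) (ht : P.T0 < t) (hm : P.kg ≤ m)
    (hj : P.kg ≤ j) (hσ : sclC P c j = 2 ^ m) (hu : usable P c j pl = true)
    (hpl : M.PlanOk P r i s (2 ^ m) pl) :
    ((M.draws P r i c (2 ^ m) t).E fun ds =>
      max (|((ds.map (dterm P c (2 ^ m) pl)).sum : ℕ) * (2 ^ P.L / 2 ^ (P.kK + P.nw) : ℝ) -
        (M.cent P r i pl t).mean| - 2 ^ m / 2 ^ P.kx) 0) ≤ 2 ^ m / 2 ^ (4 * P.kg) := by
  have hP := h.good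
  have hg := geo_par hP
  have hK := (hinta_par hP).1
  obtain ⟨h1, h2⟩ := draw_term h hr hrH ht hm hj hσ hu hpl
  have hU : (M.cent P r i pl t).mean ≤ 2 ^ m :=
    E_le ((cent_valid h (vs h (by omega) ht) hpl).mono fun v hv => by exact_mod_cast hv.2)
  set ts := (List.range P.nw).flatMap fun lv => List.replicate (2 ^ (P.kK + lv)) (M.draw P r i c (2 ^ m) lv t)
    with hts
  set a : ℝ := 2 ^ P.L / 2 ^ (P.kK + P.nw) with ha
  have ha0 : 0 < a := by positivity
  have hμ : (ts.map fun u => u.E fun d => (dterm P c (2 ^ m) pl d : ℝ) * a).sum = (M.cent P r i pl t).mean := by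
    simp only [E_mul_right]
    rw [List.sum_map_mul_right, h2, ha]
    field_simp
  have hy1 : (1 : ℝ) ≤ 2 ^ P.kx := one_le_pow₀ one_le_two
  obtain ⟨t1, t2⟩ := tail_seq ts (fun d => (dterm P c (2 ^ m) pl d : ℝ) * a) (B := 2 ^ m / 2 ^ (P.kK + 1))
    (μ₀ := 2 ^ m) (y := 2 ^ m / 2 ^ P.kx) (by positivity) (fun u hu' => by
      obtain ⟨lv, hlv, hu'⟩ := List.mem_flatMap.1 hu'
      rw [List.eq_of_mem_replicate hu']
      refine (h1 lv (List.mem_range.1 hlv)).mono fun d hd => ⟨by positivity, ?_⟩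
      have : (dterm P c (2 ^ m) pl d : ℝ) ≤ 2 ^ (P.nw + m - P.kd + P.kx) := by exact_mod_cast hd
      refine (mul_le_mul_of_nonneg_right this ha0.le).trans (le_of_eq ?_)
      rw [ha, mul_div_assoc', div_eq_div_iff (by positivity) (by positivity), ← pow_add, ← pow_add, ← pow_add]
      congr 1
      omega) (hμ.le.trans hU) (by positivity)
    ((div_le_self (by positivity) hy1).trans (by have : (0 : ℝ) < 2 ^ m := by positivity
                                                 linarith))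
  rw [hμ] at t1 t2
  have e1 : (2 : ℝ) * (2 ^ m / 2 ^ (P.kK + 1)) * 2 ^ m / (2 ^ m / 2 ^ P.kx) ≤ 2 ^ m / 2 := by
    have : (2 : ℝ) * (2 ^ m / 2 ^ (P.kK + 1)) * 2 ^ m / (2 ^ m / 2 ^ P.kx) =
        2 ^ m / 2 * (2 ^ (P.kx + 1) / 2 ^ P.kK) := by
      rw [pow_succ, pow_succ]; field_simp
    rw [this]
    exact mul_le_of_le_one_right (by positivity)
      ((div_le_one (by positivity)).2 (pow_le_pow_right₀ one_le_two (by omega)))
  have e2 := hinta_exp hP (A := ((2 : ℝ) ^ m / 2 ^ P.kx) ^ 2 / (4 * (2 ^ m / 2 ^ (P.kK + 1)) * 2 ^ m)) (by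
    have : ((2 : ℝ) ^ m / 2 ^ P.kx) ^ 2 / (4 * (2 ^ m / 2 ^ (P.kK + 1)) * 2 ^ m) = 2 ^ (2 * P.jj + 13) := by
      rw [hK]; field_simp; ring
    rw [this]
    exact pow_le_pow_right₀ one_le_two (by omega))
  have e3 := mul_le_mul e1 e2 (Real.exp_pos _).le (by positivity)
  refine le_trans (E_mono' _ fun ds => ?_) (((E_add _ _ _).le.trans (add_le_add (t1.trans e3) (t2.trans e3))).trans
    (le_of_eq (by ring)))
  rw [Nat.cast_list_sum, List.map_map, ← List.sum_map_mul_right]
  simp only [Function.comp_def]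
  refine max_le ?_ (add_nonneg (le_max_right _ _) (le_max_right _ _))
  rcases abs_cases ((ds.map fun d => (dterm P c (2 ^ m) pl d : ℝ) * a).sum - (M.cent P r i pl t).mean) with
    ⟨e, -⟩ | ⟨e, -⟩
  · rw [e]
    exact le_add_of_le_of_nonneg (le_max_left _ _) (le_max_right _ _)
  · rw [e, neg_sub]
    exact le_add_of_nonneg_of_le (le_max_right _ _) (le_max_left _ _)

/-- `avg_tail` with `B = σ`, `y = σ / 2^kx`. -/
theorem avgK_tail (hP : Good P) (u : RT ℕ) {m : ℕ} (hu : u.All fun v => v ≤ 2 ^ m) :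
    ((u.avg P.kK).E fun v => max ((v : ℝ) - u.mean - 2 ^ m / 2 ^ P.kx) 0) ≤ tau P * 2 ^ m ∧
      ((u.avg P.kK).E fun v => max (u.mean - v - (2 ^ m / 2 ^ P.kx + 1)) 0) ≤ tau P * 2 ^ m := by
  have hg := geo_par hP
  have hK := (hinta_par hP).1
  have hy1 : (1 : ℝ) ≤ 2 ^ P.kx := one_le_pow₀ one_le_two
  obtain ⟨t1, t2⟩ := avg_tail u P.kK (B := 2 ^ m) (y := 2 ^ m / 2 ^ P.kx) (by positivity)
    (hu.mono fun v hv => by exact_mod_cast hv) (by positivity)
    ((div_le_self (by positivity) hy1).trans (by have : (0 : ℝ) < 2 ^ m := by positivity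
                                                 linarith))
  have e1 : (2 : ℝ) * (2 ^ m) ^ 2 / (2 ^ P.kK * (2 ^ m / 2 ^ P.kx)) ≤ 2 ^ m := by
    have : (2 : ℝ) * (2 ^ m) ^ 2 / (2 ^ P.kK * (2 ^ m / 2 ^ P.kx)) = 2 ^ m * (2 ^ (P.kx + 1) / 2 ^ P.kK) := by
      rw [pow_succ (2 : ℝ) P.kx]; field_simp
    rw [this]
    exact mul_le_of_le_one_right (by positivity)
      ((div_le_one (by positivity)).2 (pow_le_pow_right₀ one_le_two (by omega)))
  have e2 := hinta_exp hP (A := ((2 : ℝ) ^ m / 2 ^ P.kx) ^ 2 * 2 ^ P.kK / (4 * (2 ^ m) ^ 2)) (le_of_eq (by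
    rw [hK]; field_simp; ring))
  have e3 : (1 : ℝ) / 2 ^ (4 * P.kg) ≤ tau P :=
    one_div_le_one_div_of_le (by positivity) (pow_le_pow_right₀ one_le_two (by omega))
  have e4 := (mul_le_mul e1 (e2.trans e3) (Real.exp_pos _).le (by positivity)).trans (mul_comm _ _).le
  exact ⟨t1.trans e4, t2.trans e4⟩

/-- The selected plan `pl*` has `Û pl* ≤ Û pl`, so `U pl* ≤ U pl + 2xσ +` the sum of the tails of all plans
(at most `2^(2kg+4)` plans); the value of the hint exceeds `U pl*` by `xσ` + tail; `cjunc_le`, `dist1_om`,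
`2g ≤ xσ`. -/
theorem hint_tail (h : M.Ok P) (hr : 1 ≤ r) (hrH : r ≤ P.H) (ht : P.T0 < t) (hm : P.kg ≤ m)
    (hc : M.Cert P r i c) (hs : s ∈ om c) (hj : P.kg ≤ j) (hσ : sclC P c j = 2 ^ m)
    {pls : List (Option Plan)} (hl : pls.length ≤ (om c).length) (hp : M.PlsOk P r i c j pls)
    (hpl : some pl ∈ pls) :
    ((M.hint P r i c (2 ^ m) pls t).E fun oh => oh.elim 0 fun g =>
      max ((hval s g : ℝ) - (M.cent P r i pl t).mean - 8 * cw c - 6 * (2 ^ m / 2 ^ P.kx)) 0) ≤
      2 * tau P * 2 ^ m := by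
  have hP := h.good
  have hg := geo_par hP
  have hmem : ∀ pl, pl ∈ pls.filterMap id ↔ some pl ∈ pls := fun pl => by simp
  set a : ℝ := 2 ^ P.L / 2 ^ (P.kK + P.nw) with ha
  have ha0 : 0 < a := by positivity
  set y : ℝ := 2 ^ m / 2 ^ P.kx with hy
  set tl : Plan → List Drw → ℝ := fun p ds =>
    max (|((ds.map (dterm P c (2 ^ m) p)).sum : ℕ) * a - (M.cent P r i p t).mean| - y) 0 with htl
  have htau : 0 ≤ tau P * 2 ^ m := by unfold tau; positivity
  have hle : ∀ p, some p ∈ pls → ∀ ds, tl p ds ≤ ((pls.filterMap id).map fun p => tl p ds).sum := fun p hp' ds =>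
    List.single_le_sum (fun v hv => by
      obtain ⟨q, -, rfl⟩ := List.mem_map.1 hv
      exact le_max_right _ _) _ (List.mem_map.2 ⟨p, (hmem p).2 hp', rfl⟩)
  rw [hint, E_bind]
  refine (E_mono' _ (g := fun ds => tau P * 2 ^ m + 2 * ((pls.filterMap id).map fun p => tl p ds).sum)
    fun ds => ?_).trans ?_
  · have h0 : 0 ≤ tl pl ds := le_max_right _ _
    have h1 := hle pl hpl ds
    cases hsel : selP P c (2 ^ m) pls ds with
    | none =>
      rw [Option.elim_none, E_pure, Option.elim_none]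
      linarith
    | some q =>
      have hq := (hmem q).1 (List.argmin_mem hsel)
      obtain ⟨-, s', hs', hok⟩ := hp q hq
      rw [hσ] at hok
      have h2 := hle q hq ds
      have h3 : (((ds.map (dterm P c (2 ^ m) q)).sum : ℕ) : ℝ) ≤ ((ds.map (dterm P c (2 ^ m) pl)).sum : ℕ) := by
        exact_mod_cast List.le_of_mem_argmin (f := fun pl => (ds.map (dterm P c (2 ^ m) pl)).sum)
          ((hmem pl).2 hpl) hsel
      have h4 := mul_le_mul_of_nonneg_right h3 ha0.le
      have h5 : (M.cent P r i q t).mean - ((ds.map (dterm P c (2 ^ m) q)).sum : ℕ) * a - y ≤ tl q ds :=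
        le_trans (sub_le_sub_right ((neg_sub _ _).ge.trans (neg_le_abs _)) _) (le_max_left _ _)
      have h6 : ((ds.map (dterm P c (2 ^ m) pl)).sum : ℕ) * a - (M.cent P r i pl t).mean - y ≤ tl pl ds :=
        le_trans (sub_le_sub_right (le_abs_self _) _) (le_max_left _ _)
      have h7 : (cjunc P q : ℝ) + dist1 s (cends P q) ≤ 8 * cw c + 3 * y := by
        have k1 := hok.cjunc_le hP (by rw [gsp_pow hP hm]; positivity) s
        have k2 := dist1_om hc.two_dvd hs hs'
        have k3 : ((((List.range P.b).map fun j => cw (pc q j)).sum : ℕ) : ℝ) ≤ y := by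
          rw [hy, le_div_iff₀ (by positivity)]
          exact_mod_cast hok.sum_cw hP
        have k4 : 2 * (gsp P (2 ^ m) : ℝ) ≤ y := by
          rw [hy, le_div_iff₀ (by positivity), gsp_pow hP hm, Nat.cast_pow, Nat.cast_ofNat, ← pow_succ', ← pow_add]
          exact pow_le_pow_right₀ one_le_two (by omega)
        have k5 : (cjunc P q : ℝ) + dist1 s (cends P q) ≤ 8 * cw c + 2 * (gsp P (2 ^ m) : ℝ) +
            2 * ((((List.range P.b).map fun j => cw (pc q j)).sum : ℕ) : ℝ) := by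
          exact_mod_cast k1.trans (by omega)
        linarith
      have h8 := (avgK_tail hP (M.cent P r i q t)
        ((cent_valid h (vs h (by omega) ht) hok).mono fun v hv => hv.2)).1
      rw [Option.elim_some, E_map]
      refine (E_mono' _ (g := fun v : ℕ => max ((v : ℝ) - (M.cent P r i q t).mean - y) 0 + (tl q ds + tl pl ds))
        fun v => ?_).trans ?_
      · have h9 : 0 ≤ tl q ds := le_max_right _ _
        have h10 := le_max_left ((v : ℝ) - (M.cent P r i q t).mean - y) 0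
        have h11 := le_max_right ((v : ℝ) - (M.cent P r i q t).mean - y) 0
        simp only [Option.elim_some, hval]
        push_cast
        exact max_le (by linarith) (by linarith)
      · rw [E_add, E_const]
        linarith
  · rw [E_add, E_const, E_mul_left, hinta_E_sum]
    have h1 := List.sum_le_card_nsmul ((pls.filterMap id).map fun p => (M.draws P r i c (2 ^ m) t).E (tl p))
      (2 ^ m / 2 ^ (4 * P.kg)) fun v hv => by
        obtain ⟨q, hq, rfl⟩ := List.mem_map.1 hv
        obtain ⟨hu, s', -, hok⟩ := hp q ((hmem q).1 hq)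
        exact draws_tail h hr hrH ht hm hj hσ hu (hσ ▸ hok)
    have h2 : (((pls.filterMap id).length : ℕ) : ℝ) ≤ 2 ^ (2 * P.kg + 4) := by
      exact_mod_cast ((List.length_filterMap_le _ _).trans hl).trans (hc.length_om hP)
    rw [List.length_map, nsmul_eq_mul] at h1
    have h3 := h1.trans (mul_le_mul_of_nonneg_right h2 (by positivity))
    have h4 : (2 : ℝ) * (2 ^ (2 * P.kg + 4) * (2 ^ m / 2 ^ (4 * P.kg))) ≤ tau P * 2 ^ m := by
      rw [tau, ← mul_assoc, mul_div_assoc', one_div_mul_eq_div, div_le_div_iff₀ (by positivity) (by positivity),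
        ← pow_succ', ← pow_add, ← pow_add, ← pow_add]
      exact pow_le_pow_right₀ one_le_two (by omega)
    linarith

end Model

end Crest.Agent.R288
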