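import Crest.Agent.R288.HintA

/-!
# R288: the loss caused by the inflation
-/

set_option autoImplicit false

namespace Crest.Agent.R288

open RT

namespace Model

variable {M : Model} {P : Par} {r i : ℕ} {s : ℤ × ℤ} {c : Ctx} {j m φ yh : ℕ} {pl : Plan}
  {pls : List (Option Plan)}

theorem hintb_par (hP : Good P) :
    P.kx = 4 * P.ka ∧ 14 ≤ 2 * P.ka ∧ P.kx + P.L + 2 ≤ P.kg ∧ P.kT ≤ P.kR := by
  obtain ⟨-, h2, h3, -, -, -, h7⟩ := geo_par hP
  have h1 : P.kx = 4 * P.ka := by unfold Par.kx; rfl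
  have h4 : P.ka = 10 * P.jj := by unfold Par.ka; rfl
  have := hP.big
  have := hP.kT_add
  have := hP.ll_kR
  omega

theorem hintb_g (hP : Good P) (hm : P.kg ≤ m) : 0 < gsp P (2 ^ m) ∧ 4 * gsp P (2 ^ m) ≤ 2 ^ m := by
  rw [gsp_pow hP hm]
  refine ⟨by positivity, ?_⟩
  calc 4 * 2 ^ (m - P.kg) = 2 ^ (m - P.kg + 2) := by rw [pow_add]; ring
    _ ≤ 2 ^ m := Nat.pow_le_pow_right (by norm_num) (by have := hintb_par hP; omega)

theorem hintb_hval (h : M.Ok P) (hr : 1 ≤ r) (hrH : r ≤ P.H) {t : ℕ} (ht : P.T0 < t) (hm : P.kg ≤ m)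
    (hc : M.Cert P r i c) (hs : s ∈ om c) (hσ : sclC P c j = 2 ^ m) (hp : M.PlsOk P r i c j pls)
    (hpl : some pl ∈ pls) :
    (M.hintj P r i c j pls t).All fun oh => ∃ g, oh = some g ∧ hval s g ≤ 2 * 2 ^ m + 8 * cw c := by
  refine (hintj_valid h hr (vs h (by omega) ht) hp).mono fun oh ⟨h1, h2⟩ => ?_
  obtain ⟨g, rfl⟩ := Option.ne_none_iff_exists'.1 (h1 ⟨pl, hpl⟩)
  obtain ⟨-, pl', hpl', e1, e2⟩ := h2 g rfl
  obtain ⟨-, s', hs', hok⟩ := hp pl' hpl'
  rw [hσ] at hok e2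
  obtain ⟨g0, g1⟩ := hintb_g h.good hm
  have a1 := hok.cjunc_le h.good g0 s
  have a2 := dist1_om hc.two_dvd hs hs'
  have a4 : 2 ^ 2 ≤ 2 ^ P.kx := Nat.pow_le_pow_right (by norm_num) (plana_kx h.good)
  have a5 := le_trans (Nat.mul_le_mul_left _ a4) (hok.sum_cw h.good)
  refine ⟨g, rfl, ?_⟩
  unfold hval
  rw [e1]
  omega

theorem hintb_max {X J H y : ℕ} {z : ℝ} (h1 : (X : ℝ) + J ≤ z) (h2 : (H : ℝ) - y ≤ z) :
    ((max (X + J) (H - y) : ℕ) : ℝ) ≤ z := by
  rcases le_total (X + J) (H - y) with h | h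
  · rw [max_eq_right h]
    rcases le_total H y with h' | h'
    · rw [Nat.sub_eq_zero_of_le h', Nat.cast_zero]
      exact le_trans (by positivity) h1
    · rw [Nat.cast_sub h']; exact h2
  · rw [max_eq_left h, Nat.cast_add]; exact h1

theorem hintb_lo (h : M.SB P r i s m φ pl) {t : ℕ} (ht : P.T0 < t) {A B : ℕ → ℝ} {a d : ℝ} (ha : 0 ≤ a)
    (hw : ∀ j < P.b, ∀ s' ∈ om (pc pl j), A j ≤ M.W (r - 1) (i * P.b + j) s' (some (pc pl j)) t +
      (B j / d + a * cw (pc pl j) + 1)) :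
    ((List.range P.b).map A).sum ≤ (M.sroot P r i pl t).mean + ((List.range P.b).map B).sum / d +
      (a + 1) * (2 ^ m / 2 ^ P.kx) := by
  have hP := h.ok.good
  have hr' : r - 1 ≤ P.H := by have := h.rH; omega
  have a1 := (sn_range h.ok h.r1 h.rH h.plan ht
    (lo := fun j => A j - (B j / d + a * cw (pc pl j) + 1)) (hi := fun j => cap P (pc pl j))
    (fun j hj s' hs' => ⟨by linarith [hw j hj s' hs'],
      (W_some_bounds h.ok hr' (h.plan.cert j hj) hs' ht).2⟩) (h.plan.nodeOk_root hP)).1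
  rw [blk_top, ← hP.b_eq] at a1
  have e : ∀ n, ((List.range n).map fun j => A j - (B j / d + a * cw (pc pl j) + 1)).sum =
      ((List.range n).map A).sum - (((List.range n).map B).sum / d +
        a * (((List.range n).map fun j => cw (pc pl j)).sum : ℕ) + n) := by
    intro n
    induction n with
    | zero => simp
    | succ n ih =>
      simp only [List.range_succ, List.map_append, List.sum_append, ih, List.map_cons, List.map_nil,
        List.sum_cons, List.sum_nil]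
      push_cast
      ring
  rw [e] at a1
  have a2 : ((((List.range P.b).map fun j => cw (pc pl j)).sum : ℕ) : ℝ) ≤ 2 ^ m / 2 ^ P.kx := by
    rw [le_div_iff₀ (by positivity)]
    exact_mod_cast h.plan.sum_cw hP
  have a3 : (P.b : ℝ) ≤ 2 ^ m / 2 ^ P.kx := by
    rw [le_div_iff₀ (by positivity), hP.b_eq]
    push_cast
    rw [← pow_add]
    exact pow_le_pow_right₀ (by norm_num) (by have := hintb_par hP; have := h.lo; omega)
  have a4 := mul_le_mul_of_nonneg_left a2 ha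
  unfold sroot
  linarith

theorem hintb_sum {e : ℕ → ℝ} {E : ℝ} {p : ℕ → Prop} [DecidablePred p] {n : ℕ} (hE : 0 ≤ E)
    (h1 : ∀ k < n, e k ≤ E) (h2 : ∀ k, k + 1 < n → ¬ p k → e (k + 1) ≤ 0) :
    ∑ k ∈ Finset.range n, e k ≤ (1 + ((Finset.range (n - 1)).filter p).card) * E := by
  rcases n with _ | n
  · simp only [Finset.range_zero, Finset.sum_empty]; positivity
  rw [Finset.sum_range_succ', Nat.add_sub_cancel]
  have a1 : ∑ k ∈ Finset.range n, e (k + 1) ≤ ∑ k ∈ Finset.range n, if p k then E else 0 :=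
    Finset.sum_le_sum fun k hk => by
      have := Finset.mem_range.1 hk
      split_ifs with hp
      · exact h1 _ (by omega)
      · exact h2 _ (by omega) hp
  rw [← Finset.sum_filter, Finset.sum_const, nsmul_eq_mul] at a1
  have := h1 0 (by omega)
  linarith

theorem hintb_e1 {D τ σ x mb S Z w y U μ : ℝ} (hD : 16384 ≤ D) (hτ : 0 ≤ τ) (hx : 8 ≤ x)
    (hτx : τ * σ ≤ x / 2) (hmb : 0 ≤ mb) (h2 : mb ≤ σ) (hZ : S - mb ≤ Z) (hw : 0 ≤ w)
    (hy : (1 - τ) * mb / D - 3 + 16 * w ≤ y) (hU : U ≤ μ + S / D + 25 * x) :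
    U - μ + 8 * w + 7 * x + 1 - y ≤ Z / D + 33 * x := by
  have a1 : (S - mb) / D ≤ Z / D := div_le_div_of_nonneg_right hZ (by linarith)
  have a2 : τ * mb / D ≤ τ * mb := div_le_self (by positivity) (by linarith)
  have a3 : τ * mb ≤ τ * σ := mul_le_mul_of_nonneg_left h2 hτ
  have a4 : S / D - (1 - τ) * mb / D = (S - mb) / D + τ * mb / D := by ring
  linarith

theorem hintb_e2 {D τ σ x mb w y U μ μ' : ℝ} (hD : 16384 ≤ D) (hτ : 0 ≤ τ) (hτ2 : τ ≤ 1 / 2)
    (hx : 8 ≤ x) (hx' : x = σ / D / D) (h1 : σ ≤ 128 * (mb + 8 * w + 1)) (hw : 0 ≤ w)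
    (hy : (1 - τ) * mb / D - 3 + 16 * w ≤ y) (hU : U ≤ μ + 9 * x) (hμ : μ - μ' ≤ σ / D / 512) :
    U - μ' + 8 * w + 7 * x + 1 - y ≤ 0 := by
  have hD0 : 0 < D := by linarith
  have a0 : σ / D = x * D := by rw [hx']; field_simp
  have a1 : x * 16384 ≤ σ / D := by rw [a0]; exact mul_le_mul_of_nonneg_left hD (by linarith)
  have a2 : (1 - τ) * (σ / 128 - (8 * w + 1)) / D ≤ (1 - τ) * mb / D :=
    div_le_div_of_nonneg_right (mul_le_mul_of_nonneg_left (by linarith) (by linarith)) hD0.le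
  have a3 : (1 - τ) * (σ / 128 - (8 * w + 1)) / D =
      (1 - τ) * (σ / D) / 128 - (1 - τ) * (8 * w + 1) / D := by ring
  have a4 : (1 - τ) * (8 * w + 1) / D ≤ (1 - τ) * (8 * w + 1) :=
    div_le_self (mul_nonneg (by linarith) (by linarith)) (by linarith)
  have a5 : (1 - τ) * (8 * w + 1) ≤ 1 * (8 * w + 1) :=
    mul_le_mul_of_nonneg_right (by linarith) (by linarith)
  have a6 : 1 / 2 * (σ / D) ≤ (1 - τ) * (σ / D) :=
    mul_le_mul_of_nonneg_right (by linarith) (by linarith)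
  linarith

theorem hintb_e3 {D σ Z N : ℝ} (hD : 16384 ≤ D) (hσ : 0 < σ) (hZ : 0 ≤ Z) (hN0 : 0 ≤ N)
    (hN : N * (σ / D / 512) ≤ 2 * σ) :
    (1 + N) * (Z / D + 33 * (σ / D / D)) ≤ 1025 * Z + 40000 * σ / D := by
  have hD0 : 0 < D := by linarith
  have a1 : N ≤ 1024 * D := by
    have : N * (σ / D / 512) ≤ 1024 * D * (σ / D / 512) := by
      rw [show 1024 * D * (σ / D / 512) = 2 * σ by field_simp; ring]; exact hN
    exact le_of_mul_le_mul_right this (by positivity)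
  have a2 : (1 + N) * (Z / D + 33 * (σ / D / D)) ≤ 1025 * D * (Z / D + 33 * (σ / D / D)) :=
    mul_le_mul_of_nonneg_right (by linarith) (by positivity)
  have a3 : 1025 * D * (Z / D + 33 * (σ / D / D)) = 1025 * Z + 33825 * (σ / D) := by
    field_simp; ring
  have a4 : 0 ≤ σ / D := by positivity
  rw [mul_div_assoc]
  linarith

/-- Crude bound: `X + junc ≤ σ + 2g` and `hval - yh ≤ σ + 2g + 2xσ` by `hintj_valid`, `cjunc_le`, `dist1_om`. -/
theorem infl_le (h : M.Ok P) (hr : 1 ≤ r) (hrH : r ≤ P.H) {t : ℕ} (ht : P.T0 < t) (hm : P.kg ≤ m)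
    (hc : M.Cert P r i c) (hs : s ∈ om c) (hσ : sclC P c j = 2 ^ m) (hp : M.PlsOk P r i c j pls)
    (hpl : some pl ∈ pls) (hown : M.PlanOk P r i s (2 ^ m) pl) (hy : 16 * cw c ≤ yh) :
    M.infl P r i s c j yh pls pl t ≤ 2 * 2 ^ m := by
  unfold infl
  refine E_le ((hintb_hval h hr hrH ht hm hc hs hσ hp hpl).mono ?_)
  rintro _ ⟨g, rfl, hg⟩
  refine E_le ((All_avg_le ((sroot_valid h hr hrH ht (vs h (by omega) ht) hown).mono
    fun v hv => hv.1) _).mono fun X hX => ?_)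
  obtain ⟨g0, g1⟩ := hintb_g h.good hm
  have hJ := hown.junc_le g0
  have : max (X + junc P pl s.1 s.2) (hval s g - yh) ≤ 2 * 2 ^ m := by omega
  simp only [Option.elim]
  exact_mod_cast this

/-- Small scales: `σ ≤ w`, so the static hint is below `yh`. -/
theorem infl_static (h : M.Ok P) (hr : 1 ≤ r) (hrH : r ≤ P.H) {t : ℕ} (ht : P.T0 < t) (hm : P.kg ≤ m)
    (hc : M.Cert P r i c) (hs : s ∈ om c) (hj : j < P.kg) (hσ : sclC P c j = 2 ^ m)
    (hp : M.PlsOk P r i c j pls) (hpl : some pl ∈ pls) (hown : M.PlanOk P r i s (2 ^ m) pl)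
    (hy : 16 * cw c ≤ yh) :
    M.infl P r i s c j yh pls pl t ≤ (M.sroot P r i pl t).mean + 2 * gsp P (2 ^ m) := by
  unfold infl
  refine E_le ((hintb_hval h hr hrH ht hm hc hs hσ hp hpl).mono ?_)
  rintro _ ⟨g, rfl, hg⟩
  obtain ⟨g0, -⟩ := hintb_g h.good hm
  have hJ := hown.junc_le g0
  have hw := sclC_le h.good c hj.le
  rw [hσ] at hw
  calc _ ≤ ((M.sroot P r i pl t).avg P.kK).E fun X => (X : ℝ) + 2 * gsp P (2 ^ m) := by
        refine E_mono' _ fun X => ?_
        have : max (X + junc P pl s.1 s.2) (hval s g - yh) ≤ X + 2 * gsp P (2 ^ m) := by omega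
        simp only [Option.elim]
        exact_mod_cast this
    _ ≤ _ := by
        rw [E_add, E_const]
        have : (((M.sroot P r i pl t).avg P.kK).E fun X => (X : ℝ)) ≤ (M.sroot P r i pl t).mean :=
          mean_avg_le _ _
        linarith

/-- `max (X + J) (H - yh) ≤ X + J + (H - U - 8w - 6xσ)⁺ + (μ - X - xσ - 1)⁺ + (U - μ + 8w + 7xσ + 1 - yh)⁺`. -/
theorem infl_dyn (h : M.Ok P) (hr : 1 ≤ r) (hrH : r ≤ P.H) {t : ℕ} (ht : P.T0 < t) (hm : P.kg ≤ m)
    (hc : M.Cert P r i c) (hs : s ∈ om c) (hj : P.kg ≤ j) (hσ : sclC P c j = 2 ^ m)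
    (hl : pls.length ≤ (om c).length) (hp : M.PlsOk P r i c j pls) (hpl : some pl ∈ pls)
    (hown : M.PlanOk P r i s (2 ^ m) pl) :
    M.infl P r i s c j yh pls pl t ≤ (M.sroot P r i pl t).mean + 2 * gsp P (2 ^ m) +
      3 * tau P * 2 ^ m + max ((M.cent P r i pl t).mean - (M.sroot P r i pl t).mean + 8 * cw c +
        7 * (2 ^ m / 2 ^ P.kx) + 1 - yh) 0 := by
  have hT := hint_tail h hr hrH ht hm hc hs hj hσ hl hp hpl
  have hA := (avgK_tail h.good (M.sroot P r i pl t) (m := m)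
    ((sroot_valid h hr hrH ht (vs h (by omega) ht) hown).mono fun v hv => hv.1)).2
  have hX : (((M.sroot P r i pl t).avg P.kK).E fun X => (X : ℝ)) ≤ (M.sroot P r i pl t).mean :=
    mean_avg_le _ _
  have hv := hintb_hval h hr hrH ht hm hc hs hσ hp hpl
  obtain ⟨g0, -⟩ := hintb_g h.good hm
  have hJ : (junc P pl s.1 s.2 : ℝ) ≤ 2 * gsp P (2 ^ m) := by exact_mod_cast hown.junc_le g0
  have e : M.hintj P r i c j pls t = M.hint P r i c (2 ^ m) pls t := by
    unfold hintj; rw [if_neg (by omega), hσ]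
  unfold infl
  rw [e] at hv ⊢
  generalize (M.sroot P r i pl t).mean = μ at *
  generalize (M.cent P r i pl t).mean = U at *
  generalize (2 : ℝ) ^ m / 2 ^ P.kx = x at *
  have hC := le_max_left (U - μ + 8 * cw c + 7 * x + 1 - yh) 0
  have hC0 := le_max_right (U - μ + 8 * cw c + 7 * x + 1 - yh) 0
  generalize max (U - μ + 8 * cw c + 7 * x + 1 - yh) 0 = C at *
  calc _ ≤ (M.hint P r i c (2 ^ m) pls t).E fun oh => (oh.elim 0 fun g =>
          max ((hval s g : ℝ) - U - 8 * cw c - 6 * x) 0) +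
          (μ + 2 * gsp P (2 ^ m) + tau P * 2 ^ m + C) := by
        refine E_mono (hv.mono ?_)
        rintro _ ⟨g, rfl, -⟩
        simp only [Option.elim]
        have hD := le_max_left ((hval s g : ℝ) - U - 8 * cw c - 6 * x) 0
        have hD0 := le_max_right ((hval s g : ℝ) - U - 8 * cw c - 6 * x) 0
        generalize max ((hval s g : ℝ) - U - 8 * cw c - 6 * x) 0 = D at *
        calc _ ≤ ((M.sroot P r i pl t).avg P.kK).E fun X =>
              ((X : ℝ) + max (μ - X - (x + 1)) 0) + (2 * gsp P (2 ^ m) + D + C) := by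
              refine E_mono' _ fun X => ?_
              have b1 := le_max_left (μ - X - (x + 1)) 0
              have b2 := le_max_right (μ - X - (x + 1)) 0
              exact hintb_max (by linarith) (by linarith)
          _ ≤ _ := by rw [E_add, E_add, E_const]; linarith
    _ ≤ _ := by rw [E_add, E_const]; linarith

/-- `sn_range` with `lo j = W(centre j) - (mbar j / 2^(2ka) + 24 w j + 1)` (`W_some_lip`). -/
theorem SB.cent_le (h : M.SB P r i s m φ pl) {k : ℕ} (hk : k < P.T0) :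
    (M.cent P r i pl (rd0 P φ k)).mean ≤ (M.sroot P r i pl (rd0 P φ k)).mean +
      ((List.range P.b).map fun j => M.mbar P (r - 1) (i * P.b + j) (pc pl j) φ).sum / 2 ^ (2 * P.ka) +
      25 * (2 ^ m / 2 ^ P.kx) := by
  have ht := T0_lt_rd0 (P := P) h.φ1 k
  have hr' : r - 1 ≤ P.H := by have := h.rH; omega
  have := hintb_lo h ht (a := 24) (d := 2 ^ (2 * P.ka)) (by norm_num)
    (A := fun j => M.W (r - 1) (i * P.b + j) ((pc pl j).1, (pc pl j).2.1) (some (pc pl j)) (rd0 P φ k))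
    (B := fun j => M.mbar P (r - 1) (i * P.b + j) (pc pl j) φ) fun j hj s' hs' => by
      have := W_some_lip h.ok hr' (h.plan.cert j hj) (center_mem_om _) hs' ht
      rwa [phs_rd0 φ hk] at this
  rw [mean_cent]
  linarith

/-- `sn_range` with `lo j = W(centre j, k + 1) - (8 w j + 1)` (`W_some_le_some`). -/
theorem SB.cent_succ_le (h : M.SB P r i s m φ pl) {k : ℕ} (hk : k + 1 < P.T0) :
    (M.cent P r i pl (rd0 P φ (k + 1))).mean ≤ (M.sroot P r i pl (rd0 P φ k)).mean +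
      9 * (2 ^ m / 2 ^ P.kx) := by
  have ht := T0_lt_rd0 (P := P) h.φ1 k
  have hr' : r - 1 ≤ P.H := by have := h.rH; omega
  have := hintb_lo h ht (a := 8) (d := 1) (by norm_num)
    (A := fun j => M.W (r - 1) (i * P.b + j) ((pc pl j).1, (pc pl j).2.1) (some (pc pl j))
      (rd0 P φ (k + 1)))
    (B := fun _ => 0) fun j hj s' hs' => by
      have a1 := W_some_le_some h.ok hr' (h.plan.cert j hj) (center_mem_om _) hs' h.φ1 hk
      have a2 : (dist1 ((pc pl j).1, (pc pl j).2.1) s' : ℝ) ≤ 8 * cw (pc pl j) := by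
        exact_mod_cast dist1_om (h.plan.cert j hj).two_dvd (center_mem_om _) hs'
      simp only [zero_div]
      linarith
  rw [mean_cent]
  simp only [List.map_const', List.sum_replicate, smul_zero, zero_div] at this
  linarith

/-- An almost decreasing sequence has few large drops. -/
theorem card_drops {μ : ℕ → ℝ} {B a y : ℝ} {n : ℕ} (ha : 0 ≤ a) (hy : 0 < y) (hB : 0 ≤ B)
    (h0 : ∀ k < n, 0 ≤ μ k ∧ μ k ≤ B) (h : ∀ k, k + 1 < n → μ (k + 1) ≤ μ k + a) :
    (((Finset.range (n - 1)).filter fun k => y < μ k - μ (k + 1)).card : ℝ) * y ≤ B + n * a := by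
  rcases n with _ | n
  · simpa using hB
  have e : ∑ k ∈ Finset.range n, (μ k - μ (k + 1) + a) = μ 0 - μ n + n * a := by
    rw [Finset.sum_add_distrib, Finset.sum_range_sub', Finset.sum_const, Finset.card_range, nsmul_eq_mul]
  have a1 := (h0 0 (by omega)).2
  have a2 := (h0 n (by omega)).1
  simp only [Nat.add_sub_cancel]
  calc _ = ∑ _k ∈ (Finset.range n).filter fun k => y < μ k - μ (k + 1), y := by
        rw [Finset.sum_const, nsmul_eq_mul]
    _ ≤ ∑ k ∈ (Finset.range n).filter fun k => y < μ k - μ (k + 1), (μ k - μ (k + 1) + a) :=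
        Finset.sum_le_sum fun k hk => by have := (Finset.mem_filter.1 hk).2; linarith
    _ ≤ ∑ k ∈ Finset.range n, (μ k - μ (k + 1) + a) :=
        Finset.sum_le_sum_of_subset_of_nonneg (Finset.filter_subset _ _) fun k hk _ => by
          have := h k (by have := Finset.mem_range.1 hk; omega); linarith
    _ ≤ _ := by rw [e]; push_cast; linarith

/-- Static case by `infl_static`.  Dynamic case: the excess of every round is at most
`E1 = (∑ m_j - mbar)⁺ / 2^(2ka) + 33 xσ` (`cent_le`), and the excess of round `k + 1` vanishes unless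
`μ k - μ (k+1) > y' = σ / (512 · 2^(2ka))` (`cent_succ_le`); this happens at most `1024 · 2^(2ka)` times
(`card_drops`, `SB.mono`, `T0 ≤ 2^kR`). -/
theorem SB.infl_sum (h : M.SB P r i s m φ pl) (hc : M.Cert P r i c) (hs : s ∈ om c)
    (hσ : sclC P c j = 2 ^ m) (hl : pls.length ≤ (om c).length) (hp : M.PlsOk P r i c j pls)
    (hpl : some pl ∈ pls) (hy : 16 * cw c ≤ yh)
    (hy' : (1 - tau P) * M.mbar P r i c φ / 2 ^ (2 * P.ka) - 3 + 16 * cw c ≤ yh)
    (h1 : (2 : ℝ) ^ m ≤ 128 * (M.mbar P r i c φ + 8 * cw c + 1)) (h2 : M.mbar P r i c φ ≤ 2 ^ m) :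
    ∑ k ∈ Finset.range P.T0, M.infl P r i s c j yh pls pl (rd0 P φ k) ≤
      ∑ k ∈ Finset.range P.T0, (M.sroot P r i pl (rd0 P φ k)).mean +
        P.T0 * (2 * gsp P (2 ^ m) + 3 * tau P * 2 ^ m) +
        1025 * max (((List.range P.b).map fun j => M.mbar P (r - 1) (i * P.b + j) (pc pl j) φ).sum -
          M.mbar P r i c φ) 0 + 40000 * 2 ^ m / 2 ^ (2 * P.ka) := by
  have hP := h.ok.good
  have hm : P.kg ≤ m := by have := h.lo; omega
  have hτ0 : 0 ≤ tau P := by unfold tau; positivity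
  have hcst : ∀ z : ℝ, ∑ _k ∈ Finset.range P.T0, z = P.T0 * z := fun z => by
    rw [Finset.sum_const, Finset.card_range, nsmul_eq_mul]
  generalize hS : ((List.range P.b).map fun j => M.mbar P (r - 1) (i * P.b + j) (pc pl j) φ).sum = S
  have hZ := le_max_left (S - M.mbar P r i c φ) 0
  have hZ0 := le_max_right (S - M.mbar P r i c φ) 0
  generalize max (S - M.mbar P r i c φ) 0 = Z at *
  rw [← hcst, ← Finset.sum_add_distrib]
  rcases lt_or_ge j P.kg with hj | hj
  · have a1 : (0 : ℝ) ≤ 40000 * 2 ^ m / 2 ^ (2 * P.ka) := by positivity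
    have a2 : (0 : ℝ) ≤ 3 * tau P * 2 ^ m := by positivity
    have : ∑ k ∈ Finset.range P.T0, M.infl P r i s c j yh pls pl (rd0 P φ k) ≤
        ∑ k ∈ Finset.range P.T0, ((M.sroot P r i pl (rd0 P φ k)).mean +
          (2 * gsp P (2 ^ m) + 3 * tau P * 2 ^ m)) := Finset.sum_le_sum fun k _ => by
      have := infl_static h.ok h.r1 h.rH (T0_lt_rd0 h.φ1 k) hm hc hs hj hσ hp hpl h.plan hy
      linarith
    linarith
  obtain ⟨p1, p2, p3, p4⟩ := hintb_par hP
  have hmb0 := mbar_nonneg (M := M) (P := P) r i c φ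
  generalize M.mbar P r i c φ = mb at *
  -- the numbers
  have hD : (16384 : ℝ) ≤ 2 ^ (2 * P.ka) := by
    calc (16384 : ℝ) = 2 ^ 14 := by norm_num
      _ ≤ _ := pow_le_pow_right₀ (by norm_num) p2
  have hx : (2 : ℝ) ^ m / 2 ^ P.kx = 2 ^ m / 2 ^ (2 * P.ka) / 2 ^ (2 * P.ka) := by
    rw [div_div, ← pow_add]; congr 2; omega
  have hx8 : (8 : ℝ) ≤ 2 ^ m / 2 ^ P.kx := by
    rw [le_div_iff₀ (by positivity)]
    calc (8 : ℝ) * 2 ^ P.kx = 2 ^ (P.kx + 3) := by rw [pow_add]; ring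
      _ ≤ _ := pow_le_pow_right₀ (by norm_num) (by have := h.lo; omega)
  have hτx : tau P * 2 ^ m ≤ 2 ^ m / 2 ^ P.kx / 2 := by
    unfold tau
    rw [div_div, ← pow_succ, one_div_mul_eq_div]
    exact div_le_div_of_nonneg_left (by positivity) (by positivity)
      (pow_le_pow_right₀ (by norm_num) (by omega))
  have hτ2 : tau P ≤ 1 / 2 := by
    unfold tau
    exact div_le_div_of_nonneg_left (by positivity) (by positivity)
      (by simpa using pow_le_pow_right₀ (a := (2 : ℝ)) (by norm_num) (show 1 ≤ P.kg by omega))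
  -- the drops
  have hT : (P.T0 : ℝ) * (omg P pl P.L 0 / 2 ^ P.kR) ≤ 2 ^ m := by
    have a1 : omg P pl P.L 0 ≤ 2 ^ m :=
      le_trans (Nat.le_mul_of_pos_right _ (by positivity)) (h.plan.omg_le hP le_rfl (by positivity))
    have a2 : P.T0 ≤ 2 ^ P.kR := by rw [hP.T0_eq]; exact Nat.pow_le_pow_right (by norm_num) p4
    have a3 : (P.T0 : ℝ) * omg P pl P.L 0 ≤ 2 ^ P.kR * 2 ^ m := by exact_mod_cast Nat.mul_le_mul a2 a1
    rw [← mul_div_assoc, div_le_iff₀ (by positivity)]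
    linarith
  have hcard := card_drops (μ := fun k => (M.sroot P r i pl (rd0 P φ k)).mean) (B := 2 ^ m)
    (a := omg P pl P.L 0 / 2 ^ P.kR) (y := 2 ^ m / 2 ^ (2 * P.ka) / 512) (n := P.T0)
    (by positivity) (by positivity) (by positivity)
    (fun k _ => ⟨mean_nonneg _, E_le ((sroot_valid h.ok h.r1 h.rH (T0_lt_rd0 h.φ1 k)
      (vs h.ok (by have := h.rH; omega) (T0_lt_rd0 h.φ1 k)) h.plan).mono fun v hv => by
        exact_mod_cast hv.1)⟩)
    (fun k hk => h.mono hk (h.plan.nodeOk_root hP))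
  have hE := hintb_sum (n := P.T0)
    (e := fun k => max ((M.cent P r i pl (rd0 P φ k)).mean - (M.sroot P r i pl (rd0 P φ k)).mean +
      8 * cw c + 7 * (2 ^ m / 2 ^ P.kx) + 1 - yh) 0)
    (E := Z / 2 ^ (2 * P.ka) + 33 * (2 ^ m / 2 ^ P.kx))
    (p := fun k => (2 : ℝ) ^ m / 2 ^ (2 * P.ka) / 512 < (M.sroot P r i pl (rd0 P φ k)).mean -
      (M.sroot P r i pl (rd0 P φ (k + 1))).mean)
    (by positivity)
    (fun k hk => by
      have a1 := h.cent_le hk
      rw [hS] at a1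
      refine max_le ?_ (by positivity)
      exact hintb_e1 hD hτ0 hx8 hτx hmb0 h2 hZ (Nat.cast_nonneg _) hy' a1)
    (fun k hk hp' => by
      have a1 := h.cent_succ_le hk
      refine max_le ?_ le_rfl
      exact hintb_e2 hD hτ0 hτ2 hx8 hx h1 (Nat.cast_nonneg _) hy' a1 (not_lt.1 hp'))
  have hfin := hintb_e3 (σ := 2 ^ m) hD (by positivity) hZ0 (Nat.cast_nonneg _)
    (le_trans hcard (by linarith))
  rw [← hx] at hfin
  have : ∑ k ∈ Finset.range P.T0, M.infl P r i s c j yh pls pl (rd0 P φ k) ≤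
      ∑ k ∈ Finset.range P.T0, (((M.sroot P r i pl (rd0 P φ k)).mean +
        (2 * gsp P (2 ^ m) + 3 * tau P * 2 ^ m)) +
        max ((M.cent P r i pl (rd0 P φ k)).mean - (M.sroot P r i pl (rd0 P φ k)).mean +
          8 * cw c + 7 * (2 ^ m / 2 ^ P.kx) + 1 - yh) 0) := Finset.sum_le_sum fun k _ => by
    have := infl_dyn (yh := yh) h.ok h.r1 h.rH (T0_lt_rd0 h.φ1 k) hm hc hs hj hσ hl hp hpl h.plan
    linarith
  rw [Finset.sum_add_distrib] at this
  linarith

end Model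

end Crest.Agent.R288
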