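import Crest.Agent.R288.Blk

/-!
# R288: the main induction, numerical lemmas and terminal cases

Parameter facts: `Good.small_ll`, `Good.ll_kR`, `Good.kT_add`, `Good.kR_lt`, `Good.mb_add`, `Good.T0_eq`.
-/

set_option autoImplicit false

namespace Crest.Agent.R288

/-- The leading coefficient of `Bnd`. -/
noncomputable def Kc (P : Par) (Λ : ℝ) (r : ℕ) : ℝ :=
  (P.T0 * lam0 P Λ + r * c1 P * Λ + c2 P * Λ) * (1 + rho P) ^ r

theorem inda_cE (P : Par) : 0 < cE P := by unfold cE; positivity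

theorem inda_c1 (P : Par) : 0 ≤ c1 P := by
  have := inda_cE P
  unfold c1
  positivity

theorem inda_c2 (P : Par) : 2 * cE P + 1025 ≤ c2 P := by
  have h1 := inda_cE P
  have h2 : (2 : ℝ) ^ 16 ≤ 2 ^ (P.kd + 16) := pow_le_pow_right₀ one_le_two (Nat.le_add_left _ _)
  rw [c2]
  linarith

theorem inda_Kc {P : Par} {Λ : ℝ} (hΛ : 0 ≤ Λ) (r : ℕ) : P.T0 * lam0 P Λ + c2 P * Λ ≤ Kc P Λ r := by
  have h1 : 0 ≤ rho P := by unfold rho; positivity
  have h2 : 0 ≤ lam0 P Λ := le_trans (by positivity) (le_max_left _ _)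
  have h3 : 0 ≤ c2 P := le_trans (by linarith [inda_cE P]) (inda_c2 P)
  have h4 : 0 ≤ r * c1 P * Λ := mul_nonneg (mul_nonneg (Nat.cast_nonneg _) (inda_c1 P)) hΛ
  refine le_trans ?_ (le_mul_of_one_le_right (by positivity) (one_le_pow₀ (by linarith)))
  linarith

namespace Model

variable {M : Model} {P : Par} {r i : ℕ} {s : ℤ × ℤ} {m φ : ℕ} {Λ : ℝ} {z : ℕ → ℤ}

theorem Bnd_eq (M : Model) (P : Par) (φ : ℕ) (Λ : ℝ) (r i : ℕ) (s : ℤ × ℤ) (c : Option Ctx) :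
    M.Bnd P φ Λ r i s c = Kc P Λ r * M.Fr P r i s + P.T0 * tau P * (c.elim 0 cw : ℕ) -
      cE P * psiR (M.Wt P r i s φ) ((s.2 - s.1 : ℤ) : ℝ) -
      1025 * c.elim 0 fun c => M.mbar P r i c φ := rfl

/-- `ψ ≤ 2 Λ F`, `mbar ≤ Wt ≤ Λ F`, `c2 ≥ 2 cE + 1025`. -/
theorem le_Bnd (h : M.Ok P) (hr : r ≤ P.H) (hΛ : 1 ≤ Λ) (hR : M.Ratio P ((φ - 1) * P.T0) Λ)
    {c : Option Ctx} (hc : M.Adm P r i s c) :
    P.T0 * (lam0 P Λ * M.Fr P r i s + tau P * (c.elim 0 cw : ℕ)) ≤ M.Bnd P φ Λ r i s c := by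
  have h1 := Wt_bounds h hr i s hR
  have h2 : psiR (M.Wt P r i s φ) ((s.2 - s.1 : ℤ) : ℝ) ≤ 2 * M.Wt P r i s φ := by
    refine psiR_le (le_trans ?_ h1.1)
    rw [Blk.blk_abs]
    exact_mod_cast h.fok.disp _ _ _ _
  have h0 : (0 : ℝ) ≤ M.Fr P r i s := Nat.cast_nonneg _
  have h3 : (c.elim 0 fun c => M.mbar P r i c φ) ≤ Λ * M.Fr P r i s := by
    cases c with
    | none => exact mul_nonneg (zero_le_one.trans hΛ) h0
    | some c => exact (mbar_le (hc c rfl).2 φ).trans h1.2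
  have h4 := mul_le_mul_of_nonneg_right (inda_Kc (P := P) (zero_le_one.trans hΛ) r) h0
  have h5 := mul_le_mul_of_nonneg_left (h2.trans (mul_le_mul_of_nonneg_left h1.2 zero_le_two)) (inda_cE P).le
  have h6 := mul_le_mul_of_nonneg_right (inda_c2 P) (mul_nonneg (zero_le_one.trans hΛ) h0)
  rw [Bnd_eq]
  nlinarith

theorem terminal (h : M.Ok P) (hr : r ≤ P.H) (hΛ : 1 ≤ Λ) (hR : M.Ratio P ((φ - 1) * P.T0) Λ)
    {c : Option Ctx} (hc : M.Adm P r i s c)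
    (hW : ∀ k < P.T0, M.W r i s c (rd0 P φ k) ≤ lam0 P Λ * M.Fr P r i s + tau P * (c.elim 0 cw : ℕ)) :
    M.Sum P φ r i s c ≤ M.Bnd P φ Λ r i s c := by
  refine le_trans ?_ (le_Bnd h hr hΛ hR hc)
  have := Finset.sum_le_card_nsmul (Finset.range P.T0) (fun k => M.W r i s c (rd0 P φ k)) _
    fun k hk => hW k (Finset.mem_range.1 hk)
  rwa [Finset.card_range, nsmul_eq_mul] at this

theorem W_le_none (h : M.Ok P) (hr : r ≤ P.H) (hφ : 1 ≤ φ) {c : Option Ctx} (hc : M.Adm P r i s c) (k : ℕ) :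
    M.W r i s c (rd0 P φ k) ≤ M.W r i s none (φ * P.T0) := by
  cases c with
  | none => exact W_none_anti h hr _ _ (by rw [rd0]; omega)
  | some c =>
    exact (W_some_le_none_self h hr (hc c rfl).1.1 (hc c rfl).2 (T0_lt_rd0 hφ k)).trans
      (W_none_anti h hr _ _ (by rw [rd0]; omega))

/-- Cheap states, leaves (`W ≤ 2^0 + |disp| ≤ F + 1`, `F > 2^kg`) and large displacements (`W_none_up`). -/
theorem terminal_easy (h : M.Ok P) (hr : r ≤ P.H) (hφ : 1 ≤ φ) (hΛ : 1 ≤ Λ)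
    (hR : M.Ratio P ((φ - 1) * P.T0) Λ) {c : Option Ctx} (hc : M.Adm P r i s c)
    (h0 : M.Fr P r i s ≤ P.F0 ∨ r = 0 ∨ 2 ^ (r * P.L + P.jj) ≤ (s.2 - s.1).natAbs) :
    M.Sum P φ r i s c ≤ M.Bnd P φ Λ r i s c := by
  refine terminal h hr hΛ hR hc fun k _ => ?_
  have hF : (0 : ℝ) ≤ M.Fr P r i s := Nat.cast_nonneg _
  have h1 : (1 + eta P) * M.Fr P r i s ≤ lam0 P Λ * M.Fr P r i s :=
    mul_le_mul_of_nonneg_right (le_max_right _ _) hF
  have h2 : 0 ≤ tau P * (c.elim 0 cw : ℕ) := by unfold tau; positivity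
  have he : 0 ≤ eta P := by unfold eta; positivity
  refine le_trans ?_ (h1.trans (le_add_of_nonneg_right h2))
  by_cases hc0 : M.Fr P r i s ≤ P.F0
  · rw [W_cheap h hr (fun _ => T0_lt_rd0 hφ k) ?_ hc0]
    · nlinarith [mul_nonneg he hF]
    · cases c with
      | none => exact Nat.zero_le _
      | some c => exact mono_radc h (hc c rfl).1.1
  have h3 := (W_le_none h hr hφ hc k).trans (W_none_up h hr i s _)
  have h4 : (s.2 - s.1).natAbs ≤ M.Fr P r i s := h.fok.disp _ _ _ _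
  have h5 : 2 ^ (r * P.L + P.jj) ≤ M.Fr P r i s := by
    rcases h0 with h0 | h0 | h0
    · exact absurd h0 hc0
    · have a1 := geo_par h.good
      have a2 := h.good.small_ll
      have a3 := h.good.ll_kR
      rw [h.good.F0_eq] at hc0
      refine le_trans (Nat.pow_le_pow_right two_pos ?_) (not_le.1 hc0).le
      rw [h0, zero_mul]
      omega
    · exact h0.trans h4
  have h6 : (2 : ℝ) ^ (r * P.L) ≤ eta P * M.Fr P r i s := by
    rw [eta, one_div_mul_eq_div, le_div_iff₀ (by positivity), ← pow_add]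
    exact_mod_cast h5
  have h7 : (((s.2 - s.1).natAbs : ℕ) : ℝ) ≤ M.Fr P r i s := by exact_mod_cast h4
  rw [Nat.cast_add, Nat.cast_pow, Nat.cast_ofNat] at h3
  linarith

/-- Otherwise there is a block: `2^m ∈ [16 Λ F, 32 Λ F]`, `F ≤ 2^(2hh + jj + 1)`, `FOk.exists_comp`. -/
theorem exists_blk (h : M.Ok P) (hr : r ≤ P.H) (hφ : 1 ≤ φ) (hΛ : 1 + eta P ≤ Λ) (hΛ' : Λ ≤ 2 ^ P.kR)
    (hR : M.Ratio P ((φ - 1) * P.T0) Λ)
    (h0 : ¬ (M.Fr P r i s ≤ P.F0 ∨ r = 0 ∨ 2 ^ (r * P.L + P.jj) ≤ (s.2 - s.1).natAbs)) :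
    ∃ m z, M.Blk P r i s m φ Λ z := by
  simp only [not_or, not_le] at h0
  obtain ⟨h1, h2, h3⟩ := h0
  have hP := h.good
  have he : 0 ≤ eta P := by unfold eta; positivity
  have h4 : (2 : ℝ) ^ P.kg ≤ M.Fr P r i s := by
    have := h1.le
    rw [hP.F0_eq] at this
    exact_mod_cast this
  have h5 : (1 : ℝ) ≤ 2 ^ P.kg := one_le_pow₀ one_le_two
  have h6 : (M.Fr P r i s : ℝ) ≤ Λ * M.Fr P r i s := le_mul_of_one_le_left (Nat.cast_nonneg _) (by linarith)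
  obtain ⟨m, hm1, hm2⟩ := exists_nat_pow_near (x := 32 * Λ * M.Fr P r i s) (y := (2 : ℝ)) (by linarith) one_lt_two
  rw [pow_succ] at hm2
  have h7 : P.kg ≤ m := (pow_le_pow_iff_right₀ (one_lt_two (α := ℝ))).1 (by linarith)
  have h8 : M.Fr P r i s ≤ 2 ^ (2 * P.hh + P.jj + 1) := by
    have a1 : M.Fr P r i s ≤ 2 ^ (r * P.L) + (s.2 - s.1).natAbs := h.fok.up _ _ _ _
    have a2 : r * P.L ≤ 2 * P.hh := (Nat.mul_le_mul_right _ hr).trans hP.HL_le
    have a3 : 2 ^ (r * P.L) ≤ 2 ^ (2 * P.hh + P.jj) := Nat.pow_le_pow_right two_pos (by omega)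
    have a4 : 2 ^ (r * P.L + P.jj) ≤ 2 ^ (2 * P.hh + P.jj) := Nat.pow_le_pow_right two_pos (by omega)
    rw [pow_succ]
    omega
  have h9 : m ≤ 5 + P.kR + (2 * P.hh + P.jj + 1) := by
    refine (pow_le_pow_iff_right₀ (one_lt_two (α := ℝ))).1 (hm1.trans ?_)
    have a1 : (M.Fr P r i s : ℝ) ≤ 2 ^ (2 * P.hh + P.jj + 1) := by exact_mod_cast h8
    rw [pow_add, pow_add, show (2 : ℝ) ^ 5 = 32 by norm_num]
    gcongr
  have h10 : m < 4 * P.hh := by
    have a1 := hP.quart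
    have a2 := hP.small_ll
    have a3 := hP.ll_kR
    have a4 : P.ll * P.ll ≤ P.ll ^ 4 := by
      rw [show P.ll ^ 4 = P.ll * P.ll * (P.ll * P.ll) by ring]
      exact Nat.le_mul_self _
    have a5 := Par.kR.eq_1 P
    omega
  obtain ⟨z, hz⟩ := h.fok.exists_comp ((r - 1) * P.L) P.L i (g := gsp P (2 ^ m))
    (by rw [gsp_pow hP h7]; positivity) s.1 s.2
  exact ⟨m, z, h, by omega, hr, hφ, hΛ, hΛ', h1, by linarith, hm1, h10, hz, hR⟩

/-- Contexts that are too wide (`W ≤ Λ F ≤ σ ≤ τ w`) or in which the trivial bounds suffice. -/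
theorem Blk.terminal_ctx (h : M.Blk P r i s m φ Λ z) {c : Ctx} (hc : M.Adm P r i s (some c))
    (h0 : 2 ^ m * 2 ^ P.kg < cw c ∨ 128 * cap P c < 2 ^ m ∨
      128 * (M.mbar P r i c φ + 8 * cw c + 1) < 2 ^ m) :
    M.Sum P φ r i s (some c) ≤ M.Bnd P φ Λ r i s (some c) := by
  refine terminal h.ok h.rH h.blk_one h.ratio hc fun k _ => ?_
  have hF : (0 : ℝ) ≤ M.Fr P r i s := Nat.cast_nonneg _
  have h1 : Λ / 4 * M.Fr P r i s ≤ lam0 P Λ * M.Fr P r i s :=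
    mul_le_mul_of_nonneg_right (le_max_left _ _) hF
  have h2 : 0 ≤ tau P * (cw c : ℕ) := by unfold tau; positivity
  have h3 := h.lo
  have h4 := h.hi
  have h5 : 0 ≤ Λ * M.Fr P r i s := mul_nonneg (zero_le_one.trans h.blk_one) hF
  rw [Option.elim_some]
  rcases h0 with h0 | h0 | h0
  · have a1 : M.W r i s (some c) (rd0 P φ k) ≤ Λ * M.Fr P r i s :=
      (W_le_none h.ok h.rH h.φ1 hc k).trans (Ratio.mono h.ok h.ratio
        (Nat.mul_le_mul_right _ (Nat.sub_le φ 1)) le_rfl _ h.rH _ _)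
    have a2 : (2 : ℝ) ^ m ≤ tau P * (cw c : ℕ) := by
      rw [tau, one_div_mul_eq_div, le_div_iff₀ (by positivity)]
      exact_mod_cast h0.le
    linarith
  · have a1 := (W_some_bounds h.ok h.rH (hc c rfl).1.1 (hc c rfl).2 (T0_lt_rd0 h.φ1 k)).2
    have a2 : (128 : ℝ) * cap P c ≤ 2 ^ m := by exact_mod_cast h0.le
    linarith
  · have a1 := W_some_le_mbar h.ok h.rH (hc c rfl).1.1 (hc c rfl).2 h.φ1 k
    linarith

theorem Kc_ge (hΛ : 0 ≤ Λ) (r : ℕ) : P.T0 * (1 + eta P) + c2 P * Λ ≤ Kc P Λ r := by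
  exact le_trans (add_le_add_left (mul_le_mul_of_nonneg_left (le_max_right _ _) (Nat.cast_nonneg _)) _)
    (inda_Kc hΛ r)

theorem Blk.slack (h : M.Blk P r i s m φ Λ z) :
    Kc P Λ (r - 1) * (((List.range P.b).map (M.fch P r i z)).sum : ℕ) + c1 P * Λ * M.Fr P r i s +
      rho P * P.T0 * M.Fr P r i s / 2 ≤ Kc P Λ r * M.Fr P r i s := by
  have hF : (0 : ℝ) ≤ M.Fr P r i s := Nat.cast_nonneg _
  have hΛ := zero_le_one.trans h.blk_one
  have hρ : 0 ≤ rho P := by unfold rho; positivity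
  have he : 0 ≤ eta P := by unfold eta; positivity
  have hT : (0 : ℝ) ≤ P.T0 := Nat.cast_nonneg _
  have h1 := Kc_ge (P := P) hΛ (r - 1)
  have h2 := mul_nonneg ((by linarith [inda_cE P] : (0 : ℝ) ≤ 2 * cE P + 1025).trans (inda_c2 P)) hΛ
  have h3 : (P.T0 : ℝ) ≤ Kc P Λ (r - 1) := by nlinarith [mul_nonneg hT he]
  have h4 := mul_le_mul_of_nonneg_left h.sum_fch'.1 (hT.trans h3)
  have h5 : Kc P Λ (r - 1) * (1 + rho P) + c1 P * Λ ≤ Kc P Λ r := by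
    obtain ⟨n, rfl⟩ : ∃ n, r = n + 1 := ⟨r - 1, by have := h.r1; omega⟩
    have a1 : (1 : ℝ) ≤ (1 + rho P) ^ (n + 1) := one_le_pow₀ (by linarith)
    have a2 := le_mul_of_one_le_right (mul_nonneg (inda_c1 P) hΛ) a1
    rw [Nat.add_sub_cancel, Kc, Kc, Nat.cast_add_one, mul_assoc _ _ (1 + rho P), ← pow_succ]
    linarith
  have h6 := mul_le_mul_of_nonneg_right h5 hF
  have h7 := mul_le_mul_of_nonneg_left h3 (mul_nonneg hρ hF)
  have h8 := mul_nonneg (mul_nonneg hρ hF) hT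
  nlinarith

theorem Blk.tiny (h : M.Blk P r i s m φ Λ z) :
    P.T0 * (100 * (tau P * 2 ^ m) + 100 * (tau P * (2 ^ P.kR * M.Fr P r i s))) +
      8 * cE P * gsp P (2 ^ m) ≤ rho P * P.T0 * M.Fr P r i s / 2 := by
  have hP := h.ok.good
  have hF : (0 : ℝ) ≤ M.Fr P r i s := Nat.cast_nonneg _
  have hT : (0 : ℝ) ≤ P.T0 := Nat.cast_nonneg _
  have a1 := hP.small_ll
  have a2 := hP.ll_kR
  have a3 := hP.kT_add
  obtain ⟨h1, h2⟩ := h.g_small
  have h3 : tau P * (2 ^ P.kR * M.Fr P r i s) = M.Fr P r i s / 2 ^ P.kR := by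
    rw [tau, (geo_par hP).2.1, two_mul, pow_add]
    field_simp
  have h4 : cE P ≤ P.T0 := by
    rw [cE, hP.T0_eq, Nat.cast_pow, Nat.cast_ofNat]
    exact pow_le_pow_right₀ one_le_two (by omega)
  have h5 : (8192 : ℝ) / 2 ^ P.kR ≤ rho P := by
    have a4 : (2 : ℝ) ^ (13 + (P.ll + P.jj + 2)) ≤ 2 ^ P.kR := pow_le_pow_right₀ one_le_two (by omega)
    rw [rho, div_le_div_iff₀ (by positivity) (by positivity), one_mul]
    refine le_trans (le_of_eq ?_) a4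
    ring
  have h6 : 8192 * (M.Fr P r i s / 2 ^ P.kR) ≤ rho P * M.Fr P r i s := by
    refine le_trans (le_of_eq ?_) (mul_le_mul_of_nonneg_right h5 hF)
    ring
  have h7 : 0 ≤ tau P * 2 ^ m := by unfold tau; positivity
  have h8 := mul_le_mul_of_nonneg_right h4 h7
  rw [mul_div_assoc] at h2
  have h9 := mul_le_mul_of_nonneg_left h2 hT
  have h10 := mul_le_mul_of_nonneg_left h6 hT
  have h11 : 0 ≤ P.T0 * (M.Fr P r i s / 2 ^ P.kR : ℝ) := by positivity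
  rw [h1, h3]
  nlinarith

theorem Blk.c1_pays (h : M.Blk P r i s m φ Λ z) :
    64 * P.L * P.mb * 2 ^ m / 2 ^ P.ka + (cE P + 1025) * (2 ^ m / (16 * P.T0)) +
      1025 * (8 * (2 ^ m / 2 ^ P.kx)) + 40000 * 2 ^ m / 2 ^ (2 * P.ka) ≤ c1 P * Λ * M.Fr P r i s := by
  have hP := h.ok.good
  have hT : (0 : ℝ) < P.T0 := by exact_mod_cast h.blk_T0
  have h0 : (2 : ℝ) ^ m / 32 ≤ Λ * M.Fr P r i s := by linarith [h.hi]
  rw [mul_assoc (c1 P)]
  refine le_trans ?_ (mul_le_mul_of_nonneg_left h0 (inda_c1 P))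
  have a1 := geo_par hP
  have a2 := hP.mb_add
  have a3 := hP.big
  have a4 := Par.ka.eq_1 P
  have a5 := Par.kx.eq_1 P
  have h1 : (1 : ℝ) ≤ P.L * P.mb := by
    exact_mod_cast Nat.mul_pos hP.L_pos (show 0 < P.mb by omega)
  have h2 : (512 : ℝ) ≤ cE P := by
    rw [cE]
    exact le_trans (by norm_num) (pow_le_pow_right₀ one_le_two (Nat.le_add_left 9 _))
  have h3 : ∀ e, P.ka + 10 ≤ e → (2 : ℝ) ^ m / 2 ^ e ≤ 2 ^ m / 2 ^ P.ka / 1024 := fun e he => by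
    rw [div_div]
    refine div_le_div_of_nonneg_left (by positivity) (by positivity) (le_trans (le_of_eq ?_)
      (pow_le_pow_right₀ one_le_two he))
    ring
  have h4 := h3 P.kx (by omega)
  have h5 := h3 (2 * P.ka) (by omega)
  have h6 : (0 : ℝ) ≤ 2 ^ m / 2 ^ P.ka := by positivity
  have h7 := le_mul_of_one_le_left h6 h1
  have h8 : (0 : ℝ) ≤ 2 ^ m / P.T0 := by positivity
  have h9 := mul_le_mul_of_nonneg_right h2 h8
  have e1 : c1 P * (2 ^ m / 32) = 128 * (P.L * P.mb * (2 ^ m / 2 ^ P.ka)) + 2 * (cE P * (2 ^ m / P.T0)) := by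
    rw [c1]
    ring
  have e2 : (64 : ℝ) * P.L * P.mb * 2 ^ m / 2 ^ P.ka = 64 * (P.L * P.mb * (2 ^ m / 2 ^ P.ka)) := by ring
  have e3 : (cE P + 1025) * (2 ^ m / (16 * P.T0)) = cE P * (2 ^ m / P.T0) / 16 + 1025 / 16 * (2 ^ m / P.T0) := by
    ring
  rw [e1, e2, e3, mul_div_assoc (40000 : ℝ)]
  linarith

/-- The bound of a child in terms of the leaf of the potential tree (`Blk.psi_leaf`). -/
theorem Blk.Bnd_child (h : M.Blk P r i s m φ Λ z) {j : ℕ} (hj : j < P.b) (c : Option Ctx) :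
    M.Bnd P φ Λ (r - 1) (i * P.b + j) (z j, z (j + 1)) c ≤
      Kc P Λ (r - 1) * M.fch P r i z j + P.T0 * tau P * (c.elim 0 cw : ℕ) -
        cE P * psiR (M.Gs P r i s m φ z 0 j) (dsp z 0 j) -
        1025 * c.elim 0 fun c => M.mbar P (r - 1) (i * P.b + j) c φ := by
  have := mul_le_mul_of_nonneg_left (h.psi_leaf hj) (inda_cE P).le
  rw [Bnd_eq, fch]
  linarith

theorem Blk.mbar_le (h : M.Blk P r i s m φ Λ z) {c : Option Ctx} (hc : M.Adm P r i s c) :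
    (c.elim 0 fun c => M.mbar P r i c φ) ≤ Λ * M.Fr P r i s := by
  cases c with
  | none => exact mul_nonneg (zero_le_one.trans h.blk_one) (Nat.cast_nonneg _)
  | some c => exact (Model.mbar_le (hc c rfl).2 φ).trans (Wt_bounds h.ok h.rH i s h.ratio).2

end Model

end Crest.Agent.R288
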