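import Crest.Agent.R288.PlanB
import Crest.Agent.R288.RTb

/-!
# R288: in a regular block the plan exists with high probability
-/

set_option autoImplicit false

namespace Crest.Agent.R288

open RT

namespace Model

variable {M : Model} {P : Par} {r i : ℕ} {s : ℤ × ℤ} {m φ : ℕ} {Λ : ℝ} {z : ℕ → ℤ} {tabs : List Tab}

theorem planc_sum {A B : Type} {u : A → ℝ} {v : B → ℝ} {l : List A} {l' : List B}
    (h : List.Forall₂ (fun a b => u a ≤ v b) l l') : (l.map u).sum ≤ (l'.map v).sum := by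
  induction h with
  | nil => simp
  | cons h1 _ ih => simp only [List.map_cons, List.sum_cons]; linarith

theorem planc_sum' {A B : Type} {u : A → ℝ} {v : B → ℝ} {l : List A} {l' : List B}
    (h : List.Forall₂ (fun a b => v b ≤ u a) l l') : (l'.map v).sum ≤ (l.map u).sum := by
  induction h with
  | nil => simp
  | cons h1 _ ih => simp only [List.map_cons, List.sum_cons]; linarith

theorem planc_cast {B : Type} (g : B → ℕ) (l : List B) :
    (((l.map g).sum : ℕ) : ℝ) = (l.map fun b => (g b : ℝ)).sum := by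
  rw [Nat.cast_list_sum, List.map_map]
  rfl

theorem planc_range (u : ℕ → ℝ) (n : ℕ) : ((List.range n).map u).sum = ∑ k ∈ Finset.range n, u k :=
  (Finset.sum_list_map_count _ _).trans (by
    rw [List.toFinset_range]
    refine Finset.sum_congr rfl fun k hk => ?_
    rw [List.count_eq_one_of_mem List.nodup_range (by simpa using hk), one_smul])

theorem planc_tau (hP : Good P) : 0 < tau P ∧ tau P ≤ 1 / 2 := by
  have hg := geo_par hP
  refine ⟨by unfold tau; positivity, ?_⟩
  unfold tau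
  refine one_div_le_one_div_of_le (by norm_num) ?_
  calc (2 : ℝ) = 2 ^ 1 := by norm_num
    _ ≤ 2 ^ P.kg := pow_le_pow_right₀ (by norm_num) (by omega)

theorem planc_kx (hP : Good P) : 5 ≤ P.kx ∧ 2 * P.ka ≤ P.kx := by
  have := hP.big
  rw [Par.kx.eq_1, Par.ka.eq_1]
  omega

theorem planc_T0 (hP : Good P) : (0 : ℝ) < P.T0 := by
  have := hP.two_le_T0
  exact_mod_cast (by omega : 0 < P.T0)

/-- lower bound for the sum of a column of accurate estimates -/
theorem planc_low (hP : Good P) {B : Type} {r i φ : ℕ} {s : ℤ × ℤ} {l : List B} {g : B → ℕ}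
    (h : List.Forall₂ (fun k b => (1 - tau P) * M.W r i s none (wnd P φ k) - 1 ≤ (g b : ℝ)) (List.range P.T0) l) :
    ((1 - tau P) * M.Wt P r i s φ - 1) * P.T0 ≤ ((l.map g).sum : ℕ) := by
  have h1 := planc_sum h
  have h2 := planc_T0 hP
  rw [planc_range, Finset.sum_sub_distrib, ← Finset.mul_sum] at h1
  rw [planc_cast, Wt, sub_mul, mul_assoc, div_mul_cancel₀ _ h2.ne']
  simpa using h1

theorem planc_pow {a b : ℕ} (h : a ≤ b) : (2 : ℝ) ^ a ≤ 2 ^ b := pow_le_pow_right₀ (by norm_num) h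

/-- counting: `2^a` events of probability `2^(-5 kg)` -/
theorem planc_count (hP : Good P) {N : ℝ} {a : ℕ} (hN : N ≤ 2 ^ a) (ha : a + 1 ≤ 4 * P.kg) :
    N * (1 / 2 ^ (5 * P.kg)) ≤ tau P / 2 := by
  have _ := hP
  unfold tau
  rw [mul_one_div, div_div, div_le_div_iff₀ (by positivity) (by positivity), one_mul]
  calc N * (2 ^ P.kg * 2) ≤ 2 ^ a * (2 ^ P.kg * 2) := by gcongr
    _ = 2 ^ (a + (P.kg + 1)) := by rw [pow_add, pow_succ]
    _ ≤ _ := planc_pow (by omega)

theorem Blk.planc_grid (h : M.Blk P r i s m φ Λ z) (tabs : List Tab) {j lv : ℕ} (hj : j ≤ P.b) (hlv : lv < P.nw)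
    {y : ℤ} (hd : (gsp P (2 ^ m) : ℤ) ∣ y)
    (hy : (y - rdn (wlv P (2 ^ m) lv) ((czs P s.1 s.2 (2 ^ m) tabs).getD j 0)).natAbs ≤ 2 * wlv P (2 ^ m) lv) :
    y ∈ zgrid P s.1 (2 ^ m) := by
  have hP := h.ok.good
  have hg := geo_par hP
  have hm := h.kg_le
  have hx := planc_kx hP
  refine mem_zgrid hP (by omega) hd ?_
  have h1 := czs_btw hP s.1 s.2 (2 ^ m) tabs (hb := P.L) (p := 0) (j := j) le_rfl (by simp) (by simp)
    (by rwa [zero_add, one_mul, ← hP.b_eq])
  rw [zero_mul, zero_add, one_mul, ← hP.b_eq, (czs_zero hP _ _ _ _).1, (czs_zero hP _ _ _ _).2] at h1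
  have hw : 4 * wlv P (2 ^ m) lv ≤ 2 ^ m := by
    rw [wlv_pow hP (by omega) hlv, show 4 = 2 ^ 2 by norm_num, ← pow_add]
    exact Nat.pow_le_pow_right two_pos (by omega)
  have hg4 : 4 * gsp P (2 ^ m) ≤ 2 ^ m := by
    rw [gsp_pow hP (by omega), show 4 = 2 ^ 2 by norm_num, ← pow_add]
    exact Nat.pow_le_pow_right two_pos (by omega)
  have hg0 : 0 < gsp P (2 ^ m) := by rw [gsp_pow hP (by omega)]; positivity
  have hw0 : 0 < wlv P (2 ^ m) lv := by rw [wlv_pow hP (by omega) hlv]; positivity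
  have h2 := natAbs_sub_rdn_lt hw0 ((czs P s.1 s.2 (2 ^ m) tabs).getD j 0)
  have h3 := natAbs_sub_rdn_lt hg0 s.1
  have h4 := natAbs_sub_rdn_lt hg0 s.2
  have h5 : (s.2 - s.1).natAbs ≤ 2 ^ m := (h.ok.fok.disp _ _ _ _).trans h.scale.1
  omega

theorem Blk.planc_cert (h : M.Blk P r i s m φ Λ z) (ha : M.TabsAcc P r i s (2 ^ m) φ tabs)
    (hz : Reach P (2 ^ m) (fun j => (czs P s.1 s.2 (2 ^ m) tabs).getD j 0) z) {j : ℕ} (hj : j < P.b)
    {lv : ℕ} (hlv : lv < P.nw) (hc : 2 * Λ * M.fch P r i z j ≤ (wlv P (2 ^ m) lv * 2 ^ P.kx : ℕ)) :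
    certOk P (zgrid P s.1 (2 ^ m)) tabs j (ctxAt P (2 ^ m) lv ((czs P s.1 s.2 (2 ^ m) tabs).getD j 0)
      ((czs P s.1 s.2 (2 ^ m) tabs).getD (j + 1) 0)) = true := by
  have hP := h.ok.good
  have hg := geo_par hP
  have hm := h.kg_le
  have hx := planc_kx hP
  have hτ := planc_tau hP
  have hT := planc_T0 hP
  set c := ctxAt P (2 ^ m) lv ((czs P s.1 s.2 (2 ^ m) tabs).getD j 0)
    ((czs P s.1 s.2 (2 ^ m) tabs).getD (j + 1) 0) with hcdef
  have hcw : cw c = wlv P (2 ^ m) lv := cw_ctxAt hP _ hlv _ _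
  have h2 : 2 ∣ c.2.2.2.n := by
    rw [hcdef, ctxAt]
    dsimp only
    rw [hP.p2_eq (by omega)]
    exact dvd_pow_self 2 (by omega)
  have hdw : (gsp P (2 ^ m) : ℤ) ∣ (wlv P (2 ^ m) lv : ℤ) := by
    rw [wlv]
    push_cast
    exact dvd_mul_right _ _
  rw [certOk, Bool.and_eq_true, decide_eq_true_eq, List.all_eq_true]
  refine ⟨fun s' hs' => ?_, ?_⟩
  · have h3 := om_near h2 hs'
    obtain ⟨⟨a, -, ea⟩, b, -, eb⟩ := mem_om.1 hs'
    rw [hcw] at h3
    rw [Bool.and_eq_true, List.contains_iff_mem, List.contains_iff_mem]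
    refine ⟨h.planc_grid tabs hj.le hlv ?_ h3.1, h.planc_grid tabs (j := j + 1) hj hlv ?_ h3.2⟩
    · rw [ea]
      exact dvd_add (hdw.trans (rdn_dvd _ _)) (dvd_mul_right _ _)
    · rw [eb]
      exact dvd_add (hdw.trans (rdn_dvd _ _)) (dvd_mul_right _ _)
  · have hmem : (z j, z (j + 1)) ∈ om c := by
      have a1 := hz j hj.le
      have a2 := hz (j + 1) hj
      dsimp only at a1 a2
      exact mem_om_ctxAt hP _ hlv (h.comp.dvd j) (h.comp.dvd (j + 1)) (czs_dvd hP _ _ _ _ _) (czs_dvd hP _ _ _ _ _)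
        (by dsimp only; omega) (by dsimp only; omega)
    have h4 := mn_le (List.mem_map_of_mem (f := fun s' : ℤ × ℤ =>
      (tabs.map fun tab => tget (zgrid P s.1 (2 ^ m)) tab j s'.1 s'.2).sum) hmem)
    have h5 : (((tabs.map fun tab => tget (zgrid P s.1 (2 ^ m)) tab j (z j) (z (j + 1))).sum : ℕ) : ℝ) ≤
        P.T0 * ((1 + tau P) * (Λ * M.fch P r i z j)) := by
      rw [planc_cast]
      refine (planc_sum' (u := fun _ : ℕ => (1 + tau P) * (Λ * M.fch P r i z j)) (gval_imp ha fun k _ tab ht => ?_)).trans ?_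
      · have a1 := (ht.tget hj (h.mem_grid hj.le) (h.mem_grid (j := j + 1) hj)).1.2
        exact a1.trans (mul_le_mul_of_nonneg_left (h.Wk_bounds k j _ _).2 (by linarith))
      · simp
    have h6 : 32 * cw c ≤ cap P c := by
      rw [cap_eq hP, mul_comm]
      exact Nat.mul_le_mul_left _ (le_trans (by norm_num) (Nat.pow_le_pow_right two_pos hx.1))
    rw [← hcw, ← cap_eq hP] at hc
    have h7 : (32 * cw c : ℝ) ≤ cap P c := by exact_mod_cast h6
    have h8 : (0 : ℝ) ≤ Λ * M.fch P r i z j := by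
      have := h.Λ1
      have : 0 < eta P := by unfold eta; positivity
      exact mul_nonneg (by linarith) (Nat.cast_nonneg _)
    have h9 : (1 + tau P) * (Λ * M.fch P r i z j) + 8 * cw c ≤ cap P c := by nlinarith
    have h10 : ((tabs.map fun tab => tget (zgrid P s.1 (2 ^ m)) tab j (z j) (z (j + 1))).sum +
        8 * cw c * P.T0 ≤ cap P c * P.T0) := by
      have : (((tabs.map fun tab => tget (zgrid P s.1 (2 ^ m)) tab j (z j) (z (j + 1))).sum : ℕ) : ℝ) +
          8 * cw c * P.T0 ≤ cap P c * P.T0 := by nlinarith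
      exact_mod_cast this
    dsimp only at h4
    omega

/-- Let `δ = wlv 0 = σ / 2^kd`, `f = fch j`.  The least level with `wlv lv ≥ 2 Λ f / 2^kx` exists (`wlv (L+1) = σ / 2^kx`,
`Λ f ≤ σ / 8`), it is certified by the state `(z j, z (j+1))` (`mem_om_ctxAt`, `mem_zgrid`,
`(1+τ) Λ f + 8 w ≤ cap`), and `find?` returns a level that is not larger. -/
theorem Blk.ctxOf_some (h : M.Blk P r i s m φ Λ z) (ha : M.TabsAcc P r i s (2 ^ m) φ tabs)
    (hz : Reach P (2 ^ m) (fun j => (czs P s.1 s.2 (2 ^ m) tabs).getD j 0) z) {j : ℕ} (hj : j < P.b) :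
    ∃ c, ctxOf P (zgrid P s.1 (2 ^ m)) (2 ^ m) tabs (czs P s.1 s.2 (2 ^ m) tabs) j = some c ∧
      (cap P c : ℝ) ≤ 2 ^ m / 2 ^ (P.L + 1) + 4 * Λ * M.fch P r i z j := by
  classical
  have hP := h.ok.good
  have hg := geo_par hP
  have hm := h.kg_le
  have hw : ∀ lv < P.nw, wlv P (2 ^ m) lv * 2 ^ P.kx = 2 ^ (m - (P.L + 1) + lv) := fun lv hlv => by
    rw [wlv_pow hP (by omega) hlv, ← pow_add]
    congr 1
    omega
  have hΛ : 0 ≤ Λ := by
    have := h.Λ1
    have : 0 < eta P := by unfold eta; positivity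
    linarith
  have hf : Λ * M.fch P r i z j ≤ 2 ^ m / 8 := by
    refine le_trans (mul_le_mul_of_nonneg_left ?_ hΛ) h.sum_fch'.2
    exact_mod_cast List.single_le_sum (fun _ _ => Nat.zero_le _) _ (List.mem_map_of_mem (List.mem_range.2 hj))
  have hf0 : 0 ≤ Λ * M.fch P r i z j := mul_nonneg hΛ (Nat.cast_nonneg _)
  have hex : ∃ lv, lv < P.nw ∧ 2 * Λ * M.fch P r i z j ≤ (wlv P (2 ^ m) lv * 2 ^ P.kx : ℕ) := by
    refine ⟨P.L + 1, by omega, ?_⟩
    rw [hw _ (by omega), show m - (P.L + 1) + (P.L + 1) = m by omega]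
    push_cast
    have : (0 : ℝ) < 2 ^ m := by positivity
    linarith
  have h0 := Nat.find_spec hex
  have hcert := h.planc_cert ha hz hj h0.1 h0.2
  have hex1 : ∃ lv, certOk P (zgrid P s.1 (2 ^ m)) tabs j (ctxAt P (2 ^ m) lv
      ((czs P s.1 s.2 (2 ^ m) tabs).getD j 0) ((czs P s.1 s.2 (2 ^ m) tabs).getD (j + 1) 0)) = true := ⟨_, hcert⟩
  have h1 : Nat.find hex1 ≤ Nat.find hex := Nat.find_min' hex1 hcert
  refine ⟨ctxAt P (2 ^ m) (Nat.find hex1) ((czs P s.1 s.2 (2 ^ m) tabs).getD j 0)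
    ((czs P s.1 s.2 (2 ^ m) tabs).getD (j + 1) 0), ?_, ?_⟩
  · rw [ctxOf, List.find?_map, Option.map_eq_some_iff]
    refine ⟨Nat.find hex1, List.find?_range_eq_some.2 ⟨Nat.find_spec hex1, List.mem_range.2 (by omega),
      fun k hk => ?_⟩, rfl⟩
    simpa using Nat.find_min hex1 hk
  · rw [cap_eq hP, cw_ctxAt hP _ (by omega)]
    have h2 : ((wlv P (2 ^ m) (Nat.find hex1) * 2 ^ P.kx : ℕ) : ℝ) ≤ (wlv P (2 ^ m) (Nat.find hex) * 2 ^ P.kx : ℕ) := by
      exact_mod_cast Nat.mul_le_mul_right _ (wlv_mono hP _ h1 h0.1)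
    refine h2.trans ?_
    have h3 : (2 : ℝ) ^ m / 2 ^ (P.L + 1) = 2 ^ (m - (P.L + 1)) := by
      rw [div_eq_iff (by positivity), ← pow_add]
      congr 1
      omega
    rcases Nat.eq_zero_or_pos (Nat.find hex) with e | e
    · rw [e, hw _ (by omega), h3]
      push_cast
      rw [add_zero]
      linarith
    · have h4 := Nat.find_min hex (m := Nat.find hex - 1) (by omega)
      rw [not_and, not_le] at h4
      have h5 := h4 (by omega)
      rw [hw _ (by omega)] at h5
      rw [hw _ h0.1, show m - (P.L + 1) + Nat.find hex = m - (P.L + 1) + (Nat.find hex - 1) + 1 by omega, pow_succ]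
      push_cast at h5 ⊢
      have : (0 : ℝ) < 2 ^ m / 2 ^ (P.L + 1) := by positivity
      linarith

/-- The certificate bounds the window average: `(1-τ) Wt s' - 1 + 8w ≤ cap`, `w ≥ 1`. -/
theorem Blk.mbar_le_cap (h : M.Blk P r i s m φ Λ z) (ha : M.TabsAcc P r i s (2 ^ m) φ tabs) {j : ℕ}
    (hj : j < P.b) {cz : List ℤ} {c : Ctx}
    (hc : ctxOf P (zgrid P s.1 (2 ^ m)) (2 ^ m) tabs cz j = some c) :
    M.mbar P (r - 1) (i * P.b + j) c φ ≤ 2 * cap P c := by
  have hP := h.ok.good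
  have hm := h.kg_le
  have hτ := planc_tau hP
  have hT := planc_T0 hP
  obtain ⟨lv, hlv, e⟩ := List.mem_map.1 (List.mem_of_find?_eq_some hc)
  have h5 : certOk P (zgrid P s.1 (2 ^ m)) tabs j c = true := List.find?_some hc
  rw [certOk, Bool.and_eq_true, decide_eq_true_eq] at h5
  obtain ⟨s0, hs0, e0⟩ := List.mem_map.1 (mn_mem (l := (om c).map fun s' =>
    (tabs.map fun tab => tget (zgrid P s.1 (2 ^ m)) tab j s'.1 s'.2).sum) (by simpa using om_ne_nil _))
  have hgrid : s0.1 ∈ zgrid P s.1 (2 ^ m) ∧ s0.2 ∈ zgrid P s.1 (2 ^ m) := by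
    simpa using List.all_eq_true.1 h5.1 s0 hs0
  have h6 := planc_low (M := M) hP (r := r - 1) (i := i * P.b + j) (φ := φ) (s := s0)
    (g := fun tab => tget (zgrid P s.1 (2 ^ m)) tab j s0.1 s0.2)
    (gval_imp ha fun k _ tab ht => (ht.tget hj hgrid.1 hgrid.2).1.1)
  have h7 := h5.2
  rw [← e0] at h7
  have h8 : (((tabs.map fun tab => tget (zgrid P s.1 (2 ^ m)) tab j s0.1 s0.2).sum : ℕ) : ℝ) + 8 * cw c * P.T0 ≤
      cap P c * P.T0 := by exact_mod_cast h7
  have h9 : 1 ≤ cw c := by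
    rw [← e, cw_ctxAt hP _ (List.mem_range.1 hlv), wlv_pow hP (by omega) (List.mem_range.1 hlv)]
    exact Nat.one_le_two_pow
  have h10 : (1 : ℝ) ≤ cw c := by exact_mod_cast h9
  have h11 : (1 - tau P) * M.Wt P (r - 1) (i * P.b + j) s0 φ - 1 + 8 * cw c ≤ cap P c := by
    refine le_of_mul_le_mul_right ?_ hT
    rw [add_mul]
    linarith
  have h12 := mbar_le (M := M) (P := P) (r := r - 1) (i := i * P.b + j) hs0 φ
  have h13 := mbar_nonneg (M := M) (P := P) (r - 1) (i * P.b + j) c φ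
  nlinarith

theorem Blk.goodPlan (h : M.Blk P r i s m φ Λ z) (ha : M.TabsAcc P r i s (2 ^ m) φ tabs)
    (hreg : Regular P (2 ^ m) (M.Gs P r i s m φ z) z) :
    M.GoodPlan P r i s (2 ^ m) φ z (planOf P s.1 s.2 (2 ^ m) tabs) := by
  have hP := h.ok.good
  have hz := h.reach ha hreg
  have h1 : ∀ j, ∃ c : Ctx, j < P.b → ctxOf P (zgrid P s.1 (2 ^ m)) (2 ^ m) tabs (czs P s.1 s.2 (2 ^ m) tabs) j = some c ∧
      (cap P c : ℝ) ≤ 2 ^ m / 2 ^ (P.L + 1) + 4 * Λ * M.fch P r i z j := by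
    intro j
    by_cases hj : j < P.b
    · obtain ⟨c, hc⟩ := h.ctxOf_some ha hz hj
      exact ⟨c, fun _ => hc⟩
    · exact ⟨(0, 0, 0, ⟨0⟩), fun h' => absurd h' hj⟩
  choose cs hcs using h1
  have h3 : ((List.range P.b).map fun j => cap P (cs j)).sum ≤ 2 ^ m := by
    have a1 : ((((List.range P.b).map fun j => cap P (cs j)).sum : ℕ) : ℝ) ≤ 2 ^ m := by
      have a2 := h.sum_fch'.2
      rw [planc_cast, planc_range] at a2 ⊢
      refine (Finset.sum_le_sum fun j hj => (hcs j (Finset.mem_range.1 hj)).2).trans ?_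
      rw [Finset.sum_add_distrib, ← Finset.mul_sum, Finset.sum_const, Finset.card_range, nsmul_eq_mul]
      have a3 : (P.b : ℝ) * (2 ^ m / 2 ^ (P.L + 1)) = 2 ^ m / 2 := by
        rw [hP.b_eq, pow_succ]
        push_cast
        field_simp
      rw [a3]
      linarith
    exact_mod_cast a1
  obtain ⟨pl, hpl⟩ := planOf_eq_some hP ((h.ok.fok.disp _ _ _ _).trans h.scale.1) (fun j hj => (hcs j hj).1) h3
  obtain ⟨-, h5, h6, -⟩ := planOf_some hP hpl
  refine ⟨pl, hpl, planOk_of hP h.ok.fok (by simpa using ha.length_eq.symm) (fun tab htab => ?_) hpl, ?_,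
    fun j hj => h.mbar_le_cap ha hj (h6 j hj)⟩
  · obtain ⟨k, -, hk⟩ := valida_mem ha htab
    exact hk.mono fun _ _ _ _ _ _ _ hv => hv.2
  · have : pz pl = fun j => (czs P s.1 s.2 (2 ^ m) tabs).getD j 0 := funext fun j => by rw [pz, h5]
    rw [this]
    exact hz

/-- `avg_acc` with `R = 2^kR` (values `≤ R F ≤ R W`): failure `≤ 2^(kR + 2kg - kP)`. -/
theorem est_acc (h : M.Ok P) (hr : r ≤ P.H) (i : ℕ) (s : ℤ × ℤ) (t : ℕ) :
    ((M.est P r i s none t).P fun v => ¬ (((1 - tau P) * M.W r i s none t - 1 ≤ v ∧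
      (v : ℝ) ≤ (1 + tau P) * M.W r i s none t) ∧ M.Fr P r i s ≤ v)) ≤ 1 / 2 ^ (5 * P.kg) := by
  have hP := h.good
  have hg := geo_par hP
  have hτ := planc_tau hP
  have hv := vn h hr t i s
  have hW := (W_none_bounds h hr i s t).1
  have h1 := avg_acc (M.top r i s none t) P.kP (R := 2 ^ P.kR) (by positivity) hτ.1 (hv.mono fun v hv' => by
    have a1 : (v : ℝ) ≤ 2 ^ P.kR * M.Fr P r i s := by exact_mod_cast hv'.2
    exact a1.trans (mul_le_mul_of_nonneg_left hW (by positivity)))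
  refine le_trans (P_mono ((All_avg_ge (hv.mono fun v hv' => hv'.1) P.kP).mono fun v hF hn hA => hn ⟨hA, hF⟩))
    (h1.trans ?_)
  unfold tau
  rw [div_le_div_iff₀ (by positivity) (by positivity), one_mul, div_pow, one_pow, one_div_mul_eq_div,
    le_div_iff₀ (by positivity), ← pow_mul, ← pow_add, ← pow_add]
  exact planc_pow (by omega)

/-- Union bound (`P_seq_map_not`, four levels) over `T0 · b · |zgrid|² ≤ 2^(3 kg)` entries. -/
theorem tabs_acc (h : M.Ok P) (hrH : r ≤ P.H) (i : ℕ) (s : ℤ × ℤ) (σ φ : ℕ) :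
    ((M.tabs P r i s σ φ).P fun tabs => ¬ M.TabsAcc P r i s σ φ tabs) ≤ tau P / 2 := by
  have hP := h.good
  have hg := geo_par hP
  have h1 := hP.kT_add
  have h2 := hP.ll_kR
  refine le_trans (P_seq_map_not _ _ _ (P.b * ((zgrid P s.1 σ).length * ((zgrid P s.1 σ).length *
    (1 / 2 ^ (5 * P.kg))))) fun k _ => ?_) ?_
  · refine le_trans (P_seq_map_not _ _ _ ((zgrid P s.1 σ).length * ((zgrid P s.1 σ).length *
      (1 / 2 ^ (5 * P.kg)))) fun j _ => ?_) (by rw [List.length_range])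
    refine P_seq_map_not _ _ _ _ fun z1 _ => P_seq_map_not _ _ _ _ fun z2 _ => ?_
    exact est_acc h (by omega) _ _ _
  · have h3 : ((zgrid P s.1 σ).length : ℝ) ≤ 2 ^ (P.kg + 4) := by
      have : (zgrid P s.1 σ).length ≤ 2 ^ (P.kg + 4) := by
        have : 0 < 2 ^ (P.kg + 2) := by positivity
        rw [length_zgrid hP, show P.kg + 4 = P.kg + 2 + 2 by ring, pow_add 2 (P.kg + 2) 2]
        omega
      exact_mod_cast this
    rw [List.length_range, ← mul_assoc, ← mul_assoc, ← mul_assoc]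
    refine planc_count hP (a := P.kT + P.L + (P.kg + 4) + (P.kg + 4)) ?_ (by omega)
    rw [hP.T0_eq, hP.b_eq, pow_add, pow_add, pow_add]
    push_cast
    gcongr

theorem Blk.plan_good (h : M.Blk P r i s m φ Λ z) (hreg : Regular P (2 ^ m) (M.Gs P r i s m φ z) z) :
    ((M.plan P r i s (2 ^ m) φ).P fun o => ¬ M.GoodPlan P r i s (2 ^ m) φ z o) ≤ tau P / 2 := by
  rw [plan, P_map]
  exact le_trans (P_mono (All_of_forall _ fun tabs hn ha => hn (h.goodPlan ha hreg)))
    (tabs_acc h.ok h.rH i s (2 ^ m) φ)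

/-- The own plan is good (`E_seq_getD` twice, `PlanOk.usable`) and the rows are accurate. -/
theorem Blk.fix_good (h : M.Blk P r i s m φ Λ z) (hreg : Regular P (2 ^ m) (M.Gs P r i s m φ z) z)
    {c : Ctx} (hc : M.Cert P r i c) (hs : s ∈ om c) {j : ℕ} (hj : j < P.nC) (hσ : sclC P c j = 2 ^ m) :
    ((M.fix P r i c φ).P fun f =>
      ¬ (M.GoodPlan P r i s (2 ^ m) φ z ((f.2.getD j []).getD ((om c).idxOf s) none) ∧
        (1 - tau P) * M.mbar P r i c φ / 2 ^ (2 * P.ka) - 3 + 16 * cw c ≤ f.1)) ≤ tau P := by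
  have hP := h.ok.good
  have hg := geo_par hP
  have hm := h.kg_le
  have hx := planc_kx hP
  have hτ := planc_tau hP
  have hT := planc_T0 hP
  have hidx : (om c).idxOf s < (om c).length := List.idxOf_lt_length_iff.2 hs
  -- the rows
  have hrows : ((seq ((List.range P.T0).map fun k =>
      seq ((om c).map fun s => M.est P r i s none (wnd P φ k)))).P fun rows =>
      ¬ List.Forall₂ (fun k row => List.Forall₂ (fun s (v : ℕ) =>
        (1 - tau P) * M.W r i s none (wnd P φ k) - 1 ≤ v) (om c) row) (List.range P.T0) rows) ≤ tau P / 2 := by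
    refine le_trans (P_seq_map_not _ _ _ ((om c).length * (1 / 2 ^ (5 * P.kg))) fun k _ =>
      P_seq_map_not _ _ _ _ fun s' _ => ?_) ?_
    · refine le_trans (P_mono (All_of_forall _ fun v hn hA => ?_)) (est_acc h.ok h.rH i s' _)
      exact hn hA.1.1
    · have h1 := hP.kT_add
      have h2 := hP.ll_kR
      have h3 : ((om c).length : ℝ) ≤ 2 ^ (2 * P.kg + 4) := by exact_mod_cast hc.length_om hP
      rw [List.length_range, ← mul_assoc]
      refine planc_count hP (a := P.kT + (2 * P.kg + 4)) ?_ (by omega)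
      rw [hP.T0_eq, pow_add]
      push_cast
      gcongr
  -- the plans
  have hpls : ((seq ((List.range P.nC).map fun j =>
      seq ((om c).map fun s => M.plan P r i s (sclC P c j) φ))).P fun pls =>
      ¬ M.GoodPlan P r i s (2 ^ m) φ z ((pls.getD j []).getD ((om c).idxOf s) none)) ≤ tau P / 2 := by
    refine le_trans (le_of_eq ?_) (h.plan_good hreg)
    unfold RT.P
    rw [E_seq_getD _ j (by simpa using hj) [] fun l =>
      Crest.Agent.R309.ind (¬ M.GoodPlan P r i s (2 ^ m) φ z (l.getD ((om c).idxOf s) none))]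
    rw [List.getElem_map, List.getElem_range, E_seq_getD _ _ (by simpa using hidx) none fun o =>
      Crest.Agent.R309.ind (¬ M.GoodPlan P r i s (2 ^ m) φ z o)]
    rw [List.getElem_map, List.getElem_idxOf, hσ]
  have hA : ∀ rows pls, M.GoodPlan P r i s (2 ^ m) φ z ((pls.getD j []).getD ((om c).idxOf s) none) →
      M.GoodPlan P r i s (2 ^ m) φ z (((fixOut P c rows pls).2.getD j []).getD ((om c).idxOf s) none) := by
    rintro rows pls ⟨pl, e, hpl, hrest⟩
    refine ⟨pl, ?_, hpl, hrest⟩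
    have hu := hpl.usable hP h.ok.fok hc hs (by omega) hσ
    rw [fixOut]
    dsimp only
    rw [List.getD_eq_getElem (n := j) _ _ (by simpa using hj), List.getElem_map, List.getElem_range]
    rw [List.getD_eq_getElem?_getD] at e ⊢
    rw [List.getElem?_map]
    cases e' : (pls.getD j [])[(om c).idxOf s]? with
    | none => rw [e'] at e; cases e
    | some o =>
      rw [e'] at e
      obtain rfl : o = some pl := e
      simp [hu]
  have hB : ∀ rows pls, List.Forall₂ (fun k row => List.Forall₂ (fun s (v : ℕ) =>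
        (1 - tau P) * M.W r i s none (wnd P φ k) - 1 ≤ v) (om c) row) (List.range P.T0) rows →
      (1 - tau P) * M.mbar P r i c φ / 2 ^ (2 * P.ka) - 3 + 16 * cw c ≤ (fixOut P c rows pls).1 := by
    intro rows pls hr
    rw [fixOut]
    dsimp only
    obtain ⟨k, hk, e⟩ := List.mem_map.1 (mn_mem (l := (List.range (om c).length).map fun k =>
      (rows.map fun row => row.getD k 0).sum) (by simpa using om_ne_nil c))
    have hk' := List.mem_range.1 hk
    have h1 := planc_low (M := M) hP (r := r) (i := i) (φ := φ) (s := (om c)[k]) (g := fun row : List ℕ => row.getD k 0)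
      (gval_imp hr fun k' _ row hrow => valid_getD hrow hk' 0)
    have h2 := mbar_le (M := M) (P := P) (r := r) (i := i) (List.getElem_mem hk') φ
    rw [← e, hP.p2_eq (by omega), hP.T0_eq]
    rw [hP.T0_eq] at h1
    set A := (rows.map fun row => row.getD k 0).sum
    have h3 := (rtb_floor A P.kT).2
    have h4 := (rtb_floor (A / 2 ^ P.kT) (2 * P.ka)).2
    have h5 : (1 - tau P) * M.mbar P r i c φ - 1 ≤ (A : ℝ) / 2 ^ P.kT := by
      rw [le_div_iff₀ (by positivity)]
      push_cast at h1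
      refine le_trans (mul_le_mul_of_nonneg_right ?_ (by positivity)) h1
      have := mul_le_mul_of_nonneg_left h2 (show 0 ≤ 1 - tau P by linarith)
      linarith
    have h6 : ((1 - tau P) * M.mbar P r i c φ - 2) / 2 ^ (2 * P.ka) ≤ ((A / 2 ^ P.kT : ℕ) : ℝ) / 2 ^ (2 * P.ka) :=
      div_le_div_of_nonneg_right (by linarith) (by positivity)
    have h7 : (2 : ℝ) / 2 ^ (2 * P.ka) ≤ 2 := div_le_self (by norm_num) (one_le_pow₀ (by norm_num))
    rw [sub_div] at h6
    rw [Nat.cast_add, Nat.cast_mul]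
    have h8 : ((16 : ℕ) : ℝ) = 16 := by norm_num
    rw [h8]
    linarith
  rw [fix, P_bind]
  refine le_trans (E_mono' _ (g := fun rows => tau P / 2 + Crest.Agent.R309.ind
    (¬ List.Forall₂ (fun k row => List.Forall₂ (fun s (v : ℕ) =>
        (1 - tau P) * M.W r i s none (wnd P φ k) - 1 ≤ v) (om c) row) (List.range P.T0) rows)) fun rows => ?_) ?_
  · rw [P_map]
    by_cases hr : List.Forall₂ (fun k row => List.Forall₂ (fun s (v : ℕ) =>
        (1 - tau P) * M.W r i s none (wnd P φ k) - 1 ≤ v) (om c) row) (List.range P.T0) rows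
    · refine le_trans (P_mono (All_of_forall _ fun pls hn hG => hn ⟨hA rows pls hG, hB rows pls hr⟩))
        (hpls.trans (le_add_of_nonneg_right ?_))
      unfold Crest.Agent.R309.ind
      split_ifs <;> norm_num
    · refine (P_le_one _ _).trans ?_
      unfold Crest.Agent.R309.ind
      rw [if_pos hr]
      linarith
  · rw [E_add, E_const]
    unfold RT.P at hrows
    linarith

theorem fix_length (M : Model) (P : Par) (r i : ℕ) (c : Ctx) (φ : ℕ) :
    (M.fix P r i c φ).All fun f => ∀ j, (f.2.getD j []).length ≤ (om c).length := by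
  rw [fix, All_bind]
  refine All_of_forall _ fun rows => ?_
  rw [All_map]
  refine (All_seq _ (fun l => l.length ≤ (om c).length) fun t ht => ?_).mono fun pls hp j => ?_
  · obtain ⟨j, -, rfl⟩ := List.mem_map.1 ht
    exact (All_seq_length _).mono fun l hl => by rw [hl, List.length_map]
  · have h1 : (pls.getD j []).length ≤ (om c).length := by
      rw [List.getD_eq_getElem?_getD]
      cases e : pls[j]? with
      | none => simp
      | some l => exact hp.2 l (List.mem_of_getElem? e)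
    rw [fixOut]
    dsimp only
    by_cases hj : j < P.nC
    · rw [List.getD_eq_getElem _ _ (by simpa using hj), List.getElem_map, List.getElem_range, List.length_map]
      exact h1
    · rw [List.getD_eq_default _ _ (by simpa using hj)]
      simp

end Model

end Crest.Agent.R288
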