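import Crest.Agent.R288.SBa

/-!
# R288: regret of the small mode
-/

set_option autoImplicit false

namespace Crest.Agent.R288

open RT

namespace Model

variable {M : Model} {P : Par} {r i : ℕ} {s : ℤ × ℤ} {m φ : ℕ} {pl : Plan}

theorem sbb_num {ω K S n a ε : ℝ} (hω : 1 ≤ ω) (hK : 4 ≤ K) (h1 : ω ≤ S) (h2 : S ≤ 2 * ω) (ha0 : 0 ≤ n * a)
    (hε0 : 0 ≤ n * ε) (ha : n * a ≤ ω) (hε : n * ε ≤ ω) :
    S * K ^ 3 / 2 + 4 * (4 * ω * K ^ 2) / (S * K ^ 3) *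
      (4 * ω * K ^ 2 + 2 * (ω * K ^ 4) + 4 * n * a + 4 * n * ε) + 2 * n * ε ≤ 64 * (ω * K ^ 3) := by
  have hK0 : 0 < K := by linarith
  have hS : 0 < S := by linarith
  have k2 : 16 ≤ K ^ 2 := by nlinarith
  have k3 : 1 ≤ K ^ 3 := one_le_pow₀ (by linarith)
  have k4 : 4 * K ^ 2 + 8 ≤ K ^ 4 := by nlinarith
  have b1 : S * K ^ 3 / 2 ≤ ω * K ^ 3 := by nlinarith
  have b2 : 4 * (4 * ω * K ^ 2) / (S * K ^ 3) ≤ 16 / K := by
    rw [div_le_div_iff₀ (by positivity) hK0]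
    have : ω * K ^ 3 ≤ S * K ^ 3 := mul_le_mul_of_nonneg_right h1 (by positivity)
    nlinarith
  have b3 : 4 * ω * K ^ 2 + 2 * (ω * K ^ 4) + 4 * n * a + 4 * n * ε ≤ 3 * (ω * K ^ 4) := by
    have : ω * (4 * K ^ 2 + 8) ≤ ω * K ^ 4 := mul_le_mul_of_nonneg_left k4 (by linarith)
    nlinarith
  have b0 : 0 ≤ 4 * ω * K ^ 2 + 2 * (ω * K ^ 4) + 4 * n * a + 4 * n * ε := by
    have : 0 ≤ 4 * ω * K ^ 2 + 2 * (ω * K ^ 4) := by positivity
    nlinarith
  have b4 : 4 * (4 * ω * K ^ 2) / (S * K ^ 3) * (4 * ω * K ^ 2 + 2 * (ω * K ^ 4) + 4 * n * a + 4 * n * ε) ≤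
      16 / K * (3 * (ω * K ^ 4)) := mul_le_mul b2 b3 b0 (by positivity)
  have b5 : 16 / K * (3 * (ω * K ^ 4)) = 48 * (ω * K ^ 3) := by
    field_simp
    ring
  have b6 : ω ≤ ω * K ^ 3 := le_mul_of_one_le_right (by linarith) k3
  nlinarith

theorem sbb_le_b (hP : Good P) {hb p : ℕ} (hhb : hb ≤ P.L) (hp : p < 2 ^ (P.L - hb)) :
    (p + 1) * 2 ^ hb ≤ P.b := by
  rw [hP.b_eq, show P.L = P.L - hb + hb by omega, pow_add]
  exact Nat.mul_le_mul_right _ hp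

theorem sbb_omg_pos (h : M.SB P r i s m φ pl) {hb p : ℕ} (hhb : hb ≤ P.L) (hp : p < 2 ^ (P.L - hb)) :
    1 ≤ omg P pl hb p := by
  have hP := h.ok.good
  have hg := geo_par hP
  have hlo := h.lo
  have h0 : 0 < 2 ^ hb := by positivity
  have hj : p * 2 ^ hb ∈ blk hb p := mem_blk.2 ⟨le_rfl, by rw [add_one_mul]; omega⟩
  have hb' := sbb_le_b hP hhb hp
  have h1 := h.plan.wlv_le_cw hP (j := p * 2 ^ hb) (by rw [add_one_mul] at hb'; omega)
  rw [wlv_pow hP (by omega) (by omega)] at h1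
  have h2 : 0 < 2 ^ (m - P.kd + 0) := by positivity
  rw [omg, blkP_eq hP hhb]
  exact (h2.trans_le h1).trans_le
    (List.single_le_sum (fun _ _ => Nat.zero_le _) _ (List.mem_map_of_mem (f := fun j => cw (pc pl j)) hj))

theorem sbb_bd (h : M.SB P r i s m φ pl) (k : ℕ) {hb p : ℕ} {s' : ℤ × ℤ} {k0 q : ℕ}
    (hn : NodeOk P (2 ^ m) pl hb p s' k0 q) :
    (M.sn r i pl hb p s' k0 q (rd0 P φ k)).mean ≤ omg P pl hb p * 2 ^ P.kx := by
  have hP := h.ok.good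
  have hr : r - 1 ≤ P.H := by have := h.rH; omega
  have a := (sn_range h.ok h.r1 h.rH h.plan (T0_lt_rd0 h.φ1 k) (lo := fun _ => 0)
    (hi := fun j => (cw (pc pl j) : ℝ) * 2 ^ P.kx) (fun j hj s'' hs'' => ⟨mean_nonneg _, by
      have := (W_some_bounds h.ok hr (h.plan.cert j hj) hs'' (T0_lt_rd0 h.φ1 k)).2
      rwa [cap_eq hP, Nat.cast_mul, Nat.cast_pow, Nat.cast_ofNat] at this⟩) hn).2
  rw [List.sum_map_mul_right] at a
  rw [omg, blkP_eq hP hn.hhb, Nat.cast_list_sum, List.map_map]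
  exact a

/-- `choice_bounds` with `ω = omg`, `Q = 2^qbits ∈ (ω 2^(3ka), 2 ω 2^(3ka)]` (`ω ≤ 2^m < 2^(4hh)`, `ω ≥ 1`),
`xh = ω 2^(2ka+2)`, `Bd = ω 2^(4ka)`, `a = ω / 2^kR`, `ε = ω / 2^(kg-kd+3)`, `n = T0 ≤ 2^ll`. -/
theorem SB.choice_regret (h : M.SB P r i s m φ pl) {hb p : ℕ} (h1 : 1 ≤ hb) {s' : ℤ × ℤ} {k0 q : ℕ}
    (hn : NodeOk P (2 ^ m) pl hb p s' k0 (q + 1)) (o : Bool) :
    ∑ k ∈ Finset.range P.T0, (M.sn r i pl hb p s' k0 (q + 1) (rd0 P φ k)).mean ≤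
      ∑ k ∈ Finset.range P.T0,
        (M.sn r i pl hb p s' (if o = true then k0 + 2 ^ q else k0) q (rd0 P φ k)).mean +
        64 * (omg P pl hb p * 2 ^ (3 * P.ka)) := by
  have hP := h.ok.good
  have hg := geo_par hP
  have hn1 : NodeOk P (2 ^ m) pl hb p s' k0 q :=
    ⟨hn.hhb, hn.hp, hn.w1, hn.w2, by have := hn.hq; omega, by have := hn.hk; rw [pow_succ] at this; omega⟩
  have hn2 : NodeOk P (2 ^ m) pl hb p s' (k0 + 2 ^ q) q :=
    ⟨hn.hhb, hn.hp, hn.w1, hn.w2, by have := hn.hq; omega, by have := hn.hk; rw [pow_succ] at this; omega⟩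
  have hkx : P.kx = 4 * P.ka := Par.kx.eq_1 P
  have hka : P.ka = 10 * P.jj := Par.ka.eq_1 P
  have hbig := hP.big
  have hp2 : P.p2 (2 * P.ka + 2) = 2 ^ (2 * P.ka + 2) := hP.p2_eq (by omega)
  have hω1 : 1 ≤ omg P pl hb p := sbb_omg_pos h hn.hhb hn.hp
  have hω2 : omg P pl hb p * 2 ^ P.kx ≤ 2 ^ m := h.plan.omg_le hP hn.hhb hn.hp
  have hω3 : omg P pl hb p < 2 ^ (4 * P.hh) :=
    lt_of_le_of_lt ((Nat.le_mul_of_pos_right _ (by positivity)).trans hω2)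
      (Nat.pow_lt_pow_right one_lt_two h.hi)
  have hqb : qbits P (omg P pl hb p) = (omg P pl hb p).size + 3 * P.ka := by
    rw [qbits, min_eq_left (Nat.size_le.2 hω3)]
  have hs1 : omg P pl hb p ≤ 2 ^ (omg P pl hb p).size := (Nat.lt_size_self _).le
  have hs2 : 2 ^ (omg P pl hb p).size ≤ 2 * omg P pl hb p := by
    obtain ⟨e, he⟩ : ∃ e, (omg P pl hb p).size = e + 1 :=
      ⟨(omg P pl hb p).size - 1, by have := Nat.size_pos.2 hω1; omega⟩
    have : 2 ^ e ≤ omg P pl hb p := Nat.lt_size.1 (by omega)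
    rw [he, pow_succ]
    omega
  have hkT := hP.kT_add
  have hll := hP.ll_kR
  have hT1 : (P.T0 : ℝ) ≤ 2 ^ P.kR := by
    rw [hP.T0_eq]
    exact_mod_cast Nat.pow_le_pow_right two_pos (by omega)
  have hT2 : (P.T0 : ℝ) ≤ 2 ^ (P.kg - P.kd + 3) := by
    rw [hP.T0_eq]
    exact_mod_cast Nat.pow_le_pow_right two_pos (by omega)
  have hK : (4 : ℝ) ≤ 2 ^ P.ka := by
    have : 2 ^ 2 ≤ 2 ^ P.ka := Nat.pow_le_pow_right two_pos (by omega)
    exact_mod_cast this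
  have cb := (choice_bounds (Q := 2 ^ qbits P (omg P pl hb p)) (xh := omg P pl hb p * P.p2 (2 * P.ka + 2))
    (by positivity) (by positivity)
    (fun k' => (M.sn r i pl hb p s' k0 q (rd0 P φ k')).avg P.kP)
    (fun k' => (M.sn r i pl hb p s' (k0 + 2 ^ q) q (rd0 P φ k')).avg P.kP) P.T0
    (w1 := fun k => (M.sn r i pl hb p s' k0 q (rd0 P φ k)).mean)
    (w2 := fun k => (M.sn r i pl hb p s' (k0 + 2 ^ q) q (rd0 P φ k)).mean)
    (ε := omg P pl hb p / 2 ^ (P.kg - P.kd + 3)) (a := omg P pl hb p / 2 ^ P.kR)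
    (Bd := omg P pl hb p * 2 ^ P.kx) (by positivity) (by positivity) (by positivity)
    (fun k _ => h.acc k hn1) (fun k _ => h.acc k hn2)
    (fun k hk => (h.close hk hn2 hn1).trans_eq (by rw [hp2]; push_cast; ring))
    (fun k _ => ⟨mean_nonneg _, sbb_bd h k hn1⟩) (fun k _ => ⟨mean_nonneg _, sbb_bd h k hn2⟩)
    (fun k hk => h.mono hk hn1) (fun k hk => h.mono hk hn2)).2 o
  have e1 : ∑ k ∈ Finset.range P.T0, (M.sn r i pl hb p s' k0 (q + 1) (rd0 P φ k)).mean =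
      ∑ k ∈ Finset.range P.T0, ((M.sn r i pl hb p s' k0 q (rd0 P φ k)).mean +
        pbar (2 ^ qbits P (omg P pl hb p)) (omg P pl hb p * P.p2 (2 * P.ka + 2))
          (fun k' => (M.sn r i pl hb p s' k0 q (rd0 P φ k')).avg P.kP)
          (fun k' => (M.sn r i pl hb p s' (k0 + 2 ^ q) q (rd0 P φ k')).avg P.kP) k /
          ((2 ^ qbits P (omg P pl hb p) : ℤ) : ℝ) *
        ((M.sn r i pl hb p s' (k0 + 2 ^ q) q (rd0 P φ k)).mean -
          (M.sn r i pl hb p s' k0 q (rd0 P φ k)).mean)) := by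
    refine Finset.sum_congr rfl fun k hk => ?_
    rw [sn_choice h.ok h.r1 h.rH h.φ1 i pl h1 hn.hhb p s' k0 hn.hq (Finset.mem_range.1 hk)]
    push_cast
    rfl
  have e2 : ∑ k ∈ Finset.range P.T0,
      (M.sn r i pl hb p s' (if o = true then k0 + 2 ^ q else k0) q (rd0 P φ k)).mean =
      ∑ k ∈ Finset.range P.T0, (if o = true then (M.sn r i pl hb p s' (k0 + 2 ^ q) q (rd0 P φ k)).mean
        else (M.sn r i pl hb p s' k0 q (rd0 P φ k)).mean) := by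
    refine Finset.sum_congr rfl fun k _ => ?_
    split_ifs <;> rfl
  rw [e1, e2]
  refine cb.trans (add_le_add le_rfl ?_)
  have f1 : ((2 ^ qbits P (omg P pl hb p) : ℤ) : ℝ) = (2 ^ (omg P pl hb p).size : ℕ) * (2 ^ P.ka) ^ 3 := by
    rw [hqb]
    push_cast
    ring
  have f2 : ((omg P pl hb p * P.p2 (2 * P.ka + 2) : ℤ) : ℝ) = 4 * omg P pl hb p * (2 ^ P.ka) ^ 2 := by
    rw [hp2]
    push_cast
    ring
  have f3 : (2 : ℝ) ^ P.kx = (2 ^ P.ka) ^ 4 := by rw [hkx]; ring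
  have f4 : (2 : ℝ) ^ (3 * P.ka) = (2 ^ P.ka) ^ 3 := by ring
  rw [f1, f2, f3, f4]
  refine sbb_num (by exact_mod_cast hω1) hK (by exact_mod_cast hs1) (by exact_mod_cast hs2)
    (by positivity) (by positivity) ?_ ?_
  · rw [← mul_div_assoc, div_le_iff₀ (by positivity), mul_comm]
    exact mul_le_mul_of_nonneg_left hT1 (by positivity)
  · rw [← mul_div_assoc, div_le_iff₀ (by positivity), mul_comm]
    exact mul_le_mul_of_nonneg_left hT2 (by positivity)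

/-- Descent through the choice nodes towards the option `ks`. -/
theorem sbb_desc (h : M.SB P r i s m φ pl) {hb p : ℕ} (h1 : 1 ≤ hb) {s' : ℤ × ℤ} (ks q k0 : ℕ)
    (hn : NodeOk P (2 ^ m) pl hb p s' k0 q) (hk1 : k0 ≤ ks) (hk2 : ks < k0 + 2 ^ q) :
    ∑ k ∈ Finset.range P.T0, (M.sn r i pl hb p s' k0 q (rd0 P φ k)).mean ≤
      ∑ k ∈ Finset.range P.T0, (M.sn r i pl hb p s' ks 0 (rd0 P φ k)).mean +
        64 * q * (omg P pl hb p * 2 ^ (3 * P.ka)) := by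
  induction q generalizing k0 with
  | zero =>
    obtain rfl : k0 = ks := by rw [pow_zero] at hk2; omega
    simp
  | succ q ih =>
    have hq := hn.hq
    have hk := hn.hk
    rw [pow_succ] at hk hk2
    by_cases hc : ks < k0 + 2 ^ q
    · have a := h.choice_regret h1 hn false
      have b := ih k0 ⟨hn.hhb, hn.hp, hn.w1, hn.w2, by omega, by omega⟩ hk1 hc
      simp only [Bool.false_eq_true, if_false] at a
      push_cast
      linarith
    · have a := h.choice_regret h1 hn true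
      have b := ih (k0 + 2 ^ q) ⟨hn.hhb, hn.hp, hn.w1, hn.w2, by omega, by omega⟩ (by omega) (by omega)
      simp only [if_true] at a
      push_cast
      linarith

theorem sbb_node (hP : Good P) {z : ℕ → ℤ} (hz : Reach P (2 ^ m) (pz pl) z)
    (hd : ∀ j, (gsp P (2 ^ m) : ℤ) ∣ z j) {hb p : ℕ} (hhb : hb ≤ P.L) (hp : p < 2 ^ (P.L - hb)) :
    NodeOk P (2 ^ m) pl hb p (z (p * 2 ^ hb), z ((p + 1) * 2 ^ hb)) 0 P.mb := by
  have hb' := sbb_le_b hP hhb hp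
  have h1 := hz (p * 2 ^ hb) ((Nat.mul_le_mul_right _ (Nat.le_succ p)).trans hb')
  have h2 := hz ((p + 1) * 2 ^ hb) hb'
  exact ⟨hhb, hp, ⟨hd _, by dsimp only; omega⟩, ⟨hd _, by dsimp only; omega⟩, le_rfl, by omega⟩

/-- The option that selects the midpoint of the comparator. -/
theorem sbb_idx (h : M.SB P r i s m φ pl) {z : ℕ → ℤ} (hz : Reach P (2 ^ m) (pz pl) z)
    (hd : ∀ j, (gsp P (2 ^ m) : ℤ) ∣ z j) {hb p : ℕ} (hhb : hb + 1 ≤ P.L) (hp : p < 2 ^ (P.L - (hb + 1))) :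
    ∃ ks < 2 ^ P.mb, optz P pl (hb + 1) p ks = z ((2 * p + 1) * 2 ^ hb) := by
  have hP := h.ok.good
  have hg := geo_par hP
  have hm := hP.mb_add
  have hlo := h.lo
  have hb0 : 0 < P.b := by rw [hP.b_eq]; positivity
  have hi : (2 * p + 1) * 2 ^ hb ≤ P.b := by
    refine le_trans ?_ (sbb_le_b hP hhb hp)
    rw [pow_succ', ← mul_assoc]
    exact Nat.mul_le_mul_right _ (by omega)
  have hg0 : (0 : ℤ) < gsp P (2 ^ m) := by
    rw [gsp_pow hP (by omega)]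
    positivity
  obtain ⟨a, ha⟩ := (hd ((2 * p + 1) * 2 ^ hb)).sub (h.plan.dvd _ hi)
  have h1 := hz _ hi
  rw [ha, wlv, hP.p2_eq (by omega), add_zero, Nat.cast_mul, ← mul_neg] at h1
  have a1 : -((2 ^ (P.kg - P.kd) : ℕ) : ℤ) ≤ a := le_of_mul_le_mul_left h1.1 hg0
  have a2 : a < ((2 ^ (P.kg - P.kd) : ℕ) : ℤ) := lt_of_mul_lt_mul_left h1.2 hg0.le
  refine ⟨(a + (2 ^ (P.kg - P.kd) : ℕ)).toNat, ?_, ?_⟩
  · rw [show P.mb = P.kg - P.kd + 1 by omega, pow_succ]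
    omega
  · rw [optz, h.plan.gsp_eq hP hb0, Nat.add_sub_cancel, hP.p2_eq (by omega), hP.p2_eq (by omega),
      hP.p2_eq (by omega), show P.mb - 1 = P.kg - P.kd by omega,
      show p * 2 ^ (hb + 1) + 2 ^ hb = (2 * p + 1) * 2 ^ hb by ring, Int.toNat_of_nonneg (by omega),
      add_sub_cancel_right, ← ha, add_sub_cancel]

/-- Induction on `hb`, `q`.  For `hb ≥ 1` the index `k* = (z mid - pz mid) / g + 2^(mb-1)` of the comparator's
midpoint stays in `[k0, k0 + 2^q)`. -/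
theorem SB.regret' (h : M.SB P r i s m φ pl) {z : ℕ → ℤ} (hz : Reach P (2 ^ m) (pz pl) z)
    (hd : ∀ j, (gsp P (2 ^ m) : ℤ) ∣ z j) {hb p : ℕ} (hhb : hb ≤ P.L) (hp : p < 2 ^ (P.L - hb)) :
    ∑ k ∈ Finset.range P.T0,
        (M.sn r i pl hb p (z (p * 2 ^ hb), z ((p + 1) * 2 ^ hb)) 0 P.mb (rd0 P φ k)).mean ≤
      ((blk hb p).map fun j => M.Sum P φ (r - 1) (i * P.b + j) (z j, z (j + 1)) (some (pc pl j))).sum +
        64 * hb * P.mb * (omg P pl hb p * 2 ^ (3 * P.ka)) := by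
  have hP := h.ok.good
  induction hb generalizing p with
  | zero =>
    rw [blk_zero]
    simp only [pow_zero, mul_one, List.map_singleton, List.sum_singleton, Nat.cast_zero, mul_zero, zero_mul,
      add_zero, Model.Sum]
    refine le_of_eq (Finset.sum_congr rfl fun k _ => ?_)
    exact sn_leaf h.ok h.r1 h.rH i pl p _ 0 le_rfl (T0_lt_rd0 h.φ1 k)
  | succ hb ih =>
    have hp2 : 2 * p + 1 < 2 ^ (P.L - hb) := by
      rw [show P.L - hb = P.L - (hb + 1) + 1 by omega, pow_succ]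
      omega
    obtain ⟨ks, hks, hopt⟩ := sbb_idx h hz hd hhb hp
    have a1 := sbb_desc h (Nat.succ_le_succ (Nat.zero_le hb)) ks P.mb 0
      (sbb_node hP hz hd hhb hp) (Nat.zero_le _) (by omega)
    have a2 := ih (p := 2 * p) (by omega) (by omega)
    have a3 := ih (p := 2 * p + 1) (by omega) hp2
    have i1 : p * 2 ^ (hb + 1) = 2 * p * 2 ^ hb := by ring
    have i2 : (p + 1) * 2 ^ (hb + 1) = (2 * p + 1 + 1) * 2 ^ hb := by ring
    have e : ∑ k ∈ Finset.range P.T0, (M.sn r i pl (hb + 1) p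
        (z (p * 2 ^ (hb + 1)), z ((p + 1) * 2 ^ (hb + 1))) ks 0 (rd0 P φ k)).mean =
        ∑ k ∈ Finset.range P.T0, (M.sn r i pl hb (2 * p)
          (z (2 * p * 2 ^ hb), z ((2 * p + 1) * 2 ^ hb)) 0 P.mb (rd0 P φ k)).mean +
        ∑ k ∈ Finset.range P.T0, (M.sn r i pl hb (2 * p + 1)
          (z ((2 * p + 1) * 2 ^ hb), z ((2 * p + 1 + 1) * 2 ^ hb)) 0 P.mb (rd0 P φ k)).mean := by
      rw [← Finset.sum_add_distrib]
      refine Finset.sum_congr rfl fun k _ => ?_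
      rw [sn_split h.ok h.r1 h.rH i pl hhb p _ ks (T0_lt_rd0 h.φ1 k), hopt, i1, i2]
    rw [e] at a1
    have e2 : (omg P pl (hb + 1) p : ℝ) = omg P pl hb (2 * p) + omg P pl hb (2 * p + 1) := by
      rw [omg_succ hP pl hhb p, Nat.cast_add]
    rw [blk_succ, List.map_append, List.sum_append]
    rw [e2] at a1 ⊢
    push_cast
    linarith

theorem SB.regret (h : M.SB P r i s m φ pl) {z : ℕ → ℤ} (hz : Reach P (2 ^ m) (pz pl) z)
    (hd : ∀ j, (gsp P (2 ^ m) : ℤ) ∣ z j) (h0 : z 0 = pz pl 0) (hb : z P.b = pz pl P.b) :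
    ∑ k ∈ Finset.range P.T0, (M.sroot P r i pl (rd0 P φ k)).mean ≤
      ((List.range P.b).map fun j =>
        M.Sum P φ (r - 1) (i * P.b + j) (z j, z (j + 1)) (some (pc pl j))).sum +
        64 * P.L * P.mb * 2 ^ m / 2 ^ P.ka := by
  have hP := h.ok.good
  have hp : 0 < 2 ^ (P.L - P.L) := by positivity
  have a := h.regret' hz hd (hb := P.L) (p := 0) le_rfl hp
  rw [zero_mul, zero_add, one_mul, blk_top, ← hP.b_eq, h0, hb] at a
  refine a.trans (add_le_add le_rfl ?_)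
  have h1 : (omg P pl P.L 0 : ℝ) * 2 ^ P.kx ≤ 2 ^ m := by exact_mod_cast h.plan.omg_le hP le_rfl hp
  rw [mul_div_assoc]
  refine mul_le_mul_of_nonneg_left ?_ (by positivity)
  rw [le_div_iff₀ (by positivity), mul_assoc, ← pow_add, show 3 * P.ka + P.ka = P.kx by rw [Par.kx.eq_1]; ring]
  exact h1

end Model

end Crest.Agent.R288
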