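import Crest.Agent.R288.IndA
import Crest.Agent.R288.PlanC
import Crest.Agent.R288.SBb
import Crest.Agent.R288.HintB

/-!
# R288: the main induction, regular blocks
-/

set_option autoImplicit false

namespace Crest.Agent.R288

open RT

namespace Model

variable {M : Model} {P : Par} {r i : ℕ} {s : ℤ × ℤ} {m φ : ℕ} {Λ : ℝ} {z : ℕ → ℤ}

theorem inds_cast (n : ℕ) (f : ℕ → ℕ) :
    ((((List.range n).map f).sum : ℕ) : ℝ) = ∑ k ∈ Finset.range n, (f k : ℝ) := by
  rw [Nat.cast_list_sum, List.map_map, hinta_range]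
  rfl

theorem inds_cE (P : Par) : 0 ≤ cE P := by unfold cE; positivity

theorem inds_tau (P : Par) : 0 ≤ tau P := by unfold tau; positivity

theorem inds_sum_le {n : ℕ} {f : ℕ → ℝ} {B : ℝ} (h : ∀ k < n, f k ≤ B) :
    ∑ k ∈ Finset.range n, f k ≤ n * B := by
  have := Finset.sum_le_card_nsmul (Finset.range n) f B fun k hk => h k (Finset.mem_range.1 hk)
  rwa [Finset.card_range, nsmul_eq_mul] at this

theorem Blk.inds_event (h : M.Blk P r i s m φ Λ z) {c : Option Ctx} (hc : M.Adm P r i s c) {α : Type}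
    {t : RT α} {f : α → ℝ} {p : α → Prop}
    (hf : t.All fun a => (p a → f a ≤ M.Bnd P φ Λ r i s c -
      64 * (P.T0 * (tau P * (2 ^ P.kR * M.Fr P r i s)))) ∧ f a ≤ P.T0 * (64 * (2 ^ P.kR * M.Fr P r i s)))
    (hp : (t.P fun a => ¬ p a) ≤ tau P) : t.E f ≤ M.Bnd P φ Λ r i s c := by
  have hη : 0 ≤ eta P := by unfold eta; positivity
  have hτ := inds_tau P
  have h1 := le_Bnd h.ok h.rH (by linarith [h.Λ1]) h.ratio hc
  have h2 := h.tiny
  have h3 : rho P ≤ 1 := by
    unfold rho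
    rw [div_le_one (by positivity)]
    exact one_le_pow₀ (by norm_num)
  have h4 : 1 ≤ lam0 P Λ := le_trans (by linarith) (le_max_right _ _)
  have p0 : (0 : ℝ) ≤ P.T0 * M.Fr P r i s := by positivity
  have p1 := mul_le_mul_of_nonneg_right h3 p0
  have p2 := mul_le_mul_of_nonneg_right h4 p0
  have p3 : (0 : ℝ) ≤ P.T0 * (tau P * (c.elim 0 cw : ℕ)) := by positivity
  have p4 : (0 : ℝ) ≤ P.T0 * (tau P * 2 ^ m) := by positivity
  have p5 : (0 : ℝ) ≤ P.T0 * (tau P * (2 ^ P.kR * M.Fr P r i s)) := by positivity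
  have p6 : (0 : ℝ) ≤ cE P * gsp P (2 ^ m) := by have := inds_cE P; positivity
  have hB : (0 : ℝ) ≤ P.T0 * (64 * (2 ^ P.kR * M.Fr P r i s)) := by positivity
  have h5 := E_le_of_event hB (All_of_forall t fun _ => (by linarith :
    0 ≤ M.Bnd P φ Λ r i s c - 64 * (P.T0 * (tau P * (2 ^ P.kR * M.Fr P r i s))))) hf
  rw [E_const] at h5
  have h6 := mul_le_mul_of_nonneg_left hp hB
  linarith

theorem Blk.sb (h : M.Blk P r i s m φ Λ z) {pl : Plan} (hg : M.GoodPlan P r i s (2 ^ m) φ z (some pl)) :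
    M.SB P r i s m φ pl := by
  obtain ⟨pl', e, hpl, -, hmb⟩ := hg
  obtain rfl := Option.some.inj e
  exact ⟨h.ok, h.r1, h.rH, h.φ1, h.kg_le, h.m4, hpl, hmb⟩

/-- `SB.regret`, `ih` (contexts are admissible: `PlanOk.nice`, `PlanOk.reach_mem`), `Bnd_child`,
`TreeOk.psi_le`, `PlanOk.sum_cw`. -/
theorem Blk.sum_sroot (h : M.Blk P r i s m φ Λ z)
    (ih : ∀ i' s' c', M.Adm P (r - 1) i' s' c' → M.Sum P φ (r - 1) i' s' c' ≤ M.Bnd P φ Λ (r - 1) i' s' c')
    {pl : Plan} (hg : M.GoodPlan P r i s (2 ^ m) φ z (some pl)) :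
    ∑ k ∈ Finset.range P.T0, (M.sroot P r i pl (rd0 P φ k)).mean ≤
      Kc P Λ (r - 1) * (((List.range P.b).map (M.fch P r i z)).sum : ℕ) + P.T0 * (tau P * 2 ^ m) -
        cE P * psiR (M.Gs P r i s m φ z P.L 0) (dsp z P.L 0) -
        1025 * ((List.range P.b).map fun j => M.mbar P (r - 1) (i * P.b + j) (pc pl j) φ).sum +
        64 * P.L * P.mb * 2 ^ m / 2 ^ P.ka := by
  have hsb := h.sb hg
  obtain ⟨pl', e, hpl, hz, -⟩ := hg
  obtain rfl := Option.some.inj e
  have hP := h.ok.good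
  have hm : P.kg ≤ m := by have := h.kg_le; omega
  have h1 := hsb.regret hz h.comp.dvd (h.comp.z0.trans hpl.z0.symm)
    (by rw [hpl.zb, hP.b_eq]; exact h.comp.zb)
  have h2 : ∀ j ∈ Finset.range P.b, M.Sum P φ (r - 1) (i * P.b + j) (z j, z (j + 1)) (some (pc pl j)) ≤
      Kc P Λ (r - 1) * M.fch P r i z j + P.T0 * tau P * (cw (pc pl j) : ℕ) -
        cE P * psiR (M.Gs P r i s m φ z 0 j) (dsp z 0 j) -
        1025 * M.mbar P (r - 1) (i * P.b + j) (pc pl j) φ := by
    intro j hj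
    have hj' := Finset.mem_range.1 hj
    refine (ih _ _ _ ?_).trans (h.Bnd_child hj' (some (pc pl j)))
    intro c' hc'
    obtain rfl := Option.some.inj hc'
    exact ⟨hpl.nice hP hm hj', hpl.reach_mem hP hz h.comp.dvd hj'⟩
  have h3 := Finset.sum_le_sum h2
  simp only [Finset.sum_sub_distrib, Finset.sum_add_distrib, ← Finset.mul_sum] at h3
  have h4 := h.treeOk.psi_le (hb := P.L) (p := 0) le_rfl (by simp)
  have e4 : blk P.L 0 = List.range P.b := by
    rw [blk, hP.b_eq, zero_mul, List.range_eq_range']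
  rw [e4, hinta_range] at h4
  have h5 : (∑ j ∈ Finset.range P.b, (cw (pc pl j) : ℝ)) ≤ 2 ^ m := by
    rw [← inds_cast]
    have := hpl.sum_cw hP
    have h6 : ((List.range P.b).map fun j => cw (pc pl j)).sum ≤ 2 ^ m :=
      (Nat.le_mul_of_pos_right _ (by positivity)).trans this
    exact_mod_cast h6
  rw [hinta_range] at h1
  rw [inds_cast, hinta_range]
  have h7 := mul_le_mul_of_nonneg_left h4 (inds_cE P)
  have h8 := mul_le_mul_of_nonneg_left h5 (mul_nonneg (Nat.cast_nonneg P.T0) (inds_tau P))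
  linarith

/-- `W_none_le_plan`, `E_sum`, `E_le_of_event` (the integrand is at most `T0 · 64 R F` by `plan_valid`,
`sroot_valid`; on the good event it is at most the constant `Bnd - T0 · 64 τ R F ≥ 0`, see `le_Bnd`),
`plan_good`, `psi_root`, `slack`, `tiny`, `c1_pays`. -/
theorem Blk.case_reg_none (h : M.Blk P r i s m φ Λ z)
    (ih : ∀ i' s' c', M.Adm P (r - 1) i' s' c' → M.Sum P φ (r - 1) i' s' c' ≤ M.Bnd P φ Λ (r - 1) i' s' c')
    (hreg : Regular P (2 ^ m) (M.Gs P r i s m φ z) z) :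
    M.Sum P φ r i s none ≤ M.Bnd P φ Λ r i s none := by
  have hP := h.ok.good
  have hm : P.kg ≤ m := by have := h.kg_le; omega
  obtain ⟨hg0, hg4⟩ := hintb_g hP hm
  have hr' : r - 1 ≤ P.H := (Nat.sub_le _ _).trans h.rH
  have hσ : (2 : ℝ) ^ m ≤ 32 * (2 ^ P.kR * M.Fr P r i s) := by
    have := h.scale.2
    rw [mul_assoc] at this
    exact_mod_cast this
  have h1 : M.Sum P φ r i s none ≤ (M.plan P r i s (2 ^ m) φ).E fun o => ∑ k ∈ Finset.range P.T0,
      o.elim (2 ^ P.kR * M.Fr P r i s) fun pl =>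
        (M.sroot P r i pl (rd0 P φ k)).mean + junc P pl s.1 s.2 := by
    rw [E_sum]
    refine Finset.sum_le_sum fun k hk => ?_
    have := W_none_le_plan h.ok h.r1 h.rH h.big h.scale.1 h.scale.2 (T0_lt_rd0 h.φ1 k)
    rwa [phs_rd0 φ (Finset.mem_range.1 hk)] at this
  refine h1.trans (h.inds_event (c := none) (fun c' hc' => by simp at hc')
    (p := fun o => M.GoodPlan P r i s (2 ^ m) φ z o) ?_
    ((h.plan_good hreg).trans (by linarith [inds_tau P])))
  refine (plan_valid h.ok (fun k _ => vn h.ok hr' _) i s (2 ^ m)).mono fun o ho => ⟨fun hg => ?_, ?_⟩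
  · obtain ⟨pl, rfl⟩ : ∃ pl, o = some pl := ⟨_, hg.choose_spec.1⟩
    have h2 := h.sum_sroot ih hg
    have h3 : (junc P pl s.1 s.2 : ℝ) ≤ 2 * (gsp P (2 ^ m) : ℝ) := by
      exact_mod_cast (ho pl rfl).junc_le hg0
    have h4 := mul_le_mul_of_nonneg_left h3 (Nat.cast_nonneg (α := ℝ) P.T0)
    have h5 : 0 ≤ ((List.range P.b).map fun j => M.mbar P (r - 1) (i * P.b + j) (pc pl j) φ).sum := by
      rw [hinta_range]
      exact Finset.sum_nonneg fun j _ => mbar_nonneg _ _ _ _
    have h6 := mul_le_mul_of_nonneg_left h.psi_root (inds_cE P)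
    have h7 := h.slack
    have h8 := h.tiny
    have h9 := h.c1_pays
    have e1 := h.g_small.1
    have p1 : (0 : ℝ) ≤ 2 ^ m / (16 * P.T0) := by positivity
    have p2 : (0 : ℝ) ≤ 2 ^ m / 2 ^ P.kx := by positivity
    have p3 : (0 : ℝ) ≤ 40000 * 2 ^ m / 2 ^ (2 * P.ka) := by positivity
    have p4 : (0 : ℝ) ≤ P.T0 * (tau P * 2 ^ m) := by have := inds_tau P; positivity
    have p5 : (0 : ℝ) ≤ P.T0 * (tau P * (2 ^ P.kR * M.Fr P r i s)) := by have := inds_tau P; positivity
    simp only [Option.elim_some, Finset.sum_add_distrib, Finset.sum_const, Finset.card_range, nsmul_eq_mul]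
    rw [Bnd_eq]
    simp only [Option.elim_none, Nat.cast_zero, mul_zero]
    rw [e1] at h4 h6 h8
    linarith
  · refine inds_sum_le fun k hk => ?_
    cases o with
    | none =>
      simp only [Option.elim_none]
      have : (0 : ℝ) ≤ 2 ^ P.kR * M.Fr P r i s := by positivity
      linarith
    | some pl =>
      simp only [Option.elim_some]
      have ht := T0_lt_rd0 (P := P) h.φ1 k
      have h2 : (M.sroot P r i pl (rd0 P φ k)).mean ≤ 2 ^ m :=
        E_le ((sroot_valid h.ok h.r1 h.rH ht (vs h.ok hr' ht) (ho pl rfl)).mono fun v hv => by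
          exact_mod_cast hv.1)
      have h3 : (junc P pl s.1 s.2 : ℝ) ≤ 2 ^ m := by
        have := (ho pl rfl).junc_le hg0
        exact_mod_cast (by omega : junc P pl s.1 s.2 ≤ 2 ^ m)
      linarith

/-- The own plan of a state is a plan of this state. -/
theorem fix_own (h : M.Ok P) (hrH : r ≤ P.H) (i : ℕ) {c : Ctx} (hs : s ∈ om c) (φ : ℕ) {j : ℕ}
    (hj : j < P.nC) :
    (M.fix P r i c φ).All fun f => ∀ pl, (f.2.getD j []).getD ((om c).idxOf s) none = some pl →
      some pl ∈ f.2.getD j [] ∧ M.PlanOk P r i s (sclC P c j) pl := by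
  have hr' : r - 1 ≤ P.H := (Nat.sub_le _ _).trans hrH
  unfold fix
  rw [All_bind]
  refine All_of_forall _ fun rows => ?_
  rw [All_map]
  refine (All_seq_map _ _ (fun j row => List.Forall₂ (fun s o => ∀ pl, o = some pl →
    M.PlanOk P r i s (sclC P c j) pl) (om c) row) fun j _ =>
      All_seq_map _ _ _ fun s _ => plan_valid h (fun k _ => vn h hr' _) i s _).mono fun pls hpls pl hpl => ?_
  refine ⟨monob_mem hpl, ?_⟩
  have e : (fixOut P c rows pls).2.getD j [] = (pls.getD j []).map fun o =>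
      o.bind fun pl => if usable P c j pl = true then some pl else none := by
    simp [fixOut, List.getD_eq_getElem?_getD, hj]
  have e2 := List.getD_map (l := pls.getD j []) (d := none) (n := (om c).idxOf s)
    fun o : Option Plan => o.bind fun pl => if usable P c j pl = true then some pl else none
  rw [e] at hpl
  simp only [Option.bind_none] at e2
  rw [e2] at hpl
  have hk := List.idxOf_lt_length_iff.2 hs
  have h1 := valid_getD (valida_getD hpls hj []) hk none
  rw [List.getElem_idxOf hk] at h1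
  cases ho : (pls.getD j []).getD ((om c).idxOf s) none with
  | none => rw [ho] at hpl; simp at hpl
  | some pl' =>
    rw [ho] at hpl
    simp only [Option.bind_some] at hpl
    split_ifs at hpl with hu
    obtain rfl := Option.some.inj hpl
    exact h1 _ ho

/-- `sclC_cover`, `W_some_le_fix`, `fix_good`, `fix_valid`, `fix_own`, `fix_length`, `infl_le`, `SB.infl_sum`;
`-1025 ∑ m_j + 1025 (∑ m_j - mbar)⁺ ≤ -1025 mbar + 1025 (σ / (16 T0) + 8 x σ)` by `Wt_le_mbar`. -/
theorem Blk.case_reg_some (h : M.Blk P r i s m φ Λ z)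
    (ih : ∀ i' s' c', M.Adm P (r - 1) i' s' c' → M.Sum P φ (r - 1) i' s' c' ≤ M.Bnd P φ Λ (r - 1) i' s' c')
    (hreg : Regular P (2 ^ m) (M.Gs P r i s m φ z) z) {c : Ctx} (hc : M.Adm P r i s (some c))
    (h0 : ¬ (2 ^ m * 2 ^ P.kg < cw c ∨ 128 * cap P c < 2 ^ m ∨
      128 * (M.mbar P r i c φ + 8 * cw c + 1) < 2 ^ m)) :
    M.Sum P φ r i s (some c) ≤ M.Bnd P φ Λ r i s (some c) := by
  have hP := h.ok.good
  have hm : P.kg ≤ m := by have := h.kg_le; omega
  have hr' : r - 1 ≤ P.H := (Nat.sub_le _ _).trans h.rH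
  obtain ⟨hn, hs⟩ := hc c rfl
  simp only [not_or, not_lt] at h0
  obtain ⟨h01, h02, h03⟩ := h0
  obtain ⟨a, ha⟩ := hn.cw_pow
  obtain ⟨j, hj, hj'⟩ := sclC_cover hP ha h01 h02
  have hσ : (2 : ℝ) ^ m ≤ 32 * (2 ^ P.kR * M.Fr P r i s) := by
    have := h.scale.2
    rw [mul_assoc] at this
    exact_mod_cast this
  have h1 : M.Sum P φ r i s (some c) ≤ (M.fix P r i c φ).E fun f => ∑ k ∈ Finset.range P.T0,
      ((f.2.getD j []).getD ((om c).idxOf s) none).elim (2 ^ P.kR * M.Fr P r i s) fun pl =>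
        M.infl P r i s c j f.1 (f.2.getD j []) pl (rd0 P φ k) := by
    rw [E_sum]
    refine Finset.sum_le_sum fun k hk => ?_
    have := W_some_le_fix h.ok h.r1 h.rH h.big hn.1 hs hj (T0_lt_rd0 h.φ1 k)
    rwa [phs_rd0 φ (Finset.mem_range.1 hk)] at this
  refine h1.trans (h.inds_event hc
    (p := fun f => M.GoodPlan P r i s (2 ^ m) φ z ((f.2.getD j []).getD ((om c).idxOf s) none) ∧
        (1 - tau P) * M.mbar P r i c φ / 2 ^ (2 * P.ka) - 3 + 16 * cw c ≤ f.1) ?_
    (h.fix_good hreg hn.1 hs hj hj'))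
  refine (((fix_valid h.ok (fun k _ => vn h.ok hr' _) i c).and (fix_own h.ok h.rH i hs φ hj)).and
    (fix_length M P r i c φ)).mono fun f ⟨⟨hf, hown⟩, hlen⟩ => ⟨fun ⟨hg, hy⟩ => ?_, ?_⟩
  · obtain ⟨pl, hpl⟩ : ∃ pl, (f.2.getD j []).getD ((om c).idxOf s) none = some pl := ⟨_, hg.choose_spec.1⟩
    rw [hpl] at hg ⊢
    obtain ⟨hmem, hok⟩ := hown pl hpl
    rw [hj'] at hok
    have hmb : M.mbar P r i c φ ≤ 2 ^ m := by
      have a1 : M.mbar P r i c φ ≤ Λ * M.Fr P r i s := h.mbar_le hc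
      have a2 := h.lo
      have a3 := mbar_nonneg (M := M) (P := P) r i c φ
      linarith
    have h2 := h.sum_sroot ih hg
    have h3 := (h.sb hg).infl_sum hn.1 hs hj' (hlen j) (hf.2 j hj) hmem hf.1 hy h03 hmb
    have h4 := h.Wt_le_mbar hok
    have h5 := Model.mbar_le (M := M) (P := P) (r := r) (i := i) hs φ
    have h6 := mul_le_mul_of_nonneg_left h.psi_root (inds_cE P)
    have h7 := h.slack
    have h8 := h.tiny
    have h9 := h.c1_pays
    have e1 := h.g_small.1
    have p1 : (0 : ℝ) ≤ 2 ^ m / (16 * P.T0) := by positivity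
    have p2 : (0 : ℝ) ≤ 2 ^ m / 2 ^ P.kx := by positivity
    have p4 : (0 : ℝ) ≤ P.T0 * (tau P * 2 ^ m) := by have := inds_tau P; positivity
    have p5 : (0 : ℝ) ≤ P.T0 * (tau P * (2 ^ P.kR * M.Fr P r i s)) := by have := inds_tau P; positivity
    have p6 : (0 : ℝ) ≤ P.T0 * tau P * (cw c : ℕ) := by have := inds_tau P; positivity
    have h10 : max (((List.range P.b).map fun j => M.mbar P (r - 1) (i * P.b + j) (pc pl j) φ).sum -
        M.mbar P r i c φ) 0 ≤
        ((List.range P.b).map fun j => M.mbar P (r - 1) (i * P.b + j) (pc pl j) φ).sum -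
          M.mbar P r i c φ + (2 ^ m / (16 * P.T0) + 8 * (2 ^ m / 2 ^ P.kx)) :=
      max_le (by linarith) (by linarith)
    simp only [Option.elim_some]
    rw [Bnd_eq]
    simp only [Option.elim_some]
    rw [e1] at h3 h6 h8
    linarith
  · refine inds_sum_le fun k hk => ?_
    cases hpl : (f.2.getD j []).getD ((om c).idxOf s) none with
    | none =>
      simp only [Option.elim_none]
      have : (0 : ℝ) ≤ 2 ^ P.kR * M.Fr P r i s := by positivity
      linarith
    | some pl =>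
      simp only [Option.elim_some]
      obtain ⟨hmem, hok⟩ := hown pl hpl
      rw [hj'] at hok
      have := infl_le h.ok h.r1 h.rH (T0_lt_rd0 h.φ1 k) hm hn.1 hs hj' (hf.2 j hj) hmem hok hf.1
      linarith

end Model

end Crest.Agent.R288
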