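import Crest.Agent.R288.IndA

/-!
# R288: the main induction, irregular blocks
-/

set_option autoImplicit false

namespace Crest.Agent.R288

namespace Model

variable {M : Model} {P : Par} {r i : ℕ} {s : ℤ × ℤ} {m φ : ℕ} {Λ : ℝ} {z : ℕ → ℤ}

theorem indx_swap (T : ℕ) (l : List ℕ) (f : ℕ → ℕ → ℝ) :
    ∑ k ∈ Finset.range T, (l.map fun j => f k j).sum = (l.map fun j => ∑ k ∈ Finset.range T, f k j).sum := by
  induction l with
  | nil => simp
  | cons a l ih => simp [Finset.sum_add_distrib, ih]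

theorem indx_chain (h : M.Blk P r i s m φ Λ z) {a n : ℕ} (han : a + n ≤ P.b) :
    ∑ k ∈ Finset.range P.T0,
        gR (zgrid P s.1 (2 ^ m)) (M.Wch P r i (rd0 P φ k)) (List.range' a n) (z a) (z (a + n)) ≤
      ((List.range' a n).map fun j => M.Sum P φ (r - 1) (i * P.b + j) (z j, z (j + 1)) none).sum := by
  have e := indx_swap P.T0 (List.range' a n) fun k j => M.Wch P r i (rd0 P φ k) j (z j) (z (j + 1))
  refine le_of_le_of_eq (Finset.sum_le_sum fun k _ => ?_) e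
  exact gR_le_chain _ z a n fun j hj => h.mem_grid (by omega)

theorem indx_child (h : M.Blk P r i s m φ Λ z)
    (ih : ∀ j < P.b, M.Sum P φ (r - 1) (i * P.b + j) (z j, z (j + 1)) none ≤
      M.Bnd P φ Λ (r - 1) (i * P.b + j) (z j, z (j + 1)) none) (l : List ℕ) (hl : ∀ j ∈ l, j < P.b) :
    (l.map fun j => M.Sum P φ (r - 1) (i * P.b + j) (z j, z (j + 1)) none).sum ≤
      Kc P Λ (r - 1) * ((l.map (M.fch P r i z)).sum : ℕ) -
        cE P * (l.map fun j => psiR (M.Gs P r i s m φ z 0 j) (dsp z 0 j)).sum := by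
  induction l with
  | nil => simp
  | cons a l ihl =>
    have h1 := ihl fun j hj => hl j (List.mem_cons_of_mem _ hj)
    have ha := hl a List.mem_cons_self
    have h2 := (ih a ha).trans (h.Bnd_child ha none)
    simp only [Option.elim, Nat.cast_zero, mul_zero, add_zero, sub_zero] at h2
    simp only [List.map_cons, List.sum_cons, Nat.cast_add]
    linarith

theorem indx_fin (h : M.Blk P r i s m φ Λ z) {c : Option Ctx} (hc : M.Adm P r i s c)
    (hX : ∑ k ∈ Finset.range P.T0,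
        gR (zgrid P s.1 (2 ^ m)) (M.Wch P r i (rd0 P φ k)) (List.range P.b) (z 0) (z P.b) ≤
      Kc P Λ (r - 1) * (((List.range P.b).map (M.fch P r i z)).sum : ℕ) -
        cE P * psiR (M.Gs P r i s m φ z P.L 0) (dsp z P.L 0) - 1027 * (Λ * M.Fr P r i s)) :
    M.Sum P φ r i s c ≤ M.Bnd P φ Λ r i s c := by
  have h1 := h.lag hc
  have h2 := h.psi_root
  have h3 := h.slack
  have h4 := h.tiny
  have h5 := h.c1_pays
  have h6 := h.mbar_le hc
  have h7 := h.g_small.1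
  have hE : 0 < cE P := by unfold cE; positivity
  have hτ : 0 < tau P := by unfold tau; positivity
  have h8 := mul_le_mul_of_nonneg_left h2 hE.le
  have p1 : (0 : ℝ) ≤ P.T0 * tau P * (c.elim 0 cw : ℕ) := by positivity
  have p2 : (0 : ℝ) ≤ 64 * P.L * P.mb * 2 ^ m / 2 ^ P.ka := by positivity
  have p3 : (0 : ℝ) ≤ 2 ^ m / (16 * P.T0) := by positivity
  have p4 : (0 : ℝ) ≤ 2 ^ m / 2 ^ P.kx := by positivity
  have p5 : (0 : ℝ) ≤ 40000 * 2 ^ m / 2 ^ (2 * P.ka) := by positivity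
  have p6 : (0 : ℝ) ≤ P.T0 * (tau P * (2 ^ P.kR * M.Fr P r i s)) := by positivity
  have p7 : (0 : ℝ) ≤ P.T0 * (tau P * 2 ^ m) := by positivity
  rw [Bnd_eq]
  rw [h7] at h1 h4 h8
  nlinarith

theorem indx_split (h : M.Blk P r i s m φ Λ z) {hb p : ℕ} (hhb : hb ≤ P.L) (hp : p < 2 ^ (P.L - hb)) :
    (p + 1) * 2 ^ hb ≤ P.b ∧ List.range P.b = List.range' 0 (p * 2 ^ hb) ++ blk hb p ++
      List.range' ((p + 1) * 2 ^ hb) (P.b - (p + 1) * 2 ^ hb) := by
  rw [h.ok.good.b_eq, ← List.range_eq_range']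
  refine ⟨?_, range_eq_blk hhb hp⟩
  calc (p + 1) * 2 ^ hb ≤ 2 ^ (P.L - hb) * 2 ^ hb := Nat.mul_le_mul_right _ hp
    _ = 2 ^ P.L := by rw [← pow_add, Nat.sub_add_cancel hhb]

theorem indx_Q (h : M.Blk P r i s m φ Λ z) {hb p : ℕ} (hhb : hb < P.L) (hp : p < 2 ^ (P.L - (hb + 1))) :
    M.Gs P r i s m φ z hb (2 * p) + M.Gs P r i s m φ z hb (2 * p + 1) ≤ 2 ^ m / 8 := by
  obtain ⟨h1, h2⟩ := psi_lt hhb hp
  have a1 := h.Gs_le hhb.le h1
  have a2 := h.Gs_le hhb.le h2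
  have a3 := h.sum_fch'.2
  have hΛ : 0 ≤ Λ := by
    have := h.Λ1
    have : 0 < eta P := by unfold eta; positivity
    linarith
  rw [(indx_split h (hb := hb + 1) hhb hp).2, blk_succ] at a3
  simp only [List.map_append, List.sum_append, Nat.cast_add, mul_add] at a3
  have p1 : 0 ≤ Λ * (((List.range' 0 (p * 2 ^ (hb + 1))).map (M.fch P r i z)).sum : ℕ) := by positivity
  have p2 : 0 ≤ Λ * (((List.range' ((p + 1) * 2 ^ (hb + 1)) (P.b - (p + 1) * 2 ^ (hb + 1))).map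
    (M.fch P r i z)).sum : ℕ) := by positivity
  linarith

/-- A large deviation.  `lag`, `gR_le_chain`, `ih`, `Bnd_child`, `TreeOk.psi_gain` with
`Q ≤ σ` (`Gs_le`, `sum_fch'`), so the gain is `≥ cE · 4 σ / 2^(2kθ) = 2048 σ ≥ 1027 Λ F`; `psi_root`, `slack`,
`tiny`, `c1_pays`. -/
theorem Blk.case_dev (h : M.Blk P r i s m φ Λ z) {c : Option Ctx} (hc : M.Adm P r i s c)
    (ih : ∀ j < P.b, M.Sum P φ (r - 1) (i * P.b + j) (z j, z (j + 1)) none ≤
      M.Bnd P φ Λ (r - 1) (i * P.b + j) (z j, z (j + 1)) none)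
    {hb p : ℕ} (hhb : hb < P.L) (hp : p < 2 ^ (P.L - (hb + 1)))
    (hl : (2 : ℝ) ^ m / 2 ^ (P.kd + 3) < M.Gs P r i s m φ z hb (2 * p) + M.Gs P r i s m φ z hb (2 * p + 1))
    (hdev : (2 : ℝ) ^ m / 2 ^ P.kθ < |devi (M.Gs P r i s m φ z) z hb p|) :
    M.Sum P φ r i s c ≤ M.Bnd P φ Λ r i s c := by
  refine indx_fin h hc ?_
  have a1 := indx_chain h (a := 0) (n := P.b) (by omega)
  have a2 := indx_child h ih (List.range P.b) fun j hj => List.mem_range.1 hj
  have a3 := h.treeOk.psi_gain hhb hp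
  have a4 := indx_Q h hhb hp
  rw [← List.range_eq_range', zero_add] at a1
  rw [← h.ok.good.b_eq] at a3
  set Q := M.Gs P r i s m φ z hb (2 * p) + M.Gs P r i s m φ z hb (2 * p + 1) with hQ
  set D := devi (M.Gs P r i s m φ z) z hb p with hD
  have hσ : (0 : ℝ) < 2 ^ m := by positivity
  have hQ0 : 0 < Q := lt_trans (by positivity) hl
  have hE : 0 < cE P := by unfold cE; positivity
  have b1 : ((2 : ℝ) ^ m / 2 ^ P.kθ) ^ 2 ≤ D ^ 2 := by
    rw [← sq_abs D]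
    exact pow_le_pow_left₀ (by positivity) hdev.le 2
  have b2 : 4 * ((2 : ℝ) ^ m / 2 ^ P.kθ) ^ 2 / 2 ^ m ≤ 4 * D ^ 2 / Q :=
    div_le_div₀ (by positivity) (by linarith) hQ0 (by linarith)
  have b3 : cE P * (4 * ((2 : ℝ) ^ m / 2 ^ P.kθ) ^ 2 / 2 ^ m) = 2048 * 2 ^ m := by
    unfold cE
    field_simp
    ring
  have b4 := mul_le_mul_of_nonneg_left b2 hE.le
  have b5 := mul_le_mul_of_nonneg_left a3 hE.le
  have b6 := h.lo
  rw [b3] at b4
  rw [mul_add] at b5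
  linarith

/-- Splitting the dynamic programme at a node (`range_eq_blk`, `gR_append`, `gR_le_chain`); inside the node
the values of the phase are below those of the window (`W_none_anti`, `gR_mono`). -/
theorem Blk.sum_gR_node (h : M.Blk P r i s m φ Λ z) {hb p : ℕ} (hhb : hb ≤ P.L)
    (hp : p < 2 ^ (P.L - hb)) :
    ∑ k ∈ Finset.range P.T0,
        gR (zgrid P s.1 (2 ^ m)) (M.Wch P r i (rd0 P φ k)) (List.range P.b) (z 0) (z P.b) +
      ((blk hb p).map fun j => M.Sum P φ (r - 1) (i * P.b + j) (z j, z (j + 1)) none).sum ≤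
      ((List.range P.b).map fun j => M.Sum P φ (r - 1) (i * P.b + j) (z j, z (j + 1)) none).sum +
        P.T0 * M.Gs P r i s m φ z hb p := by
  obtain ⟨hle, e⟩ := indx_split h hhb hp
  have hZ := zgrid_ne_nil P s.1 (2 ^ m)
  have hT : (0 : ℝ) < P.T0 := by
    have := h.ok.good.two_le_T0
    exact_mod_cast (by omega : 0 < P.T0)
  have a1 := indx_chain h (a := 0) (n := p * 2 ^ hb) (by rw [add_mul] at hle; omega)
  have a2 := indx_chain h (a := (p + 1) * 2 ^ hb) (n := P.b - (p + 1) * 2 ^ hb) (by omega)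
  rw [zero_add] at a1
  rw [Nat.add_sub_cancel' hle] at a2
  have a3 : (P.T0 : ℝ) * M.Gs P r i s m φ z hb p = ∑ k ∈ Finset.range P.T0,
      gR (zgrid P s.1 (2 ^ m)) (M.Wk P r i φ k) (blk hb p) (z (p * 2 ^ hb)) (z ((p + 1) * 2 ^ hb)) := by
    unfold Gs Gc Gt
    field_simp
  have a4 : ∑ k ∈ Finset.range P.T0,
      gR (zgrid P s.1 (2 ^ m)) (M.Wch P r i (rd0 P φ k)) (List.range P.b) (z 0) (z P.b) ≤
      ∑ k ∈ Finset.range P.T0,
        (gR (zgrid P s.1 (2 ^ m)) (M.Wch P r i (rd0 P φ k)) (List.range' 0 (p * 2 ^ hb)) (z 0)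
          (z (p * 2 ^ hb)) +
        gR (zgrid P s.1 (2 ^ m)) (M.Wk P r i φ k) (blk hb p) (z (p * 2 ^ hb)) (z ((p + 1) * 2 ^ hb)) +
        gR (zgrid P s.1 (2 ^ m)) (M.Wch P r i (rd0 P φ k))
          (List.range' ((p + 1) * 2 ^ hb) (P.b - (p + 1) * 2 ^ hb)) (z ((p + 1) * 2 ^ hb)) (z P.b)) := by
    refine Finset.sum_le_sum fun k hk => ?_
    have b1 := gR_append hZ (M.Wch P r i (rd0 P φ k)) (List.range' 0 (p * 2 ^ hb) ++ blk hb p)
      (List.range' ((p + 1) * 2 ^ hb) (P.b - (p + 1) * 2 ^ hb)) (z 0) (z P.b) (z ((p + 1) * 2 ^ hb))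
    have b2 := gR_append hZ (M.Wch P r i (rd0 P φ k)) (List.range' 0 (p * 2 ^ hb)) (blk hb p)
      (z 0) (z ((p + 1) * 2 ^ hb)) (z (p * 2 ^ hb))
    have b3 : gR (zgrid P s.1 (2 ^ m)) (M.Wch P r i (rd0 P φ k)) (blk hb p) (z (p * 2 ^ hb))
        (z ((p + 1) * 2 ^ hb)) ≤
        gR (zgrid P s.1 (2 ^ m)) (M.Wk P r i φ k) (blk hb p) (z (p * 2 ^ hb)) (z ((p + 1) * 2 ^ hb)) := by
      refine gR_mono hZ (fun j _ z1 _ z2 _ => ?_) _ _
      refine W_none_anti h.ok (le_trans (Nat.sub_le _ _) h.rH) _ _ ?_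
      have := wnd_le (P := P) h.φ1 (Finset.mem_range.1 hk)
      unfold rd0
      omega
    rw [← e] at b1
    linarith
  rw [Finset.sum_add_distrib, Finset.sum_add_distrib] at a4
  have a5 : ((List.range P.b).map fun j => M.Sum P φ (r - 1) (i * P.b + j) (z j, z (j + 1)) none).sum =
      ((List.range' 0 (p * 2 ^ hb)).map
        fun j => M.Sum P φ (r - 1) (i * P.b + j) (z j, z (j + 1)) none).sum +
      ((blk hb p).map fun j => M.Sum P φ (r - 1) (i * P.b + j) (z j, z (j + 1)) none).sum +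
      ((List.range' ((p + 1) * 2 ^ hb) (P.b - (p + 1) * 2 ^ hb)).map
        fun j => M.Sum P φ (r - 1) (i * P.b + j) (z j, z (j + 1)) none).sum := by
    rw [← List.sum_append, ← List.sum_append, ← List.map_append, ← List.map_append, ← e]
  linarith

/-- A heavy node `u = (hb+1, p)` that is already solved.  With `S = ∑_{j ∈ u} fch j ≥ |dsp u|`:
`Gs u ≤ Q < (1+η) S`, `S ≥ σ / 2^(kd+4)`.  Use the bounds of the children only outside `u` (inside, the saved
amount is `Kc (r-1) S ≥ T0 (1+η) S + c2 Λ S`), `TreeOk.psi_node` with `ψ(u) ≤ 2 Gs u ≤ 2 Λ S`, and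
`2^(kd+16) Λ S ≥ 2^12 Λ σ ≥ 1027 Λ F`.  It is convenient to split the sums over `range b` by `range_eq_blk`. -/
theorem Blk.case_solved (h : M.Blk P r i s m φ Λ z) {c : Option Ctx} (hc : M.Adm P r i s c)
    (ih : ∀ j < P.b, M.Sum P φ (r - 1) (i * P.b + j) (z j, z (j + 1)) none ≤
      M.Bnd P φ Λ (r - 1) (i * P.b + j) (z j, z (j + 1)) none)
    {hb p : ℕ} (hhb : hb < P.L) (hp : p < 2 ^ (P.L - (hb + 1)))
    (hl : (2 : ℝ) ^ m / 2 ^ (P.kd + 3) < M.Gs P r i s m φ z hb (2 * p) + M.Gs P r i s m φ z hb (2 * p + 1))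
    (hs : M.Gs P r i s m φ z hb (2 * p) + M.Gs P r i s m φ z hb (2 * p + 1) <
      (1 + eta P) * |dsp z (hb + 1) p|) :
    M.Sum P φ r i s c ≤ M.Bnd P φ Λ r i s c := by
  refine indx_fin h hc ?_
  obtain ⟨hle, e⟩ := indx_split h (hb := hb + 1) hhb hp
  have a1 := h.sum_gR_node (hb := hb + 1) hhb hp
  have a2 := h.treeOk.psi_node (hb := hb + 1) hhb hp
  rw [← h.ok.good.b_eq] at a2
  have a3 := indx_child h ih (List.range' 0 (p * 2 ^ (hb + 1))) fun j hj => by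
    rw [List.mem_range'_1] at hj
    rw [add_mul] at hle
    omega
  have a4 := indx_child h ih (List.range' ((p + 1) * 2 ^ (hb + 1)) (P.b - (p + 1) * 2 ^ (hb + 1)))
    fun j hj => by
      rw [List.mem_range'_1] at hj
      omega
  have sp : ∀ f : ℕ → ℝ, ((List.range P.b).map f).sum = ((List.range' 0 (p * 2 ^ (hb + 1))).map f).sum +
      ((blk (hb + 1) p).map f).sum +
      ((List.range' ((p + 1) * 2 ^ (hb + 1)) (P.b - (p + 1) * 2 ^ (hb + 1))).map f).sum := fun f => by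
    rw [← List.sum_append, ← List.sum_append, ← List.map_append, ← List.map_append, ← e]
  have sp' : ((List.range P.b).map (M.fch P r i z)).sum =
      ((List.range' 0 (p * 2 ^ (hb + 1))).map (M.fch P r i z)).sum +
      ((blk (hb + 1) p).map (M.fch P r i z)).sum +
      ((List.range' ((p + 1) * 2 ^ (hb + 1)) (P.b - (p + 1) * 2 ^ (hb + 1))).map (M.fch P r i z)).sum := by
    rw [← List.sum_append, ← List.sum_append, ← List.map_append, ← List.map_append, ← e]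
  rw [sp] at a1 a2
  rw [sp']
  have a5 : |dsp z (hb + 1) p| ≤ (((blk (hb + 1) p).map (M.fch P r i z)).sum : ℕ) := by
    have b1 := h.ok.fok.natAbs_le_sum ((r - 1) * P.L) (i * P.b) z (p * 2 ^ (hb + 1)) (2 ^ (hb + 1))
      (2 ^ (hb + 1)) le_rfl
    rw [show p * 2 ^ (hb + 1) + 2 ^ (hb + 1) = (p + 1) * 2 ^ (hb + 1) by ring] at b1
    unfold dsp
    rw [← Int.cast_abs, ← Int.natCast_natAbs, Int.cast_natCast]
    exact_mod_cast b1
  have a6 := h.Gs_le (hb := hb + 1) hhb hp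
  have a7 := psiR_le (h.treeOk.dsp (hb + 1) hhb p hp)
  have a8 := h.treeOk.sub hb hhb p hp
  have hη : 0 < eta P := by unfold eta; positivity
  have hΛ1 := h.Λ1
  have hΛ : 0 ≤ Λ := by linarith
  have a9 := Kc_ge (P := P) hΛ (r - 1)
  have hE : 0 < cE P := by unfold cE; positivity
  simp only [Nat.cast_add]
  set S : ℝ := ((((blk (hb + 1) p).map (M.fch P r i z)).sum : ℕ) : ℝ) with hS
  have hS0 : 0 ≤ S := Nat.cast_nonneg _
  set G := M.Gs P r i s m φ z (hb + 1) p with hG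
  have c1 : M.Gs P r i s m φ z hb (2 * p) + M.Gs P r i s m φ z hb (2 * p + 1) ≤ (1 + eta P) * S :=
    hs.le.trans (mul_le_mul_of_nonneg_left a5 (by linarith))
  have c2' : (P.T0 : ℝ) * G ≤ P.T0 * ((1 + eta P) * S) :=
    mul_le_mul_of_nonneg_left (a8.trans c1) (Nat.cast_nonneg _)
  have c3 : cE P * psiR G (dsp z (hb + 1) p) ≤ cE P * (2 * (Λ * S)) :=
    mul_le_mul_of_nonneg_left (by linarith) hE.le
  have c4 : (2 : ℝ) ^ m / 2 ^ (P.kd + 3) ≤ Λ * S :=
    (hl.le.trans c1).trans (mul_le_mul_of_nonneg_right hΛ1 hS0)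
  have c5 : (2 : ℝ) ^ 13 * 2 ^ m ≤ 2 ^ (P.kd + 16) * (Λ * S) := by
    have e1 : (2 : ℝ) ^ 13 * 2 ^ m = 2 ^ (P.kd + 16) * (2 ^ m / 2 ^ (P.kd + 3)) := by
      field_simp
      ring
    rw [e1]
    exact mul_le_mul_of_nonneg_left c4 (by positivity)
  have c6 := mul_le_mul_of_nonneg_right a9 hS0
  have c7 : ((P.T0 : ℝ) * (1 + eta P) + c2 P * Λ) * S =
      P.T0 * ((1 + eta P) * S) + 4 * (cE P * (Λ * S)) + 2 ^ (P.kd + 16) * (Λ * S) := by
    unfold c2
    ring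
  have c8 : 0 ≤ cE P * (Λ * S) := by positivity
  have c9 := mul_le_mul_of_nonneg_left a2 hE.le
  have c10 := h.lo
  have c11 : (0 : ℝ) < 2 ^ m := by positivity
  simp only [mul_add] at c9 ⊢
  linarith

end Model

end Crest.Agent.R288
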