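import Crest.Agent.R288.Pure

/-!
# R288: the learner (optimistic gradient descent with postponed retraction)
-/

set_option autoImplicit false

namespace Crest.Agent.R288

variable {Q xh : ℤ}

theorem learn_clamp (hQ : 0 ≤ Q) (a : ℤ) : 0 ≤ clampZ 0 Q a ∧ clampZ 0 Q a ≤ Q := by
  unfold clampZ
  omega

theorem learn_proj (a : ℤ) {z : ℤ} (h0 : 0 ≤ z) (h1 : z ≤ Q) : 0 ≤ (clampZ 0 Q a - a) * (z - clampZ 0 Q a) := by
  rcases le_total a z with h | h
  · rcases le_total a 0 with h' | h'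
    · exact mul_nonneg (by unfold clampZ; omega) (by unfold clampZ; omega)
    · rw [show clampZ 0 Q a - a = 0 by unfold clampZ; omega, zero_mul]
  · exact mul_nonneg_of_nonpos_of_nonpos (by unfold clampZ; omega) (by unfold clampZ; omega)

theorem learn_snoc (Q xh : ℤ) (ds : List ℤ) (d : ℤ) :
    (ds ++ [d]).foldl (lstep Q xh) (0, 0) = lstep Q xh (ds.foldl (lstep Q xh) (0, 0)) d := by
  rw [List.foldl_append, List.foldl_cons, List.foldl_nil]

theorem learn_range (hQ : 0 ≤ Q) (xh : ℤ) (ds : List ℤ) : 0 ≤ learn Q xh ds ∧ learn Q xh ds ≤ Q := by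
  unfold learn
  induction ds using List.reverseRecOn with
  | nil => exact ⟨le_rfl, hQ⟩
  | append_singleton ds d ih =>
    rw [learn_snoc, lstep]
    dsimp only
    split_ifs
    · exact learn_clamp hQ _
    · exact ih

/-- The weight never moves uphill. -/
theorem learn_dir (Q xh : ℤ) (ds : List ℤ) (d : ℤ) :
    (learn Q xh (ds ++ [d]) - learn Q xh ds) * clampZ (-xh) xh d ≤ 0 := by
  unfold learn
  rw [learn_snoc, lstep]
  dsimp only
  split_ifs with h
  · exact h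
  · rw [sub_self, zero_mul]

/-- invariant of the state `s`, `e` being the previous clamped signal -/
def learnInv (Q xh : ℤ) (s : ℤ × ℤ) (e : ℤ) : Prop :=
  0 ≤ s.1 ∧ s.1 ≤ Q ∧ |e| ≤ xh ∧ |s.2 - s.1| ≤ xh ∧ |s.2 - clampZ 0 Q (s.1 - e)| ≤ xh ∧
    (s.2 - clampZ 0 Q (s.1 - e)) * e ≤ 0

theorem learn_inv (hx : 0 ≤ xh) {s : ℤ × ℤ} {e : ℤ} (h : learnInv Q xh s e) (d : ℤ) :
    learnInv Q xh (lstep Q xh s d) (clampZ (-xh) xh d) := by
  obtain ⟨h1, h2, -, h3, -⟩ := h
  have h4 : |clampZ (-xh) xh d| ≤ xh := by rw [abs_le]; unfold clampZ; omega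
  unfold learnInv lstep
  dsimp only
  generalize clampZ (-xh) xh d = c at *
  refine ⟨(learn_clamp (h1.trans h2) _).1, (learn_clamp (h1.trans h2) _).2, h4, ?_⟩
  split_ifs with h5
  · simp only [sub_self, zero_mul, abs_zero, le_refl, hx, and_true]
    rw [abs_le] at h4 ⊢
    unfold clampZ
    omega
  · refine ⟨?_, ?_, by linarith⟩ <;>
    · rw [abs_le] at h3 h4 ⊢
      rcases pos_and_pos_or_neg_and_neg_of_mul_pos (not_le.1 h5) with h6 | h6 <;>
      · unfold clampZ at h6 ⊢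
        omega

theorem learn_one {s : ℤ × ℤ} {e c u : ℤ} (h : learnInv Q xh s e) (hc : |c| ≤ xh) (hu : 0 ≤ u) (hu' : u ≤ Q) :
    2 * ((s.2 - u) * c) + (u - clampZ 0 Q (s.1 - c)) ^ 2 ≤ (u - s.1) ^ 2 + 8 * xh * |c - e| := by
  obtain ⟨h1, h2, h3, -, h4, h5⟩ := h
  have a1 := learn_proj (s.1 - c) hu hu'
  have a2 := learn_proj (s.1 - e) (learn_clamp (h1.trans h2) (s.1 - c)).1 (learn_clamp (h1.trans h2) (s.1 - c)).2
  have a3 : |clampZ 0 Q (s.1 - e) - clampZ 0 Q (s.1 - c)| ≤ 2 * xh := by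
    rw [abs_le] at h3 hc ⊢
    unfold clampZ
    omega
  generalize clampZ 0 Q (s.1 - e) = y at *
  generalize clampZ 0 Q (s.1 - c) = q at *
  have a4 : (s.2 - y) * (c - e) ≤ xh * |c - e| :=
    (le_abs_self _).trans ((abs_mul _ _).trans_le (mul_le_mul_of_nonneg_right h4 (abs_nonneg _)))
  have a5 : (y - q) * (c - e) ≤ 2 * xh * |c - e| :=
    (le_abs_self _).trans ((abs_mul _ _).trans_le (mul_le_mul_of_nonneg_right a3 (abs_nonneg _)))
  have a6 : 0 ≤ xh * |c - e| := mul_nonneg ((abs_nonneg _).trans hc) (abs_nonneg _)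
  linarith [sq_nonneg (q - y), sq_nonneg (y - s.1)]

/-- Let `d k` be the clamped signals, `d (-1) = 0`, `(q k, p k)` the states, `y (k+1) = Π (q (k+1) - d k)`,
`y 0 = 0`.  Invariants: `|p k - q k| ≤ xh`, `|p k - y k| ≤ xh`, `(p k - y k) d (k-1) ≤ 0`, hence
`(p k - y k) d k ≤ xh |d k - d (k-1)|`.  Optimistic descent:
`(y k - u) d k = (y k - q (k+1)) (d k - d (k-1)) + (y k - q (k+1)) d (k-1) + (q (k+1) - u) d k` with
`|y k - q (k+1)| ≤ |d k - d (k-1)| ≤ 2 xh`,
`2 (y k - q (k+1)) d (k-1) ≤ (q (k+1) - q k)² - (q (k+1) - y k)² - (y k - q k)²` and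
`2 (q (k+1) - u) d k ≤ (u - q k)² - (u - q (k+1))² - (q (k+1) - q k)²`. -/
theorem learn_regret (hQ : 0 ≤ Q) (hx : 0 ≤ xh) (d : ℕ → ℤ) (n : ℕ) {u : ℤ} (hu : 0 ≤ u) (hu' : u ≤ Q) :
    2 * ∑ k ∈ Finset.range n, (learn Q xh ((List.range k).map d) - u) * clampZ (-xh) xh (d k) ≤
      Q ^ 2 + 8 * xh * ∑ k ∈ Finset.range n,
        |clampZ (-xh) xh (d k) - if k = 0 then 0 else clampZ (-xh) xh (d (k - 1))| := by
  have key : learnInv Q xh (((List.range n).map d).foldl (lstep Q xh) (0, 0))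
        (if n = 0 then 0 else clampZ (-xh) xh (d (n - 1))) ∧
      2 * ∑ k ∈ Finset.range n, (learn Q xh ((List.range k).map d) - u) * clampZ (-xh) xh (d k) +
        (u - (((List.range n).map d).foldl (lstep Q xh) (0, 0)).1) ^ 2 ≤
      u ^ 2 + 8 * xh * ∑ k ∈ Finset.range n,
        |clampZ (-xh) xh (d k) - if k = 0 then 0 else clampZ (-xh) xh (d (k - 1))| := by
    induction n with
    | zero => simp [learnInv, clampZ, hQ, hx]
    | succ n ih =>
      have h1 := learn_inv hx ih.1 (d n)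
      have h2 := learn_one ih.1 h1.2.2.1 hu hu'
      rw [List.range_succ, List.map_append, List.map_singleton, learn_snoc, Finset.sum_range_succ,
        Finset.sum_range_succ, if_neg n.succ_ne_zero]
      refine ⟨h1, ?_⟩
      have h3 := ih.2
      unfold learn at h3 ⊢
      unfold lstep at h3 h2 ⊢
      linarith
  have h1 : u ^ 2 ≤ Q ^ 2 := pow_le_pow_left₀ hu hu' 2
  linarith [key.2, sq_nonneg (u - (((List.range n).map d).foldl (lstep Q xh) (0, 0)).1)]

end Crest.Agent.R288
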