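import Crest.Agent.R288.Pure

/-!
# R288: the typed model of the main algorithm and the notions of the analysis
-/

set_option autoImplicit false

namespace Crest.Agent.R288

open RT

/-- Costs, oracle, values at the tops of blocks (`r` block levels remain below the node `i`), and values
of the nodes of the small mode. -/
structure Model where
  /-- cost of a state -/
  F : ℕ → ℕ → ℤ → ℤ → ℕ
  /-- the oracle -/
  orc : ℕ → ℕ → ℤ × ℤ → RT ℕ
  /-- `top r i s c t` -/
  top : ℕ → ℕ → ℤ × ℤ → Option Ctx → ℕ → RT ℕ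
  /-- `sn r i pl hb p s k0 q t` -/
  sn : ℕ → ℕ → Plan → ℕ → ℕ → ℤ × ℤ → ℕ → ℕ → ℕ → RT ℕ

namespace Model

variable (M : Model) (P : Par)

/-- Cost of a state at the top of a block. -/
def Fr (r i : ℕ) (s : ℤ × ℤ) : ℕ := M.F (r * P.L) i s.1 s.2

/-- Accurate estimate. -/
def est (r i : ℕ) (s : ℤ × ℤ) (c : Option Ctx) (t : ℕ) : RT ℕ := (M.top r i s c t).avg P.kP

/-- Table of estimates for the children. -/
def tab (r i : ℕ) (Zs : List ℤ) (t : ℕ) : RT Tab :=
  seq ((List.range P.b).map fun j => seq (Zs.map fun z1 => seq (Zs.map fun z2 =>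
    M.est P (r - 1) (i * P.b + j) (z1, z2) none t)))

/-- Dynamic programme over the past values. -/
def gval (r i : ℕ) (s : ℤ × ℤ) (σ t : ℕ) : RT ℕ :=
  (M.tab P r i (zgrid P s.1 σ) (t - 1)).map fun tb =>
    gN (zgrid P s.1 σ) tb (List.range P.b) s.1 s.2

/-- The tables of the window. -/
def tabs (r i : ℕ) (s : ℤ × ℤ) (σ φ : ℕ) : RT (List Tab) :=
  seq ((List.range P.T0).map fun k => M.tab P r i (zgrid P s.1 σ) (wnd P φ k))

/-- The plan. -/
def plan (r i : ℕ) (s : ℤ × ℤ) (σ φ : ℕ) : RT (Option Plan) :=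
  (M.tabs P r i s σ φ).map (planOf P s.1 s.2 σ)

/-- Root of the small mode. -/
def sroot (r i : ℕ) (pl : Plan) (t : ℕ) : RT ℕ :=
  M.sn r i pl P.L 0 (pz pl 0, pz pl P.b) 0 P.mb t

/-- Small mode without context. -/
def sval (r i : ℕ) (s : ℤ × ℤ) (σ t : ℕ) : RT (Option ℕ) :=
  (M.plan P r i s σ (phs P t)).bind fun o => o.elim (.pure none) fun pl =>
    ((M.sroot P r i pl t).avg P.kK).map fun v => some (v + junc P pl s.1 s.2)

/-- Past values in a context. -/
def past (r i : ℕ) (c : Ctx) (t : ℕ) : RT (List ℕ) :=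
  (seq ((om c).map fun s => M.est P r i s none (t - 1))).bind fun A =>
    (seq (if nIn P t = 0 then [] else (om c).map fun s => M.est P r i s (some c) (t - 1))).map
      fun B => pastOut A B

/-- Time-independent data of a context. -/
def fix (r i : ℕ) (c : Ctx) (φ : ℕ) : RT (ℕ × List (List (Option Plan))) :=
  (seq ((List.range P.T0).map fun k =>
    seq ((om c).map fun s => M.est P r i s none (wnd P φ k)))).bind fun rows =>
    (seq ((List.range P.nC).map fun j =>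
      seq ((om c).map fun s => M.plan P r i s (sclC P c j) φ))).map fun pls => fixOut P c rows pls

/-- One draw of a hint. -/
def draw (r i : ℕ) (c : Ctx) (σ lv t : ℕ) : RT Drw :=
  (rnd P.L).bind fun j => (seq ((tabKeys P c σ lv).map fun c' =>
    M.top (r - 1) (i * P.b + j) (c'.1, c'.2.1) (some c') t)).map fun es => (lv, j, es)

/-- The path through the centres. -/
def cent (r i : ℕ) (pl : Plan) (t : ℕ) : RT ℕ :=
  (seq ((List.range P.b).map fun j =>
    M.top (r - 1) (i * P.b + j) ((pc pl j).1, (pc pl j).2.1) (some (pc pl j)) t)).map List.sum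

/-- The draws of a hint. -/
def draws (r i : ℕ) (c : Ctx) (σ t : ℕ) : RT (List Drw) :=
  seq ((List.range P.nw).flatMap fun lv =>
    List.replicate (2 ^ (P.kK + lv)) (M.draw P r i c σ lv t))

/-- Dynamic hint. -/
def hint (r i : ℕ) (c : Ctx) (σ : ℕ) (pls : List (Option Plan)) (t : ℕ) : RT (Option Hnt) :=
  (M.draws P r i c σ t).bind fun ds => (selP P c σ pls ds).elim (.pure none) fun pl =>
    ((M.cent P r i pl t).avg P.kK).map fun v => some (v + cjunc P pl, cends P pl)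

/-- The hint at scale number `j`. -/
def hintj (r i : ℕ) (c : Ctx) (j : ℕ) (pls : List (Option Plan)) (t : ℕ) : RT (Option Hnt) :=
  if j < P.kg then .pure (statH P pls) else M.hint P r i c (sclC P c j) pls t

/-- Common data. -/
def com (r i : ℕ) (c : Ctx) (t : ℕ) : RT Com :=
  (M.past P r i c t).bind fun zs => (M.fix P r i c (phs P t)).bind fun f =>
    (seq ((List.range P.nC).map fun j => M.hintj P r i c j (f.2.getD j []) t)).map
      fun hs => (zs, f.1, f.2, hs)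

/-- A state that is neither cheap nor a leaf, no context. -/
def topN (r i : ℕ) (s : ℤ × ℤ) (t : ℕ) : RT ℕ :=
  if t = 0 then M.orc r i s else (M.est P r i s none (t - 1)).bind fun C =>
    (seq (((List.range P.nS).map fun j => (M.gval P r i s (sclS P C j) t).map some) ++
      if P.T0 < t then (List.range P.nS).map fun j => M.sval P r i s (sclS P C j) t
      else [])).map (omin C)

/-- A state that is neither cheap nor a leaf, in a context. -/
def topS (r i : ℕ) (s : ℤ × ℤ) (c : Ctx) (t : ℕ) : RT ℕ :=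
  (M.com P r i c t).bind fun cm =>
    (seq ((List.range P.nC).map fun j => (own c s cm j).elim (.pure 0) fun pl =>
      (M.sroot P r i pl t).avg P.kK)).map (ctxOut P c s cm)

/-- An option of a choice node. -/
def opt (r i : ℕ) (pl : Plan) (hb p : ℕ) (s : ℤ × ℤ) (k0 q : ℕ) (o : Bool) (t : ℕ) : RT ℕ :=
  M.sn r i pl hb p s (if o = true then k0 + 2 ^ (q - 1) else k0) (q - 1) t

/-- A node of the small mode. -/
def sn' (r i : ℕ) (pl : Plan) (hb p : ℕ) (s : ℤ × ℤ) (k0 q t : ℕ) : RT ℕ :=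
  if hb = 0 then M.top (r - 1) (i * P.b + p) s (some (pc pl p)) t
  else if q = 0 then
    (M.sn r i pl (hb - 1) (2 * p) (s.1, optz P pl hb p k0) 0 P.mb t).bind fun v1 =>
      (M.sn r i pl (hb - 1) (2 * p + 1) (optz P pl hb p k0, s.2) 0 P.mb t).map fun v2 => v1 + v2
  else
    (seq ((List.range (nIn P t)).map fun k =>
      (M.opt r i pl hb p s k0 q false (rnk P t k)).avg P.kP)).bind fun a1 =>
    (seq ((List.range (nIn P t)).map fun k =>
      (M.opt r i pl hb p s k0 q true (rnk P t k)).avg P.kP)).bind fun a2 =>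
    (rnd (qbits P (omg P pl hb p))).bind fun u =>
      M.opt r i pl hb p s k0 q (choose2 P (omg P pl hb p) a1 a2 u) t

/-- The equations of the model. -/
structure Ok : Prop where
  good : Good P
  fok : FOk M.F
  orc : ∀ r ≤ P.H, ∀ i s, 1 ≤ M.Fr P r i s →
    (M.orc r i s).All fun v => M.Fr P r i s ≤ v ∧ v ≤ 2 ^ P.kR * M.Fr P r i s ∧
      v ≤ 2 ^ (r * P.L) + (s.2 - s.1).natAbs
  top : ∀ r ≤ P.H, ∀ i s c t, (c ≠ none → P.T0 < t) → radc c ≤ P.F0 → M.top r i s c t =
    if M.Fr P r i s ≤ P.F0 then .pure (M.Fr P r i s)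
    else if r = 0 then .pure (capc P c ((s.2 - s.1).natAbs + 1))
    else c.elim (M.topN P r i s t) fun c => M.topS P r i s c t
  sn : ∀ r, 1 ≤ r → r ≤ P.H → ∀ i pl, ∀ hb ≤ P.L, ∀ p s k0, ∀ q ≤ P.mb, ∀ t, P.T0 < t →
    M.sn r i pl hb p s k0 q t = M.sn' P r i pl hb p s k0 q t

/-! ### Notions of the analysis -/

/-- Annealed value. -/
noncomputable def W (r i : ℕ) (s : ℤ × ℤ) (c : Option Ctx) (t : ℕ) : ℝ := (M.top r i s c t).mean

/-- Average of the values over the window of phase `φ`. -/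
noncomputable def Wt (r i : ℕ) (s : ℤ × ℤ) (φ : ℕ) : ℝ :=
  (∑ k ∈ Finset.range P.T0, M.W r i s none (wnd P φ k)) / P.T0

/-- Least window average in a context. -/
noncomputable def mbar (r i : ℕ) (c : Ctx) (φ : ℕ) : ℝ := mn ((om c).map fun s => M.Wt P r i s φ)

/-- Certified contexts. -/
def Cert (r i : ℕ) (c : Ctx) : Prop :=
  (∃ q, c.2.2.2.n = 2 ^ (q + 1) ∧ q + 1 ≤ P.kg) ∧ ∀ s ∈ om c, M.Fr P r i s ≤ cap P c

/-- Certified contexts whose spacing is a power of two. -/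
def Nice (r i : ℕ) (c : Ctx) : Prop := M.Cert P r i c ∧ ∃ m, c.2.2.1 = 2 ^ m

/-- What every plan returned for the state `s` at scale `σ` satisfies. -/
structure PlanOk (r i : ℕ) (s : ℤ × ℤ) (σ : ℕ) (pl : Plan) : Prop where
  disp : (s.2 - s.1).natAbs ≤ σ
  z0 : pz pl 0 = rdn (gsp P σ) s.1
  zb : pz pl P.b = rdn (gsp P σ) s.2
  dvd : ∀ j ≤ P.b, (gsp P σ : ℤ) ∣ pz pl j
  btw : ∀ j ≤ P.b, min (pz pl 0) (pz pl P.b) ≤ pz pl j ∧ pz pl j ≤ max (pz pl 0) (pz pl P.b)
  ctx : ∀ j < P.b, ∃ lv < P.nw, pc pl j = ctxAt P σ lv (pz pl j) (pz pl (j + 1))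
  cert : ∀ j < P.b, M.Cert P (r - 1) (i * P.b + j) (pc pl j)
  grid : ∀ j < P.b, ∀ s' ∈ om (pc pl j), s'.1 ∈ zgrid P s.1 σ ∧ s'.2 ∈ zgrid P s.1 σ
  caps : ((List.range P.b).map fun j => cap P (pc pl j)).sum ≤ σ

end Model

/-- The offset `z` is in the window of the boundary `j`. -/
def InW (P : Par) (σ : ℕ) (pl : Plan) (j : ℕ) (z : ℤ) : Prop :=
  (gsp P σ : ℤ) ∣ z ∧ (z - pz pl j).natAbs ≤ wlv P σ 0

/-- The boundaries `z` can be chosen in the small mode. -/
def Reach (P : Par) (σ : ℕ) (cz : ℕ → ℤ) (z : ℕ → ℤ) : Prop :=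
  ∀ j ≤ P.b, -(wlv P σ 0 : ℤ) ≤ z j - cz j ∧ z j - cz j < wlv P σ 0

/-- The entries of a table are related to the states. -/
def TabRel (Zs : List ℤ) (n : ℕ) (Rl : ℕ → ℤ → ℤ → ℕ → Prop) (tab : Tab) : Prop :=
  List.Forall₂ (fun j m => List.Forall₂ (fun z1 row =>
    List.Forall₂ (fun z2 v => Rl j z1 z2 v) Zs row) Zs m) (List.range n) tab

/-- Round number `k` of phase `φ`. -/
def rd0 (P : Par) (φ k : ℕ) : ℕ := φ * P.T0 + 1 + k

/-- `τ` -/
noncomputable def tau (P : Par) : ℝ := 1 / 2 ^ P.kg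
/-- `η` -/
noncomputable def eta (P : Par) : ℝ := 1 / 2 ^ P.jj
/-- `ρ` -/
noncomputable def rho (P : Par) : ℝ := 1 / 2 ^ (P.ll + P.jj + 2)

/-- The potential function. -/
noncomputable def psiR (W d : ℝ) : ℝ := W + d ^ 2 / W

/-- Window average of the dynamic programme below a node of the block. -/
noncomputable def Gt (P : Par) (Zs : List ℤ) (Wk : ℕ → ℕ → ℤ → ℤ → ℝ) (hb p : ℕ) (zl zr : ℤ) : ℝ :=
  (∑ k ∈ Finset.range P.T0, gR Zs (Wk k) (blk hb p) zl zr) / P.T0

/-- `Gt` at the node `(hb, p)` of the comparator. -/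
noncomputable def Gc (P : Par) (Zs : List ℤ) (Wk : ℕ → ℕ → ℤ → ℤ → ℝ) (z : ℕ → ℤ) (hb p : ℕ) : ℝ :=
  Gt P Zs Wk hb p (z (p * 2 ^ hb)) (z ((p + 1) * 2 ^ hb))

/-- Displacement of the node `(hb, p)` of the comparator. -/
noncomputable def dsp (z : ℕ → ℤ) (hb p : ℕ) : ℝ := ((z ((p + 1) * 2 ^ hb) - z (p * 2 ^ hb) : ℤ) : ℝ)

/-- Deviation of the midpoint of the node `(hb + 1, p)` from the proportional one. -/
noncomputable def devi (G : ℕ → ℕ → ℝ) (z : ℕ → ℤ) (hb p : ℕ) : ℝ :=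
  dsp z hb (2 * p) - dsp z (hb + 1) p * G hb (2 * p) / (G hb (2 * p) + G hb (2 * p + 1))

/-- Regular blocks: every heavy node is contracting and has a small deviation. -/
def Regular (P : Par) (σ : ℕ) (G : ℕ → ℕ → ℝ) (z : ℕ → ℤ) : Prop :=
  ∀ hb < P.L, ∀ p < 2 ^ (P.L - (hb + 1)),
    (σ : ℝ) / 2 ^ (P.kd + 3) < G hb (2 * p) + G hb (2 * p + 1) →
      (1 + eta P) * |dsp z (hb + 1) p| ≤ G hb (2 * p) + G hb (2 * p + 1) ∧
        |devi G z hb p| ≤ σ / 2 ^ P.kθ

namespace Model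

variable (M : Model) (P : Par)

/-- The values of the children of the block at time `t`. -/
noncomputable def Wch (r i t : ℕ) : ℕ → ℤ → ℤ → ℝ :=
  fun j z1 z2 => M.W (r - 1) (i * P.b + j) (z1, z2) none t

/-- All values at time `t` are within the factor `Λ`. -/
def Ratio (t : ℕ) (Λ : ℝ) : Prop := ∀ r ≤ P.H, ∀ i s, M.W r i s none t ≤ Λ * M.Fr P r i s

/-- A plan that follows the comparator `z`. -/
def GoodPlan (r i : ℕ) (s : ℤ × ℤ) (σ φ : ℕ) (z : ℕ → ℤ) (o : Option Plan) : Prop :=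
  ∃ pl, o = some pl ∧ M.PlanOk P r i s σ pl ∧ Reach P σ (pz pl) z ∧
    ∀ j < P.b, M.mbar P (r - 1) (i * P.b + j) (pc pl j) φ ≤ 2 * cap P (pc pl j)

/-- The inflated value of the small mode at scale number `j`. -/
noncomputable def infl (r i : ℕ) (s : ℤ × ℤ) (c : Ctx) (j yh : ℕ) (pls : List (Option Plan))
    (pl : Plan) (t : ℕ) : ℝ :=
  (M.hintj P r i c j pls t).E fun oh => ((M.sroot P r i pl t).avg P.kK).E fun X =>
    oh.elim (2 ^ P.kR * M.Fr P r i s) fun h =>
      ((max (X + junc P pl s.1 s.2) (hval s h - yh) : ℕ) : ℝ)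

/-- All plans of the list are plans of states of the context. -/
def PlsOk (r i : ℕ) (c : Ctx) (j : ℕ) (pls : List (Option Plan)) : Prop :=
  ∀ pl, some pl ∈ pls → usable P c j pl = true ∧ ∃ s' ∈ om c, M.PlanOk P r i s' (sclC P c j) pl

end Model

/-- weight of the potential `ψ` -/
noncomputable def cE (P : Par) : ℝ := 2 ^ (2 * P.kθ + 9)
/-- regret per block level -/
noncomputable def c1 (P : Par) : ℝ := 4096 * P.L * P.mb / 2 ^ P.ka + 64 * cE P / P.T0
/-- constant part of the regret -/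
noncomputable def c2 (P : Par) : ℝ := 4 * cE P + 2 ^ (P.kd + 16)
/-- target of a phase -/
noncomputable def lam0 (P : Par) (Λ : ℝ) : ℝ := max (Λ / 4) (1 + eta P)

/-- The bound on the sum of the values over the rounds of phase `φ`. -/
noncomputable def Model.Bnd (M : Model) (P : Par) (φ : ℕ) (Λ : ℝ) (r i : ℕ) (s : ℤ × ℤ)
    (c : Option Ctx) : ℝ :=
  (P.T0 * lam0 P Λ + r * c1 P * Λ + c2 P * Λ) * (1 + rho P) ^ r * M.Fr P r i s +
    P.T0 * tau P * (c.elim 0 cw : ℕ) - cE P * psiR (M.Wt P r i s φ) ((s.2 - s.1 : ℤ) : ℝ) -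
    1025 * c.elim 0 fun c => M.mbar P r i c φ

/-- The sum of the values over the rounds of phase `φ`. -/
noncomputable def Model.Sum (M : Model) (P : Par) (φ r i : ℕ) (s : ℤ × ℤ) (c : Option Ctx) : ℝ :=
  ∑ k ∈ Finset.range P.T0, M.W r i s c (rd0 P φ k)

/-- Admissible contexts of a state. -/
def Model.Adm (M : Model) (P : Par) (r i : ℕ) (s : ℤ × ℤ) (c : Option Ctx) : Prop :=
  ∀ c', c = some c' → M.Nice P r i c' ∧ s ∈ om c'

end Crest.Agent.R288
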