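import Crest.Agent.R288.Valid

/-!
# R288: monotonicity and Lipschitz properties of the annealed values
-/

set_option autoImplicit false

namespace Crest.Agent.R288

open RT

namespace Model

variable {M : Model} {P : Par} {r i : ℕ} {s : ℤ × ℤ}

theorem W_cheap (h : M.Ok P) (hr : r ≤ P.H) {c : Option Ctx} {t : ℕ} (ht : c ≠ none → P.T0 < t)
    (hc : radc c ≤ P.F0) (hF : M.Fr P r i s ≤ P.F0) : M.W r i s c t = M.Fr P r i s := by
  rw [W, h.top r hr i s c t ht hc, if_pos hF]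
  rfl

theorem W_none_bounds (h : M.Ok P) (hr : r ≤ P.H) (i : ℕ) (s : ℤ × ℤ) (t : ℕ) :
    (M.Fr P r i s : ℝ) ≤ M.W r i s none t ∧ M.W r i s none t ≤ 2 ^ P.kR * M.Fr P r i s := by
  have hv := vn h hr t i s
  exact ⟨le_E (hv.mono fun v e => by exact_mod_cast e.1), E_le (hv.mono fun v e => by exact_mod_cast e.2)⟩

theorem W_some_bounds (h : M.Ok P) (hr : r ≤ P.H) {c : Ctx} (hc : M.Cert P r i c) (hs : s ∈ om c) {t : ℕ}
    (ht : P.T0 < t) : (M.Fr P r i s : ℝ) ≤ M.W r i s (some c) t ∧ M.W r i s (some c) t ≤ cap P c := by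
  have hv := vs h hr ht i s c hc hs
  exact ⟨le_E (hv.mono fun v e => by exact_mod_cast e.1), E_le (hv.mono fun v e => by exact_mod_cast e.2.1)⟩

/-- `omin C _ ≤ C`, `mean_avg_le`. -/
theorem W_none_succ (h : M.Ok P) (hr : r ≤ P.H) (i : ℕ) (s : ℤ × ℤ) (t : ℕ) :
    M.W r i s none (t + 1) ≤ M.W r i s none t := by
  have e1 := h.top r hr i s none (t + 1) (fun e => (e rfl).elim) (Nat.zero_le _)
  have e0 := h.top r hr i s none t (fun e => (e rfl).elim) (Nat.zero_le _)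
  by_cases hF : M.Fr P r i s ≤ P.F0
  · rw [W, W, e1, e0, if_pos hF, if_pos hF]
  by_cases h0 : r = 0
  · rw [W, W, e1, e0, if_neg hF, if_neg hF, if_pos h0, if_pos h0]
  rw [W, e1, if_neg hF, if_neg h0, Option.elim_none, topN, if_neg (Nat.succ_ne_zero t), Nat.add_sub_cancel]
  refine le_trans ?_ (mean_avg_le (M.top r i s none t) P.kP)
  rw [mean, E_bind]
  refine E_mono' _ fun C => ?_
  rw [E_map]
  exact E_le (All_of_forall _ fun l => by exact_mod_cast omin_le_init C l)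

theorem W_none_anti (h : M.Ok P) (hr : r ≤ P.H) (i : ℕ) (s : ℤ × ℤ) {t t' : ℕ} (ht : t ≤ t') :
    M.W r i s none t' ≤ M.W r i s none t := by
  induction ht with
  | refl => exact le_rfl
  | step _ ih => exact (W_none_succ h hr i s _).trans ih

theorem W_none_up (h : M.Ok P) (hr : r ≤ P.H) (i : ℕ) (s : ℤ × ℤ) (t : ℕ) :
    M.W r i s none t ≤ (2 ^ (r * P.L) + (s.2 - s.1).natAbs : ℕ) := by
  refine (W_none_anti h hr i s (Nat.zero_le t)).trans ?_
  rw [W, h.top r hr i s none 0 (fun e => (e rfl).elim) (Nat.zero_le _)]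
  split_ifs with hF h0
  · exact Nat.cast_le.2 (h.fok.up _ _ _ _)
  · subst h0
    refine Nat.cast_le.2 ?_
    simp only [capc, Option.elim_none, zero_mul, pow_zero]
    omega
  · rw [Option.elim_none, topN, if_pos rfl]
    exact E_le ((h.orc r hr i s (by omega)).mono fun v e => Nat.cast_le.2 e.2.2)

theorem Ratio.mono (h : M.Ok P) {t t' : ℕ} {Λ Λ' : ℝ} (hR : M.Ratio P t Λ) (ht : t ≤ t') (hΛ : Λ ≤ Λ') :
    M.Ratio P t' Λ' := by
  intro r hr i s
  exact (W_none_anti h hr i s ht).trans ((hR r hr i s).trans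
    (mul_le_mul_of_nonneg_right hΛ (Nat.cast_nonneg _)))

theorem ratio_zero (h : M.Ok P) : M.Ratio P 0 (2 ^ P.kR) := by
  exact fun r hr i s => (W_none_bounds h hr i s 0).2

theorem Wt_bounds (h : M.Ok P) (hr : r ≤ P.H) (i : ℕ) (s : ℤ × ℤ) {φ : ℕ} {Λ : ℝ}
    (hR : M.Ratio P ((φ - 1) * P.T0) Λ) :
    (M.Fr P r i s : ℝ) ≤ M.Wt P r i s φ ∧ M.Wt P r i s φ ≤ Λ * M.Fr P r i s := by
  have h0 : (0 : ℝ) < P.T0 := by
    have := h.good.two_le_T0
    exact_mod_cast (by omega : 0 < P.T0)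
  rw [Wt, le_div_iff₀ h0, div_le_iff₀ h0]
  constructor
  · have := Finset.card_nsmul_le_sum (Finset.range P.T0) (fun k => M.W r i s none (wnd P φ k))
      (M.Fr P r i s : ℝ) fun k _ => (W_none_bounds h hr i s _).1
    rwa [Finset.card_range, nsmul_eq_mul, mul_comm] at this
  · have := Finset.sum_le_card_nsmul (Finset.range P.T0) (fun k => M.W r i s none (wnd P φ k))
      (Λ * M.Fr P r i s) fun k _ =>
        (W_none_anti h hr i s (by rw [wnd]; omega)).trans (hR r hr i s)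
    rwa [Finset.card_range, nsmul_eq_mul, mul_comm] at this

theorem W_le_Wt (h : M.Ok P) (hr : r ≤ P.H) (i : ℕ) (s : ℤ × ℤ) {φ t : ℕ} (hφ : 1 ≤ φ)
    (ht : φ * P.T0 ≤ t) : M.W r i s none t ≤ M.Wt P r i s φ := by
  have h0 : (0 : ℝ) < P.T0 := by
    have := h.good.two_le_T0
    exact_mod_cast (by omega : 0 < P.T0)
  rw [Wt, le_div_iff₀ h0]
  have := Finset.card_nsmul_le_sum (Finset.range P.T0) (fun k => M.W r i s none (wnd P φ k))
    (M.W r i s none t) fun k hk =>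
      W_none_anti h hr i s ((wnd_le hφ (Finset.mem_range.1 hk)).trans ht)
  rwa [Finset.card_range, nsmul_eq_mul, mul_comm] at this

theorem mbar_le {c : Ctx} (hs : s ∈ om c) (φ : ℕ) : M.mbar P r i c φ ≤ M.Wt P r i s φ := by
  exact mn_le (List.mem_map.2 ⟨s, hs, rfl⟩)

theorem mbar_nonneg (r i : ℕ) (c : Ctx) (φ : ℕ) : 0 ≤ M.mbar P r i c φ := by
  refine le_mn (fun e => om_ne_nil c (List.map_eq_nil_iff.1 e)) fun a ha => ?_
  obtain ⟨s, -, rfl⟩ := List.mem_map.1 ha
  exact div_nonneg (Finset.sum_nonneg fun k _ => mean_nonneg _) (Nat.cast_nonneg _)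

theorem exists_mbar (r i : ℕ) (c : Ctx) (φ : ℕ) : ∃ s ∈ om c, M.Wt P r i s φ = M.mbar P r i c φ := by
  exact List.mem_map.1 (mn_mem (l := (om c).map fun s => M.Wt P r i s φ)
    fun e => om_ne_nil c (List.map_eq_nil_iff.1 e))

theorem mono_radc (h : M.Ok P) {c : Ctx} (hc : M.Cert P r i c) : radc (some c) ≤ P.F0 := by
  obtain ⟨⟨q, e, hq⟩, -⟩ := hc
  rw [radc, Option.elim_some, e, h.good.F0_eq]
  exact Nat.pow_le_pow_right two_pos hq

theorem mono_lip (h : M.Ok P) (r i : ℕ) (s s' : ℤ × ℤ) :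
    (M.Fr P r i s : ℝ) ≤ M.Fr P r i s' + dist1 s s' := by
  have := h.fok.lip (r * P.L) i s.1 s.2 s'.1 s'.2
  rw [← Nat.cast_add, Nat.cast_le, Fr, Fr, dist1]
  omega

/-- the value in a context is at most a past value plus the distance -/
theorem mono_topS (M : Model) (P : Par) (r i : ℕ) (s : ℤ × ℤ) (c : Ctx) (t : ℕ) {k : ℕ}
    (hk : k < (om c).length) :
    (M.topS P r i s c t).mean ≤
      ((seq ((om c).map fun s => M.est P r i s none (t - 1))).E fun A =>
        (seq (if nIn P t = 0 then [] else (om c).map fun s => M.est P r i s (some c) (t - 1))).E fun B =>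
          ((min (A.getD k 0) (B.getD k (A.getD k 0)) : ℕ) : ℝ)) + dist1 s (om c)[k] := by
  rw [topS, mean, E_bind, com, E_bind, past, E_bind]
  rw [← E_const (seq ((om c).map fun s => M.est P r i s none (t - 1))) (dist1 s (om c)[k] : ℝ), ← E_add]
  refine E_mono ((All_seq_length _).mono fun A hA => ?_)
  rw [List.length_map] at hA
  rw [E_map, ← E_const (seq (if nIn P t = 0 then [] else
    (om c).map fun s => M.est P r i s (some c) (t - 1))) (dist1 s (om c)[k] : ℝ), ← E_add]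
  refine E_mono' _ fun B => ?_
  rw [E_bind]
  refine E_le (All_of_forall _ fun f => ?_)
  rw [E_map]
  refine E_le (All_of_forall _ fun hs => ?_)
  rw [E_map]
  refine E_le (All_of_forall _ fun xs => ?_)
  rw [← Nat.cast_add, Nat.cast_le]
  refine (omin_le_init _ _).trans ((omin_le_init _ _).trans (omin_le ?_))
  have hl : k < (List.zipWith (fun s' z => some (z + dist1 s s')) (om c) (pastOut A B)).length := by
    simp only [List.length_zipWith, pastOut, List.length_map, List.length_range, hA, min_self]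
    exact hk
  convert List.getElem_mem hl using 1
  simp only [List.getElem_zipWith, pastOut, List.getElem_map, List.getElem_range]

theorem mono_none (M : Model) (P : Par) (r i : ℕ) (s : ℤ × ℤ) {c : Ctx} (t : ℕ) {s' : ℤ × ℤ}
    (hs' : s' ∈ om c) :
    (M.topS P r i s c t).mean ≤ M.W r i s' none (t - 1) + dist1 s s' := by
  obtain ⟨k, hk, rfl⟩ := List.getElem_of_mem hs'
  refine (mono_topS M P r i s c t hk).trans (add_le_add_left ?_ _)
  refine le_trans ?_ (mean_avg_le (M.top r i (om c)[k] none (t - 1)) P.kP)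
  have e := E_seq_getD ((om c).map fun s => M.est P r i s none (t - 1)) k (by rwa [List.length_map]) 0
    fun v => (v : ℝ)
  rw [List.getElem_map] at e
  refine le_trans (E_mono' _ fun A => E_le (All_of_forall _ fun B => ?_)) e.le
  exact Nat.cast_le.2 (min_le_left _ _)

theorem mono_some (M : Model) (P : Par) (r i : ℕ) (s : ℤ × ℤ) {c : Ctx} {t : ℕ} (ht : nIn P t ≠ 0)
    {s' : ℤ × ℤ} (hs' : s' ∈ om c) :
    (M.topS P r i s c t).mean ≤ M.W r i s' (some c) (t - 1) + dist1 s s' := by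
  obtain ⟨k, hk, rfl⟩ := List.getElem_of_mem hs'
  refine (mono_topS M P r i s c t hk).trans (add_le_add_left ?_ _)
  refine le_trans ?_ (mean_avg_le (M.top r i (om c)[k] (some c) (t - 1)) P.kP)
  refine E_le (All_of_forall _ fun A => ?_)
  rw [if_neg ht]
  have e := E_seq_getD ((om c).map fun s => M.est P r i s (some c) (t - 1)) k
    (by rwa [List.length_map]) (A.getD k 0) fun v => (v : ℝ)
  rw [List.getElem_map] at e
  exact le_trans (E_mono' _ fun B => Nat.cast_le.2 (min_le_right _ _)) e.le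

/-- the three cases of a value in a context -/
theorem mono_cases (h : M.Ok P) (hr : r ≤ P.H) {c : Ctx} (hc : M.Cert P r i c) (s : ℤ × ℤ) :
    (M.Fr P r i s ≤ P.F0 ∧ ∀ t, P.T0 < t → M.W r i s (some c) t = M.Fr P r i s) ∨
      (¬ M.Fr P r i s ≤ P.F0 ∧ r = 0 ∧ ∀ t, P.T0 < t →
        M.W r i s (some c) t = (min ((s.2 - s.1).natAbs + 1) (cap P c) : ℕ)) ∨
      ∀ t, P.T0 < t → M.W r i s (some c) t = (M.topS P r i s c t).mean := by
  by_cases hF : M.Fr P r i s ≤ P.F0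
  · exact Or.inl ⟨hF, fun t ht => W_cheap h hr (fun _ => ht) (mono_radc h hc) hF⟩
  by_cases h0 : r = 0
  · refine Or.inr (Or.inl ⟨hF, h0, fun t ht => ?_⟩)
    rw [W, h.top r hr i s _ t (fun _ => ht) (mono_radc h hc), if_neg hF, if_pos h0]
    rfl
  · refine Or.inr (Or.inr fun t ht => ?_)
    rw [W, h.top r hr i s _ t (fun _ => ht) (mono_radc h hc), if_neg hF, if_neg h0]
    rfl

theorem mono_leaf (h : M.Ok P) (r i : ℕ) (s : ℤ × ℤ) (c : Ctx) :
    ((min ((s.2 - s.1).natAbs + 1) (cap P c) : ℕ) : ℝ) ≤ M.Fr P r i s + 1 := by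
  have := h.fok.disp (r * P.L) i s.1 s.2
  rw [← Nat.cast_add_one, Nat.cast_le, Fr]
  omega

/-- The past values: `ctxOut ≤ comVal ≤ zs[k] + dist1 s s'` for `s' = (om c)[k]`. -/
theorem W_some_le_none (h : M.Ok P) (hr : r ≤ P.H) {c : Ctx} (hc : M.Cert P r i c) (hs : s ∈ om c)
    {s' : ℤ × ℤ} (hs' : s' ∈ om c) {t : ℕ} (ht : P.T0 < t) :
    M.W r i s (some c) t ≤ M.W r i s' none (t - 1) + dist1 s s' + 1 := by
  have _ := hs
  have h1 := mono_lip h r i s s'
  have h2 := (W_none_bounds h hr i s' (t - 1)).1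
  rcases mono_cases h hr hc s with ⟨-, e⟩ | ⟨-, -, e⟩ | e <;> rw [e t ht]
  · linarith
  · linarith [mono_leaf h r i s c]
  · linarith [mono_none M P r i s t hs']

theorem W_some_le_none_self (h : M.Ok P) (hr : r ≤ P.H) {c : Ctx} (hc : M.Cert P r i c) (hs : s ∈ om c)
    {t : ℕ} (ht : P.T0 < t) : M.W r i s (some c) t ≤ M.W r i s none (t - 1) := by
  rcases mono_cases h hr hc s with ⟨-, e⟩ | ⟨hF, h0, e⟩ | e <;> rw [e t ht]
  · exact (W_none_bounds h hr i s (t - 1)).1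
  · rw [W, h.top r hr i s none _ (fun e => (e rfl).elim) (Nat.zero_le _), if_neg hF, if_pos h0]
    exact Nat.cast_le.2 (min_le_left _ _)
  · have := mono_none M P r i s t hs
    rwa [dist1_self, Nat.cast_zero, add_zero] at this

theorem W_some_le_some (h : M.Ok P) (hr : r ≤ P.H) {c : Ctx} (hc : M.Cert P r i c) (hs : s ∈ om c)
    {s' : ℤ × ℤ} (hs' : s' ∈ om c) {φ k : ℕ} (hφ : 1 ≤ φ) (hk : k + 1 < P.T0) :
    M.W r i s (some c) (rd0 P φ (k + 1)) ≤ M.W r i s' (some c) (rd0 P φ k) + dist1 s s' + 1 := by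
  have _ := hs
  have h1 := mono_lip h r i s s'
  have h2 := (W_some_bounds h hr hc hs' (T0_lt_rd0 hφ k)).1
  rcases mono_cases h hr hc s with ⟨-, e⟩ | ⟨-, -, e⟩ | e <;> rw [e _ (T0_lt_rd0 hφ (k + 1))]
  · linarith
  · linarith [mono_leaf h r i s c]
  · have := mono_some M P r i s (t := rd0 P φ (k + 1)) (by rw [nIn_rd0 φ hk]; omega) hs'
    rw [show rd0 P φ (k + 1) - 1 = rd0 P φ k from rfl] at this
    linarith

theorem W_some_succ (h : M.Ok P) (hr : r ≤ P.H) {c : Ctx} (hc : M.Cert P r i c) (hs : s ∈ om c)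
    {φ k : ℕ} (hφ : 1 ≤ φ) (hk : k + 1 < P.T0) :
    M.W r i s (some c) (rd0 P φ (k + 1)) ≤ M.W r i s (some c) (rd0 P φ k) := by
  rcases mono_cases h hr hc s with ⟨-, e⟩ | ⟨-, -, e⟩ | e <;> rw [e _ (T0_lt_rd0 hφ (k + 1))]
  · rw [e _ (T0_lt_rd0 hφ k)]
  · rw [e _ (T0_lt_rd0 hφ k)]
  · have := mono_some M P r i s (t := rd0 P φ (k + 1)) (by rw [nIn_rd0 φ hk]; omega) hs
    rwa [show rd0 P φ (k + 1) - 1 = rd0 P φ k from rfl, dist1_self, Nat.cast_zero, add_zero] at this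

theorem W_some_le_mbar (h : M.Ok P) (hr : r ≤ P.H) {c : Ctx} (hc : M.Cert P r i c) (hs : s ∈ om c)
    {φ : ℕ} (hφ : 1 ≤ φ) (k : ℕ) :
    M.W r i s (some c) (rd0 P φ k) ≤ M.mbar P r i c φ + 8 * cw c + 1 := by
  obtain ⟨s', hs', e⟩ := exists_mbar (M := M) (P := P) r i c φ
  have h1 := W_some_le_none h hr hc hs hs' (T0_lt_rd0 hφ k)
  have h2 := W_le_Wt h hr i s' (t := rd0 P φ k - 1) hφ (by rw [rd0]; omega)
  have h3 : (dist1 s s' : ℝ) ≤ 8 * cw c := by
    obtain ⟨⟨q, hq, -⟩, -⟩ := hc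
    exact_mod_cast dist1_om (by rw [hq]; exact dvd_pow_self 2 (Nat.succ_ne_zero q)) hs hs'
  linarith

end Model

end Crest.Agent.R288
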