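import Crest.Agent.R288.MonoA

/-!
# R288: upper bounds for the annealed values by the three modes, Lipschitz property in a context
-/

set_option autoImplicit false

namespace Crest.Agent.R288

open RT

namespace Model

variable {M : Model} {P : Par} {r i : ℕ} {s : ℤ × ℤ}

theorem monob_shape (M : Model) (P : Par) (r i : ℕ) (Zs : List ℤ) (t : ℕ) :
    (M.tab P r i Zs t).All (TabRel Zs P.b fun _ _ _ _ => True) := by
  refine All_seq_map _ _ _ fun j _ => All_seq_map _ _ _ fun z1 _ => All_seq_map _ _ _ fun z2 _ => ?_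
  exact All_of_forall _ fun _ => trivial

theorem monob_getD {α ι : Type} [BEq ι] [LawfulBEq ι] (l : List ι) (u : ι → RT α) {a : ι} (ha : a ∈ l) (d : α)
    (f : α → ℝ) : ((seq (l.map u)).E fun r => f (r.getD (l.idxOf a) d)) = (u a).E f := by
  have hk : l.idxOf a < l.length := List.idxOf_lt_length_iff.2 ha
  rw [E_seq_getD (l.map u) (l.idxOf a) (by rwa [List.length_map]) d f, List.getElem_map,
    List.getElem_idxOf hk]

theorem monob_range {α : Type} (n : ℕ) (u : ℕ → RT α) {j : ℕ} (hj : j < n) (d : α)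
    (f : α → ℝ) : ((seq ((List.range n).map u)).E fun r => f (r.getD j d)) = (u j).E f := by
  rw [E_seq_getD ((List.range n).map u) j (by rwa [List.length_map, List.length_range]) d f,
    List.getElem_map, List.getElem_range]

theorem monob_tget (M : Model) (P : Par) (r i : ℕ) {Zs : List ℤ} (t : ℕ) {j : ℕ} (hj : j < P.b)
    {z1 z2 : ℤ} (h1 : z1 ∈ Zs) (h2 : z2 ∈ Zs) :
    ((M.tab P r i Zs t).E fun tb => (tget Zs tb j z1 z2 : ℝ)) ≤ M.Wch P r i t j z1 z2 := by
  have e1 := monob_range P.b (fun j => seq (Zs.map fun z1 => seq (Zs.map fun z2 =>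
    M.est P (r - 1) (i * P.b + j) (z1, z2) none t))) hj []
    fun m => (((m.getD (Zs.idxOf z1) []).getD (Zs.idxOf z2) 0 : ℕ) : ℝ)
  have e2 := monob_getD Zs (fun z1 => seq (Zs.map fun z2 =>
    M.est P (r - 1) (i * P.b + j) (z1, z2) none t)) h1 []
    fun row => ((row.getD (Zs.idxOf z2) 0 : ℕ) : ℝ)
  have e3 := monob_getD Zs (fun z2 => M.est P (r - 1) (i * P.b + j) (z1, z2) none t) h2 0
    fun v => ((v : ℕ) : ℝ)
  exact (e1.trans (e2.trans e3)).le.trans (mean_avg_le _ _)

theorem monob_path (M : Model) (P : Par) (r i : ℕ) {Zs : List ℤ} (t : ℕ) (l : List (ℕ × ℤ × ℤ))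
    (hl : ∀ s ∈ l, s.1 < P.b ∧ s.2.1 ∈ Zs ∧ s.2.2 ∈ Zs) (zl zr : ℤ) :
    ((M.tab P r i Zs t).E fun tb => pathCost (fun j a c => (tget Zs tb j a c : ℝ)) l zl zr) ≤
      pathCost (M.Wch P r i t) l zl zr := by
  induction l generalizing zl with
  | nil => simp only [pathCost, E_const, le_refl]
  | cons a l ih =>
    simp only [pathCost, E_add, E_const]
    obtain ⟨h0, h1, h2⟩ := hl a List.mem_cons_self
    have := monob_tget M P r i t h0 h1 h2
    have := ih (fun s hs => hl s (List.mem_cons_of_mem _ hs)) a.2.2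
    linarith

/-- Take an optimal path (`gR_exists_path`), `gN_le_path`, and the expectation of every entry of the table is
at most the annealed value (`E_seq_getD`, `mean_avg_le`). -/
theorem mean_gval_le (h : M.Ok P) (r i : ℕ) (s : ℤ × ℤ) (σ t : ℕ) :
    (M.gval P r i s σ t).mean ≤
      gR (zgrid P s.1 σ) (M.Wch P r i (t - 1)) (List.range P.b) s.1 s.2 := by
  have _ := h
  obtain ⟨l, hl, hz, hp⟩ := gR_exists_path (zgrid_ne_nil P s.1 σ) (M.Wch P r i (t - 1)) (List.range P.b) s.1 s.2
  refine le_trans ?_ hp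
  refine le_trans ?_ (monob_path M P r i (t - 1) l (fun a ha => ⟨?_, hz a ha⟩) s.1 s.2)
  · rw [gval, mean, E_map]
    exact E_mono ((monob_shape M P r i _ _).mono fun tb htb =>
      gN_le_path htb (fun j hj => List.mem_range.1 hj) hl hz _ _)
  · exact List.mem_range.1 (hl ▸ List.mem_map_of_mem ha)

theorem monob_mem {α : Type} {l : List (Option α)} {j : ℕ} {v : α} (e : l.getD j none = some v) :
    some v ∈ l := by
  by_cases hk : j < l.length
  · rw [List.getD_eq_getElem _ _ hk] at e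
    exact e ▸ List.getElem_mem hk
  · rw [List.getD_eq_default _ _ (by omega)] at e
    exact absurd e (by simp)

theorem monob_seq (C : ℕ) (ts : List (RT (Option ℕ))) {u : RT (Option ℕ)} (hu : u ∈ ts) :
    ((seq ts).map (omin C)).mean ≤ u.E fun o => o.elim (C : ℝ) fun v => (v : ℝ) := by
  obtain ⟨k, hk, rfl⟩ := List.getElem_of_mem hu
  rw [← E_seq_getD ts k hk none, mean, E_map]
  refine E_mono' _ fun l => ?_
  cases e : l.getD k none with
  | none => exact Nat.cast_le.2 (omin_le_init _ _)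
  | some v => exact Nat.cast_le.2 (omin_le (monob_mem e))

theorem monob_topN (h : M.Ok P) (hr : 1 ≤ r) (hrH : r ≤ P.H) (hF : P.F0 < M.Fr P r i s) {m : ℕ}
    (h1 : M.Fr P r i s ≤ 2 ^ m) (h2 : 2 ^ m ≤ 32 * 2 ^ P.kR * M.Fr P r i s) {t : ℕ} (ht : t ≠ 0) {B : ℝ}
    (hB : ∀ C j, C ≤ 2 ^ P.kR * M.Fr P r i s → j < P.nS → sclS P C j = 2 ^ m →
      ((seq (((List.range P.nS).map fun j => (M.gval P r i s (sclS P C j) t).map some) ++
        if P.T0 < t then (List.range P.nS).map fun j => M.sval P r i s (sclS P C j) t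
        else [])).map (omin C)).mean ≤ B) :
    M.W r i s none t ≤ B := by
  rw [W, h.top r hrH i s none t (fun e => (e rfl).elim) (Nat.zero_le _), if_neg (by omega), if_neg (by omega),
    Option.elim_none, topN, if_neg ht, mean, E_bind]
  refine E_le ((All_avg (vn h hrH (t - 1) i s) _).mono fun C hC => ?_)
  obtain ⟨j, hj, e⟩ := sclS_cover h.good (by omega) hC.1 hC.2 h1 h2
  exact hB C j hC.2 hj e

/-- `sclS_cover` (the index depends on the anchor `C`); cheap states by `FOk.le_gR`. -/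
theorem W_none_le_gR (h : M.Ok P) (hr : 1 ≤ r) (hrH : r ≤ P.H) {m : ℕ} (h1 : M.Fr P r i s ≤ 2 ^ m)
    (h2 : 2 ^ m ≤ 32 * 2 ^ P.kR * M.Fr P r i s) (t : ℕ) :
    M.W r i s none (t + 1) ≤ gR (zgrid P s.1 (2 ^ m)) (M.Wch P r i t) (List.range P.b) s.1 s.2 := by
  by_cases hF : M.Fr P r i s ≤ P.F0
  · rw [W_cheap h hrH (fun e => (e rfl).elim) (Nat.zero_le _) hF]
    have := h.fok.le_gR (W := M.Wch P r i t) (zgrid_ne_nil P s.1 (2 ^ m)) ((r - 1) * P.L) P.L i (hb := P.L)
      (p := 0) le_rfl (fun j _ z1 _ z2 _ => by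
        rw [← h.good.b_eq]
        exact (W_none_bounds h (r := r - 1) (by omega) (i * P.b + j) (z1, z2) t).1) s.1 s.2
    rwa [valida_L hr, Nat.sub_self, pow_zero, mul_one, add_zero, blk_top, ← h.good.b_eq] at this
  refine monob_topN h hr hrH (by omega) h1 h2 (Nat.succ_ne_zero t) fun C j _ hj e => ?_
  refine (monob_seq C _ (List.mem_append_left _ (List.mem_map_of_mem (List.mem_range.2 hj)))).trans ?_
  rw [E_map, e]
  exact mean_gval_le h r i s (2 ^ m) (t + 1)

theorem W_none_le_plan (h : M.Ok P) (hr : 1 ≤ r) (hrH : r ≤ P.H) (hF : P.F0 < M.Fr P r i s) {m : ℕ}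
    (h1 : M.Fr P r i s ≤ 2 ^ m) (h2 : 2 ^ m ≤ 32 * 2 ^ P.kR * M.Fr P r i s) {t : ℕ} (ht : P.T0 < t) :
    M.W r i s none t ≤ (M.plan P r i s (2 ^ m) (phs P t)).E fun o =>
      o.elim (2 ^ P.kR * M.Fr P r i s) fun pl => (M.sroot P r i pl t).mean + junc P pl s.1 s.2 := by
  refine monob_topN h hr hrH hF h1 h2 (by omega) fun C j hC hj e => ?_
  rw [if_pos ht]
  refine (monob_seq C _ (List.mem_append_right _ (List.mem_map_of_mem (List.mem_range.2 hj)))).trans ?_
  rw [e, sval, E_bind]
  refine E_mono' _ fun o => ?_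
  cases o with
  | none =>
    simp only [Option.elim_none, E_pure]
    exact_mod_cast hC
  | some pl =>
    simp only [Option.elim_some, E_map, Nat.cast_add, E_add, E_const]
    exact add_le_add_left (mean_avg_le _ _) _

theorem monob_topS (h : M.Ok P) (hr : 1 ≤ r) (hrH : r ≤ P.H) (hF : P.F0 < M.Fr P r i s) {c : Ctx}
    (hc : M.Cert P r i c) {t : ℕ} (ht : P.T0 < t) :
    M.W r i s (some c) t = (M.topS P r i s c t).mean := by
  rw [W, h.top r hrH i s _ t (fun _ => ht) (mono_radc h hc), if_neg (by omega), if_neg (by omega)]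
  rfl

/-- If the own plan or the hint is missing use `comVal ≤` the past value `≤ R F`. -/
theorem W_some_le_fix (h : M.Ok P) (hr : 1 ≤ r) (hrH : r ≤ P.H) (hF : P.F0 < M.Fr P r i s) {c : Ctx}
    (hc : M.Cert P r i c) (hs : s ∈ om c) {j : ℕ} (hj : j < P.nC) {t : ℕ} (ht : P.T0 < t) :
    M.W r i s (some c) t ≤ (M.fix P r i c (phs P t)).E fun f =>
      ((f.2.getD j []).getD ((om c).idxOf s) none).elim (2 ^ P.kR * M.Fr P r i s) fun pl =>
        M.infl P r i s c j f.1 (f.2.getD j []) pl t := by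
  rw [monob_topS h hr hrH hF hc ht, topS, mean, E_bind, com, E_bind]
  refine E_le ((valid_past h ht (vn h hrH (t - 1)) (fun h' => vs h hrH h') hc).mono fun zs hzs => ?_)
  have hR : ∀ (y : ℕ) (pls : List (List (Option Plan))) (hs' : List (Option Hnt)) (xs : List ℕ),
      (ctxOut P c s (zs, y, pls, hs') xs : ℝ) ≤ 2 ^ P.kR * M.Fr P r i s := by
    intro y pls hs' xs
    obtain ⟨z, hz, hm⟩ := (valid_zip hzs fun s' z => some (z + dist1 s s')).2 s hs
    have : ctxOut P c s (zs, y, pls, hs') xs ≤ 2 ^ P.kR * M.Fr P r i s := by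
      refine (omin_le_init _ _).trans ((omin_le_init _ _).trans ((omin_le hm).trans ?_))
      rw [dist1_self, add_zero]
      exact hz.2
    exact_mod_cast this
  rw [E_bind]
  refine E_mono' _ fun f => ?_
  rw [E_map]
  cases e : (f.2.getD j []).getD ((om c).idxOf s) none with
  | none =>
    refine E_le (All_of_forall _ fun hs' => ?_)
    rw [E_map]
    exact E_le (All_of_forall _ fun xs => hR _ _ _ _)
  | some pl =>
    rw [Option.elim_some, infl,
      ← monob_range P.nC (fun j => M.hintj P r i c j (f.2.getD j []) t) hj none]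
    refine E_mono' _ fun hs' => ?_
    have e' : own c s (zs, f.1, f.2, hs') j = some pl := e
    have e2 := monob_range P.nC (fun j => (own c s (zs, f.1, f.2, hs') j).elim (.pure 0) fun pl =>
      (M.sroot P r i pl t).avg P.kK) hj 0 fun X =>
        (hs'.getD j none).elim (2 ^ P.kR * M.Fr P r i s : ℝ) fun h =>
          ((max (X + junc P pl s.1 s.2) (hval s h - f.1) : ℕ) : ℝ)
    simp only [e', Option.elim_some] at e2
    rw [E_map, ← e2]
    refine E_mono' _ fun xs => ?_
    cases e3 : hs'.getD j none with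
    | none => exact hR _ _ _ _
    | some g =>
      refine Nat.cast_le.2 (omin_le (List.mem_map.2 ⟨j, List.mem_range.2 hj, ?_⟩))
      rw [e']
      simp only [Option.bind_some, e3, Option.map_some]

theorem monob_omin_le {a a' d : ℕ} {l l' : List (Option ℕ)} (ha : a ≤ a' + d)
    (h : ∀ v', some v' ∈ l' → ∃ v, some v ∈ l ∧ v ≤ v' + d) : omin a l ≤ omin a' l' + d := by
  rcases omin_mem a' l' with e | e
  · rw [e]
    exact (omin_le_init _ _).trans ha
  · obtain ⟨v, hv, hle⟩ := h _ e
    exact (omin_le hv).trans hle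

theorem comVal_lip (P : Par) (c : Ctx) (s s' : ℤ × ℤ) (cm : Com) :
    comVal P c s cm ≤ comVal P c s' cm + dist1 s s' := by
  refine monob_omin_le (monob_omin_le (Nat.le_add_right _ _) fun v' hv => ?_) fun v' hv => ?_
  · obtain ⟨k, hk, e⟩ := List.getElem_of_mem hv
    have hk' : k < (List.zipWith (fun s' z => some (z + dist1 s s')) (om c) cm.1).length := by
      rwa [List.length_zipWith] at hk ⊢
    have hm := List.getElem_mem hk'
    rw [List.getElem_zipWith] at e hm
    refine ⟨_, hm, ?_⟩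
    rw [← Option.some.inj e, add_assoc, add_comm (dist1 s' _)]
    exact Nat.add_le_add_left (dist1_triangle _ _ _) _
  · obtain ⟨o, ho, e⟩ := List.mem_map.1 hv
    obtain ⟨g, rfl, rfl⟩ := Option.map_eq_some_iff.1 e
    refine ⟨hval s g, List.mem_map.2 ⟨_, ho, rfl⟩, ?_⟩
    rw [hval, hval, add_assoc, add_comm (dist1 s' _)]
    exact Nat.add_le_add_left (dist1_triangle _ _ _) _

theorem comVal_le_ctxOut (P : Par) (c : Ctx) (s : ℤ × ℤ) (cm : Com) (xs : List ℕ) :
    ctxOut P c s cm xs ≤ comVal P c s cm ∧ comVal P c s cm ≤ ctxOut P c s cm xs + cm.2.1 := by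
  refine ⟨omin_le_init _ _, ?_⟩
  refine le_trans ?_ (Nat.add_le_add_right (le_omin (c := comVal P c s cm - cm.2.1)
    (Nat.sub_le _ _) fun v hv => ?_) _)
  · omega
  · obtain ⟨j, -, e⟩ := List.mem_map.1 hv
    obtain ⟨pl, -, e2⟩ := Option.bind_eq_some_iff.1 e
    obtain ⟨g, e3, rfl⟩ := Option.map_eq_some_iff.1 e2
    refine le_trans (Nat.sub_le_sub_right ?_ _) (le_max_right _ _)
    exact omin_le (List.mem_map.2 ⟨_, monob_mem e3, rfl⟩)

theorem E_fix_le (h : M.Ok P) (r i : ℕ) (c : Ctx) (φ : ℕ) :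
    ((M.fix P r i c φ).E fun f => (f.1 : ℝ)) ≤ M.mbar P r i c φ / 2 ^ (2 * P.ka) + 16 * cw c := by
  obtain ⟨s, hs, e⟩ := exists_mbar (M := M) (P := P) r i c φ
  have hk : (om c).idxOf s < (om c).length := List.idxOf_lt_length_iff.2 hs
  have hp : P.p2 (2 * P.ka) = 2 ^ (2 * P.ka) := by
    have h1 := geo_par h.good
    have h2 : P.kx = 4 * P.ka := by unfold Par.kx; rfl
    exact h.good.p2_eq (by omega)
  have h1 : ((M.fix P r i c φ).E fun f => (f.1 : ℝ)) ≤
      (seq ((List.range P.T0).map fun k =>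
        seq ((om c).map fun s => M.est P r i s none (wnd P φ k)))).E fun rows =>
          (rows.map fun row => ((row.getD ((om c).idxOf s) 0 : ℕ) : ℝ)).sum / P.T0 / 2 ^ (2 * P.ka) +
            16 * cw c := by
    rw [fix, E_bind]
    refine E_mono' _ fun rows => ?_
    rw [E_map]
    refine E_le (All_of_forall _ fun pls => ?_)
    simp only [fixOut, hp]
    rw [Nat.cast_add, Nat.cast_mul, Nat.cast_ofNat]
    refine add_le_add_left (Nat.cast_div_le.trans ?_) _
    rw [Nat.cast_pow, Nat.cast_ofNat]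
    refine div_le_div_of_nonneg_right (Nat.cast_div_le.trans
      (div_le_div_of_nonneg_right ?_ (Nat.cast_nonneg _))) (by positivity)
    have h2 := mn_le (List.mem_map_of_mem (f := fun k => (rows.map fun row => row.getD k 0).sum)
      (List.mem_range.2 hk))
    refine (Nat.cast_le.2 h2).trans ?_
    rw [Nat.cast_list_sum, List.map_map]
    rfl
  refine h1.trans ?_
  rw [E_add, E_const, E_div, E_div, E_seq_sum, ← e, Wt, List.map_map]
  refine add_le_add_left (div_le_div_of_nonneg_right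
    (div_le_div_of_nonneg_right ?_ (Nat.cast_nonneg _)) (by positivity)) _
  change _ ≤ ((List.range P.T0).map fun k => M.W r i s none (wnd P φ k)).sum
  refine List.sum_le_sum fun k _ => ?_
  exact (monob_getD (om c) (fun s => M.est P r i s none (wnd P φ k)) hs 0 fun v => (v : ℝ)).le.trans
    (mean_avg_le _ _)

/-- Both states use the same distribution of common data. -/
theorem W_some_lip (h : M.Ok P) (hr : r ≤ P.H) {c : Ctx} (hc : M.Cert P r i c) (hs : s ∈ om c)
    {s' : ℤ × ℤ} (hs' : s' ∈ om c) {t : ℕ} (ht : P.T0 < t) :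
    M.W r i s (some c) t ≤ M.W r i s' (some c) t +
      (M.mbar P r i c (phs P t) / 2 ^ (2 * P.ka) + 24 * cw c + 1) := by
  have h0 : 0 ≤ M.mbar P r i c (phs P t) / 2 ^ (2 * P.ka) :=
    div_nonneg (mbar_nonneg r i c _) (by positivity)
  have h3 : (dist1 s s' : ℝ) ≤ 8 * cw c := by exact_mod_cast dist1_om hc.two_dvd hs hs'
  have h4 : (0 : ℝ) ≤ cw c := Nat.cast_nonneg _
  have h5 := (W_some_bounds h hr hc hs' ht).1
  have h6 := mono_lip h r i s s'
  by_cases hF' : M.Fr P r i s' ≤ P.F0
  · have h7 := W_some_le_none h hr hc hs hs' ht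
    rw [W_cheap h hr (c := none) (fun e => (e rfl).elim) (Nat.zero_le _) hF'] at h7
    linarith
  by_cases hF : M.Fr P r i s ≤ P.F0
  · rw [W_cheap h hr (fun _ => ht) (mono_radc h hc) hF]
    linarith
  by_cases hr0 : r = 0
  · have h7 : M.W r i s (some c) t = (min ((s.2 - s.1).natAbs + 1) (cap P c) : ℕ) := by
      rw [W, h.top r hr i s _ t (fun _ => ht) (mono_radc h hc), if_neg hF, if_pos hr0]
      rfl
    have h8 := mono_leaf h r i s c
    linarith
  have h7 : ((M.com P r i c t).E fun cm => (cm.2.1 : ℝ)) =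
      (M.fix P r i c (phs P t)).E fun f => (f.1 : ℝ) := by
    simp only [com, E_bind, E_map, E_const]
  have h8 := E_fix_le h r i c (phs P t)
  have h9 : M.W r i s (some c) t ≤ M.W r i s' (some c) t +
      ((M.com P r i c t).E fun cm => (cm.2.1 : ℝ)) + dist1 s s' := by
    rw [monob_topS h (by omega) hr (by omega) hc ht, monob_topS h (by omega) hr (by omega) hc ht,
      topS, topS, mean, mean, E_bind, E_bind, ← E_add, ← E_const (M.com P r i c t) (dist1 s s' : ℝ), ← E_add]
    refine E_mono' _ fun cm => ?_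
    rw [E_map, E_map]
    refine E_le (All_of_forall _ fun xs => ?_)
    have a1 : (ctxOut P c s cm xs : ℝ) ≤ comVal P c s cm := Nat.cast_le.2 (comVal_le_ctxOut P c s cm xs).1
    have a2 : (comVal P c s cm : ℝ) ≤ comVal P c s' cm + dist1 s s' := by
      exact_mod_cast comVal_lip P c s s' cm
    have a3 := le_E (All_of_forall (seq ((List.range P.nC).map fun j => (own c s' cm j).elim (.pure 0) fun pl =>
      (M.sroot P r i pl t).avg P.kK)) (p := fun xs =>
        (comVal P c s' cm : ℝ) - cm.2.1 ≤ (ctxOut P c s' cm xs : ℝ)) fun xs => by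
          rw [sub_le_iff_le_add]
          exact_mod_cast (comVal_le_ctxOut P c s' cm xs).2)
    linarith
  linarith

end Model

end Crest.Agent.R288
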