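import Crest.Agent.R288.PTa

/-!
# R288: polynomial time of the pure functions, part b (dynamic programme, plan)

Hints: `unfold …; fun_prop` usually works; `fun_prop` may loop on `2 * _` and `2 ^ _` when a definition is
reducible (use `PT.nat_mul`, `PT.nat_pow` by hand, or mark proved definitions `attribute [local irreducible]`);
always run with a timeout.  `PB` (polynomially bounded value) is needed for `List.range`, `List.replicate`,
`Un.mk` and exponents; `min _ x` needs `PB.min_left/right`.  Folds: `Lib/PT/Fold.lean`, `Lib/PT/List.lean`.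
Sizes: an entry of `gL` grows additively per child; `zp` is an iteration over `d` (for `k = 1..d` the node
index is `p / 2^(d-k)`), its components are always members of `Zs` or components of `e`.
-/

set_option autoImplicit false

namespace Crest.Agent.R288

open Crest.Agent.Lib.PT

variable {α : Type} [Enc α]

attribute [local irreducible] mn rdn cw om cap blkP gsp zgrid ctxAt tget

set_option maxHeartbeats 100000

theorem mn_lt_of {l : List ℕ} {B : ℕ} (hB : 0 < B) (h : ∀ x ∈ l, x < B) : mn l < B := by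
  unfold mn
  rcases e : l.argmin id with _ | x
  · simpa using hB
  · exact h x (List.argmin_mem e)

theorem gat_lt {Zs : List ℤ} {m : List (List ℕ)} {f : List ℕ} {z : ℤ} {A B : ℕ}
    (hB : 0 < B) (hz : z.natAbs < A) (hZs : ∀ x ∈ Zs, x.natAbs < A)
    (hm : ∀ r ∈ m, ∀ x ∈ r, x < A) (hf : ∀ x ∈ f, x < B) : gat Zs m f z < 3 * A + B := by
  unfold gat
  refine mn_lt_of (by omega) fun x hx => ?_
  obtain ⟨p, hp, hx⟩ := List.mem_flatMap.1 hx
  obtain ⟨q, hq, rfl⟩ := List.mem_map.1 hx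
  obtain ⟨p1, p2⟩ := p
  obtain ⟨q1, q2⟩ := q
  have h1 := List.of_mem_zip hp
  have h2 := List.of_mem_zip hq
  have h3 := hZs _ h1.1
  have h4 := hm _ h1.2 _ h2.1
  have h5 := hf _ h2.2
  have h6 := Int.natAbs_sub_le z p1
  simp only []
  omega

theorem midz_mem (P : Par) (Zs : List ℤ) (tabs : List Tab) (hb p : ℕ) (zl zr : ℤ) :
    midz P Zs tabs hb p zl zr ∈ Zs ∨ midz P Zs tabs hb p zl zr = zl := by
  unfold midz
  rcases e : List.argmin (fun z => |psi P Zs tabs hb p zl zr z|)
    (Zs.filter fun z => decide (min zl zr ≤ z ∧ z ≤ max zl zr)) with _ | x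
  · right; rfl
  · left; exact (List.mem_filter.1 (List.argmin_mem e)).1

theorem zp_sz (P : Par) (Zs : List ℤ) (tabs : List Tab) (e : ℤ × ℤ) (d : ℕ) : ∀ p : ℕ,
    sz (zp P Zs tabs e d p).1 ≤ sz Zs + sz e ∧ sz (zp P Zs tabs e d p).2 ≤ sz Zs + sz e := by
  induction d with
  | zero => intro p; have := sz_prod e; simp only [zp]; omega
  | succ d ih =>
    intro p
    have h1 := ih (p / 2)
    have h2 : sz (midz P Zs tabs (P.L - d - 1) (p / 2) (zp P Zs tabs e d (p / 2)).1
        (zp P Zs tabs e d (p / 2)).2) ≤ sz Zs + sz e := by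
      rcases midz_mem P Zs tabs (P.L - d - 1) (p / 2) (zp P Zs tabs e d (p / 2)).1
        (zp P Zs tabs e d (p / 2)).2 with h | h
      · have := sz_le_of_mem h; omega
      · rw [h]; exact h1.1
    simp only [zp]
    split_ifs
    · exact ⟨h1.1, h2⟩
    · exact ⟨h2, h1.2⟩

@[fun_prop] theorem gat_pt {Zs : α → List ℤ} {m : α → List (List ℕ)} {f : α → List ℕ} {z : α → ℤ}
    (hZs : PT Zs) (hm : PT m) (hf : PT f) (hz : PT z) : PT fun a => gat (Zs a) (m a) (f a) (z a)
    := by
  unfold gat; fun_prop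

attribute [local irreducible] gat

@[fun_prop] theorem gL_pt {Zs : α → List ℤ} {tab : α → Tab} {js : α → List ℕ} {z : α → ℤ}
    (hZs : PT Zs) (htab : PT tab) (hjs : PT js) (hz : PT z) : PT fun a => gL (Zs a) (tab a) (js a)
    (z a) := by
  unfold gL
  refine PT.foldr_inv (f := fun a j f => (Zs a).map (gat (Zs a) ((tab a).getD j []) f))
    (fun a k c => c.length = (Zs a).length ∧
      ∀ x ∈ c, x < 2 ^ (sz (Zs a) + sz (tab a) + sz (z a) + 2 + k))
    hjs (by fun_prop) (fun a => ⟨by simp, fun x hx => ?_⟩) (fun a k c j _ _ h => ⟨by simp, ?_⟩)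
    (PT.restrict (f := fun p : α × ℕ × List ℕ =>
      (Zs p.1).map (gat (Zs p.1) ((tab p.1).getD p.2.1 []) p.2.2)) (by fun_prop) _)
    (B := fun a => (Zs a).length *
      (4 * (sz (Zs a) + sz (tab a) + sz (z a) + 2 + (js a).length) + 1 + 1) + 1) (by fun_prop)
    fun a k c hk h => ?_
  · obtain ⟨w, hw, rfl⟩ := List.mem_map.1 hx
    have h1 := natAbs_lt_two_pow_sz w
    have h2 := natAbs_lt_two_pow_sz (z a)
    have h3 := sz_le_of_mem hw
    have h4 := Int.natAbs_sub_le w (z a)
    have h5 : 2 ^ sz w ≤ 2 ^ (sz (Zs a) + sz (tab a) + sz (z a)) :=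
      Nat.pow_le_pow_right (by omega) (by omega)
    have h6 : 2 ^ sz (z a) ≤ 2 ^ (sz (Zs a) + sz (tab a) + sz (z a)) :=
      Nat.pow_le_pow_right (by omega) (by omega)
    rw [Nat.add_zero, pow_add]
    omega
  · intro x hx
    obtain ⟨w, hw, rfl⟩ := List.mem_map.1 hx
    have hZ : ∀ x ∈ Zs a, x.natAbs < 2 ^ (sz (Zs a) + sz (tab a) + sz (z a)) := fun x hx =>
      (natAbs_lt_two_pow_sz x).trans_le (Nat.pow_le_pow_right (by omega)
        (by have := sz_le_of_mem hx; omega))
    have hm : sz ((tab a).getD j []) ≤ sz (tab a) := by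
      rw [List.getD_eq_getElem?_getD]
      rcases e : (tab a)[j]? with _ | m
      · simpa using one_le_sz (tab a)
      · exact sz_le_of_mem (List.mem_of_getElem? e)
    have h1 := gat_lt (Zs := Zs a) (m := (tab a).getD j []) (f := c) (z := w)
      (A := 2 ^ (sz (Zs a) + sz (tab a) + sz (z a))) (by positivity) (hZ w hw) hZ
      (fun r hr x hx => (lt_two_pow_sz x).trans_le (Nat.pow_le_pow_right (by omega)
        (by have := sz_le_of_mem hx; have := sz_le_of_mem hr; omega))) h.2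
    have h2 : 2 ^ (sz (Zs a) + sz (tab a) + sz (z a) + 2) ≤
        2 ^ (sz (Zs a) + sz (tab a) + sz (z a) + 2 + k) :=
      Nat.pow_le_pow_right (by omega) (by omega)
    rw [← Nat.add_assoc, pow_succ]
    rw [pow_add _ _ 2] at h2
    omega
  · have h1 := sz_list_le (l := c)
      (B := 4 * (sz (Zs a) + sz (tab a) + sz (z a) + 2 + (js a).length) + 1) fun x hx =>
        sz_nat_le_of_lt ((h.2 x hx).trans_le (Nat.pow_le_pow_right (by omega) (by omega)))
    rw [h.1] at h1
    exact h1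

attribute [local irreducible] gL

@[fun_prop] theorem gN_pt {Zs : α → List ℤ} {tab : α → Tab} {js : α → List ℕ} {x : α → ℤ}
    {y : α → ℤ} (hZs : PT Zs) (htab : PT tab) (hjs : PT js) (hx : PT x) (hy : PT y) : PT fun a =>
    gN (Zs a) (tab a) (js a) (x a) (y a) := by
  unfold gN; fun_prop

attribute [local irreducible] gN

@[fun_prop] theorem gS_pt {P : α → Par} {Zs : α → List ℤ} {tabs : α → List Tab} {hb : α → ℕ}
    {p : α → ℕ} {x : α → ℤ} {y : α → ℤ} (hP : PT P) (hZs : PT Zs) (htabs : PT tabs) (hhb : PT hb)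
    (hp : PT p) (hx : PT x) (hy : PT y) : PT fun a => gS (P a) (Zs a) (tabs a) (hb a) (p a) (x a)
    (y a) := by
  unfold gS; fun_prop

attribute [local irreducible] gS

@[fun_prop] theorem psi_pt {P : α → Par} {Zs : α → List ℤ} {tabs : α → List Tab} {hb : α → ℕ}
    {p : α → ℕ} {x : α → ℤ} {y : α → ℤ} {z : α → ℤ} (hP : PT P) (hZs : PT Zs) (htabs : PT tabs)
    (hhb : PT hb) (hp : PT p) (hx : PT x) (hy : PT y) (hz : PT z) : PT fun a => psi (P a) (Zs a)
    (tabs a) (hb a) (p a) (x a) (y a) (z a) := by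
  have h2 : PT fun a => 2 * p a := (PT.const 2).nat_mul hp
  have h3 : PT fun a => 2 * p a + 1 := h2.nat_add (PT.const 1)
  have h4 := (gS_pt hP hZs htabs hhb h2 hx hz).rat_natCast
  have h5 := (gS_pt hP hZs htabs hhb h3 hz hy).rat_natCast
  unfold psi
  exact (hz.int_sub hx).rat_intCast.rat_sub
    (((hy.int_sub hx).rat_intCast.rat_mul h4).rat_div (h4.rat_add h5))

attribute [local irreducible] psi

@[fun_prop] theorem midz_pt {P : α → Par} {Zs : α → List ℤ} {tabs : α → List Tab} {hb : α → ℕ}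
    {p : α → ℕ} {x : α → ℤ} {y : α → ℤ} (hP : PT P) (hZs : PT Zs) (htabs : PT tabs) (hhb : PT hb)
    (hp : PT p) (hx : PT x) (hy : PT y) : PT fun a => midz (P a) (Zs a) (tabs a) (hb a) (p a)
    (x a) (y a) := by
  unfold midz
  exact PT.option_getD (PT.argmin (by fun_prop) (by fun_prop) (by fun_prop)) hx

attribute [local irreducible] midz

@[fun_prop] theorem zp_pt {P : α → Par} {Zs : α → List ℤ} {tabs : α → List Tab} {e : α → ℤ × ℤ}
    {d : α → ℕ} {p : α → ℕ} (hP : PT P) (hZs : PT Zs) (htabs : PT tabs) (he : PT e) (hd : PT d)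
    (hp : PT p) (bd : PB d) : PT fun a => zp (P a) (Zs a) (tabs a) (e a) (d a) (p a) := by
  have hq : PT fun q : α × ℕ × ℤ × ℤ => p q.1 / 2 ^ (d q.1 - q.2.1) :=
    PT.nat_div (by fun_prop) (PT.nat_pow (PT.const 2) (by fun_prop)
      (PB.sub (bd.comp PT.id.fst) _))
  have hq' : PT fun q : α × ℕ × ℤ × ℤ => p q.1 / 2 ^ (d q.1 - (q.2.1 + 1)) :=
    PT.nat_div (by fun_prop) (PT.nat_pow (PT.const 2) (by fun_prop)
      (PB.sub (bd.comp PT.id.fst) _))
  have hm : PT fun q : α × ℕ × ℤ × ℤ => midz (P q.1) (Zs q.1) (tabs q.1) ((P q.1).L - q.2.1 - 1)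
      (p q.1 / 2 ^ (d q.1 - q.2.1)) q.2.2.1 q.2.2.2 :=
    midz_pt (by fun_prop) (by fun_prop) (by fun_prop) (by fun_prop) hq (by fun_prop) (by fun_prop)
  refine (PT.nat_rec (n := d) (z := e)
    (F := fun a k => zp (P a) (Zs a) (tabs a) (e a) k (p a / 2 ^ (d a - k)))
    (f := fun a k u => if p a / 2 ^ (d a - (k + 1)) % 2 = 0 then
      (u.1, midz (P a) (Zs a) (tabs a) ((P a).L - k - 1) (p a / 2 ^ (d a - k)) u.1 u.2) else
      (midz (P a) (Zs a) (tabs a) ((P a).L - k - 1) (p a / 2 ^ (d a - k)) u.1 u.2, u.2))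
    hd bd he (PT.ite ((hq'.nat_mod (PT.const 2)).eq (PT.const 0))
      (PT.pair PT.id.snd.snd.fst hm) (PT.pair hm PT.id.snd.snd.snd))
    (fun a => rfl) (fun a k hk => ?_) (B := fun a => 2 * (sz (Zs a) + sz (e a)) + 1) (by fun_prop)
    fun a k _ => ?_).of_eq fun a => by simp
  · have h : p a / 2 ^ (d a - (k + 1)) / 2 = p a / 2 ^ (d a - k) := by
      rw [Nat.div_div_eq_div_mul, ← pow_succ, show d a - (k + 1) + 1 = d a - k by omega]
    simp only [zp, h]
  · have := zp_sz (P a) (Zs a) (tabs a) (e a) k (p a / 2 ^ (d a - k))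
    rw [sz_prod]; omega

attribute [local irreducible] zp

@[fun_prop] theorem czs_pt {P : α → Par} {x : α → ℤ} {y : α → ℤ} {σ : α → ℕ} {tabs : α → List Tab}
    (hP : PT P) (hx : PT x) (hy : PT y) (hσ : PT σ) (htabs : PT tabs) : PT fun a => czs (P a)
    (x a) (y a) (σ a) (tabs a) := by
  unfold czs
  refine PT.append (PT.map (by fun_prop) (PT.fst (zp_pt ?_ ?_ ?_ ?_ ?_ ?_ ?_))) (by fun_prop)
  all_goals fun_prop

attribute [local irreducible] czs

@[fun_prop] theorem certOk_pt {P : α → Par} {Zs : α → List ℤ} {tabs : α → List Tab} {j : α → ℕ}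
    {c : α → Ctx} (hP : PT P) (hZs : PT Zs) (htabs : PT tabs) (hj : PT j) (hc : PT c) : PT fun a
    => certOk (P a) (Zs a) (tabs a) (j a) (c a) := by
  unfold certOk
  refine PT.band (by fun_prop) (PT.decide (PT.nat_le (PT.nat_add (by fun_prop)
    (PT.nat_mul (PT.nat_mul (PT.const 8) (by fun_prop)) (by fun_prop))) (by fun_prop)))

attribute [local irreducible] certOk

@[fun_prop] theorem ctxOf_pt {P : α → Par} {Zs : α → List ℤ} {σ : α → ℕ} {tabs : α → List Tab}
    {cz : α → List ℤ} {j : α → ℕ} (hP : PT P) (hZs : PT Zs) (hσ : PT σ) (htabs : PT tabs)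
    (hcz : PT cz) (hj : PT j) : PT fun a => ctxOf (P a) (Zs a) (σ a) (tabs a) (cz a) (j a) := by
  unfold ctxOf; fun_prop

attribute [local irreducible] ctxOf

@[fun_prop] theorem planOfp_pt {P : α → Par} {x : α → ℤ} {y : α → ℤ} {σ : α → ℕ}
    {tabs : α → List Tab} {cz : α → List ℤ} (hP : PT P) (hx : PT x) (hy : PT y) (hσ : PT σ)
    (htabs : PT tabs) (hcz : PT cz) : PT fun a => planOf' (P a) (x a) (y a) (σ a) (tabs a) (cz a)
    := by
  have hcs : PT fun a => (List.range (P a).b).map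
      (ctxOf (P a) (zgrid (P a) (x a) (σ a)) (σ a) (tabs a) (cz a)) := by fun_prop
  have hf : PT fun a => ((List.range (P a).b).map
      (ctxOf (P a) (zgrid (P a) (x a) (σ a)) (σ a) (tabs a) (cz a))).filterMap id :=
    PT.filterMap hcs (by fun_prop)
  unfold planOf'
  exact PT.ite (PT.and (by fun_prop) (PT.and (PT.eq_true (PT.all hcs (by fun_prop)))
    (PT.nat_le (PT.nat_sum (PT.map hf (by fun_prop))) hσ))) (PT.some (PT.pair hcz hf))
    (PT.const _)

attribute [local irreducible] planOf'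

@[fun_prop] theorem planOf_pt {P : α → Par} {x : α → ℤ} {y : α → ℤ} {σ : α → ℕ}
    {tabs : α → List Tab} (hP : PT P) (hx : PT x) (hy : PT y) (hσ : PT σ) (htabs : PT tabs) : PT
    fun a => planOf (P a) (x a) (y a) (σ a) (tabs a) := by
  unfold planOf; fun_prop

end Crest.Agent.R288
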