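import Crest.Agent.R288.Sch

/-!
# R288: parameters

With `N` the total length: `hh = log N + 1`, `ll = log log N`, `jj = log log log N`.
`η = 2^-jj` is the final accuracy, `b = 2^L` the block size, `x = 2^-kx`, `R = 2^kR` the oracle ratio,
`τ = 2^-kg`, `T0 = 2^kT` the phase length.
-/

set_option autoImplicit false

namespace Crest.Agent.R288

open Crest.Agent.Lib.PT

namespace Par

/-- `log log N` from the two lengths -/
def llOf (p : ℕ × ℕ) : ℕ := Nat.log 2 (Nat.log 2 (p.1 + p.2))

variable (P : Par)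

/-- `log N + 1` -/
def hh : ℕ := Nat.log 2 (P.1 + P.2.1) + 1
/-- `log log N` -/
def ll : ℕ := Nat.log 2 (Nat.log 2 (P.1 + P.2.1))
/-- `log log log N` -/
def jj : ℕ := Nat.log 2 P.ll
/-- levels per block -/
def L : ℕ := P.jj * P.jj
/-- number of block levels -/
def H : ℕ := P.hh / P.L + 1
/-- `x^(1/4) = 2^-ka` -/
def ka : ℕ := 10 * P.jj
/-- `x = 2^-kx` -/
def kx : ℕ := 4 * P.ka
/-- oracle ratio `2^kR` -/
def kR : ℕ := 2 * (P.ll * P.ll)
/-- phase length `2^kT` -/
def kT : ℕ := P.ll - 6 * P.jj
/-- `δ = σ / 2^kd` -/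
def kd : ℕ := P.kx + P.L + 1
/-- `g = σ / 2^kg`, `τ = 2^-kg`, `F0 = 2^kg` -/
def kg : ℕ := 2 * P.kR
/-- accurate estimates use `2^kP` samples -/
def kP : ℕ := 2 * (8 * P.kR)
/-- same-time averages use `2^kK` samples -/
def kK : ℕ := 2 * P.kx + 2 * P.jj + 14
/-- number of binary choices for a midpoint -/
def mb : ℕ := P.kg - P.kd + 1
/-- number of radius levels of contexts -/
def nw : ℕ := P.L + 2
/-- number of scales without context -/
def nS : ℕ := 2 * P.kR + 7
/-- number of scales in a context -/
def nC : ℕ := P.kg + P.kx + 8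
/-- oracle: branching `2^kb` -/
def kb : ℕ := P.ll * P.ll
/-- oracle: accuracy `2^-kγ` -/
def kγ : ℕ := P.ll + 5
/-- regularity threshold `θ = 2^-kθ` (analysis only) -/
def kθ : ℕ := P.kd + 8 + P.jj + P.L * (7 + P.jj)
/-- clamped power of two; equals `2 ^ e` for `e ≤ kP` when the pad is right -/
def p2 (e : ℕ) : ℕ := min (2 ^ min e P.2.2.n) P.2.2.n
/-- block size -/
def b : ℕ := P.p2 P.L
/-- phase length -/
def T0 : ℕ := P.p2 P.kT
/-- total number of rounds -/
def T : ℕ := 2 * (P.kR + 2) * P.T0
/-- threshold for exact evaluation -/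
def F0 : ℕ := P.p2 P.kg
/-- oracle: threshold for exact evaluation -/
def F1 : ℕ := P.p2 (P.kb + 2 * P.kγ + 1)

end Par

/-- Length of the pad. -/
def tgt (p : ℕ × ℕ) : ℕ := 2 ^ (2 * (8 * (2 * (Par.llOf p * Par.llOf p))))

theorem llOf_pt : PT Par.llOf := by unfold Par.llOf; fun_prop
theorem llOf_pb : PB Par.llOf := by unfold Par.llOf; fun_prop

theorem tgt_pt : PT tgt :=
  PT.nat_pow (PT.const 2) ((PT.const 2).nat_mul ((PT.const 8).nat_mul ((PT.const 2).nat_mul
    (llOf_pt.nat_mul llOf_pt)))) ((PB.const 2).mul ((PB.const 8).mul ((PB.const 2).mul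
    (llOf_pb.mul llOf_pb))))

/-- The parameters are large and the pad has the right length. -/
structure Good (P : Par) : Prop where
  big : 64 ≤ P.jj
  pad : P.2.2.n = 2 ^ P.kP

section pt

set_option maxHeartbeats 100000

variable {α : Type} [Enc α] {P : α → Par}

namespace Par

@[fun_prop] theorem hh_pt (h : PT P) : PT fun a => (P a).hh := by unfold hh; fun_prop
@[fun_prop] theorem hh_pb (h : PT P) : PB fun a => (P a).hh := by unfold hh; fun_prop
attribute [irreducible] hh
@[fun_prop] theorem ll_pt (h : PT P) : PT fun a => (P a).ll := by unfold ll; fun_prop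
@[fun_prop] theorem ll_pb (h : PT P) : PB fun a => (P a).ll := by unfold ll; fun_prop
attribute [irreducible] ll
@[fun_prop] theorem jj_pt (h : PT P) : PT fun a => (P a).jj := by unfold jj; fun_prop
@[fun_prop] theorem jj_pb (h : PT P) : PB fun a => (P a).jj := by unfold jj; fun_prop
attribute [irreducible] jj
@[fun_prop] theorem L_pt (h : PT P) : PT fun a => (P a).L := by unfold L; fun_prop
@[fun_prop] theorem L_pb (h : PT P) : PB fun a => (P a).L := by unfold L; fun_prop
attribute [irreducible] L
@[fun_prop] theorem H_pt (h : PT P) : PT fun a => (P a).H := by unfold H; fun_prop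
@[fun_prop] theorem H_pb (h : PT P) : PB fun a => (P a).H := by unfold H; fun_prop
attribute [irreducible] H
@[fun_prop] theorem ka_pt (h : PT P) : PT fun a => (P a).ka := by unfold ka; fun_prop
@[fun_prop] theorem ka_pb (h : PT P) : PB fun a => (P a).ka := by unfold ka; fun_prop
attribute [irreducible] ka
@[fun_prop] theorem kx_pt (h : PT P) : PT fun a => (P a).kx := by unfold kx; fun_prop
@[fun_prop] theorem kx_pb (h : PT P) : PB fun a => (P a).kx := by unfold kx; fun_prop
attribute [irreducible] kx
@[fun_prop] theorem kR_pt (h : PT P) : PT fun a => (P a).kR := by unfold kR; fun_prop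
@[fun_prop] theorem kR_pb (h : PT P) : PB fun a => (P a).kR := by unfold kR; fun_prop
attribute [irreducible] kR
@[fun_prop] theorem kT_pt (h : PT P) : PT fun a => (P a).kT := by unfold kT; fun_prop
@[fun_prop] theorem kT_pb (h : PT P) : PB fun a => (P a).kT := by unfold kT; fun_prop
attribute [irreducible] kT
@[fun_prop] theorem kd_pt (h : PT P) : PT fun a => (P a).kd := by unfold kd; fun_prop
@[fun_prop] theorem kd_pb (h : PT P) : PB fun a => (P a).kd := by unfold kd; fun_prop
attribute [irreducible] kd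
@[fun_prop] theorem kg_pt (h : PT P) : PT fun a => (P a).kg := by unfold kg; fun_prop
@[fun_prop] theorem kg_pb (h : PT P) : PB fun a => (P a).kg := by unfold kg; fun_prop
attribute [irreducible] kg
@[fun_prop] theorem kP_pt (h : PT P) : PT fun a => (P a).kP := by unfold kP; fun_prop
@[fun_prop] theorem kP_pb (h : PT P) : PB fun a => (P a).kP := by unfold kP; fun_prop
attribute [irreducible] kP
@[fun_prop] theorem kK_pt (h : PT P) : PT fun a => (P a).kK := by unfold kK; fun_prop
@[fun_prop] theorem kK_pb (h : PT P) : PB fun a => (P a).kK := by unfold kK; fun_prop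
attribute [irreducible] kK
@[fun_prop] theorem mb_pt (h : PT P) : PT fun a => (P a).mb := by unfold mb; fun_prop
@[fun_prop] theorem mb_pb (h : PT P) : PB fun a => (P a).mb := by unfold mb; fun_prop
attribute [irreducible] mb
@[fun_prop] theorem nw_pt (h : PT P) : PT fun a => (P a).nw := by unfold nw; fun_prop
@[fun_prop] theorem nw_pb (h : PT P) : PB fun a => (P a).nw := by unfold nw; fun_prop
attribute [irreducible] nw
@[fun_prop] theorem nS_pt (h : PT P) : PT fun a => (P a).nS := by unfold nS; fun_prop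
@[fun_prop] theorem nS_pb (h : PT P) : PB fun a => (P a).nS := by unfold nS; fun_prop
attribute [irreducible] nS
@[fun_prop] theorem nC_pt (h : PT P) : PT fun a => (P a).nC := by unfold nC; fun_prop
@[fun_prop] theorem nC_pb (h : PT P) : PB fun a => (P a).nC := by unfold nC; fun_prop
attribute [irreducible] nC
@[fun_prop] theorem kb_pt (h : PT P) : PT fun a => (P a).kb := by unfold kb; fun_prop
@[fun_prop] theorem kb_pb (h : PT P) : PB fun a => (P a).kb := by unfold kb; fun_prop
attribute [irreducible] kb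
@[fun_prop] theorem kγ_pt (h : PT P) : PT fun a => (P a).kγ := by unfold kγ; fun_prop
@[fun_prop] theorem kγ_pb (h : PT P) : PB fun a => (P a).kγ := by unfold kγ; fun_prop
attribute [irreducible] kγ

@[fun_prop] theorem p2_pt {e : α → ℕ} (h : PT P) (he : PT e) : PT fun a => (P a).p2 (e a) := by
  unfold p2
  exact PT.nat_min (PT.nat_pow (PT.const 2) (by fun_prop) (PB.min_right _ (by fun_prop)))
    (by fun_prop)
@[fun_prop] theorem p2_pb {e : α → ℕ} (h : PT P) (_he : PT e) : PB fun a => (P a).p2 (e a) := by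
  unfold p2
  exact PB.min_right _ (by fun_prop)

attribute [irreducible] p2

@[fun_prop] theorem b_pt (h : PT P) : PT fun a => (P a).b := p2_pt h (by fun_prop)
@[fun_prop] theorem b_pb (h : PT P) : PB fun a => (P a).b := p2_pb h (by fun_prop)
@[fun_prop] theorem T0_pt (h : PT P) : PT fun a => (P a).T0 := p2_pt h (by fun_prop)
@[fun_prop] theorem T0_pb (h : PT P) : PB fun a => (P a).T0 := p2_pb h (by fun_prop)
@[fun_prop] theorem T_pt (h : PT P) : PT fun a => (P a).T :=
  PT.nat_mul (by fun_prop) (T0_pt h)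
@[fun_prop] theorem T_pb (h : PT P) : PB fun a => (P a).T :=
  PB.mul (by fun_prop) (T0_pb h)
@[fun_prop] theorem F0_pt (h : PT P) : PT fun a => (P a).F0 := p2_pt h (by fun_prop)
@[fun_prop] theorem F0_pb (h : PT P) : PB fun a => (P a).F0 := p2_pb h (by fun_prop)
@[fun_prop] theorem F1_pt (h : PT P) : PT fun a => (P a).F1 := p2_pt h (by fun_prop)
@[fun_prop] theorem F1_pb (h : PT P) : PB fun a => (P a).F1 := p2_pb h (by fun_prop)

attribute [irreducible] b T0 T F0 F1 kθ

end Par

end pt

namespace Good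

variable {P : Par}

theorem p2_eq (h : Good P) {e : ℕ} (he : e ≤ P.kP) : P.p2 e = 2 ^ e := by
  have h1 : P.kP < 2 ^ P.kP := Nat.lt_two_pow_self
  unfold Par.p2
  rw [h.pad, min_eq_left (he.trans h1.le), min_eq_left (Nat.pow_le_pow_right (by norm_num) he)]

theorem p2_le (h : Good P) (e : ℕ) : P.p2 e ≤ 2 ^ P.kP := by
  unfold Par.p2; rw [← h.pad]; exact min_le_right _ _

theorem p2_pos (h : Good P) (e : ℕ) : 0 < P.p2 e := by
  unfold Par.p2; rw [h.pad]; exact lt_min (by positivity) (by positivity)

end Good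

end Crest.Agent.R288
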