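import Crest.Agent.R288.IndX
import Crest.Agent.R288.IndS

/-!
# R288: the main induction and the phases
-/

set_option autoImplicit false

namespace Crest.Agent.R288

open RT

namespace Model

variable {M : Model} {P : Par}

theorem phase_eta_pos (P : Par) : 0 < eta P := by unfold eta; positivity

theorem phase_eta_le (hP : Good P) : eta P ≤ 1 / 8 := by
  have h1 : (2 : ℝ) ^ 3 ≤ 2 ^ P.jj := pow_le_pow_right₀ one_le_two (by have := hP.big; omega)
  unfold eta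
  exact one_div_le_one_div_of_le (by norm_num) (by norm_num at h1 ⊢; exact h1)

theorem phase_adm_none (r i : ℕ) (s : ℤ × ℤ) : M.Adm P r i s none := fun _ hc => by cases hc

/-- Induction on `r`: `terminal_easy`, `exists_blk`, then `case_dev`, `case_solved` if the block is not regular,
`case_reg_none`, `terminal_ctx`, `case_reg_some` otherwise. -/
theorem sum_le_bnd (h : M.Ok P) {φ : ℕ} (hφ : 1 ≤ φ) {Λ : ℝ} (hΛ : 1 + eta P ≤ Λ) (hΛ' : Λ ≤ 2 ^ P.kR)
    (hR : M.Ratio P ((φ - 1) * P.T0) Λ) :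
    ∀ r ≤ P.H, ∀ i s c, M.Adm P r i s c → M.Sum P φ r i s c ≤ M.Bnd P φ Λ r i s c := by
  have hη := phase_eta_pos P
  have hΛ1 : 1 ≤ Λ := by linarith
  intro r
  induction r with
  | zero =>
    intro hr i s c hc
    exact terminal_easy h hr hφ hΛ1 hR hc (Or.inr (Or.inl rfl))
  | succ r ih =>
    intro hr i s c hc
    have ih' : ∀ i' s' c', M.Adm P (r + 1 - 1) i' s' c' →
        M.Sum P φ (r + 1 - 1) i' s' c' ≤ M.Bnd P φ Λ (r + 1 - 1) i' s' c' := ih (by omega)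
    by_cases h0 : M.Fr P (r + 1) i s ≤ P.F0 ∨ r + 1 = 0 ∨ 2 ^ ((r + 1) * P.L + P.jj) ≤ (s.2 - s.1).natAbs
    · exact terminal_easy h hr hφ hΛ1 hR hc h0
    obtain ⟨m, z, hb⟩ := exists_blk h hr hφ hΛ hΛ' hR h0
    by_cases hreg : Regular P (2 ^ m) (M.Gs P (r + 1) i s m φ z) z
    · rcases c with _ | c
      · exact hb.case_reg_none ih' hreg
      · by_cases h1 : 2 ^ m * 2 ^ P.kg < cw c ∨ 128 * cap P c < 2 ^ m ∨
            128 * (M.mbar P (r + 1) i c φ + 8 * cw c + 1) < 2 ^ m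
        · exact hb.terminal_ctx hc h1
        · exact hb.case_reg_some ih' hreg hc h1
    · unfold Regular at hreg
      push Not at hreg
      obtain ⟨e, he, p, hp, hl, hd⟩ := hreg
      rw [Nat.cast_pow, Nat.cast_ofNat] at hl hd
      by_cases h1 : (1 + eta P) * |dsp z (e + 1) p| ≤
          M.Gs P (r + 1) i s m φ z e (2 * p) + M.Gs P (r + 1) i s m φ z e (2 * p + 1)
      · exact hb.case_dev hc (fun j _ => ih' _ _ _ (phase_adm_none _ _ _)) he hp hl (hd h1)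
      · exact hb.case_solved hc (fun j _ => ih' _ _ _ (phase_adm_none _ _ _)) he hp hl (not_le.1 h1)

theorem phase_rho (hP : Good P) {r : ℕ} (hr : r ≤ P.H) : (1 + rho P) ^ r ≤ 1 + eta P := by
  have hη := phase_eta_pos P
  have hη' := phase_eta_le hP
  have hρ : 0 < rho P := by unfold rho; positivity
  have h1 : (r : ℝ) ≤ 2 ^ (P.ll + 1) := by exact_mod_cast hr.trans (hP.H_le.trans hP.hh_hi)
  have h2 : (r : ℝ) * rho P ≤ eta P / 2 := by
    refine (mul_le_mul_of_nonneg_right h1 hρ.le).trans (le_of_eq ?_)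
    unfold rho eta
    field_simp
    ring
  have h3 : (1 + rho P) ^ r ≤ Real.exp (r * rho P) := by
    rw [Real.exp_nat_mul]
    exact pow_le_pow_left₀ (by linarith) (by linarith [Real.add_one_le_exp (rho P)]) r
  have h4 : |Real.exp (eta P / 2) - 1| ≤ 2 * |eta P / 2| :=
    Real.abs_exp_sub_one_le (by rw [abs_of_pos (by linarith)]; linarith)
  rw [abs_of_pos (show 0 < eta P / 2 by linarith)] at h4
  have h5 := (abs_le.1 h4).2
  have h6 := Real.exp_le_exp.2 h2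
  linarith

theorem phase_c (hP : Good P) {r : ℕ} (hr : r ≤ P.H) : r * c1 P + c2 P ≤ P.T0 * eta P / 16 := by
  have s1 := hP.small_ll
  have s2 := hP.kT_add
  have s3 := hP.big
  have s4 := hP.mb_add
  have s5 := hP.kR_lt
  have s6 : P.kg = 2 * P.kR := Par.kg.eq_1 P
  have s7 : P.ka = 10 * P.jj := Par.ka.eq_1 P
  obtain ⟨u, hu⟩ : ∃ u, P.kT = u + P.jj + 6 := ⟨P.kT - P.jj - 6, by omega⟩
  have hT : (P.T0 : ℝ) = 2 ^ P.kT := by rw [hP.T0_eq]; push_cast; rfl
  have hr1 : r ≤ 2 ^ (P.ll + 1) := hr.trans (hP.H_le.trans hP.hh_hi)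
  have hrL : r * P.L ≤ 2 ^ (P.ll + 2) := by
    have h1 := hP.HL_le
    have h2 := hP.hh_hi
    have h3 := Nat.mul_le_mul_right P.L hr
    rw [pow_succ 2 (P.ll + 1)]
    omega
  have hmb : P.mb ≤ 2 ^ (2 * P.jj + 4) := by rw [pow_succ 2 (2 * P.jj + 3)]; omega
  have t1 : (r : ℝ) * (4096 * P.L * P.mb / 2 ^ P.ka) ≤ 2 ^ u := by
    have h1 : r * (4096 * P.L * P.mb) ≤ 2 ^ u * 2 ^ P.ka :=
      calc r * (4096 * P.L * P.mb) = 2 ^ 12 * (r * P.L * P.mb) := by ring
        _ ≤ 2 ^ 12 * (2 ^ (P.ll + 2) * 2 ^ (2 * P.jj + 4)) :=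
          Nat.mul_le_mul_left _ (Nat.mul_le_mul hrL hmb)
        _ = 2 ^ (12 + (P.ll + 2 + (2 * P.jj + 4))) := by rw [← pow_add, ← pow_add]
        _ ≤ 2 ^ (u + P.ka) := Nat.pow_le_pow_right (by norm_num) (by omega)
        _ = _ := pow_add _ _ _
    rw [← mul_div_assoc, div_le_iff₀ (by positivity)]
    exact_mod_cast h1
  have t2 : (r : ℝ) * (64 * cE P / P.T0) ≤ 2 ^ u := by
    have h1 : r * (64 * 2 ^ (2 * P.kθ + 9)) ≤ 2 ^ u * 2 ^ P.kT :=
      calc r * (64 * 2 ^ (2 * P.kθ + 9)) ≤ 2 ^ (P.ll + 1) * (2 ^ 6 * 2 ^ (2 * P.kθ + 9)) :=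
          Nat.mul_le_mul_right _ hr1
        _ = 2 ^ (P.ll + 1 + (6 + (2 * P.kθ + 9))) := by rw [← pow_add, ← pow_add]
        _ ≤ 2 ^ (u + P.kT) := Nat.pow_le_pow_right (by norm_num) (by omega)
        _ = _ := pow_add _ _ _
    rw [← mul_div_assoc, hT, div_le_iff₀ (by positivity)]
    unfold cE
    exact_mod_cast h1
  have t3 : 4 * cE P ≤ 2 ^ u := by
    have h1 : (2 : ℝ) ^ (2 + (2 * P.kθ + 9)) ≤ 2 ^ u := pow_le_pow_right₀ one_le_two (by omega)
    rw [pow_add] at h1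
    unfold cE
    linarith
  have t4 : (2 : ℝ) ^ (P.kd + 16) ≤ 2 ^ u := pow_le_pow_right₀ one_le_two (by omega)
  have t5 : (P.T0 : ℝ) * eta P / 16 = 4 * 2 ^ u := by
    rw [hT, hu]
    unfold eta
    field_simp
    ring
  rw [t5]
  unfold c1 c2
  rw [mul_add]
  linarith

theorem phase_lam0 (P : Par) (Λ : ℝ) : 0 ≤ lam0 P Λ :=
  le_trans (by linarith [phase_eta_pos P]) (le_max_right _ _)

/-- `(1 + ρ)^H ≤ exp (H ρ) ≤ 1 + η` (`H ≤ 2^(ll+1)`), `H c1 / T0 + c2 / T0 ≤ η / 16`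
(`H ≤ hh / L + 1`, so `H L ≤ 2 hh ≤ 2^(ll+2)`, `T0 = 2^(ll - 6jj)`, `mb ≤ kg + 1 ≤ 2^(2jj+5)`, `small_ll`). -/
theorem Kc_le (hP : Good P) {Λ : ℝ} (hΛ : 0 ≤ Λ) {r : ℕ} (hr : r ≤ P.H) :
    Kc P Λ r ≤ P.T0 * ((1 + eta P) * (lam0 P Λ + eta P * Λ / 16)) := by
  have h1 := phase_rho hP hr
  have h2 := phase_c hP hr
  have h3 := phase_lam0 P Λ
  have hη := phase_eta_pos P
  have hρ : 0 < rho P := by unfold rho; positivity
  have h4 : P.T0 * lam0 P Λ + r * c1 P * Λ + c2 P * Λ ≤ P.T0 * (lam0 P Λ + eta P * Λ / 16) := by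
    have := mul_le_mul_of_nonneg_right h2 hΛ
    linarith
  unfold Kc
  calc _ ≤ P.T0 * (lam0 P Λ + eta P * Λ / 16) * (1 + eta P) :=
        mul_le_mul h4 h1 (by positivity) (by positivity)
    _ = _ := by ring

theorem phase (h : M.Ok P) {φ : ℕ} (hφ : 1 ≤ φ) {Λ : ℝ} (hΛ : 1 + eta P ≤ Λ) (hΛ' : Λ ≤ 2 ^ P.kR)
    (hR : M.Ratio P ((φ - 1) * P.T0) Λ) :
    M.Ratio P ((φ + 1) * P.T0) ((1 + eta P) * (lam0 P Λ + eta P * Λ / 16)) := by
  intro r hr i s
  have hη := phase_eta_pos P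
  have hT : (0 : ℝ) < P.T0 := by
    have := h.good.two_le_T0
    exact_mod_cast (by omega : 0 < P.T0)
  have h1 := sum_le_bnd h hφ hΛ hΛ' hR r hr i s none (phase_adm_none _ _ _)
  have h2 : P.T0 * M.W r i s none ((φ + 1) * P.T0) ≤ M.Sum P φ r i s none := by
    have := Finset.card_nsmul_le_sum (Finset.range P.T0) (fun k => M.W r i s none (rd0 P φ k))
      (M.W r i s none ((φ + 1) * P.T0)) fun k hk => W_none_anti h hr i s (by
        have := Finset.mem_range.1 hk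
        unfold rd0
        rw [add_mul]
        omega)
    rwa [Finset.card_range, nsmul_eq_mul] at this
  have h3 : 0 ≤ M.Wt P r i s φ := le_trans (Nat.cast_nonneg _) (Wt_bounds h hr i s hR).1
  have h4 : 0 ≤ cE P * psiR (M.Wt P r i s φ) ((s.2 - s.1 : ℤ) : ℝ) := by
    unfold cE psiR
    positivity
  have h5 := mul_le_mul_of_nonneg_right (Kc_le h.good (Λ := Λ) (by linarith) hr)
    (Nat.cast_nonneg (α := ℝ) (M.Fr P r i s))
  rw [Bnd_eq] at h1
  simp only [Option.elim, Nat.cast_zero, mul_zero, add_zero, sub_zero] at h1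
  refine le_of_mul_le_mul_left ?_ hT
  rw [← mul_assoc]
  linarith

/-- Induction on `n` with `φ = 2n + 1`; distinguish `Λ ≥ 4 (1+η)` (then `Λ = R / 2^n` is halved) and
`Λ < 4 (1+η)` (then the new ratio is `≤ (1+η)² (1 + η/4) ≤ 1 + 3η`). -/
theorem ratio_iter (h : M.Ok P) (n : ℕ) :
    M.Ratio P (2 * n * P.T0) (max (2 ^ P.kR / 2 ^ n) (1 + 3 * eta P)) := by
  have hη := phase_eta_pos P
  have hη' := phase_eta_le h.good
  have hR4 : (4 : ℝ) ≤ 2 ^ P.kR := by
    have s1 := h.good.small_ll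
    have s2 := h.good.ll_kR
    have h1 : (2 : ℝ) ^ 2 ≤ 2 ^ P.kR := pow_le_pow_right₀ one_le_two (by omega)
    linarith
  induction n with
  | zero =>
    refine (ratio_zero h).mono h (Nat.zero_le _) (le_trans ?_ (le_max_left _ _))
    simp
  | succ n ih =>
    have e1 : (2 * n + 1 - 1) * P.T0 = 2 * n * P.T0 := by rw [Nat.add_sub_cancel]
    have hdiv : (2 : ℝ) ^ P.kR / 2 ^ n ≤ 2 ^ P.kR := div_le_self (by positivity) (one_le_pow₀ one_le_two)
    have h1 := phase h (φ := 2 * n + 1) (Λ := max (2 ^ P.kR / 2 ^ n) (1 + 3 * eta P)) (by omega)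
      (le_trans (by linarith) (le_max_right _ _)) (max_le hdiv (by linarith)) (by rw [e1]; exact ih)
    refine h1.mono h (le_of_eq (by ring)) ?_
    set Λ := max ((2 : ℝ) ^ P.kR / 2 ^ n) (1 + 3 * eta P) with hΛ
    unfold lam0
    rcases le_total (1 + eta P) (Λ / 4) with h2 | h2
    · have h3 : Λ = 2 ^ P.kR / 2 ^ n := by
        rcases max_choice ((2 : ℝ) ^ P.kR / 2 ^ n) (1 + 3 * eta P) with h4 | h4
        · exact h4
        · rw [← hΛ] at h4
          linarith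
      refine le_trans ?_ (le_max_left _ _)
      rw [max_eq_left h2, pow_succ, ← div_div, ← h3]
      have h5 : (1 + eta P) * (1 / 4 + eta P / 16) ≤ 1 / 2 := by nlinarith
      have h6 := mul_le_mul_of_nonneg_right h5 (show 0 ≤ Λ by linarith)
      linarith
    · refine le_trans ?_ (le_max_right _ _)
      rw [max_eq_right h2]
      have h5 : eta P * Λ / 16 ≤ eta P * (1 + eta P) / 4 := by nlinarith
      have h6 : eta P * eta P ≤ eta P / 8 := by nlinarith
      have h7 : eta P * (eta P * eta P) ≤ eta P / 64 := by nlinarith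
      have h8 := mul_le_mul_of_nonneg_left h5 (show 0 ≤ 1 + eta P by linarith)
      nlinarith

theorem final (h : M.Ok P) (i : ℕ) (s : ℤ × ℤ) :
    ((M.top P.H i s none P.T).All fun v => M.Fr P P.H i s ≤ v) ∧
      (M.top P.H i s none P.T).mean ≤ (1 + 3 * eta P) * M.Fr P P.H i s := by
  refine ⟨(vn h le_rfl P.T i s).mono fun v hv => hv.1, ?_⟩
  have hη := phase_eta_pos P
  have h1 := ratio_iter h (P.kR + 2)
  have h2 : (2 : ℝ) ^ P.kR / 2 ^ (P.kR + 2) ≤ 1 + 3 * eta P := by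
    have : (2 : ℝ) ^ P.kR / 2 ^ (P.kR + 2) ≤ 1 :=
      (div_le_one (by positivity)).2 (pow_le_pow_right₀ one_le_two (by omega))
    linarith
  rw [max_eq_right h2, ← Par.T.eq_1] at h1
  exact h1 P.H le_rfl i s

end Model

end Crest.Agent.R288
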