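import Crest.Agent.R288.Geo

/-!
# R288: what every plan satisfies
-/

set_option autoImplicit false

namespace Crest.Agent.R288

variable {P : Par}

theorem plana_kx (hP : Good P) : 2 ≤ P.kx := by
  have := hP.big
  rw [Par.kx.eq_1, Par.ka.eq_1]
  omega

theorem plana_even (Zs : List ℤ) (tabs : List Tab) (e : ℤ × ℤ) (d p : ℕ) :
    zp P Zs tabs e (d + 1) (2 * p) = ((zp P Zs tabs e d p).1,
      midz P Zs tabs (P.L - d - 1) p (zp P Zs tabs e d p).1 (zp P Zs tabs e d p).2) := by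
  rw [zp, if_pos (by omega), show 2 * p / 2 = p by omega]

theorem plana_odd (Zs : List ℤ) (tabs : List Tab) (e : ℤ × ℤ) (d p : ℕ) :
    zp P Zs tabs e (d + 1) (2 * p + 1) = (midz P Zs tabs (P.L - d - 1) p (zp P Zs tabs e d p).1
      (zp P Zs tabs e d p).2, (zp P Zs tabs e d p).2) := by
  rw [zp, if_neg (by omega), show (2 * p + 1) / 2 = p by omega]

theorem plana_fst (Zs : List ℤ) (tabs : List Tab) (e : ℤ × ℤ) (d p k : ℕ) :
    (zp P Zs tabs e (d + k) (p * 2 ^ k)).1 = (zp P Zs tabs e d p).1 := by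
  induction k with
  | zero => simp
  | succ k ih => rw [← add_assoc, show p * 2 ^ (k + 1) = 2 * (p * 2 ^ k) by ring, plana_even, ih]

theorem plana_snd (Zs : List ℤ) (tabs : List Tab) (e : ℤ × ℤ) (d p : ℕ) :
    (p + 1 < 2 ^ d → (zp P Zs tabs e d p).2 = (zp P Zs tabs e d (p + 1)).1) ∧
      (p + 1 = 2 ^ d → (zp P Zs tabs e d p).2 = e.2) := by
  induction d generalizing p with
  | zero => exact ⟨fun h => by omega, fun _ => rfl⟩
  | succ d ih =>
    rw [pow_succ]
    obtain ⟨q, rfl | rfl⟩ := Nat.even_or_odd' p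
    · exact ⟨fun _ => by rw [plana_even, plana_odd], fun h => by omega⟩
    · refine ⟨fun h => ?_, fun h => ?_⟩
      · rw [plana_odd, show 2 * q + 1 + 1 = 2 * (q + 1) by ring, plana_even]
        exact (ih q).1 (by omega)
      · rw [plana_odd]
        exact (ih q).2 (by omega)

theorem plana_get (α γ : ℤ) (σ : ℕ) (tabs : List Tab) {j : ℕ} (hj : j < P.b) :
    (czs P α γ σ tabs).getD j 0 = (zp P (zgrid P α σ) tabs (rdn (gsp P σ) α, rdn (gsp P σ) γ) P.L j).1 := by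
  rw [czs, List.getD_append _ _ _ _ (by simpa using hj), List.getD_eq_getElem _ _ (by simpa using hj)]
  simp

theorem plana_last (α γ : ℤ) (σ : ℕ) (tabs : List Tab) : (czs P α γ σ tabs).getD P.b 0 = rdn (gsp P σ) γ := by
  rw [czs, List.getD_append_right _ _ _ _ (by simp)]
  simp

/-- The planned ends of a node are consecutive entries of `czs` (neighbouring nodes share their ends). -/
theorem zp_czs (hP : Good P) (α γ : ℤ) (σ : ℕ) (tabs : List Tab) {d p : ℕ} (hd : d ≤ P.L) (hp : p < 2 ^ d) :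
    zp P (zgrid P α σ) tabs (rdn (gsp P σ) α, rdn (gsp P σ) γ) d p =
      ((czs P α γ σ tabs).getD (p * 2 ^ (P.L - d)) 0,
        (czs P α γ σ tabs).getD ((p + 1) * 2 ^ (P.L - d)) 0) := by
  have hb : P.b = 2 ^ d * 2 ^ (P.L - d) := by rw [hP.b_eq, ← pow_add, Nat.add_sub_cancel' hd]
  have key : ∀ q < 2 ^ d, (czs P α γ σ tabs).getD (q * 2 ^ (P.L - d)) 0 =
      (zp P (zgrid P α σ) tabs (rdn (gsp P σ) α, rdn (gsp P σ) γ) d q).1 := by
    intro q hq
    rw [plana_get _ _ _ _ (by rw [hb]; exact Nat.mul_lt_mul_of_pos_right hq (by positivity)),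
      ← plana_fst _ _ _ d q (P.L - d), Nat.add_sub_cancel' hd]
  refine Prod.ext (key p hp).symm ?_
  rcases Nat.lt_or_ge (p + 1) (2 ^ d) with h | h
  · rw [(plana_snd _ _ _ d p).1 h]
    exact (key _ h).symm
  · have h1 : p + 1 = 2 ^ d := by omega
    rw [(plana_snd _ _ _ d p).2 h1, h1, ← hb]
    exact (plana_last _ _ _ _).symm

theorem midz_btw (P : Par) (Zs : List ℤ) (tabs : List Tab) (hb p : ℕ) (zl zr : ℤ) :
    min zl zr ≤ midz P Zs tabs hb p zl zr ∧ midz P Zs tabs hb p zl zr ≤ max zl zr ∧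
      (midz P Zs tabs hb p zl zr ∈ Zs ∨ midz P Zs tabs hb p zl zr = zl) := by
  rw [midz]
  cases h : (Zs.filter fun z => decide (min zl zr ≤ z ∧ z ≤ max zl zr)).argmin
      fun z => |psi P Zs tabs hb p zl zr z| with
  | none => exact ⟨min_le_left _ _, le_max_left _ _, Or.inr rfl⟩
  | some m =>
    have h1 := List.mem_filter.1 (List.argmin_mem h)
    have h2 := of_decide_eq_true h1.2
    exact ⟨h2.1, h2.2, Or.inl h1.1⟩

/-- Planned boundaries below a node lie between its planned ends. -/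
theorem czs_btw (hP : Good P) (α γ : ℤ) (σ : ℕ) (tabs : List Tab) {hb p j : ℕ} (hhb : hb ≤ P.L)
    (hp : p < 2 ^ (P.L - hb)) (h1 : p * 2 ^ hb ≤ j) (h2 : j ≤ (p + 1) * 2 ^ hb) :
    min ((czs P α γ σ tabs).getD (p * 2 ^ hb) 0) ((czs P α γ σ tabs).getD ((p + 1) * 2 ^ hb) 0) ≤
        (czs P α γ σ tabs).getD j 0 ∧
      (czs P α γ σ tabs).getD j 0 ≤
        max ((czs P α γ σ tabs).getD (p * 2 ^ hb) 0) ((czs P α γ σ tabs).getD ((p + 1) * 2 ^ hb) 0) := by
  induction hb generalizing p with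
  | zero =>
    simp only [pow_zero, mul_one] at h1 h2 ⊢
    rcases (show j = p ∨ j = p + 1 by omega) with rfl | rfl
    · exact ⟨min_le_left _ _, le_max_left _ _⟩
    · exact ⟨min_le_right _ _, le_max_right _ _⟩
  | succ hb ih =>
    have hp2 : 2 * p + 1 < 2 ^ (P.L - hb) := by
      rw [show P.L - hb = P.L - (hb + 1) + 1 by omega, pow_succ]
      omega
    have e1 := zp_czs hP α γ σ tabs (d := P.L - (hb + 1)) (p := p) (by omega) hp
    have e2 := zp_czs hP α γ σ tabs (d := P.L - (hb + 1) + 1) (p := 2 * p) (by omega) (by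
      rw [pow_succ]; omega)
    rw [plana_even, e1, show P.L - (P.L - (hb + 1)) = hb + 1 by omega,
      show P.L - (P.L - (hb + 1) + 1) = hb by omega] at e2
    have e3 := midz_btw P (zgrid P α σ) tabs (hb + 1 - 1) p ((czs P α γ σ tabs).getD (p * 2 ^ (hb + 1)) 0)
      ((czs P α γ σ tabs).getD ((p + 1) * 2 ^ (hb + 1)) 0)
    have e4 := (Prod.ext_iff.1 e2).2
    dsimp only at e4
    rw [e4] at e3
    have i1 : p * 2 ^ (hb + 1) = 2 * p * 2 ^ hb := by ring
    have i2 : (p + 1) * 2 ^ (hb + 1) = (2 * p + 1 + 1) * 2 ^ hb := by ring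
    rw [i1, i2] at e3 ⊢
    rw [i1] at h1
    rw [i2] at h2
    rcases le_total j ((2 * p + 1) * 2 ^ hb) with h | h
    · have := ih (p := 2 * p) (by omega) (by omega) h1 h
      omega
    · have := ih (p := 2 * p + 1) (by omega) hp2 h h2
      omega

theorem czs_zero (hP : Good P) (α γ : ℤ) (σ : ℕ) (tabs : List Tab) :
    (czs P α γ σ tabs).getD 0 0 = rdn (gsp P σ) α ∧ (czs P α γ σ tabs).getD P.b 0 = rdn (gsp P σ) γ := by
  refine ⟨?_, plana_last _ _ _ _⟩
  have := zp_czs hP α γ σ tabs (d := 0) (p := 0) (by omega) (by simp)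
  rw [zero_mul] at this
  exact (Prod.ext_iff.1 this).1.symm

theorem czs_dvd (hP : Good P) (α γ : ℤ) (σ : ℕ) (tabs : List Tab) (j : ℕ) :
    (gsp P σ : ℤ) ∣ (czs P α γ σ tabs).getD j 0 := by
  have key : ∀ d p, (gsp P σ : ℤ) ∣ (zp P (zgrid P α σ) tabs (rdn (gsp P σ) α, rdn (gsp P σ) γ) d p).1 ∧
      (gsp P σ : ℤ) ∣ (zp P (zgrid P α σ) tabs (rdn (gsp P σ) α, rdn (gsp P σ) γ) d p).2 := by
    intro d
    induction d with
    | zero => exact fun _ => ⟨rdn_dvd _ _, rdn_dvd _ _⟩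
    | succ d ih =>
      intro p
      have hm : ∀ hb q, (gsp P σ : ℤ) ∣ midz P (zgrid P α σ) tabs hb q
          (zp P (zgrid P α σ) tabs (rdn (gsp P σ) α, rdn (gsp P σ) γ) d q).1
          (zp P (zgrid P α σ) tabs (rdn (gsp P σ) α, rdn (gsp P σ) γ) d q).2 := by
        intro hb q
        rcases (midz_btw P (zgrid P α σ) tabs hb q _ _).2.2 with h | h
        · exact dvd_of_mem_zgrid h
        · rw [h]; exact (ih q).1
      obtain ⟨q, rfl | rfl⟩ := Nat.even_or_odd' p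
      · rw [plana_even]; exact ⟨(ih q).1, hm _ _⟩
      · rw [plana_odd]; exact ⟨hm _ _, (ih q).2⟩
  rcases lt_trichotomy j P.b with h | rfl | h
  · rw [plana_get _ _ _ _ h]; exact (key _ _).1
  · rw [(czs_zero hP α γ σ tabs).2]; exact rdn_dvd _ _
  · rw [List.getD_eq_default _ _ (by simp [czs]; omega)]; exact dvd_zero _

theorem plana_fm {β : Type} {n : ℕ} {g : ℕ → Option β} {f : ℕ → β} (h : ∀ j < n, g j = some (f j)) :
    ((List.range n).map g).filterMap id = (List.range n).map f := by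
  rw [List.map_congr_left (g := fun j => some (f j)) fun j hj => h j (List.mem_range.1 hj), List.filterMap_map]
  exact congrFun (List.filterMap_eq_map (f := f)) _

/-- Unfolding `planOf`. -/
theorem planOf_some (hP : Good P) {α γ : ℤ} {σ : ℕ} {tabs : List Tab} {pl : Plan}
    (h : planOf P α γ σ tabs = some pl) :
    (γ - α).natAbs ≤ σ ∧ pl.1 = czs P α γ σ tabs ∧
      (∀ j < P.b, ctxOf P (zgrid P α σ) σ tabs (czs P α γ σ tabs) j = some (pc pl j)) ∧
      ((List.range P.b).map fun j => cap P (pc pl j)).sum ≤ σ := by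
  have _ := hP
  rw [planOf, planOf'] at h
  split_ifs at h with hc
  obtain ⟨h1, h2, h3⟩ := hc
  have h4 : ∀ j, ∃ c : Ctx, j < P.b → ctxOf P (zgrid P α σ) σ tabs (czs P α γ σ tabs) j = some c := by
    intro j
    by_cases hj : j < P.b
    · obtain ⟨c, hc⟩ := Option.isSome_iff_exists.1
        (List.all_eq_true.1 h2 _ (List.mem_map_of_mem (List.mem_range.2 hj)))
      exact ⟨c, fun _ => hc⟩
    · exact ⟨(0, 0, 0, ⟨0⟩), fun h' => absurd h' hj⟩
  choose f hf using h4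
  rw [plana_fm hf] at h h3
  obtain rfl := Option.some.inj h
  have h5 : ∀ j < P.b, pc (czs P α γ σ tabs, (List.range P.b).map f) j = f j := fun j hj => by
    rw [pc, List.getD_eq_getElem _ _ (by simpa using hj)]
    simp
  refine ⟨h1, rfl, fun j hj => by rw [h5 j hj, hf j hj], ?_⟩
  rw [List.map_map] at h3
  rw [List.map_congr_left (g := cap P ∘ f) fun j hj => by rw [h5 j (List.mem_range.1 hj)]; rfl]
  exact h3

/-- Conversely. -/
theorem planOf_eq_some (hP : Good P) {α γ : ℤ} {σ : ℕ} {tabs : List Tab} {cs : ℕ → Ctx}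
    (h1 : (γ - α).natAbs ≤ σ)
    (h2 : ∀ j < P.b, ctxOf P (zgrid P α σ) σ tabs (czs P α γ σ tabs) j = some (cs j))
    (h3 : ((List.range P.b).map fun j => cap P (cs j)).sum ≤ σ) :
    ∃ pl, planOf P α γ σ tabs = some pl := by
  have _ := hP
  rw [planOf, planOf']
  rw [if_pos]
  · exact ⟨_, rfl⟩
  · refine ⟨h1, List.all_eq_true.2 fun o ho => ?_, ?_⟩
    · obtain ⟨j, hj, rfl⟩ := List.mem_map.1 ho
      rw [h2 j (List.mem_range.1 hj)]
      rfl
    · rw [plana_fm h2, List.map_map]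
      exact h3

namespace Model

variable {M : Model}

theorem plana_lip (hF : FOk M.F) (r i : ℕ) (s s' : ℤ × ℤ) : M.Fr P r i s ≤ M.Fr P r i s' + dist1 s s' := by
  have := hF.lip (r * P.L) i s.1 s.2 s'.1 s'.2
  rw [Fr, Fr, dist1]
  omega

/-- If the tables are upper bounds for the costs, a plan is valid.  Certificate: some `s' ∈ om c` has
`T0 · F s' + 8 w T0 ≤ cap · T0`, and `dist1 s s' ≤ 8 w`. -/
theorem planOk_of (hP : Good P) (hF : FOk M.F) {r i : ℕ} {s : ℤ × ℤ} {σ : ℕ} {tabs : List Tab}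
    (hl : tabs.length = P.T0)
    (ht : ∀ tab ∈ tabs, TabRel (zgrid P s.1 σ) P.b
      (fun j z1 z2 v => M.Fr P (r - 1) (i * P.b + j) (z1, z2) ≤ v) tab)
    {pl : Plan} (h : planOf P s.1 s.2 σ tabs = some pl) : M.PlanOk P r i s σ pl := by
  obtain ⟨h1, h2, h3, h4⟩ := planOf_some hP h
  have hz : ∀ j, pz pl j = (czs P s.1 s.2 σ tabs).getD j 0 := fun j => by rw [pz, h2]
  have hg := geo_par hP
  have hx := plana_kx hP
  have hctx : ∀ j < P.b, ∃ lv < P.nw, pc pl j = ctxAt P σ lv (pz pl j) (pz pl (j + 1)) := by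
    intro j hj
    obtain ⟨lv, hlv, e⟩ := List.mem_map.1 (List.mem_of_find?_eq_some (h3 j hj))
    exact ⟨lv, List.mem_range.1 hlv, by rw [hz, hz, e]⟩
  have hcert : ∀ j < P.b, certOk P (zgrid P s.1 σ) tabs j (pc pl j) = true := fun j hj =>
    List.find?_some (h3 j hj)
  have hgrid : ∀ j < P.b, ∀ s' ∈ om (pc pl j), s'.1 ∈ zgrid P s.1 σ ∧ s'.2 ∈ zgrid P s.1 σ := by
    intro j hj s' hs'
    have := hcert j hj
    rw [certOk, Bool.and_eq_true] at this
    simpa using List.all_eq_true.1 this.1 s' hs'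
  refine ⟨h1, by rw [hz, (czs_zero hP _ _ _ _).1], by rw [hz, (czs_zero hP _ _ _ _).2],
    fun j _ => by rw [hz]; exact czs_dvd hP _ _ _ _ _, fun j hj => ?_, hctx, fun j hj => ?_, hgrid, h4⟩
  · have := czs_btw hP s.1 s.2 σ tabs (hb := P.L) (p := 0) (j := j) le_rfl (by simp) (by simp)
      (by rwa [zero_add, one_mul, ← hP.b_eq])
    rwa [zero_mul, zero_add, one_mul, ← hP.b_eq, ← hz, ← hz, ← hz] at this
  · have hn : ∃ q, (pc pl j).2.2.2.n = 2 ^ (q + 1) ∧ q + 1 ≤ P.kg := by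
      obtain ⟨lv, hlv, e⟩ := hctx j hj
      refine ⟨P.kg - P.kd + lv, ?_, by omega⟩
      rw [e]
      exact hP.p2_eq (by omega)
    refine ⟨hn, fun s' hs' => ?_⟩
    have h5 := hcert j hj
    rw [certOk, Bool.and_eq_true, decide_eq_true_eq] at h5
    obtain ⟨s0, hs0, e⟩ := List.mem_map.1 (mn_mem (l := (om (pc pl j)).map fun s' =>
      (tabs.map fun tab => tget (zgrid P s.1 σ) tab j s'.1 s'.2).sum) (by simpa using om_ne_nil _))
    have h6 : M.Fr P (r - 1) (i * P.b + j) s0 * P.T0 ≤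
        (tabs.map fun tab => tget (zgrid P s.1 σ) tab j s0.1 s0.2).sum := by
      have := List.card_nsmul_le_sum (tabs.map fun tab => tget (zgrid P s.1 σ) tab j s0.1 s0.2)
        (M.Fr P (r - 1) (i * P.b + j) s0) fun v hv => by
          obtain ⟨tab, htab, rfl⟩ := List.mem_map.1 hv
          exact (ht tab htab).tget hj (hgrid j hj s0 hs0).1 (hgrid j hj s0 hs0).2
      rwa [List.length_map, hl, smul_eq_mul, mul_comm] at this
    have h7 : M.Fr P (r - 1) (i * P.b + j) s0 + 8 * cw (pc pl j) ≤ cap P (pc pl j) := by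
      refine Nat.le_of_mul_le_mul_right (c := P.T0) ?_ (by have := hP.two_le_T0; omega)
      have := h5.2
      rw [← e] at this
      rw [add_mul]
      omega
    have h8 := plana_lip (P := P) hF (r - 1) (i * P.b + j) s' s0
    obtain ⟨q, hq, -⟩ := hn
    have h9 := dist1_om (c := pc pl j) (by rw [hq]; exact dvd_pow_self 2 (by omega)) hs' hs0
    omega

theorem Cert.two_dvd {r i : ℕ} {c : Ctx} (h : M.Cert P r i c) : 2 ∣ c.2.2.2.n := by
  obtain ⟨⟨q, hq, -⟩, -⟩ := h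
  rw [hq]
  exact dvd_pow_self 2 (by omega)

theorem Cert.radc_le (hP : Good P) {r i : ℕ} {c : Ctx} (h : M.Cert P r i c) : radc (some c) ≤ P.F0 := by
  obtain ⟨⟨q, hq, h1⟩, -⟩ := h
  rw [hP.F0_eq]
  exact hq.trans_le (Nat.pow_le_pow_right two_pos h1)

theorem Cert.length_om (hP : Good P) {r i : ℕ} {c : Ctx} (h : M.Cert P r i c) :
    (om c).length ≤ 2 ^ (2 * P.kg + 4) := by
  have h1 : c.2.2.2.n ≤ 2 ^ P.kg := hP.F0_eq ▸ h.radc_le hP
  have h2 : 0 < 2 ^ P.kg := by positivity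
  rw [R288.length_om, show 2 * P.kg + 4 = (P.kg + 2) * 2 by ring, pow_mul]
  refine Nat.pow_le_pow_left ?_ 2
  rw [pow_add]
  omega

theorem Nice.cw_pow {r i : ℕ} {c : Ctx} (h : M.Nice P r i c) : ∃ a, cw c = 2 ^ a := by
  obtain ⟨⟨⟨q, hq, -⟩, -⟩, m, hm⟩ := h
  refine ⟨m + q, ?_⟩
  rw [cw, hq, hm, pow_succ, ← mul_assoc, Nat.mul_div_cancel _ two_pos, pow_add]

theorem Fr_lip (hF : FOk M.F) (r i : ℕ) (s s' : ℤ × ℤ) : M.Fr P r i s ≤ M.Fr P r i s' + dist1 s s' := plana_lip hF r i s s'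

namespace PlanOk

variable {r i : ℕ} {s : ℤ × ℤ} {σ : ℕ} {pl : Plan}

theorem gsp_eq (hP : Good P) (h : M.PlanOk P r i s σ pl) {j : ℕ} (hj : j < P.b) :
    (pc pl j).2.2.1 = gsp P σ := by
  have _ := hP
  obtain ⟨lv, -, e⟩ := h.ctx j hj
  rw [e]
  rfl

theorem wlv_le_cw (hP : Good P) (h : M.PlanOk P r i s σ pl) {j : ℕ} (hj : j < P.b) :
    wlv P σ 0 ≤ cw (pc pl j) := by
  obtain ⟨lv, hlv, e⟩ := h.ctx j hj
  rw [e, cw_ctxAt hP σ hlv]
  exact wlv_mono hP σ (Nat.zero_le _) hlv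

theorem mem_om (hP : Good P) (h : M.PlanOk P r i s σ pl) {j : ℕ} (hj : j < P.b) {s' : ℤ × ℤ}
    (h1 : InW P σ pl j s'.1) (h2 : InW P σ pl (j + 1) s'.2) : s' ∈ om (pc pl j) := by
  obtain ⟨lv, hlv, e⟩ := h.ctx j hj
  rw [e]
  exact mem_om_ctxAt hP σ hlv h1.1 h2.1 (h.dvd j hj.le) (h.dvd (j + 1) hj) h1.2 h2.2

theorem inW_pz (h : M.PlanOk P r i s σ pl) {j : ℕ} (hj : j ≤ P.b) : InW P σ pl j (pz pl j) := ⟨h.dvd j hj, by simp⟩

theorem inW_optz (hP : Good P) (h : M.PlanOk P r i s σ pl) {hb p k0 : ℕ} (h1 : 1 ≤ hb) (hhb : hb ≤ P.L)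
    (hp : p < 2 ^ (P.L - hb)) (hk : k0 < 2 ^ P.mb) :
    InW P σ pl ((2 * p + 1) * 2 ^ (hb - 1)) (optz P pl hb p k0) := by
  have hg := geo_par hP
  have hm := hP.mb_add
  obtain ⟨hb, rfl⟩ : ∃ k, hb = k + 1 := ⟨hb - 1, by omega⟩
  have hb0 : 0 < P.b := by rw [hP.b_eq]; positivity
  have hi : (2 * p + 1) * 2 ^ hb ≤ P.b := by
    rw [hP.b_eq, show P.L = P.L - (hb + 1) + 1 + hb by omega, pow_add, pow_succ]
    exact Nat.mul_le_mul_right _ (by omega)
  have e : optz P pl (hb + 1) p k0 = pz pl ((2 * p + 1) * 2 ^ hb) +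
      (gsp P σ : ℤ) * ((k0 : ℤ) - (2 ^ (P.kg - P.kd) : ℕ)) := by
    rw [optz, h.gsp_eq hP hb0, Nat.add_sub_cancel, hP.p2_eq (by omega), hP.p2_eq (by omega), hP.p2_eq (by omega),
      show P.mb - 1 = P.kg - P.kd by omega, show p * 2 ^ (hb + 1) + 2 ^ hb = (2 * p + 1) * 2 ^ hb by ring]
  rw [Nat.add_sub_cancel, InW, e]
  refine ⟨(h.dvd _ hi).add (dvd_mul_right _ _), ?_⟩
  rw [add_sub_cancel_left, Int.natAbs_mul, Int.natAbs_natCast, wlv, hP.p2_eq (by omega), add_zero]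
  refine Nat.mul_le_mul_left _ ?_
  rw [show P.mb = P.kg - P.kd + 1 by omega, pow_succ] at hk
  omega

theorem center_near (hP : Good P) (h : M.PlanOk P r i s σ pl) {j : ℕ} (hj : j < P.b) :
    ((pc pl j).1 - pz pl j).natAbs ≤ cw (pc pl j) ∧
      ((pc pl j).2.1 - pz pl (j + 1)).natAbs ≤ cw (pc pl j) := by
  obtain ⟨lv, hlv, e⟩ := h.ctx j hj
  have key : ∀ z : ℤ, (gsp P σ : ℤ) ∣ z → (rdn (wlv P σ lv) z - z).natAbs ≤ wlv P σ lv := by
    intro z e
    have h3 := geo_rdn (w := wlv P σ lv) (z := z) fun hw => by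
      rwa [(Nat.mul_eq_zero.1 hw).resolve_right (hP.p2_pos _).ne', Nat.cast_zero, zero_dvd_iff] at e
    omega
  rw [e, cw_ctxAt hP σ hlv]
  exact ⟨key _ (h.dvd j hj.le), key _ (h.dvd (j + 1) hj)⟩

theorem junc_le (h : M.PlanOk P r i s σ pl) (hσ : 0 < gsp P σ) : junc P pl s.1 s.2 ≤ 2 * gsp P σ := by
  have h1 := natAbs_sub_rdn_lt hσ s.1
  have h2 := natAbs_sub_rdn_lt hσ s.2
  rw [junc, dist1, h.z0, h.zb]
  dsimp only
  omega

theorem sum_cw (hP : Good P) (h : M.PlanOk P r i s σ pl) :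
    ((List.range P.b).map fun j => cw (pc pl j)).sum * 2 ^ P.kx ≤ σ := by
  have := h.caps
  simp only [cap_eq hP] at this
  rwa [List.sum_map_mul_right] at this

theorem omg_le (hP : Good P) (h : M.PlanOk P r i s σ pl) {hb p : ℕ} (hhb : hb ≤ P.L)
    (hp : p < 2 ^ (P.L - hb)) : omg P pl hb p * 2 ^ P.kx ≤ σ := by
  refine le_trans (Nat.mul_le_mul_right _ ?_) (h.sum_cw hP)
  rw [omg, blkP_eq hP hhb, hP.b_eq, range_eq_blk hhb hp, List.map_append, List.map_append, List.sum_append,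
    List.sum_append]
  omega

/-- The path through the centres costs little more than the values at the centres. -/
theorem cjunc_le (hP : Good P) (h : M.PlanOk P r i s σ pl) (hσ : 0 < gsp P σ) (s' : ℤ × ℤ) :
    cjunc P pl + dist1 s' (cends P pl) ≤
      dist1 s' s + 2 * gsp P σ + 2 * ((List.range P.b).map fun j => cw (pc pl j)).sum := by
  obtain ⟨n, hn⟩ : ∃ n, P.b = n + 1 := ⟨P.b - 1, by
    have : 0 < P.b := by rw [hP.b_eq]; positivity
    omega⟩
  have h1 : cjunc P pl ≤ ((List.range n).map fun j => cw (pc pl j)).sum +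
      ((List.range n).map fun j => cw (pc pl (j + 1))).sum := by
    rw [cjunc, hn, Nat.add_sub_cancel, ← List.sum_map_add]
    refine List.sum_le_sum fun j hj => ?_
    have hj' := List.mem_range.1 hj
    have a1 := (h.center_near hP (j := j) (by omega)).2
    have a2 := (h.center_near hP (j := j + 1) (by omega)).1
    omega
  have h2 := List.sum_range_succ (fun j => cw (pc pl j)) n
  have h3 := List.sum_range_succ' (fun j => cw (pc pl j)) n
  have h4 := h.junc_le hσ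
  have h5 := (h.center_near hP (j := 0) (by omega)).1
  have h6 := (h.center_near hP (j := n) (by omega)).2
  simp only [Nat.succ_eq_add_one] at h2 h3
  simp only [junc, dist1, cends] at h4 ⊢
  rw [hn] at h4
  rw [hn, Nat.add_sub_cancel]
  omega

theorem nice (hP : Good P) {m : ℕ} (hm : P.kg ≤ m) (h : M.PlanOk P r i s (2 ^ m) pl) {j : ℕ}
    (hj : j < P.b) : M.Nice P (r - 1) (i * P.b + j) (pc pl j) := ⟨h.cert j hj, m - P.kg, by rw [h.gsp_eq hP hj, gsp_pow hP hm]⟩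

/-- The table of a hint contains the contexts of every valid plan: `|pz j - c.1| ≤ σ + g + 2w`, `w ≤ σ`,
the centre of a certified context has displacement `≤ cap = wlv · 2^kx`. -/
theorem usable (hP : Good P) (hF : FOk M.F) {c : Ctx} (hc : M.Cert P r i c) (hs : s ∈ om c) {j m : ℕ}
    (hm : P.kg ≤ m) (hj : sclC P c j = 2 ^ m) (h : M.PlanOk P r i s (2 ^ m) pl) :
    R288.usable P c j pl = true := by
  have hg := geo_par hP
  have hx := plana_kx hP
  rw [R288.usable, Bool.or_eq_true, decide_eq_true_eq]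
  refine (lt_or_ge j P.kg).imp_right fun hjk => List.all_eq_true.2 fun k hk => ?_
  have hk' := List.mem_range.1 hk
  obtain ⟨lv, hlv, e⟩ := h.ctx k hk'
  refine List.any_eq_true.2 ⟨lv, List.mem_range.2 hlv, decide_eq_true ?_⟩
  have hw := wlv_pow hP hm hlv
  have hw0 : 0 < wlv P (2 ^ m) lv := by rw [hw]; positivity
  have hg0 : 0 < gsp P (2 ^ m) := by rw [gsp_pow hP hm]; positivity
  have b1 : 4 * wlv P (2 ^ m) lv ≤ 2 ^ m := by
    rw [hw, show 4 = 2 ^ 2 from rfl, ← pow_add]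
    exact Nat.pow_le_pow_right two_pos (by omega)
  have b2 : 2 * gsp P (2 ^ m) ≤ 2 ^ m := by
    rw [gsp_pow hP hm, ← pow_succ']
    exact Nat.pow_le_pow_right two_pos (by omega)
  have b3 : wlv P (2 ^ m) lv * 2 ^ (P.kd + 2 - lv) = 4 * 2 ^ m := by
    rw [hw, ← pow_add, show m - P.kd + lv + (P.kd + 2 - lv) = m + 2 by omega]
    ring
  have b4 := le_sclC hP c hjk
  have b5 := (om_near hc.two_dvd hs).1
  have b6 := h.btw k hk'.le
  have b7 := natAbs_sub_rdn_lt hg0 s.1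
  have b8 := natAbs_sub_rdn_lt hg0 s.2
  have b9 := h.disp
  have c1 := natAbs_sub_rdn_lt hw0 (pz pl k)
  have c2 := natAbs_sub_rdn_lt hw0 c.1
  rw [h.z0, h.zb] at b6
  rw [hj] at b4
  obtain ⟨a1, ha1, e1⟩ := geo_aux (g := wlv P (2 ^ m) lv) (n := 2 ^ (P.kd + 2 - lv)) (c := rdn (wlv P (2 ^ m) lv) c.1)
    (s := rdn (wlv P (2 ^ m) lv) (pz pl k)) ((rdn_dvd _ _).sub (rdn_dvd _ _)) (by omega)
  have d1 := (h.cert k hk').2 _ (center_mem_om _)
  have d2 := hF.disp ((r - 1) * P.L) (i * P.b + k) (pc pl k).1 (pc pl k).2.1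
  have d3 : ((pc pl k).2.1 - (pc pl k).1).natAbs ≤ cap P (pc pl k) := d2.trans d1
  rw [cap_eq hP, e, cw_ctxAt hP _ hlv] at d3
  obtain ⟨a2, ha2, e2⟩ := geo_aux (g := wlv P (2 ^ m) lv) (n := 2 ^ P.kx) (c := rdn (wlv P (2 ^ m) lv) (pz pl k))
    (s := rdn (wlv P (2 ^ m) lv) (pz pl (k + 1))) ((rdn_dvd _ _).sub (rdn_dvd _ _)) d3
  rw [hj, e, tabKeys, hP.p2_eq (e := P.kd + 2 - lv) (by omega), hP.p2_eq (e := P.kx) (by omega)]
  refine List.mem_flatMap.2 ⟨(a1 + (2 ^ (P.kd + 2 - lv) : ℕ)).toNat, List.mem_range.2 (by omega),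
    List.mem_map.2 ⟨(a2 + (2 ^ P.kx : ℕ)).toNat, List.mem_range.2 (by omega), ?_⟩⟩
  rw [Int.toNat_of_nonneg (by omega), Int.toNat_of_nonneg (by omega), add_sub_cancel_right, add_sub_cancel_right,
    ← e1, ← e2]
  rfl

/-- Reachable boundaries. -/
theorem reach_mem (hP : Good P) (h : M.PlanOk P r i s σ pl) {z : ℕ → ℤ} (hz : Reach P σ (pz pl) z)
    (hd : ∀ j, (gsp P σ : ℤ) ∣ z j) {j : ℕ} (hj : j < P.b) : (z j, z (j + 1)) ∈ om (pc pl j) := by
  have h1 := hz j hj.le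
  have h2 := hz (j + 1) hj
  exact h.mem_om hP hj ⟨hd _, by dsimp only; omega⟩ ⟨hd _, by dsimp only; omega⟩

end PlanOk

theorem plana_path (W : ℕ → ℤ → ℤ → ℝ) (A B : ℕ → ℤ) (n a : ℕ) (zl zr : ℤ) :
    pathCost W ((List.range' a (n + 1)).map fun j => (j, A j, B j)) zl zr =
      |((zl - A a : ℤ) : ℝ)| + ((List.range' a (n + 1)).map fun j => W j (A j) (B j)).sum +
        ((List.range' a n).map fun j => |((B j - A (j + 1) : ℤ) : ℝ)|).sum + |((B (a + n) - zr : ℤ) : ℝ)| := by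
  induction n generalizing a zl with
  | zero => simp [pathCost]
  | succ n ih =>
    rw [List.range'_succ, List.map_cons, pathCost, ih, List.map_cons, List.sum_cons,
      show a + 1 + n = a + (n + 1) by ring, List.range'_succ (s := a) (n := n), List.map_cons, List.sum_cons]
    ring

/-- The path through the centres of the contexts. -/
theorem Fr_le_cent (hP : Good P) (hF : FOk M.F) {r : ℕ} (hr : 1 ≤ r) (i : ℕ) (pl : Plan) (s : ℤ × ℤ) :
    M.Fr P r i s ≤ ((List.range P.b).map fun j =>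
      M.Fr P (r - 1) (i * P.b + j) ((pc pl j).1, (pc pl j).2.1)).sum + cjunc P pl +
        dist1 s (cends P pl) := by
  obtain ⟨n, hn⟩ : ∃ n, P.b = n + 1 := ⟨P.b - 1, by
    have : 0 < P.b := by rw [hP.b_eq]; positivity
    omega⟩
  have h1 := hF.le_pathCost ((r - 1) * P.L) P.L i (hb := P.L) (p := 0) le_rfl
    ((List.range' 0 (n + 1)).map fun j => (j, (pc pl j).1, (pc pl j).2.1)) (by
      rw [blk_top, ← hP.b_eq, hn, List.map_map, List.range_eq_range']
      exact List.map_id _) s.1 s.2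
  rw [plana_path, Nat.sub_self, pow_zero, mul_one, add_zero, zero_add, ← List.range_eq_range',
    ← List.range_eq_range', ← hP.b_eq,
    show (r - 1) * P.L + P.L = r * P.L by rw [← Nat.succ_mul]; congr 1; omega] at h1
  have e : ∀ z : ℤ, |(z : ℝ)| = (z.natAbs : ℝ) := fun z => by rw [Nat.cast_natAbs, Int.cast_abs]
  simp only [e] at h1
  refine (Nat.cast_le (α := ℝ)).1 ?_
  simp only [Fr, cjunc, cends, dist1]
  rw [Nat.cast_add, Nat.cast_add, Nat.cast_add, Nat.cast_list_sum, Nat.cast_list_sum, List.map_map, List.map_map,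
    show P.b - 1 = n by omega, ← Int.natAbs_neg (s.2 - _), neg_sub]
  rw [← hn] at h1
  simp only [Function.comp_def]
  linarith

end Model

theorem omg_zero (hP : Good P) (pl : Plan) (p : ℕ) : omg P pl 0 p = cw (pc pl p) := by
  rw [omg, blkP_eq hP (Nat.zero_le _), blk_zero]
  simp

theorem omg_succ (hP : Good P) (pl : Plan) {hb : ℕ} (hhb : hb < P.L) (p : ℕ) :
    omg P pl (hb + 1) p = omg P pl hb (2 * p) + omg P pl hb (2 * p + 1) := by
  rw [omg, omg, omg, blkP_eq hP hhb, blkP_eq hP hhb.le, blkP_eq hP hhb.le, blk_succ, List.map_append,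
    List.sum_append]

theorem omg_top (hP : Good P) (pl : Plan) :
    omg P pl P.L 0 = ((List.range P.b).map fun j => cw (pc pl j)).sum := by
  rw [omg, blkP_eq hP le_rfl, blk_top, hP.b_eq]

end Crest.Agent.R288
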