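import Crest.Agent.R288.Geo

/-!
# R288: the planned midpoint is close to the midpoint of the comparator
-/

set_option autoImplicit false

namespace Crest.Agent.R288

/-- `a'/(a'+b') - a/(a+b) = (u b - v a) / ((a+b)(a'+b'))` with `u = a' - a`, `v = b' - b`, and
`u b - v a = u b' - v a'`. -/
theorem ratio_lip {a b a' b' h : ℝ} (ha : 0 ≤ a) (hb : 0 ≤ b) (ha' : 0 ≤ a') (hb' : 0 ≤ b')
    (hab : 0 < a + b) (hab' : 0 < a' + b') (h1 : |a' - a| ≤ h) (h2 : |b' - b| ≤ h) :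
    |a' / (a' + b') - a / (a + b)| ≤ h / (a + b) := by
  obtain ⟨h3, h4⟩ := abs_le.1 h1
  obtain ⟨h5, h6⟩ := abs_le.1 h2
  have e : a' / (a' + b') - a / (a + b) = (a' * (b - b') + (a' - a) * b') / (a' + b') / (a + b) := by
    field_simp
    ring
  rw [e, abs_div, abs_of_pos hab, abs_div, abs_of_pos hab']
  refine div_le_div_of_nonneg_right ((div_le_iff₀ hab').2 (abs_le.2 ⟨?_, ?_⟩)) hab.le <;> nlinarith

theorem planm_r {a b : ℝ} (ha : 0 ≤ a) (hb : 0 ≤ b) : 0 ≤ a / (a + b) ∧ a / (a + b) ≤ 1 :=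
  ⟨by positivity, div_le_one_of_le₀ (by linarith) (by positivity)⟩

theorem planm_est {a b a' b' D τ B : ℝ} (ha : 0 ≤ a) (hb : 0 ≤ b) (ha' : 0 ≤ a') (hb' : 0 ≤ b') (hτ : 0 ≤ τ)
    (hτ' : τ ≤ 1 / 2) (hB : 0 ≤ B) (hd : |D| ≤ a + b) (h1 : (1 - τ) * a - B ≤ a' ∧ a' ≤ (1 + τ) * a)
    (h2 : (1 - τ) * b - B ≤ b' ∧ b' ≤ (1 + τ) * b) :
    |D * (a' / (a' + b')) - D * (a / (a + b))| ≤ τ * |D| + 4 * B := by
  have h0 := abs_nonneg D
  have k1 := mul_nonneg hτ ha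
  have k2 := mul_nonneg hτ hb
  have k3 := mul_nonneg hτ h0
  rw [← mul_sub, abs_mul]
  rcases (add_nonneg ha hb).eq_or_lt with h | h
  · rw [le_antisymm (hd.trans h.ge) h0]
    linarith
  rcases (add_nonneg ha' hb').eq_or_lt with h' | h'
  · obtain ⟨k4, k5⟩ := planm_r ha hb
    rw [← h', div_zero, zero_sub, abs_neg, abs_of_nonneg k4]
    nlinarith [h1.1, h2.1]
  have h3 := ratio_lip ha hb ha' hb' h h' (h := τ * (a + b) + B) (abs_le.2 ⟨by linarith [h1.1], by linarith [h1.2]⟩)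
    (abs_le.2 ⟨by linarith [h2.1], by linarith [h2.2]⟩)
  rw [add_div, mul_div_cancel_right₀ _ h.ne'] at h3
  have h4 : |D| * (B / (a + b)) ≤ B := by
    rw [mul_div_assoc', div_le_iff₀ h]
    nlinarith
  nlinarith [mul_le_mul_of_nonneg_left h3 h0]

theorem planm_lip {a b a' b' D c h : ℝ} (ha : 0 ≤ a) (hb : 0 ≤ b) (ha' : 0 ≤ a') (hb' : 0 ≤ b')
    (hab : 0 < a + b) (hc : 0 ≤ c) (hD : |D| ≤ c * (a + b)) (hD' : a' + b' = 0 → D = 0) (h1 : |a' - a| ≤ h)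
    (h2 : |b' - b| ≤ h) : |D * (a' / (a' + b')) - D * (a / (a + b))| ≤ c * h := by
  have h0 := (abs_nonneg _).trans h1
  rw [← mul_sub, abs_mul]
  rcases (add_nonneg ha' hb').eq_or_lt with k | k
  · rw [hD' k.symm, abs_zero, zero_mul]
    positivity
  refine (mul_le_mul_of_nonneg_left (ratio_lip ha hb ha' hb' hab k h1 h2) (abs_nonneg D)).trans ?_
  rw [mul_div_assoc', div_le_iff₀ hab, mul_right_comm]
  exact mul_le_mul_of_nonneg_right hD h0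

theorem planm_cand {Zs : List ℤ} {zl zr zm : ℤ} {r : ℤ → ℝ} {D c : ℝ} (hD : D = zr - zl) (ml : zl ∈ Zs)
    (mr : zr ∈ Zs) (mm : zm ∈ Zs) (hr : ∀ z, 0 ≤ r z ∧ r z ≤ 1) (hA : ∀ z : ℤ, |D * r z - D * r zm| ≤ |(z : ℝ) - zm|)
    (hB : |(zm : ℝ) - zl - D * r zm| ≤ c) :
    ∃ z ∈ Zs, (min zl zr ≤ z ∧ z ≤ max zl zr) ∧ |(z : ℝ) - zl - D * r z| ≤ c := by
  obtain ⟨h1, h2⟩ := abs_le.1 hB
  have key : ∀ z : ℤ, (z ≤ zm → 0 ≤ (z : ℝ) - zl - D * r z → |(z : ℝ) - zl - D * r z| ≤ c) ∧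
      (zm ≤ z → (z : ℝ) - zl - D * r z ≤ 0 → |(z : ℝ) - zl - D * r z| ≤ c) := fun z => by
    obtain ⟨h3, h4⟩ := abs_le.1 (hA z)
    refine ⟨fun h h' => ?_, fun h h' => ?_⟩
    · rw [abs_of_nonpos (sub_nonpos.2 (Int.cast_le.2 h))] at h3
      rw [abs_of_nonneg h']
      linarith
    · rw [abs_of_nonneg (sub_nonneg.2 (Int.cast_le.2 h))] at h4
      rw [abs_of_nonpos h']
      linarith
  obtain ⟨k1, -⟩ := hr zl
  obtain ⟨-, k4⟩ := hr zr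
  rcases le_total zl zr with h | h
  · have h' : 0 ≤ D := hD ▸ sub_nonneg.2 (Int.cast_le.2 h)
    rcases le_total zm zl with h3 | h3
    · exact ⟨zl, ml, by omega, (key _).2 h3 (by linarith [mul_nonneg h' k1])⟩
    rcases le_total zm zr with h4 | h4
    · exact ⟨zm, mm, by omega, hB⟩
    · exact ⟨zr, mr, by omega, (key _).1 h4 (by linarith [mul_le_mul_of_nonneg_left k4 h'])⟩
  · have h' : D ≤ 0 := hD ▸ sub_nonpos.2 (Int.cast_le.2 h)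
    rcases le_total zm zr with h3 | h3
    · exact ⟨zr, mr, by omega, (key _).2 h3 (by linarith [mul_le_mul_of_nonpos_left k4 h'])⟩
    rcases le_total zm zl with h4 | h4
    · exact ⟨zm, mm, by omega, hB⟩
    · exact ⟨zl, ml, by omega, (key _).1 h4 (by linarith [mul_nonpos_of_nonpos_of_nonneg h' k1])⟩

/-- True ends `zl, zr`, true midpoint `zm`, planned ends `zl', zr'` (error `≤ e`); `g1 z`, `g2 z` are the
window averages of the dynamic programme for `(zl', z)` and `(z, zr')`, `Gl`, `Gr` those of the comparator.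
Let `D' = zr' - zl'`, `ψ z = (z - zl') - D' g1 z / (g1 z + g2 z)`.  By `ratio_lip` at `zm`
(`g1 zm + g2 zm ≥ Q - 2e`, `|D'| ≤ (1 - η/2) Q + 2e`), `ψ z - ψ zm = h - κ` with `h = z - zm`,
`|κ| ≤ (1 - η/4) |h|` (if `g1 z + g2 z = 0` then `D' = 0`); `|ψ zm| ≤ θ + 4e`.  The point `z*` = `zm` clamped to
the interval between `zl'` and `zr'` is a candidate with `|ψ z*| ≤ |ψ zm|` (`ψ zl'` and `ψ zr'` have the signs of `-D'`
and `D'`).  The estimated `psi` differs from `ψ` by at most `ξ = τ |D'| + 4B` on `Zs` (if the estimated denominator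
vanishes, `|D'| ≤ g1 + g2 ≤ 4B`).  Hence `η/4 |m - zm| ≤ 2 |ψ zm| + 2ξ`. -/
theorem midz_close {P : Par} {Zs : List ℤ} {tabs : List Tab} {hb p : ℕ} {zl zr zm zl' zr' : ℤ}
    {g1 g2 : ℤ → ℝ} {Gl Gr e θ η τ B T : ℝ} (hη : 0 < η) (hη' : η ≤ 1) (hτ : 0 ≤ τ) (hτ' : τ ≤ 1 / 2)
    (hB : 0 ≤ B) (hT : 0 < T)
    (ml : zl' ∈ Zs) (mr : zr' ∈ Zs) (mm : zm ∈ Zs)
    (el : |((zl' - zl : ℤ) : ℝ)| ≤ e) (er : |((zr' - zr : ℤ) : ℝ)| ≤ e)
    (n1 : ∀ z, 0 ≤ g1 z) (n2 : ∀ z, 0 ≤ g2 z)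
    (l1 : ∀ z z', g1 z ≤ g1 z' + |((z - z' : ℤ) : ℝ)|) (l2 : ∀ z z', g2 z ≤ g2 z' + |((z - z' : ℤ) : ℝ)|)
    (hd : ∀ z, |((zr' - zl' : ℤ) : ℝ)| ≤ g1 z + g2 z)
    (hGl : 0 ≤ Gl) (hGr : 0 ≤ Gr) (c1 : |g1 zm - Gl| ≤ e) (c2 : |g2 zm - Gr| ≤ e)
    (hQ : 0 < Gl + Gr) (he : 16 * e ≤ η * (Gl + Gr))
    (hc : (1 + η) * |((zr - zl : ℤ) : ℝ)| ≤ Gl + Gr)
    (hdev : |((zm - zl : ℤ) : ℝ) - ((zr - zl : ℤ) : ℝ) * Gl / (Gl + Gr)| ≤ θ)
    (a1 : ∀ z ∈ Zs, (1 - τ) * g1 z - B ≤ gS P Zs tabs hb (2 * p) zl' z / T ∧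
      gS P Zs tabs hb (2 * p) zl' z / T ≤ (1 + τ) * g1 z)
    (a2 : ∀ z ∈ Zs, (1 - τ) * g2 z - B ≤ gS P Zs tabs hb (2 * p + 1) z zr' / T ∧
      gS P Zs tabs hb (2 * p + 1) z zr' / T ≤ (1 + τ) * g2 z) :
    |((midz P Zs tabs hb p zl' zr' - zm : ℤ) : ℝ)| ≤
      32 / η * (e + θ + τ * (Gl + Gr) + B) := by
  have he0 : 0 ≤ e := (abs_nonneg _).trans el
  have hθ : 0 ≤ θ := (abs_nonneg _).trans hdev
  push_cast at el er l1 l2 hd hc hdev ⊢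
  obtain ⟨r, hr⟩ : ∃ r : ℤ → ℝ, ∀ z, r z = g1 z / (g1 z + g2 z) := ⟨_, fun _ => rfl⟩
  have hr01 : ∀ z, 0 ≤ r z ∧ r z ≤ 1 := fun z => hr z ▸ planm_r (n1 z) (n2 z)
  obtain ⟨D, hD⟩ : ∃ D : ℝ, D = zr' - zl' := ⟨_, rfl⟩
  rw [← hD] at hd
  have hE : ∀ z ∈ Zs, |(psi P Zs tabs hb p zl' zr' z : ℝ) - ((z : ℝ) - zl' - D * r z)| ≤ τ * |D| + 4 * B :=
    fun z hz => by
      have h1 := planm_est (n1 z) (n2 z) (by positivity) (by positivity) hτ hτ' hB (hd z) (a1 z hz) (a2 z hz)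
      rw [← hr, ← add_div, div_div_div_cancel_right₀ hT.ne', abs_sub_comm] at h1
      rw [psi]
      push_cast
      rw [← hD, mul_div_assoc, sub_sub_sub_cancel_left]
      exact h1
  obtain ⟨el1, el2⟩ := abs_le.1 el
  obtain ⟨er1, er2⟩ := abs_le.1 er
  have hηQ := mul_le_mul_of_nonneg_right hη' hQ.le
  have hηQ' := mul_nonneg hη.le hQ.le
  have hD1 : |(zr : ℝ) - zl| ≤ (1 - η / 2) * (Gl + Gr) := by
    refine le_of_mul_le_mul_left (hc.trans ?_) (show 0 < 1 + η by linarith)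
    linarith [mul_nonneg (mul_nonneg hη.le (sub_nonneg.2 hη')) hQ.le]
  have hD2 : |D| ≤ |(zr : ℝ) - zl| + 2 * e :=
    abs_le.2 ⟨by linarith [neg_abs_le ((zr : ℝ) - zl)], by linarith [le_abs_self ((zr : ℝ) - zl)]⟩
  have hS : Gl + Gr - 2 * e ≤ g1 zm + g2 zm := by linarith [(abs_le.1 c1).1, (abs_le.1 c2).1]
  have hS0 : 0 < g1 zm + g2 zm := by linarith
  have hη4 : 0 ≤ 1 - η / 4 := by linarith
  have hA : ∀ z : ℤ, |D * r z - D * r zm| ≤ (1 - η / 4) * |(z : ℝ) - zm| := fun z => by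
    rw [hr, hr]
    exact planm_lip (n1 zm) (n2 zm) (n1 z) (n2 z) hS0 hη4
      (by linarith [mul_le_mul_of_nonneg_left hS hη4, mul_nonneg hη.le he0])
      (fun h => abs_nonpos_iff.1 ((hd z).trans h.le))
      (abs_le.2 ⟨by linarith [l1 zm z, abs_sub_comm (z : ℝ) zm], by linarith [l1 z zm]⟩)
      (abs_le.2 ⟨by linarith [l2 zm z, abs_sub_comm (z : ℝ) zm], by linarith [l2 z zm]⟩)
  have hB' : |(zm : ℝ) - zl' - D * r zm| ≤ θ + 4 * e := by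
    have h2 := planm_lip (D := (zr : ℝ) - zl) hGl hGr (n1 zm) (n2 zm) hQ zero_le_one (by linarith)
      (fun h => absurd h hS0.ne') c1 c2
    obtain ⟨h3, h4⟩ := hr01 zm
    rw [← hr] at h2
    obtain ⟨h5, h6⟩ := abs_le.1 h2
    rw [mul_div_assoc] at hdev
    obtain ⟨h7, h8⟩ := abs_le.1 hdev
    have h9 : |(D - (zr - zl)) * r zm| ≤ 2 * e := by
      rw [abs_mul, abs_of_nonneg h3]
      exact (mul_le_of_le_one_right (abs_nonneg _) h4).trans (abs_le.2 ⟨by linarith, by linarith⟩)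
    obtain ⟨h10, h11⟩ := abs_le.1 h9
    exact abs_le.2 ⟨by linarith, by linarith⟩
  obtain ⟨z, hz, hz1, hz2⟩ := planm_cand hD ml mr mm hr01
    (fun z => (hA z).trans (mul_le_of_le_one_left (abs_nonneg _) (by linarith))) hB'
  have hz3 : z ∈ Zs.filter fun z => decide (min zl' zr' ≤ z ∧ z ≤ max zl' zr') :=
    List.mem_filter.2 ⟨hz, decide_eq_true hz1⟩
  obtain ⟨m, hm⟩ := Option.ne_none_iff_exists'.1 (mt (List.argmin_eq_none
    (f := fun z => |psi P Zs tabs hb p zl' zr' z|)).1 (List.ne_nil_of_mem hz3))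
  have h1 : |(psi P Zs tabs hb p zl' zr' m : ℝ)| ≤ |(psi P Zs tabs hb p zl' zr' z : ℝ)| := by
    exact_mod_cast List.le_of_mem_argmin hz3 hm
  obtain ⟨h2, h2'⟩ := abs_le.1 (hE m (List.mem_filter.1 (List.argmin_mem hm)).1)
  obtain ⟨h3, h3'⟩ := abs_le.1 (hE z hz)
  obtain ⟨h4, h4'⟩ := abs_le.1 (hA m)
  obtain ⟨h5, h5'⟩ := abs_le.1 hB'
  obtain ⟨h6, h6'⟩ := abs_le.1 hz2
  obtain ⟨h7, h7'⟩ := abs_le.1 (h1.trans (abs_le.2 ⟨by linarith, by linarith⟩ :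
    _ ≤ θ + 4 * e + (τ * |D| + 4 * B)))
  have h8 : |(m : ℝ) - zm| ≤ (1 - η / 4) * |(m : ℝ) - zm| + (2 * (θ + 4 * e) + 2 * (τ * |D| + 4 * B)) :=
    abs_le.2 ⟨by linarith, by linarith⟩
  have h9 : τ * |D| ≤ τ * (2 * (Gl + Gr)) := mul_le_mul_of_nonneg_left (by linarith) hτ
  rw [midz, hm, Option.getD_some, div_mul_eq_mul_div, le_div_iff₀ hη]
  linarith [mul_nonneg hτ hQ.le]

end Crest.Agent.R288
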