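import Crest.Agent.R288.Blk
import Crest.Agent.R288.PlanM

/-!
# R288: in a regular block the plan follows the comparator
-/

set_option autoImplicit false

namespace Crest.Agent.R288

namespace Model

variable {M : Model} {P : Par} {r i : ℕ} {s : ℤ × ℤ} {m φ : ℕ} {Λ : ℝ} {z : ℕ → ℤ} {tabs : List Tab}

theorem planb_sum {A B : Type} {l : List A} {t : List B} {lo hi : A → ℝ} {f : B → ℕ}
    (h : List.Forall₂ (fun a b => lo a ≤ f b ∧ (f b : ℝ) ≤ hi a) l t) :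
    (l.map lo).sum ≤ ((t.map f).sum : ℕ) ∧ (((t.map f).sum : ℕ) : ℝ) ≤ (l.map hi).sum := by
  induction h with
  | nil => simp
  | cons h1 _ ih =>
    simp only [List.map_cons, List.sum_cons, Nat.cast_add]
    exact ⟨add_le_add h1.1 ih.1, add_le_add h1.2 ih.2⟩

theorem planb_tau (P : Par) : 0 ≤ tau P ∧ tau P ≤ 1 := by
  rw [tau]
  exact ⟨by positivity, div_le_one_of_le₀ (one_le_pow₀ one_le_two) (by positivity)⟩

theorem planb_idx (hP : Good P) {hb p : ℕ} (hhb : hb ≤ P.L) (hp : p < 2 ^ (P.L - hb)) :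
    (p + 1) * 2 ^ hb ≤ P.b := by
  rw [hP.b_eq, show P.L = P.L - hb + hb by omega, pow_add]
  exact Nat.mul_le_mul_right _ hp

/-- `gN_acc` for every table of the window. -/
theorem TabsAcc.gS (hP : Good P) {σ : ℕ} (h : M.TabsAcc P r i s σ φ tabs) {hb p : ℕ} (hhb : hb ≤ P.L)
    (hp : p < 2 ^ (P.L - hb)) (zl zr : ℤ) :
    (1 - tau P) * Gt P (zgrid P s.1 σ) (M.Wk P r i φ) hb p zl zr - P.b ≤
        (gS P (zgrid P s.1 σ) tabs hb p zl zr : ℝ) / P.T0 ∧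
      (gS P (zgrid P s.1 σ) tabs hb p zl zr : ℝ) / P.T0 ≤
        (1 + tau P) * Gt P (zgrid P s.1 σ) (M.Wk P r i φ) hb p zl zr := by
  have hT : (0 : ℝ) < P.T0 := by
    have := hP.two_le_T0
    exact_mod_cast (show 0 < P.T0 by omega)
  have hjs : ∀ j ∈ blk hb p, j < P.b := fun j hj => (mem_blk.1 hj).2.trans_le (planb_idx hP hhb hp)
  have hlen : ((blk hb p).length : ℝ) ≤ P.b := by
    rw [length_blk, hP.b_eq]
    exact_mod_cast Nat.pow_le_pow_right (by norm_num) hhb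
  have h1 := planb_sum (f := fun tab => gN (zgrid P s.1 σ) tab (blk hb p) zl zr)
    (lo := fun k => (1 - tau P) * gR (zgrid P s.1 σ) (M.Wk P r i φ k) (blk hb p) zl zr - P.b)
    (hi := fun k => (1 + tau P) * gR (zgrid P s.1 σ) (M.Wk P r i φ k) (blk hb p) zl zr)
    (List.Forall₂.imp (fun k tab hk => by
      have := gN_acc (zgrid_ne_nil P s.1 σ) (planb_tau P).1 (planb_tau P).2
        (TabRel.mono hk fun _ _ _ _ _ _ _ hv => hv.1) hjs zl zr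
      exact ⟨by linarith [this.1], this.2⟩) h)
  rw [Blk.blk_lsum, Blk.blk_lsum, Finset.sum_sub_distrib, Finset.sum_const, Finset.card_range, nsmul_eq_mul,
    ← Finset.mul_sum, ← Finset.mul_sum] at h1
  rw [R288.gS, blkP_eq hP hhb, Gt, le_div_iff₀ hT, div_le_iff₀ hT, sub_mul, mul_assoc, mul_assoc,
    div_mul_cancel₀ _ hT.ne']
  exact ⟨by linarith [h1.1], h1.2⟩

theorem Blk.czs_mem (h : M.Blk P r i s m φ Λ z) (tabs : List Tab) {j : ℕ} (hj : j ≤ P.b) :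
    (czs P s.1 s.2 (2 ^ m) tabs).getD j 0 ∈ zgrid P s.1 (2 ^ m) := by
  have hP := h.ok.good
  have h1 := h.kg_le
  refine mem_zgrid hP (by omega) (czs_dvd hP _ _ _ _ _) ?_
  have h2 := czs_btw hP s.1 s.2 (2 ^ m) tabs (hb := P.L) (p := 0) (j := j) le_rfl (by simp) (by simp)
    (by rw [zero_add, one_mul, ← hP.b_eq]; exact hj)
  rw [zero_mul, zero_add, one_mul, ← hP.b_eq, (czs_zero hP _ _ _ _).1, (czs_zero hP _ _ _ _).2] at h2
  have h3 := natAbs_sub_rdn_lt h.blk_g0 s.1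
  have h4 := natAbs_sub_rdn_lt h.blk_g0 s.2
  have h5 : (s.2 - s.1).natAbs ≤ M.Fr P r i s := h.ok.fok.disp _ _ _ _
  have h6 := h.scale.1
  have h7 : gsp P (2 ^ m) ≤ 2 ^ m := Nat.div_le_self _ _
  omega

theorem planb_pow {a b c : ℕ} (h : a + c ≤ b) : (2 : ℝ) ^ a ≤ 2 ^ b / 2 ^ c := by
  rw [le_div_iff₀ (by positivity), ← pow_add]
  exact pow_le_pow_right₀ one_le_two h

theorem planb_div {x : ℝ} (hx : 0 ≤ x) {a b : ℕ} (h : a ≤ b) : x / 2 ^ b ≤ x / 2 ^ a :=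
  div_le_div_of_nonneg_left hx (by positivity) (pow_le_pow_right₀ one_le_two h)

theorem planb_par (hP : Good P) : P.kθ + P.kd + P.L + 10 ≤ P.kg := by
  have := hP.small_ll
  have := hP.ll_kR
  have := (geo_par hP).2.1
  omega

/-- Below a light node: the comparator stays within `Q + 2 g b` of its left end (`Comp.opt`, `F ≤ Gs ≤ Q`,
`FOk.natAbs_le_sum`), the plan stays between its planned ends (`czs_btw`). -/
theorem Blk.light (h : M.Blk P r i s m φ Λ z) (tabs : List Tab) {hb p : ℕ} (hhb : hb < P.L)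
    (hp : p < 2 ^ (P.L - (hb + 1)))
    (hl : M.Gs P r i s m φ z hb (2 * p) + M.Gs P r i s m φ z hb (2 * p + 1) ≤ 2 ^ m / 2 ^ (P.kd + 3))
    {e : ℝ}
    (e1 : |(((czs P s.1 s.2 (2 ^ m) tabs).getD (p * 2 ^ (hb + 1)) 0 - z (p * 2 ^ (hb + 1)) : ℤ) : ℝ)| ≤ e)
    (e2 : |(((czs P s.1 s.2 (2 ^ m) tabs).getD ((p + 1) * 2 ^ (hb + 1)) 0 -
      z ((p + 1) * 2 ^ (hb + 1)) : ℤ) : ℝ)| ≤ e) {j : ℕ} (h1 : p * 2 ^ (hb + 1) ≤ j)
    (h2 : j ≤ (p + 1) * 2 ^ (hb + 1)) :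
    |(((czs P s.1 s.2 (2 ^ m) tabs).getD j 0 - z j : ℤ) : ℝ)| ≤ e + 2 ^ m / 2 ^ (P.kd + 1) := by
  have hP := h.ok.good
  have hS : ∀ j', p * 2 ^ (hb + 1) ≤ j' → j' ≤ (p + 1) * 2 ^ (hb + 1) →
      |((z j' - z (p * 2 ^ (hb + 1)) : ℤ) : ℝ)| ≤ 2 ^ m / 2 ^ (P.kd + 2) := by
    intro j' a1 a2
    obtain ⟨k, rfl⟩ := Nat.exists_eq_add_of_le a1
    have a3 := h.ok.fok.natAbs_le_sum ((r - 1) * P.L) (i * 2 ^ P.L) z (p * 2 ^ (hb + 1)) (2 ^ (hb + 1)) k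
      (by rw [add_mul, one_mul] at a2; omega)
    have a4 := h.comp.opt (hb + 1) hhb p hp
    have a5 := h.F_le_Gt (hb := hb + 1) hhb p (z (p * 2 ^ (hb + 1))) (z ((p + 1) * 2 ^ (hb + 1)))
    have a6 := h.treeOk.sub hb hhb p hp
    have a7 : (((z (p * 2 ^ (hb + 1) + k) - z (p * 2 ^ (hb + 1))).natAbs : ℕ) : ℝ) ≤
        M.F ((r - 1) * P.L + (hb + 1)) (i * 2 ^ (P.L - (hb + 1)) + p) (z (p * 2 ^ (hb + 1)))
          (z ((p + 1) * 2 ^ (hb + 1))) + 2 * gsp P (2 ^ m) * 2 ^ (hb + 1) := by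
      exact_mod_cast a3.trans a4
    have a8 : (2 : ℝ) * gsp P (2 ^ m) * 2 ^ (hb + 1) ≤ 2 ^ m / 2 ^ (P.kd + 3) := by
      have b1 := h.kg_le
      have b2 := planb_par hP
      rw [gsp_pow hP (by omega), Nat.cast_pow, Nat.cast_ofNat, ← pow_succ', ← pow_add]
      exact planb_pow (by omega)
    have a9 : (2 : ℝ) ^ m / 2 ^ (P.kd + 2) = 2 * (2 ^ m / 2 ^ (P.kd + 3)) := by
      rw [pow_succ _ (P.kd + 2)]
      field_simp
    have a10 : M.Gs P r i s m φ z (hb + 1) p = Gt P (zgrid P s.1 (2 ^ m)) (M.Wk P r i φ) (hb + 1) p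
      (z (p * 2 ^ (hb + 1))) (z ((p + 1) * 2 ^ (hb + 1))) := rfl
    rw [Blk.blk_abs]
    linarith
  have h3 := czs_btw hP s.1 s.2 (2 ^ m) tabs (hb := hb + 1) hhb hp h1 h2
  have h4 := abs_le.1 (hS j h1 h2)
  have h5 := abs_le.1 (hS _ (Nat.mul_le_mul_right _ (Nat.le_succ p)) le_rfl)
  have h6 := abs_le.1 e1
  have h7 := abs_le.1 e2
  have h8 : (2 : ℝ) ^ m / 2 ^ (P.kd + 1) = 2 * (2 ^ m / 2 ^ (P.kd + 2)) := by
    rw [pow_succ _ (P.kd + 1)]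
    field_simp
  have h9 : (0 : ℝ) ≤ 2 ^ m / 2 ^ (P.kd + 2) := by positivity
  generalize (czs P s.1 s.2 (2 ^ m) tabs).getD (p * 2 ^ (hb + 1)) 0 = c1 at *
  generalize (czs P s.1 s.2 (2 ^ m) tabs).getD ((p + 1) * 2 ^ (hb + 1)) 0 = c2 at *
  generalize (czs P s.1 s.2 (2 ^ m) tabs).getD j 0 = c at *
  push_cast at h4 h5 h6 h7 ⊢
  refine abs_le.2 ⟨?_, ?_⟩
  · rcases min_le_iff.1 h3.1 with h10 | h10
    · have : (c1 : ℝ) ≤ c := by exact_mod_cast h10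
      linarith
    · have : (c2 : ℝ) ≤ c := by exact_mod_cast h10
      linarith
  · rcases le_max_iff.1 h3.2 with h10 | h10
    · have : (c : ℝ) ≤ c1 := by exact_mod_cast h10
      linarith
    · have : (c : ℝ) ≤ c2 := by exact_mod_cast h10
      linarith

theorem planb_mid (hP : Good P) (α γ : ℤ) (σ : ℕ) (tabs : List Tab) {hb p : ℕ} (hhb : hb < P.L)
    (hp : p < 2 ^ (P.L - (hb + 1))) :
    (czs P α γ σ tabs).getD ((2 * p + 1) * 2 ^ hb) 0 = midz P (zgrid P α σ) tabs hb p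
      ((czs P α γ σ tabs).getD (p * 2 ^ (hb + 1)) 0) ((czs P α γ σ tabs).getD ((p + 1) * 2 ^ (hb + 1)) 0) := by
  have e1 := zp_czs hP α γ σ tabs (d := P.L - (hb + 1)) (p := p) (by omega) hp
  have e2 := zp_czs hP α γ σ tabs (d := P.L - (hb + 1) + 1) (p := 2 * p) (by omega) (by
    rw [pow_succ]; omega)
  rw [plana_even, e1, show P.L - (P.L - (hb + 1)) = hb + 1 by omega,
    show P.L - (P.L - (hb + 1) + 1) = hb by omega] at e2
  exact (Prod.ext_iff.1 e2).2.symm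

theorem Blk.planb_Gs (h : M.Blk P r i s m φ Λ z) {hb p : ℕ} (hhb : hb ≤ P.L) (hp : p < 2 ^ (P.L - hb)) :
    M.Gs P r i s m φ z hb p ≤ 2 ^ m / 8 := by
  refine (h.Gs_le hhb hp).trans (le_trans ?_ h.sum_fch'.2)
  refine mul_le_mul_of_nonneg_left ?_ (zero_le_one.trans h.blk_one)
  rw [h.ok.good.b_eq, range_eq_blk hhb hp, List.map_append, List.map_append, List.sum_append, List.sum_append]
  exact_mod_cast (Nat.le_add_left _ _).trans (Nat.le_add_right _ _)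

theorem Blk.planb_disp (h : M.Blk P r i s m φ Λ z) {hb : ℕ} (hhb : hb ≤ P.L) (p : ℕ) (zl zr : ℤ) :
    |((zr - zl : ℤ) : ℝ)| ≤ Gt P (zgrid P s.1 (2 ^ m)) (M.Wk P r i φ) hb p zl zr := by
  refine le_trans ?_ (h.F_le_Gt hhb p _ _)
  rw [Blk.blk_abs]
  exact_mod_cast h.ok.fok.disp _ _ _ _

/-- At a heavy node `midz_close` (with `θ = σ / 2^kθ`, `B = b`, `T = T0`, `Gl + Gr ≤ σ`, `τ σ + b ≤ θ`)
multiplies the error by at most `128 / η`; `zp_czs`. -/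
theorem Blk.heavy (h : M.Blk P r i s m φ Λ z) (ha : M.TabsAcc P r i s (2 ^ m) φ tabs)
    (hreg : Regular P (2 ^ m) (M.Gs P r i s m φ z) z) {hb p : ℕ} (hhb : hb < P.L)
    (hp : p < 2 ^ (P.L - (hb + 1)))
    (hl : (2 : ℝ) ^ m / 2 ^ (P.kd + 3) < M.Gs P r i s m φ z hb (2 * p) + M.Gs P r i s m φ z hb (2 * p + 1))
    {e : ℝ} (he : (2 : ℝ) ^ m / 2 ^ P.kθ ≤ e) (he' : e ≤ 2 ^ m / 2 ^ (P.kd + 8 + P.jj))
    (e1 : |(((czs P s.1 s.2 (2 ^ m) tabs).getD (p * 2 ^ (hb + 1)) 0 - z (p * 2 ^ (hb + 1)) : ℤ) : ℝ)| ≤ e)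
    (e2 : |(((czs P s.1 s.2 (2 ^ m) tabs).getD ((p + 1) * 2 ^ (hb + 1)) 0 -
      z ((p + 1) * 2 ^ (hb + 1)) : ℤ) : ℝ)| ≤ e) :
    |(((czs P s.1 s.2 (2 ^ m) tabs).getD ((2 * p + 1) * 2 ^ hb) 0 - z ((2 * p + 1) * 2 ^ hb) : ℤ) : ℝ)| ≤
      2 ^ (7 + P.jj) * e := by
  have hP := h.ok.good
  have hq := psi_lt hhb hp
  have hi := planb_idx hP (hb := hb + 1) hhb hp
  have hi2 := planb_idx hP hhb.le hq.1
  have hpar := planb_par hP
  have hkg := h.kg_le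
  obtain ⟨r1, r2⟩ := hreg hb hhb p hp (by exact_mod_cast hl)
  have i1 : 2 * p * 2 ^ hb = p * 2 ^ (hb + 1) := by ring
  have i2 : (2 * p + 1 + 1) * 2 ^ hb = (p + 1) * 2 ^ (hb + 1) := by ring
  have eL : M.Gs P r i s m φ z hb (2 * p) = Gt P (zgrid P s.1 (2 ^ m)) (M.Wk P r i φ) hb (2 * p)
      (z (p * 2 ^ (hb + 1))) (z ((2 * p + 1) * 2 ^ hb)) := by rw [Gs, Gc, i1]
  have eR : M.Gs P r i s m φ z hb (2 * p + 1) = Gt P (zgrid P s.1 (2 ^ m)) (M.Wk P r i φ) hb (2 * p + 1)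
      (z ((2 * p + 1) * 2 ^ hb)) (z ((p + 1) * 2 ^ (hb + 1))) := by rw [Gs, Gc, i2]
  have hη : 0 < eta P := by rw [eta]; positivity
  have hη' : eta P ≤ 1 := by
    rw [eta]
    exact div_le_one_of_le₀ (one_le_pow₀ one_le_two) (by positivity)
  have hτ : tau P ≤ 1 / 2 := by
    rw [tau]
    simpa using planb_div zero_le_one (show 1 ≤ P.kg by omega)
  have hT : (0 : ℝ) < P.T0 := by exact_mod_cast h.blk_T0
  have hQ0 : (0 : ℝ) < 2 ^ m / 2 ^ (P.kd + 3) := by positivity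
  have nn : ∀ q zl zr, 0 ≤ Gt P (zgrid P s.1 (2 ^ m)) (M.Wk P r i φ) hb q zl zr := fun q zl zr =>
    (abs_nonneg _).trans (h.planb_disp hhb.le q zl zr)
  have m1 := h.czs_mem tabs (j := p * 2 ^ (hb + 1)) ((Nat.mul_le_mul_right _ (Nat.le_succ p)).trans hi)
  have m2 := h.czs_mem tabs hi
  rw [planb_mid hP _ _ _ _ hhb hp]
  generalize (czs P s.1 s.2 (2 ^ m) tabs).getD (p * 2 ^ (hb + 1)) 0 = c1 at *
  generalize (czs P s.1 s.2 (2 ^ m) tabs).getD ((p + 1) * 2 ^ (hb + 1)) 0 = c2 at *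
  have key := midz_close (P := P) (tabs := tabs) (hb := hb) (p := p) (zm := z ((2 * p + 1) * 2 ^ hb))
    (g1 := fun x => Gt P (zgrid P s.1 (2 ^ m)) (M.Wk P r i φ) hb (2 * p) c1 x)
    (g2 := fun x => Gt P (zgrid P s.1 (2 ^ m)) (M.Wk P r i φ) hb (2 * p + 1) x c2)
    (Gl := M.Gs P r i s m φ z hb (2 * p)) (Gr := M.Gs P r i s m φ z hb (2 * p + 1))
    (θ := 2 ^ m / 2 ^ P.kθ) (B := P.b) hη hη' (planb_tau P).1 hτ (Nat.cast_nonneg _) hT m1 m2
    (h.mem_grid hi2) e1 e2 (fun x => nn _ _ _) (fun x => nn _ _ _)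
    (fun x x' => by simpa using h.Gt_lip hb (2 * p) c1 x c1 x')
    (fun x x' => by simpa using h.Gt_lip hb (2 * p + 1) x c2 x' c2)
    (fun x => by
      have a1 := abs_le.1 (h.planb_disp hhb.le (2 * p) c1 x)
      have a2 := abs_le.1 (h.planb_disp hhb.le (2 * p + 1) x c2)
      push_cast at a1 a2 ⊢
      exact abs_le.2 ⟨by linarith, by linarith⟩)
    (by rw [eL]; exact nn _ _ _) (by rw [eR]; exact nn _ _ _)
    (by
      have a1 := h.Gt_lip hb (2 * p) c1 (z ((2 * p + 1) * 2 ^ hb)) (z (p * 2 ^ (hb + 1))) (z ((2 * p + 1) * 2 ^ hb))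
      have a2 := h.Gt_lip hb (2 * p) (z (p * 2 ^ (hb + 1))) (z ((2 * p + 1) * 2 ^ hb)) c1 (z ((2 * p + 1) * 2 ^ hb))
      rw [sub_self, Int.cast_zero, abs_zero] at a1 a2
      rw [Int.cast_sub, abs_sub_comm, ← Int.cast_sub] at a2
      rw [eL]
      exact abs_le.2 ⟨by linarith, by linarith⟩)
    (by
      have a1 := h.Gt_lip hb (2 * p + 1) (z ((2 * p + 1) * 2 ^ hb)) c2 (z ((2 * p + 1) * 2 ^ hb))
        (z ((p + 1) * 2 ^ (hb + 1)))
      have a2 := h.Gt_lip hb (2 * p + 1) (z ((2 * p + 1) * 2 ^ hb)) (z ((p + 1) * 2 ^ (hb + 1)))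
        (z ((2 * p + 1) * 2 ^ hb)) c2
      rw [sub_self, Int.cast_zero, abs_zero] at a1 a2
      rw [Int.cast_sub, abs_sub_comm, ← Int.cast_sub] at a2
      rw [eR]
      exact abs_le.2 ⟨by linarith, by linarith⟩)
    (hQ0.trans hl)
    (by
      have a1 : eta P * (2 ^ m / 2 ^ (P.kd + 3)) = 32 * (2 ^ m / 2 ^ (P.kd + 8 + P.jj)) := by
        rw [eta, show P.kd + 8 + P.jj = P.kd + 3 + 5 + P.jj by omega, pow_add _ (P.kd + 3 + 5),
          pow_add _ (P.kd + 3) 5]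
        field_simp
        norm_num
      have a2 := mul_le_mul_of_nonneg_left hl.le hη.le
      have a3 : (0 : ℝ) ≤ 2 ^ m / 2 ^ (P.kd + 8 + P.jj) := by positivity
      linarith)
    r1
    (by
      rw [devi, dsp, dsp, i1] at r2
      exact_mod_cast r2)
    (fun x _ => ha.gS hP hhb.le hq.1 c1 x) (fun x _ => ha.gS hP hhb.le hq.2 x c2)
  refine key.trans ?_
  have b1 := h.planb_Gs hhb.le hq.1
  have b2 := h.planb_Gs hhb.le hq.2
  have b3 : tau P * (M.Gs P r i s m φ z hb (2 * p) + M.Gs P r i s m φ z hb (2 * p + 1)) ≤ 2 ^ m / 2 ^ P.kθ := by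
    have c0 : (0 : ℝ) < 2 ^ m := by positivity
    refine (mul_le_mul_of_nonneg_left (show _ ≤ (2 : ℝ) ^ m by linarith) (planb_tau P).1).trans ?_
    rw [tau, one_div_mul_eq_div]
    exact planb_div c0.le (by omega)
  have b4 : (P.b : ℝ) ≤ 2 ^ m / 2 ^ P.kθ := by
    rw [hP.b_eq, Nat.cast_pow, Nat.cast_ofNat]
    exact planb_pow (by omega)
  have b5 : 32 / eta P = 32 * 2 ^ P.jj := by rw [eta, div_div_eq_mul_div, div_one]
  rw [b5, pow_add, show (2 : ℝ) ^ 7 * 2 ^ P.jj * e = 32 * 2 ^ P.jj * (4 * e) by ring]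
  exact mul_le_mul_of_nonneg_left (by linarith) (by positivity)

/-- Induction on the height `hb`: if both ends of the node `(hb, p)` have error
`≤ e = σ 2^((L - hb)(7 + jj)) / 2^kθ`, then all boundaries below it have error `≤ 3/4 · σ / 2^kd`
(`kθ = kd + 8 + jj + L (7 + jj)`). -/
theorem Blk.reach (h : M.Blk P r i s m φ Λ z) (ha : M.TabsAcc P r i s (2 ^ m) φ tabs)
    (hreg : Regular P (2 ^ m) (M.Gs P r i s m φ z) z) :
    Reach P (2 ^ m) (fun j => (czs P s.1 s.2 (2 ^ m) tabs).getD j 0) z := by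
  have hP := h.ok.good
  obtain ⟨E, hE⟩ : ∃ E : ℕ → ℝ, ∀ d, E d = 2 ^ m / 2 ^ P.kθ * (2 ^ (7 + P.jj)) ^ d := ⟨_, fun _ => rfl⟩
  have hθ : (0 : ℝ) < 2 ^ m / 2 ^ P.kθ := by positivity
  have Emono : ∀ {d d'}, d ≤ d' → E d ≤ E d' := fun hd => by
    rw [hE, hE]
    exact mul_le_mul_of_nonneg_left (pow_le_pow_right₀ (one_le_pow₀ one_le_two) hd) hθ.le
  have E0 : E 0 = 2 ^ m / 2 ^ P.kθ := by rw [hE, pow_zero, mul_one]
  have EL : E P.L = 2 ^ m / 2 ^ (P.kd + 8 + P.jj) := by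
    rw [hE, Par.kθ.eq_1, pow_add _ (P.kd + 8 + P.jj), ← pow_mul, mul_comm (7 + P.jj) P.L]
    field_simp
  have hpos : (0 : ℝ) < 2 ^ m / 2 ^ (P.kd + 1) := by positivity
  have key : ∀ hb ≤ P.L, ∀ p < 2 ^ (P.L - hb),
      |(((czs P s.1 s.2 (2 ^ m) tabs).getD (p * 2 ^ hb) 0 - z (p * 2 ^ hb) : ℤ) : ℝ)| ≤ E (P.L - hb) →
      |(((czs P s.1 s.2 (2 ^ m) tabs).getD ((p + 1) * 2 ^ hb) 0 - z ((p + 1) * 2 ^ hb) : ℤ) : ℝ)| ≤
        E (P.L - hb) → ∀ j, p * 2 ^ hb ≤ j → j ≤ (p + 1) * 2 ^ hb →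
      |(((czs P s.1 s.2 (2 ^ m) tabs).getD j 0 - z j : ℤ) : ℝ)| ≤ E P.L + 2 ^ m / 2 ^ (P.kd + 1) := by
    intro hb
    induction hb with
    | zero =>
      intro _ p _ e1 e2 j h1 h2
      simp only [pow_zero, mul_one, Nat.sub_zero] at e1 e2 h1 h2
      rcases (show j = p ∨ j = p + 1 by omega) with rfl | rfl
      · linarith
      · linarith
    | succ hb ih =>
      intro hhb p hp e1 e2 j h1 h2
      have a1 : E (P.L - (hb + 1)) ≤ E P.L := Emono (Nat.sub_le _ _)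
      rcases le_or_gt (M.Gs P r i s m φ z hb (2 * p) + M.Gs P r i s m φ z hb (2 * p + 1))
        (2 ^ m / 2 ^ (P.kd + 3)) with hl | hl
      · have := h.light tabs hhb hp hl e1 e2 h1 h2
        linarith
      · have a2 := h.heavy ha hreg hhb hp hl (E0 ▸ Emono (Nat.zero_le _)) (EL ▸ a1) e1 e2
        have a3 : 2 ^ (7 + P.jj) * E (P.L - (hb + 1)) = E (P.L - hb) := by
          rw [hE, hE, show P.L - hb = P.L - (hb + 1) + 1 by omega, pow_succ]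
          ring
        have a4 : E (P.L - (hb + 1)) ≤ E (P.L - hb) := Emono (by omega)
        have hq := psi_lt hhb hp
        have i1 : p * 2 ^ (hb + 1) = 2 * p * 2 ^ hb := by ring
        have i2 : (p + 1) * 2 ^ (hb + 1) = (2 * p + 1 + 1) * 2 ^ hb := by ring
        rw [a3] at a2
        rw [i1] at e1 h1
        rw [i2] at e2 h2
        rcases le_total j ((2 * p + 1) * 2 ^ hb) with hj | hj
        · exact ih (by omega) (2 * p) hq.1 (e1.trans a4) a2 j h1 hj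
        · exact ih (by omega) (2 * p + 1) hq.2 a2 (e2.trans a4) j hj h2
  intro j hj
  have hE0 : 0 ≤ E (P.L - P.L) := by rw [Nat.sub_self, E0]; exact hθ.le
  have h1 := key P.L le_rfl 0 (by simp)
    (by rw [zero_mul, (czs_zero hP _ _ _ _).1, h.comp.z0, sub_self, Int.cast_zero, abs_zero]; exact hE0)
    (by
      rw [zero_add, one_mul, h.comp.zb, ← hP.b_eq, (czs_zero hP _ _ _ _).2, sub_self, Int.cast_zero, abs_zero]
      exact hE0)
    j (by simp) (by rw [zero_add, one_mul, ← hP.b_eq]; exact hj)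
  have hkg := h.kg_le
  have hpar := planb_par hP
  have h2 : ((wlv P (2 ^ m) 0 : ℕ) : ℝ) = 2 * (2 ^ m / 2 ^ (P.kd + 1)) := by
    rw [wlv_pow hP (by omega) (by rw [(geo_par hP).2.2.2.1]; omega), add_zero, Nat.cast_pow, Nat.cast_ofNat,
      pow_sub₀ _ two_ne_zero (by omega), pow_succ]
    field_simp
  have h3 : E P.L ≤ 2 ^ m / 2 ^ (P.kd + 2) := by
    rw [EL]
    exact planb_div (by positivity) (by omega)
  have h4 : (2 : ℝ) ^ m / 2 ^ (P.kd + 1) = 2 * (2 ^ m / 2 ^ (P.kd + 2)) := by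
    rw [pow_succ _ (P.kd + 1)]
    field_simp
  have h5 : |(((czs P s.1 s.2 (2 ^ m) tabs).getD j 0 - z j : ℤ) : ℝ)| < (wlv P (2 ^ m) 0 : ℕ) := by linarith
  rw [Blk.blk_abs, Nat.cast_lt] at h5
  dsimp only
  omega

end Model

end Crest.Agent.R288
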