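import Crest.Agent.R288.Par
import Crest.Agent.R288.Fdef

/-!
# R288: the pure functions of the algorithm
-/

set_option autoImplicit false

namespace Crest.Agent.R288

open Crest.Agent.Lib.PT

instance : DecidableEq Un := fun a b => decidable_of_iff (a.n = b.n) Un.ext_iff.symm

/-- Least element of a list (`0` for the empty list). -/
def mn {β : Type} [LinearOrder β] [Zero β] (l : List β) : β := (l.argmin id).getD 0

/-- Minimum of `a` and of the present entries. -/
def omin (a : ℕ) (l : List (Option ℕ)) : ℕ := l.foldl (fun c o => o.elim c (min c)) a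

/-- `ℓ¹` distance of two states. -/
def dist1 (s s' : ℤ × ℤ) : ℕ := (s.1 - s'.1).natAbs + (s.2 - s'.2).natAbs

/-! ### Contexts and plans -/

/-- A context: centre, grid spacing and radius (in grid steps). -/
abbrev Ctx := ℤ × ℤ × ℕ × Un

/-- Half the radius of a context. -/
def cw (c : Ctx) : ℕ := c.2.2.1 * c.2.2.2.n / 2

/-- The states of a context. -/
def om (c : Ctx) : List (ℤ × ℤ) :=
  (List.range (2 * c.2.2.2.n + 1)).flatMap fun a : ℕ =>
    (List.range (2 * c.2.2.2.n + 1)).map fun a' : ℕ =>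
      (c.1 + (c.2.2.1 : ℤ) * ((a : ℤ) - c.2.2.2.n), c.2.1 + (c.2.2.1 : ℤ) * ((a' : ℤ) - c.2.2.2.n))

/-- The certified bound of a context. -/
def cap (P : Par) (c : Ctx) : ℕ := cw c * P.p2 P.kx

/-- Cap a value. -/
def capc (P : Par) (c : Option Ctx) (v : ℕ) : ℕ := c.elim v fun c => min v (cap P c)

/-- Radius (in grid steps) of an optional context. -/
def radc (c : Option Ctx) : ℕ := c.elim 0 fun c => c.2.2.2.n

/-- A plan: boundaries and contexts of the children. -/
abbrev Plan := List ℤ × List Ctx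

/-- Boundary `j` of a plan. -/
def pz (pl : Plan) (j : ℕ) : ℤ := pl.1.getD j 0

/-- Context of child `j`. -/
def pc (pl : Plan) (j : ℕ) : Ctx := pl.2.getD j (0, 0, 0, ⟨0⟩)

/-- Cost of moving to the ends of the plan. -/
def junc (P : Par) (pl : Plan) (α γ : ℤ) : ℕ := dist1 (α, γ) (pz pl 0, pz pl P.b)

/-- Junction costs between the centres of consecutive contexts. -/
def cjunc (P : Par) (pl : Plan) : ℕ :=
  ((List.range (P.b - 1)).map fun j => ((pc pl j).2.1 - (pc pl (j + 1)).1).natAbs).sum

/-- Ends of the path through the centres. -/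
def cends (P : Par) (pl : Plan) : ℤ × ℤ := ((pc pl 0).1, (pc pl (P.b - 1)).2.1)

/-- The children below a node of a block (clamped version of `blk`). -/
def blkP (P : Par) (hb p : ℕ) : List ℕ := List.range' (p * P.p2 hb) (P.p2 hb)

/-- Total radius below a node. -/
def omg (P : Par) (pl : Plan) (hb p : ℕ) : ℕ := ((blkP P hb p).map fun j => cw (pc pl j)).sum

/-! ### Time -/

/-- Phase of round `t ≥ 1`. -/
def phs (P : Par) (t : ℕ) : ℕ := (t - 1) / P.T0

/-- Number of earlier rounds in the phase of `t`. -/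
def nIn (P : Par) (t : ℕ) : ℕ := min ((t - 1) % P.T0) P.T0

/-- Round number `k` of the window of phase `φ ≥ 1` (the rounds of phase `φ - 1`). -/
def wnd (P : Par) (φ k : ℕ) : ℕ := (φ - 1) * P.T0 + 1 + k

/-- Round number `k` of the phase of `t`. -/
def rnk (P : Par) (t k : ℕ) : ℕ := t - nIn P t + k

/-! ### The dynamic programme over a block -/

/-- Grid spacing at scale `σ`. -/
def gsp (P : Par) (σ : ℕ) : ℕ := σ / P.p2 P.kg

/-- The offsets used at scale `σ`. -/
def zgrid (P : Par) (α : ℤ) (σ : ℕ) : List ℤ :=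
  (List.range (2 * P.p2 (P.kg + 2) + 1)).map fun a : ℕ =>
    rdn (gsp P σ) α + (gsp P σ : ℤ) * ((a : ℤ) - P.p2 (P.kg + 2))

/-- Tables of values: child, start index, end index. -/
abbrev Tab := List (List (List ℕ))

/-- One child, given the cost to go `f` from every end offset. -/
def gat (Zs : List ℤ) (m : List (List ℕ)) (f : List ℕ) (z : ℤ) : ℕ :=
  mn ((Zs.zip m).flatMap fun p => (p.2.zip f).map fun q => (z - p.1).natAbs + q.1 + q.2)

/-- Cost to go from every offset of the grid. -/
def gL (Zs : List ℤ) (tab : Tab) (js : List ℕ) (zr : ℤ) : List ℕ :=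
  js.foldr (fun j f => Zs.map (gat Zs (tab.getD j []) f)) (Zs.map fun z => (z - zr).natAbs)

/-- Cheapest path through the children `js`. -/
def gN (Zs : List ℤ) (tab : Tab) (js : List ℕ) (zl zr : ℤ) : ℕ :=
  if js = [] then (zl - zr).natAbs else
    gat Zs (tab.getD (js.headD 0) []) (gL Zs tab js.tail zr) zl

/-- The same for real values. -/
noncomputable def gR (Zs : List ℤ) (W : ℕ → ℤ → ℤ → ℝ) : List ℕ → ℤ → ℤ → ℝ
  | [], zl, zr => |((zl - zr : ℤ) : ℝ)|
  | j :: js, zl, zr => mn (Zs.flatMap fun z1 => Zs.map fun z2 =>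
      |((zl - z1 : ℤ) : ℝ)| + W j z1 z2 + gR Zs W js z2 zr)

/-- Entry of a table at two offsets. -/
def tget (Zs : List ℤ) (tab : Tab) (j : ℕ) (z1 z2 : ℤ) : ℕ :=
  ((tab.getD j []).getD (Zs.idxOf z1) []).getD (Zs.idxOf z2) 0

/-- The table has the right shape. -/
def TabOk (Zs : List ℤ) (n : ℕ) (tab : Tab) : Prop :=
  tab.length = n ∧ ∀ m ∈ tab, m.length = Zs.length ∧ ∀ row ∈ m, row.length = Zs.length

/-! ### The plan -/

/-- Sum over the window of the cheapest paths below a node. -/
def gS (P : Par) (Zs : List ℤ) (tabs : List Tab) (hb p : ℕ) (zl zr : ℤ) : ℕ :=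
  (tabs.map fun tab => gN Zs tab (blkP P hb p) zl zr).sum

/-- Deviation of the midpoint `z` from the proportional one (node of height `hb + 1`). -/
def psi (P : Par) (Zs : List ℤ) (tabs : List Tab) (hb p : ℕ) (zl zr z : ℤ) : ℚ :=
  ((z - zl : ℤ) : ℚ) - ((zr - zl : ℤ) : ℚ) * (gS P Zs tabs hb (2 * p) zl z : ℚ) /
    ((gS P Zs tabs hb (2 * p) zl z : ℚ) + (gS P Zs tabs hb (2 * p + 1) z zr : ℚ))

/-- The planned midpoint of a node of height `hb + 1`. -/
def midz (P : Par) (Zs : List ℤ) (tabs : List Tab) (hb p : ℕ) (zl zr : ℤ) : ℤ :=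
  ((Zs.filter fun z => decide (min zl zr ≤ z ∧ z ≤ max zl zr)).argmin
    fun z => |psi P Zs tabs hb p zl zr z|).getD zl

/-- The planned ends of the node at depth `d` (height `L - d`) with index `p`. -/
def zp (P : Par) (Zs : List ℤ) (tabs : List Tab) (e : ℤ × ℤ) : ℕ → ℕ → ℤ × ℤ
  | 0, _ => e
  | d + 1, p =>
    let u := zp P Zs tabs e d (p / 2)
    let m := midz P Zs tabs (P.L - d - 1) (p / 2) u.1 u.2
    if p % 2 = 0 then (u.1, m) else (m, u.2)

/-- The planned boundaries. -/
def czs (P : Par) (α γ : ℤ) (σ : ℕ) (tabs : List Tab) : List ℤ :=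
  ((List.range P.b).map fun j =>
    (zp P (zgrid P α σ) tabs (rdn (gsp P σ) α, rdn (gsp P σ) γ) P.L j).1) ++ [rdn (gsp P σ) γ]

/-- Half radius at level `lv`. -/
def wlv (P : Par) (σ lv : ℕ) : ℕ := gsp P σ * P.p2 (P.kg - P.kd + lv)

/-- The context of level `lv` around two offsets. -/
def ctxAt (P : Par) (σ lv : ℕ) (z1 z2 : ℤ) : Ctx :=
  (rdn (wlv P σ lv) z1, rdn (wlv P σ lv) z2, gsp P σ, ⟨P.p2 (P.kg - P.kd + lv + 1)⟩)

/-- The context is certified by the tables. -/
def certOk (P : Par) (Zs : List ℤ) (tabs : List Tab) (j : ℕ) (c : Ctx) : Bool :=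
  ((om c).all fun s => Zs.contains s.1 && Zs.contains s.2) &&
    decide (mn ((om c).map fun s => (tabs.map fun tab => tget Zs tab j s.1 s.2).sum) +
      8 * cw c * P.T0 ≤ cap P c * P.T0)

/-- The least certified context of child `j`. -/
def ctxOf (P : Par) (Zs : List ℤ) (σ : ℕ) (tabs : List Tab) (cz : List ℤ) (j : ℕ) : Option Ctx :=
  ((List.range P.nw).map fun lv => ctxAt P σ lv (cz.getD j 0) (cz.getD (j + 1) 0)).find?
    (certOk P Zs tabs j)

/-- The plan, given its boundaries. -/
def planOf' (P : Par) (α γ : ℤ) (σ : ℕ) (tabs : List Tab) (cz : List ℤ) : Option Plan :=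
  let cs := (List.range P.b).map (ctxOf P (zgrid P α σ) σ tabs cz)
  if (γ - α).natAbs ≤ σ ∧ cs.all Option.isSome = true ∧
      ((cs.filterMap id).map (cap P)).sum ≤ σ then some (cz, cs.filterMap id) else none

/-- The plan at scale `σ`. -/
def planOf (P : Par) (α γ : ℤ) (σ : ℕ) (tabs : List Tab) : Option Plan :=
  planOf' P α γ σ tabs (czs P α γ σ tabs)

/-! ### The learner -/

/-- Clamp to an interval. -/
def clampZ (lo hi z : ℤ) : ℤ := max lo (min hi z)

/-- One round of optimistic gradient descent with postponed retraction; state `(q, p)`. -/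
def lstep (Q xh : ℤ) (s : ℤ × ℤ) (d : ℤ) : ℤ × ℤ :=
  let d' := clampZ (-xh) xh d
  let q := clampZ 0 Q (s.1 - d')
  let y := clampZ 0 Q (q - d')
  (q, if (y - s.2) * d' ≤ 0 then y else s.2)

/-- The weight (out of `Q`) of the second option after the signals `ds`. -/
def learn (Q xh : ℤ) (ds : List ℤ) : ℤ := (ds.foldl (lstep Q xh) (0, 0)).2

/-- Number of random bits of a choice. -/
def qbits (P : Par) (ω : ℕ) : ℕ := min ω.size (4 * P.hh) + 3 * P.ka

/-- Whether the second option is taken. -/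
def choose2 (P : Par) (ω : ℕ) (a1 a2 : List ℕ) (u : ℕ) : Bool :=
  decide ((u : ℤ) < learn (2 ^ qbits P ω) (ω * P.p2 (2 * P.ka + 2))
    (List.zipWith (fun x1 x2 : ℕ => (x2 : ℤ) - x1) a1 a2))

/-- The midpoint selected by the option number `k0` at a node of height `hb ≥ 1`. -/
def optz (P : Par) (pl : Plan) (hb p k0 : ℕ) : ℤ :=
  pz pl (p * P.p2 hb + P.p2 (hb - 1)) + ((pc pl 0).2.2.1 : ℤ) * ((k0 : ℤ) - P.p2 (P.mb - 1))

/-! ### Scales, hints -/

/-- Scales without context, from the anchor `C`. -/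
def sclS (P : Par) (C j : ℕ) : ℕ := 2 ^ (C.size + min j P.nS) / P.p2 (P.kR + 1)

/-- Scales in a context. -/
def sclC (P : Par) (c : Ctx) (j : ℕ) : ℕ := cw c * 2 ^ min j P.nC / P.p2 P.kg

/-- All contexts of level `lv` that may be needed in the context `c` at scale `σ`. -/
def tabKeys (P : Par) (c : Ctx) (σ lv : ℕ) : List Ctx :=
  (List.range (2 * P.p2 (P.kd + 2 - lv) + 1)).flatMap fun a1 : ℕ =>
    (List.range (2 * P.p2 P.kx + 1)).map fun a2 : ℕ =>
      (rdn (wlv P σ lv) c.1 + (wlv P σ lv : ℤ) * ((a1 : ℤ) - P.p2 (P.kd + 2 - lv)),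
        rdn (wlv P σ lv) c.1 + (wlv P σ lv : ℤ) * ((a1 : ℤ) - P.p2 (P.kd + 2 - lv)) +
          (wlv P σ lv : ℤ) * ((a2 : ℤ) - P.p2 P.kx),
        gsp P σ, ⟨P.p2 (P.kg - P.kd + lv + 1)⟩)

/-- The plan may be used at scale number `j`. -/
def usable (P : Par) (c : Ctx) (j : ℕ) (pl : Plan) : Bool :=
  decide (j < P.kg) || (List.range P.b).all fun k =>
    (List.range P.nw).any fun lv => decide (pc pl k ∈ tabKeys P c (sclC P c j) lv)

/-- Result of the time-independent part of a call in a context: depth of inflation and plans. -/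
def fixOut (P : Par) (c : Ctx) (rows : List (List ℕ)) (pls : List (List (Option Plan))) :
    ℕ × List (List (Option Plan)) :=
  (mn ((List.range (om c).length).map fun k => (rows.map fun row => row.getD k 0).sum) / P.T0 /
      P.p2 (2 * P.ka) + 16 * cw c,
    (List.range P.nC).map fun j => (pls.getD j []).map fun o =>
      o.bind fun pl => if usable P c j pl = true then some pl else none)

/-- Past values of the states of a context. -/
def pastOut (A B : List ℕ) : List ℕ :=
  (List.range A.length).map fun k => min (A.getD k 0) (B.getD k (A.getD k 0))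

/-- A hint: value and ends. -/
abbrev Hnt := ℕ × ℤ × ℤ

/-- The static hint (small scales). -/
def statH (P : Par) (pls : List (Option Plan)) : Option Hnt :=
  (pls.filterMap id).head?.map fun pl =>
    (((List.range P.b).map fun j => cap P (pc pl j)).sum + cjunc P pl, cends P pl)

/-- A draw: level, child, values of the contexts of the table. -/
abbrev Drw := ℕ × ℕ × List ℕ

/-- Contribution of one draw to the estimate of a plan. -/
def dterm (P : Par) (c : Ctx) (σ : ℕ) (pl : Plan) (d : Drw) : ℕ :=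
  P.p2 (P.nw - d.1) * d.2.2.getD ((tabKeys P c σ d.1).idxOf (pc pl d.2.1)) 0

/-- The selected plan. -/
def selP (P : Par) (c : Ctx) (σ : ℕ) (pls : List (Option Plan)) (ds : List Drw) : Option Plan :=
  (pls.filterMap id).argmin fun pl => (ds.map (dterm P c σ pl)).sum

/-- Value of a hint at a state. -/
def hval (s : ℤ × ℤ) (h : Hnt) : ℕ := h.1 + dist1 s h.2

/-- The common data of a call in a context: past values, depth of inflation, plans, hints. -/
abbrev Com := List ℕ × ℕ × List (List (Option Plan)) × List (Option Hnt)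

/-- The plan of the state itself at scale number `j`. -/
def own (c : Ctx) (s : ℤ × ℤ) (cm : Com) (j : ℕ) : Option Plan :=
  (cm.2.2.1.getD j []).getD ((om c).idxOf s) none

/-- The part of the value that depends on the common data only. -/
def comVal (P : Par) (c : Ctx) (s : ℤ × ℤ) (cm : Com) : ℕ :=
  omin (omin (cap P c) (List.zipWith (fun s' z => some (z + dist1 s s')) (om c) cm.1))
    (cm.2.2.2.map fun o => o.map (hval s))

/-- The value of a call in a context; `xs` are the averaged values of the own plans. -/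
def ctxOut (P : Par) (c : Ctx) (s : ℤ × ℤ) (cm : Com) (xs : List ℕ) : ℕ :=
  omin (comVal P c s cm) ((List.range P.nC).map fun j =>
    (own c s cm j).bind fun pl => (cm.2.2.2.getD j none).map fun h =>
      max (xs.getD j 0 + junc P pl s.1 s.2) (hval s h - cm.2.1))

/-! ### Banded dynamic programme and gap tests -/

/-- Cost of a leaf between the band positions `a`, `a'`; `ms` marks the matching positions. -/
def leafC (emp : Bool) (ms : List Bool) (a a' : ℕ) : ℕ :=
  if emp = true then (a - a') + (a' - a) else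
    if a ≤ a' then (a' - a) + (if ((ms.drop a).take (a' - a + 1)).any id = true then 0 else 1)
    else a - a'

/-- Processing a leaf. -/
def rowLeaf (κ : Un) (emp : Bool) (ms : List Bool) (row : List ℕ) : List ℕ :=
  (List.range (2 * κ.n + 1)).map fun a' => min (κ.n + 1)
    (mn ((List.range (2 * κ.n + 1)).map fun a => row.getD a (κ.n + 1) + leafC emp ms a a'))

/-- The first row. -/
def row0 (κ : Un) : List ℕ :=
  (List.range (2 * κ.n + 1)).map fun a => if a = κ.n then 0 else κ.n + 1

/-- Position in `y` of band index `a` at the leaf `i`. -/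
def ypos (i : ℕ) (α : ℤ) (κ : Un) (a : ℕ) : ℤ := (i : ℤ) + α - κ.n + a

/-- Matching positions, from the symbols read. -/
def matchL (P : Par) (i : ℕ) (α : ℤ) (κ : Un) (rs : List ℕ) : List Bool :=
  (List.range (2 * κ.n + 1)).map fun a =>
    decide (0 ≤ ypos i α κ a ∧ ypos i α κ a < P.2.1 ∧ rs.getD (a + 1) 0 = rs.getD 0 0)

/-- Unit of the thresholds of a gap test. -/
def gu (P : Par) (κ : ℕ) : ℕ := κ / P.p2 (2 * P.kγ + P.kb)

/-- Grid spacing of band `eb`. -/
def gg (P : Par) (κ eb : ℕ) : ℕ := gu P κ * P.p2 eb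

/-- The states tested for one child. -/
def gstates (P : Par) (α : ℤ) (κ eb : ℕ) : List (ℤ × ℤ) :=
  (List.range (2 * (P.p2 (2 * P.kγ + P.kb + 1 - eb) + 1) + 1)).flatMap fun a : ℕ =>
    (List.range (2 * (2 * P.p2 P.kγ + 1) + 1)).map fun a' : ℕ =>
      (rdn (gg P κ eb) α + (gg P κ eb : ℤ) * ((a : ℤ) - (P.p2 (2 * P.kγ + P.kb + 1 - eb) + 1 : ℕ)),
        rdn (gg P κ eb) α + (gg P κ eb : ℤ) * ((a : ℤ) - (P.p2 (2 * P.kγ + P.kb + 1 - eb) + 1 : ℕ)) +
          (gg P κ eb : ℤ) * ((a' : ℤ) - (2 * P.p2 P.kγ + 1 : ℕ)))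

/-- The pairs (band, step), each repeated `64 · 2^band` times. -/
def gdraws (P : Par) : List (ℕ × ℕ) :=
  (List.range (P.kγ + P.kb + 2)).flatMap fun eb => (List.range (P.p2 P.kγ)).flatMap fun l =>
    List.replicate (P.p2 (eb + 6)) (eb, l)

/-- Verdict of one raw gap test from the number of failed children. -/
def graw (P : Par) (κ cnt : ℕ) : Bool :=
  decide (64 * P.p2 P.kγ * (P.p2 P.kb * gu P κ * P.p2 P.kγ) + P.p2 P.kγ * (gu P κ * P.p2 P.kb) * cnt ≤
    64 * (P.p2 P.kγ + 3) * κ)

end Crest.Agent.R288
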