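import Crest.Agent.R309.Tape

/-!
# R288: random binary trees (finite fair-coin distributions)

`RT α` is a finite tree of fair coin flips with values at the leaves; `E` is the expectation,
`All` says that a property holds at every leaf, `seq` runs a list of trees independently.
-/

set_option autoImplicit false

namespace Crest.Agent.R288

open Crest.Agent.R309 (ind)

/-- Finite trees of fair coin flips. -/
inductive RT (α : Type) : Type
  | pure (a : α) : RT α
  | coin (l r : RT α) : RT α

namespace RT

variable {α β γ : Type}

/-- Monadic bind. -/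
def bind : RT α → (α → RT β) → RT β
  | pure a, f => f a
  | coin l r, f => coin (l.bind f) (r.bind f)

/-- Functorial map. -/
def map (f : α → β) (t : RT α) : RT β := t.bind fun a => pure (f a)

/-- Expectation. -/
noncomputable def E : RT α → (α → ℝ) → ℝ
  | pure a, f => f a
  | coin l r, f => (l.E f + r.E f) / 2

/-- The property holds at every leaf. -/
def All : RT α → (α → Prop) → Prop
  | pure a, p => p a
  | coin l r, p => l.All p ∧ r.All p

/-- Independent runs. -/
def seq : List (RT α) → RT (List α)
  | [] => pure []
  | t :: ts => t.bind fun a => (seq ts).bind fun l => pure (a :: l)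

/-- Probability. -/
noncomputable def P (t : RT α) (p : α → Prop) : ℝ := t.E fun a => ind (p a)

/-- Mean of a natural-number valued tree. -/
noncomputable def mean (t : RT ℕ) : ℝ := t.E fun v => (v : ℝ)

/-- Rounded-down average of `2 ^ e` independent copies. -/
def avg (t : RT ℕ) (e : ℕ) : RT ℕ := (seq (List.replicate (2 ^ e) t)).map fun l => l.sum / 2 ^ e

/-- A uniform number below `2 ^ e`. -/
def rnd (e : ℕ) : RT ℕ :=
  (seq (List.replicate e (coin (pure false) (pure true)))).map Crest.Agent.Lib.PT.ofBits

@[simp] theorem pure_bind (a : α) (f : α → RT β) : (pure a).bind f = f a := rfl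
@[simp] theorem map_pure (f : α → β) (a : α) : (pure a).map f = pure (f a) := rfl
@[simp] theorem E_pure (a : α) (f : α → ℝ) : (pure a).E f = f a := rfl
@[simp] theorem All_pure (a : α) (p : α → Prop) : (pure a).All p ↔ p a := Iff.rfl
@[simp] theorem seq_nil : (seq [] : RT (List α)) = pure [] := rfl
theorem seq_cons (t : RT α) (ts : List (RT α)) :
    seq (t :: ts) = t.bind fun a => (seq ts).bind fun l => pure (a :: l) := rfl

theorem bind_assoc (t : RT α) (f : α → RT β) (g : β → RT γ) :
    (t.bind f).bind g = t.bind fun a => (f a).bind g := by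
  induction t with
  | pure a => rfl
  | coin l r ihl ihr => simp only [bind, ihl, ihr]

@[simp] theorem bind_pure (t : RT α) : t.bind pure = t := by
  induction t with
  | pure a => rfl
  | coin l r ihl ihr => simp only [bind, ihl, ihr]

theorem map_bind (t : RT α) (f : α → RT β) (g : β → γ) :
    (t.bind f).map g = t.bind fun a => (f a).map g := bind_assoc _ _ _

theorem bind_map (t : RT α) (f : α → β) (g : β → RT γ) :
    (t.map f).bind g = t.bind fun a => g (f a) := bind_assoc _ _ _

theorem map_map (t : RT α) (f : α → β) (g : β → γ) : (t.map f).map g = t.map fun a => g (f a) :=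
  bind_assoc _ _ _

@[simp] theorem map_id' (t : RT α) : (t.map fun a => a) = t := bind_pure t

theorem bind_congr {t : RT α} {f g : α → RT β} (h : t.All fun a => f a = g a) :
    t.bind f = t.bind g := by
  induction t with
  | pure a => exact h
  | coin l r ihl ihr => simp only [bind, ihl h.1, ihr h.2]

theorem E_bind (t : RT α) (f : α → RT β) (g : β → ℝ) :
    (t.bind f).E g = t.E fun a => (f a).E g := by
  induction t with
  | pure a => rfl
  | coin l r ihl ihr => simp only [bind, E, ihl, ihr]

theorem E_map (t : RT α) (f : α → β) (g : β → ℝ) : (t.map f).E g = t.E fun a => g (f a) :=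
  E_bind _ _ _

theorem All_bind (t : RT α) (f : α → RT β) (p : β → Prop) :
    (t.bind f).All p ↔ t.All fun a => (f a).All p := by
  induction t with
  | pure a => rfl
  | coin l r ihl ihr => simp only [bind, All, ihl, ihr]

theorem All_map (t : RT α) (f : α → β) (p : β → Prop) :
    (t.map f).All p ↔ t.All fun a => p (f a) := All_bind _ _ _

theorem All.mono {t : RT α} {p q : α → Prop} (h : t.All p) (hpq : ∀ a, p a → q a) : t.All q := by
  induction t with
  | pure a => exact hpq a h
  | coin l r ihl ihr => exact ⟨ihl h.1, ihr h.2⟩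

theorem All.and {t : RT α} {p q : α → Prop} (h : t.All p) (h' : t.All q) :
    t.All fun a => p a ∧ q a := by
  induction t with
  | pure a => exact ⟨h, h'⟩
  | coin l r ihl ihr => exact ⟨ihl h.1 h'.1, ihr h.2 h'.2⟩

theorem All_of_forall (t : RT α) {p : α → Prop} (h : ∀ a, p a) : t.All p := by
  induction t with
  | pure a => exact h a
  | coin l r ihl ihr => exact ⟨ihl, ihr⟩

theorem All.exists {t : RT α} {p : α → Prop} (h : t.All p) : ∃ a, p a := by
  induction t with
  | pure a => exact ⟨a, h⟩
  | coin l r ihl _ => exact ihl h.1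

@[simp] theorem E_const (t : RT α) (c : ℝ) : (t.E fun _ => c) = c := by
  induction t with
  | pure a => rfl
  | coin l r ihl ihr => simp [E, ihl, ihr]

theorem E_add (t : RT α) (f g : α → ℝ) : (t.E fun a => f a + g a) = t.E f + t.E g := by
  induction t with
  | pure a => rfl
  | coin l r ihl ihr => simp only [E, ihl, ihr]; ring

theorem E_mul_left (t : RT α) (c : ℝ) (f : α → ℝ) : (t.E fun a => c * f a) = c * t.E f := by
  induction t with
  | pure a => rfl
  | coin l r ihl ihr => simp only [E, ihl, ihr]; ring

theorem E_mul_right (t : RT α) (c : ℝ) (f : α → ℝ) : (t.E fun a => f a * c) = t.E f * c := by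
  simp only [mul_comm _ c, E_mul_left]

theorem E_div (t : RT α) (c : ℝ) (f : α → ℝ) : (t.E fun a => f a / c) = t.E f / c := by
  simp only [div_eq_mul_inv, E_mul_right]

theorem E_neg (t : RT α) (f : α → ℝ) : (t.E fun a => - f a) = - t.E f := by
  simpa using E_mul_left t (-1) f

theorem E_sub (t : RT α) (f g : α → ℝ) : (t.E fun a => f a - g a) = t.E f - t.E g := by
  simp only [sub_eq_add_neg, E_add, E_neg]

theorem E_sum {ι : Type*} (t : RT α) (s : Finset ι) (f : ι → α → ℝ) :
    (t.E fun a => ∑ i ∈ s, f i a) = ∑ i ∈ s, t.E (f i) := by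
  classical
  induction s using Finset.induction_on with
  | empty => simp
  | insert a s ha ih => simp only [Finset.sum_insert ha, E_add, ih]

theorem E_mono {t : RT α} {f g : α → ℝ} (h : t.All fun a => f a ≤ g a) : t.E f ≤ t.E g := by
  induction t with
  | pure a => exact h
  | coin l r ihl ihr => have := ihl h.1; have := ihr h.2; simp only [E]; linarith

theorem E_mono' (t : RT α) {f g : α → ℝ} (h : ∀ a, f a ≤ g a) : t.E f ≤ t.E g :=
  E_mono (All_of_forall t h)

theorem E_congr {t : RT α} {f g : α → ℝ} (h : t.All fun a => f a = g a) : t.E f = t.E g :=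
  le_antisymm (E_mono (h.mono fun _ e => e.le)) (E_mono (h.mono fun _ e => e.ge))

theorem E_le {t : RT α} {f : α → ℝ} {c : ℝ} (h : t.All fun a => f a ≤ c) : t.E f ≤ c := by
  simpa using E_mono (g := fun _ => c) h

theorem le_E {t : RT α} {f : α → ℝ} {c : ℝ} (h : t.All fun a => c ≤ f a) : c ≤ t.E f := by
  simpa using E_mono (f := fun _ => c) h

theorem E_nonneg (t : RT α) {f : α → ℝ} (h : ∀ a, 0 ≤ f a) : 0 ≤ t.E f :=
  le_E (All_of_forall t h)

theorem abs_E_le (t : RT α) (f : α → ℝ) : |t.E f| ≤ t.E fun a => |f a| :=
  abs_le.2 ⟨by rw [← E_neg]; exact E_mono' t fun _ => neg_abs_le _,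
    E_mono' t fun _ => le_abs_self _⟩

/-- Fubini. -/
theorem E_comm (t : RT α) (u : RT β) (f : α → β → ℝ) :
    (t.E fun a => u.E fun b => f a b) = u.E fun b => t.E fun a => f a b := by
  induction t with
  | pure a => rfl
  | coin l r ihl ihr => simp only [E, ihl, ihr, E_div, E_add]

theorem E_seq_cons (t : RT α) (ts : List (RT α)) (f : List α → ℝ) :
    (seq (t :: ts)).E f = t.E fun a => (seq ts).E fun l => f (a :: l) := by
  simp only [seq_cons, E_bind, E_pure]

theorem All_seq_cons (t : RT α) (ts : List (RT α)) (p : List α → Prop) :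
    (seq (t :: ts)).All p ↔ t.All fun a => (seq ts).All fun l => p (a :: l) := by
  simp only [seq_cons, All_bind, All_pure]

theorem seq_single (t : RT α) : seq [t] = t.map fun a => [a] := rfl

theorem seq_append (ts us : List (RT α)) :
    seq (ts ++ us) = (seq ts).bind fun l => (seq us).bind fun l' => pure (l ++ l') := by
  induction ts with
  | nil => simp
  | cons t ts ih => simp only [List.cons_append, seq_cons, ih, bind_assoc, pure_bind]

theorem seq_map (ts : List (RT α)) (f : α → β) :
    seq (ts.map (map f)) = (seq ts).map (List.map f) := by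
  induction ts with
  | nil => rfl
  | cons t ts ih =>
    simp only [List.map_cons, seq_cons, ih, map, bind_assoc, pure_bind]

end RT

end Crest.Agent.R288
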