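import Crest.Agent.R288.RamAux1

/-!
# R288: numbers between registers and stacks; calls; the main loop of the fast regime
(adapted from `R302/RamAux2`)
-/

set_option autoImplicit false

namespace Crest.Agent.R288.RamAux

open Crest.Agent.Lib.PT Crest.WordRAM
open Crest.Agent.R309.RamAux (vec reg At at_cons at_append at_self get_set set_set length_get_le
  tot_pop Rch r_const r_copy r_add r_sub r_and r_shr r_load r_store r_jump r_jz r_jeq r_rand r_halt)

theorem exec_outW' (l : List Bool) (rest : List Bool) : ∀ a : List Bool,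
    Exec outW ⟨(enc l).bits ++ rest, a, [], []⟩ ⟨rest, l.reverse ++ a, [], []⟩
      (7 * l.length + 1) := by
  induction l with
  | nil => intro a; exact Exec.whF rfl
  | cons x l ih =>
    intro a
    rw [List.reverse_cons, List.append_assoc]
    cases x
    · refine Exec.mono (Exec.whT rfl (Exec.caseF rfl (Exec.push _ _ _)) (ih (false :: a))) ?_
      simp; omega
    · refine Exec.mono (Exec.whT rfl (Exec.caseT rfl
        (Exec.seq (Exec.caseF rfl (Exec.skip _)) (Exec.seq (Exec.caseF rfl (Exec.skip _))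
          (Exec.push _ _ _)))) (ih (true :: a))) ?_
      simp; omega

/-- A number computed from the state is put on stack `a`; the state is kept. -/
theorem exists_qcall {σ : Type} [Enc σ] {g : σ → ℕ} (hg : PT g) :
    ∃ (p : Prog) (c k : ℕ), ∀ s : σ,
      Exec p ⟨toBits s, [], [], []⟩ ⟨toBits s, (g s).bits.reverse, [], []⟩ (c * sz s ^ k) := by
  obtain ⟨T, hT, p, hp⟩ := id hg
  have h0 : PB fun s : σ => sz s := PB.sz_self
  obtain ⟨c, k, hck⟩ : PB fun s : σ => (12 * sz s + 6 + T s) + (7 * (g s).size + 1) := by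
    fun_prop
  refine ⟨.seq (.seq dupP p) outW, c, k, fun s => Exec.mono ?_ (hck s)⟩
  have e1 := ((run_dup (enc s)).seq ((hp s).frame (enc s).bits)) []
  have e2 := exec_outW' (g s).bits (toBits s) []
  simp only [List.append_nil, Nat.size_eq_bits_len] at e1 e2
  exact Exec.seq e1 e2

/-- The value of a stack, most significant bit on top. -/
def msb (l : List Bool) (v : ℕ) : ℕ := l.foldl (fun v b => 2 * v + b.toNat) v

theorem le_msb (l : List Bool) : ∀ v, v ≤ msb l v := by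
  induction l with
  | nil => exact fun _ => le_rfl
  | cons x l ih => exact fun v => le_trans (by omega) (ih (2 * v + x.toNat))

theorem msb_bits (v : ℕ) : msb v.bits.reverse 0 = v := by
  rw [msb, List.foldl_reverse]
  conv_rhs => rw [← ofBits_bits v, ofBits]
  congr 1
  funext b u
  exact (Nat.bit_val b u).symm

/-- Read stack `a` into register `11`. -/
def readNum (o : ℕ) : List (Instr 12) :=
  .const 11 0 :: (popI .a (o + 10) (o + 6) ++
    [.sub 7 7 2, .add 11 11 11, .add 11 11 7, .jump (o + 1)])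

/-- Push register `11` on stack `a`. -/
def pushNum (o : ℕ) : List (Instr 12) :=
  .jumpIfZero 11 (o + 7) :: .and 7 11 2 :: .add 7 7 2 :: (pushT .a ++ [.shr 11 11 2, .jump o])

/-- Call a four-stack program and read its result. -/
def qcall (p : Prog) (o : ℕ) (tl : List (Instr 12)) : List (Instr 12) :=
  rcode p o ++ (readNum (o + len p) ++ tl)

theorem length_readNum (o : ℕ) : (readNum o).length = 10 := rfl

theorem length_pushNum (o : ℕ) : (pushNum o).length = 7 := rfl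

theorem length_qcall (p : Prog) (o : ℕ) (tl : List (Instr 12)) :
    (qcall p o tl).length = len p + 10 + tl.length := by
  simp [qcall, length_readNum, Nat.add_assoc]

variable {L : List (Instr 12)} {w : ℕ} {ρ : ℕ → ℕ}
  {o k H X D : ℕ} {M : ℕ → ℕ}

theorem rch_readLoop (hA : At L o (readNum o)) (s0 : List Bool) (l : List Bool) :
    ∀ t v, msb l v < 2 ^ w → Rch L w ρ (9 * l.length + 2)
      (cf (o + 1) k H ⟨s0, l, [], []⟩ t X v M D)
      (cf (o + 10) k H ⟨s0, [], [], []⟩ 0 X (msb l v) M D) := by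
  obtain ⟨-, hA⟩ := hA
  rw [at_append, length_popI] at hA
  obtain ⟨a1, a2, a3, a4, a5, -⟩ := hA
  induction l with
  | nil => exact fun t v _ => r_popE a1 rfl
  | cons x l ih =>
    intro t v hv
    have h1 : 2 * v + x.toNat < 2 ^ w := (le_msb l _).trans_lt hv
    have r1 : Rch L w ρ 5 (cf (o + 1) k H ⟨s0, x :: l, [], []⟩ t X v M D)
        (cf (o + 1 + 5) k H ⟨s0, l, [], []⟩ (x.toNat + 1) X v M D) :=
      (r_pop a1 rfl).congr (by rw [show o + 6 = o + 1 + 5 by omega, ite_self]; rfl)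
    have r2 : Rch L w ρ (1 + 1 + 1 + 1)
        (cf (o + 1 + 5) k H ⟨s0, l, [], []⟩ (x.toNat + 1) X v M D)
        (cf (o + 1) k H ⟨s0, l, [], []⟩ x.toNat X (2 * v + x.toNat) M D) := by
      refine ((((r_sub a2).trans (r_add a3 ?_)).trans (r_add a4 ?_)).trans (r_jump a5)).congr ?_
      · simp only [put7, put2, wr_put7, put11]; omega
      · simp only [put7, put2, wr_put7, put11, wr_put11]; omega
      · simp only [put7, put2, wr_put7, put11, wr_put11, Nat.add_sub_cancel, two_mul, cf]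
    exact ((r1.trans r2).trans (ih _ _ hv)).mono (by rw [List.length_cons]; omega)

theorem rch_readNum (hA : At L o (readNum o)) (s0 : List Bool) {v : ℕ} (hv : v < 2 ^ w)
    (t Y : ℕ) : Rch L w ρ (9 * v.bits.length + 3)
      (cf o k H ⟨s0, v.bits.reverse, [], []⟩ t X Y M D)
      (cf (o + 10) k H ⟨s0, [], [], []⟩ 0 X v M D) := by
  have r1 : Rch L w ρ 1 (cf o k H ⟨s0, v.bits.reverse, [], []⟩ t X Y M D)
      (cf (o + 1) k H ⟨s0, v.bits.reverse, [], []⟩ t X 0 M D) :=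
    (r_const hA.1 (Nat.two_pow_pos w)).congr (by simp only [wr_put11, cf])
  have r2 := rch_readLoop (ρ := ρ) (k := k) (H := H) (X := X) (D := D) (M := M) hA s0
    v.bits.reverse t 0 (by rwa [msb_bits])
  rw [msb_bits, List.length_reverse] at r2
  exact (r1.trans r2).mono (by omega)

theorem rch_pushNum (hw : 1 < w) (hA : At L o (pushNum o))
    (s0 : List Bool) (v : ℕ) : ∀ (a : List Bool) (t : ℕ),
      H + 4 * (a.length + v.bits.length + 1) ≤ 2 ^ w → ∃ t', Rch L w ρ (7 * v.bits.length + 1)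
      (cf o k H ⟨s0, a, [], []⟩ t X v M D)
      (cf (o + 7) k H ⟨s0, v.bits.reverse ++ a, [], []⟩ t' X 0 M D) := by
  obtain ⟨a1, a2, a3, hA⟩ := hA
  rw [at_append, length_pushT] at hA
  obtain ⟨a4, a5, a6, -⟩ := hA
  induction v using Nat.binaryRec' with
  | zero => exact fun a t _ => ⟨t, (r_jz a1).congr (by simp [cf])⟩
  | bit b u h ih =>
    intro a t hb
    have hne : Nat.bit b u ≠ 0 := Nat.bit_ne_zero_iff.2 h
    rw [Nat.bits_append_bit _ _ h] at hb ⊢
    rw [List.length_cons] at hb ⊢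
    have hb1 : b.toNat ≤ 1 := Bool.toNat_le b
    have e1 : Nat.bit b u &&& 1 = b.toNat := by
      rw [Nat.and_one_is_mod, Nat.bit_val]; omega
    have e2 : Nat.bit b u >>> 1 = u := by
      rw [Nat.shiftRight_one, Nat.bit_val]; omega
    have r1 : Rch L w ρ 1 (cf o k H ⟨s0, a, [], []⟩ t X (Nat.bit b u) M D)
        (cf (o + 1) k H ⟨s0, a, [], []⟩ t X (Nat.bit b u) M D) :=
      (r_jz a1).congr (by simp only [put11, hne, if_false, cf])
    have r2 : Rch L w ρ (1 + 1) (cf (o + 1) k H ⟨s0, a, [], []⟩ t X (Nat.bit b u) M D)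
        (cf (o + 1 + 1 + 1) k H ⟨s0, a, [], []⟩ (b.toNat + 1) X (Nat.bit b u) M D) := by
      refine ((r_and a2).trans (r_add a3 ?_)).congr ?_
      · simp only [put7, put2, wr_put7, put11, e1]; omega
      · simp only [put7, put2, wr_put7, put11, e1, cf]
    have r3 := r_pushT (w := w) (H := H) (ρ := ρ) (k := k) (X := X) (Y := Nat.bit b u) (D := D)
      (M := M)
      (s := ⟨s0, a, [], []⟩) (x := b) a4 (by simp only [St.get_a]; omega)
    have r4 : Rch L w ρ (1 + 1)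
        (cf (o + 1 + 1 + 1 + 2) k H ⟨s0, b :: a, [], []⟩ (b.toNat + 1) X (Nat.bit b u) M D)
        (cf o k H ⟨s0, b :: a, [], []⟩ (b.toNat + 1) X u M D) := by
      refine ((r_shr a5 (by simpa using hw)).trans (r_jump a6)).congr ?_
      simp only [put2, put11, e2, wr_put11, cf]
    obtain ⟨t', r5⟩ := ih (b :: a) (b.toNat + 1) (by rw [List.length_cons]; omega)
    refine ⟨t', (((((r1.trans r2).trans r3).trans r4).trans r5).congr ?_).mono (by omega)⟩
    rw [List.reverse_cons, List.append_assoc]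
    rfl

theorem rch_qcall {p : Prog} {s0 : List Bool} {v T : ℕ}
    {tl : List (Instr 12)} (h : Exec p ⟨s0, [], [], []⟩ ⟨s0, v.bits.reverse, [], []⟩ T)
    (hv : v < 2 ^ w) (hA : At L o (qcall p o tl)) (hb : H + 4 * (s0.length + T + 1) ≤ 2 ^ w)
    (k t X Y : ℕ) (M : ℕ → ℕ) (D : ℕ) :
    ∃ o', At L o' tl ∧ Rch L w ρ (15 * T + 3) (cf o k H ⟨s0, [], [], []⟩ t X Y M D)
      (cf o' k H ⟨s0, [], [], []⟩ 0 X v M D) := by
  rw [qcall, at_append, at_append, length_rcode, length_readNum] at hA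
  obtain ⟨t', r⟩ := rch_of_exec (ρ := ρ) (M := M) (D := D) (k := k) (X := X) (Y := Y)
    h o t hA.1 (by simpa [St.tot] using hb)
  have h1 := h.tot_le
  simp only [St.tot, List.length_nil, List.length_reverse] at h1
  exact ⟨_, hA.2.2, (r.trans (rch_readNum hA.2.1 s0 hv t' Y)).mono (by omega)⟩

/-- The code of the fast regime: initialisation at `f0`, halting test at `o1`, read at `o2`,
transition at `o4`, output at `o5`. -/
structure Layout (L : List (Instr 12)) (p0 p1 p2 p4 p5 : Prog) (f0 o1 o2 o4 o5 : ℕ) : Prop where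
  b0 : At L f0 ([.const 8 4, .add 9 0 2, .copy 3 9, .add 4 3 2, .add 5 4 2, .add 6 5 2] ++
    (rcode p0 (f0 + 6) ++ [.jump o1]))
  b1 : At L o1 (qcall p1 o1 [.jumpIfZero 11 o2, .jump o5])
  b2 : At L o2 (qcall p2 o2 [.load 11 11, .jump o4])
  b4 : At L o4 (pushNum o4 ++ ([.rand 7, .and 7 7 2, .add 7 7 2] ++ (pushT .a ++
    (rcode p4 (o4 + 7 + 3 + 2) ++ [.jump o1]))))
  b5 : At L o5 (qcall p5 o5 [.store 11 1, .copy 0 2, .halt])

/-- The code of the fast regime can be placed behind any code of known length. -/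
theorem exists_layout (p0 p1 p2 p4 p5 : Prog) (pre : List (Instr 12)) :
    ∃ L o1 o2 o4 o5, At L 0 pre ∧ Layout L p0 p1 p2 p4 p5 pre.length o1 o2 o4 o5 := by
  let f0 := pre.length
  let o1 := f0 + (6 + (len p0 + 1))
  let o2 := o1 + (len p1 + 10 + 2)
  let o4 := o2 + (len p2 + 10 + 2)
  let o5 := o4 + (7 + (3 + (2 + (len p4 + 1))))
  let c0 : List (Instr 12) := [.const 8 4, .add 9 0 2, .copy 3 9, .add 4 3 2, .add 5 4 2,
    .add 6 5 2] ++ (rcode p0 (f0 + 6) ++ [.jump o1])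
  let c4 : List (Instr 12) := pushNum o4 ++ ([.rand 7, .and 7 7 2, .add 7 7 2] ++ (pushT .a ++
    (rcode p4 (o4 + 7 + 3 + 2) ++ [.jump o1])))
  have l0 : c0.length = 6 + (len p0 + 1) := by
    simp only [c0, List.length_append, length_rcode]; rfl
  have l4 : c4.length = 7 + (3 + (2 + (len p4 + 1))) := by
    simp only [c4, List.length_append, length_rcode]; rfl
  have h := at_self (pre ++ (c0 ++
    (qcall p1 o1 [.jumpIfZero 11 o2, .jump o5] ++
    (qcall p2 o2 [.load 11 11, .jump o4] ++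
    (c4 ++ qcall p5 o5 [.store 11 1, .copy 0 2, .halt])))))
  obtain ⟨hp, h⟩ := at_append.1 h
  obtain ⟨h0, h⟩ := at_append.1 h
  obtain ⟨h1, h⟩ := at_append.1 h
  obtain ⟨h2, h⟩ := at_append.1 h
  obtain ⟨h4, h5⟩ := at_append.1 h
  simp only [length_qcall, l0, l4, Nat.zero_add] at h0 h1 h2 h4 h5
  exact ⟨_, o1, o2, o4, o5, hp, h0, h1, h2, h4, h5⟩

section main
variable {p0 p1 p2 p4 p5 : Prog} {f0 o1 o2 o4 o5 : ℕ}

theorem Layout.start (h : Layout L p0 p1 p2 p4 p5 f0 o1 o2 o4 o5) {s : List Bool} {T : ℕ}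
    (e0 : Exec p0 ⟨[], [], [], []⟩ ⟨s, [], [], []⟩ T) (hb : k + 1 + 4 * (T + 1) ≤ 2 ^ w)
    (hM : ∀ i, k + 1 ≤ i → M i = 0) (m a b c t S U Y : ℕ) :
    ∃ t', Rch L w ρ (6 * T + 7) ⟨f0, false, vec k m a b c t S U X Y, M, D⟩
      (cf o1 k (k + 1) ⟨s, [], [], []⟩ t' X Y M D) := by
  have hb0 := h.b0
  rw [at_append, at_append, length_rcode] at hb0
  obtain ⟨⟨a0, a1, a2, a3, a4, a5, -⟩, a6, a7, -⟩ := hb0
  have r1 : Rch L w ρ (1 + 1 + 1 + 1 + 1 + 1) ⟨f0, false, vec k m a b c t S U X Y, M, D⟩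
      (cf (f0 + 6) k (k + 1) ⟨[], [], [], []⟩ t X Y M D) := by
    refine ((((((r_const a0 ?_).trans (r_add a1 ?_)).trans (r_copy a2)).trans
      (r_add a3 ?_)).trans (r_add a4 ?_)).trans (r_add a5 ?_)).congr ?_
    · omega
    · simp; omega
    · simp; omega
    · simp; omega
    · simp; omega
    · unfold cf
      congr 1
      · simp [put, ptr, idx]
      · funext i
        rw [mem]
        split_ifs with hi
        · rfl
        · have : ∀ r, St.get ⟨[], [], [], []⟩ r = [] := fun r => by cases r <;> rfl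
          rw [this, hM i (by omega)]
          rfl
  obtain ⟨t', r4⟩ := rch_of_exec (L := L) (w := w) (ρ := ρ) (M := M) (D := D) (H := k + 1)
    (k := k) (X := X) (Y := Y) e0 (f0 + 6) t a6 (by simpa [St.tot] using hb)
  exact ⟨t', ((r1.trans r4).trans (r_jump' a7)).mono (by omega)⟩

theorem Layout.stop (h : Layout L p0 p1 p2 p4 p5 f0 o1 o2 o4 o5) {s : List Bool} {T v : ℕ}
    (e1 : Exec p1 ⟨s, [], [], []⟩ ⟨s, (1 : ℕ).bits.reverse, [], []⟩ T)
    (e5 : Exec p5 ⟨s, [], [], []⟩ ⟨s, v.bits.reverse, [], []⟩ T) (hv : v < 2 ^ w)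
    (hb : H + 4 * (s.length + T + 1) ≤ 2 ^ w) (k t X Y : ℕ) (M : ℕ → ℕ) (D : ℕ) :
    ∃ c : Cfg 12, c.halted = true ∧ c.output = [v] ∧
      Rch L w ρ (30 * T + 11) (cf o1 k H ⟨s, [], [], []⟩ t X Y M D) c := by
  obtain ⟨q1, ⟨a1, a2, -⟩, r1⟩ := rch_qcall (ρ := ρ) e1 (by omega) h.b1 hb k t X Y M D
  have r1' : Rch L w ρ 1 (cf q1 k H ⟨s, [], [], []⟩ 0 X 1 M D)
      (cf (q1 + 1) k H ⟨s, [], [], []⟩ 0 X 1 M D) := (r_jz a1).congr (by simp [cf])
  obtain ⟨q5, ⟨b1, b2, b3, -⟩, r5⟩ := rch_qcall (ρ := ρ) e5 hv h.b5 hb k 0 X 1 M D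
  refine ⟨_, ?_, ?_, ((((((r1.trans r1').trans (r_jump' a2)).trans r5).trans (r_store b1)).trans
    (r_copy b2)).trans (r_halt b3)).mono (by omega)⟩
  · rfl
  · simp [Cfg.output, Cfg.reg]

theorem Layout.iter (h : Layout L p0 p1 p2 p4 p5 f0 o1 o2 o4 o5) (hw : 1 < w)
    {s s' : List Bool} {T ra : ℕ}
    (e1 : Exec p1 ⟨s, [], [], []⟩ ⟨s, (0 : ℕ).bits.reverse, [], []⟩ T)
    (e2 : Exec p2 ⟨s, [], [], []⟩ ⟨s, ra.bits.reverse, [], []⟩ T)
    (e4 : Exec p4 ⟨s, (ρ D % 2 ^ w).bodd :: (M ra).bits.reverse, [], []⟩ ⟨s', [], [], []⟩ T)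
    (hra : ra < H) (hv : M ra < 2 ^ w) (hb : H + 4 * (s.length + (w + 1) + T + 1) ≤ 2 ^ w)
    (t X Y : ℕ) :
    ∃ t' X' Y', Rch L w ρ (36 * T + 7 * w + 16) (cf o1 k H ⟨s, [], [], []⟩ t X Y M D)
      (cf o1 k H ⟨s', [], [], []⟩ t' X' Y' M (D + 1)) := by
  obtain ⟨q1, ⟨a1, -⟩, r1⟩ :=
    rch_qcall (w := w) (H := H) (ρ := ρ) e1 (by omega) h.b1 (by omega) k t X Y M D
  have r1' : Rch L w ρ 1 (cf q1 k H ⟨s, [], [], []⟩ 0 X 0 M D)
      (cf o2 k H ⟨s, [], [], []⟩ 0 X 0 M D) := (r_jz a1).congr (by simp [cf])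
  obtain ⟨q2, ⟨b1, b2, -⟩, r2⟩ :=
    rch_qcall (w := w) (H := H) (ρ := ρ) e2 (by omega) h.b2 (by omega) k 0 X 0 M D
  have r2' : Rch L w ρ (1 + 1) (cf q2 k H ⟨s, [], [], []⟩ 0 X ra M D)
      (cf o4 k H ⟨s, [], [], []⟩ 0 X (M ra) M D) :=
    ((r_load b1).trans (r_jump b2)).congr (by simp only [put11, mem_low hra, wr_put11, cf])
  generalize M ra = v at *
  have hb4 := h.b4
  rw [at_append, at_append, at_append, at_append, length_pushNum, length_rcode] at hb4
  obtain ⟨d0, ⟨d1, d2, d3, -⟩, d4, d5, d6, -⟩ := hb4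
  have hl : v.bits.length ≤ w := by rw [Nat.size_eq_bits_len]; exact Nat.size_le.2 hv
  obtain ⟨t4, r4⟩ := rch_pushNum (ρ := ρ) (k := k) (X := X) (D := D) (M := M) (H := H) hw d0
    s v [] 0 (by simp only [List.length_nil]; omega)
  rw [List.append_nil] at r4
  have hbit : ρ D % 2 ^ w &&& 1 = (ρ D % 2 ^ w).bodd.toNat := by
    rw [Nat.and_one_is_mod, Nat.mod_two_of_bodd]
  have hb1 : (ρ D % 2 ^ w).bodd.toNat ≤ 1 := Bool.toNat_le _
  have r4a : Rch L w ρ (1 + 1 + 1)
      (cf (o4 + 7) k H ⟨s, v.bits.reverse, [], []⟩ t4 X 0 M D)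
      (cf (o4 + 7 + 3) k H ⟨s, v.bits.reverse, [], []⟩ ((ρ D % 2 ^ w).bodd.toNat + 1) X 0 M
        (D + 1)) := by
    refine (((r_rand d1).trans (r_and d2)).trans (r_add d3 ?_)).congr ?_
    · simp only [wr_put7, put7, put2, hbit]; omega
    · simp only [wr_put7, put7, put2, hbit, cf]
  have r4b := r_pushT (w := w) (ρ := ρ) (k := k) (X := X) (Y := 0) (D := D + 1) (M := M) (H := H)
    (s := ⟨s, v.bits.reverse, [], []⟩) (x := (ρ D % 2 ^ w).bodd) d4
    (by simp only [St.get_a, List.length_reverse]; omega)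
  obtain ⟨t5, r4c⟩ := rch_of_exec (w := w) (ρ := ρ) (M := M) (D := D + 1) (k := k) (X := X)
    (H := H) (Y := 0) e4 _ ((ρ D % 2 ^ w).bodd.toNat + 1) d5
    (by simp only [St.tot, List.length_cons, List.length_reverse, List.length_nil]; omega)
  exact ⟨_, _, _, ((((((((r1.trans r1').trans r2).trans r2').trans
    r4).trans r4a).trans r4b).trans r4c).trans (r_jump' d6)).mono (by omega)⟩

end main

end Crest.Agent.R288.RamAux
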