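import Crest.Agent.R288.RamAux3

/-!
# R288: the test of the regime on the word RAM
-/

set_option autoImplicit false

namespace Crest.Agent.R288.RamAux

open Crest.WordRAM
open Crest.Agent.R309.RamAux (vec At at_cons at_append at_self stp
  Rch r_const r_copy r_add r_sub r_and r_shr r_load r_store r_jump r_jz r_jeq r_rand r_halt
  vec0 vec1 vec2 vec3 vec4 vec5 vec6 vec7 vec8 vec9 vec10 vec11
  wr0 wr3 wr4 wr5 wr6 wr7 wr8 wr9 wr10 wr11)

/-- Replace register `7` by its binary logarithm. -/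
def logI (o : ℕ) : List (Instr 12) :=
  [.copy 9 1, .shr 7 7 2, .jumpIfZero 7 (o + 5), .add 9 9 2, .jump (o + 1), .copy 7 9]

/-- Subtract `c` from register `7`, jumping to `z` if it is smaller. -/
def decs : ℕ → ℕ → List (Instr 12)
  | 0, _ => []
  | c + 1, z => .jumpIfZero 7 z :: .sub 7 7 2 :: decs c z

theorem length_logI (o : ℕ) : (logI o).length = 6 := rfl

theorem length_decs (c z : ℕ) : (decs c z).length = 2 * c := by
  induction c with
  | zero => rfl
  | succ c ih => simp only [decs, List.length_cons, ih]; omega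

/-- The test of the regime. -/
def preCode (c0 sl fa : ℕ) : List (Instr 12) :=
  [.const 2 1, .load 3 1, .load 4 2, .add 7 3 4, .sub 8 0 7, .sub 8 8 2, .sub 8 8 2] ++
    (logI 7 ++ (logI 13 ++ (logI 19 ++ (decs c0 sl ++ [.sub 8 8 7, .jumpIfZero 8 fa, .jump sl]))))

theorem length_preCode (c0 sl fa : ℕ) : (preCode c0 sl fa).length = 28 + 2 * c0 := by
  simp only [preCode, List.length_append, length_logI, length_decs, List.length_cons,
    List.length_nil]
  omega

variable {L : List (Instr 12)} {w : ℕ} {ρ : ℕ → ℕ} {o k m a b c S X Y D : ℕ} {M : ℕ → ℕ}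

theorem rch_logLoop (hw : 1 < w) (hA : At L o (logI o)) (n : ℕ) : ∀ t U, Nat.log 2 t = n →
    U + n < 2 ^ w → Rch L w ρ (4 * n + 2) ⟨o + 1, false, vec k m a b c t S U X Y, M, D⟩
      ⟨o + 5, false, vec k m a b c 0 S (U + n) X Y, M, D⟩ := by
  induction n with
  | zero =>
    intro t U ht _
    have h2 : t < 2 := by
      by_contra h
      have := Nat.log_pos (b := 2) (by omega) (not_lt.1 h)
      omega
    have h3 : t >>> 1 = 0 := by rw [Nat.shiftRight_one]; omega
    refine ((r_shr (at_get hA 1 rfl) (by simpa using hw)).trans (r_jz (at_get hA 2 rfl))).congr ?_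
    simp only [vec2, vec7, wr7, h3, if_true, Nat.add_zero]
  | succ n ih =>
    intro t U ht hU
    have h2 : 2 ≤ t := by
      by_contra h
      rw [Nat.log_of_lt (not_le.1 h)] at ht
      omega
    have h3 : t >>> 1 = t / 2 := Nat.shiftRight_one t
    have h4 : Nat.log 2 (t / 2) = n := by rw [Nat.log_div_base]; omega
    have h5 : t / 2 ≠ 0 := by omega
    have r1 : Rch L w ρ (1 + 1) ⟨o + 1, false, vec k m a b c t S U X Y, M, D⟩
        ⟨o + 3, false, vec k m a b c (t / 2) S U X Y, M, D⟩ := by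
      refine ((r_shr (at_get hA 1 rfl) (by simpa using hw)).trans
        (r_jz (at_get hA 2 rfl))).congr ?_
      simp only [vec2, vec7, wr7, h3, h5, if_false]
    have r2 : Rch L w ρ (1 + 1) ⟨o + 3, false, vec k m a b c (t / 2) S U X Y, M, D⟩
        ⟨o + 1, false, vec k m a b c (t / 2) S (U + 1) X Y, M, D⟩ := by
      refine ((r_add (at_get hA 3 rfl) ?_).trans (r_jump (at_get hA 4 rfl))).congr ?_
      · simp only [vec2, vec9]; omega
      · simp only [vec2, vec9, wr9]
    refine (((r1.trans r2).trans (ih (t / 2) (U + 1) h4 (by omega))).congr ?_).mono (by omega)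
    rw [show U + 1 + n = U + (n + 1) by omega]

theorem log_lt_of_lt {t : ℕ} (hw : 1 < w) (ht : t < 2 ^ w) : Nat.log 2 t < w := by
  rcases Nat.eq_zero_or_pos t with rfl | h
  · rw [Nat.log_zero_right]; omega
  · exact Nat.log_lt_of_lt_pow h.ne' ht

theorem rch_logI (hw : 1 < w) (hA : At L o (logI o)) {t : ℕ} (ht : t < 2 ^ w) (U : ℕ) :
    Rch L w ρ (4 * w + 4) ⟨o, false, vec k m a b c t S U X Y, M, D⟩
      ⟨o + 6, false, vec k m a b c (Nat.log 2 t) S (Nat.log 2 t) X Y, M, D⟩ := by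
  have h1 := log_lt_of_lt hw ht
  have h2 : Nat.log 2 t ≤ t := Nat.log_le_self 2 t
  have r0 : Rch L w ρ 1 ⟨o, false, vec k m a b c t S U X Y, M, D⟩
      ⟨o + 1, false, vec k m a b c t S 0 X Y, M, D⟩ :=
    (r_copy (at_get hA 0 rfl)).congr (by simp only [vec1, wr9])
  refine (((r0.trans (rch_logLoop hw hA _ t 0 rfl (by omega))).trans
    (r_copy (at_get hA 5 rfl))).congr ?_).mono (by omega)
  simp only [vec9, wr7, Nat.zero_add]

theorem rch_decs {z U : ℕ} (n : ℕ) : ∀ o t, At L o (decs n z) →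
    (n ≤ t → Rch L w ρ (2 * n) ⟨o, false, vec k m a b c t S U X Y, M, D⟩
      ⟨o + 2 * n, false, vec k m a b c (t - n) S U X Y, M, D⟩) ∧
    (t < n → Rch L w ρ (2 * n) ⟨o, false, vec k m a b c t S U X Y, M, D⟩
      ⟨z, false, vec k m a b c 0 S U X Y, M, D⟩) := by
  induction n with
  | zero => exact fun o t _ => ⟨fun _ => R309.RamAux.Rch.refl _, fun h => absurd h (by omega)⟩
  | succ n ih =>
    intro o t ⟨a0, a1, hA⟩
    cases t with
    | zero =>
      refine ⟨fun h => absurd h (by omega), fun _ => ((r_jz a0).congr ?_).mono (by omega)⟩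
      simp only [vec7, if_true]
    | succ t =>
      have r0 : Rch L w ρ 1 ⟨o, false, vec k m a b c (t + 1) S U X Y, M, D⟩
          ⟨o + 1, false, vec k m a b c (t + 1) S U X Y, M, D⟩ :=
        (r_jz a0).congr (by simp only [vec7, Nat.succ_ne_zero, if_false])
      have r1 : Rch L w ρ (1 + 1) ⟨o, false, vec k m a b c (t + 1) S U X Y, M, D⟩
          ⟨o + 1 + 1, false, vec k m a b c t S U X Y, M, D⟩ :=
        (r0.trans (r_sub a1)).congr (by simp only [vec2, vec7, wr7, Nat.add_sub_cancel])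
      obtain ⟨i1, i2⟩ := ih (o + 1 + 1) t hA
      refine ⟨fun h => ((r1.trans (i1 (by omega))).congr ?_).mono (by omega),
        fun h => (r1.trans (i2 (by omega))).mono (by omega)⟩
      rw [show o + 1 + 1 + 2 * n = o + 2 * (n + 1) by omega, Nat.add_sub_add_right]

theorem rch_pre {c0 sl fa : ℕ} (hw : 1 < w) (hA : At L 0 (preCode c0 sl fa)) (inp : List ℕ)
    {p q E : ℕ} (hL : inp.length < 2 ^ w) (hp : inp[0]?.getD 0 % 2 ^ w = p)
    (hq : inp[1]?.getD 0 % 2 ^ w = q) (hE : inp.length = 2 + p + q + E) :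
    ∃ t S U, ∀ ρ, Rch L w ρ (12 * w + 2 * c0 + 22) (init ⟨12, L⟩ w inp)
      ⟨if E + c0 ≤ Nat.log 2 (Nat.log 2 (Nat.log 2 (p + q))) then fa else sl, false,
        vec inp.length p q 0 0 t S U 0 0, fun i => inp[i]?.getD 0 % 2 ^ w, 0⟩ := by
  rw [preCode, at_append, at_append, at_append, at_append, at_append, length_logI, length_logI,
    length_logI, length_decs] at hA
  obtain ⟨⟨a0, a1, a2, a3, a4, a5, a6, -⟩, l1, l2, l3, hd, b0, b1, b2, -⟩ := hA
  generalize hM : (fun i : ℕ => inp[i]?.getD 0 % 2 ^ w) = M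
  have hM0 : M 0 = p := by rw [← hM]; exact hp
  have hM1 : M 1 = q := by rw [← hM]; exact hq
  have h1 : 1 < 2 ^ w := Nat.one_lt_two_pow (by omega)
  have r0 : ∀ ρ, Rch L w ρ 1 (init ⟨12, L⟩ w inp)
      ⟨1, false, vec inp.length 0 0 0 0 0 0 0 0 0, M, 0⟩ := by
    intro ρ
    refine (r_const a0 h1).congr ?_
    rw [← hM]
    congr 1
    funext j
    fin_cases j
    · exact Nat.mod_eq_of_lt hL
    all_goals rfl
  have r1 : ∀ ρ, Rch L w ρ (1 + 1 + 1 + 1 + 1 + 1)
      ⟨1, false, vec inp.length 0 0 0 0 0 0 0 0 0, M, 0⟩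
      ⟨7, false, vec inp.length p q 0 0 (p + q) E 0 0 0, M, 0⟩ := by
    intro ρ
    refine ((((((r_load a1).trans (r_load a2)).trans (r_add a3 ?_)).trans (r_sub a4)).trans
      (r_sub a5)).trans (r_sub a6)).congr ?_
    · simp only [vec1, vec2, vec3, vec4, wr3, wr4, hM0, hM1]; omega
    · simp only [vec0, vec1, vec2, vec3, vec4, vec7, vec8, wr3, wr4, wr7, wr8, hM0, hM1]
      congr 2
      omega
  have g1 := Nat.log_le_self 2 (p + q)
  have g2 := Nat.log_le_self 2 (Nat.log 2 (p + q))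
  have r2 := fun ρ => (((((r0 ρ).trans (r1 ρ)).trans (rch_logI hw l1 (by omega) 0)).trans
    (rch_logI hw l2 (by omega) _)).trans (rch_logI hw l3 (by omega) _))
  generalize Nat.log 2 (Nat.log 2 (Nat.log 2 (p + q))) = j at r2 ⊢
  by_cases hj : c0 ≤ j
  · have r3 := fun ρ => ((r2 ρ).trans ((rch_decs c0 _ j hd).1 hj)).trans
      ((r_sub b0).trans (r_jz b1))
    simp only [vec7, vec8, wr8] at r3
    by_cases hf : E + c0 ≤ j
    · rw [if_pos (by omega)] at r3
      rw [if_pos hf]
      exact ⟨_, _, _, fun ρ => (r3 ρ).mono (by omega)⟩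
    · rw [if_neg (by omega)] at r3
      rw [if_neg hf]
      exact ⟨_, _, _, fun ρ => ((r3 ρ).trans (r_jump b2)).mono (by omega)⟩
  · rw [if_neg (by omega)]
    exact ⟨_, _, _, fun ρ => ((r2 ρ).trans ((rch_decs c0 _ j hd).2 (by omega))).mono (by omega)⟩

end Crest.Agent.R288.RamAux
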