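import Crest.Agent.R288.Sch
import Crest.Agent.R309.RamProb
import Crest.Agent.R309.Ram
import Crest.Agent.R288.RamAux2
import Crest.Agent.R288.RamAux4
import Crest.Prelude.Def_GraphRAM

/-!
# R288: the word-RAM program (regime test, exact dynamic programme, macro machine)
-/

set_option autoImplicit false

namespace Crest.Agent.R288

open Crest.Agent.Lib.PT Crest.WordRAM Crest.GraphRAM

theorem RM.go_succ (m : RM) (mem : ℕ → ℕ) (f : ℕ → Bool) (n : ℕ) :
    m.go mem ((List.range (n + 1)).map f) = m.step mem (m.go mem ((List.range n).map f)) (f n) := by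
  rw [List.range_succ, List.map_append, RM.go, List.foldl_append]
  rfl

open RamAux R309.RamAux in

/-- One program.  It first computes `N = mem 0 + mem 1`, `E = L - 2 - N` (register `0` holds `L`),
`log₂ log₂ log₂ N` by halving loops, subtracts one `c0` times (unrolled code: a constant `c0` might not
fit in a word; careful with truncation: test `E + c0 ≤ j` as "`j ≥ c0`, checked one unit at a time, and
`E ≤ j - c0`").
* Slow regime: the textbook dynamic programme for `editDist` with one row of `|y| + 1` cells stored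
  behind the input (process `x` from its end, cell `j` holds the distance to the suffix `y.drop j`).
* Fast regime: simulate the macro machine as in `Crest.Agent.R309.Mac.ram` (files `R309/Ram*.lean`, a
  template), but keep the four bit stacks of `Lib.PT.Machine` and a copy of the state in memory, one
  bit per cell, interleaved behind the input (stack `r`, height `i` at address `L + 5 * i + r`), with the
  heights in registers; a word is moved to a stack and back by loops of at most `w` rounds; a read
  at an address `≥ L` yields `0`.  One random word is drawn per macro step, none before. -/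
theorem ram_main (m : RM) (hnx : PT fun p : V × ℕ × Bool => m.nx p.1 p.2.1 p.2.2) (hrd : PT m.rd)
    (hfin : PT m.fin) :
    ∃ c d : ℕ, ∀ c0 : ℕ, ∃ Pg : Program, ∀ (x y e : List ℕ) (w : ℕ),
      (∀ a ∈ stringsInput x y ++ e, a < 2 ^ w) →
      ((stringsInput x y ++ e).length + 2) ^ 3 ≤ 2 ^ w → 6 ≤ (stringsInput x y ++ e).length →
      (¬ Fast c0 (x.length + y.length) e.length →
        ∃ T, ∀ ρ, HaltsWithin Pg w ρ (stringsInput x y ++ e) T [editDist x y]) ∧
      (Fast c0 (x.length + y.length) e.length → ∀ B : ℕ,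
        (∀ l, sz (m.go (fun a => (stringsInput x y ++ e).getD a 0) l) ≤ B) →
        (∀ l, m.rd (m.go (fun a => (stringsInput x y ++ e).getD a 0) l) ≤
          (stringsInput x y ++ e).length) →
        (stringsInput x y ++ e).length + (c + 2 * c0) * (B + w + 1) ^ d ≤ 2 ^ w →
        ∀ (ρ : ℕ → ℕ) (n v : ℕ), v < 2 ^ w →
          m.fin (m.go (fun a => (stringsInput x y ++ e).getD a 0)
            ((List.range n).map fun i => (ρ i % 2 ^ w).bodd)) = some v →
          HaltsWithin Pg w ρ (stringsInput x y ++ e) ((c + 2 * c0) * (B + w + 1) ^ d * (n + 1)) [v]) := by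
  have g1 : PT fun s : V => (m.fin s).elim 0 (fun _ => 1) := by fun_prop
  have g4 : PT fun x : List Bool × V =>
      toBits (m.nx x.2 (ofBits x.1.tail.reverse) (x.1.headD false)) :=
    PT.toBits (hnx.comp (f := fun x : List Bool × V =>
      (x.2, ofBits x.1.tail.reverse, x.1.headD false)) (by fun_prop))
  have g5 : PT fun s : V => (m.fin s).elim 0 (fun v => v) := by fun_prop
  obtain ⟨p1, c1, k1, e1⟩ := exists_qcall g1
  obtain ⟨p2, c2, k2, e2⟩ := exists_qcall hrd
  obtain ⟨p4, c4, k4, e4⟩ := exists_call g4
  obtain ⟨p5, c5, k5, e5⟩ := exists_qcall g5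
  let Z : ℕ → ℕ := fun B => 5 * B + 6
  let Tm : ℕ → ℕ := fun B => c1 * Z B ^ k1 + c2 * Z B ^ k2 + c4 * Z B ^ k4 + c5 * Z B ^ k5
  obtain ⟨c, d, hcd⟩ := exists_poly (f := fun B => 36 * Tm B + 18 * B + 46) (by
    simp only [Tm, Z]
    fun_prop)
  refine ⟨c, d, fun c0 => ?_⟩
  obtain ⟨L, o1, o2, o4, o5, hpre, hL⟩ := RamAux.exists_layout (pushL (toBits m.s0)) p1 p2 p4 p5
    (preCode c0 (28 + 2 * c0) (28 + 2 * c0 + 42) ++ dpCode (28 + 2 * c0))
  rw [at_append, length_preCode, Nat.zero_add] at hpre
  rw [List.length_append, length_preCode, length_dpCode] at hL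
  obtain ⟨hpre, hdp⟩ := hpre
  refine ⟨⟨12, L⟩, fun x y e w hinp hlen h6 => ?_⟩
  have hlen' : (stringsInput x y ++ e).length = 2 + x.length + y.length + e.length := by
    simp only [stringsInput, List.length_append, List.length_cons]; omega
  have hx : ∀ l (h : l < x.length), (stringsInput x y ++ e)[2 + l]? = some x[l] := by
    intro l h
    rw [show 2 + l = l + 1 + 1 by omega]
    simp only [stringsInput, List.cons_append, List.getElem?_cons_succ, List.append_assoc]
    rw [List.getElem?_append_left h, List.getElem?_eq_getElem h]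
  have hy : ∀ l (h : l < y.length),
      (stringsInput x y ++ e)[x.length + 1 + 1 + l]? = some y[l] := by
    intro l h
    rw [show x.length + 1 + 1 + l = x.length + l + 1 + 1 by omega]
    simp only [stringsInput, List.cons_append, List.getElem?_cons_succ, List.append_assoc]
    rw [List.getElem?_append_right (by omega), Nat.add_sub_cancel_left,
      List.getElem?_append_left h, List.getElem?_eq_getElem h]
  have h0 : (stringsInput x y ++ e)[0]? = some x.length := rfl
  have h1 : (stringsInput x y ++ e)[1]? = some y.length := rfl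
  generalize stringsInput x y ++ e = inp at hinp hlen h6 hlen' hx hy h0 h1 ⊢
  have hcube : 2 * inp.length < (inp.length + 2) ^ 3 := by
    have : (inp.length + 2) ^ 3 = inp.length ^ 3 + 6 * inp.length ^ 2 + 12 * inp.length + 8 := by
      ring
    omega
  have hw1 : 1 < w := by
    by_contra h
    have : 2 ^ w ≤ 2 ^ 1 := Nat.pow_le_pow_right (by omega) (by omega)
    omega
  have hM : (fun i : ℕ => inp[i]?.getD 0 % 2 ^ w) = fun a => inp.getD a 0 := by
    funext i
    rw [List.getD_eq_getElem?_getD]
    cases h : inp[i]? with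
    | none => simp
    | some a => exact Nat.mod_eq_of_lt (hinp a (List.mem_of_getElem? h))
  have hMlt : ∀ a, inp.getD a 0 < 2 ^ w := fun a => by
    rw [← congrFun hM a]; exact Nat.mod_lt _ (Nat.two_pow_pos w)
  obtain ⟨t0, S0, U0, r0⟩ := rch_pre (E := e.length) (p := x.length) (q := y.length) hw1 hpre inp
    (by omega) (by rw [h0]; exact Nat.mod_eq_of_lt (by simp only [Option.getD_some]; omega))
    (by rw [h1]; exact Nat.mod_eq_of_lt (by simp only [Option.getD_some]; omega)) hlen'
  rw [hM] at r0
  refine ⟨fun hF => ?_, fun hF B hsz hra hw ρ n v hv hfv => ?_⟩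
  · unfold Fast at hF
    rw [if_neg hF] at r0
    obtain ⟨cc, a1, a2, T, r1⟩ := dp_main (w := w) (k := inp.length) (D := 0)
      (M := fun a => inp.getD a 0) hdp x y (by omega) (by omega)
      (fun l h => by simp only [List.getD_eq_getElem?_getD, hx l h, Option.getD_some])
      (fun l h => by simp only [List.getD_eq_getElem?_getD, hy l h, Option.getD_some])
      0 0 t0 S0 U0 0 0
    refine ⟨12 * w + 2 * c0 + 22 + T, fun ρ => ?_⟩
    have h4 : run ⟨12, L⟩ w ρ inp (12 * w + 2 * c0 + 22 + T) = cc :=
      ((r0 ρ).trans (r1 ρ)).iterate_eq a1 le_rfl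
    exact ⟨by rw [h4]; exact a1, by rw [h4]; exact a2⟩
  unfold Fast at hF
  rw [if_pos hF] at r0
  have hN : 36 * Tm (B + w) + 18 * (B + w) + (2 * c0 + 46) ≤ (c + 2 * c0) * (B + w + 1) ^ d := by
    have h1 := hcd (B + w)
    have h2 : 2 * c0 * 1 ≤ 2 * c0 * (B + w + 1) ^ d :=
      Nat.mul_le_mul_left _ (Nat.one_le_pow _ _ (by omega))
    rw [Nat.add_mul]
    omega
  have hZ : Z (B + w) = 5 * (B + w) + 6 := rfl
  have hT : Tm (B + w) = c1 * Z (B + w) ^ k1 + c2 * Z (B + w) ^ k2 + c4 * Z (B + w) ^ k4 +
    c5 * Z (B + w) ^ k5 := rfl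
  generalize (c + 2 * c0) * (B + w + 1) ^ d = N at hN hw ⊢
  have hle : ∀ (x c k : ℕ), x ≤ Z (B + w) → c * x ^ k ≤ c * Z (B + w) ^ k := fun x c k h =>
    Nat.mul_le_mul_left _ (Nat.pow_le_pow_left h _)
  generalize hMM : (fun a => inp.getD a 0) = M at hsz hra hfv r0
  have hMlt' : ∀ a, M a < 2 ^ w := fun a => by rw [← hMM]; exact hMlt a
  have key : ∀ i, ∃ j ≤ i, (j = i ∨ m.fin (m.go M ((List.range i).map
      fun i => (ρ i % 2 ^ w).bodd)) ≠ none) ∧ ∃ t X Y,
      Rch L w ρ (12 * w + 6 * B + 2 * c0 + 35 + N * j) (WordRAM.init ⟨12, L⟩ w inp)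
        (cf o1 inp.length (inp.length + 1)
          ⟨toBits (m.go M ((List.range i).map fun i => (ρ i % 2 ^ w).bodd)), [], [], []⟩
          t X Y M j) := by
    intro i
    induction i with
    | zero =>
      have h2 : sz m.s0 ≤ B := hsz []
      have e0 := run_pushL (toBits m.s0) [] []
      simp only [List.append_nil, length_toBits] at e0
      obtain ⟨t, r⟩ := hL.start (w := w) (ρ := ρ) (k := inp.length) (X := 0) (D := 0) (M := M) e0
        (by omega) (fun i hi => by
          rw [← hMM]; exact List.getD_eq_default _ _ (by omega)) x.length y.length 0 0 t0 S0 U0 0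
      exact ⟨0, le_rfl, Or.inl rfl, t, 0, 0, ((r0 ρ).trans r).mono (by omega)⟩
    | succ i ih =>
      obtain ⟨j, hj, hj', t, X, Y, r⟩ := ih
      have hs := hsz ((List.range i).map fun i => (ρ i % 2 ^ w).bodd)
      have hr := hra ((List.range i).map fun i => (ρ i % 2 ^ w).bodd)
      rw [RM.go_succ]
      generalize m.go M ((List.range i).map fun i => (ρ i % 2 ^ w).bodd) = g at hj' r hs hr ⊢
      by_cases hf : m.fin g = none
      · obtain rfl : j = i := hj'.resolve_right fun h => h hf
        have hst : m.step M g (ρ j % 2 ^ w).bodd = m.nx g (M (m.rd g)) (ρ j % 2 ^ w).bodd := by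
          unfold RM.step
          rw [if_neg (by simp [hf])]
        rw [hst]
        have hl : (M (m.rd g)).bits.length ≤ w := by
          rw [Nat.size_eq_bits_len]; exact Nat.size_le.2 (hMlt' _)
        have x1 := (e1 g).mono (hle _ _ _ (by omega))
        have x2 := (e2 g).mono (hle _ _ _ (by omega))
        have x4 := (e4 ((ρ j % 2 ^ w).bodd :: (M (m.rd g)).bits.reverse, g)).mono
          (hle _ _ _ (by
            have := sz_boolList_le ((ρ j % 2 ^ w).bodd :: (M (m.rd g)).bits.reverse)
            rw [List.length_cons, List.length_reverse] at this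
            rw [sz_mk]; omega))
        simp only [hf, Option.elim_none, List.tail_cons, List.headD_cons, List.reverse_reverse,
          ofBits_bits] at x1 x4
        obtain ⟨t', X', Y', r'⟩ := hL.iter (ρ := ρ) (T := Tm (B + w)) (D := j) (M := M)
          (k := inp.length) (H := inp.length + 1) hw1 (x1.mono (by omega)) (x2.mono (by omega))
          (x4.mono (by omega)) (by omega) (hMlt' _) (by rw [length_toBits]; omega) t X Y
        exact ⟨j + 1, le_rfl, Or.inl rfl, t', X', Y',
          (r.trans r').mono (by rw [Nat.mul_succ]; omega)⟩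
      · have hst : m.step M g (ρ i % 2 ^ w).bodd = g := by
          unfold RM.step
          rw [if_pos (Option.isSome_iff_ne_none.2 hf)]
        rw [hst]
        exact ⟨j, by omega, Or.inr hf, t, X, Y, r⟩
  obtain ⟨j, hj, -, t, X, Y, r⟩ := key n
  have hs := hsz ((List.range n).map fun i => (ρ i % 2 ^ w).bodd)
  generalize m.go M ((List.range n).map fun i => (ρ i % 2 ^ w).bodd) = g at r hs hfv
  have x1 := (e1 g).mono (hle _ _ _ (by omega))
  have x5 := (e5 g).mono (hle _ _ _ (by omega))
  simp only [hfv, Option.elim_some] at x1 x5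
  obtain ⟨cc, a1, a2, r'⟩ := hL.stop (ρ := ρ) (T := Tm (B + w)) (H := inp.length + 1)
    (x1.mono (by omega)) (x5.mono (by omega)) hv (by rw [length_toBits]; omega)
    inp.length t X Y M j
  have h3 : N * j ≤ N * n := Nat.mul_le_mul_left _ hj
  have h4 : run ⟨12, L⟩ w ρ inp (N * (n + 1)) = cc :=
    (r.trans r').iterate_eq a1 (by rw [Nat.mul_succ]; omega)
  exact ⟨by rw [h4]; exact a1, by rw [h4]; exact a2⟩

end Crest.Agent.R288
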