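import Crest.Agent.R309.RamAux2
import Crest.Prelude.Def_GraphRAM

/-!
# R288: the dynamic programme for the edit distance on the word RAM
-/

set_option autoImplicit false

namespace Crest.Agent.R288.RamAux

open Crest.WordRAM Crest.GraphRAM
open Crest.Agent.R309.RamAux (vec At at_cons at_append at_self stp
  Rch r_const r_copy r_add r_sub r_and r_shr r_load r_store r_jump r_jz r_jeq r_rand r_halt
  vec0 vec1 vec2 vec3 vec4 vec5 vec6 vec7 vec8 vec9 vec10 vec11
  wr0 wr3 wr4 wr5 wr6 wr7 wr8 wr9 wr10 wr11)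

theorem editDist_nil_right (x : List ℕ) : editDist x [] = x.length := by
  cases x <;> rfl

theorem editDist_cons_cons (a b : ℕ) (x y : List ℕ) :
    editDist (a :: x) (b :: y) = min (editDist x y + if a = b then 0 else 1)
      (min (editDist (a :: x) y + 1) (editDist x (b :: y) + 1)) := rfl

theorem editDist_le (x y : List ℕ) : editDist x y ≤ x.length + y.length := by
  cases x with
  | nil => exact Nat.le_add_left _ _
  | cons a x =>
    induction y with
    | nil => rw [editDist_nil_right]; omega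
    | cons b y ih =>
      rw [editDist_cons_cons]
      simp only [List.length_cons] at ih ⊢
      omega

theorem at_get {L u : List (Instr 12)} : ∀ {o : ℕ}, At L o u → ∀ (i : ℕ) {x : Instr 12},
    u[i]? = some x → L[o + i]? = some x := by
  induction u with
  | nil => intro o _ i x hx; simp at hx
  | cons y u ih =>
    intro o h i x hx
    cases i with
    | zero =>
      obtain rfl : y = x := by simpa using hx
      exact h.1
    | succ i =>
      have := ih h.2 i (x := x) (by simpa using hx)
      rwa [show o + 1 + i = o + (i + 1) by omega] at this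

theorem r_xor {L : List (Instr 12)} {w : ℕ} {ρ : ℕ → ℕ} {o : ℕ} {Rg : Fin 12 → ℕ} {M : ℕ → ℕ}
    {D : ℕ} {d a b : Fin 12} (h : L[o]? = some (.xor d a b)) :
    Rch L w ρ 1 ⟨o, false, Rg, M, D⟩ ⟨o + 1, false, writeReg Rg d (Rg a ^^^ Rg b), M, D⟩ :=
  R309.RamAux.Rch.one (by simp [stp, step, h])

/-- Reachability within a number of steps that does not depend on the random words. -/
def RU (L : List (Instr 12)) (w : ℕ) (c c' : Cfg 12) : Prop := ∃ n, ∀ ρ, Rch L w ρ n c c'

theorem RU.trans {L : List (Instr 12)} {w : ℕ} {c c' c'' : Cfg 12} (h : RU L w c c')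
    (h' : RU L w c' c'') : RU L w c c'' := by
  obtain ⟨n, h⟩ := h
  obtain ⟨n', h'⟩ := h'
  exact ⟨n + n', fun ρ => (h ρ).trans (h' ρ)⟩

/-- The code of the dynamic programme.  Registers: `0` the address of the row, `3` the number of
symbols of `x` still to be processed, `4` the length of `y`, `5` the address of `y`, `6` the current
symbol, `7` the column, `8` the old entry to the right, `9` the new entry to the right. -/
def dpCode (d : ℕ) : List (Instr 12) :=
  [.add 5 3 2, .add 5 5 2, .copy 7 4, .copy 9 1,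
   .add 10 0 7, .store 9 10, .jumpIfZero 7 (d + 10), .sub 7 7 2, .add 9 9 2, .jump (d + 4),
   .jumpIfZero 3 (d + 38), .add 10 3 2, .load 6 10, .sub 3 3 2, .add 10 0 4, .load 8 10,
   .add 9 8 2, .store 9 10, .copy 7 4,
   .jumpIfZero 7 (d + 10), .sub 7 7 2, .add 10 5 7, .load 10 10, .xor 10 10 6, .sub 10 2 10,
   .sub 10 2 10, .add 8 8 10, .add 10 0 7, .load 11 10, .sub 10 9 11, .sub 9 9 10, .add 9 9 2,
   .sub 10 9 8, .sub 9 9 10, .add 10 0 7, .store 9 10, .copy 8 11, .jump (d + 19),
   .load 10 0, .store 10 1, .copy 0 2, .halt]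

theorem length_dpCode (d : ℕ) : (dpCode d).length = 42 := rfl

variable {L : List (Instr 12)} {w d k D : ℕ}

theorem one_sub_xor (a b : ℕ) : 1 - (1 - (b ^^^ a)) = if a = b then 0 else 1 := by
  split_ifs with h
  · subst h; simp
  · have : b ^^^ a ≠ 0 := fun e => h (Nat.xor_eq_zero_iff.1 e).symm
    omega

theorem inner_step (hA : At L d (dpCode d)) (ρ : ℕ → ℕ) {M : ℕ → ℕ} {i q yb a j dg pv X Y : ℕ}
    (h1 : k + j < 2 ^ w) (h2 : yb + j < 2 ^ w) (h3 : dg + 1 < 2 ^ w) (h4 : pv + 1 < 2 ^ w) :
    Rch L w ρ 19 ⟨d + 19, false, vec k i q yb a (j + 1) dg pv X Y, M, D⟩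
      ⟨d + 19, false, vec k i q yb a j (M (k + j))
        (min (dg + if a = M (yb + j) then 0 else 1) (min (pv + 1) (M (k + j) + 1))) (k + j)
        (M (k + j)), Function.update M (k + j)
        (min (dg + if a = M (yb + j) then 0 else 1) (min (pv + 1) (M (k + j) + 1))), D⟩ := by
  have hb : (if a = M (yb + j) then 0 else 1) ≤ 1 := by split_ifs <;> omega
  have r0 : Rch L w ρ 1 ⟨d + 19, false, vec k i q yb a (j + 1) dg pv X Y, M, D⟩
      ⟨d + 20, false, vec k i q yb a (j + 1) dg pv X Y, M, D⟩ :=
    (r_jz (at_get hA 19 rfl)).congr (by simp)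
  have r1 : Rch L w ρ (1 + 1 + 1 + 1 + 1 + 1 + 1)
      ⟨d + 20, false, vec k i q yb a (j + 1) dg pv X Y, M, D⟩
      ⟨d + 27, false, vec k i q yb a j (dg + if a = M (yb + j) then 0 else 1) pv
        (if a = M (yb + j) then 0 else 1) Y, M, D⟩ := by
    refine (((((((r_sub (at_get hA 20 rfl)).trans (r_add (at_get hA 21 rfl) ?_)).trans
      (r_load (at_get hA 22 rfl))).trans (r_xor (at_get hA 23 rfl))).trans
      (r_sub (at_get hA 24 rfl))).trans (r_sub (at_get hA 25 rfl))).trans
      (r_add (at_get hA 26 rfl) ?_)).congr ?_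
    · simp only [vec2, vec5, vec7, wr7, Nat.add_sub_cancel]; omega
    · simp only [vec2, vec5, vec6, vec7, vec8, vec10, wr7, wr10, Nat.add_sub_cancel, one_sub_xor]
      omega
    · simp only [vec2, vec5, vec6, vec7, vec8, vec10, wr7, wr8, wr10, Nat.add_sub_cancel,
        one_sub_xor]
  generalize (if a = M (yb + j) then 0 else 1) = e at hb r1 ⊢
  have r2 : Rch L w ρ (1 + 1 + 1 + 1 + 1 + 1 + 1)
      ⟨d + 27, false, vec k i q yb a j (dg + e) pv e Y, M, D⟩
      ⟨d + 34, false, vec k i q yb a j (dg + e) (min (dg + e) (min (pv + 1) (M (k + j) + 1)))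
        (pv - (pv - M (k + j)) + 1 - (dg + e)) (M (k + j)), M, D⟩ := by
    refine (((((((r_add (at_get hA 27 rfl) ?_).trans (r_load (at_get hA 28 rfl))).trans
      (r_sub (at_get hA 29 rfl))).trans (r_sub (at_get hA 30 rfl))).trans
      (r_add (at_get hA 31 rfl) ?_)).trans (r_sub (at_get hA 32 rfl))).trans
      (r_sub (at_get hA 33 rfl))).congr ?_
    · simp only [vec0, vec7]; omega
    · simp only [vec0, vec2, vec7, vec9, vec10, vec11, wr9, wr10, wr11]; omega
    · simp only [vec0, vec2, vec7, vec8, vec9, vec10, vec11, wr9, wr10, wr11]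
      congr 2
      omega
  refine ((((r0.trans r1).trans r2).trans ((((r_add (at_get hA 34 rfl) ?_).trans
    (r_store (at_get hA 35 rfl))).trans (r_copy (at_get hA 36 rfl))).trans
    (r_jump (at_get hA 37 rfl)))).congr ?_).mono (by omega)
  · simp only [vec0, vec7]; omega
  · simp only [vec0, vec7, vec9, vec10, vec11, wr8, wr10]

theorem inner_loop (hA : At L d (dpCode d)) (x y : List ℕ) (a : ℕ) {i q yb : ℕ}
    (hk : k + y.length < 2 ^ w) (hyb : yb + y.length ≤ k)
    (hsz : x.length + y.length + 2 < 2 ^ w) : ∀ j ≤ y.length, ∀ (M : ℕ → ℕ) (X Y : ℕ),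
      (∀ l (h : l < y.length), M (yb + l) = y[l]) →
      (∀ l < j, M (k + l) = editDist x (y.drop l)) →
      ∃ M' dg pv X' Y', RU L w ⟨d + 19, false, vec k i q yb a j (editDist x (y.drop j))
          (editDist (a :: x) (y.drop j)) X Y, M, D⟩
        ⟨d + 10, false, vec k i q yb a 0 dg pv X' Y', M', D⟩ ∧
        (∀ l < j, M' (k + l) = editDist (a :: x) (y.drop l)) ∧
        ∀ l, l < k ∨ k + j ≤ l → M' l = M l := by
  intro j
  induction j with
  | zero =>
    intro _ M X Y _ _
    exact ⟨M, _, _, X, Y, ⟨1, fun ρ => (r_jz (at_get hA 19 rfl)).congr (by simp; rfl)⟩,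
      fun l hl => absurd hl (Nat.not_lt_zero l), fun _ _ => rfl⟩
  | succ j ih =>
    intro hj M X Y hy hrow
    have hd : y.drop j = y[j] :: y.drop (j + 1) := List.drop_eq_getElem_cons (by omega)
    have b1 := editDist_le x (y.drop (j + 1))
    have b2 := editDist_le (a :: x) (y.drop (j + 1))
    simp only [List.length_drop, List.length_cons] at b1 b2
    have r := fun ρ => inner_step (w := w) (k := k) (D := D) hA ρ (M := M) (i := i) (q := q)
      (yb := yb) (a := a) (j := j) (dg := editDist x (y.drop (j + 1)))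
      (pv := editDist (a :: x) (y.drop (j + 1))) (X := X) (Y := Y) (by omega) (by omega)
      (by omega) (by omega)
    have e : min (editDist x (y.drop (j + 1)) + if a = y[j] then 0 else 1)
        (min (editDist (a :: x) (y.drop (j + 1)) + 1) (editDist x (y.drop j) + 1)) =
        editDist (a :: x) (y.drop j) := by
      conv_rhs => rw [hd, editDist_cons_cons, ← hd]
    rw [hy j (by omega), hrow j (by omega), e] at r
    obtain ⟨M', dg, pv, X', Y', r', h1, h2⟩ := ih (by omega)
      (Function.update M (k + j) (editDist (a :: x) (y.drop j))) (k + j) (editDist x (y.drop j))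
      (fun l h => by rw [Function.update_of_ne (by omega)]; exact hy l h)
      (fun l h => by rw [Function.update_of_ne (by omega)]; exact hrow l (by omega))
    refine ⟨M', dg, pv, X', Y', RU.trans ⟨19, r⟩ r', fun l hl => ?_, fun l hl => ?_⟩
    · rcases Nat.lt_succ_iff_lt_or_eq.1 hl with h | rfl
      · exact h1 l h
      · rw [h2 _ (Or.inr le_rfl), Function.update_self]
    · rw [h2 l (by omega), Function.update_of_ne (by omega)]

theorem outer_loop (hA : At L d (dpCode d)) (x y : List ℕ) {yb : ℕ}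
    (hk : k + y.length < 2 ^ w) (hyb : yb + y.length ≤ k) (hx : 2 + x.length ≤ k)
    (hsz : x.length + y.length + 2 < 2 ^ w) : ∀ i ≤ x.length, ∀ (M : ℕ → ℕ) (a j dg pv X Y : ℕ),
      (∀ l (h : l < x.length), M (2 + l) = x[l]) → (∀ l (h : l < y.length), M (yb + l) = y[l]) →
      (∀ l ≤ y.length, M (k + l) = editDist (x.drop i) (y.drop l)) →
      ∃ M' a' j' dg' pv' X' Y', RU L w ⟨d + 10, false, vec k i y.length yb a j dg pv X Y, M, D⟩
        ⟨d + 38, false, vec k 0 y.length yb a' j' dg' pv' X' Y', M', D⟩ ∧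
        M' k = editDist x y := by
  intro i
  induction i with
  | zero =>
    intro _ M a j dg pv X Y _ _ hrow
    exact ⟨M, a, j, dg, pv, X, Y, ⟨1, fun ρ => (r_jz (at_get hA 10 rfl)).congr (by simp)⟩,
      by simpa using hrow 0 (Nat.zero_le _)⟩
  | succ i ih =>
    intro hi M a j dg pv X Y hxs hy hrow
    have hd : x.drop i = x[i] :: x.drop (i + 1) := List.drop_eq_getElem_cons (by omega)
    have e1 : M (i + 1 + 1) = x[i] := by rw [← hxs i (by omega)]; congr 1; omega
    have e2 : M (k + y.length) = editDist (x.drop (i + 1)) (y.drop y.length) := hrow _ le_rfl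
    have e3 : editDist (x.drop (i + 1)) (y.drop y.length) + 1 =
        editDist (x[i] :: x.drop (i + 1)) (y.drop y.length) := by
      rw [List.drop_length, editDist_nil_right, editDist_nil_right, List.length_cons]
    have e4 : editDist (x.drop (i + 1)) (y.drop y.length) ≤ x.length := by
      rw [List.drop_length, editDist_nil_right, List.length_drop]; omega
    have r0 : ∀ ρ, Rch L w ρ 1 ⟨d + 10, false, vec k (i + 1) y.length yb a j dg pv X Y, M, D⟩
        ⟨d + 11, false, vec k (i + 1) y.length yb a j dg pv X Y, M, D⟩ := fun ρ =>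
      (r_jz (at_get hA 10 rfl)).congr (by simp)
    have r1 : ∀ ρ, Rch L w ρ (1 + 1 + 1 + 1 + 1 + 1 + 1 + 1)
        ⟨d + 11, false, vec k (i + 1) y.length yb a j dg pv X Y, M, D⟩
        ⟨d + 19, false, vec k i y.length yb x[i] y.length
          (editDist (x.drop (i + 1)) (y.drop y.length))
          (editDist (x[i] :: x.drop (i + 1)) (y.drop y.length)) (k + y.length) Y,
          Function.update M (k + y.length)
            (editDist (x[i] :: x.drop (i + 1)) (y.drop y.length)), D⟩ := by
      intro ρ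
      refine ((((((((r_add (at_get hA 11 rfl) ?_).trans (r_load (at_get hA 12 rfl))).trans
        (r_sub (at_get hA 13 rfl))).trans (r_add (at_get hA 14 rfl) ?_)).trans
        (r_load (at_get hA 15 rfl))).trans (r_add (at_get hA 16 rfl) ?_)).trans
        (r_store (at_get hA 17 rfl))).trans (r_copy (at_get hA 18 rfl))).congr ?_
      · simp only [vec2, vec3]; omega
      · simp only [vec0, vec2, vec3, vec4, vec10, wr3, wr6, wr10]; omega
      · simp only [vec0, vec2, vec3, vec4, vec8, vec10, wr3, wr6, wr8, wr10, e2]; omega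
      · simp only [vec0, vec2, vec3, vec4, vec8, vec9, vec10, wr3, wr6, wr7, wr8, wr9, wr10, e1, e2,
          e3, Nat.add_sub_cancel]
    obtain ⟨M1, dg1, pv1, X1, Y1, r2, h1, h2⟩ := inner_loop (w := w) (k := k) (D := D) hA
      (x.drop (i + 1)) y x[i] (i := i) (q := y.length) hk hyb
      (by rw [List.length_drop]; omega) y.length le_rfl
      (Function.update M (k + y.length) (editDist (x[i] :: x.drop (i + 1)) (y.drop y.length)))
      (k + y.length) Y
      (fun l h => by rw [Function.update_of_ne (by omega)]; exact hy l h)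
      (fun l h => by rw [Function.update_of_ne (by omega)]; exact hrow l (by omega))
    obtain ⟨M', a', j', dg', pv', X', Y', r3, h3⟩ := ih (by omega) M1 x[i] 0 dg1 pv1 X1 Y1
      (fun l h => by
        rw [h2 _ (Or.inl (by omega)), Function.update_of_ne (by omega)]; exact hxs l h)
      (fun l h => by
        rw [h2 _ (Or.inl (by omega)), Function.update_of_ne (by omega)]; exact hy l h)
      (fun l h => by
        rw [hd]
        rcases Nat.lt_or_eq_of_le h with h | rfl
        · exact h1 l h
        · rw [h2 _ (Or.inr le_rfl), Function.update_self])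
    exact ⟨M', a', j', dg', pv', X', Y',
      RU.trans (RU.trans (RU.trans ⟨_, r0⟩ ⟨_, r1⟩) r2) r3, h3⟩

theorem init_loop (hA : At L d (dpCode d)) {i q yb a S Y : ℕ} (hk : k + q < 2 ^ w) :
    ∀ j v, j + v = q → ∀ (M : ℕ → ℕ) (X : ℕ),
      ∃ M' X', RU L w ⟨d + 4, false, vec k i q yb a j S v X Y, M, D⟩
        ⟨d + 10, false, vec k i q yb a 0 S q X' Y, M', D⟩ ∧
        (∀ l ≤ j, M' (k + l) = q - l) ∧ ∀ l, l < k ∨ k + j < l → M' l = M l := by
  have r0 : ∀ j v, j + v = q → ∀ (M : ℕ → ℕ) (X : ℕ) (ρ : ℕ → ℕ), Rch L w ρ (1 + 1 + 1)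
      ⟨d + 4, false, vec k i q yb a j S v X Y, M, D⟩
      ⟨if j = 0 then d + 10 else d + 7, false, vec k i q yb a j S v (k + j) Y,
        Function.update M (k + j) v, D⟩ := by
    intro j v hjv M X ρ
    refine (((r_add (at_get hA 4 rfl) ?_).trans (r_store (at_get hA 5 rfl))).trans
      (r_jz (at_get hA 6 rfl))).congr ?_
    · simp only [vec0, vec7]; omega
    · simp only [vec0, vec7, vec9, vec10, wr10]
  intro j
  induction j with
  | zero =>
    intro v hv M X
    obtain rfl : v = q := by omega
    refine ⟨_, _, ⟨_, fun ρ => (r0 0 v hv M X ρ).congr (by rw [if_pos rfl])⟩, fun l hl => ?_,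
      fun l hl => ?_⟩
    · obtain rfl : l = 0 := by omega
      rw [Function.update_self]; rfl
    · rw [Function.update_of_ne (by omega)]
  | succ j ih =>
    intro v hv M X
    have r1 : ∀ ρ, Rch L w ρ (1 + 1 + 1) ⟨d + 7, false, vec k i q yb a (j + 1) S v (k + (j + 1)) Y,
        Function.update M (k + (j + 1)) v, D⟩ ⟨d + 4, false,
        vec k i q yb a j S (v + 1) (k + (j + 1)) Y, Function.update M (k + (j + 1)) v, D⟩ := by
      intro ρ
      refine (((r_sub (at_get hA 7 rfl)).trans (r_add (at_get hA 8 rfl) ?_)).trans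
        (r_jump (at_get hA 9 rfl))).congr ?_
      · simp only [vec2, vec7, vec9, wr7]; omega
      · simp only [vec2, vec7, vec9, wr7, wr9, Nat.add_sub_cancel]
    obtain ⟨M', X', r2, h1, h2⟩ := ih (v + 1) (by omega) (Function.update M (k + (j + 1)) v)
      (k + (j + 1))
    refine ⟨M', X', RU.trans (RU.trans ⟨_, fun ρ => (r0 (j + 1) v hv M X ρ).congr
      (by rw [if_neg (Nat.succ_ne_zero j)])⟩ ⟨_, r1⟩) r2, fun l hl => ?_, fun l hl => ?_⟩
    · rcases Nat.lt_or_eq_of_le hl with h | rfl
      · exact h1 l (by omega)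
      · rw [h2 _ (Or.inr (by omega)), Function.update_self]; omega
    · rw [h2 l (by omega), Function.update_of_ne (by omega)]

/-- The dynamic programme computes the edit distance. -/
theorem dp_main (hA : At L d (dpCode d)) (x y : List ℕ) {M : ℕ → ℕ}
    (hk : 2 * k < 2 ^ w) (hxy : 2 + x.length + y.length ≤ k)
    (hx : ∀ l (h : l < x.length), M (2 + l) = x[l])
    (hy : ∀ l (h : l < y.length), M (x.length + 1 + 1 + l) = y[l]) (b c t S U X Y : ℕ) :
    ∃ cc : Cfg 12, cc.halted = true ∧ cc.output = [editDist x y] ∧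
      RU L w ⟨d, false, vec k x.length y.length b c t S U X Y, M, D⟩ cc := by
  have r0 : ∀ ρ, Rch L w ρ (1 + 1 + 1 + 1)
      ⟨d, false, vec k x.length y.length b c t S U X Y, M, D⟩
      ⟨d + 4, false, vec k x.length y.length (x.length + 1 + 1) c y.length S 0 X Y, M, D⟩ := by
    intro ρ
    refine ((((r_add (at_get hA 0 rfl) ?_).trans (r_add (at_get hA 1 rfl) ?_)).trans
      (r_copy (at_get hA 2 rfl))).trans (r_copy (at_get hA 3 rfl))).congr ?_
    · simp only [vec2, vec3]; omega
    · simp only [vec2, vec3, vec5, wr5]; omega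
    · simp only [vec1, vec2, vec3, vec4, vec5, wr5, wr7, wr9]
  obtain ⟨M1, X1, r1, h1, h2⟩ := init_loop (w := w) (k := k) (D := D) hA (i := x.length)
    (q := y.length) (yb := x.length + 1 + 1) (a := c) (S := S) (Y := Y) (by omega) y.length 0 rfl
    M X
  obtain ⟨M2, a', j', dg', pv', X', Y', r2, h3⟩ := outer_loop (w := w) (k := k) (D := D) hA x y
    (yb := x.length + 1 + 1) (by omega) (by omega) (by omega) (by omega) x.length le_rfl M1
    c 0 S y.length X1 Y
    (fun l h => by rw [h2 _ (Or.inl (by omega))]; exact hx l h)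
    (fun l h => by rw [h2 _ (Or.inl (by omega))]; exact hy l h)
    (fun l h => by rw [h1 l h, List.drop_length, ← List.length_drop]; rfl)
  have r3 : ∀ ρ, Rch L w ρ (1 + 1 + 1 + 1)
      ⟨d + 38, false, vec k 0 y.length (x.length + 1 + 1) a' j' dg' pv' X' Y', M2, D⟩
      ⟨d + 41, true, vec 1 0 y.length (x.length + 1 + 1) a' j' dg' pv' (editDist x y) Y',
        Function.update M2 0 (editDist x y), D⟩ := fun ρ =>
    ((((r_load (at_get hA 38 rfl)).trans (r_store (at_get hA 39 rfl))).trans
      (r_copy (at_get hA 40 rfl))).trans (r_halt (at_get hA 41 rfl))).congr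
      (by simp only [vec0, vec1, vec2, vec10, wr0, wr10, h3])
  refine ⟨_, ?_, ?_, RU.trans (RU.trans (RU.trans ⟨_, r0⟩ r1) r2) ⟨_, r3⟩⟩
  · rfl
  · simp [Cfg.output, Cfg.reg]

end Crest.Agent.R288.RamAux
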