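import Crest.Agent.R288.MonoB
import Crest.Agent.R288.Choice
import Crest.Agent.R288.RTb

/-!
# R288: the small mode of a block: range, monotonicity
-/

set_option autoImplicit false

namespace Crest.Agent.R288

open RT

namespace Model

/-- A valid plan at a scale that is a power of two, with small window averages. -/
structure SB (M : Model) (P : Par) (r i : ℕ) (s : ℤ × ℤ) (m φ : ℕ) (pl : Plan) : Prop where
  ok : M.Ok P
  r1 : 1 ≤ r
  rH : r ≤ P.H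
  φ1 : 1 ≤ φ
  lo : P.kg + 4 ≤ m
  hi : m < 4 * P.hh
  plan : M.PlanOk P r i s (2 ^ m) pl
  mb : ∀ j < P.b, M.mbar P (r - 1) (i * P.b + j) (pc pl j) φ ≤ 2 * cap P (pc pl j)

/-- Admissible arguments of a node of the small mode. -/
structure NodeOk (P : Par) (σ : ℕ) (pl : Plan) (hb p : ℕ) (s' : ℤ × ℤ) (k0 q : ℕ) : Prop where
  hhb : hb ≤ P.L
  hp : p < 2 ^ (P.L - hb)
  w1 : InW P σ pl (p * 2 ^ hb) s'.1
  w2 : InW P σ pl ((p + 1) * 2 ^ hb) s'.2
  hq : q ≤ P.mb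
  hk : k0 + 2 ^ q ≤ 2 ^ P.mb

variable {M : Model} {P : Par} {r i : ℕ} {s : ℤ × ℤ} {m φ : ℕ} {pl : Plan}

theorem sba_blk_succ (hb p : ℕ) : blk (hb + 1) p = blk hb (2 * p) ++ blk hb (2 * p + 1) := by
  unfold blk
  rw [show (2 * p + 1) * 2 ^ hb = 2 * p * 2 ^ hb + 1 * 2 ^ hb by ring, List.range'_append,
    show p * 2 ^ (hb + 1) = 2 * p * 2 ^ hb by ring, show 2 ^ (hb + 1) = 2 ^ hb + 2 ^ hb by ring]

theorem sba_blk_lt (hP : Good P) {hb p j : ℕ} (hhb : hb ≤ P.L) (hp : p < 2 ^ (P.L - hb))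
    (hj : j ∈ blk hb p) : j < P.b := by
  rw [blk, List.mem_range'_1] at hj
  rw [hP.b_eq, show P.L = P.L - hb + hb by omega, pow_add]
  have := Nat.mul_le_mul_right (2 ^ hb) (Nat.succ_le_of_lt hp)
  rw [Nat.succ_mul] at this
  omega

theorem NodeOk.sba_left (hP : Good P) {σ : ℕ} (hpl : M.PlanOk P r i s σ pl) {hb p : ℕ} {s' : ℤ × ℤ}
    {k0 : ℕ} (hn : NodeOk P σ pl (hb + 1) p s' k0 0) :
    NodeOk P σ pl hb (2 * p) (s'.1, optz P pl (hb + 1) p k0) 0 P.mb ∧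
      NodeOk P σ pl hb (2 * p + 1) (optz P pl (hb + 1) p k0, s'.2) 0 P.mb := by
  obtain ⟨hhb, hp, h1, h2, -, hk⟩ := hn
  have e : 2 ^ (P.L - hb) = 2 * 2 ^ (P.L - (hb + 1)) := by
    rw [show P.L - hb = P.L - (hb + 1) + 1 by omega, pow_succ']
  have hm := hpl.inW_optz hP (Nat.le_add_left 1 hb) hhb hp (k0 := k0) (by simpa using hk)
  rw [Nat.add_sub_cancel] at hm
  exact ⟨⟨by omega, by omega, by rwa [show 2 * p * 2 ^ hb = p * 2 ^ (hb + 1) by ring], hm, le_rfl, by omega⟩,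
    ⟨by omega, by omega, hm, by rwa [show (2 * p + 1 + 1) * 2 ^ hb = (p + 1) * 2 ^ (hb + 1) by ring],
      le_rfl, by omega⟩⟩

theorem NodeOk.sba_opt {σ hb p : ℕ} {s' : ℤ × ℤ} {k0 q : ℕ} (hn : NodeOk P σ pl hb p s' k0 (q + 1)) :
    NodeOk P σ pl hb p s' k0 q ∧ NodeOk P σ pl hb p s' (k0 + 2 ^ q) q := by
  obtain ⟨hhb, hp, h1, h2, hq, hk⟩ := hn
  rw [pow_succ] at hk
  exact ⟨⟨hhb, hp, h1, h2, by omega, by omega⟩, ⟨hhb, hp, h1, h2, by omega, by omega⟩⟩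

theorem NodeOk.sba_leaf (hP : Good P) {σ : ℕ} (hpl : M.PlanOk P r i s σ pl) {p : ℕ} {s' : ℤ × ℤ}
    {k0 q : ℕ} (hn : NodeOk P σ pl 0 p s' k0 q) : p < P.b ∧ s' ∈ om (pc pl p) := by
  obtain ⟨-, hp, h1, h2, -, -⟩ := hn
  simp only [pow_zero, mul_one, Nat.sub_zero] at hp h1 h2
  rw [← hP.b_eq] at hp
  exact ⟨hp, hpl.mem_om hP hp h1 h2⟩

theorem sba_kx (P : Par) : P.kx = 4 * P.ka := by unfold Par.kx; rfl
theorem sba_ka (P : Par) : P.ka = 10 * P.jj := by unfold Par.ka; rfl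
theorem sba_kP (P : Par) : P.kP = 2 * (8 * P.kR) := by unfold Par.kP; rfl

theorem SB.sba_cw (h : M.SB P r i s m φ pl) {j : ℕ} (hj : j < P.b) :
    2 ^ (P.kg - P.kd + 4) ≤ cw (pc pl j) := by
  have hP := h.ok.good
  obtain ⟨-, g2, -, g4, -, -, g7⟩ := geo_par hP
  have h1 := h.plan.wlv_le_cw hP hj
  have := h.lo
  rw [wlv_pow hP (by omega) (by omega)] at h1
  exact (Nat.pow_le_pow_right (by norm_num) (by omega)).trans h1

theorem SB.sba_omg (h : M.SB P r i s m φ pl) {hb p : ℕ} (hhb : hb ≤ P.L) (hp : p < 2 ^ (P.L - hb)) :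
    2 ^ (P.kg - P.kd + 4) ≤ omg P pl hb p := by
  have hj : p * 2 ^ hb ∈ blk hb p := by
    rw [blk, List.mem_range'_1]
    exact ⟨le_rfl, Nat.lt_add_of_pos_right (by positivity)⟩
  refine (h.sba_cw (sba_blk_lt h.ok.good hhb hp hj)).trans ?_
  rw [omg, blkP_eq h.ok.good hhb]
  exact List.le_sum_of_mem (List.mem_map_of_mem (f := fun j => cw (pc pl j)) hj)

/-- The mean of a choice node in round `k` (`choice_mean`, `rnk_rd0`, `nIn_rd0`). -/
theorem sn_choice (h : M.Ok P) (hr : 1 ≤ r) (hrH : r ≤ P.H) (hφ : 1 ≤ φ) (i : ℕ) (pl : Plan) {hb : ℕ}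
    (h1 : 1 ≤ hb) (hhb : hb ≤ P.L) (p : ℕ) (s' : ℤ × ℤ) (k0 : ℕ) {q : ℕ} (hq : q + 1 ≤ P.mb) {k : ℕ}
    (hk : k < P.T0) :
    (M.sn r i pl hb p s' k0 (q + 1) (rd0 P φ k)).mean =
      (M.sn r i pl hb p s' k0 q (rd0 P φ k)).mean +
        pbar (2 ^ qbits P (omg P pl hb p)) (omg P pl hb p * P.p2 (2 * P.ka + 2))
          (fun k' => (M.sn r i pl hb p s' k0 q (rd0 P φ k')).avg P.kP)
          (fun k' => (M.sn r i pl hb p s' (k0 + 2 ^ q) q (rd0 P φ k')).avg P.kP) k /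
          2 ^ qbits P (omg P pl hb p) *
        ((M.sn r i pl hb p s' (k0 + 2 ^ q) q (rd0 P φ k)).mean -
          (M.sn r i pl hb p s' k0 q (rd0 P φ k)).mean) := by
  rw [h.sn r hr hrH i pl hb hhb p s' k0 _ hq _ (T0_lt_rd0 hφ k), sn', if_neg (by omega),
    if_neg (Nat.succ_ne_zero q)]
  simp only [nIn_rd0 φ hk, rnk_rd0 φ hk, choose2]
  rw [choice_mean _ _ _ _ _ fun o => M.opt r i pl hb p s' k0 (q + 1) o (rd0 P φ k)]
  simp only [opt, Nat.add_sub_cancel, Bool.false_eq_true, if_false, if_true]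

theorem sn_split (h : M.Ok P) (hr : 1 ≤ r) (hrH : r ≤ P.H) (i : ℕ) (pl : Plan) {hb : ℕ}
    (hhb : hb + 1 ≤ P.L) (p : ℕ) (s' : ℤ × ℤ) (k0 : ℕ) {t : ℕ} (ht : P.T0 < t) :
    (M.sn r i pl (hb + 1) p s' k0 0 t).mean =
      (M.sn r i pl hb (2 * p) (s'.1, optz P pl (hb + 1) p k0) 0 P.mb t).mean +
        (M.sn r i pl hb (2 * p + 1) (optz P pl (hb + 1) p k0, s'.2) 0 P.mb t).mean := by
  rw [h.sn r hr hrH i pl _ hhb p s' k0 0 (Nat.zero_le _) t ht, sn', if_neg (Nat.succ_ne_zero hb), if_pos rfl,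
    Nat.add_sub_cancel]
  simp only [mean, E_bind, E_map, Nat.cast_add, E_add, E_const]

theorem sn_leaf (h : M.Ok P) (hr : 1 ≤ r) (hrH : r ≤ P.H) (i : ℕ) (pl : Plan) (p : ℕ) (s' : ℤ × ℤ)
    (k0 : ℕ) {q : ℕ} (hq : q ≤ P.mb) {t : ℕ} (ht : P.T0 < t) :
    (M.sn r i pl 0 p s' k0 q t).mean = M.W (r - 1) (i * P.b + p) s' (some (pc pl p)) t := by
  rw [h.sn r hr hrH i pl 0 (Nat.zero_le _) p s' k0 q hq t ht, sn', if_pos rfl, W]

/-- The mean of a node lies between the sums of the extreme values of the children (induction on `hb`, `q`;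
at a choice node use `E_bind`, `le_E`, `E_le`). -/
theorem sn_range (h : M.Ok P) (hr : 1 ≤ r) (hrH : r ≤ P.H) {σ : ℕ} (hpl : M.PlanOk P r i s σ pl) {t : ℕ}
    (ht : P.T0 < t) {lo hi : ℕ → ℝ}
    (hw : ∀ j < P.b, ∀ s' ∈ om (pc pl j), lo j ≤ M.W (r - 1) (i * P.b + j) s' (some (pc pl j)) t ∧
      M.W (r - 1) (i * P.b + j) s' (some (pc pl j)) t ≤ hi j)
    {hb p : ℕ} {s' : ℤ × ℤ} {k0 q : ℕ} (hn : NodeOk P σ pl hb p s' k0 q) :
    ((blk hb p).map lo).sum ≤ (M.sn r i pl hb p s' k0 q t).mean ∧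
      (M.sn r i pl hb p s' k0 q t).mean ≤ ((blk hb p).map hi).sum := by
  induction hb generalizing p s' k0 q with
  | zero =>
    obtain ⟨hp, hs⟩ := hn.sba_leaf h.good hpl
    rw [sn_leaf h hr hrH i pl p s' k0 hn.hq ht]
    simpa [blk] using hw p hp s' hs
  | succ hb ih =>
    induction q generalizing k0 with
    | zero =>
      obtain ⟨n1, n2⟩ := hn.sba_left h.good hpl
      rw [sn_split h hr hrH i pl hn.hhb p s' k0 ht, sba_blk_succ, List.map_append, List.map_append,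
        List.sum_append, List.sum_append]
      exact ⟨add_le_add (ih n1).1 (ih n2).1, add_le_add (ih n1).2 (ih n2).2⟩
    | succ q ihq =>
      have ho : ∀ o : Bool, ((blk (hb + 1) p).map lo).sum ≤ (M.opt r i pl (hb + 1) p s' k0 (q + 1) o t).mean ∧
          (M.opt r i pl (hb + 1) p s' k0 (q + 1) o t).mean ≤ ((blk (hb + 1) p).map hi).sum := by
        intro o
        cases o
        · exact ihq hn.sba_opt.1
        · exact ihq hn.sba_opt.2
      rw [h.sn r hr hrH i pl _ hn.hhb p s' k0 _ hn.hq t ht, sn', if_neg (Nat.succ_ne_zero hb),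
        if_neg (Nat.succ_ne_zero q)]
      simp only [mean, E_bind]
      exact ⟨le_E (All_of_forall _ fun _ => le_E (All_of_forall _ fun _ => le_E (All_of_forall _ fun _ =>
        (ho _).1))), E_le (All_of_forall _ fun _ => E_le (All_of_forall _ fun _ => E_le (All_of_forall _ fun _ =>
        (ho _).2)))⟩

/-- Two options of a node have close means: by `W_some_lip` the values of child `j` lie in an interval of length
`2 cap / 2^(2ka) + 24 w + 1 ≤ 4 w 2^(2ka)` (take `lo j` = the least value over `om`). -/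
theorem SB.close (h : M.SB P r i s m φ pl) {k : ℕ} (hk : k < P.T0) {hb p : ℕ} {s' s'' : ℤ × ℤ}
    {k0 q k0' q' : ℕ} (hn : NodeOk P (2 ^ m) pl hb p s' k0 q) (hn' : NodeOk P (2 ^ m) pl hb p s'' k0' q') :
    |(M.sn r i pl hb p s' k0 q (rd0 P φ k)).mean - (M.sn r i pl hb p s'' k0' q' (rd0 P φ k)).mean| ≤
      (omg P pl hb p * 2 ^ (2 * P.ka + 2) : ℕ) := by
  classical
  have hP := h.ok.good
  have ht := T0_lt_rd0 (P := P) h.φ1 k
  have hmin : ∀ j, ∃ s0 ∈ om (pc pl j), ∀ s1 ∈ om (pc pl j),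
      M.W (r - 1) (i * P.b + j) s0 (some (pc pl j)) (rd0 P φ k) ≤
        M.W (r - 1) (i * P.b + j) s1 (some (pc pl j)) (rd0 P φ k) := by
    intro j
    obtain ⟨s0, h0, h1⟩ := Finset.exists_min_image (om (pc pl j)).toFinset
      (fun s1 => M.W (r - 1) (i * P.b + j) s1 (some (pc pl j)) (rd0 P φ k))
      ⟨_, List.mem_toFinset.2 (center_mem_om _)⟩
    exact ⟨s0, List.mem_toFinset.1 h0, fun s1 hs => h1 s1 (List.mem_toFinset.2 hs)⟩
  choose s0 h0 h1 using hmin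
  have hw : ∀ j < P.b, ∀ s1 ∈ om (pc pl j),
      M.W (r - 1) (i * P.b + j) (s0 j) (some (pc pl j)) (rd0 P φ k) ≤
        M.W (r - 1) (i * P.b + j) s1 (some (pc pl j)) (rd0 P φ k) ∧
      M.W (r - 1) (i * P.b + j) s1 (some (pc pl j)) (rd0 P φ k) ≤
        M.W (r - 1) (i * P.b + j) (s0 j) (some (pc pl j)) (rd0 P φ k) +
          (cw (pc pl j) : ℝ) * 2 ^ (2 * P.ka + 2) := by
    intro j hj s1 hs
    refine ⟨h1 j s1 hs, (W_some_lip h.ok (by have := h.rH; omega) (h.plan.cert j hj) hs (h0 j) ht).trans ?_⟩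
    have a1 := h.mb j hj
    rw [cap_eq hP, sba_kx, show 4 * P.ka = 2 * P.ka + 2 * P.ka by ring, pow_add] at a1
    push_cast at a1
    have a2 : (1 : ℝ) ≤ cw (pc pl j) := by
      exact_mod_cast (Nat.one_le_two_pow).trans (h.sba_cw hj)
    have a3 : (16 : ℝ) ≤ 2 ^ (2 * P.ka) := by
      have := hP.big
      have e := sba_ka P
      calc (16 : ℝ) = 2 ^ 4 := by norm_num
        _ ≤ _ := pow_le_pow_right₀ one_le_two (by omega)
    have a4 : M.mbar P (r - 1) (i * P.b + j) (pc pl j) φ / 2 ^ (2 * P.ka) ≤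
        2 * (cw (pc pl j) * 2 ^ (2 * P.ka)) := by
      rw [div_le_iff₀ (by positivity)]
      linarith
    rw [phs_rd0 φ hk, pow_add]
    nlinarith
  have b1 := sn_range h.ok h.r1 h.rH h.plan ht hw hn
  have b2 := sn_range h.ok h.r1 h.rH h.plan ht hw hn'
  have e : ((blk hb p).map fun j => (cw (pc pl j) : ℝ) * 2 ^ (2 * P.ka + 2)).sum =
      (omg P pl hb p * 2 ^ (2 * P.ka + 2) : ℕ) := by
    rw [List.sum_map_mul_right, omg, blkP_eq hP hn.hhb]
    push_cast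
    rw [List.map_map]
    rfl
  rw [List.sum_map_add, e] at b1 b2
  rw [abs_le]
  constructor <;> linarith [b1.1, b1.2, b2.1, b2.2]

/-- Accuracy of the estimates (`avg_l1` with `kP = 2 (8 kR)`, `sn_valid`;
`omg ≥ wlv 0 = 2^(m - kd) ≥ 2^(kg + 4 - kd)`). -/
theorem SB.acc (h : M.SB P r i s m φ pl) (k : ℕ) {hb p : ℕ} {s' : ℤ × ℤ} {k0 q : ℕ}
    (hn : NodeOk P (2 ^ m) pl hb p s' k0 q) :
    (((M.sn r i pl hb p s' k0 q (rd0 P φ k)).avg P.kP).E fun v =>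
      |(v : ℝ) - (M.sn r i pl hb p s' k0 q (rd0 P φ k)).mean|) ≤
      omg P pl hb p / 2 ^ (P.kg - P.kd + 3) := by
  have hP := h.ok.good
  obtain ⟨-, g2, g3, -, -, -, g7⟩ := geo_par hP
  have ht := T0_lt_rd0 (P := P) h.φ1 k
  have hv := sn_valid h.ok h.r1 h.rH ht (vs h.ok (by have := h.rH; omega) ht) h.plan hn.hhb hn.hp hn.w1 hn.w2
    hn.hq hn.hk
  rw [sba_kP]
  refine (avg_l1 _ _ (B := (omg P pl hb p : ℝ) * 2 ^ P.kx) (hv.mono fun v hv => by exact_mod_cast hv.2)).trans ?_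
  have a1 : (2 : ℝ) ^ (P.kg - P.kd + 4) ≤ omg P pl hb p := by exact_mod_cast h.sba_omg hn.hhb hn.hp
  have a2 : (2 : ℝ) ^ P.kx * 2 ^ (P.kg - P.kd + 4) ≤ 2 ^ (8 * P.kR) := by
    rw [← pow_add]
    exact pow_le_pow_right₀ one_le_two (by omega)
  have a3 : (omg P pl hb p : ℝ) * 2 ^ P.kx / 2 ^ (8 * P.kR) ≤ omg P pl hb p / 2 ^ (P.kg - P.kd + 4) := by
    rw [div_le_div_iff₀ (by positivity) (by positivity), mul_assoc]
    exact mul_le_mul_of_nonneg_left a2 (by positivity)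
  have a4 : (1 : ℝ) ≤ omg P pl hb p / 2 ^ (P.kg - P.kd + 4) := (one_le_div (by positivity)).2 a1
  have a5 : (omg P pl hb p : ℝ) / 2 ^ (P.kg - P.kd + 3) = 2 * (omg P pl hb p / 2 ^ (P.kg - P.kd + 4)) := by
    rw [pow_succ (2 : ℝ) (P.kg - P.kd + 3)]
    field_simp
  linarith

theorem sba_step {Q π π' w1 w2 w1' w2' a ε : ℝ} (hQ : 0 < Q) (h0 : 0 ≤ π') (h1 : π' ≤ Q)
    (hd : (π' - π) * (w2 - w1) ≤ Q * (2 * ε)) (m1 : w1' ≤ w1 + a) (m2 : w2' ≤ w2 + a) :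
    w1' + π' / Q * (w2' - w1') ≤ w1 + π / Q * (w2 - w1) + (a + 2 * ε) := by
  have a0 : 0 ≤ π' / Q := by positivity
  have a1 : π' / Q ≤ 1 := (div_le_one hQ).2 h1
  have a2 : (π' / Q - π / Q) * (w2 - w1) ≤ 2 * ε := by
    rw [← sub_div, div_mul_eq_mul_div, div_le_iff₀ hQ]
    linarith
  nlinarith [mul_le_mul_of_nonneg_left m2 a0, mul_le_mul_of_nonneg_left m1 (sub_nonneg.2 a1)]

/-- Induction on `hb`, `q`; leaves by `W_some_succ`, choice nodes by `choice_bounds` (or `pbar_dir`). -/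
theorem SB.mono' (h : M.SB P r i s m φ pl) {k : ℕ} (hk : k + 1 < P.T0) {hb p : ℕ} {s' : ℤ × ℤ}
    {k0 q : ℕ} (hn : NodeOk P (2 ^ m) pl hb p s' k0 q) :
    (M.sn r i pl hb p s' k0 q (rd0 P φ (k + 1))).mean ≤ (M.sn r i pl hb p s' k0 q (rd0 P φ k)).mean +
      (hb * P.mb + q : ℕ) * (omg P pl hb p / 2 ^ (P.kg - P.kd + 2)) := by
  have hP := h.ok.good
  induction hb generalizing p s' k0 q with
  | zero =>
    obtain ⟨hp, hs⟩ := hn.sba_leaf hP h.plan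
    rw [sn_leaf h.ok h.r1 h.rH i pl p s' k0 hn.hq (T0_lt_rd0 h.φ1 _),
      sn_leaf h.ok h.r1 h.rH i pl p s' k0 hn.hq (T0_lt_rd0 h.φ1 _)]
    exact (W_some_succ h.ok (by have := h.rH; omega) (h.plan.cert p hp) hs h.φ1 hk).trans
      (le_add_of_nonneg_right (by positivity))
  | succ hb ih =>
    induction q generalizing k0 with
    | zero =>
      obtain ⟨n1, n2⟩ := hn.sba_left hP h.plan
      have a1 := ih n1
      have a2 := ih n2
      rw [sn_split h.ok h.r1 h.rH i pl hn.hhb p s' k0 (T0_lt_rd0 h.φ1 _),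
        sn_split h.ok h.r1 h.rH i pl hn.hhb p s' k0 (T0_lt_rd0 h.φ1 _), omg_succ hP pl hn.hhb,
        show (hb + 1) * P.mb + 0 = hb * P.mb + P.mb by ring, Nat.cast_add (omg P pl hb (2 * p)), add_div,
        mul_add]
      linarith
    | succ q ihq =>
      obtain ⟨n1, n2⟩ := hn.sba_opt
      have hk' : k < P.T0 := by omega
      have hc := h.close hk' n2 n1
      obtain ⟨g1, -, g3, -, -, -, g7⟩ := geo_par hP
      have e1 := sba_kx P
      rw [← hP.p2_eq (e := 2 * P.ka + 2) (by omega)] at hc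
      have hd := pbar_dir (Q := 2 ^ qbits P (omg P pl (hb + 1) p))
        (xh := omg P pl (hb + 1) p * P.p2 (2 * P.ka + 2)) (by positivity)
        (fun k' => (M.sn r i pl (hb + 1) p s' k0 q (rd0 P φ k')).avg P.kP)
        (fun k' => (M.sn r i pl (hb + 1) p s' (k0 + 2 ^ q) q (rd0 P φ k')).avg P.kP) k
        (h.acc k n1) (h.acc k n2) (by exact_mod_cast hc)
      have hr := pbar_range (Q := 2 ^ qbits P (omg P pl (hb + 1) p)) (by positivity)
        (omg P pl (hb + 1) p * P.p2 (2 * P.ka + 2))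
        (fun k' => (M.sn r i pl (hb + 1) p s' k0 q (rd0 P φ k')).avg P.kP)
        (fun k' => (M.sn r i pl (hb + 1) p s' (k0 + 2 ^ q) q (rd0 P φ k')).avg P.kP) (k + 1)
      push_cast at hd hr
      rw [sn_choice h.ok h.r1 h.rH h.φ1 i pl (Nat.le_add_left 1 hb) hn.hhb p s' k0 hn.hq hk,
        sn_choice h.ok h.r1 h.rH h.φ1 i pl (Nat.le_add_left 1 hb) hn.hhb p s' k0 hn.hq hk']
      refine (sba_step (by positivity) hr.1 hr.2 hd (ihq n1) (ihq n2)).trans (le_of_eq ?_)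
      rw [pow_succ (2 : ℝ) (P.kg - P.kd + 2)]
      push_cast
      field_simp
      ring

theorem SB.mono (h : M.SB P r i s m φ pl) {k : ℕ} (hk : k + 1 < P.T0) {hb p : ℕ} {s' : ℤ × ℤ}
    {k0 q : ℕ} (hn : NodeOk P (2 ^ m) pl hb p s' k0 q) :
    (M.sn r i pl hb p s' k0 q (rd0 P φ (k + 1))).mean ≤ (M.sn r i pl hb p s' k0 q (rd0 P φ k)).mean +
      omg P pl hb p / 2 ^ P.kR := by
  have hP := h.ok.good
  refine (h.mono' hk hn).trans (add_le_add le_rfl ?_)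
  obtain ⟨-, g2, g3, -, -, -, g7⟩ := geo_par hP
  have a1 := hP.mb_add
  have a2 := hP.kR_lt
  have a3 := hP.small_ll
  have a4 := hP.ll_kR
  have a5 : hb * P.mb + q ≤ 2 ^ P.L * 2 ^ (2 * P.jj + 4) := by
    have b1 : hb + 1 ≤ 2 ^ P.L := (Nat.succ_le_succ hn.hhb).trans Nat.lt_two_pow_self
    have b2 : P.mb ≤ 2 ^ (2 * P.jj + 4) := by rw [pow_succ]; omega
    calc hb * P.mb + q ≤ (hb + 1) * P.mb := by rw [add_mul, one_mul]; exact Nat.add_le_add_left hn.hq _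
      _ ≤ _ := Nat.mul_le_mul b1 b2
  have a6 : ((hb * P.mb + q : ℕ) : ℝ) * 2 ^ P.kR ≤ 2 ^ (P.kg - P.kd + 2) := by
    have : (hb * P.mb + q) * 2 ^ P.kR ≤ 2 ^ (P.kg - P.kd + 2) := by
      refine (Nat.mul_le_mul_right _ a5).trans ?_
      rw [← pow_add, ← pow_add]
      exact Nat.pow_le_pow_right (by norm_num) (by omega)
    exact_mod_cast this
  rw [mul_div_assoc', div_le_div_iff₀ (by positivity) (by positivity), mul_right_comm, mul_comm]
  exact mul_le_mul_of_nonneg_left a6 (by positivity)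

theorem PlanOk.nodeOk_root (hP : Good P) {σ : ℕ} (h : M.PlanOk P r i s σ pl) :
    NodeOk P σ pl P.L 0 (pz pl 0, pz pl P.b) 0 P.mb := by
  refine ⟨le_rfl, by positivity, ?_, ?_, le_rfl, by omega⟩
  · rw [zero_mul]
    exact h.inW_pz (Nat.zero_le _)
  · rw [zero_add, one_mul, ← hP.b_eq]
    exact h.inW_pz le_rfl

end Model

end Crest.Agent.R288
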