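import Crest.Agent.R288.RT

/-!
# R288: recursive two-stage schemes (definitions)

A call is a tag with a payload.  A non-primitive call `k` makes the calls `s1 k`, then, knowing their
results `r1`, the calls `s2 k r1`, and returns `out k r1 r2`.  Tag `0` is a coin, tag `1` reads the input.
-/

set_option autoImplicit false

namespace Crest.Agent.R288

open Crest.Agent.Lib.PT

/-- Global parameters: the two lengths and a unary pad. -/
abbrev Par := ℕ × ℕ × Un

/-- Calls. -/
abbrev Call := ℕ × V

/-- Two-stage recursive schemes. -/
structure Scheme where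
  /-- first stage -/
  s1 : Par → Call → List Call
  /-- second stage -/
  s2 : Par → Call → List V → List Call
  /-- result -/
  out : Par → Call → List V → List V → V

/-- The primitive calls of the machine. -/
def realPrim (P : Par) (mem : ℕ → ℕ) (k : Call) : Option (RT V) :=
  if k.1 = 0 then some (.coin (.pure (enc false)) (.pure (enc true)))
  else if k.1 = 1 then some (.pure (enc (mem (min (dec k.2 : ℕ) (P.1 + P.2.1 + 2)))))
  else none

namespace Scheme

variable (S : Scheme) (P : Par)

/-- One unfolding, given the meaning of subcalls. -/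
def body (g : Call → RT V) (k : Call) : RT V :=
  (RT.seq ((S.s1 P k).map g)).bind fun r1 =>
    (RT.seq ((S.s2 P k r1).map g)).bind fun r2 => .pure (S.out P k r1 r2)

/-- Evaluation with fuel. -/
def eval (pr : Call → Option (RT V)) : ℕ → Call → RT V
  | 0, _ => .pure .nil
  | n + 1, k => (pr k).getD (S.body P (eval pr n) k)

/-- `Cst n c k`: whatever the subcalls return, the call tree of `k` has depth at most `n` and at
most `c` nodes. -/
def Cst : ℕ → ℕ → Call → Prop
  | 0, _, _ => False
  | n + 1, c, k => 1 ≤ c ∧ (k.1 ≤ 1 ∨ ∃ f1 : Call → ℕ, (∀ k' ∈ S.s1 P k, Cst n (f1 k') k') ∧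
      ∀ r1, ∃ f2 : Call → ℕ, (∀ k' ∈ S.s2 P k r1, Cst n (f2 k') k') ∧
        1 + ((S.s1 P k).map f1).sum + ((S.s2 P k r1).map f2).sum ≤ c)

/-- The call terminates. -/
def Tm (k : Call) : Prop := ∃ n c, S.Cst P n c k

/-- All calls, results and lists of calls that occur have size at most `B`. -/
def Szb (pr : Call → Option (RT V)) (B : ℕ) : ℕ → Call → Prop
  | 0, _ => True
  | n + 1, k => sz k ≤ B ∧ (S.eval P pr (n + 1) k).All (fun v => sz v ≤ B) ∧
      (pr k = none → (S.s1 P k).length ≤ B ∧ (∀ k' ∈ S.s1 P k, Szb pr B n k') ∧
        (RT.seq ((S.s1 P k).map (S.eval P pr n))).All fun r1 =>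
          (S.s2 P k r1).length ≤ B ∧ ∀ k' ∈ S.s2 P k r1, Szb pr B n k')

open Classical in
/-- The meaning of a terminating call. -/
noncomputable def ev (pr : Call → Option (RT V)) (k : Call) : RT V :=
  if h : ∃ n, ∃ c, S.Cst P n c k then S.eval P pr (Nat.find h) k else .pure .nil

end Scheme

/-- Read-only macro machines on trees: one input word and one random bit per step. -/
structure RM where
  /-- initial state -/
  s0 : V
  /-- address to read -/
  rd : V → ℕ
  /-- next state -/
  nx : V → ℕ → Bool → V
  /-- halting test and output -/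
  fin : V → Option ℕ

/-- One step. -/
def RM.step (m : RM) (mem : ℕ → ℕ) (s : V) (b : Bool) : V :=
  if (m.fin s).isSome then s else m.nx s (mem (m.rd s)) b

/-- The run on a list of random bits. -/
def RM.go (m : RM) (mem : ℕ → ℕ) (l : List Bool) : V := l.foldl (m.step mem) m.s0

/-- The regime in which the fast algorithm is used: `N` is the total length of the strings and `E` the
number of words that describe `ε`. -/
def Fast (c0 N E : ℕ) : Prop := E + c0 ≤ Nat.log 2 (Nat.log 2 (Nat.log 2 N))

end Crest.Agent.R288
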