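import Crest.Agent.R288.SemD
import Crest.Agent.R288.CstA

/-!
# R288: meaning of the generic calls

Use `Scheme.ev_unfold`, `Scheme.ev_prim`, `Scheme.Tm.s1`, `RT.seq_map`.
-/

set_option autoImplicit false

namespace Crest.Agent.R288

open Crest.Agent.Lib.PT RT

variable {P : Par} {mem : ℕ → ℕ} {pr : Call → Option (RT V)}

theorem prOk_real (P : Par) (mem : ℕ → ℕ) : PrOk P mem (realPrim P mem) := fun _ _ => rfl

theorem prOk_ideal (P : Par) (mem : ℕ → ℕ) (x y : List ℕ) : PrOk P mem (idealPrim P mem x y) := by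
  intro k hk
  rw [idealPrim, if_neg hk]
theorem PrOk.ne_none (h : PrOk P mem pr) (k : Call) (hk : k.1 ≤ 1) : pr k ≠ none := by
  rw [h k (by omega)]
  exact realPrim_ne_none P mem k hk
theorem PrOk.eq_none (h : PrOk P mem pr) (k : Call) (hk : 1 < k.1) (hk' : k.1 ≠ 8) : pr k = none := by
  rw [h k hk', realPrim, if_neg (by omega), if_neg (by omega)]
/-- One unfolding of a terminating call that is neither primitive nor the oracle. -/
theorem PrOk.unfold (h : PrOk P mem pr) {k : Call} (hk : alg.Tm P k) (h1 : 1 < k.1) (h8 : k.1 ≠ 8) :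
    alg.ev P pr k = (seq ((algS1 P k).map (alg.ev P pr))).bind fun r1 =>
      (seq ((algS2 P k r1).map (alg.ev P pr))).bind fun r2 => .pure (algOut P k r1 r2) := by
  exact Scheme.ev_unfold h.ne_none hk (h.eq_none k h1 h8)
theorem semA_toList (r : List V) : (enc r).toList = r := by
  induction r with
  | nil => rfl
  | cons a l ih => rw [enc_cons, V.toList, ih]; rfl

theorem semA_tm_prim {k : Call} (hk : k.1 ≤ 1) : alg.Tm P k :=
  ⟨1, 1, Scheme.Cst.prim hk le_rfl⟩

theorem semA_unif {ks : List Call} (hk : ∀ k ∈ ks, alg.Tm P k) :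
    ∃ n c, ∀ k ∈ ks, alg.Cst P n c k := by
  induction ks with
  | nil => exact ⟨0, 0, by simp⟩
  | cons k ks ih =>
    obtain ⟨n, c, h1⟩ := ih fun k' hk' => hk k' (List.mem_cons_of_mem _ hk')
    obtain ⟨n', c', h2⟩ := hk k List.mem_cons_self
    refine ⟨max n n', max c c', fun k' hk' => ?_⟩
    rcases List.mem_cons.1 hk' with rfl | hk'
    · exact h2.mono (le_max_right _ _) (le_max_right _ _)
    · exact (h1 k' hk').mono (le_max_left _ _) (le_max_left _ _)

theorem semA_seq (β : Type) [Enc β] [Dec β] (ks : List Call) :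
    seq (ks.map (evd β P pr)) = (seq (ks.map (alg.ev P pr))).map (List.map dec) := by
  rw [← seq_map, List.map_map]
  rfl


/-- Decoding a list of trees as a list. -/
theorem dec_enc_list {β : Type} [Enc β] [Dec β] (r : List V) : (dec (enc r) : List β) = r.map dec := by
  exact congrArg (List.map dec) (semA_toList r)
theorem ev_read (h : PrOk P mem pr) (a : ℕ) :
    alg.ev P pr (cRead a) = .pure (enc (mem (min a (P.1 + P.2.1 + 2)))) := by
  refine Scheme.ev_prim (semA_tm_prim le_rfl) ?_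
  rw [h _ (by simp [cRead])]
  simp [realPrim, cRead]
theorem ev_rnd (h : PrOk P mem pr) (e : ℕ) : alg.ev P pr (cRnd e) = (rnd e).map enc := by
  have hc : alg.ev P pr cCoin = (RT.coin (.pure false) (.pure true)).map enc := by
    refine Scheme.ev_prim (semA_tm_prim (Nat.zero_le 1)) ?_
    rw [h _ (by simp [cCoin])]
    rfl
  rw [h.unfold ⟨_, _, cst_rnd e⟩ (by simp [cRnd]) (by simp [cRnd])]
  have e1 : algS1 P (cRnd e) = List.replicate e cCoin := by simp [algS1, cRnd]
  have e2 : ∀ r1, algS2 P (cRnd e) r1 = [] := fun r1 => by simp [algS2, cRnd]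
  have e3 : ∀ r1 r2, algOut P (cRnd e) r1 r2 = enc (ofBits (rds r1)) := fun r1 r2 => by
    simp [algOut, cRnd]
  simp only [e1, e2, e3, List.map_nil, seq_nil, pure_bind, List.map_replicate, hc]
  rw [← List.map_replicate, seq_map, bind_map, rnd, RT.map_map]
  simp only [rds, List.map_map, Function.comp_def, dec_enc, List.map_id']
  rfl
theorem tm_avg {k : Call} (hk : alg.Tm P k) (e : ℕ) : alg.Tm P (cAvg k e) := by
  obtain ⟨n, c, h⟩ := hk
  exact ⟨_, _, cst_avg h e⟩

theorem tm_vec {ks : List Call} (hk : ∀ k ∈ ks, alg.Tm P k) : alg.Tm P (cVec ks) := by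
  obtain ⟨n, c, h⟩ := semA_unif hk
  exact ⟨_, _, cst_vec h le_rfl⟩

theorem tm_sum {ks : List Call} (hk : ∀ k ∈ ks, alg.Tm P k) : alg.Tm P (cSum ks) := by
  obtain ⟨n, c, h⟩ := semA_unif hk
  exact ⟨_, _, cst_sum h le_rfl⟩


theorem ev_avg (h : PrOk P mem pr) (hP : Good P) {k : Call} (hk : alg.Tm P k) {e : ℕ} (he : e ≤ P.kP) :
    alg.ev P pr (cAvg k e) = ((evd ℕ P pr k).avg e).map enc := by
  rw [h.unfold (tm_avg hk e) (by simp [cAvg]) (by simp [cAvg])]
  have e1 : algS1 P (cAvg k e) = List.replicate (2 ^ e) k := by simp [algS1, cAvg, hP.p2_eq he]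
  have e2 : ∀ r1, algS2 P (cAvg k e) r1 = [] := fun r1 => by simp [algS2, cAvg]
  have e3 : ∀ r1 r2, algOut P (cAvg k e) r1 r2 = enc ((rds r1 : List ℕ).sum / 2 ^ e) :=
    fun r1 r2 => by simp [algOut, cAvg, hP.p2_eq he]
  simp only [e1, e2, e3, List.map_nil, seq_nil, pure_bind]
  rw [avg, ← List.map_replicate (f := evd ℕ P pr), semA_seq, RT.map_map, RT.map_map]
  rfl
theorem ev_vec (h : PrOk P mem pr) {ks : List Call} (hk : ∀ k ∈ ks, alg.Tm P k) :
    alg.ev P pr (cVec ks) = (seq (ks.map (alg.ev P pr))).map enc := by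
  rw [h.unfold (tm_vec hk) (by simp [cVec]) (by simp [cVec])]
  have e1 : algS1 P (cVec ks) = ks := by simp [algS1, cVec]
  have e2 : ∀ r1, algS2 P (cVec ks) r1 = [] := fun r1 => by simp [algS2, cVec]
  have e3 : ∀ r1 r2, algOut P (cVec ks) r1 r2 = enc r1 := fun r1 r2 => by simp [algOut, cVec]
  simp only [e1, e2, e3, List.map_nil, seq_nil, pure_bind]
  rfl
theorem ev_sum (h : PrOk P mem pr) {ks : List Call} (hk : ∀ k ∈ ks, alg.Tm P k) :
    alg.ev P pr (cSum ks) = (seq (ks.map (evd ℕ P pr))).map fun l => enc l.sum := by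
  rw [h.unfold (tm_sum hk) (by simp [cSum]) (by simp [cSum])]
  have e1 : algS1 P (cSum ks) = ks := by simp [algS1, cSum]
  have e2 : ∀ r1, algS2 P (cSum ks) r1 = [] := fun r1 => by simp [algS2, cSum]
  have e3 : ∀ r1 r2, algOut P (cSum ks) r1 r2 = enc (rds r1 : List ℕ).sum :=
    fun r1 r2 => by simp [algOut, cSum]
  simp only [e1, e2, e3, List.map_nil, seq_nil, pure_bind]
  rw [semA_seq, RT.map_map]
  rfl
theorem evd_rnd (h : PrOk P mem pr) (e : ℕ) : evd ℕ P pr (cRnd e) = rnd e := by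
  rw [evd, ev_rnd h, RT.map_map]
  simp only [dec_enc, map_id']
theorem evd_avg (h : PrOk P mem pr) (hP : Good P) {k : Call} (hk : alg.Tm P k) {e : ℕ}
    (he : e ≤ P.kP) : evd ℕ P pr (cAvg k e) = (evd ℕ P pr k).avg e := by
  rw [evd, ev_avg h hP hk he, RT.map_map]
  simp only [dec_enc, map_id']
theorem evd_vec (β : Type) [Enc β] [Dec β] (h : PrOk P mem pr) {ks : List Call}
    (hk : ∀ k ∈ ks, alg.Tm P k) : evd (List β) P pr (cVec ks) = seq (ks.map (evd β P pr)) := by
  rw [evd, ev_vec h hk, RT.map_map, semA_seq]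
  simp only [dec_enc_list]
theorem evd_sum (h : PrOk P mem pr) {ks : List Call} (hk : ∀ k ∈ ks, alg.Tm P k) :
    evd ℕ P pr (cSum ks) = (seq (ks.map (evd ℕ P pr))).map List.sum := by
  rw [evd, ev_sum h hk, RT.map_map]
  simp only [dec_enc]
end Crest.Agent.R288
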