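import Crest.Agent.R288.Alg
import Crest.Agent.R288.Model

/-!
# R288: semantics of the scheme (definitions)
-/

set_option autoImplicit false

namespace Crest.Agent.R288

open Crest.Agent.Lib.PT RT

/-- The memory holds the two strings. -/
structure MemOk (P : Par) (mem : ℕ → ℕ) (x y : List ℕ) : Prop where
  hx : P.1 = x.length
  hy : P.2.1 = y.length
  mx : ∀ (i : ℕ) (h : i < x.length), mem (2 + i) = x[i]
  my : ∀ (i : ℕ) (h : i < y.length), mem (2 + x.length + i) = y[i]

/-- Primitives that agree with the real ones except for the oracle. -/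
def PrOk (P : Par) (mem : ℕ → ℕ) (pr : Call → Option (RT V)) : Prop :=
  ∀ k : Call, k.1 ≠ 8 → pr k = realPrim P mem k

/-- The decoded meaning of a call. -/
noncomputable def evd (β : Type) [Enc β] [Dec β] (P : Par) (pr : Call → Option (RT V)) (k : Call) :
    RT β := (alg.ev P pr k).map dec

/-- One draw of a raw gap test. -/
def gdrawT (P : Par) (G : ℕ → ℕ → ℤ → ℤ → ℕ → RT Bool) (e i : ℕ) (α : ℤ) (κ eb l : ℕ) : RT Bool :=
  (rnd P.kb).bind fun j => (seq ((gstates P α κ eb).map fun s =>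
    G (e - P.kb) (i * 2 ^ P.kb + j) s.1 s.2 (gg P κ eb * (2 ^ P.kγ + l + 2)))).map fun r => !r.any id

/-- A raw gap test. -/
def grawT (P : Par) (G : ℕ → ℕ → ℤ → ℤ → ℕ → RT Bool) (e i : ℕ) (α : ℤ) (κ : ℕ) : RT Bool :=
  (seq ((gdraws P).map fun q => gdrawT P G e i α κ q.1 q.2)).map fun r => graw P κ (r.countP id)

/-- The equation of the gap test. -/
def GapOk (P : Par) (F : ℕ → ℕ → ℤ → ℤ → ℕ) (G : ℕ → ℕ → ℤ → ℤ → ℕ → RT Bool) : Prop :=
  ∀ e i α γ κ, G e i α γ κ =
    if κ < (γ - α).natAbs then .pure false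
    else if κ ≤ P.F1 then .pure (decide (F e i α γ ≤ κ))
    else if e ≤ P.kb then .pure true
    else (seq (List.replicate (2 * (4 * P.hh)) (grawT P G e i α κ))).map fun r =>
      decide (4 * P.hh < r.countP id)

/-- The oracle in terms of gap tests. -/
def orcT (P : Par) (G : ℕ → ℕ → ℤ → ℤ → ℕ → RT Bool) (e i : ℕ) (α γ : ℤ) : RT ℕ :=
  if 2 ^ e ≤ (γ - α).natAbs then .pure (2 ^ e + (γ - α).natAbs) else
    (seq ((List.range (e + 2)).map fun k => G e i α γ (2 ^ k))).map fun r =>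
      min (2 ^ e + (γ - α).natAbs) (2 ^ (P.kR - 1) * 2 ^ r.findIdx id)

/-- Repair of a wrong answer of the oracle. -/
def clampO (P : Par) (x y : List ℕ) (a : AOrc) (v : V) : V :=
  if 1 ≤ FF x y a.1.n a.2.1 a.2.2.1 a.2.2.2 ∧ a.1.n ≤ 2 * P.hh ∧
      ¬ (FF x y a.1.n a.2.1 a.2.2.1 a.2.2.2 ≤ (dec v : ℕ) ∧
        (dec v : ℕ) ≤ 2 ^ P.kR * FF x y a.1.n a.2.1 a.2.2.1 a.2.2.2)
  then enc (FF x y a.1.n a.2.1 a.2.2.1 a.2.2.2) else v

/-- The primitives with the ideal oracle. -/
noncomputable def idealPrim (P : Par) (mem : ℕ → ℕ) (x y : List ℕ) (k : Call) : Option (RT V) :=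
  if k.1 = 8 then some ((alg.ev P (realPrim P mem) k).map (clampO P x y (dec k.2)))
  else realPrim P mem k

/-- The model given by the algorithm with the ideal oracle. -/
noncomputable def theModel (P : Par) (mem : ℕ → ℕ) (x y : List ℕ) : Model where
  F := FF x y
  orc r i s := evd ℕ P (idealPrim P mem x y) (cOrc (r * P.L) i s.1 s.2)
  top r i s c t := evd ℕ P (idealPrim P mem x y) (cTop r i s c t)
  sn r i pl hb p s k0 q t := evd ℕ P (idealPrim P mem x y) (cSN r i pl hb p s k0 q t)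

end Crest.Agent.R288
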