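import Crest.Agent.R288.Band
import Crest.Agent.R288.CstB

/-!
# R288: the scheme satisfies the equations of the model, auxiliary calls

`M = theModel P mem x y`.  Unfold with `PrOk.unfold`, `evd_vec`, `evd_avg`, `evd_sum`, `evd_rnd`; termination of
subcalls from `tm_top`, `tm_sn`, `tm_avg`, `tm_vec` or `Scheme.Tm.s1/s2`.
-/

set_option autoImplicit false

namespace Crest.Agent.R288

open Crest.Agent.Lib.PT RT

variable {P : Par} {mem : ℕ → ℕ} {x y : List ℕ}

section aux

variable {pr : Call → Option (RT V)}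

theorem semt_unfold (β : Type) [Enc β] [Dec β] (h : PrOk P mem pr) {k : Call} (hk : alg.Tm P k) (h1 : 1 < k.1)
    (h8 : k.1 ≠ 8) : evd β P pr k = (seq ((algS1 P k).map (alg.ev P pr))).bind fun r1 =>
      (seq ((algS2 P k r1).map (alg.ev P pr))).map fun r2 => dec (algOut P k r1 r2) := by
  unfold evd
  rw [h.unfold hk h1 h8]
  simp only [RT.map, bind_assoc, pure_bind]

theorem semt_seq (β : Type) [Enc β] [Dec β] (ks : List Call) :
    seq (ks.map (evd β P pr)) = (seq (ks.map (alg.ev P pr))).map rds := by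
  have := seq_map (ks.map (alg.ev P pr)) (dec : V → β)
  rw [List.map_map] at this
  exact this

theorem semt_one {γ : Type} (β : Type) [Enc β] [Dec β] (k : Call) (f : β → RT γ) :
    ((seq ([k].map (alg.ev P pr))).bind fun r => f (rd r 0)) = (evd β P pr k).bind f := by
  simp only [List.map_cons, List.map_nil, seq_single, evd, bind_map]
  rfl

theorem semt_two {γ : Type} (β β' : Type) [Enc β] [Dec β] [Enc β'] [Dec β'] (k k' : Call) (f : β → β' → RT γ) :
    ((seq ([k, k'].map (alg.ev P pr))).bind fun r => f (rd r 0) (rd r 1)) =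
      (evd β P pr k).bind fun a => (evd β' P pr k').bind (f a) := by
  simp only [List.map_cons, List.map_nil, seq_cons, seq_nil, evd, bind_map, bind_assoc, pure_bind]
  rfl

theorem semt_many {γ : Type} (β : Type) [Enc β] [Dec β] (ks : List Call) (f : List β → RT γ) :
    ((seq (ks.map (alg.ev P pr))).bind fun r => f (rds r)) = (seq (ks.map (evd β P pr))).bind f := by
  rw [semt_seq, bind_map]

theorem semt_zip {ι α β : Type} (l : List ι) (t : ι → RT α) (g : ι → α → β) :
    seq (l.map fun j => (t j).map (g j)) = (seq (l.map t)).map (List.zipWith g l) := by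
  induction l with
  | nil => rfl
  | cons a l ih =>
    simp only [List.map_cons, seq_cons, ih]
    simp only [RT.map, bind_assoc, pure_bind, List.zipWith_cons_cons]

theorem semt_range {α β : Type} (n : ℕ) (t : ℕ → RT α) (g : ℕ → α → β) (d : α) :
    ((seq ((List.range n).map t)).map fun r => (List.range n).map fun j => g j (r.getD j d)) =
      seq ((List.range n).map fun j => (t j).map (g j)) := by
  rw [semt_zip]
  refine bind_congr ((All_seq_length _).mono fun r hr => ?_)
  congr 1
  simp only [List.length_map, List.length_range] at hr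
  refine List.ext_getElem (by simp [hr]) fun j h1 h2 => ?_
  simp only [List.length_map, List.length_range] at h1
  simp [List.getD_eq_getElem?_getD, List.getElem?_eq_getElem (hr ▸ h1)]

theorem semt_tm_avg (hP : Good P) {k : Call} {e : ℕ} (h : alg.Tm P (cAvg k e)) : alg.Tm P k := by
  refine h.s1 (by simp [cAvg]) k ?_
  have := hP.p2_pos e
  simp [alg, algS1, cAvg, List.mem_replicate, this.ne']

theorem semt_tm_vec {ks : List Call} (h : alg.Tm P (cVec ks)) : ∀ k ∈ ks, alg.Tm P k := by
  have := h.s1 (by simp [cVec])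
  simpa [alg, algS1, cVec] using this

theorem semt_tm_sum {ks : List Call} (h : alg.Tm P (cSum ks)) : ∀ k ∈ ks, alg.Tm P k := by
  have := h.s1 (by simp [cSum])
  simpa [alg, algS1, cSum] using this

theorem semt_vec {ι : Type} (β : Type) [Enc β] [Dec β] (h : PrOk P mem pr) {l : List ι} {f : ι → Call}
    (hk : alg.Tm P (cVec (l.map f))) {g : ι → RT β} (hg : ∀ j ∈ l, alg.Tm P (f j) → evd β P pr (f j) = g j) :
    evd (List β) P pr (cVec (l.map f)) = seq (l.map g) := by
  rw [evd_vec β h (semt_tm_vec hk), List.map_map]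
  congr 1
  exact List.map_congr_left fun j hj => hg j hj (semt_tm_vec hk _ (List.mem_map_of_mem hj))

theorem semt_kK (hP : Good P) {lv : ℕ} (h : lv < P.nw) : P.kK + lv ≤ P.kP := by
  have h1 := hP.small_ll
  have h2 := hP.ll_kR
  unfold Par.nw at h
  unfold Par.kP
  omega

theorem semt_kK0 (hP : Good P) : P.kK ≤ P.kP := by
  have h1 := hP.small_ll
  have h2 := hP.ll_kR
  unfold Par.kP
  omega

end aux

theorem semt_est (hP : Good P) {r i : ℕ} {s : ℤ × ℤ} {c : Option Ctx} {t : ℕ}
    (h : alg.Tm P (cAvg (cTop r i s c t) P.kP)) :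
    evd ℕ P (idealPrim P mem x y) (cAvg (cTop r i s c t) P.kP) = (theModel P mem x y).est P r i s c t :=
  evd_avg (prOk_ideal P mem x y) hP (semt_tm_avg hP h) le_rfl

theorem evd_tab (hP : Good P) (r i : ℕ) (Zs : List ℤ) (t : ℕ) :
    alg.Tm P (cTab P r i Zs t) ∧
    evd Tab P (idealPrim P mem x y) (cTab P r i Zs t) = (theModel P mem x y).tab P r i Zs t := by
  have h : alg.Tm P (cTab P r i Zs t) := by
    refine tm_vec fun k hk => ?_
    obtain ⟨j, -, rfl⟩ := List.mem_map.1 hk
    refine tm_vec fun k hk => ?_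
    obtain ⟨z1, -, rfl⟩ := List.mem_map.1 hk
    refine tm_vec fun k hk => ?_
    obtain ⟨z2, -, rfl⟩ := List.mem_map.1 hk
    exact tm_avg (tm_top hP _ _ _ _ _ fun h => absurd rfl h) _
  refine ⟨h, semt_vec _ (prOk_ideal P mem x y) h fun j _ h => ?_⟩
  refine semt_vec _ (prOk_ideal P mem x y) h fun z1 _ h => ?_
  exact semt_vec _ (prOk_ideal P mem x y) h fun z2 _ h => semt_est hP h

theorem evd_gval (hP : Good P) (r i : ℕ) (s : ℤ × ℤ) (σ t : ℕ) (h : alg.Tm P (cGVal r i s σ t)) :
    evd (Option ℕ) P (idealPrim P mem x y) (cGVal r i s σ t) =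
      ((theModel P mem x y).gval P r i s σ t).map some := by
  have e1 : algS1 P (cGVal r i s σ t) = [cTab P r i (zgrid P s.1 σ) (t - 1)] := by
    simp [algS1, cGVal, gvalS1]
  have e2 : ∀ r1, algS2 P (cGVal r i s σ t) r1 = [] := fun r1 => by simp [algS2, cGVal]
  have e3 : ∀ r1 r2, (dec (algOut P (cGVal r i s σ t) r1 r2) : Option ℕ) =
      some (gN (zgrid P s.1 σ) (rd r1 0) (List.range P.b) s.1 s.2) := fun r1 r2 => by
    simp [algOut, cGVal, gvalOut]
  rw [semt_unfold _ (prOk_ideal P mem x y) h (by simp [cGVal]) (by simp [cGVal])]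
  simp only [e1, e2, e3, List.map_nil, seq_nil, map_pure]
  rw [semt_one Tab _ fun tb => .pure (some (gN (zgrid P s.1 σ) tb (List.range P.b) s.1 s.2)),
    (evd_tab hP _ _ _ _).2, Model.gval, map_map]
  rfl

theorem evd_plan (hP : Good P) (r i : ℕ) (s : ℤ × ℤ) (σ φ : ℕ) (h : alg.Tm P (cPlan r i s σ φ)) :
    evd (Option Plan) P (idealPrim P mem x y) (cPlan r i s σ φ) =
      (theModel P mem x y).plan P r i s σ φ := by
  have e1 : algS1 P (cPlan r i s σ φ) =
      (List.range P.T0).map fun k => cTab P r i (zgrid P s.1 σ) (wnd P φ k) := by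
    simp [algS1, cPlan, planS1]
  have e2 : ∀ r1, algS2 P (cPlan r i s σ φ) r1 = [] := fun r1 => by simp [algS2, cPlan]
  have e3 : ∀ r1 r2, (dec (algOut P (cPlan r i s σ φ) r1 r2) : Option Plan) =
      planOf P s.1 s.2 σ (rds r1) := fun r1 r2 => by
    simp [algOut, cPlan, planOut]
  rw [semt_unfold _ (prOk_ideal P mem x y) h (by simp [cPlan]) (by simp [cPlan])]
  simp only [e1, e2, e3, List.map_nil, seq_nil, map_pure]
  rw [semt_many Tab _ fun tbs => .pure (planOf P s.1 s.2 σ tbs), List.map_map]
  simp only [Function.comp_def, (evd_tab hP _ _ _ _).2]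
  rfl

theorem evd_sval (hP : Good P) (r i : ℕ) (s : ℤ × ℤ) (σ t : ℕ) (h : alg.Tm P (cSVal r i s σ t)) :
    evd (Option ℕ) P (idealPrim P mem x y) (cSVal r i s σ t) =
      (theModel P mem x y).sval P r i s σ t := by
  have e1 : algS1 P (cSVal r i s σ t) = [cPlan r i s σ (phs P t)] := by
    simp [algS1, cSVal, svalS1]
  have e2 : ∀ r1, algS2 P (cSVal r i s σ t) r1 =
      (rd r1 0 : Option Plan).elim [] fun pl => [cAvg (cSRoot P r i pl t) P.kK] := fun r1 => by
    simp [algS2, cSVal, svalS2]
  have e3 : ∀ r1 r2, (dec (algOut P (cSVal r i s σ t) r1 r2) : Option ℕ) =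
      (rd r1 0 : Option Plan).map fun pl => (rd r2 0 : ℕ) + junc P pl s.1 s.2 := fun r1 r2 => by
    simp [algOut, cSVal, svalOut]
  have t1 : alg.Tm P (cPlan r i s σ (phs P t)) := h.s1 (by simp [cSVal]) _ (by simp [alg, e1])
  have t2 : ∀ pl, alg.Tm P (cAvg (cSRoot P r i pl t) P.kK) := fun pl =>
    h.s2 (by simp [cSVal]) [enc (some pl)] _ (by simp [alg, e2, rd])
  rw [semt_unfold _ (prOk_ideal P mem x y) h (by simp [cSVal]) (by simp [cSVal])]
  simp only [e1, e2, e3]
  rw [semt_one (Option Plan) _ fun o => (seq ((o.elim [] fun pl => [cAvg (cSRoot P r i pl t) P.kK]).map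
    (alg.ev P (idealPrim P mem x y)))).map fun r2 => o.map fun pl => (rd r2 0 : ℕ) + junc P pl s.1 s.2,
    evd_plan hP _ _ _ _ _ t1, Model.sval]
  congr 1
  funext o
  cases o with
  | none => rfl
  | some pl =>
    simp only [Option.elim_some, Option.map_some, RT.map]
    rw [semt_one ℕ _ fun v => .pure (some (v + junc P pl s.1 s.2)),
      evd_avg (prOk_ideal P mem x y) hP (semt_tm_avg hP (t2 pl)) (semt_kK0 hP)]
    rfl

theorem evd_past (hP : Good P) (r i : ℕ) (c : Ctx) (t : ℕ) (h : alg.Tm P (cPast r i c t)) :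
    evd (List ℕ) P (idealPrim P mem x y) (cPast r i c t) = (theModel P mem x y).past P r i c t := by
  have e1 : algS1 P (cPast r i c t) = [cVec ((om c).map fun s => cAvg (cTop r i s none (t - 1)) P.kP),
      cVec (if nIn P t = 0 then [] else (om c).map fun s => cAvg (cTop r i s (some c) (t - 1)) P.kP)] := by
    simp [algS1, cPast, pastS1]
  have e2 : ∀ r1, algS2 P (cPast r i c t) r1 = [] := fun r1 => by simp [algS2, cPast]
  have e3 : ∀ r1 r2, (dec (algOut P (cPast r i c t) r1 r2) : List ℕ) = pastOut (rd r1 0) (rd r1 1) :=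
    fun r1 r2 => by simp [algOut, cPast, pastOut']
  have t1 := h.s1 (by simp [cPast])
  simp only [alg, e1, List.forall_mem_cons] at t1
  rw [semt_unfold _ (prOk_ideal P mem x y) h (by simp [cPast]) (by simp [cPast])]
  simp only [e1, e2, e3, List.map_nil, seq_nil, map_pure]
  rw [semt_two (List ℕ) (List ℕ) _ _ fun A B => .pure (pastOut A B),
    semt_vec _ (prOk_ideal P mem x y) t1.1 fun s _ h => semt_est hP h, Model.past]
  have t2 := t1.2.1
  split_ifs at t2 ⊢ with h0
  · rw [evd_vec _ (prOk_ideal P mem x y) (by simp)]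
    rfl
  · rw [semt_vec _ (prOk_ideal P mem x y) t2 fun s _ h => semt_est hP h]
    rfl

theorem evd_fix (hP : Good P) (r i : ℕ) (c : Ctx) (φ : ℕ) (h : alg.Tm P (cFix r i c φ)) :
    evd (ℕ × List (List (Option Plan))) P (idealPrim P mem x y) (cFix r i c φ) =
      (theModel P mem x y).fix P r i c φ := by
  have e1 : algS1 P (cFix r i c φ) = [cVec ((List.range P.T0).map fun k => cVec ((om c).map fun s =>
      cAvg (cTop r i s none (wnd P φ k)) P.kP)),
      cVec ((List.range P.nC).map fun j => cVec ((om c).map fun s => cPlan r i s (sclC P c j) φ))] := by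
    simp [algS1, cFix, fixS1]
  have e2 : ∀ r1, algS2 P (cFix r i c φ) r1 = [] := fun r1 => by simp [algS2, cFix]
  have e3 : ∀ r1 r2, (dec (algOut P (cFix r i c φ) r1 r2) : ℕ × List (List (Option Plan))) =
      fixOut P c (rd r1 0) (rd r1 1) := fun r1 r2 => by simp [algOut, cFix, fixOut']
  have t1 := h.s1 (by simp [cFix])
  simp only [alg, e1, List.forall_mem_cons] at t1
  rw [semt_unfold _ (prOk_ideal P mem x y) h (by simp [cFix]) (by simp [cFix])]
  simp only [e1, e2, e3, List.map_nil, seq_nil, map_pure]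
  rw [semt_two (List (List ℕ)) (List (List (Option Plan))) _ _ fun A B => .pure (fixOut P c A B),
    semt_vec _ (prOk_ideal P mem x y) t1.1 fun k _ h =>
      semt_vec _ (prOk_ideal P mem x y) h fun s _ h => semt_est hP h,
    semt_vec _ (prOk_ideal P mem x y) t1.2.1 fun j _ h =>
      semt_vec _ (prOk_ideal P mem x y) h fun s _ h => evd_plan hP _ _ _ _ _ h]
  rfl

theorem evd_draw (hP : Good P) (r i : ℕ) (c : Ctx) (σ lv t : ℕ) (h : alg.Tm P (cDraw r i c σ lv t)) :
    evd Drw P (idealPrim P mem x y) (cDraw r i c σ lv t) =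
      (theModel P mem x y).draw P r i c σ lv t := by
  have e1 : algS1 P (cDraw r i c σ lv t) = [cRnd P.L] := by simp [algS1, cDraw]
  have e2 : ∀ r1, algS2 P (cDraw r i c σ lv t) r1 = (tabKeys P c σ lv).map fun c' =>
      cTop (r - 1) (i * P.b + rd r1 0) (c'.1, c'.2.1) (some c') t := fun r1 => by
    simp [algS2, cDraw, drawS2]
  have e3 : ∀ r1 r2, (dec (algOut P (cDraw r i c σ lv t) r1 r2) : Drw) = (lv, rd r1 0, rds r2) :=
    fun r1 r2 => by simp [algOut, cDraw, drawOut]
  rw [semt_unfold _ (prOk_ideal P mem x y) h (by simp [cDraw]) (by simp [cDraw])]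
  simp only [e1, e2, e3]
  rw [semt_one ℕ _ fun j => (seq (((tabKeys P c σ lv).map fun c' =>
      cTop (r - 1) (i * P.b + j) (c'.1, c'.2.1) (some c') t).map (alg.ev P (idealPrim P mem x y)))).map
      fun r2 => ((lv, j, rds r2) : Drw), evd_rnd (prOk_ideal P mem x y), Model.draw]
  congr 1
  funext j
  simp only [RT.map]
  rw [semt_many ℕ _ fun es => .pure ((lv, j, es) : Drw), List.map_map]
  rfl

theorem evd_hint (hP : Good P) (r i : ℕ) (c : Ctx) (σ : ℕ) (pls : List (Option Plan)) (t : ℕ)
    (h : alg.Tm P (cHint r i c σ pls t)) :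
    evd (Option Hnt) P (idealPrim P mem x y) (cHint r i c σ pls t) =
      (theModel P mem x y).hint P r i c σ pls t := by
  have e1 : algS1 P (cHint r i c σ pls t) = (List.range P.nw).flatMap fun lv =>
      List.replicate (P.p2 (P.kK + lv)) (cDraw r i c σ lv t) := by
    simp [algS1, cHint, hintS1]
  have e2 : ∀ r1, algS2 P (cHint r i c σ pls t) r1 =
      (selP P c σ pls (rds r1)).elim [] fun pl => [cAvg (cCent P r i pl t) P.kK] := fun r1 => by
    simp [algS2, cHint, hintS2]
  have e3 : ∀ r1 r2, (dec (algOut P (cHint r i c σ pls t) r1 r2) : Option Hnt) =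
      (selP P c σ pls (rds r1)).map fun pl => (((rd r2 0 : ℕ) + cjunc P pl, cends P pl) : Hnt) :=
    fun r1 r2 => by simp [algOut, cHint, hintOut]
  have t1 : ∀ lv < P.nw, alg.Tm P (cDraw r i c σ lv t) := fun lv hlv => by
    refine h.s1 (by simp [cHint]) _ ?_
    simp only [alg, e1, List.mem_flatMap, List.mem_range, List.mem_replicate]
    exact ⟨lv, hlv, (hP.p2_pos _).ne', rfl⟩
  have t2 : ∀ (ds : List Drw) pl, selP P c σ pls ds = some pl → alg.Tm P (cAvg (cCent P r i pl t) P.kK) :=
    fun ds pl e => h.s2 (by simp [cHint]) (ds.map enc) _ (by simp [alg, e2, rds, Function.comp_def, e])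
  rw [semt_unfold _ (prOk_ideal P mem x y) h (by simp [cHint]) (by simp [cHint])]
  simp only [e1, e2, e3]
  rw [semt_many Drw _ fun ds => (seq (((selP P c σ pls ds).elim [] fun pl =>
    [cAvg (cCent P r i pl t) P.kK]).map (alg.ev P (idealPrim P mem x y)))).map fun r2 =>
      (selP P c σ pls ds).map fun pl => (((rd r2 0 : ℕ) + cjunc P pl, cends P pl) : Hnt), Model.hint,
    Model.draws, List.map_flatMap]
  congr 1
  · congr 1
    refine List.flatMap_congr fun lv hlv => ?_
    have hlv' := List.mem_range.1 hlv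
    rw [List.map_replicate, hP.p2_eq (semt_kK hP hlv'), evd_draw hP _ _ _ _ _ _ (t1 lv hlv')]
  · funext ds
    cases e : selP P c σ pls ds with
    | none => rfl
    | some pl =>
      have t3 := semt_tm_avg hP (t2 ds pl e)
      simp only [Option.elim_some, Option.map_some, RT.map]
      rw [semt_one ℕ _ fun v => .pure (some ((v + cjunc P pl, cends P pl) : Hnt)),
        evd_avg (prOk_ideal P mem x y) hP t3 (semt_kK0 hP), cCent,
        evd_sum (prOk_ideal P mem x y) (semt_tm_sum t3), List.map_map]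
      rfl

theorem evd_com (hP : Good P) (r i : ℕ) (c : Ctx) (t : ℕ) (h : alg.Tm P (cCom r i c t)) :
    evd Com P (idealPrim P mem x y) (cCom r i c t) = (theModel P mem x y).com P r i c t := by
  have e1 : algS1 P (cCom r i c t) = [cPast r i c t, cFix r i c (phs P t)] := by
    simp [algS1, cCom, comS1]
  have e2 : ∀ r1, algS2 P (cCom r i c t) r1 = (List.range P.nC).map fun j => if j < P.kg then cSum [] else
      cHint r i c (sclC P c j) ((rd r1 1 : ℕ × List (List (Option Plan))).2.getD j []) t := fun r1 => by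
    simp [algS2, cCom, comS2]
  have e3 : ∀ r1 r2, (dec (algOut P (cCom r i c t) r1 r2) : Com) =
      ((rd r1 0 : List ℕ), (rd r1 1 : ℕ × List (List (Option Plan))).1,
        (rd r1 1 : ℕ × List (List (Option Plan))).2, (List.range P.nC).map fun j => if j < P.kg then
          statH P ((rd r1 1 : ℕ × List (List (Option Plan))).2.getD j []) else rd r2 j) := fun r1 r2 => by
    simp [algOut, cCom, comOut]
  have t1 := h.s1 (by simp [cCom])
  simp only [alg, e1, List.forall_mem_cons] at t1
  have t2 : ∀ (f : ℕ × List (List (Option Plan))), ∀ j < P.nC, ¬ j < P.kg →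
      alg.Tm P (cHint r i c (sclC P c j) (f.2.getD j []) t) := fun f j hj hj' => by
    refine h.s2 (by simp [cCom]) [.nil, enc f] _ ?_
    simp only [alg, e2, List.mem_map, List.mem_range]
    exact ⟨j, hj, by simp [hj', rd]⟩
  rw [semt_unfold _ (prOk_ideal P mem x y) h (by simp [cCom]) (by simp [cCom])]
  simp only [e1, e2, e3]
  rw [semt_two (List ℕ) (ℕ × List (List (Option Plan))) _ _ fun zs f =>
    (seq (((List.range P.nC).map fun j => if j < P.kg then cSum [] else
      cHint r i c (sclC P c j) (f.2.getD j []) t).map (alg.ev P (idealPrim P mem x y)))).map fun r2 =>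
      ((zs, f.1, f.2, (List.range P.nC).map fun j => if j < P.kg then statH P (f.2.getD j []) else rd r2 j) : Com),
    evd_past hP _ _ _ _ t1.1, evd_fix hP _ _ _ _ t1.2.1, Model.com]
  congr 1
  funext zs
  congr 1
  funext f
  have key := semt_range P.nC (fun j => alg.ev P (idealPrim P mem x y) (if j < P.kg then cSum [] else
      cHint r i c (sclC P c j) (f.2.getD j []) t))
    (fun j v => if j < P.kg then statH P (f.2.getD j []) else (dec v : Option Hnt)) V.nil
  have k2 : ((List.range P.nC).map fun j => (alg.ev P (idealPrim P mem x y) (if j < P.kg then cSum [] else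
      cHint r i c (sclC P c j) (f.2.getD j []) t)).map
      fun v => if j < P.kg then statH P (f.2.getD j []) else (dec v : Option Hnt)) =
      (List.range P.nC).map fun j => (theModel P mem x y).hintj P r i c j (f.2.getD j []) t := by
    refine List.map_congr_left fun j hj => ?_
    unfold Model.hintj
    split_ifs with hj'
    · rw [ev_sum (prOk_ideal P mem x y) (by simp)]
      rfl
    · exact evd_hint hP _ _ _ _ _ _ (t2 f j (List.mem_range.1 hj) hj')
  rw [← k2, ← key, map_map, List.map_map]
  rfl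

end Crest.Agent.R288
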