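import Crest.Agent.R288.Alg
import Crest.Agent.R288.SchA
import Crest.Agent.R288.ParA

/-!
# R288/SzsA: boxes, typed size judgements (framework; owner helper18)

`N = nn P = 2 ^ kP` bounds all small parameters.  `bx N Y a`: the binary numbers in `a` are `≤ Y` (in absolute
value), the unary numbers are `≤ N`, the lists have length `≤ N ^ 3`.
`GT P mem M n j k q`: the call `k` has size `≤ M ^ j`, and for fuel `m ≤ n` its call tree has sizes `≤ M ^ 40`
and its results are codes of values `b` with `q b` (of size `≤ M ^ j`).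
`St … n ks R`: the same for a list of calls, whose list of results satisfies `R`.
`Body … n s1 s2 out q`: the two stages are fine and the output satisfies `q`.
-/

set_option autoImplicit false

namespace Crest.Agent.R288.Sz

open Crest.Agent.Lib.PT RT

/-- `N = 2 ^ kP` -/
def nn (P : Par) : ℕ := 2 ^ P.kP

/-- Types with boxes. -/
class Bx (α : Type) [Enc α] where
  /-- the box -/
  bx : ℕ → ℕ → α → Prop
  /-- the degree of the size bound -/
  deg : ℕ
  mono : ∀ {N Y Y' : ℕ} {a : α}, bx N Y a → Y ≤ Y' → bx N Y' a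
  sz_le : ∀ {N Y M : ℕ} {a : α}, bx N Y a → N ^ 3 ≤ M → 5 ≤ N → Y < 2 ^ M → sz a ≤ M ^ deg

export Bx (bx deg)

theorem szsa_M {N M : ℕ} (h : N ^ 3 ≤ M) (h5 : 5 ≤ N) : 125 ≤ M ∧ 25 * N ≤ M := by
  have h1 : 5 ^ 3 ≤ N ^ 3 := Nat.pow_le_pow_left h5 3
  have h2 : 5 ^ 2 * N ≤ N ^ 2 * N := Nat.mul_le_mul_right _ (Nat.pow_le_pow_left h5 2)
  have h3 : N ^ 2 * N = N ^ 3 := by ring
  omega

instance bxNat : Bx ℕ where
  bx _ Y a := a ≤ Y
  deg := 2
  mono h h' := h.trans h'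
  sz_le {N Y M a} h h1 h2 h3 := by
    have := sz_nat_le_of_lt (lt_of_le_of_lt h h3)
    have := (szsa_M h1 h2).1
    nlinarith

instance bxInt : Bx ℤ where
  bx _ Y a := a.natAbs ≤ Y
  deg := 2
  mono h h' := h.trans h'
  sz_le {N Y M a} h h1 h2 h3 := by
    have := sz_int_le_of_lt (lt_of_le_of_lt h h3)
    have := (szsa_M h1 h2).1
    nlinarith

instance bxUn : Bx Un where
  bx N _ a := a.n ≤ N
  deg := 2
  mono h _ := h
  sz_le {N Y M a} h h1 h2 _ := by
    have := szsa_M h1 h2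
    rw [sz_un]
    nlinarith

instance bxBool : Bx Bool where
  bx _ _ _ := True
  deg := 1
  mono h _ := h
  sz_le {N Y M a} _ h1 h2 _ := by
    have := sz_bool_le a
    have := (szsa_M h1 h2).1
    rw [pow_one]
    omega

instance bxProd {α β : Type} [Enc α] [Enc β] [Bx α] [Bx β] : Bx (α × β) where
  bx N Y p := bx N Y p.1 ∧ bx N Y p.2
  deg := max (deg α) (deg β) + 1
  mono h h' := ⟨Bx.mono h.1 h', Bx.mono h.2 h'⟩
  sz_le {N Y M a} h h1 h2 h3 := by
    have a1 := Bx.sz_le h.1 h1 h2 h3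
    have a2 := Bx.sz_le h.2 h1 h2 h3
    have a3 := (szsa_M h1 h2).1
    have a4 : M ^ deg α ≤ M ^ max (deg α) (deg β) := Nat.pow_le_pow_right (by omega) (le_max_left _ _)
    have a5 : M ^ deg β ≤ M ^ max (deg α) (deg β) := Nat.pow_le_pow_right (by omega) (le_max_right _ _)
    have a6 : 0 < M ^ max (deg α) (deg β) := by positivity
    rw [sz_prod, pow_succ]
    nlinarith

instance bxList {α : Type} [Enc α] [Bx α] : Bx (List α) where
  bx N Y l := l.length ≤ N ^ 3 ∧ ∀ a ∈ l, bx N Y a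
  deg := deg α + 2
  mono h h' := ⟨h.1, fun a ha => Bx.mono (h.2 a ha) h'⟩
  sz_le {N Y M l} h h1 h2 h3 := by
    have a1 := sz_list_le (l := l) (B := M ^ deg α) fun a ha => Bx.sz_le (h.2 a ha) h1 h2 h3
    have a2 := Nat.mul_le_mul_right (M ^ deg α + 1) (h.1.trans h1)
    have a3 := (szsa_M h1 h2).1
    have a6 : 0 < M ^ deg α := by positivity
    have a7 : 125 * (M * M ^ deg α) ≤ M * (M * M ^ deg α) := Nat.mul_le_mul_right _ a3
    have a8 : M * 1 ≤ M * M ^ deg α := Nat.mul_le_mul_left _ a6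
    rw [pow_succ', pow_succ']
    rw [mul_add M] at a2
    omega

instance bxOption {α : Type} [Enc α] [Bx α] : Bx (Option α) where
  bx N Y o := ∀ a, o = some a → bx N Y a
  deg := deg α + 1
  mono h h' := fun a ha => Bx.mono (h a ha) h'
  sz_le {N Y M o} h h1 h2 h3 := by
    have a3 := (szsa_M h1 h2).1
    have a6 : 0 < M ^ deg α := by positivity
    rw [pow_succ]
    cases o with
    | none => rw [sz_none]; nlinarith
    | some a =>
      have a1 := Bx.sz_le (h a rfl) h1 h2 h3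
      rw [sz_some]
      nlinarith

section simps

variable {N Y : ℕ} {α β : Type} [Enc α] [Enc β] [Bx α] [Bx β]

@[simp] theorem bx_nat (a : ℕ) : bx N Y a ↔ a ≤ Y := Iff.rfl
@[simp] theorem bx_int (a : ℤ) : bx N Y a ↔ a.natAbs ≤ Y := Iff.rfl
@[simp] theorem bx_un (a : Un) : bx N Y a ↔ a.n ≤ N := Iff.rfl
@[simp] theorem bx_bool (a : Bool) : bx N Y a ↔ True := Iff.rfl
theorem bx_prod (p : α × β) : bx N Y p ↔ bx N Y p.1 ∧ bx N Y p.2 := Iff.rfl
@[simp] theorem bx_mk (a : α) (b : β) : bx N Y (a, b) ↔ bx N Y a ∧ bx N Y b := Iff.rfl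
theorem bx_list (l : List α) : bx N Y l ↔ l.length ≤ N ^ 3 ∧ ∀ a ∈ l, bx N Y a := Iff.rfl
theorem bx_option (o : Option α) : bx N Y o ↔ ∀ a, o = some a → bx N Y a := Iff.rfl
@[simp] theorem bx_none : bx N Y (none : Option α) := fun _ h => by cases h
@[simp] theorem bx_some (a : α) : bx N Y (some a) ↔ bx N Y a :=
  ⟨fun h => h a rfl, fun h _ e => Option.some.inj e ▸ h⟩
@[simp] theorem bx_nil : bx N Y ([] : List α) := ⟨Nat.zero_le _, fun _ h => absurd h List.not_mem_nil⟩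

theorem bx_getD {l : List α} (h : bx N Y l) (j : ℕ) {d : α} (hd : bx N Y d) : bx N Y (l.getD j d) := by
  rw [List.getD_eq_getElem?_getD]
  cases e : l[j]? with
  | none => exact hd
  | some a => exact h.2 a (List.mem_of_getElem? e)

end simps

/-! ### Arithmetic of the ladder `X * N ^ j` -/

theorem lad_mono {N : ℕ} (hN : 100 ≤ N) (X : ℕ) {i j : ℕ} (h : i ≤ j) : X * N ^ i ≤ X * N ^ j :=
  Nat.mul_le_mul_left _ (Nat.pow_le_pow_right (by omega) h)

theorem lad_le {N : ℕ} (hN : 100 ≤ N) (X j : ℕ) : X ≤ X * N ^ j :=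
  Nat.le_mul_of_pos_right _ (Nat.pow_pos (by omega))

/-- one rung is a hundred times the previous one (feed to `omega`) -/
theorem lad_step {N : ℕ} (hN : 100 ≤ N) (X j : ℕ) : 100 * (X * N ^ j) ≤ X * N ^ (j + 1) := by
  rw [pow_succ, ← mul_assoc X, mul_comm 100]
  exact Nat.mul_le_mul_left _ hN

theorem lad_mul {N X a b i j : ℕ} (ha : a ≤ X * N ^ i) (hb : b ≤ N ^ j) : a * b ≤ X * N ^ (i + j) := by
  rw [pow_add, ← mul_assoc]
  exact Nat.mul_le_mul ha hb

theorem lad_mul_N {N X a b i : ℕ} (ha : a ≤ X * N ^ i) (hb : b ≤ N) : a * b ≤ X * N ^ (i + 1) := by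
  rw [pow_succ, ← mul_assoc]
  exact Nat.mul_le_mul ha hb

theorem lad_assoc (N X i j : ℕ) : X * N ^ i * N ^ j = X * N ^ (i + j) := by rw [pow_add, mul_assoc]

/-- `100 N ≤ N ^ 2`, `100 N ^ 2 ≤ N ^ 3` -/
theorem lad_pow {N : ℕ} (hN : 100 ≤ N) : 100 * N ≤ N ^ 2 ∧ 100 * N ^ 2 ≤ N ^ 3 := by
  have h1 := lad_step hN 1 1
  have h2 := lad_step hN 1 2
  simp only [one_mul, pow_one] at h1 h2
  exact ⟨h1, h2⟩

/-! ### Judgements -/

/-- The environment. -/
structure Env (P : Par) (mem : ℕ → ℕ) (M : ℕ) : Prop where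
  good : Good P
  big : nn P ^ 3 ≤ M
  sym : ∀ a, mem a < 2 ^ M

/-- Typed size judgement for a call. -/
structure GT (P : Par) (mem : ℕ → ℕ) (M n j : ℕ) (k : Call) {β : Type} [Enc β] (q : β → Prop) : Prop where
  szk : sz k ≤ M ^ j
  run : ∀ m ≤ n, ∀ c, alg.Cst P m c k → alg.Szb P (realPrim P mem) (M ^ 40) m k ∧
    (alg.eval P (realPrim P mem) m k).All fun v => ∃ b, v = enc b ∧ q b ∧ sz b ≤ M ^ j

/-- Size judgement for a stage. -/
structure St (P : Par) (mem : ℕ → ℕ) (M n : ℕ) (ks : List Call) (R : List V → Prop) : Prop where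
  len : ks.length ≤ M ^ 40
  run : ∀ m ≤ n, (∀ k ∈ ks, ∃ c, alg.Cst P m c k) → (∀ k ∈ ks, alg.Szb P (realPrim P mem) (M ^ 40) m k) ∧
    (seq (ks.map (alg.eval P (realPrim P mem) m))).All R

/-- The two stages and the output. -/
def Body (P : Par) (mem : ℕ → ℕ) (M n : ℕ) (s1 : List Call) (s2 : List V → List Call) (out : List V → List V → V)
    {β : Type} [Enc β] (q : β → Prop) : Prop :=
  ∃ R1, St P mem M n s1 R1 ∧ ∀ r1, R1 r1 → ∃ R2, St P mem M n (s2 r1) R2 ∧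
    ∀ r2, R2 r2 → ∃ b, out r1 r2 = enc b ∧ q b

/-- The stages of the call `k`. -/
structure Eqs (P : Par) (k : Call) (s1 : List Call) (s2 : List V → List Call) (out : List V → List V → V) : Prop where
  tag : 2 ≤ k.1 ∧ k.1 ≤ 22
  e1 : algS1 P k = s1
  e2 : ∀ r1, algS2 P k r1 = s2 r1
  e3 : ∀ r1 r2, algOut P k r1 r2 = out r1 r2

/-- Invariant of the banded programme and of the gap tests at height `e`. -/
structure Lo (P : Par) (M e Y : ℕ) : Prop where
  N_le : nn P ≤ Y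
  h_le : 2 ^ P.hh ≤ Y
  e_le : e ≤ nn P
  fit : Y * nn P ^ (3 * (e + 1)) < 2 ^ M

/-- Invariant at block level `r`. -/
structure Lv (P : Par) (M r X : ℕ) : Prop where
  N_le : nn P ≤ X
  h_le : 2 ^ (2 * P.hh) ≤ X
  r_le : r ≤ P.H
  fit : X * nn P ^ (12 * (r + 1) + 6 * P.hh + 6) < 2 ^ M

/-- Bound for the value of a state. -/
def topB (P : Par) (r : ℕ) (s : ℤ × ℤ) (c : Option Ctx) : ℕ :=
  max P.F0 (c.elim (2 ^ (r * P.L) + (s.2 - s.1).natAbs) (cap P))

/-- The claim for `cTop`. -/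
def TopC (P : Par) (mem : ℕ → ℕ) (M n : ℕ) : Prop :=
  ∀ (r X i : ℕ) (s : ℤ × ℤ) (c : Option Ctx) (t : ℕ), Lv P M r X → i ≤ X → bx (nn P) (X * nn P ^ 2) s →
    bx (nn P) X c → t ≤ nn P → GT P mem M n 20 (cTop r i s c t) fun v : ℕ => v ≤ topB P r s c

/-- The claim for `cSN`. -/
def SnC (P : Par) (mem : ℕ → ℕ) (M n : ℕ) : Prop :=
  ∀ (r X i : ℕ) (pl : Plan) (hb p : ℕ) (s : ℤ × ℤ) (k0 q t : ℕ), Lv P M r X → 1 ≤ r → i ≤ X →
    bx (nn P) (X * nn P ^ 8) pl → hb ≤ P.L → p < 2 ^ (P.L - hb) → bx (nn P) (X * nn P ^ 11) s →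
    k0 + q * nn P ≤ nn P ^ 2 → t ≤ nn P →
    GT P mem M n 20 (cSN r i pl hb p s k0 q t) fun v : ℕ => v ≤ 2 ^ hb * (X * nn P ^ 10)

end Crest.Agent.R288.Sz
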