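import Crest.Agent.R288.SzsA

/-!
# R288/SzsB: rules for `GT`, `St`, `Body`; the generic calls; the stage equations (owner helper18)
-/

set_option autoImplicit false

namespace Crest.Agent.R288.Sz

open Crest.Agent.Lib.PT RT

variable {P : Par} {mem : ℕ → ℕ} {M n j : ℕ} {α β γ : Type} [Enc α] [Enc β] [Enc γ]

/-! ### Decoding results -/

@[simp] theorem rd_zero [Dec β] (a : β) (l : List V) : (rd (enc a :: l) 0 : β) = a := by simp [rd]

@[simp] theorem rd_succ [Dec β] (v : V) (l : List V) (i : ℕ) : (rd (v :: l) (i + 1) : β) = rd l i := by simp [rd]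

theorem rd_one [Dec β] (v : V) (a : β) (l : List V) : (rd (v :: enc a :: l) 1 : β) = a := by simp

theorem rd_two [Dec β] (v w : V) (a : β) (l : List V) : (rd (v :: w :: enc a :: l) 2 : β) = a := by simp

@[simp] theorem rds_map_enc [Dec β] (l : List β) : (rds (l.map enc) : List β) = l := by
  simp [rds, List.map_map, Function.comp_def]

theorem rd_map_enc [Dec β] {q : β → Prop} {l : List β} (h : ∀ b ∈ l, q b) (h0 : q (dec V.nil)) (i : ℕ) :
    q (rd (l.map enc) i) := by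
  unfold rd
  rw [List.getD_eq_getElem?_getD, List.getElem?_map]
  cases e : l[i]? with
  | none => exact h0
  | some a => simpa using h a (List.mem_of_getElem? e)

theorem dec_nil_option [Dec β] : (dec V.nil : Option β) = none := rfl

theorem dec_nil_nat : (dec V.nil : ℕ) = 0 := rfl

theorem enc_map_enc (l : List β) : enc (l.map enc : List V) = enc l := by
  induction l with
  | nil => rfl
  | cons a l ih => rw [List.map_cons, enc_cons, enc_cons, ih, enc_V]

/-! ### Rules -/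

theorem _root_.Crest.Agent.R288.Good.szsb_nn (h : Good P) : 5 ≤ nn P := by
  have h1 := h.ll_kR
  have h2 := h.aux_ll_ne
  have h3 : P.kP < 2 ^ P.kP := Nat.lt_two_pow_self
  rw [Par.kP.eq_1] at h3
  rw [nn, Par.kP.eq_1]
  omega

theorem Env.szsb_M (E : Env P mem M) : 125 ≤ M := (szsa_M E.big E.good.szsb_nn).1

theorem Env.szsb_len (E : Env P mem M) {a : ℕ} (h : a ≤ 125) : a ≤ M ^ 40 :=
  (h.trans E.szsb_M).trans (Nat.le_self_pow (by norm_num) _)

theorem szsb_pow (hM : 125 ≤ M) (j : ℕ) : M * M ^ j + M ^ j + 100 * M ≤ M ^ (j + 2) := by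
  have h1 : 0 < M ^ j := by positivity
  have h2 : 125 * (M * M ^ j) ≤ M * (M * M ^ j) := Nat.mul_le_mul_right _ hM
  have h3 : M * 1 ≤ M * M ^ j := Nat.mul_le_mul_left _ h1
  have h4 : 1 * M ^ j ≤ M * M ^ j := Nat.mul_le_mul_right _ (by omega)
  rw [pow_succ', pow_succ']
  omega

theorem szsb_ofBits (l : List Bool) : ofBits l < 2 ^ l.length := by
  induction l with
  | nil => simp
  | cons b l ih =>
    rw [ofBits_cons, Nat.bit_val, List.length_cons, pow_succ]
    have := b.toNat_le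
    omega

theorem GT.szsb_sized {k : Call} {q : β → Prop} (h : GT P mem M n j k q) :
    GT P mem M n j k fun b => q b ∧ sz b ≤ M ^ j := by
  refine ⟨h.szk, fun m hm c hc => ⟨(h.run m hm c hc).1, (h.run m hm c hc).2.mono ?_⟩⟩
  rintro v ⟨b, h2, h3, h4⟩
  exact ⟨b, h2, ⟨h3, h4⟩, h4⟩

theorem St.szsb_mono {ks : List Call} {R R' : List V → Prop} (h : St P mem M n ks R) (hR : ∀ r, R r → R' r) :
    St P mem M n ks R' :=
  ⟨h.len, fun m hm hc => ⟨(h.run m hm hc).1, (h.run m hm hc).2.mono hR⟩⟩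

theorem St.szsb_anti {ks : List Call} {R : List V → Prop} {n' : ℕ} (h : St P mem M n ks R) (hn : n' ≤ n) :
    St P mem M n' ks R :=
  ⟨h.len, fun m hm hc => h.run m (hm.trans hn) hc⟩

theorem Body.szsb_anti {s1 : List Call} {s2 : List V → List Call} {out : List V → List V → V} {q : β → Prop} {n' : ℕ}
    (h : Body P mem M n s1 s2 out q) (hn : n' ≤ n) : Body P mem M n' s1 s2 out q := by
  obtain ⟨R1, h1, h2⟩ := h
  refine ⟨R1, h1.szsb_anti hn, fun r1 hr => ?_⟩
  obtain ⟨R2, h3, h4⟩ := h2 r1 hr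
  exact ⟨R2, h3.szsb_anti hn, h4⟩

theorem Body.szsb_imp {s1 : List Call} {s2 : List V → List Call} {out : List V → List V → V} {q q' : β → Prop}
    (h : Body P mem M n s1 s2 out q) (hq : ∀ b, q b → q' b) : Body P mem M n s1 s2 out q' := by
  obtain ⟨R1, h1, h2⟩ := h
  refine ⟨R1, h1, fun r1 hr => ?_⟩
  obtain ⟨R2, h3, h4⟩ := h2 r1 hr
  refine ⟨R2, h3, fun r2 hr2 => ?_⟩
  obtain ⟨b, h5, h6⟩ := h4 r2 hr2
  exact ⟨b, h5, hq b h6⟩

theorem szsb_cons {k : Call} {ks : List Call} {q : β → Prop} {R : List V → Prop} (h : GT P mem M n j k q)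
    (h' : St P mem M n ks R) (hl : (k :: ks).length ≤ M ^ 40) :
    St P mem M n (k :: ks) fun r => ∃ a r', r = enc a :: r' ∧ q a ∧ R r' := by
  refine ⟨hl, fun m hm hc => ?_⟩
  obtain ⟨c, h1⟩ := hc k List.mem_cons_self
  obtain ⟨h2, h3⟩ := h.run m hm c h1
  obtain ⟨h4, h5⟩ := h'.run m hm fun k' hk' => hc k' (List.mem_cons_of_mem _ hk')
  refine ⟨fun k' hk' => ?_, ?_⟩
  · rcases List.mem_cons.1 hk' with rfl | hk'
    · exact h2
    · exact h4 k' hk'
  · rw [List.map_cons, All_seq_cons]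
    refine h3.mono ?_
    rintro _ ⟨b, rfl, h6, -⟩
    exact h5.mono fun r hr => ⟨b, r, rfl, h6, hr⟩

theorem szsb_prim (E : Env P mem M) {k : Call} {t : RT V} {q : β → Prop} (ht : realPrim P mem k = some t)
    (hk : sz k ≤ M ^ 20) (h : t.All fun v => ∃ b, v = enc b ∧ q b ∧ sz b ≤ M ^ 20) : GT P mem M n 20 k q := by
  have h1 : M ^ 20 ≤ M ^ 40 := Nat.pow_le_pow_right (by have := E.szsb_M; omega) (by norm_num)
  refine ⟨hk, fun m _ c hc => ?_⟩
  cases m with
  | zero => exact hc.elim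
  | succ m =>
    have h2 : alg.eval P (realPrim P mem) (m + 1) k = t := by simp only [Scheme.eval, ht, Option.getD_some]
    refine ⟨⟨hk.trans h1, ?_, fun e => by rw [ht] at e; cases e⟩, h2 ▸ h⟩
    rw [h2]
    refine h.mono ?_
    rintro _ ⟨b, rfl, -, h3⟩
    exact h3.trans h1

theorem szsb_coin (E : Env P mem M) : GT P mem M n 20 cCoin fun _ : Bool => True := by
  have hM := E.szsb_M
  have a5 : M ≤ M ^ 20 := Nat.le_self_pow (by norm_num) _
  refine szsb_prim E (t := .coin (.pure (enc false)) (.pure (enc true))) (by simp [realPrim, cCoin]) ?_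
    ⟨⟨false, rfl, trivial, (sz_bool_le _).trans (by omega)⟩, ⟨true, rfl, trivial, (sz_bool_le _).trans (by omega)⟩⟩
  have a6 : sz cCoin = 3 := rfl
  omega

theorem szsb_core (E : Env P mem M) {k : Call} {s1 : List Call} {s2 : List V → List Call}
    {out : List V → List V → V} (he : Eqs P k s1 s2 out) (hk : sz k ≤ M ^ j) (hj : j ≤ 40) {q : β → Prop}
    (h : ∀ n' < n, Body P mem M n' s1 s2 out fun b => q b ∧ sz b ≤ M ^ j) : GT P mem M n j k q := by
  have h1 : M ^ j ≤ M ^ 40 := Nat.pow_le_pow_right (by have := E.szsb_M; omega) hj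
  refine ⟨hk, fun m hm c hc => ?_⟩
  cases m with
  | zero => exact hc.elim
  | succ m =>
    have ht := he.tag.1
    have e : realPrim P mem k = none := by
      unfold realPrim
      rw [if_neg (by omega), if_neg (by omega)]
    obtain ⟨f1, g1, g2⟩ := hc.2.resolve_left (by omega)
    obtain ⟨R1, b1, b2⟩ := h m hm
    have e1 : alg.s1 P k = s1 := he.e1
    have e2 : ∀ r1, alg.s2 P k r1 = s2 r1 := he.e2
    have e3 : ∀ r1 r2, alg.out P k r1 r2 = out r1 r2 := he.e3
    rw [e1] at g1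
    obtain ⟨a0, a1⟩ := b1.run m le_rfl fun k' hk' => ⟨_, g1 k' hk'⟩
    have a2 : ∀ r1, ∀ k' ∈ s2 r1, ∃ c, alg.Cst P m c k' := fun r1 k' hk' => by
      obtain ⟨f2, g3, -⟩ := g2 r1
      rw [e2] at g3
      exact ⟨_, g3 k' hk'⟩
    have a3 : (alg.eval P (realPrim P mem) (m + 1) k).All fun v => ∃ b, v = enc b ∧ q b ∧ sz b ≤ M ^ j := by
      simp only [Scheme.eval, e, Option.getD_none, Scheme.body, All_bind, All_pure, e1, e2, e3]
      refine a1.mono fun r1 hr1 => ?_
      obtain ⟨R2, c1, c2⟩ := b2 r1 hr1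
      exact (c1.run m le_rfl (a2 r1)).2.mono c2
    refine ⟨⟨hk.trans h1, a3.mono ?_, fun _ => ?_⟩, a3⟩
    · rintro _ ⟨b, rfl, -, h3⟩
      exact h3.trans h1
    · rw [e1]
      refine ⟨b1.len, a0, a1.mono fun r1 hr1 => ?_⟩
      obtain ⟨R2, c1, -⟩ := b2 r1 hr1
      rw [e2]
      exact ⟨c1.len, (c1.run m le_rfl (a2 r1)).1⟩

theorem GT.mono {k : Call} {q q' : β → Prop} {n' j' : ℕ} (E : Env P mem M) (h : GT P mem M n j k q) (hn : n' ≤ n)
    (hj : j ≤ j') (hq : ∀ b, q b → q' b) : GT P mem M n' j' k q' := by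
  have h1 : M ^ j ≤ M ^ j' := Nat.pow_le_pow_right (by have := E.szsb_M; omega) hj
  refine ⟨h.szk.trans h1, fun m hm c hc => ⟨(h.run m (hm.trans hn) c hc).1,
    (h.run m (hm.trans hn) c hc).2.mono ?_⟩⟩
  rintro v ⟨b, h2, h3, h4⟩
  exact ⟨b, h2, hq b h3, h4.trans h1⟩

theorem GT.imp {k : Call} {q q' : β → Prop} (h : GT P mem M n j k q) (hq : ∀ b, q b → q' b) :
    GT P mem M n j k q' := by
  refine ⟨h.szk, fun m hm c hc => ⟨(h.run m hm c hc).1, (h.run m hm c hc).2.mono ?_⟩⟩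
  rintro v ⟨b, h2, h3, h4⟩
  exact ⟨b, h2, hq b h3, h4⟩

theorem St.nil (E : Env P mem M) : St P mem M n [] fun r => r = [] := by
  have _ := E
  exact ⟨Nat.zero_le _, fun m _ _ => ⟨fun k hk => absurd hk List.not_mem_nil, rfl⟩⟩

theorem St.one (E : Env P mem M) {k : Call} {q : α → Prop} (h : GT P mem M n j k q) :
    St P mem M n [k] fun r => ∃ a, r = [enc a] ∧ q a := by
  refine (szsb_cons h (St.nil E) (E.szsb_len (by simp))).szsb_mono ?_
  rintro _ ⟨a, _, rfl, ha, rfl⟩
  exact ⟨a, rfl, ha⟩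

theorem St.two (E : Env P mem M) {k k' : Call} {q : α → Prop} {q' : β → Prop} {j' : ℕ} (h : GT P mem M n j k q)
    (h' : GT P mem M n j' k' q') : St P mem M n [k, k'] fun r => ∃ a b, r = [enc a, enc b] ∧ q a ∧ q' b := by
  refine (szsb_cons h (St.one E h') (E.szsb_len (by simp))).szsb_mono ?_
  rintro _ ⟨a, _, rfl, ha, b, rfl, hb⟩
  exact ⟨a, b, rfl, ha, hb⟩

theorem St.three (E : Env P mem M) {k k' k'' : Call} {q : α → Prop} {q' : β → Prop} {q'' : γ → Prop} {j' j'' : ℕ}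
    (h : GT P mem M n j k q) (h' : GT P mem M n j' k' q') (h'' : GT P mem M n j'' k'' q'') :
    St P mem M n [k, k', k''] fun r => ∃ a b c, r = [enc a, enc b, enc c] ∧ q a ∧ q' b ∧ q'' c := by
  refine (szsb_cons h (St.two E h' h'') (E.szsb_len (by simp))).szsb_mono ?_
  rintro _ ⟨a, _, rfl, ha, b, c, rfl, hb, hc⟩
  exact ⟨a, b, c, rfl, ha, hb, hc⟩

theorem St.hom (E : Env P mem M) {ks : List Call} {q : β → Prop} (h : ∀ k ∈ ks, GT P mem M n j k q)
    (hl : ks.length ≤ nn P ^ 3) :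
    St P mem M n ks fun r => ∃ l : List β, r = l.map enc ∧ l.length = ks.length ∧ ∀ b ∈ l, q b := by
  induction ks with
  | nil => exact (St.nil E).szsb_mono fun r hr => ⟨[], hr, rfl, fun b hb => absurd hb List.not_mem_nil⟩
  | cons k ks ih =>
    have h1 := ih (fun k' hk' => h k' (List.mem_cons_of_mem _ hk')) ((Nat.le_succ _).trans hl)
    refine (szsb_cons (h k List.mem_cons_self) h1 ((hl.trans E.big).trans
      (Nat.le_self_pow (by norm_num) _))).szsb_mono ?_
    rintro _ ⟨a, _, rfl, ha, l, rfl, h2, h3⟩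
    refine ⟨a :: l, rfl, by simp [h2], fun b hb => ?_⟩
    rcases List.mem_cons.1 hb with rfl | hb
    · exact ha
    · exact h3 b hb

/-- two stages -/
theorem Body.two {s1 : List Call} {s2 : List V → List Call} {out : List V → List V → V} {q : β → Prop}
    {R1 : List V → Prop} (h1 : St P mem M n s1 R1) (h2 : ∀ r1, R1 r1 → ∃ R2, St P mem M n (s2 r1) R2 ∧
      ∀ r2, R2 r2 → ∃ b, out r1 r2 = enc b ∧ q b) : Body P mem M n s1 s2 out q := ⟨R1, h1, h2⟩

/-- the second stage is empty -/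
theorem Body.one (E : Env P mem M) {s1 : List Call} {s2 : List V → List Call} {out : List V → List V → V}
    {q : β → Prop} {R1 : List V → Prop} (h1 : St P mem M n s1 R1)
    (h2 : ∀ r1, R1 r1 → s2 r1 = [] ∧ ∃ b, out r1 [] = enc b ∧ q b) : Body P mem M n s1 s2 out q :=
  ⟨R1, h1, fun r1 hr => ⟨fun r => r = [], by rw [(h2 r1 hr).1]; exact St.nil E,
    fun _ e => by rw [e]; exact (h2 r1 hr).2⟩⟩

/-- The main rule, for recursive calls. -/
theorem GT.of_body [Bx α] [Bx β] (E : Env P mem M) {tag : ℕ} {a : α} {s1 : List Call} {s2 : List V → List Call}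
    {out : List V → List V → V} (he : Eqs P (tag, enc a) s1 s2 out) {Y Y' : ℕ} (ha : bx (nn P) Y a) (hY : Y < 2 ^ M)
    {q : β → Prop} (hq : ∀ b, q b → bx (nn P) Y' b) (hY' : Y' < 2 ^ M)
    (h : ∀ n' < n, Body P mem M n' s1 s2 out q) (hα : deg α ≤ 19 := by decide) (hβ : deg β ≤ 20 := by decide) :
    GT P mem M n 20 (tag, enc a) q := by
  have hN := E.good.szsb_nn
  have hM := E.szsb_M
  have a1 := Bx.sz_le ha E.big hN hY
  have a2 : M ^ deg α ≤ M ^ 19 := Nat.pow_le_pow_right (by omega) hα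
  have a3 : M ^ deg β ≤ M ^ 20 := Nat.pow_le_pow_right (by omega) hβ
  refine szsb_core E he ?_ (by norm_num) fun n' hn' => ?_
  · have a4 : sz tag ≤ 4 * 5 + 1 := sz_nat_le_of_lt (lt_of_le_of_lt he.tag.2 (by norm_num))
    have a5 : M ≤ M ^ 19 := Nat.le_self_pow (by norm_num) _
    have a6 : 125 * M ^ 19 ≤ M * M ^ 19 := Nat.mul_le_mul_right _ hM
    have a7 : sz (enc a : V) = sz a := rfl
    rw [sz_mk, a7, pow_succ']
    omega
  · exact (h n' hn').szsb_imp fun b hb => ⟨hb, (Bx.sz_le (hq b hb) E.big hN hY').trans a3⟩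

/-- The main rule, for calls that are not recursive. -/
theorem GT.of_body' [Bx α] [Bx β] (E : Env P mem M) {tag : ℕ} {a : α} {s1 : List Call} {s2 : List V → List Call}
    {out : List V → List V → V} (he : Eqs P (tag, enc a) s1 s2 out) {Y Y' : ℕ} (ha : bx (nn P) Y a) (hY : Y < 2 ^ M)
    {q : β → Prop} (hq : ∀ b, q b → bx (nn P) Y' b) (hY' : Y' < 2 ^ M)
    (h : Body P mem M n s1 s2 out q) (hα : deg α ≤ 19 := by decide) (hβ : deg β ≤ 20 := by decide) :
    GT P mem M n 20 (tag, enc a) q := by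
  exact GT.of_body E he ha hY hq hY' (fun n' hn' => h.szsb_anti hn'.le) hα hβ

/-! ### The generic calls -/

theorem gt_read (E : Env P mem M) {a : ℕ} (ha : a < 2 ^ M) : GT P mem M n 20 (cRead a) fun v : ℕ => v < 2 ^ M := by
  have hM := E.szsb_M
  have a1 := sz_nat_le_of_lt ha
  have a2 : M ^ 2 ≤ M ^ 20 := Nat.pow_le_pow_right (by omega) (by norm_num)
  have a3 : 125 * M ≤ M ^ 2 := by rw [sq]; exact Nat.mul_le_mul_right _ hM
  refine szsb_prim E (t := .pure (enc (mem (min a (P.1 + P.2.1 + 2))))) (by simp [realPrim, cRead]) ?_ ?_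
  · have a4 : sz (1 : ℕ) ≤ 4 * 1 + 1 := sz_nat_le_self 1
    have a5 : sz (enc a : V) = sz a := rfl
    rw [cRead, sz_mk, a5]
    omega
  · have a4 := sz_nat_le_of_lt (E.sym (min a (P.1 + P.2.1 + 2)))
    exact ⟨_, rfl, E.sym _, by omega⟩

theorem gt_rnd (E : Env P mem M) {e : ℕ} (he : e ≤ nn P) : GT P mem M n 20 (cRnd e) fun v : ℕ => v < 2 ^ e := by
  have hN := E.good.szsb_nn
  have a1 := (szsa_M E.big hN).2
  have a2 : e ≤ nn P ^ 3 := he.trans (Nat.le_self_pow (by norm_num) _)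
  have hq : Eqs P (2, enc (Un.mk e)) (List.replicate e cCoin) (fun _ => []) fun r1 _ => enc (ofBits (rds r1)) :=
    ⟨by simp, by simp [algS1], fun _ => by simp [algS2], fun _ _ => by simp [algOut]⟩
  refine GT.of_body' E hq (Y := 0) he (by positivity) (Y' := 2 ^ e) (fun b hb => le_of_lt hb)
    (Nat.pow_lt_pow_right (by norm_num) (by omega)) ?_
  refine Body.one E (St.hom E (fun k hk => List.eq_of_mem_replicate hk ▸ szsb_coin E) (by simpa using a2)) ?_
  rintro _ ⟨l, rfl, hl, -⟩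
  refine ⟨rfl, _, rfl, ?_⟩
  rw [rds_map_enc, ← List.length_replicate (n := e) (a := cCoin), ← hl]
  exact szsb_ofBits l

theorem gt_avg (E : Env P mem M) {k : Call} {a e : ℕ} (h : GT P mem M n j k fun v : ℕ => v ≤ a) (ha : a < 2 ^ M)
    (he : e ≤ nn P) (hj : j + 2 ≤ 40 := by norm_num) : GT P mem M n (j + 2) (cAvg k e) fun v : ℕ => v ≤ a := by
  have hN := E.good.szsb_nn
  have hM := E.szsb_M
  have a1 := (szsa_M E.big hN).2
  have hq : Eqs P (3, enc (k, e)) (List.replicate (P.p2 e) k) (fun _ => [])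
      fun r1 _ => enc ((rds r1 : List ℕ).sum / P.p2 e) :=
    ⟨by simp, by simp [algS1], fun _ => by simp [algS2], fun _ _ => by simp [algOut]⟩
  have a2 : P.p2 e ≤ nn P ^ 3 := (E.good.p2_le e).trans (Nat.le_self_pow (by norm_num) _)
  have a3 := szsb_pow hM j
  refine szsb_core E hq ?_ hj fun n' hn' => Body.szsb_anti ?_ hn'.le
  · have a4 : sz (3 : ℕ) ≤ 4 * 3 + 1 := sz_nat_le_self 3
    have a5 : sz (enc (k, e) : V) = sz k + sz e + 1 := rfl
    have a6 := sz_nat_le_self e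
    have a7 := h.szk
    rw [sz_mk, a5]
    omega
  · refine Body.one E (St.hom E (fun k hk => List.eq_of_mem_replicate hk ▸ h) (by simpa using a2)) ?_
    rintro _ ⟨l, rfl, hl, hb⟩
    have a4 : l.sum / P.p2 e ≤ a := by
      have a5 := List.sum_le_card_nsmul l a hb
      rw [hl, List.length_replicate, smul_eq_mul] at a5
      exact Nat.div_le_of_le_mul a5
    have a5 := sz_nat_le_of_lt (lt_of_le_of_lt a4 ha)
    refine ⟨rfl, _, by rw [rds_map_enc], a4, by omega⟩

theorem gt_vec (E : Env P mem M) {ks : List Call} {q : β → Prop} (h : ∀ k ∈ ks, GT P mem M n j k q)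
    (hl : ks.length ≤ nn P ^ 3) (hj : j + 2 ≤ 40 := by norm_num) :
    GT P mem M n (j + 2) (cVec ks) fun l : List β => l.length = ks.length ∧ ∀ b ∈ l, q b := by
  have hM := E.szsb_M
  have hq : Eqs P (4, enc ks) ks (fun _ => []) fun r1 _ => enc r1 :=
    ⟨by simp, by simp [algS1], fun _ => by simp [algS2], fun _ _ => by simp [algOut]⟩
  have a3 := szsb_pow hM j
  have a2 := Nat.mul_le_mul_right (M ^ j + 1) (hl.trans E.big)
  rw [mul_add M] at a2
  refine szsb_core E hq ?_ hj fun n' hn' => Body.szsb_anti ?_ hn'.le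
  · have a4 : sz (4 : ℕ) ≤ 4 * 4 + 1 := sz_nat_le_self 4
    have a5 : sz (enc ks : V) = sz ks := rfl
    have a6 := sz_list_le (l := ks) fun k hk => (h k hk).szk
    rw [sz_mk, a5]
    omega
  · refine Body.one E (St.hom E (fun k hk => (h k hk).szsb_sized) hl) ?_
    rintro _ ⟨l, rfl, hl', hb⟩
    have a6 := sz_list_le (l := l) fun b hb' => (hb b hb').2
    rw [hl'] at a6
    exact ⟨rfl, l, enc_map_enc l, ⟨hl', fun b hb' => (hb b hb').1⟩, by omega⟩

/-- the same with boxes -/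
theorem gt_vec_bx [Bx β] (E : Env P mem M) {ks : List Call} {Y : ℕ}
    (h : ∀ k ∈ ks, GT P mem M n j k fun b : β => bx (nn P) Y b)
    (hl : ks.length ≤ nn P ^ 3) (hj : j + 2 ≤ 40 := by norm_num) :
    GT P mem M n (j + 2) (cVec ks) fun l : List β => bx (nn P) Y l :=
  (gt_vec E h hl hj).imp fun _ hb => ⟨hb.1 ▸ hl, hb.2⟩

theorem gt_sum (E : Env P mem M) {ks : List Call} {a Y : ℕ} (h : ∀ k ∈ ks, GT P mem M n j k fun v : ℕ => v ≤ a)
    (hl : ks.length ≤ nn P ^ 3) (hY : ks.length * a ≤ Y) (hY' : Y < 2 ^ M) (hj : j + 2 ≤ 40 := by norm_num) :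
    GT P mem M n (j + 2) (cSum ks) fun v : ℕ => v ≤ Y := by
  have hM := E.szsb_M
  have hq : Eqs P (5, enc ks) ks (fun _ => []) fun r1 _ => enc (rds r1 : List ℕ).sum :=
    ⟨by simp, by simp [algS1], fun _ => by simp [algS2], fun _ _ => by simp [algOut]⟩
  have a3 := szsb_pow hM j
  have a2 := Nat.mul_le_mul_right (M ^ j + 1) (hl.trans E.big)
  rw [mul_add M] at a2
  refine szsb_core E hq ?_ hj fun n' hn' => Body.szsb_anti ?_ hn'.le
  · have a4 : sz (5 : ℕ) ≤ 4 * 5 + 1 := sz_nat_le_self 5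
    have a5 : sz (enc ks : V) = sz ks := rfl
    have a6 := sz_list_le (l := ks) fun k hk => (h k hk).szk
    rw [sz_mk, a5]
    omega
  · refine Body.one E (St.hom E h hl) ?_
    rintro _ ⟨l, rfl, hl', hb⟩
    have a4 : l.sum ≤ Y := by
      have a5 := List.sum_le_card_nsmul l a hb
      rw [hl', smul_eq_mul] at a5
      exact a5.trans hY
    have a5 := sz_nat_le_of_lt (lt_of_le_of_lt a4 hY')
    refine ⟨rfl, _, by rw [rds_map_enc], a4, by omega⟩

/-- the empty sum, read as any value whose code is `nil` (`0`, `none`, `[]`) -/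
theorem gt_sum_nil (E : Env P mem M) {b0 : β} (h0 : enc b0 = V.nil) : GT P mem M n 20 (cSum []) fun b : β => b = b0 := by
  have hM := E.szsb_M
  have hq : Eqs P (5, enc ([] : List Call)) [] (fun _ => []) fun r1 _ => enc (rds r1 : List ℕ).sum :=
    ⟨by simp, by simp [algS1], fun _ => by simp [algS2], fun _ _ => by simp [algOut]⟩
  have a5 : M ≤ M ^ 20 := Nat.le_self_pow (by norm_num) _
  refine szsb_core E hq ?_ (by norm_num) fun n' _ => Body.one E (St.nil E) ?_
  · have a4 : sz (5 : ℕ) ≤ 4 * 5 + 1 := sz_nat_le_self 5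
    have a6 : sz (enc ([] : List Call) : V) = 1 := rfl
    rw [sz_mk, a6]
    omega
  · rintro _ rfl
    refine ⟨rfl, b0, h0.symm, rfl, ?_⟩
    rw [sz, h0, V.size_nil]
    omega

/-! ### The stage equations -/

theorem eqs_row (P : Par) (a : ARow) : Eqs P (6, enc a) (rowS1 P a) (rowS2 a) (rowOut P a) :=
  ⟨by simp, by simp [algS1], fun _ => by simp [algS2], fun _ _ => by simp [algOut]⟩
theorem eqs_small (P : Par) (a : ASmall) : Eqs P (7, enc a) (smallS1 a) (fun _ => []) fun r1 _ => smallOut a r1 :=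
  ⟨by simp, by simp [algS1], fun _ => by simp [algS2], fun _ _ => by simp [algOut]⟩
theorem eqs_orc (P : Par) (a : AOrc) : Eqs P (8, enc a) (orcS1 a) (fun _ => []) fun r1 _ => orcOut P a r1 :=
  ⟨by simp, by simp [algS1], fun _ => by simp [algS2], fun _ _ => by simp [algOut]⟩
theorem eqs_gap (P : Par) (a : AGap) : Eqs P (9, enc a) (gapS1 P a) (fun _ => []) fun r1 _ => gapOut P a r1 :=
  ⟨by simp, by simp [algS1], fun _ => by simp [algS2], fun _ _ => by simp [algOut]⟩
theorem eqs_graw (P : Par) (a : AGRaw) : Eqs P (10, enc a) (grawS1 P a) (fun _ => []) fun r1 _ => grawOut P a r1 :=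
  ⟨by simp, by simp [algS1], fun _ => by simp [algS2], fun _ _ => by simp [algOut]⟩
theorem eqs_gdraw (P : Par) (a : AGDraw) : Eqs P (11, enc a) [cRnd P.kb] (gdrawS2 P a) fun _ r2 => gdrawOut r2 :=
  ⟨by simp, by simp [algS1], fun _ => by simp [algS2], fun _ _ => by simp [algOut]⟩
theorem eqs_top (P : Par) (a : ATop) : Eqs P (12, enc a) (topS1 P a) (topS2 P a) (topOut P a) :=
  ⟨by simp, by simp [algS1], fun _ => by simp [algS2], fun _ _ => by simp [algOut]⟩
theorem eqs_top' (P : Par) (a : ATop) : Eqs P (13, enc a) (top'S1 P a) (top'S2 P a) (top'Out P a) :=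
  ⟨by simp, by simp [algS1], fun _ => by simp [algS2], fun _ _ => by simp [algOut]⟩
theorem eqs_gval (P : Par) (a : AScl) : Eqs P (14, enc a) (gvalS1 P a) (fun _ => []) fun r1 _ => gvalOut P a r1 :=
  ⟨by simp, by simp [algS1], fun _ => by simp [algS2], fun _ _ => by simp [algOut]⟩
theorem eqs_plan (P : Par) (a : AScl) : Eqs P (15, enc a) (planS1 P a) (fun _ => []) fun r1 _ => planOut P a r1 :=
  ⟨by simp, by simp [algS1], fun _ => by simp [algS2], fun _ _ => by simp [algOut]⟩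
theorem eqs_sval (P : Par) (a : AScl) : Eqs P (16, enc a) (svalS1 P a) (svalS2 P a) (svalOut P a) :=
  ⟨by simp, by simp [algS1], fun _ => by simp [algS2], fun _ _ => by simp [algOut]⟩
theorem eqs_sn (P : Par) (a : ASN) : Eqs P (17, enc a) (snS1 P a) (snS2 P a) (snOut a) :=
  ⟨by simp, by simp [algS1], fun _ => by simp [algS2], fun _ _ => by simp [algOut]⟩
theorem eqs_past (P : Par) (a : ACtx) : Eqs P (18, enc a) (pastS1 P a) (fun _ => []) fun r1 _ => pastOut' r1 :=
  ⟨by simp, by simp [algS1], fun _ => by simp [algS2], fun _ _ => by simp [algOut]⟩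
theorem eqs_fix (P : Par) (a : ACtx) : Eqs P (19, enc a) (fixS1 P a) (fun _ => []) fun r1 _ => fixOut' P a r1 :=
  ⟨by simp, by simp [algS1], fun _ => by simp [algS2], fun _ _ => by simp [algOut]⟩
theorem eqs_com (P : Par) (a : ACtx) : Eqs P (20, enc a) (comS1 P a) (comS2 P a) (comOut P) :=
  ⟨by simp, by simp [algS1], fun _ => by simp [algS2], fun _ _ => by simp [algOut]⟩
theorem eqs_hint (P : Par) (a : AHint) : Eqs P (21, enc a) (hintS1 P a) (hintS2 P a) (hintOut P a) :=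
  ⟨by simp, by simp [algS1], fun _ => by simp [algS2], fun _ _ => by simp [algOut]⟩
theorem eqs_draw (P : Par) (a : ADraw) : Eqs P (22, enc a) [cRnd P.L] (drawS2 P a) (drawOut a) :=
  ⟨by simp, by simp [algS1], fun _ => by simp [algS2], fun _ _ => by simp [algOut]⟩

end Crest.Agent.R288.Sz
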