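import Crest.Agent.R288.SzsA

/-!
# R288/SzsC: the small parameters are `≤ N = nn P = 2 ^ kP`; the invariants `Lo`, `Lv` (prefix `szsc_`)

Use `R288/ParA` (`Good.small_ll`, `ll_kR`, `hh_hi`, `quart`, `b_eq`, …); the parameters are irreducible, unfold them with
`Par.kP.eq_1` etc.  `kP = 16 kR = 32 ll²`, every exponent below is `≤ kP`, and `x < 2 ^ x`.
-/

set_option autoImplicit false

namespace Crest.Agent.R288.Sz

open Crest.Agent.Lib.PT RT

variable {P : Par} {M : ℕ}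

theorem szsc_pow {e : ℕ} (he : e ≤ P.kP) : 2 ^ e ≤ nn P := Nat.pow_le_pow_right (by norm_num) he

theorem szsc_le {e : ℕ} (he : e ≤ P.kP) : e ≤ nn P := he.trans Nat.lt_two_pow_self.le

/-- linear facts on the parameters (feed to `omega`) -/
theorem szsc_facts (h : Good P) :
    2 * P.kθ + P.kd + P.kK + P.L + 20 * P.jj + 100 ≤ P.ll ∧ 100 * P.ll ≤ P.kb ∧ P.kR = 2 * P.kb ∧
      P.kP = 2 * (8 * P.kR) ∧ P.kg = 2 * P.kR ∧ P.kT + 6 * P.jj = P.ll ∧ P.mb + P.kd = P.kg + 1 ∧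
      P.kγ = P.ll + 5 ∧ P.nw = P.L + 2 ∧ P.nS = 2 * P.kR + 7 ∧ P.nC = P.kg + P.kx + 8 ∧
      P.kd = P.kx + P.L + 1 ∧ P.ka = 10 * P.jj := by
  refine ⟨h.small_ll, ?_, ?_, Par.kP.eq_1 P, Par.kg.eq_1 P, h.kT_add, h.mb_add, Par.kγ.eq_1 P, Par.nw.eq_1 P,
    Par.nS.eq_1 P, Par.nC.eq_1 P, Par.kd.eq_1 P, Par.ka.eq_1 P⟩
  · rw [Par.kb.eq_1]; exact h.aux_llsq
  · rw [Par.kb.eq_1, Par.kR.eq_1]

section good

theorem _root_.Crest.Agent.R288.Good.nn_big (h : Good P) : 100 ≤ nn P := by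
  have f := szsc_facts h
  exact le_trans (by norm_num) (szsc_pow (e := 7) (by omega))

theorem _root_.Crest.Agent.R288.Good.pad_nn (h : Good P) : P.2.2.n = nn P := h.pad

theorem _root_.Crest.Agent.R288.Good.p2_nn (h : Good P) (e : ℕ) : P.p2 e ≤ nn P := h.p2_le e

theorem _root_.Crest.Agent.R288.Good.hh_nn (h : Good P) : 100 * P.hh ≤ nn P := by
  have f := szsc_facts h
  have h1 := h.hh_hi
  have h2 : 2 ^ (P.ll + 8) = 128 * 2 ^ (P.ll + 1) := by ring
  have h3 : 2 ^ (P.ll + 8) ≤ nn P := szsc_pow (by omega)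
  omega

theorem _root_.Crest.Agent.R288.Good.H_nn (h : Good P) : P.H ≤ nn P := by
  have := h.H_le
  have := h.hh_nn
  omega

theorem _root_.Crest.Agent.R288.Good.b_nn (h : Good P) : P.b ≤ nn P := by
  rw [Par.b.eq_1]
  exact h.p2_nn _

theorem _root_.Crest.Agent.R288.Good.powL_nn (h : Good P) : 2 ^ P.L ≤ nn P := by
  rw [← h.b_eq]
  exact h.b_nn

theorem _root_.Crest.Agent.R288.Good.L_nn (h : Good P) : P.L ≤ nn P := by
  exact Nat.lt_two_pow_self.le.trans h.powL_nn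

theorem _root_.Crest.Agent.R288.Good.T0_nn (h : Good P) : P.T0 ≤ nn P := by
  rw [Par.T0.eq_1]
  exact h.p2_nn _

theorem _root_.Crest.Agent.R288.Good.T_nn (h : Good P) : P.T ≤ nn P := by
  have f := szsc_facts h
  have h1 : P.kR + 2 ≤ 2 ^ (P.kR + 2) := Nat.lt_two_pow_self.le
  have h2 : 2 ^ (P.kR + 3 + P.kT) ≤ nn P := szsc_pow (by omega)
  have h3 : 2 ^ (P.kR + 3 + P.kT) = 2 * 2 ^ (P.kR + 2) * 2 ^ P.kT := by ring
  rw [Par.T.eq_1, h.T0_eq]
  refine le_trans ?_ h2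
  rw [h3]
  exact Nat.mul_le_mul_right _ (Nat.mul_le_mul_left _ h1)

theorem _root_.Crest.Agent.R288.Good.F0_nn (h : Good P) : P.F0 ≤ nn P := by
  rw [Par.F0.eq_1]
  exact h.p2_nn _

theorem _root_.Crest.Agent.R288.Good.F1_nn (h : Good P) : P.F1 ≤ nn P := by
  rw [Par.F1.eq_1]
  exact h.p2_nn _

theorem _root_.Crest.Agent.R288.Good.kP_nn (h : Good P) : P.kP ≤ nn P := by
  have f := szsc_facts h
  exact szsc_le (by omega)

theorem _root_.Crest.Agent.R288.Good.kK_nn (h : Good P) : P.kK ≤ nn P := by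
  have f := szsc_facts h
  exact szsc_le (by omega)

theorem _root_.Crest.Agent.R288.Good.kb_nn (h : Good P) : P.kb ≤ nn P := by
  have f := szsc_facts h
  exact szsc_le (by omega)

theorem _root_.Crest.Agent.R288.Good.powkb_nn (h : Good P) : 2 ^ P.kb ≤ nn P := by
  have f := szsc_facts h
  exact szsc_pow (by omega)

theorem _root_.Crest.Agent.R288.Good.kb_pos_sz (h : Good P) : 1 ≤ P.kb := by
  have f := szsc_facts h
  omega

theorem _root_.Crest.Agent.R288.Good.kgam_nn (h : Good P) : P.kγ + P.kb + 2 ≤ nn P := by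
  have f := szsc_facts h
  exact szsc_le (by omega)

theorem _root_.Crest.Agent.R288.Good.mb_nn (h : Good P) : P.mb ≤ nn P := by
  have f := szsc_facts h
  exact szsc_le (by omega)

theorem _root_.Crest.Agent.R288.Good.nw_nn (h : Good P) : P.nw ≤ nn P := by
  have f := szsc_facts h
  exact szsc_le (by omega)

theorem _root_.Crest.Agent.R288.Good.nS_nn (h : Good P) : P.nS ≤ nn P := by
  have f := szsc_facts h
  exact szsc_le (by omega)

theorem _root_.Crest.Agent.R288.Good.nC_nn (h : Good P) : P.nC ≤ nn P := by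
  have f := szsc_facts h
  exact szsc_le (by omega)

theorem _root_.Crest.Agent.R288.Good.pownS_nn (h : Good P) : 2 ^ P.nS ≤ nn P := by
  have f := szsc_facts h
  exact szsc_pow (by omega)

theorem _root_.Crest.Agent.R288.Good.pownC_nn (h : Good P) : 2 ^ P.nC ≤ nn P := by
  have f := szsc_facts h
  exact szsc_pow (by omega)

theorem _root_.Crest.Agent.R288.Good.qbits_nn (h : Good P) (ω : ℕ) : qbits P ω ≤ nn P := by
  have f := szsc_facts h
  have h1 := h.hh_nn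
  have h2 := h.aux_ll_hh
  have h3 := min_le_right ω.size (4 * P.hh)
  unfold qbits
  omega

theorem _root_.Crest.Agent.R288.Good.F0_hh_sz (h : Good P) : P.F0 ≤ 2 ^ P.hh := by
  have f := szsc_facts h
  have h1 := h.quart
  have h2 : P.ll * P.ll * 1 ≤ P.ll * P.ll * (P.ll * P.ll) := Nat.mul_le_mul_left _ (by rw [← Par.kb.eq_1]; omega)
  have h3 : P.ll * P.ll * (P.ll * P.ll) = P.ll ^ 4 := by ring
  have h4 := Par.kb.eq_1 P
  rw [h.F0_eq]
  exact Nat.pow_le_pow_right (by norm_num) (by omega)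

theorem _root_.Crest.Agent.R288.Good.phs_mul_le_sz (h : Good P) (t : ℕ) : phs P t * P.T0 ≤ t := by
  have _ := h
  exact (Nat.div_mul_le_self _ _).trans (Nat.sub_le _ _)

theorem _root_.Crest.Agent.R288.Good.wnd_nn (h : Good P) {φ k : ℕ} (hφ : φ * P.T0 ≤ nn P) (hk : k < P.T0) : wnd P φ k ≤ nn P := by
  have h1 := h.T0_nn
  unfold wnd
  cases φ with
  | zero =>
    rw [Nat.zero_sub, Nat.zero_mul]
    omega
  | succ φ =>
    rw [Nat.add_sub_cancel]
    rw [add_mul, one_mul] at hφ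
    omega

theorem _root_.Crest.Agent.R288.Good.nIn_nn (h : Good P) (t : ℕ) : nIn P t ≤ nn P := by
  exact (min_le_right _ _).trans h.T0_nn

theorem _root_.Crest.Agent.R288.Good.rnk_le_sz (h : Good P) {t k : ℕ} (hk : k < nIn P t) : rnk P t k ≤ t := by
  have _ := h
  have h1 : nIn P t ≤ t - 1 := (min_le_left _ _).trans (Nat.mod_le _ _)
  unfold rnk
  omega

end good

theorem Lo.fit' {e Y : ℕ} (h : Good P) (hL : Lo P M e Y) {j : ℕ} (hj : j ≤ 3 := by norm_num) :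
    Y * nn P ^ j < 2 ^ M := by
  exact lt_of_le_of_lt (lad_mono h.nn_big Y (by omega)) hL.fit

theorem Lo.fit0 {e Y : ℕ} (h : Good P) (hL : Lo P M e Y) : Y < 2 ^ M := by
  exact lt_of_le_of_lt (lad_le h.nn_big Y _) hL.fit

theorem Lo.down {e Y d : ℕ} (h : Good P) (hL : Lo P M e Y) (hd : 1 ≤ d) (hd' : d ≤ e) :
    Lo P M (e - d) (Y * nn P ^ 3) := by
  refine ⟨hL.N_le.trans (lad_le h.nn_big Y _), hL.h_le.trans (lad_le h.nn_big Y _),
    (Nat.sub_le _ _).trans hL.e_le, ?_⟩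
  rw [lad_assoc]
  exact lt_of_le_of_lt (lad_mono h.nn_big Y (by omega)) hL.fit

theorem Lv.fit' {r X : ℕ} (h : Good P) (hL : Lv P M r X) {j : ℕ} (hj : j ≤ 12 := by norm_num) :
    X * nn P ^ j < 2 ^ M := by
  exact lt_of_le_of_lt (lad_mono h.nn_big X (by omega)) hL.fit

theorem Lv.down {r X : ℕ} (h : Good P) (hL : Lv P M r X) (hr : 1 ≤ r) : Lv P M (r - 1) (X * nn P ^ 12) := by
  refine ⟨hL.N_le.trans (lad_le h.nn_big X _), hL.h_le.trans (lad_le h.nn_big X _),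
    (Nat.sub_le _ _).trans hL.r_le, ?_⟩
  rw [lad_assoc]
  exact lt_of_le_of_lt (lad_mono h.nn_big X (by omega)) hL.fit

/-- `r L ≤ H L ≤ 2 hh` -/
theorem Lv.lo {r X : ℕ} (h : Good P) (hL : Lv P M r X) : Lo P M (r * P.L) (X * nn P ^ 2) := by
  have h1 : r * P.L ≤ 2 * P.hh := (Nat.mul_le_mul_right _ hL.r_le).trans h.HL_le
  have h2 := h.hh_nn
  refine ⟨hL.N_le.trans (lad_le h.nn_big X _), le_trans ?_ (hL.h_le.trans (lad_le h.nn_big X _)), by omega, ?_⟩
  · exact Nat.pow_le_pow_right (by norm_num) (by omega)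
  · rw [lad_assoc]
    exact lt_of_le_of_lt (lad_mono h.nn_big X (by omega)) hL.fit

theorem Lv.pow_le {r X : ℕ} (h : Good P) (hL : Lv P M r X) : 2 ^ (r * P.L) ≤ X := by
  exact (Nat.pow_le_pow_right (by norm_num) ((Nat.mul_le_mul_right _ hL.r_le).trans h.HL_le)).trans hL.h_le

theorem Lv.r_nn {r X : ℕ} (h : Good P) (hL : Lv P M r X) : r ≤ nn P := hL.r_le.trans h.H_nn

/-- index of a child -/
theorem Lv.child {r X i j : ℕ} (h : Good P) (hL : Lv P M r X) (hi : i ≤ X) (hj : j ≤ nn P) :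
    i * P.b + j ≤ X * nn P ^ 12 := by
  have h1 : i * P.b ≤ X * nn P ^ 1 := by
    rw [pow_one]
    exact Nat.mul_le_mul hi h.b_nn
  have h2 : j ≤ X * nn P ^ 1 := (hj.trans hL.N_le).trans (lad_le h.nn_big X 1)
  have h3 := lad_step h.nn_big X 1
  have h4 : X * nn P ^ (1 + 1) ≤ X * nn P ^ 12 := lad_mono h.nn_big X (by norm_num)
  omega

/-- the root level: `N ^ (2 hh + 12 (H + 1) + 6 hh + 6) = 2 ^ (kP · …)`, and `kP ≤ N`, `30 hh ≤ N`, `H ≤ hh` -/
theorem lv_root (h : Good P) (hM : nn P ^ 3 ≤ M) : Lv P M P.H (nn P ^ (2 * P.hh)) := by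
  have h1 := h.nn_big
  have h2 := h.hh_nn
  have h3 := h.H_le
  have h4 := h.aux_ll_hh
  refine ⟨Nat.le_self_pow (by omega) _, Nat.pow_le_pow_left (by omega) _, le_rfl, ?_⟩
  rw [← pow_add]
  have h5 : P.kP * (2 * P.hh + (12 * (P.H + 1) + 6 * P.hh + 6)) ≤ nn P * nn P :=
    Nat.mul_le_mul h.kP_nn (by omega)
  have h6 := lad_pow h1
  have h7 : nn P * nn P = nn P ^ 2 := by ring
  have h8 : nn P ^ (2 * P.hh + (12 * (P.H + 1) + 6 * P.hh + 6)) =
      2 ^ (P.kP * (2 * P.hh + (12 * (P.H + 1) + 6 * P.hh + 6))) := by rw [nn, ← pow_mul]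
  rw [h8]
  exact Nat.pow_lt_pow_right (by norm_num) (by omega)

end Crest.Agent.R288.Sz
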