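import Crest.Agent.R288.SzsB
import Crest.Agent.R288.SzsC

/-!
# R288/SzsF: sizes in the banded dynamic programme (prefix `szsf_`)

Pattern (see `gt_small` in SzsF for a complete example): unfold the call (`unfold cX`), `refine GT.of_body' E (eqs_x P _) (Y := …) (box of the
arguments: `by simp; omega`-like, or `by exact ⟨_, _, …⟩`) (fit: `hL.fit' E.good`) (Y' := …) (box of the result) (fit) ?_`, then
`Body.one E (St.… ) fun r1 hr => …` or `Body.two`; stages by `St.nil/one/two/three/hom`; weaken with `GT.imp`, `GT.mono`;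
boxes grow with `Bx.mono h (lad_mono …)`.
-/

set_option autoImplicit false

namespace Crest.Agent.R288.Sz

open Crest.Agent.Lib.PT RT

variable {P : Par} {mem : ℕ → ℕ} {M n e Y i : ℕ} {α γ : ℤ}

theorem szsf_leaf (h : Good P) {κ : Un} (hκ : κ.n ≤ nn P) (emp : Bool) (ms : List Bool) (row : List ℕ) :
    bx (nn P) (nn P + 1) (rowLeaf κ emp ms row) := by
  have hp := lad_pow h.nn_big
  have hN := h.nn_big
  refine ⟨?_, fun a ha => ?_⟩
  · simp only [rowLeaf, List.length_map, List.length_range]
    omega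
  · simp only [rowLeaf, List.mem_map, List.mem_range] at ha
    obtain ⟨b, -, rfl⟩ := ha
    rw [bx_nat]
    exact (min_le_left _ _).trans (by omega)

/-- Strong induction on `n` (generalizing everything) with `GT.of_body`; the children have height `e - 1` and bound
`Y * N ^ 3` (`Lo.down`); at a leaf the addresses are `≤ Y * N` (`P.1 < 2 ^ hh ≤ Y`, `Good.N_lt`), `St.hom` with `gt_read`. -/
theorem gt_row (E : Env P mem M) (hL : Lo P M e Y) (hi : i ≤ Y) (hα : α.natAbs ≤ Y) {κ : Un} (hκ : κ.n ≤ nn P)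
    {row : List ℕ} (hrow : bx (nn P) (nn P + 1) row) :
    GT P mem M n 20 (cRow e i α κ row) fun l : List ℕ => bx (nn P) (nn P + 1) l := by
  induction n using Nat.strong_induction_on generalizing e Y i α κ row with
  | _ n ih =>
  have hN := E.good.nn_big
  have h1 := lad_step hN Y 0
  have h1' := lad_step hN Y 1
  have h1'' := lad_step hN Y 2
  have h2 := hL.N_le
  have hp := lad_pow hN
  have hfit : Y * nn P ^ 1 < 2 ^ M := hL.fit' E.good
  simp only [pow_zero, mul_one, zero_add, Nat.reduceAdd] at h1 h1' h1''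
  have hY1 : nn P + 1 ≤ Y * nn P ^ 1 := by omega
  unfold cRow
  refine GT.of_body E (eqs_row P _) (Y := Y * nn P ^ 1)
    (by exact ⟨hL.e_le, le_trans hi (by omega), le_trans hα (by omega), hκ, Bx.mono hrow hY1⟩) hfit
    (Y' := Y * nn P ^ 1) (fun b hb => Bx.mono hb hY1) hfit fun n' hn' => ?_
  by_cases he : e = 0
  · have hlt := E.good.N_lt
    have hh := hL.h_le
    refine Body.one E (R1 := fun r => ∃ l : List ℕ, r = l.map enc ∧ l.length = (rowS1 P (Un.mk e, i, α, κ, row)).length ∧
      ∀ b ∈ l, b < 2 ^ M) (St.hom E (j := 20) ?_ ?_) ?_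
    · intro k hk
      simp only [rowS1, he, if_true, List.mem_cons, List.mem_map, List.mem_range] at hk
      rcases hk with rfl | ⟨a, ha, rfl⟩
      · exact gt_read E (by omega)
      · refine gt_read E ?_
        have : (ypos i α κ a).toNat ≤ i + α.natAbs + a := by
          unfold ypos
          omega
        omega
    · simp only [rowS1, he, if_true, List.length_cons, List.length_map, List.length_range]
      omega
    · intro r1 _
      refine ⟨by simp only [rowS2, he, if_true], _, by simp only [rowOut, he, if_true]; rfl, ?_⟩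
      exact szsf_leaf E.good hκ _ _ _
  · have hd := hL.down E.good (d := 1) le_rfl (by omega)
    have hi2 : 2 * i + 1 ≤ Y * nn P ^ 3 := by omega
    have hα2 : α.natAbs ≤ Y * nn P ^ 3 := by omega
    have e1 : rowS1 P (Un.mk e, i, α, κ, row) = [cRow (e - 1) (2 * i) α κ row] := by
      simp only [rowS1, he, if_false]
    rw [e1]
    refine Body.two (St.one E (ih n' hn' hd (by omega) hα2 hκ hrow)) ?_
    rintro _ ⟨a, rfl, ha⟩
    have e2 : rowS2 (Un.mk e, i, α, κ, row) [enc a] = [cRow (e - 1) (2 * i + 1) α κ a] := by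
      simp only [rowS2, he, if_false, rd_zero]
    rw [e2]
    refine ⟨_, St.one E (ih n' hn' hd hi2 hα2 hκ ha), ?_⟩
    rintro _ ⟨b, rfl, hb⟩
    exact ⟨b, by simp only [rowOut, he, if_false]; rfl, hb⟩

theorem row0_bx (h : Good P) {κ : Un} (hκ : κ.n ≤ nn P) : bx (nn P) (nn P + 1) (row0 κ) := by
  have hp := lad_pow h.nn_big
  have hN := h.nn_big
  refine ⟨?_, fun a ha => ?_⟩
  · simp only [row0, List.length_map, List.length_range]
    omega
  · simp only [row0, List.mem_map, List.mem_range] at ha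
    obtain ⟨b, -, rfl⟩ := ha
    rw [bx_nat]
    split_ifs <;> omega

theorem gt_small (E : Env P mem M) (hL : Lo P M e Y) (hi : i ≤ Y) (hα : α.natAbs ≤ Y) (hγ : γ.natAbs ≤ Y) {κ : ℕ}
    (hκ : κ ≤ nn P) : GT P mem M n 20 (cSmall e i α γ κ) fun v : ℕ => v ≤ κ + 1 := by
  have hN := E.good.nn_big
  have h1 := lad_step hN Y 0
  have h2 := hL.N_le
  unfold cSmall
  refine GT.of_body' E (eqs_small P _) (Y := Y) (by exact ⟨hL.e_le, hi, hα, hγ, hκ⟩) (hL.fit0 E.good)
    (Y' := Y * nn P ^ 1) (fun b hb => ?_) (hL.fit' E.good) ?_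
  · rw [bx_nat]
    simp only [pow_zero, mul_one, zero_add] at h1
    omega
  · unfold smallS1 smallOut
    dsimp only
    split_ifs with h
    · refine Body.one E (St.one E (gt_row E hL hi hα (κ := ⟨κ⟩) hκ (row0_bx E.good hκ))) ?_
      rintro _ ⟨a, rfl, -⟩
      exact ⟨rfl, _, rfl, min_le_left _ _⟩
    · exact Body.one E (St.nil E) fun _ _ => ⟨rfl, _, rfl, le_rfl⟩

end Crest.Agent.R288.Sz
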