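import Crest.Agent.R288.SzsB
import Crest.Agent.R288.SzsE

/-!
# R288/SzsH: sizes of tables, plans, small mode without context (prefix `szsh_`)

Pattern (see `gt_small` in SzsF for a complete example): unfold the call (`unfold cX`), `refine GT.of_body' E (eqs_x P _) (Y := …) (box of the
arguments: `by simp; omega`-like, or `by exact ⟨_, _, …⟩`) (fit: `hL.fit' E.good`) (Y' := …) (box of the result) (fit) ?_`, then
`Body.one E (St.… ) fun r1 hr => …` or `Body.two`; stages by `St.nil/one/two/three/hom`; weaken with `GT.imp`, `GT.mono`;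
boxes grow with `Bx.mono h (lad_mono …)`.
Children: `hT (r - 1) (X * nn P ^ 12) … (hL.down E.good hr) (hL.child E.good hi _) …`.
-/

set_option autoImplicit false

namespace Crest.Agent.R288.Sz

open Crest.Agent.Lib.PT RT

variable {P : Par} {mem : ℕ → ℕ} {M n r X i t σ φ : ℕ} {s : ℤ × ℤ}

/-- `gt_vec_bx` three times, `gt_avg`, `topB_none_le` -/
theorem gt_tab (E : Env P mem M) (hT : TopC P mem M n) (hL : Lv P M r X) (hr : 1 ≤ r) (hi : i ≤ X) {Zs : List ℤ}
    (hZ : bx (nn P) (X * nn P ^ 7) Zs) (ht : t ≤ nn P) :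
    GT P mem M n 28 (cTab P r i Zs t) fun tb : Tab => bx (nn P) (X * nn P ^ 8) tb := by
  have hN := E.good.nn_big
  have hN3 : nn P ≤ nn P ^ 3 := Nat.le_self_pow (by norm_num) _
  unfold cTab
  refine gt_vec_bx (j := 26) E (fun k hk => ?_) (by simpa using E.good.b_nn.trans hN3)
  obtain ⟨j, hj, rfl⟩ := List.mem_map.1 hk
  have hj' : j ≤ nn P := (List.mem_range.1 hj).le.trans E.good.b_nn
  refine gt_vec_bx (j := 24) E (fun k hk => ?_) (by simpa using hZ.1)
  obtain ⟨z1, h1, rfl⟩ := List.mem_map.1 hk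
  refine gt_vec_bx (j := 22) E (fun k hk => ?_) (by simpa using hZ.1)
  obtain ⟨z2, h2, rfl⟩ := List.mem_map.1 hk
  have hs : bx (nn P) (X * nn P ^ 7) (z1, z2) := ⟨hZ.2 z1 h1, hZ.2 z2 h2⟩
  have hs' : bx (nn P) (X * nn P ^ 12 * nn P ^ 2) (z1, z2) :=
    Bx.mono hs (by rw [lad_assoc]; exact lad_mono hN X (by norm_num))
  have h := hT (r - 1) (X * nn P ^ 12) (i * P.b + j) (z1, z2) none t (hL.down E.good hr) (hL.child E.good hi hj') hs'
    bx_none ht
  exact gt_avg (j := 20) E (h.imp fun v hv => hv.trans (topB_none_le E.good hL hs)) (hL.fit' E.good) E.good.kP_nn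

theorem gt_gval (E : Env P mem M) (hT : TopC P mem M n) (hL : Lv P M r X) (hr : 1 ≤ r) (hi : i ≤ X)
    (hs : bx (nn P) (X * nn P ^ 2) s) (hσ : σ ≤ X * nn P ^ 5) (ht : t ≤ nn P) :
    GT P mem M n 20 (cGVal r i s σ t) fun o : Option ℕ => bx (nn P) (X * nn P ^ 12) o := by
  have hN := E.good.nn_big
  have h5 := lad_le hN X 5
  have h2 := hL.N_le
  have hZ := zgrid_bx E.good (α := s.1) hs.1 hσ
  unfold cGVal
  refine GT.of_body' E (eqs_gval P _) (Y := X * nn P ^ 5)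
    (by exact ⟨hL.r_nn E.good, hi.trans h5, Bx.mono hs (lad_mono hN X (by norm_num)), hσ, ht.trans (h2.trans h5)⟩)
    (hL.fit' E.good) (Y' := X * nn P ^ 12) (fun b hb => hb) (hL.fit' E.good) ?_
  unfold gvalS1 gvalOut
  dsimp only
  refine Body.one E (St.one E (gt_tab E hT hL hr hi hZ ((Nat.sub_le _ _).trans ht))) ?_
  rintro _ ⟨a, rfl, ha⟩
  refine ⟨rfl, _, rfl, ?_⟩
  rw [bx_some, bx_nat, rd_zero]
  refine (gN_le E.good hZ ha (by simpa using E.good.b_nn) ?_ ?_).trans (lad_mono hN X (by norm_num))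
  · exact le_trans hs.1 (lad_mono hN X (by norm_num))
  · exact le_trans hs.2 (lad_mono hN X (by norm_num))

theorem gt_plan (E : Env P mem M) (hT : TopC P mem M n) (hL : Lv P M r X) (hr : 1 ≤ r) (hi : i ≤ X)
    (hs : bx (nn P) (X * nn P ^ 2) s) (hσ : σ ≤ X * nn P ^ 5) (hφ : φ * P.T0 ≤ nn P) :
    GT P mem M n 20 (cPlan r i s σ φ) fun o : Option Plan => bx (nn P) (X * nn P ^ 8) o := by
  have hN := E.good.nn_big
  have hN3 : nn P ≤ nn P ^ 3 := Nat.le_self_pow (by norm_num) _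
  have h5 := lad_le hN X 5
  have h2 := hL.N_le
  have hZ := zgrid_bx E.good (α := s.1) hs.1 hσ
  have hφ' : φ ≤ nn P := le_trans (Nat.le_mul_of_pos_right _ (lt_of_lt_of_le (by norm_num) E.good.two_le_T0)) hφ
  unfold cPlan
  refine GT.of_body' E (eqs_plan P _) (Y := X * nn P ^ 5)
    (by exact ⟨hL.r_nn E.good, hi.trans h5, Bx.mono hs (lad_mono hN X (by norm_num)), hσ, hφ'.trans (h2.trans h5)⟩)
    (hL.fit' E.good) (Y' := X * nn P ^ 8) (fun b hb => hb) (hL.fit' E.good) ?_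
  unfold planS1 planOut
  dsimp only
  refine Body.one E (St.hom E (j := 28) (q := fun tb : Tab => bx (nn P) (X * nn P ^ 8) tb) (fun k hk => ?_)
    (by simpa using E.good.T0_nn.trans hN3)) ?_
  · obtain ⟨k', hk', rfl⟩ := List.mem_map.1 hk
    exact gt_tab E hT hL hr hi hZ (E.good.wnd_nn hφ (List.mem_range.1 hk'))
  · rintro _ ⟨l, rfl, -⟩
    exact ⟨rfl, _, rfl, planOf_bx E.good hs.1 hs.2 hσ _⟩

theorem gt_sroot (E : Env P mem M) (hS : SnC P mem M n) (hL : Lv P M r X) (hr : 1 ≤ r) (hi : i ≤ X) {pl : Plan}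
    (hp : bx (nn P) (X * nn P ^ 8) pl) (ht : t ≤ nn P) :
    GT P mem M n 20 (cSRoot P r i pl t) fun v : ℕ => v ≤ X * nn P ^ 11 := by
  have hN := E.good.nn_big
  unfold cSRoot
  have hb : bx (nn P) (X * nn P ^ 11) (pz pl 0, pz pl P.b) :=
    ⟨le_trans (pz_le hp 0) (lad_mono hN X (by norm_num)), le_trans (pz_le hp P.b) (lad_mono hN X (by norm_num))⟩
  have hk : 0 + P.mb * nn P ≤ nn P ^ 2 := by
    rw [zero_add, pow_two]
    exact Nat.mul_le_mul_right _ E.good.mb_nn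
  refine (hS r X i pl P.L 0 _ 0 P.mb t hL hr hi hp le_rfl (by positivity) hb hk ht).imp fun v hv => hv.trans ?_
  rw [mul_comm]
  exact lad_mul_N le_rfl E.good.powL_nn

theorem gt_sval (E : Env P mem M) (hT : TopC P mem M n) (hS : SnC P mem M n) (hL : Lv P M r X) (hr : 1 ≤ r)
    (hi : i ≤ X) (hs : bx (nn P) (X * nn P ^ 2) s) (hσ : σ ≤ X * nn P ^ 5) (ht : t ≤ nn P) :
    GT P mem M n 20 (cSVal r i s σ t) fun o : Option ℕ => bx (nn P) (X * nn P ^ 12) o := by
  have hN := E.good.nn_big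
  have h5 := lad_le hN X 5
  have h2 := hL.N_le
  unfold cSVal
  refine GT.of_body' E (eqs_sval P _) (Y := X * nn P ^ 5)
    (by exact ⟨hL.r_nn E.good, hi.trans h5, Bx.mono hs (lad_mono hN X (by norm_num)), hσ, ht.trans (h2.trans h5)⟩)
    (hL.fit' E.good) (Y' := X * nn P ^ 12) (fun b hb => hb) (hL.fit' E.good) ?_
  unfold svalS1 svalS2 svalOut
  dsimp only
  refine Body.two (St.one E (gt_plan E hT hL hr hi hs hσ ((E.good.phs_mul_le_sz t).trans ht))) ?_
  rintro _ ⟨a, rfl, ha⟩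
  rw [rd_zero]
  cases a with
  | none => exact ⟨_, St.nil E, fun _ _ => ⟨_, rfl, bx_none⟩⟩
  | some pl =>
    have hp : bx (nn P) (X * nn P ^ 8) pl := ha pl rfl
    refine ⟨_, St.one E (gt_avg (j := 20) E (gt_sroot E hS hL hr hi hp ht) (hL.fit' E.good) E.good.kK_nn), ?_⟩
    rintro _ ⟨v, rfl, hv⟩
    refine ⟨_, rfl, ?_⟩
    rw [Option.map_some, bx_some, bx_nat, rd_zero]
    have h9 := junc_le E.good hp hs
    have h10 := lad_mono hN X (show 9 ≤ 11 by norm_num)
    have h11 := lad_step hN X 11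
    simp only [Nat.reduceAdd] at h11
    omega

end Crest.Agent.R288.Sz
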