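import Crest.Agent.R288.SzsH

/-!
# R288/SzsI: sizes of the data of a context (prefix `szsi_`)

Pattern (see `gt_small` in SzsF for a complete example): unfold the call (`unfold cX`), `refine GT.of_body' E (eqs_x P _) (Y := …) (box of the
arguments: `by simp; omega`-like, or `by exact ⟨_, _, …⟩`) (fit: `hL.fit' E.good`) (Y' := …) (box of the result) (fit) ?_`, then
`Body.one E (St.… ) fun r1 hr => …` or `Body.two`; stages by `St.nil/one/two/three/hom`; weaken with `GT.imp`, `GT.mono`;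
boxes grow with `Bx.mono h (lad_mono …)`.
Children: `hT (r - 1) (X * nn P ^ 12) … (hL.down E.good hr) (hL.child E.good hi _) …`.
-/

set_option autoImplicit false

namespace Crest.Agent.R288.Sz

open Crest.Agent.Lib.PT RT

variable {P : Par} {mem : ℕ → ℕ} {M n r X i t σ φ : ℕ} {c : Ctx}

theorem szsi_row (E : Env P mem M) (hT : TopC P mem M n) (hL : Lv P M r X) (hi : i ≤ X) (hc : bx (nn P) X c)
    {o : Option Ctx} (ho : bx (nn P) X o) (ht : t ≤ nn P) :
    GT P mem M n 24 (cVec ((om c).map fun s => cAvg (cTop r i s o t) P.kP))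
      fun l : List ℕ => bx (nn P) (X * nn P ^ 3) l := by
  obtain ⟨h1, h2⟩ := om_bx E.good hc
  refine gt_vec_bx (j := 22) E (List.forall_mem_map.2 fun s hs => ?_) (by rwa [List.length_map])
  exact gt_avg E ((hT r X i s o t hL hi (h2 s hs) ho ht).imp fun v hv => hv.trans (topB_le E.good hL (h2 s hs) ho))
    (hL.fit' E.good) E.good.kP_nn

theorem szsi_cube (h : Good P) {a : ℕ} (ha : a ≤ nn P) : a ≤ nn P ^ 3 := by
  have := lad_pow h.nn_big
  omega

theorem szsi_child (E : Env P mem M) (hT : TopC P mem M n) (hL : Lv P M r X) (hr : 1 ≤ r) (hi : i ≤ X) {j : ℕ}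
    (hj : j ≤ nn P) (hc : bx (nn P) (X * nn P ^ 8) c) (ht : t ≤ nn P) :
    GT P mem M n 20 (cTop (r - 1) (i * P.b + j) (c.1, c.2.1) (some c) t) fun v : ℕ => v ≤ X * nn P ^ 10 := by
  have hN := E.good.nn_big
  have h1 : bx (nn P) (X * nn P ^ 12) c := Bx.mono hc (lad_mono hN X (by norm_num))
  exact (hT _ _ _ _ _ t (hL.down E.good hr) (hL.child E.good hi hj)
    (Bx.mono (a := (c.1, c.2.1)) ⟨h1.1, h1.2.1⟩ (lad_le hN _ 2)) ((bx_some c).2 h1) ht).imp
    fun v hv => hv.trans (topB_some_le E.good hL.N_le _ _ hc)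

/-- `om_bx`, `topB_le`, `gt_avg`, `gt_vec_bx`, `St.two`, `pastOut_bx` -/
theorem gt_past (E : Env P mem M) (hT : TopC P mem M n) (hL : Lv P M r X) (hi : i ≤ X) (hc : bx (nn P) X c)
    (ht : t ≤ nn P) : GT P mem M n 20 (cPast r i c t) fun l : List ℕ => bx (nn P) (X * nn P ^ 3) l := by
  have hN := E.good.nn_big
  unfold cPast
  refine GT.of_body' E (eqs_past P _) (Y := X) (by exact ⟨hL.r_nn E.good, hi, hc, ht.trans hL.N_le⟩)
    ((lad_le hN X 1).trans_lt (hL.fit' E.good)) (fun b hb => hb) (hL.fit' E.good) ?_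
  have h2 : GT P mem M n 24 (cVec (if nIn P t = 0 then [] else (om c).map fun s =>
      cAvg (cTop r i s (some c) (t - 1)) P.kP)) fun l : List ℕ => bx (nn P) (X * nn P ^ 3) l := by
    split_ifs
    · exact gt_vec_bx (j := 22) E (fun _ h => absurd h List.not_mem_nil) (Nat.zero_le _)
    · exact szsi_row E hT hL hi hc ((bx_some c).2 hc) (by omega)
  refine Body.one E (St.two E (szsi_row E hT hL hi hc bx_none (t := t - 1) (by omega)) h2) ?_
  rintro _ ⟨a, b, rfl, ha, -⟩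
  exact ⟨rfl, _, rfl, pastOut_bx (by rwa [rd_zero]) _⟩

theorem gt_fix (E : Env P mem M) (hT : TopC P mem M n) (hL : Lv P M r X) (hr : 1 ≤ r) (hi : i ≤ X)
    (hc : bx (nn P) X c) (hφ : φ * P.T0 ≤ nn P) :
    GT P mem M n 20 (cFix r i c φ) fun f : ℕ × List (List (Option Plan)) => bx (nn P) (X * nn P ^ 8) f := by
  have hN := E.good.nn_big
  have hφ' : φ ≤ nn P := (Nat.le_mul_of_pos_right φ (by have := E.good.two_le_T0; omega)).trans hφ
  obtain ⟨h1, h2⟩ := om_bx E.good hc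
  unfold cFix
  refine GT.of_body' E (eqs_fix P _) (Y := X) (by exact ⟨hL.r_nn E.good, hi, hc, hφ'.trans hL.N_le⟩)
    ((lad_le hN X 1).trans_lt (hL.fit' E.good)) (fun b hb => hb) (hL.fit' E.good) ?_
  refine Body.one E (St.two E
    (gt_vec_bx (j := 24) (β := List ℕ) (Y := X * nn P ^ 3) E (List.forall_mem_map.2 fun k hk => ?_) ?_)
    (gt_vec_bx (j := 22) (β := List (Option Plan)) (Y := X * nn P ^ 8) E (List.forall_mem_map.2 fun k _ => ?_) ?_)) ?_
  · exact szsi_row E hT hL hi hc bx_none (E.good.wnd_nn hφ (List.mem_range.1 hk))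
  · simpa using szsi_cube E.good E.good.T0_nn
  · exact gt_vec_bx (j := 20) E (List.forall_mem_map.2 fun s hs =>
      gt_plan E hT hL hr hi (h2 s hs) (sclC_le E.good hc k) hφ) (by rwa [List.length_map])
  · simpa using szsi_cube E.good E.good.nC_nn
  · rintro _ ⟨a, b, rfl, ha, hb⟩
    exact ⟨rfl, _, rfl, fixOut_bx E.good hc (by rwa [rd_zero]) (by rwa [rd_one])⟩

/-- `gt_rnd`, `tabKeys_bx`, `topB_some_le` -/
theorem gt_draw (E : Env P mem M) (hT : TopC P mem M n) (hL : Lv P M r X) (hr : 1 ≤ r) (hi : i ≤ X)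
    (hc : bx (nn P) X c) (hσ : σ ≤ X * nn P ^ 5) {lv : ℕ} (hlv : lv ≤ nn P) (ht : t ≤ nn P) :
    GT P mem M n 20 (cDraw r i c σ lv t) fun d : Drw => bx (nn P) (X * nn P ^ 10) d := by
  have hN := E.good.nn_big
  have hX := hL.N_le.trans (lad_le hN X 10)
  have hX' := lad_le hN X 5
  obtain ⟨h1, h2⟩ := tabKeys_bx E.good hc hσ lv
  unfold cDraw
  refine GT.of_body' E (eqs_draw P _) (Y := X * nn P ^ 5) (by
    exact ⟨hL.r_nn E.good, hi.trans hX', Bx.mono hc hX', hσ, (hlv.trans hL.N_le).trans hX', (ht.trans hL.N_le).trans hX'⟩)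
    (hL.fit' E.good) (fun b hb => hb) (hL.fit' E.good) ?_
  refine Body.two (St.one E (gt_rnd E E.good.L_nn)) ?_
  rintro _ ⟨a, rfl, ha⟩
  have ha' := ha.le.trans E.good.powL_nn
  refine ⟨_, St.hom (j := 20) (q := fun v : ℕ => v ≤ X * nn P ^ 10) E (List.forall_mem_map.2 fun c' hc' => ?_)
    (by rwa [drawS2, List.length_map]), ?_⟩
  · rw [rd_zero]
    exact szsi_child E hT hL hr hi ha' (h2 c' hc') ht
  · rintro _ ⟨l, rfl, hl, hl'⟩
    rw [drawS2, List.length_map] at hl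
    refine ⟨_, rfl, hlv.trans hX, ?_, ?_⟩
    · rw [rd_zero]
      exact ha'.trans hX
    · rw [rds_map_enc]
      exact ⟨hl ▸ h1, hl'⟩

theorem gt_cent (E : Env P mem M) (hT : TopC P mem M n) (hL : Lv P M r X) (hr : 1 ≤ r) (hi : i ≤ X) {pl : Plan}
    (hp : bx (nn P) (X * nn P ^ 8) pl) (ht : t ≤ nn P) :
    GT P mem M n 22 (cCent P r i pl t) fun v : ℕ => v ≤ X * nn P ^ 11 := by
  have hb := E.good.b_nn
  refine gt_sum (j := 20) E (List.forall_mem_map.2 fun j hj =>
    szsi_child E hT hL hr hi ((List.mem_range.1 hj).le.trans hb) (pc_bx hp j) ht) ?_ ?_ (hL.fit' E.good)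
  · simpa using szsi_cube E.good hb
  · rw [List.length_map, List.length_range, mul_comm]
    exact lad_mul_N le_rfl hb

end Crest.Agent.R288.Sz
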