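import Crest.Agent.R288.SzsI

/-!
# R288/SzsJ: sizes of hints and of the common data (prefix `szsj_`)

Pattern (see `gt_small` in SzsF for a complete example): unfold the call (`unfold cX`), `refine GT.of_body' E (eqs_x P _) (Y := …) (box of the
arguments: `by simp; omega`-like, or `by exact ⟨_, _, …⟩`) (fit: `hL.fit' E.good`) (Y' := …) (box of the result) (fit) ?_`, then
`Body.one E (St.… ) fun r1 hr => …` or `Body.two`; stages by `St.nil/one/two/three/hom`; weaken with `GT.imp`, `GT.mono`;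
boxes grow with `Bx.mono h (lad_mono …)`.
-/

set_option autoImplicit false

namespace Crest.Agent.R288.Sz

open Crest.Agent.Lib.PT RT

variable {P : Par} {mem : ℕ → ℕ} {M n r X i t σ : ℕ} {c : Ctx}

theorem szsj_flat {α β : Type} (l : List α) (f : α → List β) {a : ℕ} (h : ∀ x ∈ l, (f x).length ≤ a) :
    (l.flatMap f).length ≤ l.length * a := by
  induction l with
  | nil => simp
  | cons x l ih =>
    have h1 := h x List.mem_cons_self
    have h2 := ih fun y hy => h y (List.mem_cons_of_mem _ hy)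
    rw [List.flatMap_cons, List.length_append, List.length_cons, Nat.succ_mul]
    omega


/-- `St.hom` with `gt_draw`, `rds_map_enc`, cases on `selP` (`selP_bx`), `gt_avg`, `gt_cent`, `cjunc_le`, `cends_bx` -/
theorem gt_hint (E : Env P mem M) (hT : TopC P mem M n) (hL : Lv P M r X) (hr : 1 ≤ r) (hi : i ≤ X)
    (hc : bx (nn P) X c) (hσ : σ ≤ X * nn P ^ 5) {pls : List (Option Plan)} (hp : bx (nn P) (X * nn P ^ 8) pls)
    (ht : t ≤ nn P) : GT P mem M n 20 (cHint r i c σ pls t) fun o : Option Hnt => bx (nn P) (X * nn P ^ 12) o := by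
  have h := E.good
  have hN := h.nn_big
  have hNX := hL.N_le
  have hX8 := lad_le hN X 8
  unfold cHint
  refine GT.of_body' E (eqs_hint P _) (Y := X * nn P ^ 8)
    (by exact ⟨hL.r_nn h, hi.trans hX8, Bx.mono hc hX8, hσ.trans (lad_mono hN X (by norm_num)), hp,
      ht.trans (hNX.trans hX8)⟩) (hL.fit' h) (Y' := X * nn P ^ 12) (fun _ hb => hb) (hL.fit' h) ?_
  refine Body.two (St.hom E (j := 20) (q := fun d : Drw => bx (nn P) (X * nn P ^ 10) d) ?_ ?_) ?_
  · intro k hk
    simp only [hintS1, List.mem_flatMap, List.mem_range, List.mem_replicate] at hk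
    obtain ⟨lv, hlv, -, rfl⟩ := hk
    exact gt_draw E hT hL hr hi hc hσ (hlv.le.trans h.nw_nn) ht
  · have h1 : (hintS1 P (Un.mk r, i, c, σ, pls, t)).length ≤ (List.range P.nw).length * nn P :=
      szsj_flat _ _ fun lv _ => by rw [List.length_replicate]; exact h.p2_nn _
    rw [List.length_range] at h1
    have h2 := Nat.mul_le_mul_right (nn P) h.nw_nn
    have h3 := (lad_pow hN).2
    rw [pow_two] at h3
    omega
  · rintro _ ⟨l, rfl, -, -⟩
    have hs := selP_bx hp c σ l
    simp only [hintS2, hintOut, rds_map_enc]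
    cases e : selP P c σ pls l with
    | none => exact ⟨_, St.nil E, fun r2 _ => ⟨_, rfl, bx_none⟩⟩
    | some pl =>
      have hpl := hs pl e
      refine ⟨_, St.one E (gt_avg E (gt_cent E hT hL hr hi hpl ht) (hL.fit' h) h.kK_nn), ?_⟩
      rintro _ ⟨v, rfl, hv⟩
      refine ⟨_, rfl, ?_⟩
      have h1 := cjunc_le h hpl
      have h2 : 100 * (X * nn P ^ 11) ≤ X * nn P ^ 12 := lad_step hN X 11
      have h3 : 100 * (X * nn P ^ 10) ≤ X * nn P ^ 11 := lad_step hN X 10
      simp only [Option.map_some, bx_some, bx_mk, bx_nat, rd_zero]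
      exact ⟨by omega, Bx.mono (cends_bx hpl) (lad_mono hN X (by norm_num))⟩
/-- second stage: `St.hom` at type `Option Hnt` (`gt_sum_nil` with `b0 = none`), `rd_map_enc`, `statH_bx` -/
theorem gt_com (E : Env P mem M) (hT : TopC P mem M n) (hL : Lv P M r X) (hr : 1 ≤ r) (hi : i ≤ X)
    (hc : bx (nn P) X c) (ht : t ≤ nn P) :
    GT P mem M n 20 (cCom r i c t) fun cm : Com =>
      bx (nn P) (X * nn P ^ 12) cm ∧ bx (nn P) (X * nn P ^ 8) cm.2.2.1 := by
  have h := E.good
  have hN := h.nn_big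
  have hNX := hL.N_le
  have hC : P.nC ≤ nn P ^ 3 := by
    have h1 := h.nC_nn
    have h2 := lad_pow hN
    omega
  unfold cCom
  refine GT.of_body' E (eqs_com P _) (Y := X) (by exact ⟨hL.r_nn h, hi, hc, ht.trans hNX⟩)
    ((lad_le hN X 1).trans_lt (hL.fit' h)) (Y' := X * nn P ^ 12) (fun _ hb => hb.1) (hL.fit' h) ?_
  refine Body.two (St.two E (gt_past E hT hL hi hc ht)
    (gt_fix E hT hL hr hi hc ((h.phs_mul_le_sz t).trans ht))) ?_
  rintro _ ⟨A, f, rfl, hA, hf⟩
  have hg : ∀ j, bx (nn P) (X * nn P ^ 8) (f.2.getD j []) := fun j => bx_getD hf.2 j bx_nil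
  simp only [comS2, comOut, rd_zero, rd_one]
  refine ⟨_, St.hom E (j := 20) (q := fun o : Option Hnt => bx (nn P) (X * nn P ^ 12) o) ?_
    (by simpa using hC), ?_⟩
  · intro k hk
    obtain ⟨j, -, rfl⟩ := List.mem_map.1 hk
    split_ifs
    · exact (gt_sum_nil E (b0 := (none : Option Hnt)) rfl).imp fun b hb => hb ▸ bx_none
    · exact gt_hint E hT hL hr hi hc (sclC_le h hc j) (hg j) ht
  · rintro _ ⟨l, rfl, -, hl⟩
    refine ⟨_, rfl, ⟨Bx.mono hA (lad_mono hN X (by norm_num)),
      Bx.mono hf.1 (lad_mono hN X (by norm_num)), Bx.mono hf.2 (lad_mono hN X (by norm_num)),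
      by simpa using hC, fun o ho => ?_⟩, hf.2⟩
    obtain ⟨j, -, rfl⟩ := List.mem_map.1 ho
    split_ifs
    · exact statH_bx h (hg j)
    · exact rd_map_enc (q := fun o : Option Hnt => bx (nn P) (X * nn P ^ 12) o) hl bx_none j
end Crest.Agent.R288.Sz
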