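import Crest.Agent.R288.ValidA

/-!
# R288: validity of all values
-/

set_option autoImplicit false

namespace Crest.Agent.R288

open RT

namespace Model

variable {M : Model} {P : Par}

theorem valid_R (h : M.Ok P) (n : ℕ) : n ≤ 2 ^ P.kR * n :=
  Nat.le_mul_of_pos_left _ (by positivity)

theorem valid_leaf (h : M.Ok P) {i : ℕ} {s : ℤ × ℤ} (hF : ¬ M.Fr P 0 i s ≤ P.F0) :
    M.Fr P 0 i s ≤ (s.2 - s.1).natAbs + 1 ∧ (s.2 - s.1).natAbs + 1 ≤ 2 ^ P.kR * M.Fr P 0 i s := by
  have h1 := h.fok.up (0 * P.L) i s.1 s.2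
  have h2 := h.fok.disp (0 * P.L) i s.1 s.2
  have h3 := h.good.ll_kR
  have h4 := h.good.aux_ll_ne
  have h5 : 2 ^ 1 ≤ 2 ^ P.kR := Nat.pow_le_pow_right (by norm_num) (by omega)
  have h6 := Nat.mul_le_mul_right (M.Fr P 0 i s) h5
  unfold Fr at *
  simp only [Nat.zero_mul, pow_zero] at *
  omega

theorem valid_wnd (h : M.Ok P) {t : ℕ} (ht : P.T0 < t) {k : ℕ} (hk : k < P.T0) : wnd P (phs P t) k < t := by
  obtain ⟨e, h1, -⟩ := eq_rd0 h.good ht
  have h2 := wnd_le (P := P) h1 hk
  unfold rd0 at e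
  omega

theorem valid_sroot (h : M.Ok P) {r t : ℕ} (hr : 1 ≤ r) (hrH : r ≤ P.H) (ht : P.T0 < t)
    (hv : M.VS P (r - 1) t) {i : ℕ} {s : ℤ × ℤ} {σ : ℕ} {pl : Plan} (hpl : M.PlanOk P r i s σ pl)
    (s' : ℤ × ℤ) (e : ℕ) :
    ((M.sroot P r i pl t).avg e).All fun v => M.Fr P r i s' ≤ v + junc P pl s'.1 s'.2 := by
  have h1 : (M.sroot P r i pl t).All fun v => M.Fr P r i s' - junc P pl s'.1 s'.2 ≤ v :=
    (sroot_valid h hr hrH ht hv hpl).mono fun v hv => by have := hv.2 s'; omega
  exact (All_avg_ge h1 e).mono fun v hv => by omega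

theorem valid_getD {α β : Type} {p : α → β → Prop} {l : List α} {l' : List β} (h : List.Forall₂ p l l')
    {k : ℕ} (hk : k < l.length) (d : β) : p l[k] (l'.getD k d) := by
  have h1 := h.length_eq
  rw [List.getD_eq_getElem _ _ (h1 ▸ hk)]
  exact List.Forall₂.get h hk (h1 ▸ hk)

theorem valid_range {β : Type} {p : ℕ → β → Prop} {n : ℕ} {l' : List β}
    (h : List.Forall₂ p (List.range n) l') {k : ℕ} (hk : k < n) (d : β) : p k (l'.getD k d) := by
  have := valid_getD h (k := k) (by simpa using hk) d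
  simpa using this

theorem valid_past (h : M.Ok P) {r t : ℕ} (ht : P.T0 < t) (h1 : M.VN P r (t - 1))
    (h1' : P.T0 < t - 1 → M.VS P r (t - 1)) {i : ℕ} {c : Ctx} (hc : M.Cert P r i c) :
    (M.past P r i c t).All fun zs => List.Forall₂
      (fun s v => M.Fr P r i s ≤ v ∧ v ≤ 2 ^ P.kR * M.Fr P r i s) (om c) zs := by
  rw [past, All_bind]
  refine (All_seq_map (om c) _ (fun s v => M.Fr P r i s ≤ v ∧ v ≤ 2 ^ P.kR * M.Fr P r i s)
    fun s _ => All_avg (h1 i s) _).mono fun A hA => ?_
  rw [All_map]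
  have hB : (seq (if nIn P t = 0 then [] else (om c).map fun s => M.est P r i s (some c) (t - 1))).All
      fun B => ∀ k (hk : k < (om c).length) d, M.Fr P r i (om c)[k] ≤ d → M.Fr P r i (om c)[k] ≤ B.getD k d := by
    split_ifs with h0
    · intro k hk d hd
      simpa using hd
    · obtain ⟨e, h2, -⟩ := eq_rd0 h.good ht
      have h3 : P.T0 ≤ phs P t * P.T0 := Nat.le_mul_of_pos_left _ h2
      have h4 : P.T0 < t - 1 := by
        unfold rd0 at e
        omega
      refine (All_seq_map (om c) _ (fun s v => M.Fr P r i s ≤ v) fun s hs =>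
        All_avg_ge ((h1' h4 i s c hc hs).mono fun v hv => hv.1) _).mono fun B hB k hk d _ => ?_
      exact valid_getD hB hk d
  refine hB.mono fun B hB => ?_
  have hl := hA.length_eq
  refine List.forall₂_of_length_eq_of_get (by simp [pastOut, hl]) fun k hk hk' => ?_
  have h2 := valid_getD hA hk 0
  have h3 := hB k hk _ h2.1
  simp only [pastOut, List.get_eq_getElem, List.getElem_map, List.getElem_range]
  exact ⟨le_min h2.1 h3, (min_le_left _ _).trans h2.2⟩

theorem valid_zip {α : Type} {p : α → ℕ → Prop} {l : List α} {l' : List ℕ} (h : List.Forall₂ p l l')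
    (g : α → ℕ → Option ℕ) :
    (∀ o ∈ List.zipWith g l l', ∃ a v, p a v ∧ o = g a v) ∧
      ∀ a ∈ l, ∃ v, p a v ∧ g a v ∈ List.zipWith g l l' := by
  induction h with
  | nil => simp
  | @cons a v l l' hav _ ih =>
    refine ⟨fun o ho => ?_, fun b hb => ?_⟩
    · rcases List.mem_cons.1 ho with rfl | ho
      · exact ⟨a, v, hav, rfl⟩
      · exact ih.1 o ho
    · rcases List.mem_cons.1 hb with rfl | hb
      · exact ⟨v, hav, List.mem_cons_self⟩
      · obtain ⟨w, hw, hm⟩ := ih.2 b hb
        exact ⟨w, hw, List.mem_cons_of_mem _ hm⟩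

/-- Cases of `Ok.top`; `wnd P (phs P t) k ≤ t - 1`. -/
theorem vn_step (h : M.Ok P) {r t : ℕ} (hrH : r ≤ P.H) (h1 : ∀ t' < t, ∀ r' ≤ P.H, M.VN P r' t')
    (h2 : 1 ≤ r → P.T0 < t → M.VS P (r - 1) t) : M.VN P r t := by
  intro i s
  rw [h.top r hrH i s none t (by simp) (by simp [radc])]
  split_ifs with hF hr
  · exact ⟨le_rfl, valid_R h _⟩
  · subst hr
    exact valid_leaf h hF
  have hr1 : 1 ≤ r := Nat.one_le_iff_ne_zero.2 hr
  simp only [Option.elim, topN]
  by_cases ht : t = 0
  · rw [if_pos ht]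
    exact (h.orc r hrH i s (by omega)).mono fun v hv => ⟨hv.1, hv.2.1⟩
  rw [if_neg ht, All_bind]
  refine (All_avg (h1 (t - 1) (by omega) r hrH i s) _).mono fun C hC => ?_
  rw [All_map]
  refine (All_seq _ (fun o => ∀ v, o = some v → M.Fr P r i s ≤ v) fun u hu => ?_).mono fun l hl =>
    ⟨le_omin hC.1 fun v hv => hl.2 _ hv v rfl, (omin_le_init _ _).trans hC.2⟩
  rcases List.mem_append.1 hu with hu | hu
  · obtain ⟨j, -, rfl⟩ := List.mem_map.1 hu
    rw [All_map]
    refine (gval_valid h hr1 (h1 (t - 1) (by omega) (r - 1) (by omega)) i s _).mono fun v hv w e => ?_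
    exact Option.some.inj e ▸ hv
  · split_ifs at hu with hT
    · obtain ⟨j, -, rfl⟩ := List.mem_map.1 hu
      rw [sval, All_bind]
      refine (plan_valid h (fun k hk => h1 _ (valid_wnd h hT hk) (r - 1) (by omega)) i s _).mono
        fun o ho => ?_
      cases o with
      | none => intro v e; exact absurd e (by simp)
      | some pl =>
        simp only [Option.elim]
        rw [All_map]
        refine (valid_sroot h hr1 hrH hT (h2 hr1 hT) (ho pl rfl) s _).mono fun v hv w e => ?_
        exact Option.some.inj e ▸ hv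
    · exact absurd hu (by simp)

/-- `comVal ≤ cap`, `comVal ≤` the past value of `s` itself; all entries of the minimum are `≥ F`. -/
theorem vs_step (h : M.Ok P) {r t : ℕ} (hrH : r ≤ P.H) (ht : P.T0 < t)
    (h1 : ∀ t' < t, ∀ r' ≤ P.H, M.VN P r' t') (h1' : P.T0 < t - 1 → M.VS P r (t - 1))
    (h2 : 1 ≤ r → M.VS P (r - 1) t) : M.VS P r t := by
  intro i s c hc hs
  rw [h.top r hrH i s (some c) t (fun _ => ht) (hc.radc_le h.good)]
  have hcap := hc.2 s hs
  split_ifs with hF hr
  · exact ⟨le_rfl, hcap, valid_R h _⟩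
  · subst hr
    have := valid_leaf h hF
    exact ⟨le_min this.1 hcap, min_le_right _ _, (min_le_left _ _).trans this.2⟩
  have hr1 : 1 ≤ r := Nat.one_le_iff_ne_zero.2 hr
  simp only [Option.elim, topS, com]
  rw [All_bind, All_bind]
  refine (valid_past h ht (h1 (t - 1) (by omega) r hrH) h1' hc).mono fun zs hzs => ?_
  rw [All_bind]
  refine (fix_valid h (fun k hk => h1 _ (valid_wnd h ht hk) (r - 1) (by omega)) i c).mono fun f hf => ?_
  rw [All_map]
  refine (All_seq_map (List.range P.nC) _ (fun _ oh => ∀ g, oh = some g → M.Fr P r i s ≤ hval s g)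
    fun j hj => (hintj_valid h hr1 (h2 hr1) (hf.2 j (List.mem_range.1 hj))).mono
      fun oh ho g e => (ho.2 g e).1 s).mono fun hs' hhs => ?_
  rw [All_map]
  refine (All_seq_map (List.range P.nC) _
    (fun j x => ∀ pl, own c s (zs, f.1, f.2, hs') j = some pl → M.Fr P r i s ≤ x + junc P pl s.1 s.2)
    fun j hj => ?_).mono fun xs hxs => ?_
  · cases e : own c s (zs, f.1, f.2, hs') j with
    | none => intro pl e'; exact absurd e' (by simp)
    | some pl =>
      have hm : some pl ∈ f.2.getD j [] := by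
        have e' : (f.2.getD j []).getD ((om c).idxOf s) none = some pl := e
        by_cases hk : (om c).idxOf s < (f.2.getD j []).length
        · rw [List.getD_eq_getElem _ _ hk] at e'
          exact e' ▸ List.getElem_mem hk
        · rw [List.getD_eq_default _ _ (by omega)] at e'
          exact absurd e' (by simp)
      obtain ⟨-, s', -, hpl⟩ := hf.2 j (List.mem_range.1 hj) pl hm
      refine (valid_sroot h hr1 hrH ht (h2 hr1) hpl s _).mono fun v hv pl' e' => ?_
      exact Option.some.inj e' ▸ hv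
  · obtain ⟨z1, z2⟩ := valid_zip hzs fun s' z => some (z + dist1 s s')
    refine ⟨le_omin (le_omin (le_omin hcap fun v hv => ?_) fun v hv => ?_) fun v hv => ?_,
      (omin_le_init _ _).trans ((omin_le_init _ _).trans (omin_le_init _ _)), ?_⟩
    · obtain ⟨s', z, hz, e⟩ := z1 _ hv
      have h3 := Fr_lip (M := M) (P := P) h.fok r i s s'
      have h4 := Option.some.inj e
      omega
    · obtain ⟨oh, hm, e⟩ := List.mem_map.1 hv
      obtain ⟨g, e1, rfl⟩ := Option.map_eq_some_iff.1 e
      obtain ⟨k, hk, rfl⟩ := List.getElem_of_mem hm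
      have h3 := valid_range hhs (k := k) (by simpa [← hhs.length_eq] using hk) none
      rw [List.getD_eq_getElem _ _ hk] at h3
      exact h3 g e1
    · obtain ⟨j, hj, e⟩ := List.mem_map.1 hv
      obtain ⟨pl, e1, e2⟩ := Option.bind_eq_some_iff.1 e
      obtain ⟨g, -, rfl⟩ := Option.map_eq_some_iff.1 e2
      exact (valid_range hxs (List.mem_range.1 hj) 0 pl e1).trans (le_max_left _ _)
    · obtain ⟨z, hz, hm⟩ := z2 s hs
      refine (omin_le_init _ _).trans ((omin_le_init _ _).trans ((omin_le hm).trans ?_))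
      rw [dist1_self, add_zero]
      exact hz.2

theorem valid (h : M.Ok P) (t : ℕ) : ∀ r ≤ P.H, M.VN P r t ∧ (P.T0 < t → M.VS P r t) := by
  induction t using Nat.strong_induction_on with
  | _ t iht =>
    intro r
    induction r with
    | zero =>
      intro hr
      exact ⟨vn_step h hr (fun t' ht' r' hr' => (iht t' ht' r' hr').1) (fun h0 => absurd h0 (by omega)),
        fun ht => vs_step h hr ht (fun t' ht' r' hr' => (iht t' ht' r' hr').1)
          (iht (t - 1) (by omega) 0 hr).2 fun h0 => absurd h0 (by omega)⟩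
    | succ r ihr =>
      intro hr
      have h0 := (ihr (by omega)).2
      exact ⟨vn_step h hr (fun t' ht' r' hr' => (iht t' ht' r' hr').1) (fun _ ht => h0 ht),
        fun ht => vs_step h hr ht (fun t' ht' r' hr' => (iht t' ht' r' hr').1)
          (iht (t - 1) (by omega) _ hr).2 fun _ => h0 ht⟩

theorem vn (h : M.Ok P) {r : ℕ} (hr : r ≤ P.H) (t : ℕ) : M.VN P r t := (valid h t r hr).1

theorem vs (h : M.Ok P) {r : ℕ} (hr : r ≤ P.H) {t : ℕ} (ht : P.T0 < t) : M.VS P r t :=
  (valid h t r hr).2 ht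

end Model

end Crest.Agent.R288
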