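import Crest.Agent.R288.PlanA
import Crest.Agent.R288.RTa

/-!
# R288: validity of all values, step lemmas
-/

set_option autoImplicit false

namespace Crest.Agent.R288

open RT

namespace Model

variable (M : Model) (P : Par)

/-- Values without context are valid. -/
def VN (r t : ℕ) : Prop := ∀ i s, (M.top r i s none t).All fun v =>
  M.Fr P r i s ≤ v ∧ v ≤ 2 ^ P.kR * M.Fr P r i s

/-- Values in certified contexts are valid. -/
def VS (r t : ℕ) : Prop := ∀ i s c, M.Cert P r i c → s ∈ om c → (M.top r i s (some c) t).All fun v =>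
  M.Fr P r i s ≤ v ∧ v ≤ cap P c ∧ v ≤ 2 ^ P.kR * M.Fr P r i s

/-- What the time-independent data of a context satisfy. -/
def FixOk (r i : ℕ) (c : Ctx) (f : ℕ × List (List (Option Plan))) : Prop :=
  16 * cw c ≤ f.1 ∧ ∀ j < P.nC, M.PlsOk P r i c j (f.2.getD j [])

variable {M P}

theorem valida_getD {B : Type} {R : ℕ → B → Prop} {n : ℕ} {l : List B} (h : List.Forall₂ R (List.range n) l)
    {j : ℕ} (hj : j < n) (d : B) : R j (l.getD j d) := by
  have h1 := h.length_eq
  rw [List.length_range] at h1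
  have h2 := List.forall₂_iff_get.1 h |>.2 j (by simpa using hj) (h1 ▸ hj)
  rw [List.getD_eq_getElem _ _ (h1 ▸ hj)]
  simpa using h2

theorem valida_mem {A B : Type} {R : A → B → Prop} {l : List A} {m : List B} (h : List.Forall₂ R l m)
    {b : B} (hb : b ∈ m) : ∃ a ∈ l, R a b := by
  induction h with
  | nil => simp at hb
  | cons hab _ ih =>
    rcases List.mem_cons.1 hb with rfl | hb
    · exact ⟨_, List.mem_cons_self, hab⟩
    · obtain ⟨a, ha, h⟩ := ih hb
      exact ⟨a, List.mem_cons_of_mem _ ha, h⟩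

theorem valida_sum {A : Type} {f g : A → ℕ} {l : List A} {m : List ℕ}
    (h : List.Forall₂ (fun a v => f a ≤ v ∧ v ≤ g a) l m) : (l.map f).sum ≤ m.sum ∧ m.sum ≤ (l.map g).sum := by
  induction h with
  | nil => simp
  | cons hab _ ih =>
    simp only [List.map_cons, List.sum_cons]
    omega

theorem valida_L {r : ℕ} (hr : 1 ≤ r) : (r - 1) * P.L + P.L = r * P.L := by
  obtain ⟨r, rfl⟩ := Nat.exists_eq_add_of_le' hr
  rw [Nat.add_sub_cancel, add_mul, one_mul]

theorem tab_valid {r t : ℕ} (hv : M.VN P (r - 1) t) (i : ℕ) (Zs : List ℤ) :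
    (M.tab P r i Zs t).All (TabRel Zs P.b fun j z1 z2 v =>
      M.Fr P (r - 1) (i * P.b + j) (z1, z2) ≤ v) := by
  unfold tab TabRel
  refine All_seq_map _ _ _ fun j _ => All_seq_map _ _ _ fun z1 _ => All_seq_map _ _ _ fun z2 _ => ?_
  exact All_avg_ge ((hv _ _).mono fun v h => h.1) _

/-- `gR_le_gN`, `FOk.le_gR`. -/
theorem gval_valid (h : M.Ok P) {r t : ℕ} (hr : 1 ≤ r) (hv : M.VN P (r - 1) (t - 1)) (i : ℕ) (s : ℤ × ℤ)
    (σ : ℕ) : (M.gval P r i s σ t).All fun v => M.Fr P r i s ≤ v := by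
  unfold gval
  rw [All_map]
  refine (tab_valid hv i _).mono fun tb htb => ?_
  have h1 := gR_le_gN (W := fun j a c => (M.F ((r - 1) * P.L) (i * 2 ^ P.L + j) a c : ℝ))
    (htb.mono fun j _ z1 _ z2 _ v hv' => by
      rw [← h.good.b_eq]
      exact_mod_cast hv') (js := List.range P.b) (fun j hj => List.mem_range.1 hj) s.1 s.2
  have h2 := h.fok.le_gR (W := fun j a c => (M.F ((r - 1) * P.L) (i * 2 ^ P.L + j) a c : ℝ))
    (zgrid_ne_nil P s.1 σ) ((r - 1) * P.L) P.L i (hb := P.L) (p := 0) le_rfl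
    (fun _ _ _ _ _ _ => le_rfl) s.1 s.2
  rw [valida_L hr, Nat.sub_self, pow_zero, mul_one, add_zero, blk, zero_mul, ← List.range_eq_range',
    ← h.good.b_eq] at h2
  rw [← h.good.b_eq] at h1
  exact_mod_cast h2.trans h1

theorem plan_valid (h : M.Ok P) {r φ : ℕ} (hv : ∀ k < P.T0, M.VN P (r - 1) (wnd P φ k)) (i : ℕ)
    (s : ℤ × ℤ) (σ : ℕ) :
    (M.plan P r i s σ φ).All fun o => ∀ pl, o = some pl → M.PlanOk P r i s σ pl := by
  unfold plan tabs
  rw [All_map]
  refine (All_seq _ (TabRel (zgrid P s.1 σ) P.b fun j z1 z2 v =>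
      M.Fr P (r - 1) (i * P.b + j) (z1, z2) ≤ v) fun u hu => ?_).mono fun tb htb pl hpl => ?_
  · obtain ⟨k, hk, rfl⟩ := List.mem_map.1 hu
    exact tab_valid (hv k (List.mem_range.1 hk)) i _
  · exact planOk_of h.good h.fok (by simpa using htb.1) htb.2 hpl

/-- Induction on `hb`, then on `q`. -/
theorem sn_valid (h : M.Ok P) {r t : ℕ} (hr : 1 ≤ r) (hrH : r ≤ P.H) (ht : P.T0 < t)
    (hv : M.VS P (r - 1) t) {i : ℕ} {s : ℤ × ℤ} {σ : ℕ} {pl : Plan} (hpl : M.PlanOk P r i s σ pl)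
    {hb p : ℕ} (hhb : hb ≤ P.L) (hp : p < 2 ^ (P.L - hb)) {s' : ℤ × ℤ}
    (h1 : InW P σ pl (p * 2 ^ hb) s'.1) (h2 : InW P σ pl ((p + 1) * 2 ^ hb) s'.2) {k0 q : ℕ}
    (hq : q ≤ P.mb) (hk : k0 + 2 ^ q ≤ 2 ^ P.mb) :
    (M.sn r i pl hb p s' k0 q t).All fun v =>
      M.F ((r - 1) * P.L + hb) (i * 2 ^ (P.L - hb) + p) s'.1 s'.2 ≤ v ∧
        v ≤ omg P pl hb p * 2 ^ P.kx := by
  induction hb generalizing p s' k0 q with
  | zero =>
    rw [h.sn r hr hrH i pl 0 hhb p s' k0 q hq t ht, sn', if_pos rfl]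
    simp only [pow_zero, mul_one, Nat.sub_zero, add_zero] at hp h1 h2 ⊢
    rw [← h.good.b_eq] at hp ⊢
    refine (hv _ _ _ (hpl.cert p hp) (hpl.mem_om h.good hp h1 h2)).mono fun v hv' => ⟨hv'.1, ?_⟩
    rw [omg_zero h.good, ← cap_eq h.good]
    exact hv'.2.1
  | succ hb ih =>
    induction q generalizing k0 with
    | zero =>
      rw [h.sn r hr hrH i pl _ hhb p s' k0 0 hq t ht, sn', if_neg (Nat.succ_ne_zero hb), if_pos rfl,
        Nat.add_sub_cancel]
      have e : 2 ^ (P.L - hb) = 2 * 2 ^ (P.L - (hb + 1)) := by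
        rw [show P.L - hb = P.L - (hb + 1) + 1 by omega, pow_succ']
      have hm := hpl.inW_optz h.good (Nat.le_add_left 1 hb) hhb hp (k0 := k0) (by simpa using hk)
      rw [Nat.add_sub_cancel] at hm
      have a1 := ih (p := 2 * p) (s' := (s'.1, optz P pl (hb + 1) p k0)) (k0 := 0) (q := P.mb) (by omega)
        (by omega) (by rwa [show 2 * p * 2 ^ hb = p * 2 ^ (hb + 1) by ring]) hm le_rfl (by omega)
      have a2 := ih (p := 2 * p + 1) (s' := (optz P pl (hb + 1) p k0, s'.2)) (k0 := 0) (q := P.mb) (by omega)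
        (by omega) hm (by rwa [show (2 * p + 1 + 1) * 2 ^ hb = (p + 1) * 2 ^ (hb + 1) by ring]) le_rfl (by omega)
      rw [All_bind]
      refine a1.mono fun v1 b1 => ?_
      rw [All_map]
      refine a2.mono fun v2 b2 => ?_
      have b3 := h.fok.sub ((r - 1) * P.L + hb) (i * 2 ^ (P.L - (hb + 1)) + p) s'.1 s'.2 (optz P pl (hb + 1) p k0)
      rw [show 2 * (i * 2 ^ (P.L - (hb + 1)) + p) = i * 2 ^ (P.L - hb) + 2 * p by rw [e]; ring,
        add_assoc (i * _), add_assoc] at b3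
      rw [omg_succ h.good pl (by omega), add_mul]
      dsimp only at b1 b2
      omega
    | succ q ihq =>
      rw [h.sn r hr hrH i pl _ hhb p s' k0 _ hq t ht, sn', if_neg (Nat.succ_ne_zero hb),
        if_neg (Nat.succ_ne_zero q), All_bind]
      refine All_of_forall _ fun a1 => ?_
      rw [All_bind]
      refine All_of_forall _ fun a2 => ?_
      rw [All_bind]
      refine All_of_forall _ fun u => ?_
      rw [opt, Nat.add_sub_cancel]
      rw [pow_succ] at hk
      refine ihq (by omega) ?_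
      split_ifs <;> omega

theorem sroot_valid (h : M.Ok P) {r t : ℕ} (hr : 1 ≤ r) (hrH : r ≤ P.H) (ht : P.T0 < t)
    (hv : M.VS P (r - 1) t) {i : ℕ} {s : ℤ × ℤ} {σ : ℕ} {pl : Plan} (hpl : M.PlanOk P r i s σ pl) :
    (M.sroot P r i pl t).All fun v => v ≤ σ ∧ ∀ s', M.Fr P r i s' ≤ v + junc P pl s'.1 s'.2 := by
  have hp : 0 < 2 ^ (P.L - P.L) := by positivity
  have a := sn_valid h hr hrH ht hv hpl (hb := P.L) (p := 0) le_rfl hp (s' := (pz pl 0, pz pl P.b))
    (by rw [zero_mul]; exact hpl.inW_pz (Nat.zero_le _))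
    (by rw [zero_add, one_mul, ← h.good.b_eq]; exact hpl.inW_pz le_rfl) (k0 := 0) (q := P.mb) le_rfl (by omega)
  refine a.mono fun v hv' => ⟨hv'.2.trans (hpl.omg_le h.good le_rfl hp), fun s' => ?_⟩
  have b1 := hv'.1
  rw [valida_L hr, Nat.sub_self, pow_zero, mul_one, add_zero] at b1
  exact (Fr_lip h.fok r i s' (pz pl 0, pz pl P.b)).trans (Nat.add_le_add_right b1 _)

theorem fix_valid (h : M.Ok P) {r φ : ℕ} (hv : ∀ k < P.T0, M.VN P (r - 1) (wnd P φ k)) (i : ℕ)
    (c : Ctx) : (M.fix P r i c φ).All (M.FixOk P r i c) := by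
  unfold fix
  rw [All_bind]
  refine All_of_forall _ fun rows => ?_
  rw [All_map]
  refine (All_seq_map _ _ (fun j row => List.Forall₂ (fun s o => ∀ pl, o = some pl →
    M.PlanOk P r i s (sclC P c j) pl) (om c) row) fun j _ =>
      All_seq_map _ _ _ fun s _ => plan_valid h hv i s _).mono fun pls hpls => ?_
  refine ⟨Nat.le_add_left _ _, fun j hj pl hpl => ?_⟩
  have e : (fixOut P c rows pls).2.getD j [] = (pls.getD j []).map fun o =>
      o.bind fun pl => if usable P c j pl = true then some pl else none := by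
    simp [fixOut, List.getD_eq_getElem?_getD, hj]
  rw [e] at hpl
  obtain ⟨o, ho, e'⟩ := List.mem_map.1 hpl
  obtain ⟨s', hs', hok⟩ := valida_mem (valida_getD hpls hj []) ho
  cases o with
  | none => simp at e'
  | some pl' =>
    simp only [Option.bind_some] at e'
    split_ifs at e' with hu
    obtain rfl := Option.some.inj e'
    exact ⟨hu, s', hs', hok _ rfl⟩

theorem cent_valid (h : M.Ok P) {r t : ℕ} (hv : M.VS P (r - 1) t) {i : ℕ} {s : ℤ × ℤ} {σ : ℕ}
    {pl : Plan} (hpl : M.PlanOk P r i s σ pl) :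
    (M.cent P r i pl t).All fun v => ((List.range P.b).map fun j =>
      M.Fr P (r - 1) (i * P.b + j) ((pc pl j).1, (pc pl j).2.1)).sum ≤ v ∧ v ≤ σ := by
  unfold cent
  rw [All_map]
  refine (All_seq_map _ _ (fun j v => M.Fr P (r - 1) (i * P.b + j) ((pc pl j).1, (pc pl j).2.1) ≤ v ∧
    v ≤ cap P (pc pl j)) fun j hj => ?_).mono fun l hl => ?_
  · exact (hv _ _ _ (hpl.cert j (List.mem_range.1 hj)) (center_mem_om _)).mono fun v hv' => ⟨hv'.1, hv'.2.1⟩
  · exact ⟨(valida_sum hl).1, (valida_sum hl).2.trans hpl.caps⟩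

/-- A hint comes from one of the plans; it exists if there is a plan. -/
theorem hintj_valid (h : M.Ok P) {r t : ℕ} (hr : 1 ≤ r) (hv : M.VS P (r - 1) t) {i : ℕ} {c : Ctx} {j : ℕ}
    {pls : List (Option Plan)} (hp : M.PlsOk P r i c j pls) :
    (M.hintj P r i c j pls t).All fun oh => ((∃ pl, some pl ∈ pls) → oh ≠ none) ∧
      ∀ g, oh = some g → (∀ s, M.Fr P r i s ≤ hval s g) ∧
        ∃ pl, some pl ∈ pls ∧ g.2 = cends P pl ∧ g.1 ≤ sclC P c j + cjunc P pl := by
  have hmem : ∀ pl, pl ∈ pls.filterMap id ↔ some pl ∈ pls := fun pl => by simp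
  unfold hintj
  split_ifs with hj
  · rw [All_pure]
    refine ⟨fun ⟨pl, hpl⟩ h0 => ?_, fun g hg => ?_⟩
    · rw [statH, Option.map_eq_none_iff, List.head?_eq_none_iff] at h0
      have := (hmem pl).2 hpl
      rw [h0] at this
      simp at this
    · rw [statH, Option.map_eq_some_iff] at hg
      obtain ⟨pl, h1, rfl⟩ := hg
      have h2 := (hmem pl).1 (List.mem_of_mem_head? h1)
      obtain ⟨-, s', -, hok⟩ := hp pl h2
      refine ⟨fun s => (Fr_le_cent h.good h.fok hr i pl s).trans ?_, pl, h2, rfl, Nat.add_le_add_right hok.caps _⟩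
      refine Nat.add_le_add_right (Nat.add_le_add_right (List.sum_le_sum fun k hk => ?_) _) _
      exact (hok.cert k (List.mem_range.1 hk)).2 _ (center_mem_om _)
  · unfold hint
    rw [All_bind]
    refine All_of_forall _ fun ds => ?_
    cases hs : selP P c (sclC P c j) pls ds with
    | none =>
      rw [Option.elim_none, All_pure]
      refine ⟨fun ⟨pl, hpl⟩ _ => ?_, fun g hg => by simp at hg⟩
      rw [selP, List.argmin_eq_none] at hs
      have := (hmem pl).2 hpl
      rw [hs] at this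
      simp at this
    | some pl =>
      rw [Option.elim_some, All_map]
      have h2 := (hmem pl).1 (List.argmin_mem hs)
      obtain ⟨-, s', -, hok⟩ := hp pl h2
      refine (All_avg (cent_valid h hv hok) _).mono fun v hv' => ⟨fun _ => by simp, fun g hg => ?_⟩
      obtain rfl := Option.some.inj hg
      refine ⟨fun s => (Fr_le_cent h.good h.fok hr i pl s).trans ?_, pl, h2, rfl, Nat.add_le_add_right hv'.2 _⟩
      exact Nat.add_le_add_right (Nat.add_le_add_right hv'.1 _) _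

end Model

end Crest.Agent.R288
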